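import Vale.Agent.P024U.Defs

/-! `t`-adic logarithm, Teichmueller character, cyclotomic character.  For odd `t` and `y ≡ 1 mod t`,
`‖y^t - 1‖ = ‖y - 1‖ / t`, and `a_k = (y^(t^k) - 1)/t^k` satisfies `‖a_(k+1) - a_k‖ ≤ t^(-k) ‖y-1‖`... is Cauchy.
Use `cyclotomicCharacter.spec`, `cyclotomicCharacter.continuous`, `PadicInt.ker_toZModPow`,
`PadicInt.norm_le_pow_iff_mem_span_pow`, `IsPrimitiveRoot` (`HasEnoughRootsOfUnity Om n`). -/

namespace Vale.Agent.P024U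
open Filter Topology

variable {t : ℕ} [Fact t.Prime]

theorem plog_mod {a b : ℤ_[t]} : PadicInt.toZMod a = PadicInt.toZMod b ↔ (t : ℤ_[t]) ∣ a - b := by
  rw [← sub_eq_zero, ← map_sub, ← RingHom.mem_ker, PadicInt.ker_toZMod,
    PadicInt.maximalIdeal_eq_span_p, Ideal.mem_span_singleton]

theorem plog_modpow {n : ℕ} {a b : ℤ_[t]} :
    PadicInt.toZModPow n a = PadicInt.toZModPow n b ↔ (t : ℤ_[t]) ^ n ∣ a - b := by
  rw [← sub_eq_zero, ← map_sub, ← RingHom.mem_ker, PadicInt.ker_toZModPow,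
    Ideal.mem_span_singleton]

theorem plog_fermat (x : ℤ_[t]ˣ) : (t : ℤ_[t]) ∣ (x : ℤ_[t]) ^ (t - 1) - 1 := by
  rw [← plog_mod, map_pow, map_one]
  exact ZMod.pow_card_sub_one_eq_one (x.isUnit.map PadicInt.toZMod).ne_zero

theorem plog_norm_le {a : ℤ_[t]} {k : ℕ} (h : (t : ℤ_[t]) ^ k ∣ a) : ‖a‖ ≤ (t : ℝ)⁻¹ ^ k := by
  obtain ⟨c, rfl⟩ := h
  rw [norm_mul, norm_pow, PadicInt.norm_p]
  exact mul_le_of_le_one_right (by positivity) c.norm_le_one

theorem plog_inv_lt : (t : ℝ)⁻¹ < 1 :=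
  inv_lt_one_of_one_lt₀ (by exact_mod_cast (Fact.out : t.Prime).one_lt)

theorem plog_step (ht : t ≠ 2) {w : ℤ_[t]} (hw : (t : ℤ_[t]) ∣ w - 1) :
    ∃ u : ℤ_[t], w ^ t - 1 = t * (w - 1) * u ∧ ‖u‖ = 1 ∧ (t : ℝ)⁻¹ * ‖u - 1‖ ≤ ‖w - 1‖ := by
  obtain ⟨b, hb⟩ := hw
  obtain ⟨c, hc⟩ := odd_sq_dvd_geom_sum₂_sub (1 : ℤ_[t]) b ((Fact.out : t.Prime).odd_of_ne_two ht)
  simp only [one_pow, mul_one, ← hb, add_sub_cancel] at hc
  refine ⟨1 + t * c, ?_, ?_, ?_⟩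
  · rw [← geom_sum_mul]
    linear_combination (w - 1) * hc
  · have h1 : ‖(t : ℤ_[t]) * c‖ < 1 := (PadicInt.norm_lt_one_iff_dvd _).2 (dvd_mul_right _ _)
    rw [PadicInt.norm_add_eq_max_of_ne (by rw [norm_one]; exact h1.ne'), norm_one, max_eq_left h1.le]
  · have h1 : w - 1 ∣ ∑ i ∈ Finset.range t, (w ^ i - 1) :=
      Finset.dvd_sum fun i _ => sub_one_dvd_pow_sub_one w i
    rw [Finset.sum_sub_distrib, Finset.sum_const, Finset.card_range, nsmul_eq_mul, mul_one,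
      hc] at h1
    obtain ⟨d, hd⟩ := h1
    rw [← PadicInt.norm_p, ← norm_mul, add_sub_cancel_left, ← mul_assoc, ← sq, hd, norm_mul]
    exact mul_le_of_le_one_right (norm_nonneg _) d.norm_le_one

theorem plog_dvd {y : ℤ_[t]} (hy : (t : ℤ_[t]) ∣ y - 1) (k : ℕ) : (t : ℤ_[t]) ∣ y ^ k - 1 :=
  hy.trans (sub_one_dvd_pow_sub_one y k)

theorem plog_pow (ht : t ≠ 2) {y : ℤ_[t]} (hy : (t : ℤ_[t]) ∣ y - 1) (k : ℕ) :
    ‖y ^ t ^ k - 1‖ = (t : ℝ)⁻¹ ^ k * ‖y - 1‖ := by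
  induction k with
  | zero => simp
  | succ k ih =>
    obtain ⟨u, h1, h2, -⟩ := plog_step ht (plog_dvd hy (t ^ k))
    rw [pow_succ, pow_mul, h1, norm_mul, norm_mul, h2, ih, PadicInt.norm_p]
    ring

theorem plog_seq (ht : t ≠ 2) {y : ℤ_[t]} (hy : (t : ℤ_[t]) ∣ y - 1) (k : ℕ) :
    ‖((y : ℚ_[t]) ^ t ^ k - 1) / (t : ℚ_[t]) ^ k‖ = ‖y - 1‖ := by
  have h0 : (0 : ℝ) < t := by exact_mod_cast (Fact.out : t.Prime).pos
  have h1 : ‖(y : ℚ_[t]) ^ t ^ k - 1‖ = _ := plog_pow ht hy k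
  rw [norm_div, h1, norm_pow, Padic.norm_p, mul_div_cancel_left₀ _ (by positivity)]

theorem plog_tendsto (ht : t ≠ 2) (x : ℤ_[t]ˣ) :
    Tendsto (fun k : ℕ => ((((x : ℤ_[t]) : ℚ_[t]) ^ (t - 1)) ^ t ^ k - 1) / (t : ℚ_[t]) ^ k) atTop
      (𝓝 (plog t x)) := by
  simp only [plog, pow_mul]
  refine (cauchySeq_of_le_geometric (t : ℝ)⁻¹ t plog_inv_lt fun k => ?_).tendsto_limUnder
  have h0 : (0 : ℝ) < t := by exact_mod_cast (Fact.out : t.Prime).pos
  have h0' : (t : ℚ_[t]) ≠ 0 := by exact_mod_cast (Fact.out : t.Prime).ne_zero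
  have hy := plog_fermat x
  rw [← PadicInt.coe_pow]
  generalize (x : ℤ_[t]) ^ (t - 1) = y at hy
  obtain ⟨u, h1, -, h2⟩ := plog_step ht (plog_dvd hy (t ^ k))
  have h3 : ((y : ℚ_[t]) ^ t ^ k) ^ t - 1 = t * ((y : ℚ_[t]) ^ t ^ k - 1) * u :=
    congrArg Subtype.val h1
  have h4 : ((y : ℚ_[t]) ^ t ^ (k + 1) - 1) / (t : ℚ_[t]) ^ (k + 1) -
      ((y : ℚ_[t]) ^ t ^ k - 1) / (t : ℚ_[t]) ^ k =
      ((y : ℚ_[t]) ^ t ^ k - 1) / (t : ℚ_[t]) ^ k * ((u - 1 : ℤ_[t]) : ℚ_[t]) := by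
    rw [pow_succ t, pow_mul, h3]
    push_cast
    field_simp
    ring
  rw [dist_comm, dist_eq_norm, h4, norm_mul, plog_seq ht hy, PadicInt.padic_norm_e_of_padicInt]
  rw [plog_pow ht hy, inv_mul_le_iff₀ h0] at h2
  refine (mul_le_of_le_one_left (norm_nonneg _) (y - 1).norm_le_one).trans (h2.trans ?_)
  exact mul_le_mul_of_nonneg_left (mul_le_of_le_one_right (by positivity) (y - 1).norm_le_one) h0.le

theorem plog_mul (ht : t ≠ 2) (x y : ℤ_[t]ˣ) : plog t (x * y) = plog t x + plog t y := by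
  have h0 : (t : ℚ_[t]) ≠ 0 := by exact_mod_cast (Fact.out : t.Prime).ne_zero
  have h1 : Tendsto (fun k : ℕ => (t : ℚ_[t]) ^ k) atTop (𝓝 0) :=
    tendsto_pow_atTop_nhds_zero_of_norm_lt_one Padic.norm_p_lt_one
  have h2 := ((plog_tendsto ht x).add (plog_tendsto ht y)).add
    (h1.mul ((plog_tendsto ht x).mul (plog_tendsto ht y)))
  rw [zero_mul, add_zero] at h2
  refine tendsto_nhds_unique (plog_tendsto ht (x * y)) (h2.congr fun k => ?_)
  push_cast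
  rw [mul_pow, mul_pow]
  field_simp
  ring

theorem norm_plog (ht : t ≠ 2) (x : ℤ_[t]ˣ) : ‖plog t x‖ = ‖(x : ℤ_[t]) ^ (t - 1) - 1‖ := by
  refine tendsto_nhds_unique (plog_tendsto ht x).norm (tendsto_const_nhds.congr fun k => ?_)
  exact (plog_seq ht (plog_fermat x) k).symm

theorem plog_eq_zero (ht : t ≠ 2) (x : ℤ_[t]ˣ) : plog t x = 0 ↔ x ^ (t - 1) = 1 := by
  rw [← norm_eq_zero, norm_plog ht, norm_eq_zero, sub_eq_zero, ← Units.val_pow_eq_pow_val,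
    Units.val_eq_one]

theorem plog_teich (x : ℤ_[t]ˣ) :
    Tendsto (fun k : ℕ => (x : ℤ_[t]) ^ t ^ k) atTop (𝓝 (teich t x)) := by
  refine (cauchySeq_of_le_geometric (t : ℝ)⁻¹ (t : ℝ)⁻¹ plog_inv_lt fun k => ?_).tendsto_limUnder
  rw [dist_eq_norm, pow_succ' t, pow_mul, ← pow_succ']
  refine plog_norm_le (dvd_sub_pow_of_dvd_sub ?_ k)
  rw [← plog_mod, map_pow, ZMod.pow_card]

theorem teich_mul (x y : ℤ_[t]ˣ) : teich t (x * y) = teich t x * teich t y := by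
  refine tendsto_nhds_unique (plog_teich (x * y)) (((plog_teich x).mul (plog_teich y)).congr
    fun k => ?_)
  rw [Units.val_mul, mul_pow]

theorem teich_pow (x : ℤ_[t]ˣ) : teich t x ^ (t - 1) = 1 := by
  refine tendsto_nhds_unique ((plog_teich x).pow (t - 1)) ?_
  rw [tendsto_iff_norm_sub_tendsto_zero]
  refine squeeze_zero (fun _ => norm_nonneg _) (fun k => ?_)
    (tendsto_pow_atTop_nhds_zero_of_lt_one (by positivity) (plog_inv_lt (t := t)))
  have h1 := dvd_sub_pow_of_dvd_sub (plog_fermat x) k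
  rw [one_pow, ← pow_mul, mul_comm, pow_mul] at h1
  exact plog_norm_le ((pow_dvd_pow _ k.le_succ).trans h1)

theorem teich_mod (x : ℤ_[t]ˣ) : PadicInt.toZMod (teich t x) = PadicInt.toZMod (x : ℤ_[t]) := by
  obtain ⟨k, hk⟩ := (Metric.tendsto_nhds.1 (plog_teich x) 1 one_pos).exists
  rw [dist_eq_norm, PadicInt.norm_lt_one_iff_dvd, ← plog_mod, map_pow, ZMod.pow_card_pow] at hk
  exact hk.symm

theorem plog_coprime {x : ℤ_[t]} (h1 : PadicInt.toZMod x = 1) {n : ℕ} (hn : ¬ t ∣ n)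
    (h : x ^ n = 1) : x = 1 := by
  have h2 := geom_sum_mul x n
  rw [h, sub_self, mul_eq_zero, sub_eq_zero] at h2
  refine h2.resolve_left fun h3 => hn ?_
  have h4 := congrArg PadicInt.toZMod h3
  simp only [map_sum, map_pow, h1, one_pow, Finset.sum_const, Finset.card_range, nsmul_eq_mul,
    mul_one, map_zero] at h4
  exact (ZMod.natCast_eq_zero_iff _ _).1 h4

/-- a root of unity of order dividing `t - 1` is determined by its residue -/
theorem eq_one_of_pow_of_mod (x : ℤ_[t]) (h : x ^ (t - 1) = 1) (h1 : PadicInt.toZMod x = 1) :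
    x = 1 := by
  have h2 := (Fact.out : t.Prime).two_le
  exact plog_coprime h1 (Nat.not_dvd_of_pos_of_lt (by omega) (by omega)) h

/-- `1 + t ℤ_t` is torsion free -/
theorem eq_one_of_torsion (ht : t ≠ 2) (x : ℤ_[t]) (h1 : PadicInt.toZMod x = 1) (k : ℕ) (hk : k ≠ 0)
    (h : x ^ k = 1) : x = 1 := by
  obtain ⟨a, m, hm, rfl⟩ := Nat.exists_eq_pow_mul_and_not_dvd hk t (Fact.out : t.Prime).ne_one
  rw [pow_mul] at h
  have h2 := plog_coprime (by rw [map_pow, h1, one_pow]) hm h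
  have h3 := plog_pow ht (plog_mod.1 (h1.trans (map_one _).symm)) a
  have h0 : (0 : ℝ) < t := by exact_mod_cast (Fact.out : t.Prime).pos
  rw [h2, sub_self, norm_zero, eq_comm, mul_eq_zero, norm_eq_zero, sub_eq_zero] at h3
  exact h3.resolve_left (by positivity)

theorem chi_spec (g : Ga) (n : ℕ) (z : Om) (hz : z ^ t ^ n = 1) :
    g z = z ^ (PadicInt.toZModPow n (chi t g : ℤ_[t])).val := by
  exact cyclotomicCharacter.spec t (g : Om ≃+* Om) z hz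

theorem chi_spec1 (g : Ga) (z : Om) (hz : z ^ t = 1) :
    g z = z ^ (PadicInt.toZMod (chi t g : ℤ_[t])).val := by
  rw [chi_spec (t := t) g 1 z (by rwa [pow_one]), pow_eq_pow_mod _ hz, ← ZMod.val_natCast]
  congr 2
  rw [← map_natCast (PadicInt.toZMod (p := t)), plog_mod, ← pow_one (t : ℤ_[t]), ← plog_modpow,
    map_natCast, ZMod.natCast_zmod_val]

theorem chi_eq_of (g : Ga) (n c : ℕ) (h : ∀ z : Om, z ^ t ^ n = 1 → g z = z ^ c) :
    PadicInt.toZModPow n (chi t g : ℤ_[t]) = c := by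
  obtain ⟨ζ, hζ⟩ := HasEnoughRootsOfUnity.exists_primitiveRoot Om (t ^ n)
  have h1 := (chi_spec g n ζ hζ.pow_eq_one).symm.trans (h ζ hζ.pow_eq_one)
  have h0 : 0 < t ^ n := pow_pos (Fact.out : t.Prime).pos n
  rw [pow_eq_pow_mod c hζ.pow_eq_one] at h1
  rw [← ZMod.natCast_zmod_val (PadicInt.toZModPow n _),
    hζ.pow_inj (ZMod.val_lt _) (Nat.mod_lt _ h0) h1, ZMod.natCast_mod]

theorem chi_eq_nat (g : Ga) (c : ℕ) (h : ∀ (n : ℕ) (z : Om), z ^ t ^ n = 1 → g z = z ^ c) :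
    (chi t g : ℤ_[t]) = c := by
  exact PadicInt.ext_of_toZModPow.1 fun n => by rw [chi_eq_of g n c (h n), map_natCast]

theorem mem_Gmu_pow (g : Ga) (n : ℕ) :
    g ∈ Gmu (t ^ n) ↔ PadicInt.toZModPow n (chi t g : ℤ_[t]) = 1 := by
  refine ⟨fun h => ?_, fun h z hz => ?_⟩
  · exact (chi_eq_of g n 1 fun z hz => (h z hz).trans (pow_one z).symm).trans Nat.cast_one
  · rw [chi_spec g n z hz, h, ZMod.val_one_eq_one_mod, ← pow_eq_pow_mod _ hz, pow_one]

theorem mem_Gmu_one (g : Ga) : g ∈ Gmu t ↔ PadicInt.toZMod (chi t g : ℤ_[t]) = 1 := by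
  have h := mem_Gmu_pow (t := t) g 1
  rw [← map_one (PadicInt.toZModPow (p := t) 1), plog_modpow, pow_one, pow_one] at h
  rw [h, ← plog_mod, map_one]

theorem chi_eq_iff (g h : Ga) :
    chi t g = chi t h ↔ ∀ (n : ℕ) (z : Om), z ^ t ^ n = 1 → g z = h z := by
  refine ⟨fun h1 n z hz => by rw [chi_spec g n z hz, chi_spec h n z hz, h1], fun h1 => ?_⟩
  refine Units.ext (PadicInt.ext_of_toZModPow.1 fun n => ?_)
  rw [chi_eq_of g n _ fun z hz => (h1 n z hz).trans (chi_spec h n z hz), ZMod.natCast_zmod_val]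

theorem continuous_chi : Continuous (fun g : Ga => (chi t g : ℤ_[t])) := by
  exact Units.continuous_val.comp (cyclotomicCharacter.continuous t ℚ Om)

theorem kap_mul (ht : t ≠ 2) (g h : Ga) : kap t (g * h) = kap t g + kap t h := by
  rw [kap, map_mul, plog_mul ht, kap, kap]

theorem continuous_kap (ht : t ≠ 2) : Continuous (kap t) := by
  refine continuous_iff_continuousAt.2 fun g => tendsto_iff_norm_sub_tendsto_zero.2 ?_
  have h1 : Continuous fun h : Ga => ‖(chi t (h * g⁻¹) : ℤ_[t]) ^ (t - 1) - 1‖ :=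
    (((continuous_chi.comp (continuous_mul_const g⁻¹)).pow _).sub continuous_const).norm
  have h2 := h1.tendsto g
  simp only [mul_inv_cancel, map_one, Units.val_one, one_pow, sub_self, norm_zero] at h2
  refine h2.congr fun h => ?_
  rw [← norm_plog ht, ← kap, show kap t h = kap t (h * g⁻¹ * g) by rw [inv_mul_cancel_right],
    kap_mul ht _ g, add_sub_cancel_right]

theorem kap_eq_zero (ht : t ≠ 2) (g : Ga) : kap t g = 0 ↔ chi t g ^ (t - 1) = 1 := by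
  exact plog_eq_zero ht _

theorem kap_ne_zero_of_nat (ht : t ≠ 2) (g : Ga) (c : ℕ) (hc : 2 ≤ c) (h : (chi t g : ℤ_[t]) = c) :
    kap t g ≠ 0 := by
  rw [Ne, kap_eq_zero ht, ← Units.val_eq_one, Units.val_pow_eq_pow_val, h]
  intro h1
  have h2 := (Fact.out : t.Prime).two_le
  have h3 : c ^ (t - 1) = 1 := by exact_mod_cast h1
  rw [Nat.pow_eq_one] at h3
  omega

end Vale.Agent.P024U
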