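import Vale.Agent.P024U.Grp
import Vale.Agent.P024U.Plog

/-! Characters: elementary API. -/

namespace Vale.Agent.P024U

section
variable {A : Type*} [AddCommGroup A] [TopologicalSpace A] {H : Subgroup Ga} {θ : Ga → A}

theorem IsX.one (h : IsX H θ) : θ 1 = 0 := by
  have := h.2 1 H.one_mem 1 H.one_mem
  rw [mul_one] at this
  exact left_eq_add.1 this

theorem IsX.inv (h : IsX H θ) {a : Ga} (ha : a ∈ H) : θ a⁻¹ = - θ a := by
  have := h.2 a⁻¹ (H.inv_mem ha) a ha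
  rw [inv_mul_cancel, h.one] at this
  exact eq_neg_of_add_eq_zero_left this.symm

theorem IsX.pow (h : IsX H θ) {a : Ga} (ha : a ∈ H) (n : ℕ) : θ (a ^ n) = n • θ a := by
  induction n with
  | zero => rw [pow_zero, zero_smul, h.one]
  | succ n ih => rw [pow_succ, h.2 _ (H.pow_mem ha n) a ha, ih, succ_nsmul]

theorem IsX.conj_self (h : IsX H θ) {a b : Ga} (ha : a ∈ H) (hb : b ∈ H) :
    θ (a⁻¹ * b * a) = θ b := by
  rw [h.2 _ (H.mul_mem (H.inv_mem ha) hb) a ha, h.2 _ (H.inv_mem ha) b hb, h.inv ha]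
  abel

theorem IsX.mono (h : IsX H θ) {H' : Subgroup Ga} (hle : H' ≤ H) : IsX H' θ := 
  ⟨h.1.mono hle, fun a ha b hb => h.2 a (hle ha) b (hle hb)⟩

theorem IsX.conj (h : IsX H θ) {H' : Subgroup Ga} (g : Ga) (hg : ∀ a ∈ H', g⁻¹ * a * g ∈ H) :
    IsX H' (fun a => θ (g⁻¹ * a * g)) := by
  refine ⟨h.1.comp (by fun_prop) hg, fun a ha b hb => ?_⟩
  rw [← h.2 _ (hg a ha) _ (hg b hb)]
  simp only [mul_assoc, mul_inv_cancel_left]

theorem IsX.mem_kerX (h : IsX H θ) {g : Ga} : g ∈ kerX H θ ↔ g ∈ H ∧ θ g = 0 := by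
  let S : Subgroup Ga :=
    { carrier := {g | g ∈ H ∧ θ g = 0}
      one_mem' := ⟨H.one_mem, h.one⟩
      mul_mem' := fun {a b} ha hb =>
        ⟨H.mul_mem ha.1 hb.1, by rw [h.2 a ha.1 b hb.1, ha.2, hb.2, add_zero]⟩
      inv_mem' := fun {a} ha => ⟨H.inv_mem ha.1, by rw [h.inv ha.1, ha.2, neg_zero]⟩ }
  have : kerX H θ = S := Subgroup.closure_eq S
  rw [this]
  rfl

theorem XApi_exists_op [DiscreteTopology A] (h : IsX H θ) :
    ∃ W : Subgroup Ga, Op W ∧ W.Normal ∧ ∀ a ∈ H, a ∈ W → θ a = 0 := by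
  have h1 : θ ⁻¹' {θ 1} ∈ nhdsWithin (1 : Ga) H :=
    h.1 1 H.one_mem ((isOpen_discrete _).mem_nhds rfl)
  obtain ⟨U, hU, hsub⟩ := mem_nhdsWithin_iff_exists_mem_nhds_inter.1 h1
  obtain ⟨W, hW, hn, hWU⟩ := exists_op_normal hU
  refine ⟨W, hW, hn, fun a ha haW => ?_⟩
  have : θ a = θ 1 := hsub ⟨hWU haW, ha⟩
  rw [this, h.one]

theorem IsX.op_kerX [DiscreteTopology A] (h : IsX H θ) (hH : Op H) : Op (kerX H θ) := by
  obtain ⟨W, hW, -, h0⟩ := XApi_exists_op h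
  exact (hH.inf hW).mono fun a ha => h.mem_kerX.2 ⟨ha.1, h0 a ha.1 ha.2⟩

theorem IsX.exists_op [DiscreteTopology A] (h : IsX H θ) :
    ∃ W : Subgroup Ga, Op W ∧ W.Normal ∧ ∀ a ∈ H, a ∈ W → θ a = 0 := 
  XApi_exists_op h

theorem isX_of_op (hadd : ∀ a ∈ H, ∀ b ∈ H, θ (a * b) = θ a + θ b)
    (hW : ∃ W : Subgroup Ga, Op W ∧ ∀ a ∈ H, a ∈ W → θ a = 0) : IsX H θ := by
  obtain ⟨W, hW, h0⟩ := hW
  refine ⟨fun a ha => ?_, hadd⟩
  have hc : Continuous fun b : Ga => a⁻¹ * b := by fun_prop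
  have h1 : (fun b : Ga => a⁻¹ * b) ⁻¹' W ∈ nhds a :=
    (hW.preimage hc).mem_nhds (by simp)
  refine (continuousWithinAt_const (b := θ a)).congr_of_eventuallyEq ?_ rfl
  filter_upwards [mem_nhdsWithin_of_mem_nhds h1, self_mem_nhdsWithin] with b hb hbH
  have hm : a⁻¹ * b ∈ H := H.mul_mem (H.inv_mem ha) hbH
  have := hadd a ha _ hm
  rwa [mul_inv_cancel_left, h0 _ hm hb, add_zero] at this

end

variable {t : ℕ} [Fact t.Prime]

theorem IsX.lin {H : Subgroup Ga} {ι : Type} [Fintype ι] {θ : ι → Ga → ℚ_[t]}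
    (h : ∀ i, IsX H (θ i)) (c : ι → ℚ_[t]) : IsX H (fun g => ∑ i, c i * θ i g) := by
  refine ⟨continuousOn_finsetSum _ fun i _ => continuousOn_const.mul (h i).1, fun a ha b hb => ?_⟩
  rw [← Finset.sum_add_distrib]
  exact Finset.sum_congr rfl fun i _ => by rw [(h i).2 a ha b hb, mul_add]

theorem IsX.sub {H : Subgroup Ga} {θ θ' : Ga → ℚ_[t]} (h : IsX H θ) (h' : IsX H θ') :
    IsX H (fun g => θ g - θ' g) := by
  refine ⟨h.1.sub h'.1, fun a ha b hb => ?_⟩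
  simp only [h.2 a ha b hb, h'.2 a ha b hb]
  ring

theorem isX_kap (ht : t ≠ 2) (H : Subgroup Ga) : IsX H (kap t) := 
  ⟨(continuous_kap ht).continuousOn, fun a _ b _ => kap_mul ht a b⟩

theorem IsX.eq_zero_of_op {H W : Subgroup Ga} {θ : Ga → ℚ_[t]} (h : IsX H θ) (hW : Op W)
    (h0 : ∀ a ∈ H, a ∈ W → θ a = 0) : ∀ a ∈ H, θ a = 0 := by
  intro a ha
  obtain ⟨n, hn, -, hm⟩ := Subgroup.exists_pow_mem_of_index_ne_zero hW.index_ne_zero a
  have := h0 _ (H.pow_mem ha n) hm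
  rw [h.pow ha, nsmul_eq_mul] at this
  exact (mul_eq_zero.1 this).resolve_left (Nat.cast_ne_zero.2 hn.ne')

theorem IndOn.of_op {H W : Subgroup Ga} {ι : Type} [Fintype ι] {θ : ι → Ga → ℚ_[t]}
    (h : IndOn H θ) (hX : ∀ i, IsX H (θ i)) (hW : Op W) (hle : W ≤ H) : IndOn W θ := 
  fun c hc => h c ((IsX.lin hX c).eq_zero_of_op hW fun a _ ha => hc a ha)

theorem XApi_compact : CompactSpace Ga := by
  have : IsAlgClosure ℚ Om := AlgebraicClosure.instIsAlgClosure ℚ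
  have : IsGalois ℚ Om := IsAlgClosure.isGalois ℚ Om
  infer_instance

/-- reduction of a character modulo `t^n` after scaling -/
theorem IsX.exists_int {H : Subgroup Ga} (hH : Cl H) {θ : Ga → ℚ_[t]} (h : IsX H θ) :
    ∃ (c : ℕ) (η : Ga → ℤ_[t]), IsX H η ∧ ∀ a ∈ H, (η a : ℚ_[t]) = (t : ℚ_[t]) ^ c * θ a := by
  classical
  have := XApi_compact
  obtain ⟨C, hC⟩ := (hH.isCompact.image_of_continuousOn h.1).isBounded.exists_pos_norm_le
  obtain ⟨c, hc⟩ := PadicInt.exists_pow_neg_lt t (inv_pos.2 hC.1)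
  have hb : ∀ a ∈ H, ‖(t : ℚ_[t]) ^ c * θ a‖ ≤ 1 := by
    intro a ha
    rw [norm_mul, Padic.norm_p_pow]
    calc (t : ℝ) ^ (-c : ℤ) * ‖θ a‖ ≤ C⁻¹ * C :=
          mul_le_mul hc.le (hC.2 _ ⟨a, ha, rfl⟩) (norm_nonneg _) (inv_pos.2 hC.1).le
      _ = 1 := inv_mul_cancel₀ hC.1.ne'
  let η : Ga → ℤ_[t] := fun a => if ha : a ∈ H then ⟨_, hb a ha⟩ else 0
  have hη : ∀ a ∈ H, (η a : ℚ_[t]) = (t : ℚ_[t]) ^ c * θ a := by
    intro a ha
    have e : η a = ⟨_, hb a ha⟩ := dif_pos ha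
    rw [e]
  refine ⟨c, η, ⟨?_, fun a ha b hb => ?_⟩, hη⟩
  · exact PadicInt.isOpenEmbedding_coe.isInducing.continuousOn_iff.2
      ((continuousOn_const.mul h.1).congr hη)
  · apply Subtype.ext
    rw [PadicInt.coe_add, hη a ha, hη b hb, hη _ (H.mul_mem ha hb), h.2 a ha b hb, mul_add]

theorem XApi_eq_iff (n : ℕ) (x y : ℤ_[t]) :
    PadicInt.toZModPow n x = PadicInt.toZModPow n y ↔ dist x y ≤ (t : ℝ) ^ (-n : ℤ) := by
  rw [dist_eq_norm, PadicInt.norm_le_pow_iff_mem_span_pow, ← PadicInt.ker_toZModPow,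
    RingHom.mem_ker, map_sub, sub_eq_zero]

theorem XApi_cont (n : ℕ) : Continuous (PadicInt.toZModPow n : ℤ_[t] → ZMod (t ^ n)) := by
  refine continuous_iff_continuousAt.2 fun y => ?_
  have hp : (0 : ℝ) < (t : ℝ) ^ (-n : ℤ) :=
    zpow_pos (Nat.cast_pos.2 (Fact.out : t.Prime).pos) _
  refine (continuousAt_const (y := PadicInt.toZModPow n y)).congr ?_
  filter_upwards [Metric.closedBall_mem_nhds y hp] with x hx
  exact ((XApi_eq_iff n x y).2 hx).symm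

theorem IsX.toZModPow {H : Subgroup Ga} {η : Ga → ℤ_[t]} (h : IsX H η) (n : ℕ) :
    IsX H (fun a => PadicInt.toZModPow n (η a)) := 
  ⟨(XApi_cont n).comp_continuousOn h.1, fun a ha b hb => by simp only [h.2 a ha b hb, map_add]⟩

theorem isX_of_toZModPow {H : Subgroup Ga} {η : Ga → ℤ_[t]}
    (h : ∀ n, IsX H (fun a => PadicInt.toZModPow n (η a))) : IsX H η := by
  refine ⟨fun a ha => ?_, fun a ha b hb => PadicInt.ext_of_toZModPow.1 fun n => ?_⟩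
  · refine Metric.tendsto_nhds.2 fun ε hε => ?_
    obtain ⟨n, hn⟩ := PadicInt.exists_pow_neg_lt t hε
    have h1 : (fun b => PadicInt.toZModPow n (η b)) ⁻¹' {PadicInt.toZModPow n (η a)} ∈
        nhdsWithin a H := (h n).1 a ha ((isOpen_discrete _).mem_nhds rfl)
    filter_upwards [h1] with b hb
    exact ((XApi_eq_iff n _ _).1 hb).trans_lt hn
  · rw [map_add]
    exact (h n).2 a ha b hb

end Vale.Agent.P024U
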