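import Vale.Agent.P024U.Cheb
import Vale.Agent.P024U.XApi

/-! Kummer theory.  `kum_surj`: the image of `H` in `ι → ZMod r` under `g ↦ (exponent of g (w i) / w i)` is a subspace; if proper it is killed by a
nonzero linear form `n`, then `∏ w i ^ n i` is fixed by `H`.
`res_prime`: `H = Gmu (p n0)`, `y l = l` for `l ∈ S1 ∪ S2`.  Independence: if `∏ l^(n l) = z^p` with `z ∈ fix H`; suppose `p ∤ n l`.  Either `l ∤ p n0`, and
`val_int` applies (`Ine_le_Gmu`); in general use that `Ga / H` is commutative: `z` has a conjugate `z' = ζ^i z` which is real under a fixed complex embedding,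
`fix H` is abelian so `ℚ(z')` is Galois and real, all conjugates `ζ^j z'` of `z'` are real so `z'` is rational (`p` odd), and `p ∣ n l`.
Then `cheb` with `W` the normal core of the stabiliser of the roots in `H`: the Frobenius `φ` at `r` lies in `H` (so `r ≡ 1`), fixes the roots for `S1` (so the
root is congruent to an integer mod `P`: its residue satisfies `x^r = x`) and moves all roots for `S2`
(if `l ≡ x^p mod r` then some root is `≡ x`, fixed modulo `P`, hence fixed by `root_eq_one`).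
`x_zero`: `cheb` and continuity. -/

namespace Vale.Agent.P024U

theorem Kum_prim (n : ℕ) (hn : n ≠ 0) : ∃ ζ : Om, IsPrimitiveRoot ζ n := by
  have : NeZero n := ⟨hn⟩
  have : NeZero ((n : ℕ) : Om) := ⟨Nat.cast_ne_zero.2 hn⟩
  exact HasEnoughRootsOfUnity.exists_primitiveRoot Om n

theorem Kum_pow_apply {g : Ga} {c w : Om} (hc : g c = c) (hw : g w = c * w) (k : ℕ) :
    (g ^ k) w = c ^ k * w := by
  induction k with
  | zero => simp
  | succ k ih => rw [pow_succ', AlgEquiv.mul_apply, ih, map_mul, map_pow, hc, hw]; ring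

theorem kum_surj {H : Subgroup Ga} (r : ℕ) (hr : r.Prime) (hμ : H ≤ Gmu r) {ι : Type} [Fintype ι]
    (w : ι → Om) (h0 : ∀ i, w i ≠ 0) (hw : ∀ i, w i ^ r ∈ fix H)
    (hind : ∀ n : ι → ℕ, (∃ z ∈ fix H, z ^ r = ∏ i, (w i ^ r) ^ n i) → ∀ i, r ∣ n i)
    (η : ι → Om) (hη : ∀ i, η i ^ r = 1) : ∃ g ∈ H, ∀ i, g (w i) = η i * w i := by
  classical
  have : Fact r.Prime := ⟨hr⟩
  have : NeZero r := ⟨hr.ne_zero⟩
  obtain ⟨ζ, hζ⟩ := Kum_prim r hr.ne_zero
  have hz1 : ζ ^ r = 1 := hζ.pow_eq_one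
  have hcast : ∀ k : ℕ, ζ ^ (k : ZMod r).val = ζ ^ k := fun k => by
    rw [ZMod.val_natCast]; exact (pow_eq_pow_mod k hz1).symm
  have hfix : ∀ g ∈ H, ∀ k : ℕ, g (ζ ^ k) = ζ ^ k := fun g hg k => by
    rw [map_pow, hμ hg ζ hz1]
  have hlog : ∀ u : Om, u ^ r = 1 → ∃ a : ZMod r, ζ ^ a.val = u := fun u hu => by
    obtain ⟨k, -, hk⟩ := hζ.eq_pow_of_pow_eq_one hu
    exact ⟨k, by rw [hcast, hk]⟩
  let S : Submodule (ZMod r) (ι → ZMod r) :=
    { carrier := {v | ∃ g ∈ H, ∀ i, g (w i) = ζ ^ (v i).val * w i}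
      zero_mem' := ⟨1, H.one_mem, fun i => by simp⟩
      add_mem' := by
        rintro u v ⟨g, hg, hu⟩ ⟨h, hh, hv⟩
        refine ⟨g * h, H.mul_mem hg hh, fun i => ?_⟩
        rw [AlgEquiv.mul_apply, hv, map_mul, hfix g hg, hu, Pi.add_apply, ZMod.val_add,
          ← pow_eq_pow_mod _ hz1, pow_add]
        ring
      smul_mem' := by
        rintro c v ⟨g, hg, hv⟩
        refine ⟨g ^ c.val, H.pow_mem hg _, fun i => ?_⟩
        rw [Kum_pow_apply (hfix g hg _) (hv i), Pi.smul_apply, smul_eq_mul, ZMod.val_mul,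
          ← pow_eq_pow_mod _ hz1, ← pow_mul, mul_comm c.val] }
  have hS : S = ⊤ := by
    by_contra hne
    obtain ⟨f, hf0, hf⟩ := S.exists_le_ker_of_lt_top (lt_top_iff_ne_top.2 hne)
    set c : ι → ZMod r := fun i => f (Pi.single i 1) with hc
    have hfv : ∀ v, f v = ∑ i, v i * c i := fun v => by
      conv_lhs => rw [← Finset.univ_sum_single v]
      rw [map_sum]
      refine Finset.sum_congr rfl fun i _ => ?_
      rw [hc, ← smul_eq_mul, ← map_smul, ← Pi.single_smul, smul_eq_mul, mul_one]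
    have hd := hind (fun i => (c i).val) ⟨∏ i, w i ^ (c i).val, ?_, ?_⟩
    · apply hf0
      refine LinearMap.ext fun v => ?_
      rw [hfv]
      refine Finset.sum_eq_zero fun i _ => ?_
      have : c i = 0 := by
        rw [← ZMod.natCast_zmod_val (c i)]
        exact (ZMod.natCast_eq_zero_iff _ _).2 (hd i)
      rw [this, mul_zero]
    · refine mem_fix.2 fun g hg => ?_
      have hu : ∀ i, (g (w i) / w i) ^ r = 1 := fun i => by
        rw [div_pow, ← map_pow, mem_fix.1 (hw i) g hg, div_self (pow_ne_zero _ (h0 i))]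
      choose v hv using fun i => hlog _ (hu i)
      have hv' : ∀ i, g (w i) = ζ ^ (v i).val * w i := fun i => by
        rw [hv, div_mul_cancel₀ _ (h0 i)]
      have hvS : f v = 0 := hf (show v ∈ S from ⟨g, hg, hv'⟩)
      have h1 : ζ ^ (∑ i, (v i).val * (c i).val) = 1 := by
        rw [← hcast]
        have : ((∑ i, (v i).val * (c i).val : ℕ) : ZMod r) = 0 := by
          rw [← hvS, hfv]; push_cast
          simp
        rw [this]; simp
      rw [map_prod]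
      simp only [map_pow, hv', mul_pow, ← pow_mul]
      rw [Finset.prod_mul_distrib, Finset.prod_pow_eq_pow_sum, h1, one_mul]
    · rw [← Finset.prod_pow]
      refine Finset.prod_congr rfl fun i _ => ?_
      rw [← pow_mul, ← pow_mul, mul_comm]
  choose v hv using fun i => hlog _ (hη i)
  obtain ⟨g, hg, hgv⟩ : v ∈ S := hS ▸ Submodule.mem_top
  exact ⟨g, hg, fun i => by rw [hgv, hv]⟩

theorem Kum_comm {m : ℕ} (hm : m ≠ 0) (σ τ : Ga) {z : Om} (hz : z ∈ fix (Gmu m)) :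
    σ (τ z) = τ (σ z) := by
  have : NeZero m := ⟨hm⟩
  obtain ⟨ξ, hξ⟩ := Kum_prim m hm
  have hu : ∀ u : Om, u ^ m = 1 → σ (τ u) = τ (σ u) := fun u hu => by
    obtain ⟨k, -, rfl⟩ := hξ.eq_pow_of_pow_eq_one hu
    obtain ⟨a, -, ha⟩ := hξ.eq_pow_of_pow_eq_one (ξ := σ ξ) (by rw [← map_pow, hξ.pow_eq_one, map_one])
    obtain ⟨b, -, hb⟩ := hξ.eq_pow_of_pow_eq_one (ξ := τ ξ) (by rw [← map_pow, hξ.pow_eq_one, map_one])
    simp only [map_pow, ← ha, ← hb, ← pow_mul]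
    congr 1; ring
  have hmem : (τ * σ)⁻¹ * (σ * τ) ∈ Gmu m := fun u hu' => by
    rw [AlgEquiv.mul_apply, AlgEquiv.mul_apply, hu u hu', ← AlgEquiv.mul_apply τ σ]
    exact (τ * σ).symm_apply_apply u
  have h := mem_fix.1 hz _ hmem
  have h2 := congrArg (τ * σ) h
  rw [← AlgEquiv.mul_apply, mul_inv_cancel_left] at h2
  exact h2

theorem Kum_rat {p m : ℕ} (hp : p.Prime) (h2 : p ≠ 2) (hm : m ≠ 0) {z : Om} (hz : z ∈ fix (Gmu m))
    (h0 : z ≠ 0) (hN : ∀ σ : Ga, σ (z ^ p) = z ^ p) :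
    ∃ y : Om, y ^ p = z ^ p ∧ ∀ σ : Ga, σ y = y := by
  obtain ⟨P, hP⟩ := exists_pr p hp
  obtain ⟨τ, -, hτ⟩ := ine_cyc P 2 (by
    rw [hP]; intro h; exact h2 ((Nat.prime_dvd_prime_iff_eq hp Nat.prime_two).1 h))
  rw [hP] at hτ
  have hc : ∀ σ : Ga, (σ z / z) ^ p = 1 := fun σ => by
    rw [div_pow, ← map_pow, hN, div_self (pow_ne_zero _ h0)]
  have hne : ∀ σ : Ga, σ z ≠ 0 := fun σ => (map_ne_zero σ).2 h0
  refine ⟨z / (τ z / z), by rw [div_pow, hc, div_one], fun σ => ?_⟩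
  have h1 := hτ _ (hc σ)
  rw [map_div₀, ← Kum_comm hm σ τ hz] at h1
  have h3 : σ (τ z) ≠ 0 := (map_ne_zero σ).2 (hne τ)
  rw [map_div₀, map_div₀]
  have h4 := hne σ
  have h5 := hne τ
  field_simp
  field_simp at h1
  linear_combination -h1

theorem Kum_ind {p m : ℕ} (hp : p.Prime) (h2 : p ≠ 2) (hm : m ≠ 0) (S : Finset ℕ)
    (hS : ∀ l ∈ S, l.Prime) (n : S → ℕ) {z : Om} (hz : z ∈ fix (Gmu m))
    (hN : z ^ p = ∏ i : S, ((i : ℕ) : Om) ^ n i) (i : S) : p ∣ n i := by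
  have hi0 : ∀ i : S, ((i : ℕ) : Om) ≠ 0 := fun i => Nat.cast_ne_zero.2 (hS i i.2).ne_zero
  have h0 : z ≠ 0 := by
    rintro rfl
    rw [zero_pow hp.ne_zero] at hN
    exact Finset.prod_ne_zero_iff.2 (fun j _ => pow_ne_zero _ (hi0 j)) hN.symm
  obtain ⟨y, hy, hfix⟩ := Kum_rat hp h2 hm hz h0 (fun σ => by
    rw [hN, map_prod]; simp only [map_pow, map_natCast])
  obtain ⟨P, hP⟩ := exists_pr i (hS i i.2)
  obtain ⟨k, hk⟩ := val_int (P := P) (x := y) fun σ _ => hfix σ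
  have h1 : val P (y ^ p) = n i := by
    rw [hy, hN, val_prod P _ _ fun j _ => pow_ne_zero _ (hi0 j), Finset.sum_eq_single i]
    · have : Fact (i : ℕ).Prime := ⟨hS i i.2⟩
      rw [val_pow, val_natCast, hP, padicValNat_self]; simp
    · intro j _ hj
      have : Fact (i : ℕ).Prime := ⟨hS i i.2⟩
      have : Fact (j : ℕ).Prime := ⟨hS j j.2⟩
      rw [val_pow, val_natCast, hP, padicValNat_primes (fun h => hj (Subtype.ext h.symm))]; simp
    · simp
  rw [val_pow, hk] at h1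
  have h3 : (p : ℤ) * k = n i := by exact_mod_cast h1
  exact Int.natCast_dvd_natCast.1 ⟨k, h3.symm⟩

theorem Kum_int {w : Om} {p l : ℕ} (hp : p ≠ 0) (hw : w ^ p = l) : IsIntegral ℤ w := by
  refine IsIntegral.of_pow (Nat.pos_of_ne_zero hp) ?_
  rw [hw]
  exact isIntegral_algebraMap (x := (l : ℤ))

theorem Kum_res1 {P : Pr} {φ : Ga} (hφ : IsFrob P 1 φ) {w : Om} {p l : ℕ} (hp : p ≠ 0)
    (hw : w ^ p = l) (hfix : φ w = w) : ∃ x : ZMod (ch P), x ^ p = l := by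
  have := P.max
  have : Fact (ch P).Prime := ⟨ch_prime P⟩
  let : Field (Oi ⧸ P.I) := Ideal.Quotient.field P.I
  have : CharP (Oi ⧸ P.I) (ch P) := ringChar.charP _
  let x : Oi := ⟨w, Kum_int hp hw⟩
  have hx : φ • x = x := Subtype.ext hfix
  have hxp : x ^ p = l := NumberField.RingOfIntegers.coe_injective (by
    rw [map_pow, map_natCast]; exact hw)
  have h1 := hφ x
  rw [hx, pow_one, ← Ideal.Quotient.eq, map_pow] at h1
  obtain ⟨k, hk⟩ := (mem_bot_iff_intCast (ch P) _).1 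
    ((Subfield.mem_bot_iff_pow_eq_self _ (ch P)).2 h1.symm)
  refine ⟨k, (ZMod.castHom (dvd_refl (ch P)) (Oi ⧸ P.I)).injective ?_⟩
  rw [map_pow, map_intCast, map_natCast, hk, ← map_pow, hxp, map_natCast]

theorem Kum_res2 {P : Pr} {φ : Ga} (hφ : IsFrob P 1 φ) {w : Om} {p l : ℕ} (hp : p ≠ 0)
    (hw : w ^ p = l) (hl : ¬ ch P ∣ l) (hpP : ¬ ch P ∣ p) (hd : p ∣ ch P - 1)
    (h : ∃ x : ZMod (ch P), x ^ p = l) : φ w = w := by
  have := P.max
  have : Fact (ch P).Prime := ⟨ch_prime P⟩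
  let : Field (Oi ⧸ P.I) := Ideal.Quotient.field P.I
  have : CharP (Oi ⧸ P.I) (ch P) := ringChar.charP _
  obtain ⟨a, ha⟩ := h
  obtain ⟨k, hk⟩ := hd
  have hl0 : l ≠ 0 := by rintro rfl; exact hl (dvd_zero _)
  have hw0 : w ≠ 0 := by
    rintro rfl
    rw [zero_pow hp] at hw
    exact hl0 (by exact_mod_cast hw.symm)
  have ha0 : a ≠ 0 := by
    rintro rfl
    rw [zero_pow hp] at ha
    exact hl ((ZMod.natCast_eq_zero_iff _ _).1 ha.symm)
  have hlk : (l : ZMod (ch P)) ^ k = 1 := by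
    rw [← ha, ← pow_mul, ← hk]; exact ZMod.pow_card_sub_one_eq_one ha0
  have hlk' : (l : Oi ⧸ P.I) ^ k = 1 := by
    have := congrArg (ZMod.castHom (dvd_refl (ch P)) (Oi ⧸ P.I)) hlk
    rwa [map_pow, map_natCast, map_one] at this
  let x : Oi := ⟨w, Kum_int hp hw⟩
  have hxp : x ^ p = l := NumberField.RingOfIntegers.coe_injective (by
    rw [map_pow, map_natCast]; exact hw)
  have h1 := hφ x
  have hch : ch P = p * k + 1 := by
    have := (ch_prime P).one_lt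
    omega
  have h2 : φ • x - x ∈ P.I := by
    rw [← Ideal.Quotient.eq] at h1 ⊢
    rw [h1, pow_one]
    conv_lhs => rw [hch]
    rw [pow_succ, pow_mul, hxp, map_mul, map_pow, map_natCast, hlk', one_mul]
  have h3 : Pos P (φ w - w) := (pos_iff_mem P _).2 h2
  have hv : val P w = 0 := by
    have h4 := val_pow P w p
    rw [hw, val_natCast, padicValNat.eq_zero_of_not_dvd hl] at h4
    have : (p : ℚ) ≠ 0 := Nat.cast_ne_zero.2 hp
    simpa [this] using h4.symm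
  have h5 := h3.mul_sm (y := w⁻¹) (Or.inr (by rw [val_inv, hv, neg_zero]))
  rw [sub_mul, mul_inv_cancel₀ hw0] at h5
  have h6 := root_eq_one hpP (by
    rw [mul_pow, ← map_pow, inv_pow, hw, map_natCast, mul_inv_cancel₀ (Nat.cast_ne_zero.2 hl0)]) h5
  exact (mul_inv_eq_one₀ hw0).1 h6

theorem res_prime (p : ℕ) (hp : p.Prime) (h2 : p ≠ 2) (n0 : ℕ) (hn0 : n0 ≠ 0) (S1 S2 : Finset ℕ)
    (h1 : ∀ l ∈ S1, l.Prime) (h2' : ∀ l ∈ S2, l.Prime) (hd : Disjoint S1 S2) (B : ℕ) :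
    ∃ r : ℕ, r.Prime ∧ B < r ∧ p * n0 ∣ r - 1 ∧ (∀ l ∈ S1, ∃ x : ZMod r, x ^ p = l) ∧
      ∀ l ∈ S2, ¬ ∃ x : ZMod r, x ^ p = l := by
  classical
  have hm : p * n0 ≠ 0 := mul_ne_zero hp.ne_zero hn0
  have hS : ∀ l ∈ S1 ∪ S2, l.Prime := fun l hl => (Finset.mem_union.1 hl).elim (h1 l) (h2' l)
  choose w hw using fun l : ℕ => IsAlgClosed.exists_pow_nat_eq (l : Om) hp.pos
  obtain ⟨ζ, hζ⟩ := Kum_prim p hp.ne_zero
  have hw0 : ∀ l : ℕ, l.Prime → w l ≠ 0 := fun l hl h => by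
    have := hw l
    rw [h, zero_pow hp.ne_zero] at this
    exact hl.ne_zero (by exact_mod_cast this.symm)
  obtain ⟨σ, hσ, hσw⟩ := kum_surj (H := Gmu (p * n0)) p hp (Gmu_le (dvd_mul_right _ _))
    (ι := ↥(S1 ∪ S2)) (fun i => w i) (fun i => hw0 i (hS i i.2))
    (fun i => by rw [hw]; exact mem_fix.2 fun g _ => map_natCast g _)
    (fun n hn i => by
      obtain ⟨z, hz, hzp⟩ := hn
      simp only [hw] at hzp
      exact Kum_ind hp h2 hm _ hS n hz hzp i)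
    (fun i => if (i : ℕ) ∈ S1 then 1 else ζ) (fun i => by
      split_ifs
      · exact one_pow _
      · exact hζ.pow_eq_one)
  have hU : (Gmu (p * n0) : Set Ga) ∩ ⋂ l ∈ S1 ∪ S2, {g : Ga | g (w l) = w l} ∈ nhds (1 : Ga) := by
    refine IsOpen.mem_nhds ((op_Gmu hm).inter (isOpen_biInter_finset fun l _ => op_stab _)) ?_
    exact ⟨(Gmu _).one_mem, by simp⟩
  obtain ⟨W, hW, hWn, hWU⟩ := exists_op_normal hU
  obtain ⟨r, ⟨P, φ, hP, hφ, hφ1, hφ2⟩, hr⟩ :=
    (cheb hW σ).exists_gt (max B (max (p * n0) ((S1 ∪ S2).sup id)))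
  subst hP
  simp only [max_lt_iff] at hr
  obtain ⟨hrB, hrm, hrS⟩ := hr
  have hWs : ∀ l ∈ S1 ∪ S2, W ≤ MulAction.stabilizer Ga (w l) := fun l hl g hg =>
    Set.mem_iInter₂.1 (hWU hg).2 l hl
  have hφH : φ ∈ Gmu (p * n0) :=
    (sup_le (fun g hg => (hWU hg).1) (Subgroup.zpowers_le_of_mem hσ)) hφ1
  have hnd : ¬ ch P ∣ p * n0 := fun h => absurd (Nat.le_of_dvd (Nat.pos_of_ne_zero hm) h) (not_le.2 hrm)
  have hdv : p * n0 ∣ ch P - 1 := by
    obtain ⟨ξ, hξ⟩ := Kum_prim _ hm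
    have h3 := hφ.root hnd hξ.pow_eq_one
    rw [hφH ξ hξ.pow_eq_one, pow_one] at h3
    apply hξ.dvd_of_pow_eq_one
    have h4 := (ch_prime P).one_lt
    apply mul_right_cancel₀ (hξ.ne_zero hm)
    rw [← pow_succ, one_mul, Nat.sub_add_cancel h4.le]
    exact h3.symm
  refine ⟨ch P, ch_prime P, hrB, hdv, fun l hl => ?_, fun l hl hx => ?_⟩
  · have hl' : l ∈ S1 ∪ S2 := Finset.mem_union_left _ hl
    refine Kum_res1 hφ hp.ne_zero (hw l) ?_
    have h3 : σ ∈ MulAction.stabilizer Ga (w l) := by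
      have := hσw ⟨l, hl'⟩
      simp only [hl, if_true, one_mul] at this
      exact this
    exact (sup_le (hWs l hl') (Subgroup.zpowers_le_of_mem h3)) hφ1
  · have hl' : l ∈ S1 ∪ S2 := Finset.mem_union_right _ hl
    have hl1 : l ∉ S1 := fun h => Finset.disjoint_left.1 hd h hl
    have hlt : l < ch P := lt_of_le_of_lt (Finset.le_sup (f := id) hl') hrS
    have h3 : φ ∈ MulAction.stabilizer Ga (w l) :=
      Kum_res2 hφ hp.ne_zero (hw l)
        (fun h => absurd (Nat.le_of_dvd (hS l hl').pos h) (not_le.2 hlt))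
        (fun h => hnd (h.mul_right _)) ((dvd_mul_right _ _).trans hdv) hx
    have h4 : σ (w l) = w l := (sup_le (hWs l hl') (Subgroup.zpowers_le_of_mem h3)) hφ2
    have h5 := hσw ⟨l, hl'⟩
    simp only [hl1, if_false] at h5
    rw [h4] at h5
    exact hζ.ne_one hp.one_lt (mul_right_cancel₀ (hw0 l (hS l hl')) (by rw [← h5, one_mul]))

/-- a character killing almost all degree one Frobenius elements vanishes -/
theorem x_zero {t : ℕ} [Fact t.Prime] {H : Subgroup Ga} (hH : Op H) {θ : Ga → ℚ_[t]} (hθ : IsX H θ)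
    (m : ℕ) (hm : m ≠ 0) (h : ∀ P φ, ¬ ch P ∣ m → φ ∈ H → IsFrob P 1 φ → θ φ = 0) :
    ∀ g ∈ H, θ g = 0 := by
  intro g hg
  rw [← norm_le_zero_iff]
  refine le_of_forall_pos_le_add fun ε hε => ?_
  rw [zero_add]
  let K : Subgroup Ga :=
    { carrier := {a | a ∈ H ∧ ‖θ a‖ < ε}
      one_mem' := ⟨H.one_mem, by rw [hθ.one, norm_zero]; exact hε⟩
      mul_mem' := fun {a b} ha hb => ⟨H.mul_mem ha.1 hb.1, by
        rw [hθ.2 a ha.1 b hb.1]
        exact lt_of_le_of_lt (IsUltrametricDist.norm_add_le_max _ _) (max_lt ha.2 hb.2)⟩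
      inv_mem' := fun {a} ha => ⟨H.inv_mem ha.1, by rw [hθ.inv ha.1, norm_neg]; exact ha.2⟩ }
  have hK : (K : Set Ga) ∈ nhds (1 : Ga) := by
    have hH1 : (H : Set Ga) ∈ nhds (1 : Ga) := IsOpen.mem_nhds hH H.one_mem
    have hc : ContinuousAt (fun a => ‖θ a‖) 1 := (hθ.1.continuousAt hH1).norm
    have h1 : ∀ᶠ a in nhds (1 : Ga), ‖θ a‖ < ε :=
      hc.eventually_lt continuousAt_const (by simpa [hθ.one] using hε)
    filter_upwards [hH1, h1] with a ha hb using ⟨ha, hb⟩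
  obtain ⟨W, hW, hWn, hWK⟩ := exists_op_normal hK
  obtain ⟨r, ⟨P, φ, hP, hφ, hφ1, hφ2⟩, hr⟩ := (cheb hW g).exists_gt m
  subst hP
  have hφH : φ ∈ H := (sup_le (fun a ha => (hWK ha).1) (Subgroup.zpowers_le_of_mem hg)) hφ1
  have h0 := h P φ (fun hd => absurd (Nat.le_of_dvd (Nat.pos_of_ne_zero hm) hd) (not_le.2 hr)) hφH hφ
  have hφK : φ ∈ K := ⟨hφH, by rw [h0, norm_zero]; exact hε⟩
  have hgK : g ∈ K := (sup_le (fun a ha => hWK ha) (Subgroup.zpowers_le_of_mem hφK)) hφ2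
  exact hgK.2.le

end Vale.Agent.P024U
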