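import Mathlib

/-! The derivative of a `t`-adically continuous character.  Let `R j = 1 + t^j m B`, `f j = sup ‖Λ‖` on `R j`
(finite: `x^(t^M) ∈ R (M+1)`).  If `a, b ∈ R 1`, `a ≡ b mod t^j m` then `‖Λ a - Λ b‖ ≤ f j` (multiply by
`b' = ∑_(i<j) (1-b)^i`).  `(1 + t^j m z)^t ≡ 1 + t^(j+1) m z mod t^(j+2) m` gives
`f (j+1) ≤ max (f j / t) (f (j+2))`, and `f j → 0`, so `f (j+1) ≤ f j / t`, `f j ≤ C t^(-j)`.
Hence `Λ (1 + t^n m y) / (t^n m)` is Cauchy with error `C' t^(-n)` uniform in `y`, additive in the limit. -/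

namespace Vale.Agent.P024U
open Filter Topology

section

variable {B : Type*} [CommRing B] {t : ℕ} {m : ℕ}

theorem Lam_mono {i j : ℕ} (h : i ≤ j) {x : B} (hx : (t ^ j * m : B) ∣ x) : (t ^ i * m : B) ∣ x :=
  (mul_dvd_mul_right (pow_dvd_pow _ h) _).trans hx

theorem Lam_one {j : ℕ} {x : B} (hx : (t ^ (j + 1) * m : B) ∣ x) : (t * m : B) ∣ x := by
  simpa using Lam_mono (i := 1) (by omega) hx

theorem Lam_pw {x : B} (hx : (t * m : B) ∣ x - 1) (n : ℕ) : (t * m : B) ∣ x ^ n - 1 :=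
  hx.trans (by simpa using sub_dvd_pow_sub_pow x 1 n)

variable [Fact t.Prime]

theorem Lam_bin (ht : t ≠ 2) (j : ℕ) (z : B) : (t ^ (2 * j + 3) * m : B) ∣
    (1 + t ^ (j + 1) * m * z) ^ t - (1 + t ^ (j + 2) * m * z) := by
  have hp : t.Prime := Fact.out
  obtain ⟨s, hs⟩ : ∃ s, t = s + 3 := ⟨t - 3, by have := hp.two_le; omega⟩
  have h1 : (t : B) * (t ^ (j + 1) * m) * t ^ (j + 1) ∣ (t ^ (j + 1) * m : B) ^ t := by
    refine ⟨t ^ j * m ^ 2 * (t ^ (j + 1) * m) ^ s, ?_⟩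
    nth_rw 2 [hs]
    ring
  obtain ⟨y, hy⟩ := ZMod.exists_one_add_mul_pow_prime_eq hp (dvd_mul_right _ _) h1 z
  exact ⟨y, by rw [hy]; ring⟩

theorem Lam_step (ht : t ≠ 2) {j : ℕ} {x : B} (hx : (t ^ (j + 1) * m : B) ∣ x - 1) :
    (t ^ (j + 2) * m : B) ∣ x ^ t - 1 := by
  obtain ⟨z, hz⟩ := hx
  have h1 := (Lam_mono (i := j + 2) (by omega) (Lam_bin (m := m) ht j z)).add
    (dvd_mul_right (t ^ (j + 2) * m : B) z)
  rw [← hz, add_sub_cancel, ← sub_sub, sub_add_cancel] at h1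
  exact h1

theorem Lam_iter (ht : t ≠ 2) {x : B} (hx : (t * m : B) ∣ x - 1) (k : ℕ) :
    (t ^ (k + 1) * m : B) ∣ x ^ t ^ k - 1 := by
  induction k with
  | zero => simpa using hx
  | succ k ih =>
    rw [pow_succ t k, pow_mul]
    exact Lam_step ht ih

variable {Λ : B → ℚ_[t]}
  (hmul : ∀ x y : B, (t * m : B) ∣ x - 1 → (t * m : B) ∣ y - 1 → Λ (x * y) = Λ x + Λ y)

include hmul

theorem Lam_pow {x : B} (hx : (t * m : B) ∣ x - 1) (n : ℕ) : Λ (x ^ n) = n * Λ x := by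
  induction n with
  | zero => simpa using hmul 1 1 (by simp) (by simp)
  | succ n ih =>
    rw [pow_succ, hmul _ _ (Lam_pw hx n) hx, ih]
    push_cast
    ring

theorem Lam_diff (ht : t ≠ 2) {j : ℕ} {F : ℝ}
    (hF : ∀ x : B, (t ^ (j + 1) * m : B) ∣ x - 1 → ‖Λ x‖ ≤ F) {a b : B} (ha : (t * m : B) ∣ a - 1)
    (hb : (t * m : B) ∣ b - 1) (hab : (t ^ (j + 1) * m : B) ∣ a - b) : ‖Λ a - Λ b‖ ≤ F := by
  obtain ⟨s, hs⟩ : ∃ s, t ^ j = s + 1 :=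
    ⟨t ^ j - 1, by have := Nat.one_le_pow j t (Fact.out : t.Prime).pos; omega⟩
  have h1 := Lam_iter ht hb j
  rw [hs, pow_succ' b] at h1
  have h2 : (t ^ (j + 1) * m : B) ∣ a * b ^ s - 1 := by
    have := (hab.mul_right (b ^ s)).add h1
    rwa [sub_mul, sub_add_sub_cancel] at this
  have h3 : Λ a - Λ b = Λ (a * b ^ s) + -Λ (b * b ^ s) := by
    rw [hmul _ _ ha (Lam_pw hb s), hmul _ _ hb (Lam_pw hb s)]
    ring
  rw [h3]
  exact (Padic.nonarchimedean _ _).trans (max_le (hF _ h2) (by rw [norm_neg]; exact hF _ h1))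

theorem Lam_max (ht : t ≠ 2) {j : ℕ} {F G : ℝ}
    (hF : ∀ x : B, (t ^ (j + 1) * m : B) ∣ x - 1 → ‖Λ x‖ ≤ F)
    (hG : ∀ x : B, (t ^ (j + 3) * m : B) ∣ x - 1 → ‖Λ x‖ ≤ G) (x : B)
    (hx : (t ^ (j + 2) * m : B) ∣ x - 1) : ‖Λ x‖ ≤ max (‖(t : ℚ_[t])‖ * F) G := by
  obtain ⟨z, hz⟩ := hx
  have h0 : (t ^ (j + 1) * m : B) ∣ 1 + t ^ (j + 1) * m * z - 1 := by simp
  have h1 := Lam_mono (i := j + 2 + 1) (by omega) (Lam_bin (m := m) ht j z)
  rw [← hz, add_sub_cancel] at h1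
  have h2 := Lam_diff hmul ht hG (Lam_pw (Lam_one h0) t) (Lam_one (j := j + 1) ⟨z, hz⟩) h1
  have h3 : ‖Λ ((1 + t ^ (j + 1) * m * z) ^ t)‖ ≤ ‖(t : ℚ_[t])‖ * F := by
    rw [Lam_pow hmul (Lam_one h0), norm_mul]
    exact mul_le_mul_of_nonneg_left (hF _ h0) (norm_nonneg _)
  have h4 : Λ x = Λ ((1 + t ^ (j + 1) * m * z) ^ t) + -(Λ ((1 + t ^ (j + 1) * m * z) ^ t) - Λ x) := by
    ring
  rw [h4]
  exact (Padic.nonarchimedean _ _).trans (max_le_max h3 (by rwa [norm_neg]))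

variable (hcont : ∀ ε > 0, ∃ M : ℕ, ∀ x : B, (t * m : B) ∣ x - 1 → (t ^ M * m : B) ∣ x - 1 →
  ‖Λ x‖ < ε)

include hcont

theorem Lam_succ (ht : t ≠ 2) {j : ℕ} {F : ℝ}
    (hF : ∀ x : B, (t ^ (j + 1) * m : B) ∣ x - 1 → ‖Λ x‖ ≤ F) (x : B)
    (hx : (t ^ (j + 2) * m : B) ∣ x - 1) : ‖Λ x‖ ≤ ‖(t : ℚ_[t])‖ * F := by
  have hF0 : 0 ≤ ‖(t : ℚ_[t])‖ * F :=
    mul_nonneg (norm_nonneg _) ((norm_nonneg _).trans (hF 1 (by simp)))
  refine le_of_forall_pos_le_add fun ε hε => ?_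
  obtain ⟨M, hM⟩ := hcont ε hε
  have key : ∀ d i, j ≤ i → M ≤ i + d → ∀ x : B, (t ^ (i + 2) * m : B) ∣ x - 1 →
      ‖Λ x‖ ≤ max (‖(t : ℚ_[t])‖ * F) ε := by
    intro d
    induction d with
    | zero =>
      intro i _ hi x hx
      exact (hM x (Lam_one hx) (Lam_mono (by omega) hx)).le.trans (le_max_right _ _)
    | succ d ih =>
      intro i hj hi x hx
      have := Lam_max hmul ht (fun x hx => hF x (Lam_mono (by omega) hx))
        (ih (i + 1) (by omega) (by omega)) x hx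
      rwa [← max_assoc, max_self] at this
  exact (key M j le_rfl (by omega) x hx).trans (max_le (by linarith) (by linarith))

theorem Lam_bound (ht : t ≠ 2) : ∃ C : ℝ, ∀ (j : ℕ) (x : B), (t ^ (j + 1) * m : B) ∣ x - 1 →
    ‖Λ x‖ ≤ C * ‖(t : ℚ_[t])‖ ^ j := by
  obtain ⟨M, hM⟩ := hcont 1 one_pos
  have h0 : 0 < ‖(t : ℚ_[t])‖ ^ M :=
    pow_pos (norm_pos_iff.2 (Nat.cast_ne_zero.2 (Fact.out : t.Prime).ne_zero)) M
  refine ⟨(‖(t : ℚ_[t])‖ ^ M)⁻¹, fun j => ?_⟩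
  induction j with
  | zero =>
    intro x hx
    have h1 := Lam_one hx
    have h2 := hM _ (Lam_pw h1 _) (Lam_mono (by omega) (Lam_iter ht h1 M))
    rw [Lam_pow hmul h1, norm_mul, Nat.cast_pow, norm_pow] at h2
    rw [pow_zero, mul_one, ← one_div, le_div_iff₀' h0]
    exact h2.le
  | succ j ih =>
    intro x hx
    refine (Lam_succ hmul hcont ht ih x hx).trans_eq ?_
    ring

end

theorem lam_exists {B : Type*} [CommRing B] (t : ℕ) [Fact t.Prime] (ht : t ≠ 2) (m : ℕ) (hm : m ≠ 0)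
    (hreg : ∀ y : B, (t : B) * y = 0 → y = 0) (Λ : B → ℚ_[t])
    (hmul : ∀ x y : B, (t * m : B) ∣ x - 1 → (t * m : B) ∣ y - 1 → Λ (x * y) = Λ x + Λ y)
    (hcont : ∀ ε > 0, ∃ M : ℕ, ∀ x : B, (t * m : B) ∣ x - 1 → (t ^ M * m : B) ∣ x - 1 → ‖Λ x‖ < ε) :
    ∃ lam : B →+ ℚ_[t],
      (∀ y, Tendsto (fun n : ℕ => Λ (1 + t ^ n * m * y) / (t ^ n * m)) atTop (𝓝 (lam y))) ∧
      ∀ x : B, (t * m : B) ∣ x - 1 → ∀ y : ℕ → B, (∀ k, (t : B) ^ k * y k = x ^ t ^ k - 1) →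
        Tendsto (fun k => lam (y k)) atTop (𝓝 (Λ x)) := by
  obtain ⟨C, hC⟩ := Lam_bound hmul hcont ht
  have ht0 : (t : ℚ_[t]) ≠ 0 := Nat.cast_ne_zero.2 (Fact.out : t.Prime).ne_zero
  have hm0 : (m : ℚ_[t]) ≠ 0 := Nat.cast_ne_zero.2 hm
  have hq0 : 0 < ‖(t : ℚ_[t])‖ := norm_pos_iff.2 ht0
  have hmq : 0 < ‖(m : ℚ_[t])‖ := norm_pos_iff.2 hm0
  have hq1 : ‖(t : ℚ_[t])‖ < 1 := Padic.norm_p_lt_one
  have h0 : ∀ (n : ℕ) (y : B), (t * m : B) ∣ 1 + t ^ (n + 1) * m * y - 1 := fun n y =>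
    Lam_one (j := n) (by simp)
  let a : B → ℕ → ℚ_[t] := fun y n => Λ (1 + t ^ (n + 1) * m * y) / (t ^ (n + 1) * m)
  have hd : ∀ y n, dist (a y n) (a y (n + 1)) ≤ C / ‖(m : ℚ_[t])‖ * ‖(t : ℚ_[t])‖ ^ n := by
    intro y n
    have h1 := Lam_diff hmul ht (hC (2 * n + 2)) (Lam_pw (h0 n y) t) (h0 (n + 1) y) (Lam_bin ht n y)
    have h2 : a y n - a y (n + 1) = (Λ ((1 + t ^ (n + 1) * m * y) ^ t) -
        Λ (1 + t ^ (n + 1 + 1) * m * y)) / (t ^ (n + 2) * m) := by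
      rw [Lam_pow hmul (h0 n y)]
      simp only [a]
      field_simp
      ring
    rw [dist_eq_norm, h2, norm_div, norm_mul, norm_pow, div_le_iff₀ (by positivity)]
    refine h1.trans_eq ?_
    field_simp
    ring
  choose l hl using fun y => cauchySeq_tendsto_of_complete (cauchySeq_of_le_geometric _ _ hq1 (hd y))
  have hg : ∀ K : ℝ, Tendsto (fun n : ℕ => K * ‖(t : ℚ_[t])‖ ^ n) atTop (𝓝 0) := fun K => by
    simpa using (tendsto_pow_atTop_nhds_zero_of_lt_one hq0.le hq1).const_mul K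
  have hadd : ∀ y y', l (y + y') = l y + l y' := fun y y' => by
    refine sub_eq_zero.1 (tendsto_nhds_unique ((hl (y + y')).sub ((hl y).add (hl y'))) ?_)
    refine squeeze_zero_norm (fun n => ?_) (hg (C / ‖(m : ℚ_[t])‖))
    have e : (1 + t ^ (n + 1) * m * y) * (1 + t ^ (n + 1) * m * y') =
        1 + t ^ (n + 1) * m * (y + y' + t ^ (n + 1) * m * y * y') := by ring
    have h1 := Lam_diff hmul ht (hC (2 * n + 1)) (h0 n (y + y'))
      (h0 n (y + y' + t ^ (n + 1) * m * y * y')) ⟨-(m * y * y'), by ring⟩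
    rw [← e, hmul _ _ (h0 n y) (h0 n y')] at h1
    simp only [a]
    rw [← add_div, ← sub_div, norm_div, norm_mul, norm_pow, div_le_iff₀ (by positivity)]
    refine h1.trans_eq ?_
    field_simp
    ring
  refine ⟨AddMonoidHom.mk' l hadd, fun y => (tendsto_add_atTop_iff_nat 1).1 (hl y),
    fun x hx y hy => ?_⟩
  have hreg' : ∀ (k : ℕ) (y : B), (t : B) ^ k * y = 0 → y = 0 := fun k => by
    induction k with
    | zero => simp
    | succ k ih => exact fun y h => ih y (hreg _ (by rw [← h]; ring))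
  rw [tendsto_iff_norm_sub_tendsto_zero]
  refine squeeze_zero (fun _ => norm_nonneg _) (fun k => ?_)
    (hg (‖(t * m : ℚ_[t])‖ * (C / ‖(m : ℚ_[t])‖ / (1 - ‖(t : ℚ_[t])‖))))
  obtain ⟨z, hz⟩ := Lam_iter ht hx k
  have e1 : y k = (t * m) • z := by
    refine sub_eq_zero.1 (hreg' k _ ?_)
    rw [mul_sub, hy, hz, nsmul_eq_mul]
    push_cast
    ring
  have e2 : Λ x = t * m * a z k := by
    simp only [a]
    rw [← hz, add_sub_cancel, Lam_pow hmul hx]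
    push_cast
    field_simp
    ring
  have h1 := dist_le_of_le_geometric_of_tendsto _ _ hq1 (hd z) (hl z) k
  rw [e1, map_nsmul, e2, nsmul_eq_mul, Nat.cast_mul, ← mul_sub, norm_mul, norm_sub_rev,
    ← dist_eq_norm, mul_assoc]
  refine mul_le_mul_of_nonneg_left (h1.trans_eq ?_) (norm_nonneg _)
  ring

end Vale.Agent.P024U
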