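import Vale.Agent.P024U.Tame

/-! Finite quotients of `Dec P ∩ V`, and characters on decomposition groups.
`loc_struct`: `σ0` from `tame_gen`, `φ = frob V P`, `J = F (Ine P ∩ V ∩ Groot)`; use `dec_decomp'`, `tame_cont` (with the
normal core of `W`), `tame_order`, `tame_conj` (`IsFrob.root`).
`loc_conj`: the same tools.  `x_unr`: a continuous character with values in `ℚ_[t]` has open kernel modulo every ball
`t^n ℤ_t` (a subgroup); elements of `Groot` are killed (`tame_order`, multiplication by `k` prime to `t` is an isometry);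
`θ (φ σ φ⁻¹) = θ σ` and `= q θ σ` modulo the ball, for all `n`, so `(q - 1) θ σ = 0`.
`x_prop`: by `dec_decomp'`, `θ u - k θ φ` and `θ' u - k θ' φ` are simultaneously small. -/

namespace Vale.Agent.P024U

theorem Loc_nd {P : Pr} {r : ℕ} (hr : r.Prime) (hP : ch P ≠ r) (N : ℕ) : ¬ ch P ∣ r ^ N :=
  fun h => hP ((Nat.prime_dvd_prime_iff_eq (ch_prime P) hr).1 ((ch_prime P).dvd_of_dvd_pow h))

theorem Loc_inv_pow (g : Ga) (z : Om) (m a : ℕ) (hz : z ^ m = (a : Om)) :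
    (g⁻¹ z) ^ m = (a : Om) := by
  rw [← map_pow, hz, map_natCast]

theorem Loc_groot (r a : ℕ) (g : Ga) {ρ : Ga} (h : ρ ∈ Groot r (a : Om)) :
    g * ρ * g⁻¹ ∈ Groot r (a : Om) := by
  intro n z hz
  have h1 : ρ (g⁻¹ z) = g⁻¹ z := by
    refine h n _ ?_
    rcases hz with hz | hz
    · left; rw [← map_pow, hz, map_one]
    · right; exact Loc_inv_pow g z _ a hz
  rw [AlgEquiv.mul_apply, AlgEquiv.mul_apply, h1]
  exact g.apply_symm_apply z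

theorem Loc_ine {P : Pr} {g σ : Ga} (hg : g ∈ Dec P) (hσ : σ ∈ Ine P) : g * σ * g⁻¹ ∈ Ine P := by
  have := conj_mem_Ine g hσ
  rwa [mem_Dec.1 hg] at this

/-- two inertia elements with the same action on the roots of high level -/
theorem Loc_cmp {P : Pr} {r : ℕ} (hr : r.Prime) (hP : ch P ≠ r) {V W : Subgroup Ga} (hV : Op V)
    (hW : Op W) : ∃ N : ℕ, ∀ σ ∈ Ine P, σ ∈ V → ∀ σ' ∈ Ine P, σ' ∈ V →
      (∀ z : Om, z ^ r ^ N = (ch P : Om) → σ z = σ' z) →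
      ∃ ρ ∈ Ine P, ρ ∈ V ∧ ρ ∈ Groot r (ch P : Om) ∧ ∃ w ∈ Ine P, w ∈ V ∧ w ∈ W ∧
        σ = ρ * w * σ' := by
  obtain ⟨N, hN⟩ := tame_cont hr hP hV hW
  refine ⟨N, fun σ hσ hσV σ' hσ' hσV' h => ?_⟩
  have h1 : σ * σ'⁻¹ ∈ Ine P := mul_mem hσ (inv_mem hσ')
  have h2 : σ * σ'⁻¹ ∈ V := mul_mem hσV (inv_mem hσV')
  obtain ⟨ρ, hρ, hρV, hρG, hw⟩ := hN _ h1 h2 (fun z hz => by
    rw [AlgEquiv.mul_apply, h _ (Loc_inv_pow σ' z _ _ hz)]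
    exact σ'.apply_symm_apply z)
  refine ⟨ρ, hρ, hρV, hρG, ρ⁻¹ * (σ * σ'⁻¹), mul_mem (inv_mem hρ) h1, mul_mem (inv_mem hρV) h2,
    hw, ?_⟩
  group

theorem Loc_exp (g : Ga) {m : ℕ} (hm : m ≠ 0) :
    ∃ c : ℕ, ∀ z : Om, z ^ m = 1 → g z = z ^ c := by
  haveI : NeZero m := ⟨hm⟩
  obtain ⟨ζ, hζ⟩ := HasEnoughRootsOfUnity.exists_primitiveRoot Om m
  have h1 : (g ζ) ^ m = 1 := by rw [← map_pow, hζ.pow_eq_one, map_one]
  obtain ⟨c, -, hc⟩ := hζ.eq_pow_of_pow_eq_one h1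
  refine ⟨c, fun z hz => ?_⟩
  obtain ⟨i, -, rfl⟩ := hζ.eq_pow_of_pow_eq_one hz
  rw [map_pow, ← hc, ← pow_mul, ← pow_mul, mul_comm]

theorem Loc_mod {m c c' : ℕ} (hm : m ≠ 0) (h : ∀ z : Om, z ^ m = 1 → z ^ c = z ^ c') :
    c ≡ c' [MOD m] := by
  haveI : NeZero m := ⟨hm⟩
  obtain ⟨ζ, hζ⟩ := HasEnoughRootsOfUnity.exists_primitiveRoot Om m
  have h1 : IsOfFinOrder ζ := hζ.isOfFinOrder hm
  have := h1.pow_eq_pow_iff_modEq.1 (h ζ hζ.pow_eq_one)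
  rwa [← hζ.eq_orderOf] at this

theorem loc_struct {P : Pr} {r : ℕ} (hr : r.Prime) (hP : ch P ≠ r) {V : Subgroup Ga} (hV : Op V) :
    ∃ σ0 : ↥(Dec P ⊓ V), (σ0 : Ga) ∈ Ine P ∧ ∃ φ : ↥(Dec P ⊓ V), IsFrob P (deg V P) φ ∧
      ∀ (Q : Type) [Group Q] (F : ↥(Dec P ⊓ V) →* Q),
        (∃ W : Subgroup Ga, Op W ∧ ∀ g : ↥(Dec P ⊓ V), (g : Ga) ∈ W → F g = 1) →
        ∃ J : Subgroup Q, (∀ ρ ∈ J, ∃ k : ℕ, ¬ r ∣ k ∧ ρ ^ k = 1) ∧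
          (∀ g, ∀ ρ ∈ J, F g * ρ * (F g)⁻¹ ∈ J) ∧ J ≤ F.range ∧
          (∀ g, ∃ i j : ℕ, ∃ ρ ∈ J, F g = ρ * F σ0 ^ i * F φ ^ j) ∧
          (∀ g : ↥(Dec P ⊓ V), (g : Ga) ∈ Ine P → ∃ i : ℕ, ∃ ρ ∈ J, F g = ρ * F σ0 ^ i) ∧
          (F φ * F σ0 * (F φ)⁻¹ * (F σ0 ^ ch P ^ deg V P)⁻¹ ∈ J) ∧
          (∃ N : ℕ, F σ0 ^ r ^ N ∈ J) := by
  obtain ⟨σ0, hσ0, hσ0V, hgen⟩ := tame_gen hr hP hV
  obtain ⟨hφV, hφ⟩ := frob_spec hV P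
  let s : ↥(Dec P ⊓ V) := ⟨σ0, Ine_le_Dec P hσ0, hσ0V⟩
  let φ : ↥(Dec P ⊓ V) := ⟨frob V P, hφ.mem_Dec, hφV⟩
  refine ⟨s, hσ0, φ, hφ, ?_⟩
  rintro Q _ F ⟨W, hW, hF⟩
  obtain ⟨N, hN⟩ := Loc_cmp hr hP hV hW
  let J : Subgroup Q := ((Ine P ⊓ Groot r (ch P : Om)).subgroupOf (Dec P ⊓ V)).map F
  have key : ∀ a b : ↥(Dec P ⊓ V), (a : Ga) ∈ Ine P → (b : Ga) ∈ Ine P →
      (∀ z : Om, z ^ r ^ N = (ch P : Om) → (a : Ga) z = (b : Ga) z) →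
      ∃ ρ ∈ J, F a = ρ * F b := by
    intro a b ha hb h
    obtain ⟨ρ, hρ, hρV, hρG, w, hw, hwV, hwW, e⟩ := hN _ ha a.2.2 _ hb b.2.2 h
    let ρ' : ↥(Dec P ⊓ V) := ⟨ρ, Ine_le_Dec P hρ, hρV⟩
    let w' : ↥(Dec P ⊓ V) := ⟨w, Ine_le_Dec P hw, hwV⟩
    have e' : a = ρ' * w' * b := Subtype.ext e
    refine ⟨F ρ', ⟨ρ', ⟨hρ, hρG⟩, rfl⟩, ?_⟩
    rw [e', map_mul, map_mul, hF w' hwW, mul_one]
  have h5 : ∀ g : ↥(Dec P ⊓ V), (g : Ga) ∈ Ine P → ∃ i : ℕ, ∃ ρ ∈ J, F g = ρ * F s ^ i := by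
    intro g hg
    obtain ⟨i, hi⟩ := hgen N g hg g.2.2
    obtain ⟨ρ, hρ, e⟩ := key g (s ^ i) hg (pow_mem hσ0 i) hi
    exact ⟨i, ρ, hρ, by rw [e, map_pow]⟩
  refine ⟨J, ?_, ?_, Subgroup.map_le_range _ _, ?_, h5, ?_, N, ?_⟩
  · rintro _ ⟨g, ⟨-, hg⟩, rfl⟩
    obtain ⟨k, hk, hkW⟩ := tame_order hr hP g.2.1 hg hW
    exact ⟨k, hk, by rw [← map_pow]; exact hF _ hkW⟩
  · rintro g _ ⟨ρ, ⟨hρ, hρG⟩, rfl⟩
    exact ⟨g * ρ * g⁻¹, ⟨Loc_ine g.2.1 hρ, Loc_groot r _ _ hρG⟩, by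
      rw [map_mul, map_mul, map_inv]⟩
  · intro g
    obtain ⟨k, ρ, hρ, hρV, w, hw, hwV, hwD, e⟩ := dec_decomp' hV P hW g.2.1 g.2.2
    let ρ' : ↥(Dec P ⊓ V) := ⟨ρ, Ine_le_Dec P hρ, hρV⟩
    let w' : ↥(Dec P ⊓ V) := ⟨w, hwD, hwV⟩
    have e' : g = φ ^ k * ρ' * w' := Subtype.ext e
    obtain ⟨i, τ, hτ, e2⟩ := h5 (φ ^ k * ρ' * (φ ^ k)⁻¹) (Loc_ine (φ ^ k).2.1 hρ)
    refine ⟨i, k, τ, hτ, ?_⟩
    rw [← e2, e', map_mul, hF w' hw, mul_one, ← map_pow, ← map_mul, inv_mul_cancel_right]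
  · obtain ⟨ρ, hρ, e⟩ := key (φ * s * φ⁻¹) (s ^ ch P ^ deg V P) (Loc_ine φ.2.1 hσ0)
      (pow_mem hσ0 _) (fun z hz =>
        tame_conj hr hP hσ0 N _ (fun y hy => hφ.root (Loc_nd hr hP N) hy) z hz)
    rw [map_mul, map_mul, map_inv, map_pow] at e
    rw [e, mul_inv_cancel_right]
    exact hρ
  · obtain ⟨ρ, hρ, e⟩ := key (s ^ r ^ N) 1 (pow_mem hσ0 _) (one_mem _) (fun z hz => by
      have h := tame_conj hr hP (g := 1) hσ0 N (1 + r ^ N) (fun y hy => by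
        rw [pow_add, hy, pow_one, mul_one]; rfl) z hz
      rw [one_mul, inv_one, mul_one, pow_add, pow_one, AlgEquiv.mul_apply] at h
      exact (σ0.injective h).symm)
    rw [map_one, mul_one, map_pow] at e
    rw [e]
    exact hρ

/-- a locally constant homomorphism `f` from `Ine P ∩ V` to a commutative group killed by `r^n` transforms under
`Dec P` through the cyclotomic character -/
theorem loc_conj {P : Pr} {r : ℕ} (hr : r.Prime) (hP : ch P ≠ r) {V : Subgroup Ga} (hV : Op V)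
    {A : Type*} [CommGroup A] (n : ℕ) (f : Ga → A)
    (hf : ∀ a ∈ Ine P, a ∈ V → ∀ b ∈ Ine P, b ∈ V → f (a * b) = f a * f b)
    (hA : ∀ a ∈ Ine P, a ∈ V → f a ^ r ^ n = 1)
    (hW : ∃ W : Subgroup Ga, Op W ∧ ∀ a ∈ Ine P, a ∈ V → a ∈ W → f a = 1)
    {g σ : Ga} (hg : g ∈ Dec P) (hσ : σ ∈ Ine P) (hσV : σ ∈ V) (hgV : g * σ * g⁻¹ ∈ V) (c : ℕ)
    (hc : ∀ z : Om, z ^ r ^ n = 1 → g z = z ^ c) : f (g * σ * g⁻¹) = f σ ^ c := by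
  obtain ⟨W, hW, hf1⟩ := hW
  obtain ⟨N, hN⟩ := Loc_cmp hr hP hV hW
  obtain ⟨c', hc'⟩ := Loc_exp g (pow_ne_zero (N + n) hr.ne_zero)
  have fpow : ∀ a ∈ Ine P, a ∈ V → ∀ k : ℕ, f (a ^ k) = f a ^ k := by
    intro a ha haV k
    induction k with
    | zero => rw [pow_zero, pow_zero]; exact hf1 1 (one_mem _) (one_mem _) (one_mem _)
    | succ k ih => rw [pow_succ, pow_succ, hf _ (pow_mem ha k) (pow_mem haV k) a ha haV, ih]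
  obtain ⟨ρ, hρ, hρV, hρG, w, hw, hwV, hwW, e⟩ := hN _ (Loc_ine hg hσ) hgV _ (pow_mem hσ c')
    (pow_mem hσV c') (fun z hz => tame_conj hr hP hσ N c' (fun y hy => hc' y (by
      rw [pow_add, pow_mul, hy, one_pow])) z hz)
  have hρ1 : f ρ = 1 := by
    obtain ⟨k, hk, hkW⟩ := tame_order hr hP (Ine_le_Dec P hρ) hρG hW
    have h1 : f ρ ^ k = 1 := by
      rw [← fpow ρ hρ hρV]; exact hf1 _ (pow_mem hρ k) (pow_mem hρV k) hkW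
    have h2 : Nat.Coprime k (r ^ n) :=
      Nat.Coprime.pow_right n ((hr.coprime_iff_not_dvd.2 hk).symm)
    have := pow_gcd_eq_one.2 ⟨h1, hA ρ hρ hρV⟩
    rwa [h2, pow_one] at this
  have hm : c' ≡ c [MOD r ^ n] := Loc_mod (pow_ne_zero n hr.ne_zero) (fun z hz => by
    rw [← hc z hz, ← hc' z (by rw [pow_add, mul_comm, pow_mul, hz, one_pow])])
  rw [e, hf _ (mul_mem hρ hw) (mul_mem hρV hwV) _ (pow_mem hσ c') (pow_mem hσV c'),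
    hf _ hρ hρV _ hw hwV, hρ1, hf1 w hw hwV hwW, one_mul, one_mul, fpow σ hσ hσV]
  exact pow_eq_pow_of_modEq hm (hA σ hσ hσV)

section
variable {t : ℕ} [Fact t.Prime] {H : Subgroup Ga} {θ : Ga → ℚ_[t]}

theorem Loc_one (hθ : IsX H θ) : θ 1 = 0 := by
  have := hθ.2 1 (one_mem _) 1 (one_mem _)
  rw [mul_one] at this
  exact left_eq_add.1 this

theorem Loc_pow (hθ : IsX H θ) {a : Ga} (ha : a ∈ H) (k : ℕ) : θ (a ^ k) = k * θ a := by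
  induction k with
  | zero => rw [pow_zero, Loc_one hθ]; simp
  | succ k ih => rw [pow_succ, hθ.2 _ (pow_mem ha k) a ha, ih]; push_cast; ring

theorem Loc_small (hH : Op H) (hθ : IsX H θ) {ε : ℝ} (hε : 0 < ε) :
    ∃ W : Subgroup Ga, Op W ∧ ∀ w ∈ W, ‖θ w‖ < ε := by
  have h1 : ContinuousAt θ 1 := hθ.1.continuousAt (IsOpen.mem_nhds hH (one_mem H))
  have h2 : θ ⁻¹' Metric.ball 0 ε ∈ nhds (1 : Ga) :=
    h1 (by rw [Loc_one hθ]; exact Metric.ball_mem_nhds 0 hε)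
  obtain ⟨W, hW, -, h⟩ := exists_op_normal h2
  exact ⟨W, hW, fun w hw => mem_ball_zero_iff.1 (h hw)⟩

theorem Loc_zero {x : ℚ_[t]} (h : ∀ ε : ℝ, 0 < ε → ‖x‖ < ε) : x = 0 := by
  by_contra hx
  exact lt_irrefl _ (h _ (norm_pos_iff.2 hx))

theorem Loc_wild (hH : Op H) (hθ : IsX H θ) {P : Pr} (hP : ch P ≠ t) {ρ : Ga} (hρ : ρ ∈ Dec P)
    (hρH : ρ ∈ H) (hG : ρ ∈ Groot t (ch P : Om)) : θ ρ = 0 := by
  refine Loc_zero fun ε hε => ?_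
  obtain ⟨W, hW, h⟩ := Loc_small hH hθ hε
  obtain ⟨k, hk, hkW⟩ := tame_order (Fact.out : t.Prime) hP hρ hG hW
  have h1 := h _ hkW
  have h2 : ‖(k : ℚ_[t])‖ = 1 :=
    Padic.norm_natCast_eq_one_iff.2 ((Nat.Prime.coprime_iff_not_dvd Fact.out).2 hk)
  rwa [Loc_pow hθ hρH, norm_mul, h2, one_mul] at h1

end

theorem x_unr {t : ℕ} [Fact t.Prime] {H : Subgroup Ga} (hH : Op H) {θ : Ga → ℚ_[t]} (hθ : IsX H θ)
    {P : Pr} (hP : ch P ≠ t) {σ : Ga} (hσ : σ ∈ Ine P) (hσH : σ ∈ H) : θ σ = 0 := by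
  have hr : t.Prime := Fact.out
  obtain ⟨hφH, hφ⟩ := frob_spec hH P
  set φ := frob H P
  set q := ch P ^ deg H P with hq
  have hq1 : 1 < q := Nat.one_lt_pow (deg_pos hH P).ne' (ch_prime P).one_lt
  have h0 : θ σ - q * θ σ = 0 := by
    refine Loc_zero fun ε hε => ?_
    obtain ⟨W, hW, h⟩ := Loc_small hH hθ hε
    obtain ⟨N, hN⟩ := Loc_cmp hr hP hH hW
    have hc : φ * σ * φ⁻¹ ∈ H := mul_mem (mul_mem hφH hσH) (inv_mem hφH)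
    obtain ⟨ρ, hρ, hρV, hρG, w, hw, hwV, hwW, e⟩ := hN _ (Loc_ine hφ.mem_Dec hσ) hc _
      (pow_mem hσ q) (pow_mem hσH q) (fun z hz =>
        tame_conj hr hP hσ N _ (fun y hy => hφ.root (Loc_nd hr hP N) hy) z hz)
    have e1 : θ (φ * σ * φ⁻¹) = θ σ := by
      have a1 := hθ.2 _ hc φ hφH
      rw [inv_mul_cancel_right, hθ.2 φ hφH σ hσH] at a1
      linear_combination -a1
    rw [e, hθ.2 _ (mul_mem hρV hwV) _ (pow_mem hσH q), hθ.2 _ hρV _ hwV,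
      Loc_wild hH hθ hP (Ine_le_Dec P hρ) hρV hρG, Loc_pow hθ hσH] at e1
    have e2 : θ σ - q * θ σ = θ w := by linear_combination -e1
    rw [e2]
    exact h w hwW
  have h1 : (1 - (q : ℚ_[t])) ≠ 0 := by
    rw [sub_ne_zero]
    exact_mod_cast hq1.ne
  have h2 : (1 - (q : ℚ_[t])) * θ σ = 0 := by linear_combination h0
  exact (mul_eq_zero.1 h2).resolve_left h1

theorem Loc_line {t : ℕ} [Fact t.Prime] {H : Subgroup Ga} (hH : Op H) {θ θ' : Ga → ℚ_[t]}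
    (hθ : IsX H θ) (hθ' : IsX H θ') {P : Pr} (hP : ch P ≠ t) {u : Ga} (hu : u ∈ Dec P)
    (huH : u ∈ H) : ∃ c : ℚ_[t], θ u = c * θ (frob H P) ∧ θ' u = c * θ' (frob H P) := by
  have hφH := (frob_spec hH P).1
  set φ := frob H P with hφ
  let L : Submodule ℚ_[t] (ℚ_[t] × ℚ_[t]) := Submodule.span ℚ_[t] {(θ φ, θ' φ)}
  have hL : IsClosed (L : Set (ℚ_[t] × ℚ_[t])) := Submodule.closed_of_finiteDimensional L
  have hm : (θ u, θ' u) ∈ L := by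
    have : (θ u, θ' u) ∈ closure (L : Set (ℚ_[t] × ℚ_[t])) := by
      refine Metric.mem_closure_iff.2 fun ε hε => ?_
      obtain ⟨W, hW, h⟩ := Loc_small hH hθ hε
      obtain ⟨W', hW', h'⟩ := Loc_small hH hθ' hε
      obtain ⟨k, ρ, hρ, hρH, w, hw, hwH, -, e⟩ := dec_decomp' hH P (hW.inf hW') hu huH
      have key : ∀ η : Ga → ℚ_[t], IsX H η → η u - k * η φ = η w := by
        intro η hη
        rw [e, hη.2 _ (mul_mem (pow_mem hφH k) hρH) _ hwH, hη.2 _ (pow_mem hφH k) _ hρH,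
          x_unr hH hη hP hρ hρH, Loc_pow hη hφH]
        ring
      refine ⟨(k : ℚ_[t]) • (θ φ, θ' φ),
        L.smul_mem _ (Submodule.mem_span_singleton_self _), ?_⟩
      rw [Prod.dist_eq, max_lt_iff, dist_eq_norm, dist_eq_norm]
      simp only [Prod.smul_mk, smul_eq_mul]
      rw [key θ hθ, key θ' hθ']
      exact ⟨h w hw.1, h' w hw.2⟩
    rwa [hL.closure_eq] at this
  obtain ⟨c, hc⟩ := Submodule.mem_span_singleton.1 hm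
  rw [Prod.smul_mk, Prod.mk.injEq] at hc
  exact ⟨c, hc.1.symm, hc.2.symm⟩

theorem x_prop {t : ℕ} [Fact t.Prime] {H : Subgroup Ga} (hH : Op H) {θ θ' : Ga → ℚ_[t]}
    (hθ : IsX H θ) (hθ' : IsX H θ') {P : Pr} (hP : ch P ≠ t) {u v : Ga} (hu : u ∈ Dec P)
    (huH : u ∈ H) (hv : v ∈ Dec P) (hvH : v ∈ H) : θ u * θ' v = θ v * θ' u := by
  obtain ⟨c, h1, h2⟩ := Loc_line hH hθ hθ' hP hu huH
  obtain ⟨d, h3, h4⟩ := Loc_line hH hθ hθ' hP hv hvH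
  rw [h1, h2, h3, h4]
  ring

end Vale.Agent.P024U
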