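import Vale.Agent.P024U.ArtL
import Vale.Agent.P024U.Lam
import Vale.Agent.P024U.Loc
import Vale.Agent.P024U.Kum

/-! The linear form attached to a `t`-adic character.  `Λ x = art W θ (dv (t m) x)` on `𝓞 (fix W)`.  `hcont` of `lam_exists`: scale `θ` (`IsX.exists_int`), reduce modulo `t^n`,
`x_unr` shows that the reduction is unramified outside `t m`, `art_rec` gives `M`; for `x ≡ 1 mod t^M m` the power `x^(m'^M)`, `m'` the prime to `t` part of `m`, is
`≡ 1 mod (t m)^M`... (choose the exponent of `t` large enough), so lies in the ray (`dvd_iff_sm`), and `‖m'‖ = 1`.  `art` commutes with additive maps of the target (`Div.induction`).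
`lamX` is defined as a limit so that linearity and equivariance follow from uniqueness of limits (`dv_smul`, `act_ind`, `art_ind`, `Div.induction`).
`lam_inj`: `prime_gen` and `x_zero`. -/

namespace Vale.Agent.P024U
open NumberField Filter Topology

variable {t : ℕ} [Fact t.Prime]

/-- the derivative at one of the idele class character attached to `θ` -/
noncomputable def lamX (W : Subgroup Ga) (m : ℕ) (θ : Ga → ℚ_[t]) (y : Om) : ℚ_[t] :=
  atTop.limUnder fun n : ℕ => art W θ (dv (t * m) (1 + t ^ n * m * y)) / (t ^ n * m)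

variable {W : Subgroup Ga} {m : ℕ}

theorem AR_fin (hW : Op W) {d : Pr → ℤ} (hd : d ∈ Div W m) :
    (Function.support fun o : MulAction.orbitRel.Quotient W Pr => d o.out).Finite := by
  refine Div.induction hW
    (fun d => (Function.support fun o : MulAction.orbitRel.Quotient W Pr => d o.out).Finite)
    (by simp) (fun a _ b _ ha hb => (ha.union hb).subset (Function.support_add _ _))
    (fun P c _ => (Set.finite_singleton (Quotient.mk _ P)).subset fun o ho => ?_) d hd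
  have h1 : ∃ h ∈ W, h • P = o.out := by
    by_contra h
    exact ho (by simp [ind, h])
  obtain ⟨h, hh, e⟩ := h1
  rw [Set.mem_singleton_iff, ← o.out_eq]
  exact Quotient.sound ⟨⟨h, hh⟩, e⟩

theorem AR_map {A B : Type*} [AddCommGroup A] [AddCommGroup B] (hW : Op W) (f : A →+ B)
    {θ : Ga → A} {η : Ga → B} (h : ∀ g ∈ W, η g = f (θ g)) {d : Pr → ℤ} (hd : d ∈ Div W m) :
    art W η d = f (art W θ d) := by
  rw [art, art, lift, lift, f.map_finsum ((AR_fin hW hd).subset fun o ho h0 => ho (by simp [h0]))]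
  exact finsum_congr fun o => by rw [map_zsmul, h _ (frob_spec hW _).1]

/-- the inclusion of the ring of integers of `fix W` in `Om` -/
noncomputable def AR_j (W : Subgroup Ga) : 𝓞 (fix W) →+* Om :=
  (algebraMap Oi Om).comp (incl W)

theorem AR_j_eq (x : 𝓞 (fix W)) : ((x : fix W) : Om) = AR_j W x := rfl

theorem AR_j_mem (x : 𝓞 (fix W)) : AR_j W x ∈ fix W := (x : fix W).2

theorem AR_ne {x : 𝓞 (fix W)} (h : (t * m : 𝓞 (fix W)) ∣ x - 1) : AR_j W x ≠ 0 := by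
  intro h0
  have h1 : x = 0 := RingOfIntegers.ext (Subtype.ext h0)
  obtain ⟨P, hP⟩ := exists_pr t Fact.out
  have h2 := (natCast_mem_below (H := W) P t).2 hP.dvd
  rw [h1, zero_sub, dvd_neg] at h
  exact (below W P).isPrime.ne_top ((Ideal.eq_top_iff_one _).2
    (Ideal.mem_of_dvd _ ((dvd_mul_right _ _).trans h) h2))

theorem AR_mul (hW : Op W) (hu : UnrOut W m) {A : Type*} [AddCommGroup A] (θ : Ga → A)
    (x y : 𝓞 (fix W)) (hx : (t * m : 𝓞 (fix W)) ∣ x - 1) (hy : (t * m : 𝓞 (fix W)) ∣ y - 1) :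
    art W θ (dv (t * m) (AR_j W (x * y))) =
      art W θ (dv (t * m) (AR_j W x)) + art W θ (dv (t * m) (AR_j W y)) := by
  rw [map_mul, dv_mul (hu.mono le_rfl (dvd_mul_left m t)) (AR_j_mem x) (AR_j_mem y) (AR_ne hx)
    (AR_ne hy)]
  exact lift_add hW _ (dv_mem _ (AR_j_mem x)) (dv_mem _ (AR_j_mem y))

theorem AR_pow (hW : Op W) (hu : UnrOut W m) {A : Type*} [AddCommGroup A] (θ : Ga → A)
    (x : 𝓞 (fix W)) (hx : (t * m : 𝓞 (fix W)) ∣ x - 1) (k : ℕ) :
    art W θ (dv (t * m) (AR_j W (x ^ k))) = k • art W θ (dv (t * m) (AR_j W x)) := by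
  induction k with
  | zero =>
    have := AR_mul (t := t) hW hu θ 1 1 (by simp) (by simp)
    rw [mul_one, left_eq_add] at this
    rw [pow_zero, this, zero_smul]
  | succ k ih =>
    rw [pow_succ, AR_mul hW hu θ _ _ (hx.trans (sub_one_dvd_pow_sub_one x k)) hx, ih, succ_nsmul]

theorem AR_sm {P : Pr} {M : ℕ} {z : 𝓞 (fix W)} (h : (ch P : 𝓞 (fix W)) ^ M ∣ z) :
    Sm P M (AR_j W z) := by
  obtain ⟨w, rfl⟩ := h
  have h1 : Sm P M ((ch P : Om) ^ M) := Or.inr (by rw [val_pow, val_ch, mul_one])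
  have h2 : Sm P 0 (AR_j W w) := Or.inr (val_nonneg P (incl W w))
  simpa using h1.mul h2

theorem AR_unr {P : Pr} (hP : ¬ ch P ∣ t * m) : ch P ≠ t := fun e => hP (e ▸ dvd_mul_right t m)

theorem AR_cont (ht : t ≠ 2) (hW : Op W) (h4 : W ≤ Gmu 4) (hm : m ≠ 0) (hu : UnrOut W m)
    {θ : Ga → ℚ_[t]} (hθ : IsX W θ) (ε : ℝ) (hε : ε > 0) :
    ∃ M : ℕ, ∀ x : 𝓞 (fix W), (t * m : 𝓞 (fix W)) ∣ x - 1 → (t ^ M * m : 𝓞 (fix W)) ∣ x - 1 →
      ‖art W θ (dv (t * m) (AR_j W x))‖ < ε := by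
  have hp : t.Prime := Fact.out
  have h1 : (1 : ℝ) < t := by exact_mod_cast hp.one_lt
  have h0 : (0 : ℝ) < t := zero_lt_one.trans h1
  obtain ⟨c, η, hη, e⟩ := hθ.exists_int hW.cl
  obtain ⟨n, hn⟩ := exists_pow_lt_of_lt_one (x := ε * (t : ℝ)⁻¹ ^ c) (by positivity)
    (inv_lt_one_of_one_lt₀ h1)
  have hX := hη.toZModPow n
  obtain ⟨M, hM⟩ := art_rec hp ht hW h4 hX (mul_ne_zero hp.ne_zero hm) fun P hP σ hσ => by
    have h2 := hu.mono le_rfl (dvd_mul_left m t) P hP hσ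
    have h3 := e σ h2
    rw [x_unr hW hθ (AR_unr hP) hσ h2, mul_zero, PadicInt.coe_eq_zero] at h3
    exact hX.mem_kerX.2 ⟨h2, by simp only [h3, map_zero]⟩
  obtain ⟨a, m', hm', em⟩ := Nat.exists_eq_pow_mul_and_not_dvd hm t hp.one_lt.ne'
  refine ⟨M, fun x hx hx' => ?_⟩
  have hk := sub_one_dvd_pow_sub_one x (m' ^ M)
  have h2 := hM (AR_j W (x ^ m' ^ M)) ⟨AR_j_mem _, AR_ne (hx.trans hk), fun P hP => by
    rw [← map_one (AR_j W), ← map_sub]
    refine AR_sm ?_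
    by_cases h5 : ch P = t
    · rw [h5]
      exact ((dvd_mul_right _ _).trans hx').trans hk
    have h6 : ch P ∣ m' := by
      rw [em, ← mul_assoc, ← pow_succ'] at hP
      refine ((ch_prime P).dvd_mul.1 hP).resolve_left fun h7 => h5 ?_
      exact (Nat.prime_dvd_prime_iff_eq (ch_prime P) hp).1 ((ch_prime P).dvd_of_dvd_pow h7)
    have h7 : (m' : 𝓞 (fix W)) ∣ x - 1 := by
      refine Dvd.dvd.trans ?_ ((dvd_mul_left _ _).trans hx)
      exact Nat.cast_dvd_cast (em ▸ dvd_mul_left _ _)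
    have h8 := dvd_sub_pow_of_dvd_sub h7 M
    rw [one_pow] at h8
    exact ((pow_dvd_pow_of_dvd (Nat.cast_dvd_cast h6) M).trans (pow_dvd_pow _ M.le_succ)).trans h8⟩
  have hd := dv_mem (m := t * m) _ (AR_j_mem (x ^ m' ^ M))
  rw [AR_map hW (PadicInt.toZModPow n).toAddMonoidHom (θ := η)
    (η := fun a => PadicInt.toZModPow n (η a)) (fun _ _ => rfl) hd] at h2
  have h3 : ‖art W η (dv (t * m) (AR_j W (x ^ m' ^ M)))‖ ≤ (t : ℝ) ^ (-n : ℤ) := by
    rw [PadicInt.norm_le_pow_iff_mem_span_pow, ← PadicInt.ker_toZModPow]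
    exact h2
  have h4 := AR_map hW PadicInt.Coe.ringHom.toAddMonoidHom (θ := η)
    (η := fun g => (η g : ℚ_[t])) (fun _ _ => rfl) hd
  rw [AR_map hW (AddMonoidHom.mulLeft ((t : ℚ_[t]) ^ c)) (θ := θ) e hd, AR_pow hW hu θ x hx] at h4
  have h5 := congrArg norm h4
  have h6 : ‖((m' ^ M : ℕ) : ℚ_[t])‖ = 1 :=
    Padic.norm_natCast_eq_one_iff.2 (((Nat.Prime.coprime_iff_not_dvd hp).2 hm').pow_right M)
  rw [AddMonoidHom.coe_mulLeft, nsmul_eq_mul, norm_mul, norm_mul, h6, one_mul, norm_pow,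
    Padic.norm_p] at h5
  have h7 : (t : ℝ)⁻¹ ^ c * ‖art W θ (dv (t * m) (AR_j W x))‖ < (t : ℝ)⁻¹ ^ c * ε := by
    rw [h5, mul_comm _ ε]
    refine lt_of_le_of_lt (h3.trans (le_of_eq ?_)) hn
    rw [zpow_neg, zpow_natCast, inv_pow]
  exact lt_of_mul_lt_mul_left h7 (by positivity)

theorem lam_spec (ht : t ≠ 2) (hW : Op W) (h4 : W ≤ Gmu 4) (hm : m ≠ 0) (hu : UnrOut W m)
    {θ : Ga → ℚ_[t]} (hθ : IsX W θ) :
    ∃ lam : 𝓞 (fix W) →+ ℚ_[t], (∀ y, lam y = lamX W m θ ((y : fix W) : Om)) ∧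
      (∀ y : 𝓞 (fix W), Tendsto (fun n : ℕ => art W θ (dv (t * m)
        (1 + t ^ n * m * ((y : fix W) : Om))) / (t ^ n * m)) atTop (𝓝 (lam y))) ∧
      ∀ x : 𝓞 (fix W), (t * m : 𝓞 (fix W)) ∣ x - 1 → ∀ y : ℕ → 𝓞 (fix W),
        (∀ k, (t : 𝓞 (fix W)) ^ k * y k = x ^ t ^ k - 1) →
        Tendsto (fun k => lam (y k)) atTop (𝓝 (art W θ (dv (t * m) ((x : fix W) : Om)))) := by
  obtain ⟨lam, h1, h2⟩ := lam_exists t ht m hm
    (fun y h => (mul_eq_zero.1 h).resolve_left (Nat.cast_ne_zero.2 (Fact.out : t.Prime).ne_zero))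
    (fun x : 𝓞 (fix W) => art W θ (dv (t * m) (AR_j W x))) (AR_mul hW hu θ)
    (AR_cont ht hW h4 hm hu hθ)
  simp only [map_add, map_mul, map_pow, map_natCast, map_one] at h1
  exact ⟨lam, fun y => (h1 y).limUnder_eq.symm, h1, h2⟩

theorem AR_mem (n : ℕ) {y : Om} (hy : y ∈ fix W) :
    dv (t * m) (1 + t ^ n * m * y) ∈ Div W (t * m) :=
  dv_mem _ (add_mem (one_mem _) (mul_mem (mul_mem (pow_mem (_root_.natCast_mem _ t) n)
    (_root_.natCast_mem _ m)) hy))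

theorem lam_lin (ht : t ≠ 2) (hW : Op W) (h4 : W ≤ Gmu 4) (hm : m ≠ 0) (hu : UnrOut W m)
    {ι : Type} [Fintype ι] {θ : ι → Ga → ℚ_[t]} (hθ : ∀ i, IsX W (θ i)) (c : ι → ℚ_[t])
    {η : Ga → ℚ_[t]} (hη : ∀ g ∈ W, η g = ∑ i, c i * θ i g) (y : 𝓞 (fix W)) :
    lamX W m η ((y : fix W) : Om) = ∑ i, c i * lamX W m (θ i) ((y : fix W) : Om) := by
  choose lam h1 h2 _ using fun i => lam_spec ht hW h4 hm hu (hθ i)
  have h3 := tendsto_finsetSum Finset.univ fun i _ => (h2 i y).const_mul (c i)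
  simp only [h1] at h3
  refine (h3.congr fun n => ?_).limUnder_eq
  have hd := AR_mem (t := t) (m := m) n (y : fix W).2
  let f : (ι → ℚ_[t]) →+ ℚ_[t] :=
    ∑ i, (AddMonoidHom.mulLeft (c i)).comp (Pi.evalAddMonoidHom (fun _ => ℚ_[t]) i)
  have hf : ∀ v, f v = ∑ i, c i * v i := fun v => by simp [f]
  rw [AR_map hW f (θ := fun g i => θ i g) (fun g hg => by rw [hf, hη g hg]) hd, hf, Finset.sum_div]
  refine Finset.sum_congr rfl fun i _ => ?_
  rw [AR_map hW (Pi.evalAddMonoidHom (fun _ => ℚ_[t]) i) (θ := fun g i => θ i g)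
    (η := θ i) (fun _ _ => rfl) hd, mul_div_assoc]
  rfl

theorem AR_conj (hW : Op W) [hN : W.Normal] {θ : Ga → ℚ_[t]} (hθ : IsX W θ) (g : Ga) :
    ∀ d ∈ Div W (t * m), art W (fun a => θ (g⁻¹ * a * g)) (act g d) = art W θ d := by
  have hg : ∀ h, h ∈ W ↔ g * h * g⁻¹ ∈ W := fun h =>
    ⟨fun hh => hN.conj_mem h hh g, fun hh => by simpa [mul_assoc] using hN.conj_mem _ hh g⁻¹⟩
  have hθ' : IsX W fun a => θ (g⁻¹ * a * g) := hθ.conj g fun a ha => hN.conj_mem' a ha g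
  refine Div.induction hW _ (by simp [art, lift, act]) (fun a ha b hb h1 h2 => ?_) fun P c hP => ?_
  · have e : act g (a + b) = act g a + act g b := rfl
    rw [e, art, lift_add hW _ (act_mem g hg ha) (act_mem g hg hb), art, lift_add hW _ ha hb]
    exact congrArg₂ _ h1 h2
  · have e : act g (c • ind W P) = c • act g (ind W P) := rfl
    have hP' : ¬ ch (g • P) ∣ t * m := by rwa [ch_smul]
    have hφ := frob_spec hW P
    have h1 := art_ind hW hθ (fun σ h1 h2 => x_unr hW hθ (AR_unr hP) h1 h2) hφ.1 hφ.2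
    have h2 := art_ind hW hθ' (fun σ h1 h2 => x_unr hW hθ' (AR_unr hP') h1 h2) ((hg _).1 hφ.1)
      (by rw [deg_smul P hg]; exact hφ.2.conj g)
    rw [e, act_ind g hg, art, lift_zsmul hW _ (ind_mem W hP'), art, lift_zsmul hW _ (ind_mem W hP)]
    refine congrArg (c • ·) (h2.trans (Eq.trans ?_ h1.symm))
    simp [mul_assoc]

theorem lam_conj (hW : Op W) [W.Normal] (hu : UnrOut W m) {θ : Ga → ℚ_[t]}
    (hθ : IsX W θ) (g : Ga) {y : Om} (hy : y ∈ fix W) :
    lamX W m (fun a => θ (g⁻¹ * a * g)) (g y) = lamX W m θ y := by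
  rw [lamX, lamX]
  congr 1
  funext n
  rw [← AR_conj hW hθ g _ (AR_mem n hy), ← dv_smul]
  simp only [map_add, map_mul, map_pow, map_natCast, map_one]

theorem lam_inj (ht : t ≠ 2) (hW : Op W) (h4 : W ≤ Gmu 4) (hm : m ≠ 0) (hu : UnrOut W m)
    {θ : Ga → ℚ_[t]} (hθ : IsX W θ)
    (h : ∀ y : 𝓞 (fix W), lamX W m θ ((y : fix W) : Om) = 0) : ∀ g ∈ W, θ g = 0 := by
  have hm' := mul_ne_zero (Fact.out : t.Prime).ne_zero hm
  obtain ⟨lam, h1, -, h3⟩ := lam_spec ht hW h4 hm hu hθ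
  refine x_zero hW hθ (t * m) hm' fun P φ hP hφ hf => ?_
  obtain ⟨x, N, hN, -, hx, hv⟩ := prime_gen hW (t * m) hm' P hP
  rw [Nat.cast_mul] at hx
  choose y hy using fun k =>
    (pow_dvd_pow _ k.le_succ).trans (dvd_sub_pow_of_dvd_sub ((dvd_mul_right _ _).trans hx) k)
  have h5 := h3 x hx y fun k => by rw [← hy, one_pow]
  simp only [h1, h] at h5
  have h6 := tendsto_nhds_unique h5 tendsto_const_nhds
  have e : dv (t * m) ((x : fix W) : Om) = (N : ℤ) • ind W P := by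
    funext Q
    rw [dv, Pi.smul_apply, smul_eq_mul]
    split_ifs with hQ
    · rw [(ind_mem W hP).2.1 Q hQ, mul_zero]
    · rw [hv, ← Int.cast_natCast, ← Int.cast_mul, Int.floor_intCast]
  have h7 := art_ind hW hθ (fun σ h1 h2 => x_unr hW hθ (AR_unr hP) h1 h2) hφ
    (by rwa [Nat.dvd_one.1 (deg_dvd hW hφ hf)])
  rw [e, art, lift_zsmul hW _ (ind_mem W hP), ← art, h7] at h6
  exact (smul_eq_zero.1 h6).resolve_left (Nat.cast_ne_zero.2 hN)

end Vale.Agent.P024U
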