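import Vale.Agent.P024U.LChi

/-! Upper bound for the density of the primes in the trivial class.  For `ψ : AddChar C ℂ` put `χ I = ψ (cl I)` on nonzero
ideals prime to `m`, `0` otherwise.  `euler_prod` for `χ I * N I ^ (-s)`; for `0 ≤ z < 1`
`‖∏_ψ (1 - ψ c z)⁻¹‖ = exp (∑_k z^k/k * card C * [k c = 0]) ≥ exp (card C * z * [c = 0])`
(`Complex.hasSum_taylorSeries_neg_log`, `AddChar.sum_apply_eq_ite`).  So
`exp (card C * ∑ ...) ≤ ∏_ψ ‖L(s,ψ)‖ ≤ const / (s-1)` by `l_bdd`, `zeta_bounds` (finite sets of primes, then limit). -/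

namespace Vale.Agent.P024U
open NumberField IsDedekindDomain Filter Topology

theorem an1_local {C : Type} [AddCommGroup C] [Fintype C] [DecidableEq C] (c : C) {z : ℝ}
    (h0 : 0 ≤ z) (h1 : z < 1) :
    Real.exp (Fintype.card C * if c = 0 then z else 0) ≤
      ‖∏ ψ : AddChar C ℂ, (1 - ψ c * z)⁻¹‖ := by
  have hn : ∀ ψ : AddChar C ℂ, ‖ψ c * z‖ < 1 := fun ψ => by
    rwa [norm_mul, AddChar.norm_apply, one_mul, Complex.norm_real, Real.norm_of_nonneg h0]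
  have hS := hasSum_sum (s := Finset.univ) fun (ψ : AddChar C ℂ) _ =>
    Complex.hasSum_taylorSeries_neg_log (hn ψ)
  have e : ∀ k : ℕ, (∑ ψ : AddChar C ℂ, (ψ c * z) ^ k / k).re =
      (if k • c = 0 then (Fintype.card C : ℝ) else 0) * z ^ k / k := by
    intro k
    have e1 : ∑ ψ : AddChar C ℂ, (ψ c * z) ^ k / k =
        (((if k • c = 0 then (Fintype.card C : ℝ) else 0) * z ^ k / k : ℝ) : ℂ) := by
      simp only [mul_pow, ← AddChar.map_nsmul_eq_pow, ← Finset.sum_div, ← Finset.sum_mul,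
        AddChar.sum_apply_eq_ite]
      split_ifs <;> simp
    rw [e1, Complex.ofReal_re]
  have hR := Complex.hasSum_re hS
  simp only [e] at hR
  have h2 := le_hasSum hR 1 fun k _ => by
    split_ifs <;> positivity
  have e2 : ∏ ψ : AddChar C ℂ, (1 - ψ c * z)⁻¹ =
      Complex.exp (∑ ψ : AddChar C ℂ, -Complex.log (1 - ψ c * z)) := by
    rw [Complex.exp_sum]
    refine Finset.prod_congr rfl fun ψ _ => ?_
    rw [Complex.exp_neg, Complex.exp_log]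
    intro h
    have h3 := hn ψ
    rw [← sub_eq_zero.1 h] at h3
    simp at h3
  rw [e2, Complex.norm_exp]
  refine Real.exp_le_exp.2 (le_trans (le_of_eq ?_) h2)
  rw [one_smul]
  split_ifs <;> simp

theorem an1_cop {R : Type*} [CommRing R] (I J M : Ideal R) :
    I * J ⊔ M = ⊤ ↔ I ⊔ M = ⊤ ∧ J ⊔ M = ⊤ := by
  simp only [← Ideal.isCoprime_iff_sup_eq, IsCoprime.mul_left_iff]

theorem an1_sup {R : Type*} [CommRing R] (x y m : R) :
    Ideal.span {x + m * y} ⊔ Ideal.span {m} = Ideal.span {x} ⊔ Ideal.span {m} := by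
  simp only [← Ideal.span_insert]
  rw [Ideal.span_pair_add_right_mul]

theorem an1_max {R : Type*} [CommRing R] {P : Ideal R} (hP : P.IsMaximal) (m : R) :
    P ⊔ Ideal.span {m} = ⊤ ↔ m ∉ P := by
  constructor
  · intro h hm
    rw [sup_eq_left.2 ((Ideal.span_singleton_le_iff_mem P).2 hm)] at h
    exact hP.ne_top h
  · intro h
    by_contra h1
    exact h ((hP.eq_of_le h1 le_sup_left).ge (Ideal.mem_sup_right (Ideal.mem_span_singleton_self m)))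

open Classical in
/-- the character on ideals -/
noncomputable def an1Chi {R C : Type*} [CommRing R] [AddCommGroup C] (m : R) (cl : Ideal R → C)
    (ψ : AddChar C ℂ) (I : Ideal R) : ℂ :=
  if I ≠ ⊥ ∧ I ⊔ Ideal.span {m} = ⊤ then ψ (cl I) else 0

theorem an1Chi_mul {R C : Type*} [CommRing R] [IsDomain R] [AddCommGroup C] {m : R}
    {cl : Ideal R → C} (hmul : ∀ I J, I ≠ ⊥ → J ≠ ⊥ → I ⊔ Ideal.span {m} = ⊤ →
      J ⊔ Ideal.span {m} = ⊤ → cl (I * J) = cl I + cl J) (ψ : AddChar C ℂ) (I J : Ideal R) :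
    an1Chi m cl ψ (I * J) = an1Chi m cl ψ I * an1Chi m cl ψ J := by
  unfold an1Chi
  by_cases hI : I ≠ ⊥ ∧ I ⊔ Ideal.span {m} = ⊤
  · by_cases hJ : J ≠ ⊥ ∧ J ⊔ Ideal.span {m} = ⊤
    · rw [if_pos hI, if_pos hJ, if_pos, hmul I J hI.1 hJ.1 hI.2 hJ.2, AddChar.map_add_eq_mul]
      exact ⟨fun h => (Ideal.mul_eq_bot.1 h).elim hI.1 hJ.1, (an1_cop _ _ _).2 ⟨hI.2, hJ.2⟩⟩
    · rw [if_neg hJ, mul_zero, if_neg]
      exact fun h => hJ ⟨fun h1 => h.1 (by simp [h1]), ((an1_cop _ _ _).1 h.2).2⟩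
  · rw [if_neg hI, zero_mul, if_neg]
    exact fun h => hI ⟨fun h1 => h.1 (by simp [h1]), ((an1_cop _ _ _).1 h.2).1⟩

theorem an1Chi_top {R C : Type*} [CommRing R] [IsDomain R] [AddCommGroup C] {m : R}
    {cl : Ideal R → C} (hmul : ∀ I J, I ≠ ⊥ → J ≠ ⊥ → I ⊔ Ideal.span {m} = ⊤ →
      J ⊔ Ideal.span {m} = ⊤ → cl (I * J) = cl I + cl J) (ψ : AddChar C ℂ) :
    an1Chi m cl ψ ⊤ = 1 := by
  have h := hmul ⊤ ⊤ top_ne_bot top_ne_bot (top_sup_eq _) (top_sup_eq _)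
  rw [Ideal.top_mul, left_eq_add] at h
  rw [an1Chi, if_pos ⟨top_ne_bot, top_sup_eq _⟩, h, AddChar.map_zero_eq_one]

theorem an1Chi_le {R C : Type*} [CommRing R] [AddCommGroup C] [Finite C] (m : R)
    (cl : Ideal R → C) (ψ : AddChar C ℂ) (I : Ideal R) : ‖an1Chi m cl ψ I‖ ≤ 1 := by
  unfold an1Chi
  split_ifs
  · exact (AddChar.norm_apply _ _).le
  · simp

section

variable {K : Type*} [Field K] [NumberField K]

theorem an1_norm {χ : Ideal (𝓞 K) → ℂ} (h : ∀ I, ‖χ I‖ ≤ 1) (s : ℝ) (I : Ideal (𝓞 K)) :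
    ‖χ I * ((Ideal.absNorm I : ℝ) ^ (-s) : ℝ)‖ ≤ (Ideal.absNorm I : ℝ) ^ (-s) := by
  have h0 : (0 : ℝ) ≤ (Ideal.absNorm I : ℝ) ^ (-s) := by positivity
  rw [norm_mul, Complex.norm_real, Real.norm_of_nonneg h0]
  exact mul_le_of_le_one_left h0 (h I)

theorem an1_euler {χ : Ideal (𝓞 K) → ℂ} (hmul : ∀ I J, χ (I * J) = χ I * χ J) (h0 : χ ⊥ = 0)
    (h1 : χ ⊤ = 1) (h : ∀ I, ‖χ I‖ ≤ 1) {s : ℝ} (hs : 1 < s) :
    HasProd (fun v : HeightOneSpectrum (𝓞 K) =>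
      (1 - χ v.asIdeal * ((Ideal.absNorm v.asIdeal : ℝ) ^ (-s) : ℝ))⁻¹)
      (∑' I, χ I * ((Ideal.absNorm I : ℝ) ^ (-s) : ℝ)) := by
  refine (euler_prod (fun I => χ I * ((Ideal.absNorm I : ℝ) ^ (-s) : ℝ)) (by simp [h0])
    (by simp [h1]) (fun I J => ?_)
    ((zeta_summable K hs).of_nonneg_of_le (fun _ => norm_nonneg _) (an1_norm h s))).2
  rw [hmul, map_mul, Nat.cast_mul, Real.mul_rpow (Nat.cast_nonneg _) (Nat.cast_nonneg _)]
  push_cast
  ring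

theorem an1_lt {s : ℝ} (hs : 1 < s) (v : HeightOneSpectrum (𝓞 K)) :
    (Ideal.absNorm v.asIdeal : ℝ) ^ (-s) < 1 := by
  refine Real.rpow_lt_one_of_one_lt_of_neg ?_ (by linarith)
  have h1 : Ideal.absNorm v.asIdeal ≠ 0 := fun h => v.ne_bot (Ideal.absNorm_eq_zero_iff.1 h)
  have h2 : Ideal.absNorm v.asIdeal ≠ 1 := fun h => v.isPrime.ne_top (Ideal.absNorm_eq_one_iff.1 h)
  exact_mod_cast (by omega : 1 < Ideal.absNorm v.asIdeal)

end

open Classical in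
theorem dens_le {K : Type*} [Field K] [NumberField K] (m : ℕ) (hm : m ≠ 0) {C : Type}
    [AddCommGroup C] [Finite C] (cl : Ideal (𝓞 K) → C)
    (hmul : ∀ I J, I ≠ ⊥ → J ≠ ⊥ → I ⊔ Ideal.span {(m : 𝓞 K)} = ⊤ →
      J ⊔ Ideal.span {(m : 𝓞 K)} = ⊤ → cl (I * J) = cl I + cl J)
    (hcong : ∀ x y : 𝓞 K, x ≠ 0 → x + m * y ≠ 0 →
      Ideal.span {x} ⊔ Ideal.span {(m : 𝓞 K)} = ⊤ →
      cl (Ideal.span {x + m * y}) = cl (Ideal.span {x}))
    (hsurj : ∀ c, ∃ I, I ≠ ⊥ ∧ I ⊔ Ideal.span {(m : 𝓞 K)} = ⊤ ∧ cl I = c) :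
    ∃ B : ℝ, ∀ᶠ s : ℝ in 𝓝[>] 1,
      (Nat.card C : ℝ) * (∑' v : HeightOneSpectrum (𝓞 K),
        if (m : 𝓞 K) ∉ v.asIdeal ∧ cl v.asIdeal = 0 then (Ideal.absNorm v.asIdeal : ℝ) ^ (-s) else 0)
        ≤ Real.log (1 / (s - 1)) + B := by
  have := Fintype.ofFinite C
  have h0 : ∀ ψ : AddChar C ℂ, an1Chi (m : 𝓞 K) cl ψ ⊥ = 0 := fun ψ => if_neg fun h => h.1 rfl
  have hD : ∀ ψ : AddChar C ℂ, ∃ D : ℝ, ∀ᶠ s : ℝ in 𝓝[>] 1,
      ‖∑' I, an1Chi (m : 𝓞 K) cl ψ I * ((Ideal.absNorm I : ℝ) ^ (-s) : ℝ)‖ ≤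
        D * if ψ = 0 then 1 / (s - 1) else 1 := by
    intro ψ
    by_cases hψ : ψ = 0
    · obtain ⟨c, D, -, h⟩ := zeta_bounds K
      refine ⟨D, ?_⟩
      filter_upwards [h, self_mem_nhdsWithin] with s h1 hs
      rw [if_pos hψ, mul_one_div]
      exact (tsum_of_norm_bounded (zeta_summable K hs).hasSum
        (an1_norm (an1Chi_le _ cl ψ) s)).trans h1.2
    · obtain ⟨D, h⟩ := l_bdd m hm (an1Chi (m : 𝓞 K) cl ψ) (an1Chi_mul hmul ψ) (h0 ψ)
        (fun I hI => if_neg fun h => hI h.2)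
        (fun I h1 h2 => by rw [an1Chi, if_pos ⟨h1, h2⟩, AddChar.norm_apply])
        (fun x y hx hy => by
          unfold an1Chi
          rw [an1_sup]
          by_cases h : Ideal.span {x} ⊔ Ideal.span {(m : 𝓞 K)} = ⊤
          · rw [if_pos ⟨by simpa using hy, h⟩, if_pos ⟨by simpa using hx, h⟩, hcong x y hx hy h]
          · rw [if_neg fun h1 => h h1.2, if_neg fun h1 => h h1.2])
        (by
          obtain ⟨c, hc⟩ := AddChar.ne_zero_iff.1 hψ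
          obtain ⟨I, h1, h2, rfl⟩ := hsurj c
          exact ⟨I, h1, h2, by rwa [an1Chi, if_pos ⟨h1, h2⟩]⟩)
      refine ⟨D, ?_⟩
      filter_upwards [Ioc_mem_nhdsGT (one_lt_two (α := ℝ))] with s hs
      rw [if_neg hψ, mul_one]
      exact h s hs
  choose D hD using hD
  refine ⟨Real.log (∏ ψ, D ψ), ?_⟩
  filter_upwards [eventually_all.2 hD, self_mem_nhdsWithin] with s h1 hs
  have hs' : 1 < s := hs
  have hP := (hasProd_prod (s := Finset.univ) fun (ψ : AddChar C ℂ) _ =>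
    an1_euler (an1Chi_mul hmul ψ) (h0 ψ) (an1Chi_top hmul ψ) (an1Chi_le _ cl ψ) hs').norm
  have hS : Summable fun v : HeightOneSpectrum (𝓞 K) =>
      if (m : 𝓞 K) ∉ v.asIdeal ∧ cl v.asIdeal = 0 then (Ideal.absNorm v.asIdeal : ℝ) ^ (-s)
      else 0 := by
    refine ((zeta_summable K hs').comp_injective
      (HeightOneSpectrum.asIdeal_injective (R := 𝓞 K))).of_nonneg_of_le (fun v => ?_) fun v => ?_
    · split_ifs <;> positivity
    · split_ifs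
      · exact le_rfl
      · exact Real.rpow_nonneg (Nat.cast_nonneg _) _
  have hE := (hS.hasSum.mul_left (Nat.card C : ℝ)).rexp
  have h2 := le_of_tendsto_of_tendsto' hE hP fun T => Finset.prod_le_prod
    (fun v _ => (Real.exp_pos _).le) fun v _ => by
      by_cases hv : (m : 𝓞 K) ∈ v.asIdeal
      · have e : ∀ ψ : AddChar C ℂ, an1Chi (m : 𝓞 K) cl ψ v.asIdeal = 0 := fun ψ =>
          if_neg fun h => (an1_max v.isMaximal _).1 h.2 hv
        simp [e, hv]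
      · have e : ∀ ψ : AddChar C ℂ, an1Chi (m : 𝓞 K) cl ψ v.asIdeal = ψ (cl v.asIdeal) := fun ψ =>
          if_pos ⟨v.ne_bot, (an1_max v.isMaximal _).2 hv⟩
        simp only [e, hv, Function.comp_apply, not_false_eq_true, true_and, Nat.card_eq_fintype_card]
        exact an1_local _ (Real.rpow_nonneg (Nat.cast_nonneg _) _) (an1_lt hs' v)
  rw [norm_prod] at h2
  have h3 := h2.trans (Finset.prod_le_prod (fun ψ _ => norm_nonneg _) fun ψ _ => h1 ψ)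
  rw [Finset.prod_mul_distrib, Finset.prod_ite_eq', if_pos (Finset.mem_univ _)] at h3
  have h4 := (Real.exp_pos _).trans_le h3
  have h5 : 0 < 1 / (s - 1) := one_div_pos.2 (sub_pos.2 hs')
  rw [add_comm, ← Real.log_mul ((mul_pos_iff_of_pos_right h5).1 h4).ne' h5.ne']
  exact (Real.le_log_iff_exp_le h4).2 h3

end Vale.Agent.P024U
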