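import Vale.Agent.P024U.Dens

/-! Frobenius density theorem (existence form).  Let `n` be the order of `σ` modulo `W`, `H k = W ⊔ zpowers (σ^k)` for `k ∣ n`, of relative index `k` in
`H 1`.  For an unramified degree one prime of `fix (H 1)` with Frobenius `σ^j` mod `W`, it is counted in `dsum (H 1) (H k)` iff `k ∣ j`.
`∑_(k ∣ n) μ k [k ∣ j] = [gcd j n = 1]` and `∑_(k ∣ n) μ k / k = φ(n)/n > 0`; so `∑ μ k dsum (H 1) (H k) s → ∞`, which is impossible
if only finitely many residue characteristics occur (`orbits_finite`).  (Alternative without Moebius: induction over the prime factors of `n`.) -/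

namespace Vale.Agent.P024U
open NumberField IsDedekindDomain Filter Topology

section Group
variable {G : Type*} [Group G] [Finite G]

theorem cheb_mem {s : G} {j k : ℕ} (hk : k ∣ orderOf s) :
    s ^ j ∈ Subgroup.zpowers (s ^ k) ↔ k ∣ j := by
  constructor
  · intro h
    obtain ⟨i, hi⟩ := mem_powers_iff_mem_zpowers.2 h
    simp only [← pow_mul] at hi
    have h1 := (pow_eq_pow_iff_modEq.1 hi).of_dvd hk
    exact (h1.dvd_iff dvd_rfl).1 (dvd_mul_right k i)
  · rintro ⟨i, rfl⟩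
    rw [pow_mul]
    exact Subgroup.npow_mem_zpowers _ _

theorem cheb_relIndex {s : G} {k : ℕ} (hk : k ∣ orderOf s) :
    (Subgroup.zpowers (s ^ k)).relIndex (Subgroup.zpowers s) = k := by
  have hn : 0 < orderOf s := orderOf_pos s
  have hk0 : k ≠ 0 := by
    rintro rfl
    exact hn.ne' (zero_dvd_iff.1 hk)
  have hle : Subgroup.zpowers (s ^ k) ≤ Subgroup.zpowers s :=
    (Subgroup.zpowers_le).2 (Subgroup.npow_mem_zpowers s k)
  have h := Subgroup.relIndex_mul_relIndex ⊥ _ _ bot_le hle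
  rw [Subgroup.relIndex_bot_left, Subgroup.relIndex_bot_left, Nat.card_zpowers, Nat.card_zpowers,
    orderOf_pow_of_dvd hk0 hk] at h
  have h2 : 0 < orderOf s / k := Nat.div_pos (Nat.le_of_dvd hn hk) (Nat.pos_of_ne_zero hk0)
  refine Nat.eq_of_mul_eq_mul_left h2 ?_
  rw [h, Nat.div_mul_cancel hk]

theorem cheb_gen {s : G} {j : ℕ} (h : ∀ p ∈ (orderOf s).primeFactors, ¬ p ∣ j) :
    s ∈ Subgroup.zpowers (s ^ j) := by
  have h1 : j.Coprime (orderOf s) := by
    refine Nat.Coprime.symm (Nat.coprime_of_dvd fun p hp hpn hpj => ?_)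
    exact h p (Nat.mem_primeFactors.2 ⟨hp, hpn, (orderOf_pos s).ne'⟩) hpj
  obtain ⟨m, hm⟩ := exists_pow_eq_self_of_coprime h1
  exact ⟨m, by simpa only [zpow_natCast] using hm⟩

end Group

theorem cheb_incl (F : Finset ℕ) (hF : ∀ p ∈ F, p.Prime) {j p : ℕ} (hp : p ∈ F) (hj : p ∣ j)
    (x : ℝ) : ∑ T ∈ F.powerset, (-1 : ℝ) ^ T.card * (if (∏ q ∈ T, q) ∣ j then x else 0) = 0 := by
  have h1 := Finset.prod_one_add (f := fun q : ℕ => -(if q ∣ j then (1 : ℝ) else 0)) F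
  rw [Finset.prod_eq_zero hp (by simp [hj])] at h1
  have h2 : ∀ T ∈ F.powerset, (-1 : ℝ) ^ T.card * (if (∏ q ∈ T, q) ∣ j then x else 0) =
      (∏ q ∈ T, -(if q ∣ j then (1 : ℝ) else 0)) * x := by
    intro T hT
    rw [Finset.prod_neg, Finset.prod_boole, mul_assoc]
    congr 1
    have h3 : (∏ q ∈ T, q) ∣ j ↔ ∀ q ∈ T, q ∣ j :=
      ⟨fun h q hq => (Finset.dvd_prod_of_mem _ hq).trans h, fun h =>
        Finset.prod_primes_dvd j (fun q hq => (hF q (Finset.mem_powerset.1 hT hq)).prime) h⟩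
    by_cases h4 : ∀ q ∈ T, q ∣ j
    · rw [if_pos (h3.2 h4), if_pos h4, one_mul]
    · rw [if_neg (fun h5 => h4 (h3.1 h5)), if_neg h4, zero_mul]
  rw [Finset.sum_congr rfl h2, ← Finset.sum_mul, ← h1, zero_mul]

theorem cheb_pos (F : Finset ℕ) (hF : ∀ p ∈ F, p.Prime) :
    0 < ∑ T ∈ F.powerset, (-1 : ℝ) ^ T.card * (((∏ q ∈ T, q : ℕ) : ℝ))⁻¹ := by
  have h1 := Finset.prod_one_add (f := fun q : ℕ => -((q : ℝ))⁻¹) F
  have h2 : ∀ T ∈ F.powerset, (-1 : ℝ) ^ T.card * (((∏ q ∈ T, q : ℕ) : ℝ))⁻¹ =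
      ∏ q ∈ T, -((q : ℝ))⁻¹ := by
    intro T _
    rw [Finset.prod_neg, Finset.prod_inv_distrib, Nat.cast_prod]
  rw [Finset.sum_congr rfl h2, ← h1]
  refine Finset.prod_pos fun p hp => ?_
  have h3 : (1 : ℝ) < p := by exact_mod_cast (hF p hp).one_lt
  have := inv_lt_one_of_one_lt₀ h3
  linarith

/-- the analytic contradiction -/
theorem cheb_an {ι : Type*} (F : Finset ι) (e k : ι → ℝ) (d : ι → ℝ → ℝ) (he : ∀ i, |e i| ≤ 1)
    (hk : ∀ i ∈ F, 1 ≤ k i) (hc : 0 < ∑ i ∈ F, e i * (k i)⁻¹)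
    (hd : ∀ i ∈ F, ∃ B : ℝ, ∀ᶠ s : ℝ in 𝓝[>] 1, |k i * d i s - Real.log (1 / (s - 1))| ≤ B)
    {C : ℝ} (hC : ∀ s : ℝ, 1 < s → ∑ i ∈ F, e i * d i s ≤ C) : False := by
  choose! B hB using hd
  have h1 : Tendsto (fun s : ℝ => s - 1) (𝓝[>] 1) (𝓝[>] 0) := by
    refine tendsto_nhdsWithin_iff.2 ⟨?_, ?_⟩
    · have : Tendsto (fun s : ℝ => s - 1) (𝓝 1) (𝓝 (1 - 1)) := tendsto_id.sub_const 1
      rw [sub_self] at this
      exact this.mono_left nhdsWithin_le_nhds
    · filter_upwards [self_mem_nhdsWithin] with s hs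
      exact Set.mem_Ioi.2 (sub_pos.2 (Set.mem_Ioi.1 hs))
  have h2 : Tendsto (fun s : ℝ => Real.log (1 / (s - 1))) (𝓝[>] 1) atTop := by
    simp only [one_div]
    exact Real.tendsto_log_atTop.comp (tendsto_inv_nhdsGT_zero.comp h1)
  have h3 := (h2.const_mul_atTop hc).eventually_gt_atTop (C + ∑ i ∈ F, B i)
  obtain ⟨s, ⟨h4, h5⟩, h6⟩ := ((h3.and ((F.eventually_all).2 hB)).and self_mem_nhdsWithin).exists
  have h7 := hC s h6
  have h8 : ∑ i ∈ F, (e i * (k i)⁻¹ * Real.log (1 / (s - 1)) - e i * d i s) ≤ ∑ i ∈ F, B i := by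
    refine Finset.sum_le_sum fun i hi => ?_
    have h9 := hk i hi
    have h10 : e i * (k i)⁻¹ * Real.log (1 / (s - 1)) - e i * d i s =
        -(e i * (k i)⁻¹ * (k i * d i s - Real.log (1 / (s - 1)))) := by
      field_simp
      ring
    rw [h10]
    refine (neg_le_abs _).trans ?_
    rw [abs_mul, abs_mul]
    refine le_trans (mul_le_of_le_one_left (abs_nonneg _) ?_) (h5 i hi)
    refine mul_le_one₀ (he i) (abs_nonneg _) ?_
    rw [abs_of_nonneg (by positivity)]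
    exact inv_le_one_of_one_le₀ h9
  rw [Finset.sum_sub_distrib, ← Finset.sum_mul] at h8
  linarith

theorem cheb_sup {W : Subgroup Ga} [W.Normal] (σ : Ga) : W ⊔ Subgroup.zpowers σ =
    (Subgroup.zpowers (QuotientGroup.mk' W σ)).comap (QuotientGroup.mk' W) := by
  rw [← MonoidHom.map_zpowers, Subgroup.comap_map_eq, QuotientGroup.ker_mk', sup_comm]

theorem cheb_conj {G : Type*} [Group G] {s a b : G} (ha : a ∈ Subgroup.zpowers s)
    (hb : b ∈ Subgroup.zpowers s) : a * b * a⁻¹ = b := by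
  obtain ⟨i, rfl⟩ := ha
  obtain ⟨j, rfl⟩ := hb
  simp only [← zpow_add, ← zpow_neg]
  congr 1
  ring

theorem cheb_term {K : Type*} [Field K] [NumberField K] (v : HeightOneSpectrum (𝓞 K)) {s : ℝ}
    (hs : 0 ≤ s) : (Ideal.absNorm v.asIdeal : ℝ) ^ (-s) ≤ 1 := by
  refine Real.rpow_le_one_of_one_le_of_nonpos ?_ (neg_nonpos.2 hs)
  have : Ideal.absNorm v.asIdeal ≠ 0 := fun h => v.ne_bot (Ideal.absNorm_eq_zero_iff.1 h)
  exact_mod_cast Nat.one_le_iff_ne_zero.2 this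

theorem cheb {W : Subgroup Ga} (hW : Op W) [W.Normal] (σ : Ga) :
    {l | ∃ (P : Pr) (φ : Ga), ch P = l ∧ IsFrob P 1 φ ∧ φ ∈ W ⊔ Subgroup.zpowers σ ∧
      σ ∈ W ⊔ Subgroup.zpowers φ}.Infinite := by
  classical
  intro hfin
  have : W.FiniteIndex := ⟨hW.index_ne_zero⟩
  set q := QuotientGroup.mk' W with hq
  set t := q σ with ht
  let Hk : ℕ → Subgroup Ga := fun k => (Subgroup.zpowers (t ^ k)).comap q
  let H : Subgroup Ga := (Subgroup.zpowers t).comap q
  have hWq : ∀ w ∈ W, q w = 1 := fun w hw => (QuotientGroup.eq_one_iff w).2 hw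
  have hop : ∀ k, Op (Hk k) := fun k => hW.mono fun w hw => by
    change q w ∈ Subgroup.zpowers (t ^ k)
    rw [hWq w hw]
    exact one_mem _
  have hle : ∀ k, Hk k ≤ H := fun k =>
    Subgroup.comap_mono ((Subgroup.zpowers_le).2 (Subgroup.npow_mem_zpowers t k))
  have hH : Op H := (hop 1).mono (hle 1)
  have := numberField_fix hH
  obtain ⟨m, hm0, hm⟩ := exists_unrOut hW
  set F := (orderOf t).primeFactors with hF
  have hFp : ∀ p ∈ F, p.Prime := fun p hp => Nat.prime_of_mem_primeFactors hp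
  have hdvd : ∀ T ∈ F.powerset, (∏ p ∈ T, p) ∣ orderOf t := fun T hT =>
    (Finset.prod_dvd_prod_of_subset _ _ _ (Finset.mem_powerset.1 hT)).trans
      (Nat.prod_primeFactors_dvd _)
  let M : ℕ := m * ∏ l ∈ hfin.toFinset, l
  have hM : M ≠ 0 := by
    refine mul_ne_zero hm0 (Finset.prod_ne_zero_iff.2 fun l hl => ?_)
    obtain ⟨P, _, rfl, _⟩ := hfin.mem_toFinset.1 hl
    exact (ch_prime P).ne_zero
  have hV : {v : HeightOneSpectrum (𝓞 (fix H)) |
      v.asIdeal ∣ Ideal.span {(M : 𝓞 (fix H))}}.Finite := by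
    refine Ideal.finite_factors ?_
    rw [Ne, Ideal.zero_eq_bot, Ideal.span_singleton_eq_bot]
    exact Nat.cast_ne_zero.2 hM
  let a : ℕ → ℝ → HeightOneSpectrum (𝓞 (fix H)) → ℝ := fun k s v =>
    if ∃ P, below H P = v ∧ ∃ φ ∈ (Hk k : Set Ga), IsFrob P 1 φ then
      (Ideal.absNorm v.asIdeal : ℝ) ^ (-s) else 0
  have ha0 : ∀ k s v, 0 ≤ a k s v := fun k s v => by
    simp only [a]
    split_ifs
    · positivity
    · exact le_rfl
  have ha1 : ∀ k s v, a k s v ≤ (Ideal.absNorm v.asIdeal : ℝ) ^ (-s) := fun k s v => by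
    simp only [a]
    split_ifs
    · exact le_rfl
    · positivity
  have hsum : ∀ k (s : ℝ), 1 < s → Summable (a k s) := fun k s hs =>
    Summable.of_nonneg_of_le (ha0 k s) (ha1 k s)
      ((zeta_summable (fix H) hs).comp_injective (i := fun v : HeightOneSpectrum _ => v.asIdeal)
        fun v w h => HeightOneSpectrum.ext h)
  have hz : ∀ (s : ℝ) (v : HeightOneSpectrum (𝓞 (fix H))), v ∉ hV.toFinset →
      ∑ T ∈ F.powerset, (-1 : ℝ) ^ T.card * a (∏ p ∈ T, p) s v = 0 := by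
    intro s v hv
    by_cases h1 : ∃ P, below H P = v ∧ ∃ φ ∈ H, IsFrob P 1 φ
    · obtain ⟨P, rfl, φ, hφ, hfr⟩ := h1
      have h2 : ¬ ch P ∣ M := fun h3 => hv (hV.mem_toFinset.2
        (Ideal.dvd_span_singleton.2 ((natCast_mem_below P M).2 h3)))
      obtain ⟨j, hj⟩ := mem_powers_iff_mem_zpowers.2 (show q φ ∈ Subgroup.zpowers t from hφ)
      simp only at hj
      have h4 : ∀ k, k ∣ orderOf t →
          ((∃ Q, below H Q = below H P ∧ ∃ ψ ∈ (Hk k : Set Ga), IsFrob Q 1 ψ) ↔ k ∣ j) := by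
        intro k hk
        rw [← cheb_mem hk, hj]
        refine ⟨?_, fun h5 => ⟨P, rfl, φ, h5, hfr⟩⟩
        rintro ⟨Q, hQ, ψ, hψ, hfr'⟩
        obtain ⟨h, hh, rfl⟩ := (below_eq_iff hH P Q).1 hQ.symm
        have h6 : ¬ ch (h • P) ∣ m := by
          rw [ch_smul]
          exact fun h7 => h2 (h7.trans (dvd_mul_right _ _))
        have h8 := hWq _ (hm _ h6 (hfr'.inv_mul (hfr.conj h)))
        rw [map_mul, map_mul, map_mul, map_inv, map_inv, cheb_conj hh hφ, inv_mul_eq_one] at h8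
        rw [← h8]
        exact hψ
      have h9 : ∃ p ∈ F, p ∣ j := by
        by_contra hc
        push Not at hc
        have h10 := cheb_gen hc
        rw [hj] at h10
        refine h2 (Dvd.dvd.mul_left (Finset.dvd_prod_of_mem _ (hfin.mem_toFinset.2
          ⟨P, φ, rfl, hfr, ?_, ?_⟩)) m)
        · rw [cheb_sup]
          exact hφ
        · rw [cheb_sup]
          exact h10
      obtain ⟨p, hp, hpj⟩ := h9
      rw [← cheb_incl F hFp hp hpj ((Ideal.absNorm (below H P).asIdeal : ℝ) ^ (-s))]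
      refine Finset.sum_congr rfl fun T hT => ?_
      simp only [a, h4 _ (hdvd T hT)]
    · refine Finset.sum_eq_zero fun T _ => ?_
      have h3 : ¬ ∃ P, below H P = v ∧ ∃ φ ∈ (Hk (∏ p ∈ T, p) : Set Ga), IsFrob P 1 φ :=
        fun ⟨P, hP, φ, hφ, hfr⟩ => h1 ⟨P, hP, φ, hle _ hφ, hfr⟩
      simp only [a, if_neg h3, mul_zero]
  have he : ∀ T : Finset ℕ, |(-1 : ℝ) ^ T.card| ≤ 1 := fun T => by
    rw [abs_pow, abs_neg, abs_one, one_pow]
  refine cheb_an F.powerset (fun T => (-1 : ℝ) ^ T.card) (fun T => ((∏ p ∈ T, p : ℕ) : ℝ))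
    (fun T s => dsum H (Hk (∏ p ∈ T, p)) s) he (fun T hT => ?_) (cheb_pos F hFp) (fun T hT => ?_)
    (C := ∑ _v ∈ hV.toFinset, ∑ _T ∈ F.powerset, 1) fun s hs => ?_
  · have h1 : (∏ p ∈ T, p) ≠ 0 :=
      Finset.prod_ne_zero_iff.2 fun p hp => (hFp p (Finset.mem_powerset.1 hT hp)).ne_zero
    exact_mod_cast Nat.one_le_iff_ne_zero.2 h1
  · have h1 := dens_split (hop (∏ p ∈ T, p)) (hle _) fun h hh x hx => by
      change q (h * x * h⁻¹) ∈ Subgroup.zpowers (t ^ ∏ p ∈ T, p)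
      rw [map_mul, map_mul, map_inv, cheb_conj hh (hle _ hx)]
      exact hx
    have h2 : (Hk (∏ p ∈ T, p)).relIndex H = ∏ p ∈ T, p := by
      rw [Subgroup.relIndex_comap, Subgroup.map_comap_eq_self_of_surjective
        (QuotientGroup.mk'_surjective W), cheb_relIndex (hdvd T hT)]
    rwa [h2] at h1
  · have h1 : ∑ T ∈ F.powerset, (-1 : ℝ) ^ T.card * dsum H (Hk (∏ p ∈ T, p)) s =
        ∑' v, ∑ T ∈ F.powerset, (-1 : ℝ) ^ T.card * a (∏ p ∈ T, p) s v := by
      rw [Summable.tsum_finsetSum fun T _ => (hsum _ s hs).mul_left _]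
      refine Finset.sum_congr rfl fun T _ => ?_
      rw [tsum_mul_left]
      rfl
    rw [h1, tsum_eq_sum (hz s)]
    refine Finset.sum_le_sum fun v _ => Finset.sum_le_sum fun T _ => ?_
    refine (le_abs_self _).trans ?_
    rw [abs_mul, abs_of_nonneg (ha0 _ _ _)]
    exact mul_le_one₀ (he T) (ha0 _ _ _) ((ha1 _ _ _).trans (cheb_term v (by linarith)))

end Vale.Agent.P024U
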