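import Vale.Agent.P024U.DivA

/-! Norms of divisors and elements.  `nmD_ind`: the value at `Q = h • P` is the number of cosets `c H'` in `H` with
`c⁻¹ • Q ∈ H' • P`, i.e. `[H ∩ Dec P : H' ∩ Dec P]`, which is the least `k > 0` with `frob H P ^ k ∈ H'` (`dec_decomp'` with
`W` the normal core of `H'`, `Ine P ≤ H'`; inertia is normal in `Dec P`), and `deg H' P = k * deg H P` (`deg_dvd`). -/

namespace Vale.Agent.P024U

variable {H H' : Subgroup Ga} {m : ℕ}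

theorem DivN_fin (hH' : Op H') (H : Subgroup Ga) : Finite (H ⧸ H'.subgroupOf H) := by
  have : H'.FiniteIndex := ⟨hH'.index_ne_zero⟩
  exact Subgroup.finite_quotient_of_finiteIndex

theorem DivN_op (hH' : Op H') (hle : H' ≤ H) : Op H := hH'.mono hle

theorem DivN_out {α : Type*} (F : Ga → α) (hF : ∀ g, ∀ k ∈ H', F (g * k) = F g) (g : H) :
    F ((QuotientGroup.mk g : H ⧸ H'.subgroupOf H).out : H) = F g := by
  obtain ⟨k, hk⟩ := QuotientGroup.mk_out_eq_mul (H'.subgroupOf H) g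
  rw [hk]
  exact hF _ _ k.2

theorem DivN_smul {α : Type*} (F : Ga → α) (hF : ∀ g, ∀ k ∈ H', F (g * k) = F g) (h : H)
    (c : H ⧸ H'.subgroupOf H) : F (h * (c.out : H)) = F ((h • c).out : H) := by
  rw [← MulAction.Quotient.mk_smul_out, DivN_out F hF]
  rfl

theorem DivN_apply [Fintype (H ⧸ H'.subgroupOf H)] (d : Pr → ℤ) (P : Pr) :
    nmD H' H d P = ∑ c : H ⧸ H'.subgroupOf H, d (((c.out : H) : Ga)⁻¹ • P) := by
  rw [nmD, finsum_eq_sum_of_fintype, Finset.sum_apply]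
  rfl

theorem DivN_inv {d : Pr → ℤ} (hd : ∀ h ∈ H', ∀ P, d (h • P) = d P) (P : Pr) (g : Ga) :
    ∀ k ∈ H', d ((g * k)⁻¹ • P) = d (g⁻¹ • P) := fun k hk => by
  rw [mul_inv_rev, mul_smul, hd _ (H'.inv_mem hk)]

theorem DivN_nm_smul (hH' : Op H') {d : Pr → ℤ} (hd : ∀ h ∈ H', ∀ P, d (h • P) = d P) {h : Ga}
    (hh : h ∈ H) (P : Pr) : nmD H' H d (h • P) = nmD H' H d P := by
  have := DivN_fin hH' H
  have := Fintype.ofFinite (H ⧸ H'.subgroupOf H)
  rw [DivN_apply, DivN_apply, ← Equiv.sum_comp (MulAction.toPerm (⟨h, hh⟩ : H)⁻¹)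
    fun c : H ⧸ H'.subgroupOf H => d (((c.out : H) : Ga)⁻¹ • P)]
  refine Finset.sum_congr rfl fun c _ => ?_
  rw [MulAction.toPerm_apply, ← DivN_smul (fun g => d (g⁻¹ • P)) (DivN_inv hd P), mul_inv_rev,
    mul_smul]
  simp

theorem DivN_period (hH' : Op H') (σ : Ga) : ∃ k : ℕ, 0 < k ∧ ∀ j : ℕ, σ ^ j ∈ H' ↔ k ∣ j := by
  have key : ∀ j : ℕ, σ ^ j ∈ H' ↔ MulAction.period σ (QuotientGroup.mk 1 : Ga ⧸ H') ∣ j := by
    intro j
    rw [← MulAction.pow_smul_eq_iff_period_dvd, MulAction.Quotient.smul_mk, eq_comm,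
      QuotientGroup.eq]
    simp
  refine ⟨_, Nat.pos_of_ne_zero fun h => ?_, key⟩
  obtain ⟨n, hn, -, h2⟩ := Subgroup.exists_pow_mem_of_index_ne_zero hH'.index_ne_zero σ
  rw [key, h, zero_dvd_iff] at h2
  omega

theorem DivN_sum (hH' : Op H') [Fintype (H ⧸ H'.subgroupOf H)] {σ : Ga} (hσ : σ ∈ H) {n : ℕ}
    (hn : ∀ j : ℕ, σ ^ j ∈ H' ↔ n ∣ j) (F : Ga → ℤ) (hF : ∀ g, ∀ k ∈ H', F (g * k) = F g)
    (hgen : ∀ g ∈ H, F g ≠ 0 → ∃ j : ℕ, (σ ^ j)⁻¹ * g ∈ H') :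
    ∑ c : H ⧸ H'.subgroupOf H, F (c.out : H) = ∑ i ∈ Finset.range n, F (σ ^ i) := by
  have hpos : 0 < n := by
    obtain ⟨k, hk, h⟩ := DivN_period hH' σ
    exact Nat.pos_of_dvd_of_pos ((hn k).1 ((h k).2 dvd_rfl)) hk
  have he : ∀ (i : ℕ) (g : H), (QuotientGroup.mk (⟨σ, hσ⟩ ^ i) : H ⧸ H'.subgroupOf H)
      = QuotientGroup.mk g ↔ (σ ^ i)⁻¹ * g ∈ H' := fun i g => by
    rw [QuotientGroup.eq, Subgroup.mem_subgroupOf]
    simp
  have hle : ∀ i j, i ≤ j → j < n → (σ ^ i)⁻¹ * σ ^ j ∈ H' → i = j := fun i j hij hj h => by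
    obtain ⟨l, rfl⟩ := Nat.exists_eq_add_of_le hij
    rw [pow_add, inv_mul_cancel_left, hn] at h
    have := Nat.eq_zero_of_dvd_of_lt h (by omega)
    omega
  symm
  refine Finset.sum_of_injOn
    (fun i => (QuotientGroup.mk (⟨σ, hσ⟩ ^ i) : H ⧸ H'.subgroupOf H)) ?_
    (fun _ _ => Finset.mem_coe.2 (Finset.mem_univ _)) ?_ ?_
  · intro i hi j hj h
    rw [Finset.mem_coe, Finset.mem_range] at hi hj
    rcases le_total i j with h1 | h1
    · exact hle i j h1 hj ((he i _).1 h)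
    · exact (hle j i h1 hi ((he j _).1 h.symm)).symm
  · intro c _ hc
    by_contra h0
    obtain ⟨j, hj⟩ := hgen _ (c.out).2 h0
    refine hc ⟨j % n, Finset.mem_coe.2 (Finset.mem_range.2 (Nat.mod_lt _ hpos)), ?_⟩
    rw [← c.out_eq']
    refine (he _ _).2 ?_
    have h1 := H'.mul_mem ((hn (n * (j / n))).2 (Dvd.intro _ rfl)) hj
    have h2 : σ ^ j = σ ^ (j % n) * σ ^ (n * (j / n)) := by rw [← pow_add, Nat.mod_add_div]
    rw [h2, mul_inv_rev, mul_assoc, mul_inv_cancel_left] at h1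
    exact h1
  · intro i _
    exact (DivN_out F hF (⟨σ, hσ⟩ ^ i)).symm

theorem nmD_add (hH' : Op H') (hle : H' ≤ H) (d d' : Pr → ℤ) :
    nmD H' H (d + d') = nmD H' H d + nmD H' H d' := by
  have _ := hle
  have := DivN_fin hH' H
  have := Fintype.ofFinite (H ⧸ H'.subgroupOf H)
  funext P
  simp only [Pi.add_apply, DivN_apply, Finset.sum_add_distrib]

theorem nmD_zsmul (hH' : Op H') (hle : H' ≤ H) (c : ℤ) (d : Pr → ℤ) :
    nmD H' H (c • d) = c • nmD H' H d := by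
  have _ := hle
  have := DivN_fin hH' H
  have := Fintype.ofFinite (H ⧸ H'.subgroupOf H)
  funext P
  simp only [Pi.smul_apply, DivN_apply, Finset.smul_sum]

theorem nmD_mem (hH' : Op H') (hle : H' ≤ H) {d : Pr → ℤ} (hd : d ∈ Div H' m) :
    nmD H' H d ∈ Div H m := by
  have _ := hle
  have := DivN_fin hH' H
  have := Fintype.ofFinite (H ⧸ H'.subgroupOf H)
  refine ⟨fun h hh P => DivN_nm_smul hH' hd.1 hh P, fun P hP => ?_, hd.2.2.subset ?_⟩
  · rw [DivN_apply]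
    exact Finset.sum_eq_zero fun c _ => hd.2.1 _ (by rwa [ch_smul])
  · rintro l ⟨P, hP, hne⟩
    rw [DivN_apply] at hne
    obtain ⟨c, -, hc⟩ := Finset.exists_ne_zero_of_sum_ne_zero hne
    exact ⟨_, by rw [ch_smul, hP], hc⟩

theorem nmD_ind (hH' : Op H') (hle : H' ≤ H) {P : Pr} (hP : Ine P ≤ H') :
    ∃ k : ℕ, deg H' P = k * deg H P ∧ nmD H' H (ind H' P) = (k : ℤ) • ind H P ∧
      ∀ j : ℕ, frob H P ^ j ∈ H' ↔ k ∣ j := by
  have hH := DivN_op hH' hle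
  have := DivN_fin hH' H
  have := Fintype.ofFinite (H ⧸ H'.subgroupOf H)
  obtain ⟨k, -, hk⟩ := DivN_period hH' (frob H P)
  obtain ⟨f1, f2⟩ := frob_spec hH P
  obtain ⟨g1, g2⟩ := frob_spec hH' P
  have hinv : ∀ h ∈ H', ∀ Q, ind H' P (h • Q) = ind H' P Q := by
    intro h hh Q
    classical
    unfold ind
    refine if_congr ⟨?_, ?_⟩ rfl rfl
    · rintro ⟨a, ha, e⟩
      exact ⟨h⁻¹ * a, H'.mul_mem (H'.inv_mem hh) ha, by rw [mul_smul, e, inv_smul_smul]⟩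
    · rintro ⟨a, ha, e⟩
      exact ⟨h * a, H'.mul_mem hh ha, by rw [mul_smul, e]⟩
  refine ⟨k, Nat.dvd_antisymm ?_ ?_, funext fun Q => ?_, hk⟩
  · rw [mul_comm]
    exact deg_dvd hH' ((hk k).2 dvd_rfl) (f2.pow k)
  · obtain ⟨j, hj⟩ := deg_dvd hH (hle g1) g2
    have h1 := hP ((f2.pow j).inv_mul (hj ▸ g2))
    have h2 : frob H P ^ j ∈ H' := by
      have := H'.mul_mem g1 (H'.inv_mem h1)
      rwa [mul_inv_rev, inv_inv, mul_inv_cancel_left] at this
    rw [hj, mul_comm]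
    exact Nat.mul_dvd_mul_left _ ((hk j).1 h2)
  · by_cases hQ : ∃ h ∈ H, h • P = Q
    · have e : ind H P Q = 1 := if_pos hQ
      obtain ⟨h, hh, rfl⟩ := hQ
      rw [DivN_nm_smul hH' hinv hh, Pi.smul_apply, e, DivN_apply,
        DivN_sum hH' f1 hk (fun g => ind H' P (g⁻¹ • P)) (DivN_inv hinv P)]
      · have h1 : ∀ i, ind H' P ((frob H P ^ i)⁻¹ • P) = 1 := fun i =>
          if_pos ⟨1, H'.one_mem, by
            rw [one_smul]
            exact (mem_Dec.1 ((Dec P).inv_mem ((Dec P).pow_mem f2.mem_Dec i))).symm⟩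
        simp [h1]
      · intro g hg h0
        have h1 : ∃ a ∈ H', a • P = g⁻¹ • P := by
          by_contra h1
          exact h0 (if_neg h1)
        obtain ⟨a, ha, e⟩ := h1
        obtain ⟨j, ρ, r1, -, w, w1, -, -, e2⟩ := dec_decomp' hH P hH' (σ := g * a)
          (mem_Dec.2 (by rw [mul_smul, e, smul_inv_smul])) (H.mul_mem hg (hle ha))
        refine ⟨j, ?_⟩
        have h2 : (frob H P ^ j)⁻¹ * g = ρ * w * a⁻¹ := by
          rw [eq_mul_inv_iff_mul_eq, mul_assoc, e2, mul_assoc, inv_mul_cancel_left]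
        rw [h2]
        exact H'.mul_mem (H'.mul_mem (hP r1) w1) (H'.inv_mem ha)
    · have e : ind H P Q = 0 := if_neg hQ
      rw [Pi.smul_apply, e, smul_zero, DivN_apply]
      refine Finset.sum_eq_zero fun c _ => if_neg ?_
      rintro ⟨a, ha, e⟩
      exact hQ ⟨(c.out : H) * a, H.mul_mem (c.out).2 (hle ha), by rw [mul_smul, e, smul_inv_smul]⟩

theorem nmE_mem (hH' : Op H') (hle : H' ≤ H) {x : Om} (hx : x ∈ fix H') : nmE H' H x ∈ fix H := by
  have _ := hle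
  have := DivN_fin hH' H
  have := Fintype.ofFinite (H ⧸ H'.subgroupOf H)
  refine mem_fix.2 fun h hh => ?_
  rw [nmE, finprod_eq_prod_of_fintype, map_prod, ← Equiv.prod_comp (MulAction.toPerm (⟨h, hh⟩ : H))
    fun c : H ⧸ H'.subgroupOf H => ((c.out : H) : Ga) x]
  refine Finset.prod_congr rfl fun c _ => ?_
  rw [MulAction.toPerm_apply, ← DivN_smul (fun g => g x) fun g k hk => by
    rw [AlgEquiv.mul_apply, mem_fix.1 hx k hk]]
  rfl

theorem nmD_dv (hH' : Op H') (hle : H' ≤ H) (hu : UnrOut H' m) {x : Om} (hx : x ∈ fix H')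
    (hx0 : x ≠ 0) : nmD H' H (dv m x) = dv m (nmE H' H x) := by
  have _ := hle
  have := DivN_fin hH' H
  have := Fintype.ofFinite (H ⧸ H'.subgroupOf H)
  funext P
  rw [DivN_apply]
  by_cases hP : ch P ∣ m
  · rw [show dv m (nmE H' H x) P = 0 from if_pos hP]
    exact Finset.sum_eq_zero fun c _ => if_pos (by rwa [ch_smul])
  · rw [show dv m (nmE H' H x) P = ⌊val P (nmE H' H x)⌋ from if_neg hP, nmE,
      finprod_eq_prod_of_fintype, val_prod _ _ _ fun c _ => (map_ne_zero _).2 hx0, eq_comm,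
      ← Int.floor_intCast (R := ℚ) (∑ c : H ⧸ H'.subgroupOf H, _), Int.cast_sum]
    refine congrArg _ (Finset.sum_congr rfl fun c _ => ?_)
    rw [val_eq_dv hu hx (by rwa [ch_smul]), ← val_smul ((c.out : H) : Ga) (_ • P), smul_inv_smul]

theorem DivN_sm_prod {P : Pr} {M : ℚ} (hM : 0 ≤ M) {ι : Type*} (s : Finset ι) (y : ι → Om)
    (hy : ∀ i ∈ s, Sm P M (y i - 1)) : Sm P M (∏ i ∈ s, y i - 1) := by
  refine Finset.prod_induction y (fun z => Sm P M (z - 1)) (fun a b ha hb => ?_)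
    (Or.inl (sub_self 1)) hy
  have e : a * b - 1 = (a - 1) * (b - 1) + ((a - 1) + (b - 1)) := by ring
  rw [e]
  exact ((ha.mul hb).mono (by linarith)).add (ha.add hb)

theorem nmE_ray (hH' : Op H') (hle : H' ≤ H) {M : ℕ} {x : Om} (hx : x ∈ Ray H' m M) :
    nmE H' H x ∈ Ray H m M := by
  have := DivN_fin hH' H
  have := Fintype.ofFinite (H ⧸ H'.subgroupOf H)
  refine ⟨nmE_mem hH' hle hx.1, ?_, fun P hP => ?_⟩
  · rw [nmE, finprod_eq_prod_of_fintype]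
    exact Finset.prod_ne_zero_iff.2 fun c _ => (map_ne_zero _).2 hx.2.1
  · rw [nmE, finprod_eq_prod_of_fintype]
    refine DivN_sm_prod (Nat.cast_nonneg M) _ _ fun c _ => ?_
    have h := (hx.2.2 (((c.out : H) : Ga)⁻¹ • P) (by rwa [ch_smul])).smul ((c.out : H) : Ga)
    rwa [smul_inv_smul, map_sub, map_one] at h

/-- for a cyclic quotient the norm is the sum over the powers of a generator -/
theorem nmD_cyc (hH' : Op H') (hle : H' ≤ H) {σ : Ga} (hσ : σ ∈ H) {n : ℕ}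
    (hn : ∀ j : ℕ, σ ^ j ∈ H' ↔ n ∣ j) (hgen : ∀ g ∈ H, ∃ j : ℕ, (σ ^ j)⁻¹ * g ∈ H')
    {d : Pr → ℤ} (hd : d ∈ Div H' m) : nmD H' H d = ∑ i ∈ Finset.range n, act (σ ^ i) d := by
  have _ := hle
  have := DivN_fin hH' H
  have := Fintype.ofFinite (H ⧸ H'.subgroupOf H)
  funext P
  rw [DivN_apply, DivN_sum hH' hσ hn (fun g => d (g⁻¹ • P)) (DivN_inv hd.1 P)
    fun g hg _ => hgen g hg, Finset.sum_apply]
  rfl

end Vale.Agent.P024U
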