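import Vale.Agent.P024U.I1
import Vale.Agent.P024U.Cheb
import Vale.Agent.P024U.DivN

/-! Reciprocity for characters that factor through a cyclotomic extension.
`art_cyc_ray`: by `Div.induction`-type bookkeeping `art H θ (dv m x)` only depends on the product `∏ (ch P ^ deg)^(d P)` modulo `k`:
define `c d = lift H (P ↦ unit ch P ^ deg H P of ZMod k) d` in `Additive (ZMod k)ˣ`; the subgroup `{(c g, θ g) | g ∈ H}` is the graph of a homomorphism `f` on
`c(H)` (by `hk`), `art θ d = f (c d)` (`IsFrob.root`).  For `x ∈ Ray H m M`, `x = a / b` with `a, b` integral, prime to `m`, `a ≡ b mod k`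
(`dvd_iff_sm`); `c (dv a)` = absolute norm of `(a)` = `|N a| = N a` (totally complex since `H ≤ Gmu 4`), `N a ≡ N b mod k`.
`art_cyc`: `B = dvRay ⊔ Nsub ≤ ker art`; `norm_index_le` with `H' = kerX`; `art` maps onto `θ H` (`cheb` with the normal core of `H'`); so the indices agree and `B = ker`. -/

namespace Vale.Agent.P024U

variable {A : Type} [AddCommGroup A] [TopologicalSpace A] [DiscreteTopology A]

theorem artC_gal : IsGalois ℚ Om :=
  have : IsAlgClosure ℚ Om := AlgebraicClosure.instIsAlgClosure ℚ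
  IsAlgClosure.isGalois ℚ Om

theorem artC_conj : ∃ (φ : Om →ₐ[ℚ] ℂ) (τ : Ga), ∀ z, φ (τ z) = starRingEnd ℂ (φ z) := by
  have := artC_gal
  let φ : Om →ₐ[ℚ] ℂ := IsAlgClosed.lift
  let _ : Algebra Om ℂ := φ.toRingHom.toAlgebra
  have : IsScalarTower ℚ Om ℂ := IsScalarTower.of_algebraMap_eq fun q => (φ.commutes q).symm
  exact ⟨φ, AlgEquiv.restrictNormal (Complex.conjAe.restrictScalars ℚ) Om,
    fun z => AlgEquiv.restrictNormal_commutes (Complex.conjAe.restrictScalars ℚ) Om z⟩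

theorem artC_pos {H : Subgroup Ga} (hH : Op H) (h4 : H ≤ Gmu 4) {x : Om} (hx : x ∈ fix H)
    (h0 : x ≠ 0) {r : ℚ} (hr : algebraMap ℚ Om r = nmE H ⊤ x) : 0 < r := by
  obtain ⟨φ, τ, hτ⟩ := artC_conj
  have : (H.subgroupOf ⊤).FiniteIndex := ⟨H.relIndex_top_right.trans_ne hH.index_ne_zero⟩
  let _ := Fintype.ofFinite ((⊤ : Subgroup Ga) ⧸ H.subgroupOf ⊤)
  let t : (⊤ : Subgroup Ga) := ⟨τ, Subgroup.mem_top τ⟩
  let f : (⊤ : Subgroup Ga) ⧸ H.subgroupOf ⊤ → ℂ := fun c => φ ((c.out : Ga) x)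
  have f0 : ∀ c, (‖f c‖ : ℂ) ≠ 0 := fun c => by simp [f, h0]
  have h1 : ∀ c, f (t • c) = starRingEnd ℂ (f c) := fun c => by
    obtain ⟨h, e⟩ := QuotientGroup.mk_out_eq_mul (H.subgroupOf ⊤) (t • c.out)
    rw [MulAction.Quotient.mk_smul_out] at e
    have h2 : ((h : (⊤ : Subgroup Ga)) : Ga) x = x := mem_fix.1 hx _ h.2
    simp only [f, e, smul_eq_mul, Subgroup.coe_mul, AlgEquiv.mul_apply, h2, t, hτ]
  have h2 : t * t = 1 := Subtype.ext (AlgEquiv.ext fun z => φ.toRingHom.injective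
    ((hτ (τ z)).trans (by rw [hτ, Complex.conj_conj]; rfl)))
  have h3 : ∀ c : (⊤ : Subgroup Ga) ⧸ H.subgroupOf ⊤, t • c ≠ c := fun c e => by
    have e' : c.out⁻¹ * (t • c.out) ∈ H.subgroupOf ⊤ := QuotientGroup.eq.1
      ((QuotientGroup.out_eq' c).trans (e.symm.trans (MulAction.Quotient.mk_smul_out _ t c).symm))
    have h5 := (normal_Gmu 4).conj_mem _ (h4 e') (c.out : Ga)
    obtain ⟨i, hi⟩ := IsAlgClosed.exists_eq_mul_self (-1 : Om)
    have h6 : τ i = i := by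
      simpa [t, mul_assoc] using h5 i (by linear_combination (1 - i * i) * hi)
    have h7 := hτ i
    have h8 := congrArg (fun z => (φ z).re) hi
    have h9 := congrArg Complex.im h7
    simp only [h6, Complex.conj_im, map_neg, map_one, map_mul, Complex.mul_re, Complex.neg_re,
      Complex.one_re] at h8 h9
    have h10 : (φ i).im = 0 := by linarith
    rw [h10] at h8
    nlinarith [mul_self_nonneg (φ i).re]
  have h5 : ∏ c, f c / (‖f c‖ : ℂ) = 1 := Finset.prod_ninvolution (t • ·) (fun c => by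
    rw [h1, Complex.norm_conj, div_mul_div_comm, Complex.mul_conj', sq,
      div_self (mul_ne_zero (f0 c) (f0 c))]) (fun c _ => h3 c) (fun _ => Finset.mem_univ _)
    fun c => by rw [smul_smul, h2, one_smul]
  rw [Finset.prod_div_distrib, div_eq_one_iff_eq (Finset.prod_ne_zero_iff.2 fun c _ => f0 c)] at h5
  have h6 := congrArg φ hr
  rw [φ.commutes, eq_ratCast, nmE, finprod_eq_prod_of_fintype, map_prod] at h6
  have h7 : (r : ℝ) = ∏ c, ‖f c‖ := by exact_mod_cast h6.trans h5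
  have h8 : (0 : ℝ) < r := h7 ▸ Finset.prod_pos fun c _ => norm_pos_iff.2 (by simpa using f0 c)
  exact_mod_cast h8

/-- the bookkeeping relation -/
def ArtCR (H : Subgroup Ga) (θ : Ga → A) (k m : ℕ) (d : Pr → ℤ) : Prop :=
  ∃ g ∈ H, ∃ a b : ℕ, a ≠ 0 ∧ b ≠ 0 ∧ a.Coprime m ∧ b.Coprime m ∧ art H θ d = θ g ∧
    (∀ z : Om, z ^ k = 1 → g z ^ b = z ^ a) ∧
    ∀ Q, ¬ ch Q ∣ m → (nmD H ⊤ d Q : ℚ) = val Q (a : Om) - val Q (b : Om)

omit [DiscreteTopology A] in
theorem artC_ind {H : Subgroup Ga} (hH : Op H) {θ : Ga → A} (hθ : IsX H θ) {k m : ℕ}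
    (hkm : k ∣ m) (hk : ∀ g ∈ H, g ∈ Gmu k → θ g = 0) {P : Pr} (hP : ¬ ch P ∣ m) {φ : Ga}
    (hφ : φ ∈ H) (h : IsFrob P (deg H P) φ) : art H θ (ind H P) = θ φ :=
  art_ind hH hθ (fun σ h1 h2 => hk σ h2 (Ine_le_Gmu (fun e => hP (e.trans hkm)) h1)) hφ h

omit [DiscreteTopology A] in
theorem artC_rel {H : Subgroup Ga} (hH : Op H) {θ : Ga → A} (hθ : IsX H θ) {k m : ℕ}
    (hkm : k ∣ m) (hk : ∀ g ∈ H, g ∈ Gmu k → θ g = 0) (hu : UnrOut H m) :
    ∀ d ∈ Div H m, ArtCR H θ k m d := by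
  have h0 : ArtCR H θ k m 0 := by
    refine ⟨1, H.one_mem, 1, 1, one_ne_zero, one_ne_zero, m.coprime_one_left, m.coprime_one_left,
      ?_, fun z _ => rfl, fun Q _ => ?_⟩
    · simpa only [zero_smul, hθ.one, art] using
        lift_zsmul hH (fun P => θ (frob H P)) (Div H m).zero_mem 0
    · have := nmD_zsmul hH le_top 0 0
      rw [zero_smul, zero_smul] at this
      simp [this]
  have hadd : ∀ a ∈ Div H m, ∀ b ∈ Div H m, ArtCR H θ k m a → ArtCR H θ k m b →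
      ArtCR H θ k m (a + b) := by
    rintro d hd d' hd' ⟨g, g1, a, b, a0, b0, a1, b1, e1, e2, e3⟩
      ⟨g', g2, a', b', a2, b2, a3, b3, e4, e5, e6⟩
    refine ⟨g * g', H.mul_mem g1 g2, a * a', b * b', mul_ne_zero a0 a2, mul_ne_zero b0 b2,
      a1.mul_left a3, b1.mul_left b3, ?_, fun z hz => ?_, fun Q hQ => ?_⟩
    · rw [hθ.2 g g1 g' g2, ← e1, ← e4]
      exact lift_add hH _ hd hd'
    · rw [AlgEquiv.mul_apply, mul_comm b, pow_mul, ← map_pow, e5 z hz, map_pow, ← pow_mul,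
        mul_comm a', pow_mul, e2 z hz, pow_mul]
    · rw [nmD_add hH le_top, Pi.add_apply, Int.cast_add, e3 Q hQ, e6 Q hQ, Nat.cast_mul,
        Nat.cast_mul, val_mul Q (Nat.cast_ne_zero.2 a0) (Nat.cast_ne_zero.2 a2),
        val_mul Q (Nat.cast_ne_zero.2 b0) (Nat.cast_ne_zero.2 b2)]
      ring
  have hneg : ∀ a ∈ Div H m, ArtCR H θ k m a → ArtCR H θ k m (-a) := by
    rintro d hd ⟨g, g1, a, b, a0, b0, a1, b1, e1, e2, e3⟩
    refine ⟨g⁻¹, H.inv_mem g1, b, a, b0, a0, b1, a1, ?_, fun z hz => ?_, fun Q hQ => ?_⟩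
    · rw [hθ.inv g1, ← e1, ← neg_one_zsmul, ← neg_one_zsmul (art H θ d)]
      exact lift_zsmul hH _ hd _
    · rw [← e2 _ (by rw [← map_pow, hz, map_one]), ← AlgEquiv.mul_apply, mul_inv_cancel,
        AlgEquiv.one_apply]
    · rw [← neg_one_zsmul, nmD_zsmul hH le_top, neg_one_zsmul, Pi.neg_apply, Int.cast_neg, e3 Q hQ]
      ring
  refine Div.induction hH _ h0 hadd fun P c hP => ?_
  have hm := ind_mem H hP
  have h1 : ArtCR H θ k m (ind H P) := by
    obtain ⟨f1, f2⟩ := frob_spec hH P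
    obtain ⟨j, j1, j2, -⟩ := nmD_ind hH le_top (hu P hP)
    obtain ⟨φ, hφ⟩ := exists_frob P
    rw [Nat.dvd_one.1 (deg_dvd (hH.mono le_top) (Subgroup.mem_top φ) hφ), mul_one] at j1
    refine ⟨_, f1, ch P ^ deg H P, 1, pow_ne_zero _ (ch_prime P).ne_zero, one_ne_zero,
      (((ch_prime P).coprime_iff_not_dvd).2 hP).pow_left _, m.coprime_one_left,
      artC_ind hH hθ hkm hk hP f1 f2, fun z hz => ?_, fun Q hQ => ?_⟩
    · rw [pow_one, f2.root (fun e => hP (e.trans hkm)) hz]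
    · rw [j2, Nat.cast_one, val_one, Nat.cast_pow, val_pow, j1, sub_zero, Pi.smul_apply,
        smul_eq_mul, Int.cast_mul, Int.cast_natCast, ind]
      refine congrArg _ ?_
      split_ifs with h
      · obtain ⟨g, -, rfl⟩ := h
        rw [← ch_smul g P, val_ch, Int.cast_one]
      · rw [val_natCast, padicValNat.eq_zero_of_not_dvd, Int.cast_zero, Nat.cast_zero]
        intro e
        obtain ⟨g, hg⟩ := trans_ch P Q
          ((Nat.prime_dvd_prime_iff_eq (ch_prime Q) (ch_prime P)).1 e).symm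
        exact h ⟨g, Subgroup.mem_top g, hg⟩
  induction c using Int.induction_on with
  | zero => rwa [zero_smul]
  | succ i ih =>
    rw [add_smul, one_smul]
    exact hadd _ ((Div H m).zsmul_mem hm _) _ hm ih h1
  | pred i ih =>
    rw [sub_smul, one_smul, sub_eq_add_neg]
    exact hadd _ ((Div H m).zsmul_mem hm _) _ ((Div H m).neg_mem hm) ih (hneg _ hm h1)

theorem artC_val {Q : Pr} {m a : ℕ} (hQ : ch Q ∣ m) (ha : a.Coprime m) : val Q (a : Om) = 0 := by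
  rw [val_natCast, padicValNat.eq_zero_of_not_dvd, Nat.cast_zero]
  exact (ch_prime Q).coprime_iff_not_dvd.1 (ha.coprime_dvd_right hQ).symm

theorem art_cyc_ray {H : Subgroup Ga} (hH : Op H) (h4 : H ≤ Gmu 4) {θ : Ga → A} (hθ : IsX H θ)
    {k m M : ℕ} (hm : m ≠ 0) (hkm : k ∣ m) (hsq : Squarefree k) (hM : M ≠ 0)
    (hk : ∀ g ∈ H, g ∈ Gmu k → θ g = 0) (hu : UnrOut H m) {x : Om} (hx : x ∈ Ray H m M) :
    art H θ (dv m x) = 0 := by
  obtain ⟨g, g1, a, b, a0, b0, a1, b1, e1, e2, e3⟩ := artC_rel hH hθ hkm hk hu _ (dv_mem x hx.1)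
  obtain ⟨y1, y0, y2⟩ := nmE_ray hH le_top hx
  have := artC_gal
  obtain ⟨r, hr⟩ := (InfiniteGalois.mem_range_algebraMap_iff_fixed (k := ℚ) (nmE H ⊤ x)).2
    fun f => mem_fix.1 y1 f (Subgroup.mem_top f)
  have r0 := artC_pos hH h4 hx.1 hx.2.1 hr
  rw [nmD_dv hH le_top hu hx.1 hx.2.1] at e3
  generalize nmE H ⊤ x = y at *
  have M1 : (1 : ℚ) ≤ M := by exact_mod_cast Nat.pos_of_ne_zero hM
  have h1 : ∀ Q, val Q y = val Q (a : Om) - val Q (b : Om) := fun Q => by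
    by_cases hQ : ch Q ∣ m
    · have h2 := (val_add_of_lt (P := Q) (y := y - 1) one_ne_zero
        ((y2 Q hQ).imp_right fun h => by rw [val_one]; linarith)).2
      rw [add_sub_cancel] at h2
      rw [h2, val_one, artC_val hQ a1, artC_val hQ b1, sub_zero]
    · rw [← e3 Q hQ, val_eq_dv (fun _ _ => le_top) y1 hQ]
  obtain ⟨p, q, p0, q0, hy⟩ : ∃ p q : ℕ, p ≠ 0 ∧ q ≠ 0 ∧ y = p / q := by
    refine ⟨r.num.toNat, r.den, by simpa using r0, r.den_nz, ?_⟩
    rw [← hr, eq_ratCast, Rat.cast_def, ← Int.cast_natCast (r.num.toNat),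
      Int.toNat_of_nonneg (Rat.num_pos.2 r0).le]
  have a0' : (a : Om) ≠ 0 := Nat.cast_ne_zero.2 a0
  have b0' : (b : Om) ≠ 0 := Nat.cast_ne_zero.2 b0
  have p0' : (p : Om) ≠ 0 := Nat.cast_ne_zero.2 p0
  have q0' : (q : Om) ≠ 0 := Nat.cast_ne_zero.2 q0
  have h2 : p * b = q * a := by
    refine (Nat.eq_iff_prime_padicValNat_eq _ _ (mul_ne_zero p0 b0) (mul_ne_zero q0 a0)).2
      fun l hl => ?_
    obtain ⟨Q, rfl⟩ := exists_pr l hl
    have h3 := h1 Q
    rw [hy, val_div Q p0' q0'] at h3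
    rw [← Nat.cast_inj (R := ℚ), ← val_natCast, ← val_natCast, Nat.cast_mul, Nat.cast_mul,
      val_mul Q p0' b0', val_mul Q q0' a0']
    linarith
  have h3 : (y - 1) * b = (((a : ℤ) - b : ℤ) : Om) := by
    have h4 : (p : Om) * b = q * a := by exact_mod_cast h2
    rw [hy]
    push_cast
    field_simp
    linear_combination h4
  have h5 : b ≡ a [MOD k] := by
    rw [Nat.modEq_iff_dvd, Int.natCast_dvd, ← Nat.prod_primeFactors_of_squarefree hsq]
    refine Finset.prod_primes_dvd _ (fun l hl => (Nat.prime_of_mem_primeFactors hl).prime)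
      fun l hl => ?_
    obtain ⟨Q, rfl⟩ := exists_pr l (Nat.prime_of_mem_primeFactors hl)
    have hQ := (Nat.dvd_of_mem_primeFactors hl).trans hkm
    have h6 := ((y2 Q hQ).mono M1).mul (sm_val Q (b : Om))
    rw [h3, artC_val hQ b1, add_zero] at h6
    have h7 : Sm Q 1 ((((a : ℤ) - b).natAbs : ℕ) : Om) := by
      rcases Int.natAbs_eq ((a : ℤ) - b) with h | h
      · rwa [h, Int.cast_natCast] at h6
      · rw [h, Int.cast_neg, Int.cast_natCast] at h6
        simpa only [neg_neg] using h6.neg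
    rcases h7 with h | h
    · rw [Nat.cast_eq_zero.1 h]
      exact dvd_zero _
    · rw [val_natCast] at h
      exact dvd_of_one_le_padicValNat (by exact_mod_cast h)
  rw [e1]
  refine hk g g1 fun z hz => ?_
  have k0 : k ≠ 0 := hsq.ne_zero
  have z0 : z ≠ 0 := fun h => by simp [h, k0] at hz
  have h6 : (g z / z) ^ Nat.gcd b k = 1 := pow_gcd_eq_one.2
    ⟨by rw [div_pow, e2 z hz, pow_eq_pow_of_modEq h5 hz, div_self (pow_ne_zero _ z0)],
      by rw [div_pow, ← map_pow, hz, map_one, div_one]⟩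
  rwa [b1.coprime_dvd_right hkm, pow_one, div_eq_one_iff_eq z0] at h6

theorem art_cyc {H : Subgroup Ga} (hH : Op H) (h4 : H ≤ Gmu 4) {θ : Ga → A} (hθ : IsX H θ)
    {k m M : ℕ} (hm : m ≠ 0) (hkm : k ∣ m) (hsq : Squarefree k) (hM : M ≠ 0)
    (hk : ∀ g ∈ H, g ∈ Gmu k → θ g = 0) (hu : UnrOut H m) {d : Pr → ℤ} (hd : d ∈ Div H m)
    (h0 : art H θ d = 0) : d ∈ dvRay H m M ⊔ Nsub H m θ := by
  let a : Div H m →+ A := AddMonoidHom.mk' (fun d => art H θ d) fun d d' => lift_add hH _ d.2 d'.2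
  let t : H →* Multiplicative A := MonoidHom.mk' (fun g => Multiplicative.ofAdd (θ g))
    fun g g' => hθ.2 _ g.2 _ g'.2
  have h1 : (dvRay H m M ⊔ Nsub H m θ).addSubgroupOf (Div H m) ≤ a.ker := by
    rw [← AddSubgroup.map_le_map_iff_of_injective (Div H m).subtype_injective,
      AddSubgroup.addSubgroupOf_map_subtype]
    refine inf_le_left.trans (sup_le ((AddSubgroup.closure_le _).2 ?_)
      ((AddSubgroup.closure_le _).2 ?_))
    · rintro _ ⟨x, hx, rfl⟩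
      exact ⟨⟨_, dv_mem x hx.1⟩, art_cyc_ray hH h4 hθ hm hkm hsq hM hk hu hx, rfl⟩
    · rintro _ ⟨P, c, hP, hc, rfl⟩
      refine ⟨⟨_, (Div H m).zsmul_mem (ind_mem H hP) c⟩, (lift_zsmul hH _ (ind_mem H hP) c).trans
        ((congrArg (c • ·) (artC_ind hH hθ hkm hk hP (frob_spec hH P).1 (frob_spec hH P).2)).trans
          hc), rfl⟩
  have hle : kerX H θ ≤ H := fun g hg => (hθ.mem_kerX.1 hg).1
  have hf : ∀ P φ, ¬ ch P ∣ m → φ ∈ H → IsFrob P 1 φ → art H θ (ind H P) = θ φ :=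
    fun P φ hP h2 h3 => artC_ind hH hθ hkm hk hP h2 (by rwa [Nat.dvd_one.1 (deg_dvd hH h2 h3)])
  have h2 := norm_index_le (hθ.op_kerX hH) hle (fun h h2 b hb => hθ.mem_kerX.2
    ⟨H.mul_mem (H.mul_mem h2 (hle hb)) (H.inv_mem h2), by
      simpa only [inv_inv, (hθ.mem_kerX.1 hb).2] using hθ.conj_self (H.inv_mem h2) (hle hb)⟩)
    hm hu M (dvRay H m M ⊔ Nsub H m θ) le_sup_left fun P φ hP h2 h3 =>
      AddSubgroup.mem_sup_right (AddSubgroup.subset_closure ⟨P, 1, hP, by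
        rw [one_smul, ← artC_ind hH hθ hkm hk hP (frob_spec hH P).1 (frob_spec hH P).2,
          hf P φ hP (hle h2) h3, (hθ.mem_kerX.1 h2).2], (one_smul _ _).symm⟩)
  have h3 : (kerX H θ).subgroupOf H = t.ker :=
    Subgroup.ext fun g => hθ.mem_kerX.trans (and_iff_right g.2)
  have h5 : ∀ σ ∈ H, θ σ ∈ a.range := fun σ hσ => by
    obtain ⟨l, ⟨P, φ, rfl, f1, f2, f3⟩, hl⟩ := (cheb (hθ.op_kerX hH).normalCore σ).exists_notMem_finset
      m.divisors
    have hP : ¬ ch P ∣ m := fun e => hl (Nat.mem_divisors.2 ⟨e, hm⟩)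
    have f4 : φ ∈ H := sup_le ((Subgroup.normalCore_le _).trans hle)
      ((Subgroup.zpowers_le).2 hσ) f2
    have f5 : (kerX H θ).normalCore ⊔ Subgroup.zpowers φ ≤
        ((AddSubgroup.toSubgroup a.range).comap t).map H.subtype := by
      refine sup_le (fun w hw => ?_) ((Subgroup.zpowers_le).2 ?_)
      · obtain ⟨w1, w2⟩ := hθ.mem_kerX.1 (Subgroup.normalCore_le _ hw)
        exact ⟨⟨w, w1⟩, ⟨0, a.map_zero.trans w2.symm⟩, rfl⟩
      · exact ⟨⟨φ, f4⟩, ⟨⟨_, ind_mem H hP⟩, hf P φ hP f4 f1⟩, rfl⟩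
    obtain ⟨g, hg, rfl⟩ := f5 f3
    exact hg
  have h6 : Nat.card t.range = Nat.card a.range :=
    Nat.card_congr (Equiv.subtypeEquiv Multiplicative.toAdd fun z => ⟨fun ⟨g, e⟩ => e ▸ h5 g g.2,
      fun ⟨d, e⟩ => by
        obtain ⟨g, g1, -, -, -, -, -, -, e1, -⟩ := artC_rel hH hθ hkm hk hu d d.2
        exact ⟨⟨g, g1⟩, e1.symm.trans e⟩⟩)
  have h7 : (dvRay H m M ⊔ Nsub H m θ).relIndex (Div H m) ≠ 0 := fun e =>
    ray_fin hH hm hu M (AddSubgroup.relIndex_eq_zero_of_le_left le_sup_left e)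
  rw [Subgroup.relIndex, h3, Subgroup.index_ker, h6, ← AddSubgroup.index_ker,
    AddSubgroup.relIndex] at h2
  have h8 := AddSubgroup.relIndex_mul_index h1
  rw [AddSubgroup.relIndex] at h7
  have h9 : ((dvRay H m M ⊔ Nsub H m θ).addSubgroupOf (Div H m)).relIndex a.ker = 1 := by
    rw [← h8] at h2 h7
    have h10 := Nat.pos_of_ne_zero (right_ne_zero_of_mul h7)
    have h11 := Nat.pos_of_ne_zero (left_ne_zero_of_mul h7)
    nlinarith
  exact AddSubgroup.relIndex_eq_one.1 h9 (show (⟨d, hd⟩ : Div H m) ∈ a.ker from h0)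

end Vale.Agent.P024U
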