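import Vale.Agent.P024U.ArtC

/-! Descent step in Artin lemma.  `m' = m k`.  In `E`: `d' = a • ind E P - b • ind E P0` has `art E θ d' = a θ φ - b θ φ0 = 0` (`deg E P = deg H P` since `φ ∈ E`;
`art_ind`), so `d' = dv m' x + n'` by `art_cyc`, `x ∈ Ray E m' M`.  Apply `nmD E H`: `nmD (ind E P) = ind H P`, `nmD (dv m' x) = dv m' (nmE x)`,
`nmD` maps `Nsub E m' θ` into `Nsub H m θ` (`nmD_ind`).  Finally `dv m' y = dv m y` for `y = nmE x ∈ Ray H m' M ⊆ Ray H m M` because `y` is a unit at the primes over `m'`.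
`UnrOut E m'`: for `ch P ∤ m k`, `Ine P ≤ kerX H θ ⊓ Gmu k ≤ E`. -/

namespace Vale.Agent.P024U

variable {A : Type} [AddCommGroup A] [TopologicalSpace A] [DiscreteTopology A]

theorem ArtE_dv {H : Subgroup Ga} {k m M : ℕ} (hM : M ≠ 0) {y : Om} (hy : y ∈ Ray H (m * k) M) :
    y ∈ Ray H m M ∧ dv (m * k) y = dv m y := by
  refine ⟨⟨hy.1, hy.2.1, fun P hP => hy.2.2 P (hP.mul_right k)⟩, funext fun P => ?_⟩
  unfold dv
  by_cases h1 : ch P ∣ m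
  · rw [if_pos h1, if_pos (h1.mul_right k)]
  by_cases h2 : ch P ∣ m * k
  · have h3 : (0 : ℚ) < M := by exact_mod_cast Nat.pos_of_ne_zero hM
    have h4 := (val_add_of_lt (P := P) (x := 1) (y := y - 1) one_ne_zero
      ((hy.2.2 P h2).imp id fun h => by rw [val_one]; exact h3.trans_le h)).2
    rw [add_sub_cancel, val_one] at h4
    rw [if_neg h1, if_pos h2, h4, Int.floor_zero]
  · rw [if_neg h1, if_neg h2]

theorem ArtE_deg {H E : Subgroup Ga} (hE : Op E) (hle : E ≤ H) {P : Pr} {φ : Ga} (hφ : φ ∈ E)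
    (hf : IsFrob P (deg H P) φ) : deg E P = deg H P :=
  Nat.dvd_antisymm (deg_dvd hE hφ hf)
    (deg_dvd (hE.mono hle) (hle (frob_spec hE P).1) (frob_spec hE P).2)

theorem ArtE_ind {H E : Subgroup Ga} (hE : Op E) (hle : E ≤ H) {P : Pr} (hP : Ine P ≤ E)
    (h : deg E P = deg H P) : nmD E H (ind E P) = ind H P := by
  obtain ⟨j, h1, h2, -⟩ := nmD_ind hE hle hP
  have h3 := deg_pos (hE.mono hle) P
  have h4 : j = 1 := by
    rw [h] at h1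
    exact (Nat.eq_of_mul_eq_mul_right h3 (h1.symm.trans (one_mul _).symm))
  rw [h2, h4, Nat.cast_one, one_smul]

omit [DiscreteTopology A] in
theorem ArtE_nsub {H E : Subgroup Ga} (hE : Op E) (hle : E ≤ H) {θ : Ga → A} (hθ : IsX H θ)
    {m : ℕ} {Q : Pr} (hQ : ¬ ch Q ∣ m) (h1 : Ine Q ≤ E) (h2 : Ine Q ≤ kerX H θ) {c : ℤ}
    (hc : c • θ (frob E Q) = 0) : nmD E H (c • ind E Q) ∈ Nsub H m θ := by
  obtain ⟨j, h3, h4, -⟩ := nmD_ind hE hle h1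
  have hH := hE.mono hle
  have h5 := (frob_spec hH Q).2.pow j
  rw [mul_comm, ← h3] at h5
  have h6 := (hθ.mem_kerX.1 (h2 ((frob_spec hE Q).2.inv_mul h5))).2
  have h7 := hle (frob_spec hE Q).1
  rw [hθ.2 _ (H.inv_mem h7) _ (H.pow_mem (frob_spec hH Q).1 j), hθ.inv h7,
    hθ.pow (frob_spec hH Q).1, neg_add_eq_zero] at h6
  refine AddSubgroup.subset_closure ⟨Q, c * j, hQ, ?_, ?_⟩
  · rw [mul_smul, natCast_zsmul, ← h6, hc]
  · rw [nmD_zsmul hE hle, h4, mul_smul]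

theorem art_desc {H E : Subgroup Ga} (hH : Op H) (h4 : H ≤ Gmu 4) {θ : Ga → A} (hθ : IsX H θ)
    {k m M : ℕ} (hm : m ≠ 0) (hsq : Squarefree k) (hM : M ≠ 0) (hu : UnrOut (kerX H θ) m) (hle : E ≤ H)
    (hE : kerX H θ ⊓ Gmu k ≤ E) (hk : ∀ g ∈ E, g ∈ Gmu k → θ g = 0) {P P0 : Pr}
    (hP : ¬ ch P ∣ m * k) (hP0 : ¬ ch P0 ∣ m * k) {φ φ0 : Ga} (hφ : φ ∈ E) (hφ0 : φ0 ∈ E)
    (hf : IsFrob P (deg H P) φ) (hf0 : IsFrob P0 (deg H P0) φ0) (a b : ℤ)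
    (hab : a • θ φ = b • θ φ0) :
    a • ind H P - b • ind H P0 ∈ dvRay H m M ⊔ Nsub H m θ := by
  have hk0 : k ≠ 0 := hsq.ne_zero
  have hoE : Op E := ((hθ.op_kerX hH).inf (op_Gmu hk0)).mono hE
  have hK : ∀ Q : Pr, ¬ ch Q ∣ m * k → Ine Q ≤ kerX H θ := fun Q hQ =>
    hu Q fun h => hQ (h.mul_right k)
  have huE : UnrOut E (m * k) := fun Q hQ =>
    (le_inf (hK Q hQ) (Ine_le_Gmu fun h => hQ (h.mul_left m))).trans hE
  have hθE := hθ.mono hle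
  have hd := ArtE_deg hoE hle hφ hf
  have hd0 := ArtE_deg hoE hle hφ0 hf0
  have h1 := art_ind hoE hθE (fun σ hσ _ => (hθ.mem_kerX.1 (hK P hP hσ)).2) hφ (hd ▸ hf)
  have h2 := art_ind hoE hθE (fun σ hσ _ => (hθ.mem_kerX.1 (hK P0 hP0 hσ)).2) hφ0 (hd0 ▸ hf0)
  have h3 := (Div E (m * k)).zsmul_mem (ind_mem E hP) a
  have h4' := (Div E (m * k)).zsmul_mem (ind_mem E hP0) (-b)
  have h5 : art E θ (a • ind E P + (-b) • ind E P0) = 0 := by
    unfold art at h1 h2 ⊢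
    rw [lift_add hoE _ h3 h4', lift_zsmul hoE _ (ind_mem E hP), lift_zsmul hoE _ (ind_mem E hP0),
      h1, h2, hab, neg_smul, add_neg_cancel]
  have h6 := art_cyc hoE (hle.trans h4) hθE (mul_ne_zero hm hk0) (dvd_mul_left k m) hsq hM hk huE
    ((Div E (m * k)).add_mem h3 h4') h5
  have h7 : dvRay E (m * k) M ⊔ Nsub E (m * k) θ ≤ (dvRay H m M ⊔ Nsub H m θ).comap
      (AddMonoidHom.mk' (nmD E H) (nmD_add hoE hle)) := by
    refine sup_le ((AddSubgroup.closure_le _).2 ?_) ((AddSubgroup.closure_le _).2 ?_)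
    · rintro _ ⟨x, hx, rfl⟩
      obtain ⟨h8, h9⟩ := ArtE_dv hM (nmE_ray hoE hle hx)
      refine AddSubgroup.mem_sup_left (AddSubgroup.subset_closure ⟨_, h8, ?_⟩)
      exact ((nmD_dv hoE hle huE hx.1 hx.2.1).trans h9).symm
    · rintro _ ⟨Q, c, hQ, hc, rfl⟩
      exact AddSubgroup.mem_sup_right (ArtE_nsub hoE hle hθ (fun h => hQ (h.mul_right k))
        (huE Q hQ) (hK Q hQ) hc)
  have h8 : nmD E H (a • ind E P + (-b) • ind E P0) ∈ dvRay H m M ⊔ Nsub H m θ := h7 h6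
  rwa [nmD_add hoE hle, nmD_zsmul hoE hle, nmD_zsmul hoE hle, ArtE_ind hoE hle (huE P hP) hd,
    ArtE_ind hoE hle (huE P0 hP0) hd0, neg_smul, ← sub_eq_add_neg] at h8

end Vale.Agent.P024U
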