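import Vale.Agent.P024U.Ram0
import Vale.Agent.P024U.XApi

/-! Divisors.  A divisor is supported on finitely many orbits (`orbits_finite`), so the `finsum` in `lift` is a finite sum and
`d = ∑ d(o.out) • ind H o.out`.  -/

namespace Vale.Agent.P024U

variable {H H' : Subgroup Ga} {m : ℕ}

theorem ind_mem (H : Subgroup Ga) {P : Pr} (hP : ¬ ch P ∣ m) : ind H P ∈ Div H m := by
  classical
  refine ⟨fun h hh Q => if_congr ⟨?_, ?_⟩ rfl rfl, fun Q hQ => if_neg ?_,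
    (Set.finite_singleton (ch P)).subset ?_⟩
  · rintro ⟨k, hk, e⟩
    exact ⟨h⁻¹ * k, H.mul_mem (H.inv_mem hh) hk, by rw [mul_smul, e, inv_smul_smul]⟩
  · rintro ⟨k, hk, rfl⟩
    exact ⟨h * k, H.mul_mem hh hk, mul_smul _ _ _⟩
  · rintro ⟨k, -, rfl⟩
    exact hP (by rwa [ch_smul] at hQ)
  · rintro l ⟨Q, rfl, hQ⟩
    by_contra hne
    refine hQ (if_neg ?_)
    rintro ⟨k, -, rfl⟩
    exact hne (ch_smul k P)

theorem ind_smul (P : Pr) {h : Ga} (hh : h ∈ H) : ind H (h • P) = ind H P := by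
  classical
  funext Q
  refine if_congr ⟨?_, ?_⟩ rfl rfl
  · rintro ⟨k, hk, rfl⟩
    exact ⟨k * h, H.mul_mem hk hh, mul_smul _ _ _⟩
  · rintro ⟨k, hk, rfl⟩
    exact ⟨k * h⁻¹, H.mul_mem hk (H.inv_mem hh), by rw [mul_smul, inv_smul_smul]⟩

theorem Div.mono (hle : H' ≤ H) {m' : ℕ} (hm : m ∣ m') : Div H m' ≤ Div H' m := fun _ hd =>
  ⟨fun h hh => hd.1 h (hle hh), fun P hP => hd.2.1 P (hP.trans hm), hd.2.2⟩

theorem DivA_eq (P Q : Pr) (o : MulAction.orbitRel.Quotient H Pr) (e : P = Q) :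
    o = Quotient.mk _ P ↔ ∃ h ∈ H, h • o.out = Q := by
  subst e
  conv_lhs => rw [← Quotient.out_eq o, eq_comm, Quotient.eq]
  exact ⟨fun ⟨h, e⟩ => ⟨h, h.2, e⟩, fun ⟨h, hh, e⟩ => ⟨⟨h, hh⟩, e⟩⟩

theorem DivA_fin (hH : Op H) {d : Pr → ℤ} (hd : d ∈ Div H m) :
    {o : MulAction.orbitRel.Quotient H Pr | d o.out ≠ 0}.Finite := by
  choose S _ hS using orbits_finite hH
  refine ((hd.2.2.biUnion fun l _ => (S l).finite_toSet).image (Quotient.mk _)).subset ?_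
  intro o ho
  obtain ⟨Q, hQ, h, hh, e⟩ := hS _ o.out rfl
  refine ⟨Q, Set.mem_biUnion (x := ch o.out) ⟨o.out, rfl, ho⟩ hQ, ?_⟩
  exact ((DivA_eq Q Q o rfl).2 ⟨h⁻¹, H.inv_mem hh, by rw [← e, inv_smul_smul]⟩).symm

theorem DivA_supp {A : Type*} [AddCommGroup A] (hH : Op H) (a : Pr → A) {d : Pr → ℤ}
    (hd : d ∈ Div H m) :
    (Function.support fun o : MulAction.orbitRel.Quotient H Pr => d o.out • a o.out).Finite :=
  (DivA_fin hH hd).subset fun o ho h => ho (by simp only [h, zero_smul])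

theorem Div.induction (hH : Op H) (p : (Pr → ℤ) → Prop) (h0 : p 0)
    (hadd : ∀ a ∈ Div H m, ∀ b ∈ Div H m, p a → p b → p (a + b))
    (hind : ∀ (P : Pr) (c : ℤ), ¬ ch P ∣ m → p (c • ind H P)) : ∀ d ∈ Div H m, p d := by
  intro d hd
  have key : ∀ s : Finset (MulAction.orbitRel.Quotient H Pr), (∀ o ∈ s, d o.out ≠ 0) →
      (∑ o ∈ s, d o.out • ind H o.out) ∈ Div H m ∧ p (∑ o ∈ s, d o.out • ind H o.out) := by
    classical
    intro s
    induction s using Finset.induction_on with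
    | empty => exact fun _ => ⟨zero_mem _, h0⟩
    | insert o s ho ih =>
      intro h
      obtain ⟨h1, h2⟩ := ih fun o' ho' => h o' (Finset.mem_insert_of_mem ho')
      have h3 : ¬ ch o.out ∣ m := fun h4 => h o (Finset.mem_insert_self _ _) (hd.2.1 _ h4)
      have h4 := zsmul_mem (ind_mem H h3) (d o.out)
      rw [Finset.sum_insert ho]
      exact ⟨add_mem h4 h1, hadd _ h4 _ h1 (hind _ _ h3) h2⟩
  have h := (key (DivA_fin hH hd).toFinset fun o ho => (Set.Finite.mem_toFinset _).1 ho).2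
  have e : ∑ o ∈ (DivA_fin hH hd).toFinset, d o.out • ind H o.out = d := by
    funext Q
    obtain ⟨k, hk, ek⟩ := (DivA_eq Q Q _ rfl).1 rfl
    have e1 : d (Quotient.mk (MulAction.orbitRel H Pr) Q).out = d Q := by
      conv_rhs => rw [← ek, hd.1 k hk]
    rw [Finset.sum_apply, Finset.sum_eq_single (Quotient.mk _ Q)]
    · rw [Pi.smul_apply, ind, if_pos ⟨k, hk, ek⟩, smul_eq_mul, mul_one, e1]
    · intro o _ ho
      rw [Pi.smul_apply, ind, if_neg fun h5 => ho ((DivA_eq Q Q o rfl).2 h5), smul_zero]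
    · intro h5
      rw [Set.Finite.mem_toFinset, Set.mem_ofPred_eq, not_not] at h5
      rw [Pi.smul_apply, h5, zero_smul]
  rwa [e] at h

theorem lift_add {A : Type*} [AddCommGroup A] (hH : Op H) (a : Pr → A) {d d' : Pr → ℤ}
    (hd : d ∈ Div H m) (hd' : d' ∈ Div H m) : lift H a (d + d') = lift H a d + lift H a d' := by
  rw [lift, lift, lift, ← finsum_add_distrib (DivA_supp hH a hd) (DivA_supp hH a hd')]
  simp only [Pi.add_apply, add_smul]

theorem lift_zsmul {A : Type*} [AddCommGroup A] (hH : Op H) (a : Pr → A) {d : Pr → ℤ}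
    (hd : d ∈ Div H m) (c : ℤ) : lift H a (c • d) = c • lift H a d := by
  rw [lift, lift, smul_finsum' c (DivA_supp hH a hd)]
  simp only [Pi.smul_apply, smul_eq_mul, mul_smul]

theorem lift_ind {A : Type*} [AddCommGroup A] (a : Pr → A) (P : Pr) :
    ∃ h ∈ H, lift H a (ind H P) = a (h • P) := by
  obtain ⟨k, hk, ek⟩ := (DivA_eq (H := H) P P _ rfl).1 rfl
  have e : k⁻¹ • P = (Quotient.mk (MulAction.orbitRel H Pr) P).out := inv_smul_eq_iff.2 ek.symm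
  refine ⟨k⁻¹, H.inv_mem hk, ?_⟩
  rw [lift, finsum_eq_single _ (Quotient.mk _ P), ind, if_pos ⟨k⁻¹, H.inv_mem hk, e⟩, one_smul, e]
  intro o ho
  rw [ind, if_neg, zero_smul]
  rintro ⟨h, hh, e'⟩
  exact ho ((DivA_eq P P o rfl).2 ⟨h⁻¹, H.inv_mem hh, by rw [← e', inv_smul_smul]⟩)

/-- an unramified character takes the same value on all Frobenius elements -/
theorem art_ind {A : Type*} [AddCommGroup A] [TopologicalSpace A] (hH : Op H) {θ : Ga → A}
    (hθ : IsX H θ) {P : Pr} (hu : ∀ σ ∈ Ine P, σ ∈ H → θ σ = 0) {φ : Ga} (hφ : φ ∈ H)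
    (h : IsFrob P (deg H P) φ) : art H θ (ind H P) = θ φ := by
  obtain ⟨k, hk, e⟩ := lift_ind (H := H) (fun P => θ (frob H P)) P
  obtain ⟨h1, h2⟩ := frob_spec hH (k • P)
  rw [deg_smul P fun g => ⟨fun hg => H.mul_mem (H.mul_mem hk hg) (H.inv_mem hk), fun hg => by
    simpa [mul_assoc] using H.mul_mem (H.mul_mem (H.inv_mem hk) hg) hk⟩] at h2
  have h3 := h2.conj k⁻¹
  rw [inv_smul_smul, inv_inv] at h3
  have h4 := H.mul_mem (H.mul_mem (H.inv_mem hk) h1) hk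
  have h5 := hu _ (h.inv_mul h3) (H.mul_mem (H.inv_mem hφ) h4)
  rw [hθ.2 _ (H.inv_mem hφ) _ h4, hθ.inv hφ, hθ.conj_self hk h1, neg_add_eq_zero] at h5
  rw [art, e, h5]

theorem val_eq_dv (hu : UnrOut H m) {x : Om} (hx : x ∈ fix H) {P : Pr} (hP : ¬ ch P ∣ m) :
    (dv m x P : ℚ) = val P x := by
  obtain ⟨k, hk⟩ := val_int (P := P) fun σ hσ => mem_fix.1 hx σ (hu P hP hσ)
  rw [dv, if_neg hP, hk, Int.floor_intCast]

theorem dv_mem (x : Om) (hx : x ∈ fix H) : dv m x ∈ Div H m := by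
  refine ⟨fun h hh P => ?_, fun P hP => if_pos hP, (val_finite x).subset ?_⟩
  · have e := val_smul h P x
    rw [mem_fix.1 hx h hh] at e
    rw [dv, dv, ch_smul, e]
  · rintro l ⟨P, hP, h⟩
    exact ⟨P, hP, fun h0 => h (by simp [dv, h0])⟩

theorem dv_mul (hu : UnrOut H m) {x y : Om} (hx : x ∈ fix H) (hy : y ∈ fix H) (hx0 : x ≠ 0)
    (hy0 : y ≠ 0) : dv m (x * y) = dv m x + dv m y := by
  funext P
  by_cases hP : ch P ∣ m
  · simp [dv, hP]
  · have e : (dv m (x * y) P : ℚ) = (dv m x P + dv m y P : ℤ) := by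
      rw [Int.cast_add, val_eq_dv hu hx hP, val_eq_dv hu hy hP, val_eq_dv hu (mul_mem hx hy) hP,
        val_mul P hx0 hy0]
    exact_mod_cast e

theorem dv_smul (g : Ga) (x : Om) : dv m (g x) = act g (dv m x) := by
  funext P
  have e := val_smul g (g⁻¹ • P) x
  rw [smul_inv_smul] at e
  rw [act, dv, dv, ch_smul, e]

theorem act_ind (g : Ga) (hg : ∀ h, h ∈ H ↔ g * h * g⁻¹ ∈ H) (P : Pr) :
    act g (ind H P) = ind H (g • P) := by
  classical
  funext Q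
  refine if_congr ⟨?_, ?_⟩ rfl rfl
  · rintro ⟨k, hk, e⟩
    exact ⟨g * k * g⁻¹, (hg k).1 hk, by rw [mul_smul, inv_smul_smul, mul_smul, e, smul_inv_smul]⟩
  · rintro ⟨k, hk, rfl⟩
    exact ⟨g⁻¹ * k * g, (hg _).2 (by simpa [mul_assoc] using hk), by rw [mul_smul, mul_smul]⟩

theorem act_mem (g : Ga) (hg : ∀ h, h ∈ H ↔ g * h * g⁻¹ ∈ H) {d : Pr → ℤ} (hd : d ∈ Div H m) :
    act g d ∈ Div H m := by
  refine ⟨fun h hh P => ?_, fun P hP => hd.2.1 _ (by rwa [ch_smul]), hd.2.2.subset ?_⟩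
  · have e := hd.1 (g⁻¹ * h * g) ((hg _).2 (by simpa [mul_assoc] using hh)) (g⁻¹ • P)
    rw [mul_smul, smul_inv_smul, mul_smul] at e
    exact e
  · rintro l ⟨P, hP, h⟩
    exact ⟨g⁻¹ • P, by rwa [ch_smul], h⟩

theorem DivA_val {M : ℕ} (hM : M ≠ 0) {x : Om} (hx : x ∈ Ray H m M) {P : Pr} (hP : ch P ∣ m) :
    val P x = 0 := by
  have h := (val_add_of_lt (P := P) (x := 1) (y := x - 1) one_ne_zero ((hx.2.2 P hP).imp_right
    fun h => by
      rw [val_one]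
      exact lt_of_lt_of_le (by exact_mod_cast Nat.pos_of_ne_zero hM) h)).2
  rwa [add_sub_cancel, val_one] at h

theorem mem_dvRay (hu : UnrOut H m) {M : ℕ} (hM : M ≠ 0) {d : Pr → ℤ} :
    d ∈ dvRay H m M ↔ ∃ x ∈ Ray H m M, d = dv m x := by
  refine ⟨fun h => ?_, fun ⟨x, hx, e⟩ => AddSubgroup.subset_closure ⟨x, hx, e.symm⟩⟩
  have d1 : dv m 1 = 0 := by
    funext P
    simp [dv, val_one]
  induction h using AddSubgroup.closure_induction with
  | mem d hd =>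
    obtain ⟨x, hx, e⟩ := hd
    exact ⟨x, hx, e.symm⟩
  | zero => exact ⟨1, ⟨one_mem _, one_ne_zero, fun _ _ => Or.inl (sub_self _)⟩, d1.symm⟩
  | add a b _ _ ha hb =>
    obtain ⟨x, hx, rfl⟩ := ha
    obtain ⟨y, hy, rfl⟩ := hb
    refine ⟨x * y, ⟨mul_mem hx.1 hy.1, mul_ne_zero hx.2.1 hy.2.1, fun P hP => ?_⟩,
      (dv_mul hu hx.1 hy.1 hx.2.1 hy.2.1).symm⟩
    have h1 := ((hx.2.2 P hP).mul (sm_val P y))
    rw [DivA_val hM hy hP, add_zero] at h1
    have h2 := h1.add (hy.2.2 P hP)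
    rwa [show (x - 1) * y + (y - 1) = x * y - 1 by ring] at h2
  | neg a _ ha =>
    obtain ⟨x, hx, rfl⟩ := ha
    have x0 := hx.2.1
    refine ⟨x⁻¹, ⟨inv_mem hx.1, inv_ne_zero x0, fun P hP => ?_⟩, ?_⟩
    · have h1 := ((hx.2.2 P hP).mul (sm_val P x⁻¹)).neg
      rw [val_inv, DivA_val hM hx hP, neg_zero, add_zero] at h1
      rwa [show -((x - 1) * x⁻¹) = x⁻¹ - 1 by field_simp; ring] at h1
    · rw [neg_eq_iff_add_eq_zero, ← dv_mul hu hx.1 (inv_mem hx.1) x0 (inv_ne_zero x0),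
        mul_inv_cancel₀ x0, d1]

theorem Nsub_le {A : Type*} [AddCommGroup A] (θ : Ga → A) : Nsub H m θ ≤ Div H m := by
  refine (AddSubgroup.closure_le _).2 ?_
  rintro d ⟨P, c, hP, -, rfl⟩
  exact zsmul_mem (ind_mem H hP) c

theorem dvRay_le (M : ℕ) : dvRay H m M ≤ Div H m := by
  refine (AddSubgroup.closure_le _).2 ?_
  rintro d ⟨x, hx, rfl⟩
  exact dv_mem x hx.1

end Vale.Agent.P024U
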