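import Vale.Agent.P024U.Bridge
import Vale.Agent.P024U.DivA

/-! Finiteness of class groups in the absolute language.  `cls_div`: `h = card (ClassGroup)`, `(below P)^h = (y)`,
`x_P = y^e` has `val = h` on the orbit of `P` (`count_below`); then `Div.induction`.
`ray_fin`: for `N = h * card ((𝓞/ m^M)ˣ)`... direct way: two divisors `d, d'` with the same ideal class differ by `dv x` with `x = a / b`, `a, b`
integral and prime to `m` (weak approximation / CRT), and there are finitely many pairs of residues of `a, b` modulo `m^M`.  Alternative: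
`Div / dv (elements prime to m)` injects into the class group (map `d ↦ ∏ v^(d v)`), and (elements prime to `m`)/Ray injects into `(𝓞/m^M)ˣ`.
`pow_cong`: Euler theorem in the finite ring `𝓞 (fix H) / n`.
-/

namespace Vale.Agent.P024U
open NumberField

variable {H : Subgroup Ga}

theorem Cls_int {z : Om} (hz : z ∈ fix H) (h : ∀ P, 0 ≤ val P z) :
    ∃ x : 𝓞 (fix H), ((x : fix H) : Om) = z :=
  ⟨⟨⟨z, hz⟩, (isIntegral_algebraMap_iff (R := ℤ) (A := fix H) (B := Om)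
    (algebraMap (fix H) Om).injective).1 (isIntegral_of_val z h)⟩, rfl⟩

theorem Cls_ne {x : 𝓞 (fix H)} (h : x ≠ 0) : ((x : fix H) : Om) ≠ 0 := fun e =>
  h (RingOfIntegers.coe_injective (Subtype.ext (by simpa using e)))

theorem Cls_frac (hH : Op H) [NumberField (fix H)] {m : ℕ} : ∀ d ∈ Div H m,
    ∃ I : (FractionalIdeal (nonZeroDivisors (𝓞 (fix H))) (fix H))ˣ,
      ∀ P, FractionalIdeal.count (fix H) (below H P) I.1 = d P := by
  refine Div.induction hH _ ⟨1, fun P => FractionalIdeal.count_one _ _⟩ ?_ fun P c _ => ?_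
  · rintro a - b - ⟨I, hI⟩ ⟨J, hJ⟩
    exact ⟨I * J, fun P => by
      rw [Units.val_mul, FractionalIdeal.count_mul _ _ I.ne_zero J.ne_zero, hI, hJ, Pi.add_apply]⟩
  · refine ⟨Units.mk0 ((below H P).asIdeal : FractionalIdeal _ (fix H))
      (FractionalIdeal.coeIdeal_ne_zero.2 (below H P).ne_bot) ^ c, fun Q => ?_⟩
    classical
    rw [Units.val_zpow_eq_zpow_val, FractionalIdeal.count_zpow, Units.val_mk0,
      FractionalIdeal.count_maximal, Pi.smul_apply, smul_eq_mul, ind]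
    simp only [below_eq_iff hH]

theorem Cls_prin [NumberField (fix H)]
    {I : (FractionalIdeal (nonZeroDivisors (𝓞 (fix H))) (fix H))ˣ}
    (h : ClassGroup.mk (fix H) I = 1) : ∃ z ∈ fix H, z ≠ 0 ∧ ∀ P, ∃ e : ℕ, e ≠ 0 ∧
      (Ine P ≤ H → e = 1) ∧ (FractionalIdeal.count (fix H) (below H P) I.1 : ℚ) = e * val P z := by
  obtain ⟨x, hx⟩ := (FractionalIdeal.isPrincipal_iff _).1 (ClassGroup.mk_eq_one_iff.1 h)
  refine ⟨x, x.2, fun e => I.ne_zero ?_, fun P => ?_⟩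
  · rw [hx, show x = 0 from Subtype.ext e, FractionalIdeal.spanSingleton_zero]
  · obtain ⟨e, e0, e1, e2⟩ := count_below (H := H) P
    exact ⟨e, e0, e1, by rw [hx, e2]⟩

theorem Cls_gen (hH : Op H) : ∃ h : ℕ, h ≠ 0 ∧ ∀ P, ∃ z ∈ fix H, z ≠ 0 ∧
    ∀ Q, val Q z = h * ind H P Q := by
  have := numberField_fix hH
  refine ⟨Nat.card (ClassGroup (𝓞 (fix H))), Nat.card_pos.ne', fun P => ?_⟩
  obtain ⟨I, hI⟩ := Cls_frac hH _ (ind_mem H (m := 1) (P := P) fun h =>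
    (ch_prime P).one_lt.ne' (Nat.dvd_one.1 h))
  obtain ⟨z, hz, z0, h⟩ := Cls_prin (I := I ^ Nat.card (ClassGroup (𝓞 (fix H))))
    (by rw [map_pow, pow_card_eq_one'])
  simp only [Units.val_pow_eq_pow_val, FractionalIdeal.count_pow, hI] at h
  obtain ⟨e, e0, -, he⟩ := h P
  have i1 : ind H P P = 1 := if_pos ⟨1, H.one_mem, one_smul _ _⟩
  refine ⟨z ^ e, pow_mem hz e, pow_ne_zero e z0, fun Q => ?_⟩
  rw [val_pow]
  by_cases c : ∃ g ∈ H, g • P = Q
  · obtain ⟨g, hg, rfl⟩ := c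
    have e1 := val_smul g P z
    rw [mem_fix.1 hz g hg] at e1
    have i2 : ind H P (g • P) = 1 := if_pos ⟨g, hg, rfl⟩
    rw [e1, ← he, i1, i2]
    push_cast
    rfl
  · obtain ⟨e', e0', -, he'⟩ := h Q
    have i2 : ind H P Q = 0 := if_neg c
    rw [i2, mul_zero, Int.cast_zero, eq_comm, mul_eq_zero] at he'
    rw [he'.resolve_left (Nat.cast_ne_zero.2 e0'), i2]
    simp

theorem cls_div (hH : Op H) : ∃ h : ℕ, h ≠ 0 ∧ ∀ d ∈ Div H 1, ∃ z ∈ fix H, z ≠ 0 ∧
    ∀ P, val P z = h * d P := by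
  obtain ⟨h, h0, H1⟩ := Cls_gen hH
  refine ⟨h, h0, Div.induction hH _ ⟨1, one_mem _, one_ne_zero, fun P => by simp [val_one]⟩ ?_
    fun P c _ => ?_⟩
  · rintro a - b - ⟨x, hx, x0, ha⟩ ⟨y, hy, y0, hb⟩
    refine ⟨x * y, mul_mem hx hy, mul_ne_zero x0 y0, fun P => ?_⟩
    rw [val_mul P x0 y0, ha, hb, Pi.add_apply]
    push_cast
    ring
  · obtain ⟨z, hz, z0, hv⟩ := H1 P
    refine ⟨z ^ c, zpow_mem hz c, zpow_ne_zero c z0, fun Q => ?_⟩
    rw [val_zpow, hv, Pi.smul_apply, smul_eq_mul]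
    push_cast
    ring

theorem pow_cong (hH : Op H) (n : ℕ) (hn : n ≠ 0) (x : 𝓞 (fix H))
    (hx : ∀ P, ch P ∣ n → val P ((x : fix H) : Om) = 0) (h0 : x ≠ 0) :
    ∃ k : ℕ, k ≠ 0 ∧ (n : 𝓞 (fix H)) ∣ x ^ k - 1 := by
  have := numberField_fix hH
  have n0 : (n : 𝓞 (fix H)) ≠ 0 := Nat.cast_ne_zero.2 hn
  have top : Ideal.span {x, (n : 𝓞 (fix H))} = ⊤ := by
    by_contra hc
    obtain ⟨J, hJ, le⟩ := Ideal.exists_le_maximal _ hc
    have hxJ : x ∈ J := le (Ideal.subset_span (by simp))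
    have hnJ : (n : 𝓞 (fix H)) ∈ J := le (Ideal.subset_span (by simp))
    obtain ⟨P, hP⟩ := below_surj H ⟨J, hJ.isPrime, fun e => n0 (by simpa [e] using hnJ)⟩
    have eJ : (below H P).asIdeal = J := by rw [hP]
    have h1 := hx P ((natCast_mem_below P n).1 (eJ ▸ hnJ))
    have h2 : incl H x ∈ P.I := (eJ ▸ hxJ : x ∈ (below H P).asIdeal)
    rcases (pos_iff_mem P _).2 h2 with h3 | h3
    · exact Cls_ne h0 h3
    · rw [coe_incl, h1] at h3
      exact lt_irrefl _ h3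
  have fin : Finite (𝓞 (fix H) ⧸ Ideal.span {(n : 𝓞 (fix H))}) :=
    Ideal.finiteQuotientOfFreeOfNeBot _ (by simpa using hn)
  obtain ⟨a, b, hab⟩ := Ideal.mem_span_pair.1 ((Ideal.eq_top_iff_one _).1 top)
  have hu : IsUnit (Ideal.Quotient.mk (Ideal.span {(n : 𝓞 (fix H))}) x) := by
    refine IsUnit.of_mul_eq_one (Ideal.Quotient.mk _ a) ?_
    rw [← map_mul, ← map_one (Ideal.Quotient.mk _), Ideal.Quotient.eq, Ideal.mem_span_singleton]
    exact ⟨-b, by rw [← hab]; ring⟩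
  obtain ⟨u, hu⟩ := hu
  refine ⟨orderOf u, (orderOf_pos u).ne', ?_⟩
  rw [← Ideal.mem_span_singleton, ← Ideal.Quotient.eq, map_pow, map_one, ← hu,
    ← Units.val_pow_eq_pow_val, pow_orderOf_eq_one, Units.val_one]

/-- a generator of a power of a prime, congruent to one -/
theorem prime_gen (hH : Op H) (n : ℕ) (hn : n ≠ 0) (P : Pr) (hP : ¬ ch P ∣ n) :
    ∃ (x : 𝓞 (fix H)) (N : ℕ), N ≠ 0 ∧ x ≠ 0 ∧ (n : 𝓞 (fix H)) ∣ x - 1 ∧
      ∀ Q, val Q ((x : fix H) : Om) = N * ind H P Q := by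
  obtain ⟨h, h0, H1⟩ := Cls_gen hH
  obtain ⟨z, hz, z0, hv⟩ := H1 P
  obtain ⟨x, hx⟩ := Cls_int hz fun Q => by
    rw [hv, ind]
    split_ifs <;> simp
  have x0 : x ≠ 0 := fun e => z0 (by rw [← hx, e]; rfl)
  obtain ⟨k, k0, hk⟩ := pow_cong hH n hn x (fun Q hQ => by
    have : ind H P Q = 0 := if_neg (by
      rintro ⟨g, -, rfl⟩
      exact hP (ch_smul g P ▸ hQ))
    rw [hx, hv, this]
    simp) x0
  refine ⟨x ^ k, k * h, mul_ne_zero k0 h0, pow_ne_zero k x0, hk, fun Q => ?_⟩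
  have e : (((x ^ k : 𝓞 (fix H)) : fix H) : Om) = z ^ k := by
    rw [← hx]
    rfl
  rw [e, val_pow, hv]
  push_cast
  ring

theorem Cls_index {G T : Type*} [AddCommGroup G] [Finite T] (S : AddSubgroup G) (F : G → T)
    (h : ∀ a b, F a = F b → -a + b ∈ S) : S.index ≠ 0 := by
  have : Finite (G ⧸ S) := Finite.of_injective (fun q : G ⧸ S => F q.out) fun q q' e => by
    rw [← q.out_eq', ← q'.out_eq']
    exact QuotientAddGroup.eq.2 (h _ _ e)
  exact AddSubgroup.index_ne_zero_of_finite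

theorem Cls_sm {m : ℕ} (hm : m ≠ 0) (M : ℕ) {t : 𝓞 (fix H)} (ht : ((m ^ M : ℕ) : 𝓞 (fix H)) ∣ t)
    {P : Pr} (hP : ch P ∣ m) : Sm P M ((t : fix H) : Om) := by
  have h1 := (dvd_iff_sm (m ^ M) (pow_ne_zero M hm) (incl H t)).1
    (by simpa using map_dvd (incl H) ht) P
  refine Sm.mono ?_ h1
  have := Fact.mk (ch_prime P)
  have h2 := one_le_padicValNat_of_dvd hm hP
  rw [padicValNat.pow]
  exact_mod_cast Nat.le_mul_of_pos_right M h2

/-- integral representatives of elements prime to `m` -/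
theorem Cls_res (hH : Op H) {m : ℕ} (hm : m ≠ 0) (hu : UnrOut H m) (M : ℕ) {x : Om}
    (hx : x ∈ fix H) (x0 : x ≠ 0) (hv : ∀ P, ch P ∣ m → val P x = 0) :
    ∃ r : 𝓞 (fix H), ∀ P, ch P ∣ m → Sm P M (((r : fix H) : Om) - x) := by
  obtain ⟨h, h0, H1⟩ := cls_div hH
  have dm := dv_mem (m := m) x hx
  obtain ⟨z, hz, z0, hz'⟩ := H1 (fun P => max (-dv m x P) 0)
    ⟨fun g hg P => by simp only [dm.1 g hg P],
      fun P hP => absurd (Nat.dvd_one.1 hP) (ch_prime P).one_lt.ne',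
      dm.2.2.subset (by
        rintro l ⟨P, hP, hne⟩
        exact ⟨P, hP, fun e => hne (by simp [e])⟩)⟩
  have zn : ∀ P, 0 ≤ val P z := fun P => by
    rw [hz']
    exact mul_nonneg (Nat.cast_nonneg h) (by exact_mod_cast le_max_right _ _)
  obtain ⟨y, hy⟩ := Cls_int hz zn
  have y0 : y ≠ 0 := fun e => z0 (by rw [← hy, e]; rfl)
  obtain ⟨k, k0, hk⟩ := pow_cong hH (m ^ M) (pow_ne_zero M hm) y (fun P hP => by
    rw [hy, hz', dm.2.1 P ((ch_prime P).dvd_of_dvd_pow hP)]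
    simp) y0
  obtain ⟨r, hr⟩ := Cls_int (mul_mem hx (pow_mem hz k)) fun P => by
    rw [val_mul P x0 (pow_ne_zero k z0), val_pow]
    by_cases c : ch P ∣ m
    · rw [hv P c, zero_add]
      exact mul_nonneg (Nat.cast_nonneg k) (zn P)
    · rw [hz', ← val_eq_dv hu hx c]
      have a1 : (1 : ℤ) ≤ k * h := by exact_mod_cast Nat.pos_of_ne_zero (mul_ne_zero k0 h0)
      have a2 : 0 ≤ dv m x P + k * (h * max (-dv m x P) 0) := by
        nlinarith [le_max_left (-dv m x P) 0, le_max_right (-dv m x P) 0]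
      exact_mod_cast a2
  refine ⟨r, fun P hP => ?_⟩
  have e : (((y ^ k - 1 : 𝓞 (fix H)) : fix H) : Om) = z ^ k - 1 := by
    rw [← hy]
    rfl
  have h1 := (sm_val P x).mul (Cls_sm hm M hk hP)
  rw [hv P hP, zero_add, e, mul_sub, mul_one, ← hr] at h1
  exact h1

theorem ray_fin (hH : Op H) {m : ℕ} (hm : m ≠ 0) (hu : UnrOut H m) (M : ℕ) :
    (dvRay H m M).relIndex (Div H m) ≠ 0 := by
  have := numberField_fix hH
  choose I hI using fun d : Div H m => Cls_frac hH d.1 d.2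
  have fin : Finite (𝓞 (fix H) ⧸ Ideal.span {((m ^ M : ℕ) : 𝓞 (fix H))}) :=
    Ideal.finiteQuotientOfFreeOfNeBot _ (by simpa using fun h => absurd h hm)
  let cl : Div H m → ClassGroup (𝓞 (fix H)) := fun d => ClassGroup.mk (fix H) (I d)
  have s1 : ∀ d : Div H m, ∃ x ∈ fix H, x ≠ 0 ∧ (∀ P, ch P ∣ m → val P x = 0) ∧
      dv m x = d.1 - (Function.invFun cl (cl d)).1 := fun d => by
    obtain ⟨b, hb⟩ : ∃ b, b = Function.invFun cl (cl d) := ⟨_, rfl⟩
    have e : cl b = cl d := hb ▸ Function.invFun_eq ⟨d, rfl⟩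
    obtain ⟨z, hz, z0, h⟩ := Cls_prin (I := I d * (I b)⁻¹)
      (by rw [map_mul, map_inv, mul_inv_eq_one]; exact e.symm)
    simp only [Units.val_mul, FractionalIdeal.count_mul _ _ (I d).ne_zero (I b)⁻¹.ne_zero] at h
    simp only [Units.val_inv_eq_inv_val, FractionalIdeal.count_inv, hI] at h
    refine ⟨z, hz, z0, fun P hP => ?_, funext fun P => ?_⟩
    · obtain ⟨e, e0, -, he⟩ := h P
      rw [d.2.2.1 P hP, b.2.2.1 P hP, neg_zero, add_zero, Int.cast_zero, eq_comm,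
        mul_eq_zero] at he
      exact he.resolve_left (Nat.cast_ne_zero.2 e0)
    · rw [← hb, Pi.sub_apply]
      by_cases c : ch P ∣ m
      · rw [d.2.2.1 P c, b.2.2.1 P c, dv, if_pos c, sub_zero]
      · obtain ⟨e, -, e1, he⟩ := h P
        rw [e1 (hu P c), Nat.cast_one, one_mul, ← val_eq_dv hu hz c, ← sub_eq_add_neg] at he
        exact_mod_cast he.symm
  choose x hx x0 hv hd using s1
  choose r hr using fun d => Cls_res hH hm hu M (hx d) (x0 d) (hv d)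
  refine Cls_index _ (fun d => (cl d,
    Ideal.Quotient.mk (Ideal.span {((m ^ M : ℕ) : 𝓞 (fix H))}) (r d))) fun a b e => ?_
  obtain ⟨e1, e2⟩ := Prod.mk.inj e
  rw [Ideal.Quotient.eq, Ideal.mem_span_singleton] at e2
  have q0 : x b / x a ≠ 0 := div_ne_zero (x0 b) (x0 a)
  have hq : x b / x a ∈ fix H := div_mem (hx b) (hx a)
  have e3 := dv_mul hu hq (hx a) q0 (x0 a)
  rw [div_mul_cancel₀ _ (x0 a), hd, hd, e1] at e3
  have e4 : ((-a + b : Div H m) : Pr → ℤ) = dv m (x b / x a) := by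
    rw [AddSubgroup.coe_add, AddSubgroup.coe_neg]
    linear_combination e3
  rw [AddSubgroup.mem_addSubgroupOf, e4]
  refine AddSubgroup.subset_closure ⟨_, ⟨hq, q0, fun P hP => ?_⟩, rfl⟩
  have e5 : (((r a - r b : 𝓞 (fix H)) : fix H) : Om) = ((r a : fix H) : Om) - ((r b : fix H) : Om) :=
    rfl
  have h1 := (((hr a P hP).add (hr b P hP).neg).add (Cls_sm hm M e2 hP).neg).mul
    (sm_val P (x a)⁻¹)
  rw [val_inv, hv a P hP, neg_zero, add_zero, e5] at h1
  refine (congrArg _ ?_).mp h1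
  have := x0 a
  field_simp
  ring

end Vale.Agent.P024U
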