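import Vale.Agent.P024U.HQ

/-! Consequences of `PermHom`.  Let `S` be the shift on `Fin ρ × ZMod N → ℤ`, `(S v) (j, i) = v (j, i - 1)`.
`hu_herb`: both groups are trivial for `S`; `hq_inv` for `A × ℤ` with `s × id`; the indices of a product are
products (`AddSubgroup.index_prod`), for `ℤ` they are `N` and `1`.
`hu_cnt`: `a = s - c`, `b = ∑ c^(N-1-i) s^i`, `a b = b a = -(c^N - 1) =: -u`.  Use `hq_inv` with the pair
`(0, a)` on `A₀ × ℤ`, `A₀ = A / torsion` (torsion is inside the finite kernel): `[A₀ : a A₀] |c - 1| = |u|^ρ`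
(the cokernel of `S - c` on `ZMod N → ℤ` is `ℤ/u` via `v ↦ ∑ v i c^i`).  With `u = t^n u'`, `y ∈ K` gives
`u' y ∈ a A₀`.  In `Q = A₀ / a A₀` (order divisible by `t^(nρ - v)`) the kernel of multiplication by `u'` has order
prime to `t`, so its index is a multiple of `t^(nρ-v)` and divides `K.index`.
`hu_eig`: `π (a,0) ≡ 0 mod q` everywhere (go down `i ↦ i - 1`), `π(a,0) = q w`, `N0 w = π (y,k)`,
`N1 (N0 a - q y) = 0` with `N0` the index of the range, `N1` the order of the kernel. -/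

namespace Vale.Agent.P024U

theorem hu_relIndex_prod {G G' : Type*} [AddCommGroup G] [AddCommGroup G'] (H K : AddSubgroup G)
    (H' K' : AddSubgroup G') :
    (H.prod H').relIndex (K.prod K') = H.relIndex K * H'.relIndex K' := by
  have h1 := AddSubgroup.relIndex_comap (H.prod H') (K.subtype.prodMap K'.subtype) ⊤
  rw [← AddMonoidHom.range_eq_map, AddMonoidHom.range_prodMap, AddSubgroup.range_subtype,
    AddSubgroup.range_subtype, AddMonoidHom.prodMap_comap_prod, AddSubgroup.relIndex_top_right,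
    AddSubgroup.index_prod] at h1
  exact h1.symm

theorem hu_hq_prod {G G' : Type*} [AddCommGroup G] [AddCommGroup G'] (f g : AddMonoid.End G)
    (f' g' : AddMonoid.End G') :
    hq (AddMonoidHom.prodMap (f : G →+ G) (f' : G' →+ G') : AddMonoid.End (G × G'))
      (AddMonoidHom.prodMap (g : G →+ G) (g' : G' →+ G') : AddMonoid.End (G × G')) =
      hq f g * hq f' g' := by
  unfold hq
  rw [← hu_relIndex_prod]
  exact congrArg₂ AddSubgroup.relIndex (AddMonoidHom.range_prodMap _ _)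
    (AddMonoidHom.ker_prodMap _ _)

theorem hu_hq_zero {G : Type*} [AddCommGroup G] (g : AddMonoid.End G) :
    hq 0 g = (AddMonoidHom.range (g : G →+ G)).index := by
  unfold hq
  rw [← AddSubgroup.relIndex_top_right]
  congr 1
  exact AddMonoidHom.ker_zero

theorem hu_hq_one {G : Type*} [AddCommGroup G] {f g : AddMonoid.End G}
    (h : ∀ x, f x = 0 → ∃ y, g y = x) : hq f g = 1 :=
  AddSubgroup.relIndex_eq_one.2 fun x hx => h x hx

/-- multiplication by an integer -/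
def huMul (G : Type*) [AddCommGroup G] (c : ℤ) : AddMonoid.End G := zsmulAddGroupHom c

theorem huMul_apply {G : Type*} [AddCommGroup G] (c : ℤ) (x : G) : huMul G c x = c • x := rfl

theorem hu_hq_int (c : ℤ) : hq 0 (huMul ℤ c) = c.natAbs := by
  rw [hu_hq_zero, ← Int.index_zmultiples]
  congr 1
  ext x
  rw [AddSubgroup.mem_zmultiples_iff]
  exact ⟨fun ⟨y, hy⟩ => ⟨y, (mul_comm _ _).trans hy⟩, fun ⟨y, hy⟩ => ⟨y, (mul_comm _ _).trans hy⟩⟩

/-- the shift -/
def huS (ρ N : ℕ) : AddMonoid.End (Fin ρ × ZMod N → ℤ) where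
  toFun v p := v (p.1, p.2 - 1)
  map_zero' := rfl
  map_add' _ _ := rfl

variable {A : Type*} [AddCommGroup A] {s : AddMonoid.End A} {N ρ : ℕ}
  {π : A × ℤ →+ (Fin ρ × ZMod N → ℤ)}

theorem huS_pow (m : ℕ) (v : Fin ρ × ZMod N → ℤ) (j : Fin ρ) (i : ZMod N) :
    (huS ρ N ^ m) v (j, i) = v (j, i - m) := by
  induction m generalizing i with
  | zero => simp
  | succ m ih =>
    rw [pow_succ', AddMonoid.End.coe_mul, Function.comp_apply]
    show (huS ρ N ^ m) v (j, i - 1) = _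
    rw [ih, Nat.cast_succ, sub_sub, add_comm]

theorem huS_N : huS ρ N ^ N = 1 := by
  ext v ⟨j, i⟩
  show (huS ρ N ^ N) v (j, i) = v (j, i)
  rw [huS_pow, ZMod.natCast_self, sub_zero]

theorem hu_equi (h : PermHom s N ρ π) (a : A) (k : ℤ) : π (s a, k) = huS ρ N (π (a, k)) := by
  funext ⟨j, i⟩
  have := h.equi a k j (i - 1)
  rwa [sub_add_cancel] at this

theorem hu_equi_pow (h : PermHom s N ρ π) (m : ℕ) (a : A) (k : ℤ) :
    π ((s ^ m) a, k) = (huS ρ N ^ m) (π (a, k)) := by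
  induction m with
  | zero => rfl
  | succ m ih =>
    rw [pow_succ', pow_succ', AddMonoid.End.coe_mul, AddMonoid.End.coe_mul, Function.comp_apply,
      Function.comp_apply, hu_equi h, ih]

theorem hu_sum_apply {G : Type*} [AddCommGroup G] (F : Finset ℕ) (f : ℕ → AddMonoid.End G) (x : G) :
    (∑ i ∈ F, f i) x = ∑ i ∈ F, f i x := AddMonoidHom.finsetSum_apply f F x

theorem hu_geom {G : Type*} [AddCommGroup G] (f : AddMonoid.End G) (c : ℤ) (m : ℕ) (x : G) :
    f (∑ i ∈ Finset.range m, c ^ (m - 1 - i) • (f ^ i) x) -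
      c • ∑ i ∈ Finset.range m, c ^ (m - 1 - i) • (f ^ i) x = (f ^ m) x - c ^ m • x ∧
    ∑ i ∈ Finset.range m, c ^ (m - 1 - i) • (f ^ i) (f x - c • x) = (f ^ m) x - c ^ m • x := by
  have h1 : ∑ i ∈ Finset.range m, (c ^ (m - 1 - i) • (f ^ (i + 1)) x -
      c • c ^ (m - 1 - i) • (f ^ i) x) = (f ^ m) x - c ^ m • x := by
    have h2 := Finset.sum_range_sub (fun i => c ^ (m - i) • (f ^ i) x) m
    simp only [Nat.sub_self, pow_zero, one_smul, Nat.sub_zero, AddMonoid.End.coe_one, id] at h2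
    rw [← h2]
    refine Finset.sum_congr rfl fun i hi => ?_
    have h3 := Finset.mem_range.1 hi
    rw [smul_smul, ← pow_succ', show m - 1 - i + 1 = m - i by omega,
      show m - 1 - i = m - (i + 1) by omega]
  constructor
  · rw [map_sum, Finset.smul_sum, ← Finset.sum_sub_distrib, ← h1]
    refine Finset.sum_congr rfl fun i _ => ?_
    rw [map_zsmul, pow_succ']
    rfl
  · rw [← h1]
    refine Finset.sum_congr rfl fun i _ => ?_
    rw [map_sub, map_zsmul, smul_sub, smul_comm, pow_succ]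
    rfl

theorem hu_nrm {G : Type*} [AddCommGroup G] {f : AddMonoid.End G} (hf : f ^ N = 1) :
    (f - 1) * nrm f N = 0 ∧ nrm f N * (f - 1) = 0 :=
  ⟨by rw [nrm, mul_geom_sum, hf, sub_self], by rw [nrm, geom_sum_mul, hf, sub_self]⟩

/-- evaluation at `c` -/
def huEv (ρ N : ℕ) (c : ℤ) : (Fin ρ × ZMod N → ℤ) →+ (Fin ρ → ℤ) where
  toFun v j := ∑ m ∈ Finset.range N, c ^ m * v (j, m)
  map_zero' := by ext; simp
  map_add' _ _ := by ext; simp [mul_add, Finset.sum_add_distrib]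

theorem huEv_apply (c : ℤ) (v : Fin ρ × ZMod N → ℤ) (j : Fin ρ) :
    huEv ρ N c v j = ∑ m ∈ Finset.range N, c ^ m * v (j, m) := rfl

/-- vectors supported at the origin -/
def huE (ρ N : ℕ) : (Fin ρ → ℤ) →+ (Fin ρ × ZMod N → ℤ) where
  toFun y p := if p.2 = 0 then y p.1 else 0
  map_zero' := by ext; simp
  map_add' _ _ := by ext; simp only [Pi.add_apply]; split_ifs <;> simp

theorem hu_single (hN : N ≠ 0) (f : ℕ → ℤ) (i : ZMod N) :
    ∑ m ∈ Finset.range N, (if i - m = 0 then f m else 0) = f i.val := by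
  have : NeZero N := ⟨hN⟩
  rw [Finset.sum_eq_single i.val]
  · simp
  · intro m hm hne
    rw [if_neg]
    intro h
    apply hne
    rw [sub_eq_zero.1 h, ZMod.val_cast_of_lt (Finset.mem_range.1 hm)]
  · intro h
    exact absurd (Finset.mem_range.2 i.val_lt) h

theorem hu_ev_E (hN : N ≠ 0) (c : ℤ) (y : Fin ρ → ℤ) : huEv ρ N c (huE ρ N y) = y := by
  funext j
  have h1 := hu_single hN (fun m => c ^ m * y j) 0
  rw [ZMod.val_zero, pow_zero, one_mul] at h1
  rw [← h1, huEv_apply]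
  refine Finset.sum_congr rfl fun m _ => ?_
  show c ^ m * (if (m : ZMod N) = 0 then y j else 0) = _
  simp only [zero_sub, neg_eq_zero, mul_ite, mul_zero]

theorem hu_range (hN : N ≠ 0) (c : ℤ) (v : Fin ρ × ZMod N → ℤ) :
    (∃ w, huS ρ N w - c • w = v) ↔ ∀ j, c ^ N - 1 ∣ huEv ρ N c v j := by
  have : NeZero N := ⟨hN⟩
  constructor
  · rintro ⟨w, rfl⟩ j
    have h1 := Finset.sum_range_sub' (fun m : ℕ => c ^ m * w (j, m - 1)) N
    refine ⟨-w (j, -1), ?_⟩
    simp only [Nat.cast_zero, zero_sub, ZMod.natCast_self, pow_zero, Nat.cast_succ,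
      add_sub_cancel_right] at h1
    rw [huEv_apply]
    refine Eq.trans (Finset.sum_congr rfl fun m _ => ?_) (h1.trans (by ring))
    show c ^ m * (w (j, m - 1) - c * w (j, m)) = _
    ring
  · intro h
    choose y hy using h
    let R : AddSubgroup (Fin ρ × ZMod N → ℤ) := (huS ρ N - huMul _ c : AddMonoid.End _).range
    have h1 : ∀ m x, (huS ρ N ^ m) x - c ^ m • x ∈ R := fun m x => ⟨_, (hu_geom _ c m x).1⟩
    have h2 : v = ∑ m ∈ Finset.range N, (huS ρ N ^ m) (huE ρ N fun j => v (j, m)) := by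
      funext ⟨j, i⟩
      rw [Finset.sum_apply]
      simp only [huS_pow]
      exact ((hu_single hN (fun m => v (j, m)) i).trans (by simp)).symm
    have h3 : ∑ m ∈ Finset.range N, c ^ m • (huE ρ N fun j => v (j, m)) =
        (c ^ N - 1) • huE ρ N y := by
      simp only [← map_zsmul, ← map_sum]
      congr 1
      funext j
      rw [Finset.sum_apply]
      exact hy j
    have h4 := R.sub_mem (sum_mem fun m (_ : m ∈ Finset.range N) =>
      h1 m (huE ρ N fun j => v (j, m))) (h1 N (huE ρ N y))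
    rw [Finset.sum_sub_distrib, ← h2, h3, huS_N, sub_smul, one_smul] at h4
    have h5 : v - (c ^ N • huE ρ N y - huE ρ N y) -
        ((1 : AddMonoid.End _) (huE ρ N y) - c ^ N • huE ρ N y) = v := by
      show v - (c ^ N • huE ρ N y - huE ρ N y) - (huE ρ N y - c ^ N • huE ρ N y) = v
      abel
    rw [h5] at h4
    exact h4

theorem hu_index (hN : N ≠ 0) (c : ℤ) :
    hq 0 (huS ρ N - huMul _ c) = (c ^ N - 1).natAbs ^ ρ := by
  let Φ : (Fin ρ × ZMod N → ℤ) →+ (Fin ρ → ZMod (c ^ N - 1).natAbs) :=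
    ((Int.castAddHom _).compLeft _).comp (huEv ρ N c)
  have h1 : AddMonoidHom.range (huS ρ N - huMul _ c : AddMonoid.End _) = Φ.ker := by
    ext v
    refine (hu_range hN c v).trans ?_
    rw [AddMonoidHom.mem_ker, funext_iff]
    refine forall_congr' fun j => ?_
    rw [← Int.natAbs_dvd]
    exact (ZMod.intCast_zmod_eq_zero_iff_dvd _ _).symm
  have h2 : Φ.range = ⊤ := by
    rw [AddMonoidHom.range_eq_top]
    intro z
    choose y hy using fun j => ZMod.intCast_surjective (z j)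
    refine ⟨huE ρ N y, funext fun j => ?_⟩
    show ((huEv ρ N c (huE ρ N y) j : ℤ) : ZMod (c ^ N - 1).natAbs) = z j
    rw [hu_ev_E hN, hy]
  rw [hu_hq_zero, h1, AddSubgroup.index_ker, h2, AddSubgroup.card_top, Nat.card_fun, Nat.card_zmod,
    Nat.card_eq_fintype_card, Fintype.card_fin]

theorem hu_inj (c : ℤ) (hc : c ^ N - 1 ≠ 0) (x : Fin ρ × ZMod N → ℤ)
    (h : huS ρ N x - c • x = 0) : x = 0 := by
  have h1 := (hu_geom (huS ρ N) c N x).2
  simp only [h, map_zero, smul_zero, Finset.sum_const_zero, huS_N] at h1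
  have h2 : (c ^ N - 1) • x = 0 := by
    rw [sub_smul, one_smul, ← neg_sub]
    exact neg_eq_zero.2 h1.symm
  exact (smul_eq_zero.1 h2).resolve_left hc

theorem hu_down (hN : N ≠ 0) (P : ZMod N → Prop) (h0 : P 0) (h : ∀ i, P (i + 1) → P i) (i) :
    P i := by
  have : NeZero N := ⟨hN⟩
  have h1 : ∀ m : ℕ, P (-m) := fun m => by
    induction m with
    | zero => simpa using h0
    | succ m ih => exact h _ (by simpa using ih)
  simpa using h1 (-i).val

theorem hu_herb (hN : N ≠ 0) (hs : s ^ N = 1) (h : PermHom s N ρ π) :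
    hq (s - 1) (nrm s N) ≠ 0 ∧ hq (nrm s N) (s - 1) = N * hq (s - 1) (nrm s N) := by
  have : NeZero N := ⟨hN⟩
  have b1 : hq (huS ρ N - 1) (nrm (huS ρ N) N) = 1 := hu_hq_one fun v hv => by
    have h1 : ∀ j i, v (j, i) = v (j, 0) := fun j => hu_down hN (fun i => v (j, i) = v (j, 0)) rfl
      fun i hi => by
        have h2 : v (j, i + 1 - 1) - v (j, i + 1) = 0 := congrFun hv (j, i + 1)
        rw [add_sub_cancel_right, hi] at h2
        exact sub_eq_zero.1 h2
    refine ⟨huE ρ N fun j => v (j, 0), funext fun ⟨j, i⟩ => ?_⟩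
    rw [nrm, hu_sum_apply, Finset.sum_apply, h1 j i]
    simp only [huS_pow]
    exact hu_single hN (fun _ => v (j, 0)) i
  have b2 : hq (nrm (huS ρ N) N) (huS ρ N - 1) = 1 := hu_hq_one fun v hv => by
    obtain ⟨w, hw⟩ := (hu_range hN 1 v).2 fun j => by
      have h1 := congrFun hv (j, -1)
      rw [nrm, hu_sum_apply, Finset.sum_apply, ← Finset.sum_range_reflect] at h1
      simp only [huS_pow] at h1
      rw [one_pow, sub_self, zero_dvd_iff, huEv_apply]
      refine Eq.trans (Finset.sum_congr rfl fun m hm => ?_) h1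
      have h2 := Finset.mem_range.1 hm
      rw [one_pow, one_mul, show N - 1 - m = N - (m + 1) by omega, Nat.cast_sub h2,
        ZMod.natCast_self, Nat.cast_succ]
      congr 2
      ring
    exact ⟨w, by rw [← hw, one_smul]; rfl⟩
  have z2 : hq (huMul ℤ N) 0 = 1 := hu_hq_one fun x hx =>
    ⟨0, ((smul_eq_zero.1 hx).resolve_left (Int.natCast_ne_zero.2 hN)).symm⟩
  have key := hq_inv (AddMonoidHom.prodMap ((s - 1 : AddMonoid.End A) : A →+ A)
      ((0 : AddMonoid.End ℤ) : ℤ →+ ℤ) : AddMonoid.End (A × ℤ))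
    (AddMonoidHom.prodMap ((nrm s N : AddMonoid.End A) : A →+ A) ((huMul ℤ N) : ℤ →+ ℤ) :
      AddMonoid.End (A × ℤ)) (huS ρ N - 1) (nrm (huS ρ N) N)
    (AddMonoidHom.ext fun x => Prod.ext (DFunLike.congr_fun (hu_nrm hs).1 x.1) rfl)
    (AddMonoidHom.ext fun x => Prod.ext (DFunLike.congr_fun (hu_nrm hs).2 x.1)
      (map_zero (huMul ℤ N)))
    (hu_nrm huS_N).1 (hu_nrm huS_N).2 π
    (fun x => by
      show π (s x.1 - x.1, 0) = huS ρ N (π (x.1, x.2)) - π (x.1, x.2)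
      rw [← hu_equi h, ← map_sub, Prod.mk_sub_mk, sub_self])
    (fun x => by
      show π (nrm s N x.1, (N : ℤ) • x.2) = nrm (huS ρ N) N (π (x.1, x.2))
      rw [nrm, nrm, hu_sum_apply, hu_sum_apply]
      simp only [← hu_equi_pow h, ← map_sum]
      congr 1
      ext
      · simp [Prod.fst_sum]
      · simp [Prod.snd_sum])
    h.ker h.coker (b1 ▸ one_ne_zero) (b2 ▸ one_ne_zero)
  rw [hu_hq_prod, hu_hq_prod, b1, b2, z2, hu_hq_int, Int.natAbs_natCast, mul_one, mul_one,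
    one_mul] at key
  exact ⟨left_ne_zero_of_mul key.1, by rw [← key.2.2, mul_comm]⟩

theorem hu_count {G : Type*} [AddCommGroup G] (f : A →+ G) (hf : Function.Surjective f)
    (R : AddSubgroup G) (hR : R.index ≠ 0) (K : AddSubgroup A) (t : ℕ) (ht : t.Prime) (u : ℤ)
    (hu : ¬ (t : ℤ) ∣ u) (h : ∀ y ∈ K, u • f y ∈ R) :
    ∃ p : ℕ, t.Coprime p ∧ R.index ∣ p * K.index := by
  have : Finite (G ⧸ R) := Nat.finite_of_card_ne_zero hR
  have : Fact t.Prime := ⟨ht⟩
  let P : AddSubgroup (G ⧸ R) := AddMonoidHom.ker (huMul (G ⧸ R) u)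
  refine ⟨Nat.card P, ht.coprime_iff_not_dvd.2 fun hd => hu ?_, ?_⟩
  · obtain ⟨x, hx⟩ := exists_prime_addOrderOf_dvd_card' t hd
    rw [← hx, addOrderOf_dvd_iff_zsmul_eq_zero]
    exact Subtype.ext x.2
  · rw [R.index_eq_card, ← P.card_mul_index]
    refine Nat.mul_dvd_mul_left _ ?_
    rw [← P.index_comap_of_surjective (f := (QuotientAddGroup.mk' R).comp f)
      ((QuotientAddGroup.mk'_surjective R).comp hf)]
    refine AddSubgroup.index_dvd_of_le fun y hy => ?_
    show u • QuotientAddGroup.mk' R (f y) = 0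
    rw [← map_zsmul]
    exact (QuotientAddGroup.eq_zero_iff _).2 (h y hy)

theorem hu_cnt (hN : N ≠ 0) (hs : s ^ N = 1) (h : PermHom s N ρ π) (t : ℕ) (ht : t.Prime) (c : ℤ)
    (n v : ℕ) (h1 : (t : ℤ) ^ n ∣ c ^ N - 1) (h2 : ¬ (t : ℤ) ^ (n + 1) ∣ c ^ N - 1)
    (h3 : ¬ (t : ℤ) ^ (v + 1) ∣ c - 1) (K : AddSubgroup A) (hK0 : K.index ≠ 0)
    (hK : ∀ y ∈ K, ∃ (z : A) (m : ℕ), m ≠ 0 ∧
      m • ((∑ i ∈ Finset.range N, c ^ (N - 1 - i) • (s ^ i) y) - t ^ n • z) = 0) :
    t ^ (n * ρ) ≤ K.index * t ^ v := by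
  have hu : c ^ N - 1 ≠ 0 := fun e => h2 (e ▸ dvd_zero _)
  have hc : c - 1 ≠ 0 := fun e => h3 (e ▸ dvd_zero _)
  let ψ : A →+ (Fin ρ × ZMod N → ℤ) := π.comp (AddMonoidHom.inl A ℤ)
  have hψ : ∀ a, ψ (s a - c • a) = huS ρ N (ψ a) - c • ψ a := fun a => by
    rw [map_sub, map_zsmul]
    exact congrArg (· - c • ψ a) (hu_equi h a 0)
  let g : AddMonoid.End ψ.range :=
    (((huS ρ N - huMul _ c : AddMonoid.End _) : _ →+ _).comp ψ.range.subtype).codRestrict _ (by
      rintro ⟨_, a, rfl⟩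
      exact ⟨_, hψ a⟩)
  let π' : ψ.range × ℤ →+ (Fin ρ × ZMod N → ℤ) :=
    ψ.range.subtype.coprod (π.comp (AddMonoidHom.inr A ℤ))
  have hπ : ∀ a k, π' (ψ.rangeRestrict a, k) = π (a, k) := fun a k => by
    show π (a, 0) + π (0, k) = π (a, k)
    rw [← map_add, Prod.mk_add_mk, add_zero, zero_add]
  have b1 := hu_index (ρ := ρ) hN c
  have b2 : hq (huS ρ N - huMul _ c) 0 = 1 := hu_hq_one fun x hx => ⟨0, (hu_inj c hu x hx).symm⟩
  have g2 : hq g 0 = 1 := hu_hq_one fun x hx =>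
    ⟨0, Subtype.ext (hu_inj c hu x.1 (congrArg Subtype.val hx)).symm⟩
  have z2 : hq (huMul ℤ (1 - c)) 0 = 1 := hu_hq_one fun x hx =>
    ⟨0, ((smul_eq_zero.1 hx).resolve_left fun e => hc (by linarith)).symm⟩
  have key := hq_inv (AddMonoidHom.prodMap ((0 : AddMonoid.End ψ.range) : _ →+ _)
      ((0 : AddMonoid.End ℤ) : ℤ →+ ℤ) : AddMonoid.End (ψ.range × ℤ))
    (AddMonoidHom.prodMap (g : _ →+ _) ((huMul ℤ (1 - c)) : ℤ →+ ℤ) :
      AddMonoid.End (ψ.range × ℤ)) 0 (huS ρ N - huMul _ c)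
    (AddMonoidHom.ext fun x => rfl)
    (AddMonoidHom.ext fun x => Prod.ext (map_zero g) (map_zero (huMul ℤ (1 - c))))
    (zero_mul _) (mul_zero _) π' (fun x => map_zero π')
    (fun x => by
      have e1 : huS ρ N (π (0, x.2)) = π (0, x.2) := by rw [← hu_equi h, map_zero]
      have e2 : π (0, (1 - c) • x.2) = (1 - c) • π (0, x.2) := by
        rw [← map_zsmul, Prod.smul_mk, smul_zero]
      show huS ρ N x.1 - c • x.1.1 + π (0, (1 - c) • x.2) =
        huS ρ N (x.1 + π (0, x.2)) - c • (x.1.1 + π (0, x.2))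
      rw [map_add, e1, e2, smul_add, sub_smul, one_smul]
      abel)
    (by
      have := h.ker
      refine Finite.of_surjective (fun x : π.ker =>
        (⟨(ψ.rangeRestrict x.1.1, x.1.2), (hπ _ _).trans x.2⟩ : π'.ker)) ?_
      rintro ⟨⟨⟨_, a, rfl⟩, k⟩, hx⟩
      exact ⟨⟨(a, k), (hπ a k).symm.trans hx⟩, rfl⟩)
    (by
      have := h.coker
      refine AddSubgroup.finiteIndex_of_le (H := π.range) ?_
      rintro _ ⟨⟨a, k⟩, rfl⟩
      exact ⟨_, hπ a k⟩)
    (b1 ▸ pow_ne_zero _ (Int.natAbs_ne_zero.2 hu)) (b2 ▸ one_ne_zero)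
  rw [hu_hq_prod, hu_hq_prod, b1, b2, g2, z2, hu_hq_int, hu_hq_zero, mul_one, mul_one,
    mul_one] at key
  obtain ⟨u, hu'⟩ := h1
  have ht0 : (t : ℤ) ^ n ≠ 0 := pow_ne_zero _ (Int.natCast_ne_zero.2 ht.ne_zero)
  obtain ⟨p, hp, hd⟩ := hu_count ψ.rangeRestrict ψ.rangeRestrict_surjective
    (AddMonoidHom.range (g : _ →+ _)) (left_ne_zero_of_mul key.1) K t ht u
    (fun e => h2 (by rw [hu', pow_succ]; exact mul_dvd_mul_left _ e)) fun y hy => by
      obtain ⟨z, m, hm, e⟩ := hK y hy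
      have e1 := congrArg ψ e
      rw [map_nsmul, map_zero, smul_eq_zero, map_sub, map_nsmul, map_sum, sub_eq_zero] at e1
      have e2 : ∑ i ∈ Finset.range N, c ^ (N - 1 - i) • (huS ρ N ^ i) (ψ y) = t ^ n • ψ z := by
        rw [← e1.resolve_left hm]
        refine Finset.sum_congr rfl fun i _ => ?_
        rw [map_zsmul]
        exact congrArg _ (hu_equi_pow h i y 0).symm
      have e3 := (hu_geom (huS ρ N) c N (ψ y)).1
      rw [e2, huS_N] at e3
      refine ⟨-ψ.rangeRestrict z, Subtype.ext (smul_right_injective _ ht0 ?_)⟩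
      show (t : ℤ) ^ n • (huS ρ N (-ψ z) - c • -ψ z) = (t : ℤ) ^ n • u • ψ y
      rw [smul_smul, ← hu', sub_smul, one_smul, ← neg_sub (ψ y)]
      refine Eq.trans ?_ (congrArg Neg.neg e3)
      rw [map_neg, map_nsmul, ← Nat.cast_pow, natCast_zsmul, smul_comm c, ← smul_sub, ← smul_neg]
      congr 1
      rw [smul_neg]
      abel
  obtain ⟨w, d, hd1, hd2⟩ := Nat.exists_eq_pow_mul_and_not_dvd
    (Int.natAbs_ne_zero.2 fun e : 1 - c = 0 => hc (by linarith)) t ht.one_lt.ne'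
  have hw : w ≤ v := by
    by_contra hw
    refine h3 ?_
    rw [← dvd_neg, neg_sub, ← Nat.cast_pow, Int.natCast_dvd, hd2]
    exact (pow_dvd_pow t (by omega)).mul_right d
  have h4 : t ^ (n * ρ) ∣ K.index * t ^ w * (p * d) := by
    have h5 : t ^ (n * ρ) ∣ (c ^ N - 1).natAbs ^ ρ := by
      rw [pow_mul, hu', Int.natAbs_mul, Int.natAbs_pow, Int.natAbs_natCast]
      exact pow_dvd_pow_of_dvd (dvd_mul_right _ _) ρ
    rw [← key.2.2, hd2] at h5
    refine (h5.trans (mul_dvd_mul_right hd _)).trans (dvd_of_eq (by ring))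
  have h6 := ((hp.mul_right (ht.coprime_iff_not_dvd.2 hd1)).pow_left _).dvd_of_dvd_mul_right h4
  exact Nat.le_of_dvd (Nat.pos_of_ne_zero (mul_ne_zero hK0 (pow_ne_zero _ ht.ne_zero)))
    (h6.trans (mul_dvd_mul_left _ (pow_dvd_pow t hw)))

theorem hu_eig (hN : N ≠ 0) (h : PermHom s N ρ π) :
    ∃ C : ℕ, C ≠ 0 ∧ ∀ (q : ℕ) (e : ℤ) (a : A), (∃ b, s a - e • a = q • b) →
      (∀ j, (q : ℤ) ∣ π (a, 0) (j, 0)) → ∃ b, C • a = q • b := by
  have := h.ker
  refine ⟨Nat.card π.ker * π.range.index, mul_ne_zero Nat.card_pos.ne' h.coker.index_ne_zero,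
    fun q e a ⟨b, hb⟩ h0 => ?_⟩
  have h1 : ∀ p : Fin ρ × ZMod N, (q : ℤ) ∣ π (a, 0) p := fun ⟨j, i⟩ =>
    hu_down hN (fun i => (q : ℤ) ∣ π (a, 0) (j, i)) (h0 j) (fun i hi => by
      have e1 : (s a, (0 : ℤ)) = e • (a, 0) + q • (b, 0) :=
        Prod.ext (by simp [← hb]) (by simp)
      rw [← h.equi, e1, map_add, map_zsmul, map_nsmul, Pi.add_apply, Pi.smul_apply, Pi.smul_apply,
        smul_eq_mul, nsmul_eq_mul]
      exact dvd_add (hi.mul_left e) (dvd_mul_right _ _)) i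
  choose w hw using h1
  obtain ⟨⟨y, k⟩, hy⟩ := π.range.nsmul_index_mem w
  have h2 : π.range.index • (a, (0 : ℤ)) - q • (y, k) ∈ π.ker := by
    rw [AddMonoidHom.mem_ker, map_sub, map_nsmul, map_nsmul, hy, smul_comm, ← smul_sub]
    have e1 : π (a, 0) - q • w = 0 := funext fun p => by
      rw [Pi.sub_apply, hw, Pi.smul_apply, nsmul_eq_mul, sub_self, Pi.zero_apply]
    rw [e1, smul_zero]
  have h3 := congrArg (fun x : π.ker => x.1.1) (card_nsmul_eq_zero' (x := (⟨_, h2⟩ : π.ker)))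
  refine ⟨Nat.card π.ker • y, ?_⟩
  have h4 : Nat.card π.ker • (π.range.index • a - q • y) = 0 := h3
  rw [smul_sub, sub_eq_zero, smul_comm _ q] at h4
  rw [mul_smul, h4]

end Vale.Agent.P024U
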