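import Vale.Agent.P024U.NBX1

/-! The abstract congruence subgroup argument: a lattice `Λ` spanned by a normal basis inside a subring `R`,
and the groups `1 + p ^ j Λ`. -/

namespace Vale.Agent.P024U
open Finset

section
variable {E : Type*} [Field E] [Algebra ℚ E]

structure NBD (τ : E ≃ₐ[ℚ] E) (n : ℕ) (R : Subring E) (p β : E) (c : ℕ)
    (Λ : AddSubgroup E) : Prop where
  n0 : (n : E) ≠ 0
  τR : ∀ r ∈ R, τ r ∈ R
  τn : ∀ r ∈ R, (τ ^ n) r = r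
  pR : p ∈ R
  p0 : p ≠ 0
  τp : τ p = p
  unit : ∀ r ∈ R, 1 + p * r ≠ 0 ∧ (1 + p * r)⁻¹ ∈ R
  T0 : ∑ k ∈ range n, (τ ^ k) β ≠ 0
  TR : p ^ c * (∑ k ∈ range n, (τ ^ k) β)⁻¹ ∈ R
  nR : p ^ c * (n : E)⁻¹ ∈ R
  βR : β ∈ R
  ΛR : ∀ y ∈ Λ, y ∈ R
  τΛ : ∀ y ∈ Λ, τ y ∈ Λ
  cΛ : ∀ r ∈ R, p ^ c * r ∈ Λ
  pΛ : ∀ y ∈ Λ, p * y ∈ Λ
  sΛ : ∀ s ∈ R, τ s = s → s * β ∈ Λ
  dec : ∀ y ∈ Λ, ∃ z ∈ Λ, ∃ s ∈ R, τ s = s ∧ y + z - τ z = s * β

theorem NB_pow_mem (τ : E ≃ₐ[ℚ] E) (R : Subring E) (h : ∀ r ∈ R, τ r ∈ R) (k : ℕ) :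
    ∀ r ∈ R, (τ ^ k) r ∈ R := by
  induction k with
  | zero => intro r hr; simpa using hr
  | succ k ih => intro r hr; rw [pow_succ', AlgEquiv.mul_apply]; exact h _ (ih r hr)

theorem NB_pow_fix (τ : E ≃ₐ[ℚ] E) {s : E} (h : τ s = s) (k : ℕ) : (τ ^ k) s = s := by
  induction k with
  | zero => simp
  | succ k ih => rw [pow_succ', AlgEquiv.mul_apply, ih, h]

theorem NB_lat (τ : E ≃ₐ[ℚ] E) (n : ℕ) (R : Subring E) (p β : E) (c : ℕ)
    (τR : ∀ r ∈ R, τ r ∈ R) (pR : p ∈ R) (τp : τ p = p) (βR : β ∈ R)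
    (hc : ∀ r ∈ R, ∃ b : ℕ → E, (∀ i ∈ range n, b i ∈ R ∧ τ (b i) = b i) ∧
      p ^ c * r = ∑ i ∈ range n, b i * (τ ^ i) β) :
    ∃ Λ : AddSubgroup E, (∀ y ∈ Λ, y ∈ R) ∧ (∀ y ∈ Λ, τ y ∈ Λ) ∧ (∀ r ∈ R, p ^ c * r ∈ Λ) ∧
      (∀ y ∈ Λ, p * y ∈ Λ) ∧ (∀ s ∈ R, τ s = s → s * β ∈ Λ) ∧
      ∀ y ∈ Λ, ∃ z ∈ Λ, ∃ s ∈ R, τ s = s ∧ y + z - τ z = s * β := by
  let S : Set E := {y | ∃ b ∈ R, τ b = b ∧ ∃ i : ℕ, y = b * (τ ^ i) β}
  have hS : ∀ b ∈ R, τ b = b → ∀ i : ℕ, b * (τ ^ i) β ∈ AddSubgroup.closure S :=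
    fun b hb h i => AddSubgroup.subset_closure ⟨b, hb, h, i, rfl⟩
  refine ⟨AddSubgroup.closure S, ?_, ?_, ?_, ?_, ?_, ?_⟩
  · intro y hy
    induction hy using AddSubgroup.closure_induction with
    | mem x hx =>
      obtain ⟨b, hb, -, i, rfl⟩ := hx
      exact R.mul_mem hb (NB_pow_mem τ R τR i β βR)
    | zero => exact R.zero_mem
    | add x y _ _ hx hy => exact R.add_mem hx hy
    | neg x _ hx => exact R.neg_mem hx
  · intro y hy
    induction hy using AddSubgroup.closure_induction with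
    | mem x hx =>
      obtain ⟨b, hb, h, i, rfl⟩ := hx
      have := hS b hb h (i + 1)
      rwa [pow_succ', AlgEquiv.mul_apply, ← h, ← map_mul] at this
    | zero => rw [map_zero]; exact zero_mem _
    | add x y _ _ hx hy => rw [map_add]; exact add_mem hx hy
    | neg x _ hx => rw [map_neg]; exact neg_mem hx
  · intro r hr
    obtain ⟨b, hb, h⟩ := hc r hr
    rw [h]
    exact sum_mem fun i hi => hS _ (hb i hi).1 (hb i hi).2 i
  · intro y hy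
    induction hy using AddSubgroup.closure_induction with
    | mem x hx =>
      obtain ⟨b, hb, h, i, rfl⟩ := hx
      rw [← mul_assoc]
      exact hS _ (R.mul_mem pR hb) (by rw [map_mul, τp, h]) i
    | zero => rw [mul_zero]; exact zero_mem _
    | add x y _ _ hx hy => rw [mul_add]; exact add_mem hx hy
    | neg x _ hx => rw [mul_neg]; exact neg_mem hx
  · intro s hs h
    simpa using hS s hs h 0
  · intro y hy
    induction hy using AddSubgroup.closure_induction with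
    | mem x hx =>
      obtain ⟨b, hb, h, i, rfl⟩ := hx
      refine ⟨∑ k ∈ range i, b * (τ ^ k) β, sum_mem fun k _ => hS b hb h k, b, hb, h, ?_⟩
      have h2 := Finset.sum_range_sub (fun k => b * (τ ^ k) β) i
      rw [Finset.sum_sub_distrib] at h2
      rw [map_sum]
      simp only [map_mul, h, pow_succ', AlgEquiv.mul_apply, pow_zero, AlgEquiv.one_apply] at h2 ⊢
      linear_combination -h2
    | zero => exact ⟨0, zero_mem _, 0, R.zero_mem, map_zero _, by simp⟩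
    | add x y _ _ hx hy =>
      obtain ⟨z, hz, s, hs, h, e⟩ := hx
      obtain ⟨z', hz', s', hs', h', e'⟩ := hy
      refine ⟨z + z', add_mem hz hz', s + s', R.add_mem hs hs', by rw [map_add, h, h'], ?_⟩
      rw [map_add]
      linear_combination e + e'
    | neg x _ hx =>
      obtain ⟨z, hz, s, hs, h, e⟩ := hx
      refine ⟨-z, neg_mem hz, -s, R.neg_mem hs, by rw [map_neg, h], ?_⟩
      rw [map_neg]
      linear_combination -e

omit [Algebra ℚ E] in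
theorem NB_prod (R : Subring E) (q : E) (hq : q ∈ R) (r : ℕ → E) (hr : ∀ i, r i ∈ R) (k : ℕ) :
    ∃ s ∈ R, ∏ i ∈ range k, (1 + q * r i) = 1 + q * ∑ i ∈ range k, r i + q ^ 2 * s := by
  induction k with
  | zero => exact ⟨0, R.zero_mem, by simp⟩
  | succ k ih =>
    obtain ⟨s, hs, h⟩ := ih
    refine ⟨s + (∑ i ∈ range k, r i) * r k + q * s * r k, ?_, ?_⟩
    · exact R.add_mem (R.add_mem hs (R.mul_mem (sum_mem fun i _ => hr i) (hr k)))
        (R.mul_mem (R.mul_mem hq hs) (hr k))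
    · rw [prod_range_succ, sum_range_succ, h]
      ring

theorem NB_tr (τ : E ≃ₐ[ℚ] E) (n : ℕ) {z : E} (hz : (τ ^ n) z = z) :
    ∑ k ∈ range n, (τ ^ k) (τ z) = ∑ k ∈ range n, (τ ^ k) z := by
  have h2 := Finset.sum_range_sub (fun k => (τ ^ k) z) n
  rw [Finset.sum_sub_distrib, hz] at h2
  simp only [pow_succ, AlgEquiv.mul_apply, pow_zero, AlgEquiv.one_apply, sub_self] at h2
  exact sub_eq_zero.mp h2

theorem NB_nm (τ : E ≃ₐ[ℚ] E) (n : ℕ) {z : E} (hz : (τ ^ n) z = z) (h0 : z ≠ 0) :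
    ∏ k ∈ range n, (τ ^ k) (τ z) = ∏ k ∈ range n, (τ ^ k) z := by
  have h1 := Finset.prod_range_succ (fun k => (τ ^ k) z) n
  have h2 := Finset.prod_range_succ' (fun k => (τ ^ k) z) n
  rw [h1, hz] at h2
  simp only [pow_succ, AlgEquiv.mul_apply, pow_zero, AlgEquiv.one_apply] at h2
  exact (mul_right_cancel₀ h0 h2).symm

variable {τ : E ≃ₐ[ℚ] E} {n : ℕ} {R : Subring E} {p β : E} {c : ℕ} {Λ : AddSubgroup E}

theorem NBD.unit' (D : NBD τ n R p β c Λ) (j : ℕ) {r : E} (hr : r ∈ R) :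
    1 + p ^ (j + 1) * r ≠ 0 ∧ (1 + p ^ (j + 1) * r)⁻¹ ∈ R := by
  have := D.unit (p ^ j * r) (R.mul_mem (R.pow_mem D.pR j) hr)
  rwa [← mul_assoc, ← pow_succ'] at this

theorem NBD.powΛ (D : NBD τ n R p β c Λ) (j : ℕ) {y : E} (hy : y ∈ Λ) : p ^ j * y ∈ Λ := by
  induction j with
  | zero => simpa using hy
  | succ j ih => rw [pow_succ', mul_assoc]; exact D.pΛ _ ih

theorem NBD.step (D : NBD τ n R p β c Λ) (d : ℕ) {y : E} (hy : y ∈ Λ)
    (hN : ∏ i ∈ range n, (τ ^ i) (1 + p ^ (c + d + 1) * y) = 1) :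
    ∃ z ∈ Λ, ∃ y' ∈ Λ, (1 + p ^ (c + d + 1) * y) * (1 + p ^ (c + d + 1) * z) =
      τ (1 + p ^ (c + d + 1) * z) * (1 + p ^ (c + (d + 1) + 1) * y') := by
  have hyR := D.ΛR y hy
  have hp := D.p0
  have hT := D.T0
  obtain ⟨z, hz, s, hs, hτs, e⟩ := D.dec y hy
  have hzR := D.ΛR z hz
  have hq : p ^ (c + d + 1) ∈ R := R.pow_mem D.pR _
  obtain ⟨r, hr, h1⟩ := NB_prod R _ hq (fun i => (τ ^ i) y)
    (fun i => NB_pow_mem τ R D.τR i y hyR) n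
  have h2 : ∏ i ∈ range n, (1 + p ^ (c + d + 1) * (τ ^ i) y) = 1 := by
    refine Eq.trans (Finset.prod_congr rfl fun i _ => ?_) hN
    rw [map_add, map_one, map_mul, map_pow, NB_pow_fix τ D.τp]
  have h3 : ∑ i ∈ range n, (τ ^ i) y = - (p ^ (c + d + 1) * r) := by
    rw [h2] at h1
    have h4 : p ^ (c + d + 1) * (∑ i ∈ range n, (τ ^ i) y + p ^ (c + d + 1) * r) = 0 := by
      linear_combination -h1
    have h5 := (mul_eq_zero.mp h4).resolve_left (pow_ne_zero _ hp)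
    linear_combination h5
  have h4 : ∑ i ∈ range n, (τ ^ i) y = s * ∑ i ∈ range n, (τ ^ i) β := by
    have h5 : ∑ i ∈ range n, (τ ^ i) (y + z - τ z) = ∑ i ∈ range n, (τ ^ i) (s * β) := by rw [e]
    simp only [map_sub, map_add, map_mul, NB_pow_fix τ hτs, Finset.sum_sub_distrib,
      Finset.sum_add_distrib, ← Finset.mul_sum] at h5
    rw [NB_tr τ n (D.τn z hzR)] at h5
    linear_combination h5
  set T := ∑ i ∈ range n, (τ ^ i) β with hTdef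
  have hs' : s = p * (-(p ^ d * r * (p ^ c * T⁻¹))) := by
    have : s = (s * T) * T⁻¹ := by field_simp
    rw [this, ← h4, h3]
    ring
  set s' := -(p ^ d * r * (p ^ c * T⁻¹)) with hs'def
  have hs'R : s' ∈ R := R.neg_mem (R.mul_mem (R.mul_mem (R.pow_mem D.pR d) hr) D.TR)
  have hτs' : τ s' = s' := by
    rw [hs', map_mul, D.τp] at hτs
    exact mul_left_cancel₀ hp hτs
  have hτz := D.τR z hzR
  obtain ⟨hu0, huR⟩ := D.unit' (c + d) hτz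
  set u := (1 + p ^ (c + d + 1) * τ z)⁻¹ with hu
  have hu1 : (1 + p ^ (c + d + 1) * τ z) * u = 1 := mul_inv_cancel₀ hu0
  refine ⟨z, hz, s' * β + p ^ c * (p ^ d * (y * z * u - p * (s' * β) * τ z * u)), ?_, ?_⟩
  · refine add_mem (D.sΛ s' hs'R hτs') (D.cΛ _ (R.mul_mem (R.pow_mem D.pR d) (R.sub_mem ?_ ?_)))
    · exact R.mul_mem (R.mul_mem hyR hzR) huR
    · exact R.mul_mem (R.mul_mem (R.mul_mem D.pR (R.mul_mem hs'R D.βR)) hτz) huR
  · rw [map_add, map_one, map_mul, map_pow, D.τp]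
    rw [hs'] at e
    have e1 : p ^ (c + (d + 1) + 1) = p ^ (c + d + 1) * p := by ring
    have e2 : p ^ c * p ^ d * p = p ^ (c + d + 1) := by ring
    rw [e1]
    generalize p ^ (c + d + 1) = q at *
    generalize p ^ c = a at *
    generalize p ^ d = b at *
    subst e2
    linear_combination (a * b * p) * e -
      (a * b * p) * (a * b * p) * (y * z - p * (s' * β) * τ z) * hu1

theorem NBD.last (D : NBD τ n R p β c Λ) {y : E} (hy : y ∈ R)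
    (hN : ∏ i ∈ range n, (τ ^ i) (1 + p ^ (c + (c + c) + 1) * y) = 1) :
    ∃ w ∈ Λ, (1 + p ^ (c + (c + c) + 1) * y) * τ (1 + p ^ (c + 1) * w) = 1 + p ^ (c + 1) * w := by
  set q := p ^ (c + (c + c) + 1) with hqdef
  have hq : q ∈ R := R.pow_mem D.pR _
  have hn := D.n0
  have h1 : ∀ i : ℕ, ∃ r ∈ R, ∏ k ∈ range i, (τ ^ k) (1 + q * y) = 1 + q * r := by
    intro i
    obtain ⟨s, hs, h⟩ := NB_prod R _ hq (fun k => (τ ^ k) y)
      (fun k => NB_pow_mem τ R D.τR k y hy) i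
    refine ⟨∑ k ∈ range i, (τ ^ k) y + q * s,
      R.add_mem (sum_mem fun k _ => NB_pow_mem τ R D.τR k y hy) (R.mul_mem hq hs), ?_⟩
    have h2 : ∏ k ∈ range i, (τ ^ k) (1 + q * y) = ∏ k ∈ range i, (1 + q * (τ ^ k) y) := by
      refine Finset.prod_congr rfl fun k _ => ?_
      rw [map_add, map_one, map_mul, hqdef, map_pow, NB_pow_fix τ D.τp]
    rw [h2, h]
    ring
  choose r hr h1 using h1
  have h2 := NB_tele τ n (1 + q * y) (n : E)⁻¹ hN (by simp)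
  have h3 : ∑ i ∈ range n, (∏ k ∈ range i, (τ ^ k) (1 + q * y)) * (τ ^ i) (n : E)⁻¹ =
      1 + p ^ (c + 1) * (p ^ c * ((∑ i ∈ range n, r i) * (p ^ c * (n : E)⁻¹))) := by
    simp only [h1, map_inv₀, map_natCast, ← Finset.sum_mul, Finset.sum_add_distrib,
      ← Finset.mul_sum, Finset.sum_const, Finset.card_range, nsmul_eq_mul, mul_one]
    rw [hqdef]
    field_simp
    ring
  rw [h3] at h2
  exact ⟨_, D.cΛ _ (R.mul_mem (sum_mem fun i _ => hr i) D.nR), h2⟩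

theorem NBD.mul (D : NBD τ n R p β c Λ) {x x' : E} (hx : ∃ y ∈ Λ, x = 1 + p ^ (c + 1) * y)
    (hx' : ∃ y ∈ Λ, x' = 1 + p ^ (c + 1) * y) : ∃ y ∈ Λ, x * x' = 1 + p ^ (c + 1) * y := by
  obtain ⟨y, hy, rfl⟩ := hx
  obtain ⟨y', hy', rfl⟩ := hx'
  refine ⟨y + y' + p ^ c * (p * (y * y')), add_mem (add_mem hy hy') (D.cΛ _
    (R.mul_mem D.pR (R.mul_mem (D.ΛR y hy) (D.ΛR y' hy')))), ?_⟩
  ring

theorem NBD.inv (D : NBD τ n R p β c Λ) {x : E} (hx : ∃ y ∈ Λ, x = 1 + p ^ (c + 1) * y) :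
    x ≠ 0 ∧ ∃ y ∈ Λ, x⁻¹ = 1 + p ^ (c + 1) * y := by
  obtain ⟨y, hy, rfl⟩ := hx
  have hyR := D.ΛR y hy
  obtain ⟨h0, hR⟩ := D.unit' c hyR
  refine ⟨h0, -y + p ^ c * (p * (y * y * (1 + p ^ (c + 1) * y)⁻¹)), add_mem (neg_mem hy) (D.cΛ _
    (R.mul_mem D.pR (R.mul_mem (R.mul_mem hyR hyR) hR))), ?_⟩
  set u := (1 + p ^ (c + 1) * y)⁻¹ with hu
  have hu1 : (1 + p ^ (c + 1) * y) * u = 1 := mul_inv_cancel₀ h0
  linear_combination (1 - p ^ (c + 1) * y) * hu1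

theorem NBD.cob (D : NBD τ n R p β c Λ) (k : ℕ) : ∀ d : ℕ, d + k = c + c → ∀ y ∈ Λ,
    ∏ i ∈ range n, (τ ^ i) (1 + p ^ (c + d + 1) * y) = 1 →
    ∃ w, (∃ y ∈ Λ, w = 1 + p ^ (c + 1) * y) ∧ (1 + p ^ (c + d + 1) * y) * w = τ w := by
  induction k with
  | zero =>
    intro d hd y hy hN
    obtain rfl : d = c + c := hd
    obtain ⟨w, hw, h⟩ := D.last (D.ΛR y hy) hN
    obtain ⟨h0, hi⟩ := D.inv ⟨w, hw, rfl⟩
    refine ⟨_, hi, ?_⟩
    have h1 : τ (1 + p ^ (c + 1) * w) ≠ 0 := (map_ne_zero τ).mpr h0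
    rw [map_inv₀]
    field_simp
    exact h
  | succ k ih =>
    intro d hd y hy hN
    obtain ⟨z, hz, y', hy', e⟩ := D.step d hy hN
    have hzR := D.ΛR z hz
    have hu0 := (D.unit' (c + d) hzR).1
    have huR : 1 + p ^ (c + d + 1) * z ∈ R :=
      R.add_mem R.one_mem (R.mul_mem (R.pow_mem D.pR _) hzR)
    set u := 1 + p ^ (c + d + 1) * z with hu
    have hN' : ∏ i ∈ range n, (τ ^ i) (1 + p ^ (c + (d + 1) + 1) * y') = 1 := by
      have h1 : ∏ i ∈ range n, (τ ^ i) ((1 + p ^ (c + d + 1) * y) * u) =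
          ∏ i ∈ range n, (τ ^ i) (τ u * (1 + p ^ (c + (d + 1) + 1) * y')) := by rw [e]
      simp only [map_mul (τ ^ _) _ u, map_mul (τ ^ _) (τ u), Finset.prod_mul_distrib] at h1
      rw [hN, NB_nm τ n (D.τn u huR) hu0, one_mul] at h1
      have h2 : ∏ i ∈ range n, (τ ^ i) u ≠ 0 :=
        Finset.prod_ne_zero_iff.mpr fun i _ => (map_ne_zero (τ ^ i)).mpr hu0
      exact (mul_eq_left₀ h2).mp h1.symm
    obtain ⟨w, hw, h⟩ := ih (d + 1) (by omega) y' hy' hN'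
    refine ⟨u * w, D.mul ⟨p ^ d * z, D.powΛ d hz, by rw [hu]; ring⟩ hw, ?_⟩
    rw [← mul_assoc, e, mul_assoc, h, map_mul]

theorem NBD.main (D : NBD τ n R p β c Λ) :
    ∃ (A : Subgroup Eˣ) (J : ℕ), (∀ x ∈ A, ∃ r ∈ R, (x : E) = 1 + p * r) ∧
      (∀ x : Eˣ, (∃ r ∈ R, (x : E) = 1 + p ^ J * r) → x ∈ A) ∧
      (∀ x ∈ A, Units.map (τ : E →* E) x ∈ A) ∧
      ∀ x ∈ A, ∏ i ∈ range n, (τ ^ i) (x : E) = 1 → ∃ y ∈ A, (x : E) * y = τ (y : E) := by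
  let A : Subgroup Eˣ :=
    { carrier := {x | ∃ y ∈ Λ, (x : E) = 1 + p ^ (c + 1) * y}
      one_mem' := ⟨0, zero_mem _, by simp⟩
      mul_mem' := fun {a b} ha hb => by
        have := D.mul ha hb
        simpa using this
      inv_mem' := fun {a} ha => by
        have := (D.inv ha).2
        simpa using this }
  have hA : ∀ x : Eˣ, x ∈ A ↔ ∃ y ∈ Λ, (x : E) = 1 + p ^ (c + 1) * y := fun x => Iff.rfl
  refine ⟨A, c + 1 + c, ?_, ?_, ?_, ?_⟩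
  · intro x hx
    obtain ⟨y, hy, h⟩ := (hA x).mp hx
    exact ⟨p ^ c * y, R.mul_mem (R.pow_mem D.pR c) (D.ΛR y hy), by rw [h]; ring⟩
  · rintro x ⟨r, hr, h⟩
    exact (hA x).mpr ⟨p ^ c * r, D.cΛ r hr, by rw [h]; ring⟩
  · intro x hx
    obtain ⟨y, hy, h⟩ := (hA x).mp hx
    refine (hA _).mpr ⟨τ y, D.τΛ y hy, ?_⟩
    have : ((Units.map (τ : E →* E) x : Eˣ) : E) = τ (x : E) := rfl
    rw [this, h, map_add, map_one, map_mul, map_pow, D.τp]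
  · intro x hx hN
    obtain ⟨y, hy, h⟩ := (hA x).mp hx
    rw [h] at hN ⊢
    obtain ⟨w, hw, e⟩ := D.cob (c + c) 0 (by omega) y hy hN
    exact ⟨Units.mk0 w (D.inv hw).1, (hA _).mpr hw, e⟩

end

end Vale.Agent.P024U
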