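import Vale.Agent.P024U.Ram0
import Vale.Agent.P024U.NBX2

/-! A cohomologically trivial congruence subgroup.  `K = fix H`, `L = fix H'`, cyclic of degree `n` generated by `σ`.  Normal basis `σ^i β`
(`IsGalois.normalBasis` for `L / K`, scale to make `β` integral), coordinates `a i : L → K`.  `Λ = {y | all a i y are integral at the primes over m}`.
`Λ ⊆ R ⊆ m^(-c) Λ` where `R` = elements integral at the primes over `m` (the matrix `σ^(i+j) β` is invertible by Dedekind / trace form, its inverse has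
bounded denominators).  `W j = 1 + m^j Λ` is a group for `j > 2c`, `W j / W (j+1) ≃ Λ / m Λ`.  If `x = 1 + m^j y` has norm one then
`∑ a i y ≡ 0 mod m`, so `y ≡ σ z - z mod m Λ` (running sums of the coordinates) and `x (1 + m^j z) / σ (1 + m^j z) ∈ W (j+1)`.  After finitely many steps `x ∈ W J` with `J` huge;
`x = σ y / y` by Hilbert 90 (`h90` or `groupCohomology.exists_div_of_norm_eq_one`), `Tr y = y ∑ σ^i y / y = y n (1 + small) ≠ 0`, and `n y / Tr y ∈ W j`. -/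

namespace Vale.Agent.P024U
open Finset

theorem NB_natCast_mem (H : Subgroup Ga) (m : ℕ) : (m : Om) ∈ fix H :=
  mem_fix.mpr fun g _ => map_natCast g m

theorem NB_val_le (P : Pr) (N : ℕ) : val P (N : Om) ≤ N := by
  rw [val_natCast]
  have := Fact.mk (ch_prime P)
  exact_mod_cast (padicValNat_le_nat_log N).trans (Nat.log_le_self _ _)

theorem NB_one_le {P : Pr} {m : ℕ} (hm : m ≠ 0) (hP : ch P ∣ m) : 1 ≤ val P (m : Om) := by
  rw [val_natCast]
  have := Fact.mk (ch_prime P)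
  exact_mod_cast one_le_padicValNat_of_dvd hm hP

theorem NB_sm_m {P : Pr} {m : ℕ} (hm : m ≠ 0) (hP : ch P ∣ m) : Sm P 1 (m : Om) :=
  Or.inr (NB_one_le hm hP)

theorem NB_bd {m : ℕ} (hm : m ≠ 0) (y : Om) :
    ∃ c : ℕ, ∀ c', c ≤ c' → ∀ P : Pr, ch P ∣ m → Sm P 0 ((m : Om) ^ c' * y) := by
  have h1 : IsAlgebraic ℤ y :=
    (IsFractionRing.isAlgebraic_iff ℤ ℚ Om).mpr ((AlgebraicClosure.isAlgebraic ℚ).isAlgebraic y)
  obtain ⟨N, hN, hi⟩ := h1.exists_integral_multiple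
  have hi' : IsIntegral ℤ ((N.natAbs : Om) * y) := by
    rw [zsmul_eq_mul] at hi
    rcases Int.natAbs_eq N with h | h
    · rw [h, Int.cast_natCast] at hi; exact hi
    · rw [h, Int.cast_neg, Int.cast_natCast, neg_mul] at hi; exact hi.of_neg
  have hN0 : (N.natAbs : Om) ≠ 0 := by exact_mod_cast Int.natAbs_ne_zero.mpr hN
  have hm0 : (m : Om) ≠ 0 := by exact_mod_cast hm
  refine ⟨N.natAbs, fun c' hc P hP => ?_⟩
  have h2 : Sm P 0 ((N.natAbs : Om) * y) := Or.inr (val_nonneg P ⟨_, hi'⟩)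
  have h3 : Sm P 0 ((m : Om) ^ c' / (N.natAbs : Om)) := by
    right
    rw [val_div P (pow_ne_zero _ hm0) hN0, val_pow]
    have h4 := NB_val_le P N.natAbs
    have h5 := NB_one_le hm hP
    have h6 : (N.natAbs : ℚ) ≤ c' := by exact_mod_cast hc
    have h7 : (0 : ℚ) ≤ c' := by positivity
    nlinarith
  have h4 := h3.mul h2
  rw [add_zero] at h4
  convert h4 using 1
  field_simp

/-- elements of the fixed field that are integral at the primes over `m` -/
def NBR (H : Subgroup Ga) (m : ℕ) : Subring Om where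
  carrier := {y | y ∈ fix H ∧ ∀ P : Pr, ch P ∣ m → Sm P 0 y}
  zero_mem' := ⟨zero_mem _, fun _ _ => Or.inl rfl⟩
  one_mem' := ⟨one_mem _, fun P _ => Or.inr (val_one P).ge⟩
  add_mem' := fun ha hb => ⟨add_mem ha.1 hb.1, fun P hP => (ha.2 P hP).add (hb.2 P hP)⟩
  neg_mem' := fun ha => ⟨neg_mem ha.1, fun P hP => (ha.2 P hP).neg⟩
  mul_mem' := fun ha hb => ⟨mul_mem ha.1 hb.1, fun P hP => by
    have := (ha.2 P hP).mul (hb.2 P hP)
    rwa [add_zero] at this⟩

theorem mem_NBR {H : Subgroup Ga} {m : ℕ} {y : Om} :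
    y ∈ NBR H m ↔ y ∈ fix H ∧ ∀ P : Pr, ch P ∣ m → Sm P 0 y := Iff.rfl

theorem NB_bd' {H : Subgroup Ga} {m : ℕ} (hm : m ≠ 0) {y : Om} (hy : y ∈ fix H) :
    ∃ c : ℕ, ∀ c', c ≤ c' → (m : Om) ^ c' * y ∈ NBR H m := by
  obtain ⟨c, hc⟩ := NB_bd hm y
  exact ⟨c, fun c' h => ⟨mul_mem (pow_mem (NB_natCast_mem H m) _) hy, hc c' h⟩⟩

theorem NB_unit {H : Subgroup Ga} {m : ℕ} (hm : m ≠ 0) (hm1 : m ≠ 1) :
    ∀ r ∈ NBR H m, 1 + (m : Om) * r ≠ 0 ∧ (1 + (m : Om) * r)⁻¹ ∈ NBR H m := by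
  intro r hr
  have key : ∀ P : Pr, ch P ∣ m → 1 + (m : Om) * r ≠ 0 ∧ val P (1 + (m : Om) * r) = 0 := by
    intro P hP
    have h1 := (NB_sm_m hm hP).mul (hr.2 P hP)
    have h2 := val_add_of_lt (P := P) (x := 1) (y := (m : Om) * r) one_ne_zero (by
      rcases h1 with h | h
      · exact Or.inl h
      · right; rw [val_one]; linarith)
    rwa [val_one] at h2
  obtain ⟨P, hP⟩ := exists_pr _ (Nat.minFac_prime hm1)
  refine ⟨(key P (hP ▸ Nat.minFac_dvd m)).1,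
    inv_mem (add_mem (one_mem _) (mul_mem (NB_natCast_mem H m) hr.1)), fun Q hQ => Or.inr ?_⟩
  rw [val_inv, (key Q hQ).2, neg_zero]

/-- restriction of `σ` to the fixed field -/
theorem NB_res {H' : Subgroup Ga} (hH' : Op H') [FiniteDimensional ℚ (fix H')] {σ : Ga}
    (hL : ∀ y ∈ fix H', σ y ∈ fix H')
    {n : ℕ} (hn : ∀ j : ℕ, σ ^ j ∈ H' ↔ n ∣ j) :
    ∃ τ : fix H' ≃ₐ[ℚ] fix H', orderOf τ = n ∧
      ∀ (k : ℕ) (y : fix H'), (((τ ^ k) y : fix H') : Om) = (σ ^ k) (y : Om) := by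
  let f : fix H' →ₐ[ℚ] fix H' :=
    { toFun := fun y => ⟨σ y, hL y y.2⟩
      map_one' := Subtype.ext (map_one σ)
      map_mul' := fun x y => Subtype.ext (map_mul σ (x : Om) y)
      map_zero' := Subtype.ext (map_zero σ)
      map_add' := fun x y => Subtype.ext (map_add σ (x : Om) y)
      commutes' := fun q => Subtype.ext (σ.commutes q) }
  let τ : fix H' ≃ₐ[ℚ] fix H' := AlgEquiv.ofBijective f (Algebra.IsAlgebraic.algHom_bijective f)
  have hτ : ∀ (k : ℕ) (y : fix H'), (((τ ^ k) y : fix H') : Om) = (σ ^ k) (y : Om) := by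
    intro k
    induction k with
    | zero => intro y; rfl
    | succ k ih =>
      intro y
      rw [pow_succ', pow_succ', AlgEquiv.mul_apply, AlgEquiv.mul_apply, ← ih]
      rfl
  have h1 : ∀ j : ℕ, τ ^ j = 1 ↔ n ∣ j := by
    intro j
    rw [← hn]
    constructor
    · intro h
      refine mem_of_fix hH'.cl fun x hx => ?_
      have := hτ j ⟨x, hx⟩
      rw [h] at this
      exact this.symm
    · intro h
      refine AlgEquiv.ext fun y => Subtype.ext ?_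
      rw [hτ]
      exact mem_fix.mp y.2 _ h
  refine ⟨τ, Nat.dvd_antisymm (orderOf_dvd_of_pow_eq_one ((h1 n).mpr dvd_rfl))
    ((h1 _).mp (pow_orderOf_eq_one τ)), hτ⟩

theorem cong_sub {H H' : Subgroup Ga} (hH' : Op H') (hle : H' ≤ H)
    (hnorm : ∀ h ∈ H, ∀ a ∈ H', h * a * h⁻¹ ∈ H') {σ : Ga} (hσ : σ ∈ H) {n : ℕ}
    (hn : ∀ j : ℕ, σ ^ j ∈ H' ↔ n ∣ j) (hgen : ∀ g ∈ H, ∃ j : ℕ, (σ ^ j)⁻¹ * g ∈ H')
    {m : ℕ} (hm : m ≠ 0) :
    ∃ (A : Subgroup Omˣ) (M : ℕ), M ≠ 0 ∧ (∀ x ∈ A, (x : Om) ∈ Ray H' m 1) ∧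
      (∀ x : Omˣ, (x : Om) ∈ Ray H' m M → x ∈ A) ∧
      (∀ x ∈ A, Units.map (σ : Om →* Om) x ∈ A) ∧
      ∀ x ∈ A, ∏ i ∈ Finset.range n, (σ ^ i) (x : Om) = 1 →
        ∃ y ∈ A, (x : Om) * y = σ (y : Om) := by
  have _ := hle
  have _ := hgen
  have hL : ∀ y ∈ fix H', σ y ∈ fix H' := by
    intro y hy
    refine mem_fix.mpr fun g hg => ?_
    have h1 := mem_fix.mp hy _ (hnorm σ⁻¹ (inv_mem hσ) g hg)
    rw [inv_inv, AlgEquiv.mul_apply, AlgEquiv.mul_apply] at h1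
    have h2 := congrArg σ h1
    rwa [← AlgEquiv.mul_apply, mul_inv_cancel, AlgEquiv.one_apply] at h2
  have hn0 : n ≠ 0 := by
    obtain ⟨j, hj, -, h⟩ := Subgroup.exists_pow_mem_of_index_ne_zero hH'.index_ne_zero σ
    rintro rfl
    have := (hn j).mp h
    omega
  have hfd : FiniteDimensional ℚ (fix H') := by
    apply Module.finite_of_finrank_pos
    rw [finrank_fix hH']
    exact Nat.pos_of_ne_zero hH'.index_ne_zero
  obtain ⟨τ, hord, hτ⟩ := NB_res hH' hL hn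
  have hτ1 : ∀ y : fix H', ((τ y : fix H') : Om) = σ (y : Om) := by
    intro y
    simpa using hτ 1 y
  by_cases hm1 : m = 1
  · subst hm1
    have hno : ∀ P : Pr, ¬ ch P ∣ 1 := fun P h => (ch_prime P).one_lt.ne' (Nat.dvd_one.mp h)
    let A : Subgroup Omˣ :=
      { carrier := {x | (x : Om) ∈ fix H'}
        one_mem' := one_mem (fix H')
        mul_mem' := fun {a b} ha hb => (fix H').mul_mem ha hb
        inv_mem' := fun {a} ha => by
          have := (fix H').inv_mem ha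
          simpa using this }
    have hA : ∀ x : Omˣ, x ∈ A ↔ (x : Om) ∈ fix H' := fun x => Iff.rfl
    refine ⟨A, 1, one_ne_zero, fun x hx => ⟨hx, x.ne_zero, fun P hP => (hno P hP).elim⟩,
      fun x hx => hx.1, fun x hx => (hA _).mpr (hL _ hx), fun x hx hN => ?_⟩
    obtain ⟨y, hy, e⟩ := NB_h90 τ ⟨x, hx⟩ (by
      apply Subtype.ext
      rw [hord]
      push_cast
      simp only [hτ]
      exact hN)
    have hy0 : (y : Om) ≠ 0 := fun h => hy (Subtype.ext h)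
    refine ⟨Units.mk0 (y : Om) hy0, (hA _).mpr y.2, ?_⟩
    have := congrArg (fun z : fix H' => (z : Om)) e
    simpa [hτ1] using this
  have hm0 : (m : Om) ≠ 0 := by exact_mod_cast hm
  have hσR : ∀ r ∈ NBR H' m, σ r ∈ NBR H' m := by
    intro r hr
    refine ⟨hL r hr.1, fun P hP => ?_⟩
    have := (hr.2 (σ⁻¹ • P) (by rwa [ch_smul])).smul σ
    rwa [smul_inv_smul] at this
  have hσn : ∀ r ∈ fix H', (σ ^ n) r = r := fun r hr => mem_fix.mp hr _ ((hn n).mpr dvd_rfl)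
  have hmR : (m : Om) ∈ NBR H' m :=
    ⟨NB_natCast_mem H' m, fun P hP => (NB_sm_m hm hP).mono zero_le_one⟩
  obtain ⟨β, γ, hT, hrep⟩ := NB_basis τ
  rw [hord] at hT hrep
  obtain ⟨a, ha⟩ := NB_bd' hm β.2
  have hβR := ha a le_rfl
  set β' : Om := (m : Om) ^ a * (β : Om) with hβ'
  have hσβ : ∀ k : ℕ, (σ ^ k) β' = (m : Om) ^ a * (σ ^ k) (β : Om) := by
    intro k
    rw [hβ', map_mul, map_pow, map_natCast]
  have hT' : ∑ k ∈ range n, (σ ^ k) β' ≠ 0 := by
    simp only [hσβ, ← Finset.mul_sum]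
    refine mul_ne_zero (pow_ne_zero _ hm0) fun h => hT (Subtype.ext ?_)
    push_cast
    simp only [hτ]
    exact h
  have hTL : (∑ k ∈ range n, (σ ^ k) β')⁻¹ ∈ fix H' :=
    inv_mem (sum_mem fun k _ => (NB_pow_mem σ _ hσR k β' hβR).1)
  obtain ⟨c1, hc1⟩ := NB_bd' hm hTL
  obtain ⟨c2, hc2⟩ := NB_bd' hm (inv_mem (NB_natCast_mem H' n))
  choose g hg using fun i : ℕ => NB_bd' hm (γ i).2
  set c3 := ∑ i ∈ range n, g i with hc3
  have hc : ∀ r ∈ NBR H' m, ∃ b : ℕ → Om, (∀ i ∈ range n, b i ∈ NBR H' m ∧ σ (b i) = b i) ∧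
      (m : Om) ^ (c1 + c2 + c3 + a) * r = ∑ i ∈ range n, b i * (σ ^ i) β' := by
    intro r hr
    refine ⟨fun i => ∑ k ∈ range n, (σ ^ k) (r * ((m : Om) ^ (c1 + c2 + c3) * (γ i : Om))),
      fun i hi => ?_, ?_⟩
    · have h1 : r * ((m : Om) ^ (c1 + c2 + c3) * (γ i : Om)) ∈ NBR H' m := by
        refine mul_mem hr (hg i _ ?_)
        have := Finset.single_le_sum (f := g) (fun _ _ => Nat.zero_le _) hi
        omega
      refine ⟨sum_mem fun k _ => NB_pow_mem σ _ hσR k _ h1, ?_⟩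
      rw [map_sum]
      refine Eq.trans (Finset.sum_congr rfl fun k _ => ?_) (NB_tr σ n (hσn _ h1.1))
      rw [← AlgEquiv.mul_apply, ← AlgEquiv.mul_apply (σ ^ k), ← pow_succ, ← pow_succ']
    · have h1 := congrArg (fun z : fix H' => (z : Om)) (hrep ⟨r, hr.1⟩)
      push_cast at h1
      simp only [hτ] at h1
      conv_lhs => rw [h1]
      rw [Finset.mul_sum]
      refine Finset.sum_congr rfl fun i _ => ?_
      rw [hσβ, Finset.sum_mul, Finset.sum_mul, Finset.mul_sum]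
      refine Finset.sum_congr rfl fun k _ => ?_
      push_cast
      simp only [map_mul, map_pow, map_natCast]
      ring
  obtain ⟨Λ, h1, h2, h3, h4, h5, h6⟩ := NB_lat σ n (NBR H' m) (m : Om) β' (c1 + c2 + c3 + a) hσR hmR
    (map_natCast σ m) hβR hc
  have D : NBD σ n (NBR H' m) (m : Om) β' (c1 + c2 + c3 + a) Λ :=
    { n0 := by exact_mod_cast hn0
      τR := hσR
      τn := fun r hr => hσn r hr.1
      pR := hmR
      p0 := hm0
      τp := map_natCast σ m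
      unit := NB_unit hm hm1
      T0 := hT'
      TR := hc1 _ (by omega)
      nR := hc2 _ (by omega)
      βR := hβR
      ΛR := h1
      τΛ := h2
      cΛ := h3
      pΛ := h4
      sΛ := h5
      dec := h6 }
  obtain ⟨A, J, a1, a2, a3, a4⟩ := D.main
  refine ⟨A, J * m + 1, by omega, fun x hx => ?_, fun x hx => a2 x ?_, a3, a4⟩
  · obtain ⟨r, hr, e⟩ := a1 x hx
    refine ⟨?_, x.ne_zero, fun P hP => ?_⟩
    · rw [e]
      exact add_mem (one_mem _) (mul_mem hmR.1 hr.1)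
    · have := (NB_sm_m hm hP).mul (hr.2 P hP)
      rw [e, add_sub_cancel_left]
      simpa using this
  · refine ⟨((x : Om) - 1) * ((m : Om) ^ J)⁻¹, ⟨mul_mem (sub_mem hx.1 (one_mem _))
      (inv_mem (pow_mem hmR.1 J)), fun P hP => ?_⟩, by field_simp; ring⟩
    refine ((hx.2.2 P hP).mul (sm_val P ((m : Om) ^ J)⁻¹)).mono ?_
    rw [val_inv, val_pow]
    have h7 := NB_val_le P m
    have h8 : (0 : ℚ) ≤ J := by positivity
    push_cast
    nlinarith

end Vale.Agent.P024U
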