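import Vale.Agent.P024U.Ram0

/-! The dictionary between primes of `Oi` and primes of a number field `fix H`.
`below H P` is the contraction of `P`.  Lying over for the integral extension `𝓞 (fix H) → Oi`; `trans_pr`.
`absNorm_below`: the residue field `k` of `below` has `l^f` elements; a Frobenius `φ^f` acts trivially on `k`, so `surj_res` gives an
element of `H`, `deg ∣ f`; conversely `x^(l^deg) = x` on `k` gives `l^f ≤ l^deg`.
`count_below`: in the localisation (a DVR) `x = π^i u`, `ch P = π^e u'` (as in `Val`). -/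

namespace Vale.Agent.P024U
open NumberField IsDedekindDomain

/-- the inclusion of rings of integers -/
noncomputable def incl (H : Subgroup Ga) : 𝓞 (fix H) →+* Oi := algebraMap (𝓞 (fix H)) Oi

theorem coe_incl (H : Subgroup Ga) (x : 𝓞 (fix H)) : ((incl H x : Oi) : Om) = ((x : fix H) : Om) := rfl

noncomputable def below (H : Subgroup Ga) (P : Pr) : HeightOneSpectrum (𝓞 (fix H)) where
  asIdeal := P.I.comap (incl H)
  isPrime := by
    have := P.max
    exact Ideal.comap_isPrime _ _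
  ne_bot := (Val_bel (fix H) P).ne_bot

variable {H : Subgroup Ga}

theorem Bridge_mem (P : Pr) (a : 𝓞 (fix H)) : a ∈ (below H P).asIdeal ↔ incl H a ∈ P.I := Iff.rfl

theorem Bridge_lift {x : Om} (hx : x ∈ fix H) (hi : IsIntegral ℤ x) :
    ∃ y : 𝓞 (fix H), ((y : fix H) : Om) = x :=
  ⟨⟨⟨x, hx⟩, (isIntegral_algHom_iff ((fix H).val.restrictScalars ℤ)
    Subtype.val_injective).1 hi⟩, rfl⟩

theorem Bridge_lift' {x : Oi} (hx : (x : Om) ∈ fix H) : ∃ y : 𝓞 (fix H), incl H y = x := by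
  obtain ⟨y, hy⟩ := Bridge_lift hx (RingOfIntegers.isIntegral_coe x)
  exact ⟨y, RingOfIntegers.ext hy⟩

theorem Bridge_smul {g : Ga} (hg : g ∈ H) (a : 𝓞 (fix H)) : g • incl H a = incl H a :=
  RingOfIntegers.ext (mem_fix.1 (a : fix H).2 g hg)

theorem below_surj (H : Subgroup Ga) : Function.Surjective (below H) := by
  intro v
  have h1 := v.isPrime
  have h2 := Ring.DimensionLEOne.of_isIntegral ℤ (𝓞 (fix H))
  have h3 := h1.isMaximal v.ne_bot
  obtain ⟨Q, hQ, h⟩ := Ideal.exists_maximal_ideal_liesOver_of_isIntegral (S := Oi) v.asIdeal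
  exact ⟨⟨Q, hQ⟩, HeightOneSpectrum.ext h.over.symm⟩

theorem below_eq_iff (hH : Op H) (P Q : Pr) : below H P = below H Q ↔ ∃ h ∈ H, h • P = Q := by
  refine ⟨fun h => trans_pr hH.cl P Q fun x hx => ?_, ?_⟩
  · obtain ⟨y, rfl⟩ := Bridge_lift' hx
    rw [← Bridge_mem, ← Bridge_mem, h]
  · rintro ⟨g, hg, rfl⟩
    ext a
    rw [Bridge_mem, Bridge_mem, Pr.mem_smul, Bridge_smul (inv_mem hg)]

theorem natCast_mem_below (P : Pr) (n : ℕ) : (n : 𝓞 (fix H)) ∈ (below H P).asIdeal ↔ ch P ∣ n := by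
  rw [Bridge_mem, map_natCast, natCast_mem]

theorem Bridge_fin {F : Type*} [Field F] [Fintype F] {p f : ℕ} (hp : p.Prime)
    (hf : Fintype.card F = p ^ f) (k : ℕ) (h : ∀ a : F, a ^ p ^ k = a) : f ∣ k := by
  have hpk : 0 < p ^ k := pow_pos hp.pos k
  have h2 : ∀ a : Fˣ, a ^ (p ^ k - 1) = 1 := by
    intro a
    have h3 : a ^ (p ^ k) = a := Units.ext (by simpa using h a)
    rwa [← Nat.sub_add_cancel hpk, pow_succ, mul_eq_right] at h3
  rw [FiniteField.forall_pow_eq_one_iff, hf] at h2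
  have h3 := Nat.pow_sub_one_gcd_pow_sub_one p f k
  rw [Nat.gcd_eq_left h2] at h3
  have h4 : p ^ f = p ^ Nat.gcd f k := by
    have h5 := pow_pos hp.pos f
    have h6 := pow_pos hp.pos (Nat.gcd f k)
    omega
  exact Nat.gcd_eq_left_iff_dvd.1 (Nat.pow_right_injective hp.two_le h4).symm

theorem absNorm_below (hH : Op H) [NumberField (fix H)] (P : Pr) :
    Ideal.absNorm (below H P).asIdeal = ch P ^ deg H P := by
  set I := (below H P).asIdeal with hI
  have := (below H P).isMaximal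
  let _ := Ideal.Quotient.field I
  have := Ideal.finiteQuotientOfFreeOfNeBot I (below H P).ne_bot
  have := Fintype.ofFinite (𝓞 (fix H) ⧸ I)
  have := Fact.mk (ch_prime P)
  have hc : CharP (𝓞 (fix H) ⧸ I) (ch P) := by
    refine (CharP.charP_iff_prime_eq_zero (ch_prime P)).2 ?_
    rw [← map_natCast (Ideal.Quotient.mk I), Ideal.Quotient.eq_zero_iff_mem, hI, natCast_mem_below]
  obtain ⟨f, -, hf⟩ := FiniteField.card (𝓞 (fix H) ⧸ I) (ch P)
  rw [Ideal.absNorm_apply, Submodule.cardQuot_apply, Nat.card_eq_fintype_card, hf]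
  have h1 : ∀ (a : 𝓞 (fix H)) (n : ℕ), Ideal.Quotient.mk I a ^ n = Ideal.Quotient.mk I a ↔
      incl H a ^ n - incl H a ∈ P.I := by
    intro a n
    rw [← map_pow, Ideal.Quotient.eq, hI, Bridge_mem, map_sub, map_pow]
  congr 1
  refine Nat.dvd_antisymm (Bridge_fin (ch_prime P) hf _ fun a => ?_) ?_
  · obtain ⟨a, rfl⟩ := Ideal.Quotient.mk_surjective a
    obtain ⟨h2, h3⟩ := frob_spec hH P
    have h4 := neg_mem (h3 (incl H a))
    rwa [Bridge_smul h2, neg_sub, ← h1] at h4
  · obtain ⟨φ, hφ⟩ := exists_frob P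
    have h2 := hφ.pow f
    rw [one_mul] at h2
    obtain ⟨g, hg, -, h3⟩ := surj_res hH.cl P _ h2.mem_Dec fun x hx => by
      obtain ⟨a, rfl⟩ := Bridge_lift' hx
      have h4 := add_mem (h2 (incl H a)) ((h1 a _).1 (hf ▸ FiniteField.pow_card _))
      rwa [sub_add_sub_cancel] at h4
    have h4 := h2.mul (isFrob_zero.2 (inv_mem h3))
    rw [mul_inv_rev, inv_inv, mul_inv_cancel_left] at h4
    exact deg_dvd hH hg h4

theorem Bridge_count {K : Type*} [Field K] [NumberField K] (v : HeightOneSpectrum (𝓞 K)) {x : K}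
    (hx : x ≠ 0) : v.valuation K x = WithZero.exp (-FractionalIdeal.count K v
      (FractionalIdeal.spanSingleton (nonZeroDivisors (𝓞 K)) x)) := by
  obtain ⟨⟨a, b⟩, rfl⟩ := IsLocalization.mk'_surjective (nonZeroDivisors (𝓞 K)) x
  have ha : a ≠ 0 := by
    rintro rfl
    simp at hx
  simp only at hx ⊢
  rw [FractionalIdeal.count_well_defined K v (a := b) (J := Ideal.span {a})
    (FractionalIdeal.spanSingleton_ne_zero_iff.2 hx) (by
      rw [FractionalIdeal.coeIdeal_span_singleton, FractionalIdeal.spanSingleton_mul_spanSingleton,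
        IsFractionRing.mk'_eq_div, div_eq_inv_mul]),
    v.valuation_of_mk', v.intValuation_if_neg ha,
    v.intValuation_if_neg (nonZeroDivisors.coe_ne_zero b), ← WithZero.exp_sub]
  congr 1
  ring

theorem count_below [NumberField (fix H)] (P : Pr) : ∃ e : ℕ, e ≠ 0 ∧ (Ine P ≤ H → e = 1) ∧
    ∀ x : fix H, (FractionalIdeal.count (fix H) (below H P)
      (FractionalIdeal.spanSingleton (nonZeroDivisors (𝓞 (fix H))) x) : ℚ) = e * val P (x : Om) := by
  obtain ⟨e, he, h⟩ := Val_main (fix H) P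
  have he' : (e : ℚ) ≠ 0 := Nat.cast_ne_zero.2 he
  refine ⟨e, he, fun hI => ?_, fun x => ?_⟩
  · obtain ⟨π, hπ⟩ := (Val_bel (fix H) P).valuation_exists_uniformizer (fix H)
    obtain ⟨k, hk⟩ := val_int (P := P) (x := π) fun σ hσ => mem_fix.1 π.2 σ (hI hσ)
    rw [(h π 1 hπ).val_eq, div_eq_iff he'] at hk
    have h1 : (1 : ℤ) = k * e := by exact_mod_cast hk
    exact_mod_cast Int.eq_one_of_mul_eq_one_left (Int.natCast_nonneg e) h1.symm
  · rcases eq_or_ne x 0 with rfl | hx
    · simp [val_zero, FractionalIdeal.count_zero]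
    · rw [(h x _ (Bridge_count _ hx)).val_eq, mul_div_cancel₀ _ he']
      rfl

/-- units of the ring of integers -/
theorem exists_unit {x : Om} (hx : x ∈ fix H) (h0 : x ≠ 0) (h : ∀ P, val P x = 0) :
    ∃ u : (𝓞 (fix H))ˣ, (((u : 𝓞 (fix H)) : fix H) : Om) = x := by
  obtain ⟨a, ha⟩ := Bridge_lift hx (isIntegral_of_val x fun P => (h P).ge)
  obtain ⟨b, hb⟩ := Bridge_lift (inv_mem hx) (isIntegral_of_val x⁻¹ fun P => by
    rw [val_inv, h, neg_zero])
  have h1 : a * b = 1 := RingOfIntegers.ext (Subtype.ext (by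
    have h2 : ((a : fix H) : Om) * ((b : fix H) : Om) = 1 := by rw [ha, hb, mul_inv_cancel₀ h0]
    exact h2))
  exact ⟨Units.mkOfMulEqOne a b h1, ha⟩

theorem val_unit (u : (𝓞 (fix H))ˣ) (P : Pr) : val P (((u : 𝓞 (fix H)) : fix H) : Om) = 0 :=
  (Val_isU_coe (a := incl H u) fun h =>
    P.max.ne_top (Ideal.eq_top_of_isUnit_mem _ h (u.isUnit.map _))).val_eq

end Vale.Agent.P024U
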