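import Vale.Agent.P024U.US
import Vale.Agent.P024U.Bridge

/-! Units of `fix H'` as a module over a cyclic group.  `σ` normalises `H'` (`conj_eq` or finiteness of the index), so restricts to an automorphism `s` of `fix H'`.
Free action on infinite places: if `w ∘ s^i = w` then `s^i` is trivial or is complex conjugation for the embedding of `w`
(`InfinitePlace.mk_eq_iff`); `s` fixes a square root of `-1`, which lies in `fix H'`, so it is trivial, `σ^i ∈ H'` (`mem_of_fix`).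
The field is totally complex, `2 * card places = finrank = H'.index` (`IsTotallyComplex.finrank`, `finrank_fix`). -/

namespace Vale.Agent.P024U
open NumberField

/-- restriction of a normalising automorphism to the fixed field -/
noncomputable def USa_res {H' : Subgroup Ga} {σ : Ga} (hn : ∀ a ∈ H', σ * a * σ⁻¹ ∈ H')
    (hn' : ∀ a ∈ H', σ⁻¹ * a * σ ∈ H') : fix H' ≃+* fix H' where
  toFun x := ⟨σ x, mem_fix.2 fun a ha => by
    have := mem_fix.1 x.2 _ (hn' a ha)
    rw [AlgEquiv.mul_apply, AlgEquiv.mul_apply] at this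
    rw [← this]
    exact ((σ.apply_symm_apply _).symm).trans (congrArg σ (by rw [this]; exact this))⟩
  invFun x := ⟨σ⁻¹ x, mem_fix.2 fun a ha => by
    have := mem_fix.1 x.2 _ (hn a ha)
    rw [AlgEquiv.mul_apply, AlgEquiv.mul_apply] at this
    apply σ.injective
    rw [this]
    exact (σ.apply_symm_apply _).symm⟩
  left_inv x := Subtype.ext (σ.symm_apply_apply _)
  right_inv x := Subtype.ext (σ.apply_symm_apply _)
  map_mul' x y := Subtype.ext (map_mul σ _ _)
  map_add' x y := Subtype.ext (map_add σ _ _)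

theorem USa_inv {G : Type*} [Group G] (H : Subgroup G) (hi : H.index ≠ 0) (σ : G)
    (hn : ∀ a ∈ H, σ * a * σ⁻¹ ∈ H) : ∀ a ∈ H, σ⁻¹ * a * σ ∈ H := by
  intro a ha
  obtain ⟨n, h1, -, h2⟩ := Subgroup.exists_pow_mem_of_index_ne_zero hi σ
  obtain ⟨k, rfl⟩ : ∃ k, n = k + 1 := ⟨n - 1, by omega⟩
  have h3 : ∀ j : ℕ, σ ^ j * a * (σ ^ j)⁻¹ ∈ H := fun j => by
    induction j with
    | zero => simpa using ha
    | succ j ih =>
      have := hn _ ih
      rwa [show σ * (σ ^ j * a * (σ ^ j)⁻¹) * σ⁻¹ = σ ^ (j + 1) * a * (σ ^ (j + 1))⁻¹ by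
        group] at this
  have := H.mul_mem (H.mul_mem (H.inv_mem h2) (h3 k)) h2
  rwa [show (σ ^ (k + 1))⁻¹ * (σ ^ k * a * (σ ^ k)⁻¹) * σ ^ (k + 1) = σ⁻¹ * a * σ by
    group] at this

theorem USa_sqrt {H' : Subgroup Ga} (h4 : H' ≤ Gmu 4) :
    ∃ z : fix H', z ^ 2 = -1 ∧ (z : Om) ^ 4 = 1 := by
  obtain ⟨z, hz⟩ := IsAlgClosed.exists_pow_nat_eq (-1 : Om) two_pos
  have h : z ^ 4 = 1 := by
    rw [show 4 = 2 * 2 from rfl, pow_mul, hz]
    norm_num
  exact ⟨⟨z, mem_fix.2 fun a ha => h4 ha z h⟩, Subtype.ext (by simpa using hz), h⟩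

theorem USa_conj {L : Type*} [Field L] {z : L} (hz : z ^ 2 = -1) (φ : L →+* ℂ) :
    (starRingEnd ℂ) (φ z) ≠ φ z := by
  intro h
  have h1 : φ z ^ 2 = -1 := by rw [← map_pow, hz, map_neg, map_one]
  obtain ⟨x, hx⟩ := Complex.conj_eq_iff_real.1 h
  rw [hx] at h1
  have h2 : x ^ 2 = -1 := by exact_mod_cast h1
  nlinarith [sq_nonneg x]

theorem units_abs {H' : Subgroup Ga} (hH' : Op H') (h4 : H' ≤ Gmu 4) {σ : Ga} (hσ4 : σ ∈ Gmu 4)
    (hn : ∀ a ∈ H', σ * a * σ⁻¹ ∈ H') {N : ℕ} (hN : ∀ j : ℕ, σ ^ j ∈ H' ↔ N ∣ j) :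
    ∃ (ρ : ℕ) (sE : AddMonoid.End (Additive (𝓞 (fix H'))ˣ)), 2 * (ρ * N) = H'.index ∧ N ≠ 0 ∧
      sE ^ N = 1 ∧
      (∀ u : (𝓞 (fix H'))ˣ, (((((sE (Additive.ofMul u)).toMul : (𝓞 (fix H'))ˣ) : 𝓞 (fix H')) :
        fix H') : Om) = σ (((u : 𝓞 (fix H')) : fix H') : Om)) ∧
      ∃ π : Additive (𝓞 (fix H'))ˣ × ℤ →+ (Fin ρ × ZMod N → ℤ), PermHom sE N ρ π := by
  have := numberField_fix hH'
  have hn' := USa_inv H' hH'.index_ne_zero σ hn
  set s := USa_res hn hn' with hs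
  have hpow : ∀ (i : ℕ) (x : fix H'), (((s ^ i) x : fix H') : Om) = (σ ^ i) x := fun i => by
    induction i with
    | zero => intro x; rfl
    | succ i ih =>
      intro x
      rw [pow_succ, pow_succ, AlgEquiv.mul_apply, RingAut.mul_apply, ih]
      rfl
  have hN0 : N ≠ 0 := by
    rintro rfl
    obtain ⟨n, h1, -, h2⟩ := Subgroup.exists_pow_mem_of_index_ne_zero hH'.index_ne_zero σ
    have := (hN n).1 h2
    omega
  have hsN : s ^ N = 1 := by
    ext x
    rw [hpow]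
    exact mem_fix.1 x.2 _ ((hN N).2 dvd_rfl)
  obtain ⟨z, hz, hz4⟩ := USa_sqrt h4
  have hfree : ∀ (w : InfinitePlace (fix H')) (i : ℕ),
      w.comap ((s ^ i : fix H' ≃+* fix H') : fix H' →+* fix H') = w → N ∣ i := by
    intro w i h
    rw [← w.mk_embedding, InfinitePlace.comap_mk, InfinitePlace.mk_eq_iff] at h
    rcases h with h | h
    · refine (hN i).1 (mem_of_fix hH'.cl fun x hx => ?_)
      have h1 : (s ^ i) ⟨x, hx⟩ = ⟨x, hx⟩ := w.embedding.injective (RingHom.congr_fun h ⟨x, hx⟩)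
      rw [← hpow i ⟨x, hx⟩, h1]
    · have h1 : (s ^ i) z = z := Subtype.ext ((hpow i z).trans ((Gmu 4).pow_mem hσ4 i z hz4))
      have h2 := RingHom.congr_fun h z
      refine absurd ?_ (USa_conj hz w.embedding)
      refine Eq.trans ?_ h2
      exact congrArg (fun y => (starRingEnd ℂ) (w.embedding y)) h1.symm
  let sE : AddMonoid.End (Additive (𝓞 (fix H'))ˣ) := MonoidHom.toAdditive
    (Units.map (RingOfIntegers.mapRingEquiv s : 𝓞 (fix H') →* 𝓞 (fix H')))
  have hsE : ∀ u : (𝓞 (fix H'))ˣ, ((((sE (Additive.ofMul u)).toMul : (𝓞 (fix H'))ˣ) :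
      𝓞 (fix H')) : fix H') = s ((u : 𝓞 (fix H')) : fix H') := fun u => rfl
  have hsEp : ∀ (i : ℕ) (u : Additive (𝓞 (fix H'))ˣ), (((((sE ^ i) u).toMul : (𝓞 (fix H'))ˣ) :
      𝓞 (fix H')) : fix H') = (s ^ i) ((u.toMul : 𝓞 (fix H')) : fix H') := fun i => by
    induction i with
    | zero => intro u; rfl
    | succ i ih =>
      intro u
      rw [pow_succ, pow_succ, RingAut.mul_apply, ← hsE, ← ih]
      rfl
  obtain ⟨ρ, hρ, hπ⟩ := units_perm s N hN0 hsN hfree sE hsE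
  have : IsTotallyComplex (fix H') := ⟨fun w => by
    rw [← InfinitePlace.not_isReal_iff_isComplex, InfinitePlace.isReal_iff]
    exact fun h => USa_conj hz w.embedding (RingHom.congr_fun h z)⟩
  refine ⟨ρ, sE, ?_, hN0, ?_, fun u => congrArg Subtype.val (hsE u), hπ⟩
  · rw [hρ, InfinitePlace.card_eq_nrRealPlaces_add_nrComplexPlaces,
      IsTotallyComplex.nrRealPlaces_eq_zero, zero_add, ← IsTotallyComplex.finrank, finrank_fix hH']
  · refine AddMonoidHom.ext fun u => ?_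
    refine Additive.toMul.injective (Units.ext (RingOfIntegers.ext ?_))
    have := hsEp N u
    rw [hsN] at this
    exact this

end Vale.Agent.P024U
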