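import Vale.Agent.P024U.I2a
import Vale.Agent.P024U.HU
import Vale.Agent.P024U.USa
import Vale.Agent.P024U.NB
import Vale.Agent.P024U.DivN
import Vale.Agent.P024U.Cls

/-! The cyclic norm index inequality.  `H' = kerX H θ`, `n` = order of `θ σ`.  Apply `i2_abs` to `A = Additive (group of cong_sub)`, `I = Div H' m`,
`f = dv m`, `sI = act σ`.  H1 of `I`: `h1_perm` on the quotient of `Pr` by `H'` (force `d' = 0` over `m`, the support condition gives finiteness).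
The kernel `E` consists of units (`exists_unit`), has finite index in the unit group (`pow_cong`: finitely generated torsion quotient, or an injection
into a finite ring), so `units_abs` restricts to a `PermHom` for `E`, and `hu_herb` applies.  `I^σ = Div H m`; `f (A^σ) ⊇ dvRay H m M`;
`Nsub ≤ N I` by `nmD_ind`, `nmD_cyc`; so the index of `dvRay ⊔ Nsub` is a nonzero (`ray_fin`) multiple of the abstract index. -/

namespace Vale.Agent.P024U
open NumberField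

theorem I2_act_mul (g h : Ga) (d : Pr → ℤ) : act (g * h) d = act g (act h d) := by
  funext P; simp only [act, mul_inv_rev, mul_smul]

theorem I2_act_fix {H : Subgroup Ga} {m : ℕ} {g : Ga} (hg : g ∈ H) {d : Pr → ℤ} (hd : d ∈ Div H m) :
    act g d = d := funext fun P => hd.1 _ (H.inv_mem hg) P

theorem I2_perm {E U : Type*} [AddCommGroup E] [AddCommGroup U] {sE : AddMonoid.End E}
    {s : AddMonoid.End U} {N ρ : ℕ} {π : U × ℤ →+ (Fin ρ × ZMod N → ℤ)} (h : PermHom s N ρ π)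
    (ι : E →+ U) (hi : Function.Injective ι) (hr : ι.range.FiniteIndex)
    (he : ∀ e, ι (sE e) = s (ι e)) : PermHom sE N ρ (π.comp (ι.prodMap (AddMonoidHom.id ℤ))) := by
  refine ⟨fun a k j i => by simpa [he] using h.equi (ι a) k j i, ?_, ⟨?_⟩⟩
  · have := h.ker
    refine Finite.of_injective (β := π.ker) (fun x => ⟨ι.prodMap (AddMonoidHom.id ℤ) x, x.2⟩)
      fun x y e => Subtype.ext ?_
    exact (hi.prodMap Function.injective_id) (congrArg Subtype.val e)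
  · have e : (ι.prodMap (AddMonoidHom.id ℤ)).range = ι.range.prod ⊤ := by
      ext ⟨u, k⟩
      simp [AddSubgroup.mem_prod]
    have : (ι.range.prod (⊤ : AddSubgroup ℤ)).FiniteIndex :=
      ⟨by rw [AddSubgroup.index_prod, AddSubgroup.index_top, mul_one]; exact hr.1⟩
    rw [← AddMonoidHom.map_range, AddSubgroup.index_map, e]
    exact mul_ne_zero (AddSubgroup.finiteIndex_of_le le_sup_left).1 h.coker.1

theorem I2_h1 {H' : Subgroup Ga} {σ : Ga} (hg : ∀ h, h ∈ H' ↔ σ * h * σ⁻¹ ∈ H') {n m : ℕ}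
    (hn : n ≠ 0) (hσ : σ ^ n ∈ H') {d : Pr → ℤ} (hd : d ∈ Div H' m)
    (h0 : ∑ i ∈ Finset.range n, act (σ ^ i) d = 0) : ∃ d' ∈ Div H' m, d = act σ d' - d' := by
  let r : Setoid Pr := ⟨fun P Q => ∃ h ∈ H', h • P = Q, fun P => ⟨1, H'.one_mem, one_smul _ _⟩,
    fun ⟨h, hh, e⟩ => ⟨h⁻¹, H'.inv_mem hh, by rw [← e, inv_smul_smul]⟩,
    fun ⟨h, hh, e⟩ ⟨k, hk, e'⟩ => ⟨k * h, H'.mul_mem hk hh, by rw [mul_smul, e, e']⟩⟩
  let τ : Equiv.Perm (Quotient r) := Quotient.congr (MulAction.toPerm σ⁻¹) fun P Q =>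
    ⟨fun ⟨h, hh, e⟩ => ⟨σ⁻¹ * h * σ, (hg _).2 (by simpa [mul_assoc] using hh), by
      simp [← e, mul_smul]⟩,
    fun ⟨h, hh, e⟩ => ⟨σ * h * σ⁻¹, (hg _).1 hh, by
      rw [mul_smul, mul_smul]; exact smul_eq_iff_eq_inv_smul _ |>.2 e⟩⟩
  have t1 : ∀ (i : ℕ) P, (τ ^ i) (Quotient.mk r P) = Quotient.mk r ((σ ^ i)⁻¹ • P) := fun i => by
    induction i with
    | zero => simp
    | succ i ih =>
      intro P
      rw [pow_succ', Equiv.Perm.mul_apply, ih, pow_succ, mul_inv_rev, mul_smul]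
      rfl
  let D : Quotient r → ℤ := Quotient.lift d fun P Q ⟨h, hh, e⟩ => by rw [← e, hd.1 h hh]
  obtain ⟨d', e1, e2⟩ := h1_perm τ n hn (Equiv.ext fun y => by
    induction y using Quotient.inductionOn
    rw [t1]
    exact Quotient.sound ⟨_, hσ, smul_inv_smul _ _⟩) D fun y => by
    induction y using Quotient.inductionOn with | _ P =>
    simp only [t1]
    simpa [act, D] using congrFun h0 P
  have e3 : ∀ P, d' (Quotient.mk r P) ≠ 0 → ∃ Q, ch Q = ch P ∧ d Q ≠ 0 := fun P h => by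
    obtain ⟨i, hi⟩ := e2 _ h
    rw [t1] at hi
    exact ⟨_, ch_smul _ _, hi⟩
  refine ⟨fun P => d' (Quotient.mk r P), ⟨fun h hh P => congrArg d' (Quotient.sound
    ⟨h⁻¹, H'.inv_mem hh, inv_smul_smul _ _⟩), fun P hP => ?_, hd.2.2.subset ?_⟩,
    funext fun P => e1 (Quotient.mk r P)⟩
  · by_contra h
    obtain ⟨Q, a, b⟩ := e3 P h
    exact b (hd.2.1 Q (a ▸ hP))
  · rintro _ ⟨P, rfl, h⟩
    exact e3 P h

theorem I2_grp {H H' : Subgroup Ga} (hH' : Op H') (hle : H' ≤ H)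
    (hnorm : ∀ h ∈ H, ∀ a ∈ H', h * a * h⁻¹ ∈ H') {σ : Ga} (hσ : σ ∈ H) {n : ℕ}
    (hn : ∀ j : ℕ, σ ^ j ∈ H' ↔ n ∣ j) (hgen : ∀ g ∈ H, ∃ j : ℕ, (σ ^ j)⁻¹ * g ∈ H')
    {m : ℕ} (hm : m ≠ 0) : ∃ (B : Type) (_ : AddCommGroup B) (c : B → Om) (s : AddMonoid.End B)
      (M : ℕ), M ≠ 0 ∧ Function.Injective c ∧ (∀ a b, c (a + b) = c a * c b) ∧
      (∀ a, c a ∈ Ray H' m 1) ∧ (∀ x ∈ Ray H' m M, ∃ a, c a = x) ∧ (∀ a, c (s a) = σ (c a)) ∧
      ∀ a, ∏ i ∈ Finset.range n, (σ ^ i) (c a) = 1 → ∃ b, c a * c b = σ (c b) := by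
  obtain ⟨A, M, h0, h1, h2, h3, h4⟩ := cong_sub hH' hle hnorm hσ hn hgen hm
  refine ⟨Additive A, inferInstance, fun a => ((a.toMul : Omˣ) : Om), MonoidHom.toAdditive
    (((Units.map (σ : Om →* Om)).comp A.subtype).codRestrict A fun x => h3 x x.2), M, h0,
    fun a b e => Additive.toMul.injective (Subtype.ext (Units.ext e)), fun a b => rfl,
    fun a => h1 _ a.toMul.2, fun x hx => ⟨Additive.ofMul ⟨Units.mk0 x hx.2.1, h2 _ hx⟩, rfl⟩,
    fun a => rfl, fun a h => ?_⟩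
  obtain ⟨y, hy, e⟩ := h4 _ a.toMul.2 h
  exact ⟨Additive.ofMul ⟨y, hy⟩, e⟩

theorem I2_val {H : Subgroup Ga} {m : ℕ} {x : Om} (hx : x ∈ Ray H m 1) {P : Pr} (hP : ch P ∣ m) :
    val P x = 0 := by
  have := (val_add_of_lt (P := P) one_ne_zero (y := x - 1) ((hx.2.2 P hP).imp_right fun h => by
    rw [val_one]; exact lt_of_lt_of_le (by norm_num) h)).2
  rwa [add_sub_cancel, val_one] at this

theorem I2_unit {H : Subgroup Ga} (hH : Op H) {m : ℕ} (hm : m ≠ 0) (M : ℕ) (u : (𝓞 (fix H))ˣ) :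
    ∃ k : ℕ, k ≠ 0 ∧ ((((u ^ k : (𝓞 (fix H))ˣ) : 𝓞 (fix H)) : fix H) : Om) ∈ Ray H m M := by
  obtain ⟨k, k0, hk⟩ := pow_cong hH (m ^ M) (pow_ne_zero _ hm) u (fun P _ => val_unit u P) u.ne_zero
  refine ⟨k, k0, Subtype.property _, by simp, fun P hP => ?_⟩
  have h1 := map_dvd (incl H) hk
  rw [map_natCast] at h1
  have h2 := (dvd_iff_sm _ (pow_ne_zero _ hm) _).1 h1 P
  rw [coe_incl] at h2
  have := Fact.mk (ch_prime P)
  refine Sm.mono ?_ (by simpa using h2)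
  have := one_le_padicValNat_of_dvd hm hP
  exact_mod_cast Nat.le_mul_of_pos_right _ this

theorem I2_core {H H' : Subgroup Ga} (hH : Op H) (hH' : Op H') (hle : H' ≤ H) (h4 : H ≤ Gmu 4)
    (hnorm : ∀ h ∈ H, ∀ a ∈ H', h * a * h⁻¹ ∈ H') {σ : Ga} (hσ : σ ∈ H) {n : ℕ}
    (hn : ∀ j : ℕ, σ ^ j ∈ H' ↔ n ∣ j) (hgen : ∀ g ∈ H, ∃ j : ℕ, (σ ^ j)⁻¹ * g ∈ H')
    {m : ℕ} (hm : m ≠ 0) (hu : UnrOut H' m) {S : AddSubgroup (Pr → ℤ)}
    (hS : ∀ T : AddSubgroup (Pr → ℤ), (∀ d ∈ Div H' m, nmD H' H d ∈ T) → S ≤ T) :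
    ∃ M : ℕ, M ≠ 0 ∧ n ≤ (dvRay H m M ⊔ S).relIndex (Div H m) := by
  obtain ⟨B, _, c, s, M, M0, ci, ca, c1, cM, cs, c90⟩ := I2_grp hH' hle hnorm hσ hn hgen hm
  obtain ⟨ρ, sU, -, n0, -, hU, π, hπ⟩ := units_abs hH' (hle.trans h4) (h4 hσ) (hnorm σ hσ) hn
  have hσn : σ ^ n ∈ H' := (hn n).2 dvd_rfl
  have hg : ∀ h, h ∈ H' ↔ σ * h * σ⁻¹ ∈ H' := fun h => ⟨hnorm σ hσ h, fun hh => by
    simpa [mul_assoc] using hnorm σ⁻¹ (H.inv_mem hσ) _ hh⟩
  have c0 : c 0 = 1 := mul_left_cancel₀ (c1 0).2.1 (by rw [← ca, add_zero, mul_one])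
  have sp : ∀ (i : ℕ) a, c ((s ^ i) a) = (σ ^ i) (c a) := fun i => by
    induction i with
    | zero => intro a; rfl
    | succ i ih => intro a; rw [pow_succ', pow_succ', AlgEquiv.mul_apply, ← ih, ← cs]; rfl
  have cn : ∀ (k : ℕ) a, c (nrm s k a) = ∏ i ∈ Finset.range k, (σ ^ i) (c a) := fun k a => by
    induction k with
    | zero => exact c0
    | succ k ih =>
      rw [Finset.prod_range_succ, ← ih, ← sp, ← ca, nrm, Finset.sum_range_succ]; rfl
  obtain ⟨sI, hI⟩ : ∃ sI : AddMonoid.End (Div H' m), ∀ d, (sI d : Pr → ℤ) = act σ d :=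
    ⟨AddMonoidHom.mk' (fun d => ⟨act σ d, act_mem σ hg d.2⟩) fun _ _ => rfl, fun _ => rfl⟩
  have ip : ∀ (i : ℕ) d, ((sI ^ i) d : Pr → ℤ) = act (σ ^ i) d := fun i => by
    induction i with
    | zero => intro d; funext P; simp [act]
    | succ i ih => intro d; rw [pow_succ', pow_succ', I2_act_mul, ← ih, ← hI]; rfl
  have iN : ∀ (k : ℕ) d, (nrm sI k d : Pr → ℤ) = ∑ i ∈ Finset.range k, act (σ ^ i) d :=
    fun k d => by
    induction k with
    | zero => rfl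
    | succ k ih => rw [Finset.sum_range_succ, ← ih, ← ip, nrm, Finset.sum_range_succ]; rfl
  obtain ⟨f, hf⟩ : ∃ f : B →+ Div H' m, ∀ a, (f a : Pr → ℤ) = dv m (c a) :=
    ⟨AddMonoidHom.mk' (fun a => ⟨dv m (c a), dv_mem _ (c1 a).1⟩) fun a b => Subtype.ext (by
      simp only [ca]; exact dv_mul hu (c1 a).1 (c1 b).1 (c1 a).2.1 (c1 b).2.1), fun _ => rfl⟩
  have fs : ∀ a, f (s a) = sI (f a) := fun a => Subtype.ext (by rw [hf, cs, dv_smul, hI, hf])
  have sn : s ^ n = 1 := AddMonoidHom.ext fun a => ci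
    ((sp n a).trans (mem_fix.1 (c1 a).1 _ hσn))
  obtain ⟨sE, hE⟩ : ∃ sE : AddMonoid.End f.ker, ∀ e, (sE e : B) = s e :=
    ⟨AddMonoidHom.mk' (fun e => ⟨s e, by
      rw [AddMonoidHom.mem_ker, fs, show f e = 0 from e.2, map_zero]⟩)
      fun a b => Subtype.ext (map_add s _ _), fun _ => rfl⟩
  have ep : ∀ (i : ℕ) e, ((sE ^ i) e : B) = (s ^ i) e := fun i => by
    induction i with
    | zero => intro a; rfl
    | succ i ih =>
      intro a
      rw [pow_succ', pow_succ']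
      exact (hE _).trans (congrArg s (ih a))
  choose j hj using fun e : f.ker => exists_unit (c1 e).1 (c1 e).2.1 fun P => by
    by_cases hP : ch P ∣ m
    · exact I2_val (c1 e) hP
    · rw [← val_eq_dv hu (c1 e).1 hP, ← hf, show f e = 0 from e.2]; simp
  have ui : Function.Injective fun u : (𝓞 (fix H'))ˣ => (((u : 𝓞 (fix H')) : fix H') : Om) :=
    fun u v e => Units.ext (RingOfIntegers.ext (Subtype.ext e))
  let ι : f.ker →+ Additive (𝓞 (fix H'))ˣ := AddMonoidHom.mk' (fun e => Additive.ofMul (j e))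
    fun a b => congrArg Additive.ofMul (ui ((hj _).trans ((ca a b).trans (by
      rw [← hj a, ← hj b]; simp))))
  have := numberField_fix hH'
  have hP := I2_perm (sE := sE) hπ ι (fun a b e => Subtype.ext (ci (by
    rw [← hj a, ← hj b, show j a = j b from Additive.ofMul.injective e]))) (by
      have : AddGroup.FG (Additive (𝓞 (fix H'))ˣ) := Module.Finite.iff_addGroup_fg.1 inferInstance
      refine AddSubgroup.finiteIndex_iff_finite_quotient.2
        (AddCommGroup.finite_of_fg_isAddTorsion _ fun q => ?_)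
      induction q using QuotientAddGroup.induction_on with | _ u =>
      obtain ⟨k, k0, hk⟩ := I2_unit hH' hm M u.toMul
      obtain ⟨a, ha⟩ := cM _ hk
      have ka : a ∈ f.ker := Subtype.ext (by
        rw [hf, ha]
        funext P
        simp only [dv, val_unit]
        simp)
      refine isOfFinAddOrder_iff_nsmul_eq_zero.2 ⟨k, Nat.pos_of_ne_zero k0, ?_⟩
      rw [← QuotientAddGroup.mk_nsmul, QuotientAddGroup.eq_zero_iff]
      exact ⟨⟨a, ka⟩, congrArg Additive.ofMul (ui ((hj _).trans ha))⟩)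
    fun e => Additive.toMul.injective (ui (((hj _).trans (by rw [hE, cs, ← hj e])).trans
      (hU (j e)).symm))
  obtain ⟨q0, q1⟩ := hu_herb n0 (AddMonoidHom.ext fun e => Subtype.ext
    ((ep n e).trans (by rw [sn]; rfl))) hP
  have key := i2_abs s sI n n0 sn (AddMonoidHom.ext fun d => Subtype.ext
    ((ip n d).trans (I2_act_fix hσn d.2))) f fs (fun a h => by
      obtain ⟨b, hb⟩ := c90 a (by rw [← cn, h, c0])
      exact ⟨b, eq_sub_of_add_eq (ci (by rw [ca, hb, cs]))⟩) (fun d h => by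
      obtain ⟨d', h1, h2⟩ := I2_h1 hg n0 hσn d.2 (by rw [← iN, h]; rfl)
      exact ⟨⟨d', h1⟩, Subtype.ext (by rw [AddSubgroup.coe_sub, hI]; exact h2)⟩) (by
      have : ((dvRay H' m M).addSubgroupOf (Div H' m)).FiniteIndex := ⟨ray_fin hH' hm hu M⟩
      refine AddSubgroup.finiteIndex_of_le (H := (dvRay H' m M).addSubgroupOf (Div H' m))
        fun d hd => ?_
      obtain ⟨x, hx, e⟩ := (mem_dvRay hu M0).1 hd
      obtain ⟨a, rfl⟩ := cM x hx
      exact ⟨a, Subtype.ext ((hf a).trans e.symm)⟩) sE hE q0 q1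
  simp only at key
  rw [← AddSubgroup.relIndex_map_map_of_injective _ _ (Div H' m).subtype_injective] at key
  have eK : (AddMonoidHom.ker ((sI - 1 : AddMonoid.End (Div H' m)) : Div H' m →+ Div H' m)).map
      (Div H' m).subtype = Div H m := by
    ext d
    constructor
    · rintro ⟨d, hd, rfl⟩
      have h1 : act σ d = d := (hI d).symm.trans (congrArg Subtype.val (sub_eq_zero.1 hd))
      have h2 : ∀ i : ℕ, act (σ ^ i) d = (d : Pr → ℤ) := fun i => by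
        induction i with
        | zero => funext P; simp [act]
        | succ i ih => rw [pow_succ, I2_act_mul, h1, ih]
      refine ⟨fun g hg P => ?_, d.2.2⟩
      obtain ⟨i, hi⟩ := hgen g hg
      have := d.2.1 _ hi P
      rw [mul_smul] at this
      exact (congrFun (h2 i) _).symm.trans this
    · intro hd
      exact ⟨⟨d, Div.mono hle dvd_rfl hd⟩, sub_eq_zero.2 (Subtype.ext
        ((hI _).trans (I2_act_fix hσ hd))), rfl⟩
  rw [eK] at key
  refine ⟨M, M0, ?_⟩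
  have r0 : (dvRay H m M ⊔ S).relIndex (Div H m) ≠ 0 := ne_zero_of_dvd_ne_zero
    (ray_fin hH hm (hu.mono hle dvd_rfl) M) (AddSubgroup.relIndex_dvd_of_le_left _ le_sup_left)
  refine (key.resolve_left (ne_zero_of_dvd_ne_zero r0 ?_)).trans
    (Nat.le_of_dvd (Nat.pos_of_ne_zero r0) ?_) <;>
  · refine AddSubgroup.relIndex_dvd_of_le_left _ (sup_le ((AddSubgroup.closure_le _).2 ?_)
      (hS _ fun d hd => ⟨_, AddSubgroup.mem_sup_left ⟨⟨d, hd⟩, rfl⟩, ?_⟩))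
    · rintro _ ⟨x, hx, rfl⟩
      obtain ⟨a, rfl⟩ := cM x ⟨mem_fix.2 fun g hg => mem_fix.1 hx.1 g (hle hg), hx.2⟩
      exact ⟨f a, AddSubgroup.mem_sup_right ⟨a, sub_eq_zero.2 (ci ((cs a).trans
        (mem_fix.1 hx.1 σ hσ))), rfl⟩, hf a⟩
    · exact (iN n _).trans (nmD_cyc hH' hle hσ hn hgen hd).symm

theorem norm_index_ge {A : Type} [AddCommGroup A] [TopologicalSpace A] [DiscreteTopology A]
    {H : Subgroup Ga} (hH : Op H) (h4 : H ≤ Gmu 4) {θ : Ga → A} (hθ : IsX H θ) {σ : Ga} (hσ : σ ∈ H)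
    (hgen : ∀ g ∈ H, θ g ∈ AddSubgroup.zmultiples (θ σ)) {m : ℕ} (hm : m ≠ 0)
    (hu : UnrOut (kerX H θ) m) :
    ∃ M : ℕ, M ≠ 0 ∧ addOrderOf (θ σ) ≤ (dvRay H m M ⊔ Nsub H m θ).relIndex (Div H m) := by
  by_cases h0 : addOrderOf (θ σ) = 0
  · exact ⟨1, one_ne_zero, h0.trans_le (Nat.zero_le _)⟩
  have hH' := hθ.op_kerX hH
  have hle : kerX H θ ≤ H := fun g hg => (hθ.mem_kerX.1 hg).1
  refine I2_core hH hH' hle h4 (fun h hh a ha => ?_) hσ (fun j => ?_) (fun g hg => ?_) hm hu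
    fun T hT => (AddSubgroup.closure_le _).2 ?_
  · have := hθ.conj_self (H.inv_mem hh) (hle ha)
    rw [inv_inv] at this
    exact hθ.mem_kerX.2 ⟨H.mul_mem (H.mul_mem hh (hle ha)) (H.inv_mem hh),
      this.trans (hθ.mem_kerX.1 ha).2⟩
  · rw [hθ.mem_kerX, hθ.pow hσ, addOrderOf_dvd_iff_nsmul_eq_zero]
    exact and_iff_right (H.pow_mem hσ j)
  · obtain ⟨j, hj⟩ := (addOrderOf_ne_zero_iff.1 h0).mem_multiples_iff_mem_zmultiples.2 (hgen g hg)
    have hp := H.pow_mem hσ j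
    refine ⟨j, hθ.mem_kerX.2 ⟨H.mul_mem (H.inv_mem hp) hg, ?_⟩⟩
    rw [hθ.2 _ (H.inv_mem hp) _ hg, hθ.inv hp, hθ.pow hσ, ← hj]
    exact neg_add_cancel _
  · rintro _ ⟨P, c, hP, hc, rfl⟩
    obtain ⟨k, -, e, hk⟩ := nmD_ind hH' hle (hu P hP)
    have hF := (frob_spec hH P).1
    obtain ⟨c', rfl⟩ : (k : ℤ) ∣ c := Int.natCast_dvd.2 ((hk _).1 (hθ.mem_kerX.2
      ⟨H.pow_mem hF _, by rw [hθ.pow hF]; exact natAbs_nsmul_eq_zero.2 hc⟩))
    have := T.zsmul_mem (hT _ (ind_mem _ hP)) c'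
    rwa [e, smul_smul, mul_comm] at this

end Vale.Agent.P024U
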