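import Mathlib

/-! Elementary lemmas.
`lang_prime`: with `x = a^(t^(k-1))`, `Φ = 1 + x + ... + x^(t-1) > t`; if `t ∣ Φ` then `x ≡ 1 mod t` and `Φ ≡ t mod t^2`, so
`Φ` has a prime factor `l ≠ t`; `x ≢ 1 mod l`, so the order of `a` mod `l` is `t^k`; `t^k ∣ l - 1` makes `l` large.
`fin_grp`: pass to `G / J`; `A = ⟨x⟩` is normal, `G / A` is generated by `y`, of order `n0`.  `y^n0 ∈ A` commutes with `x`, so
`q^n0 ≡ 1 mod ord x`, `q ≢ 1`, `q ≡ 1 mod r` gives `r ∣ n0`, whence `g`.  `y^n0 = x^s` commutes with `y`, so `r ∣ s`; in the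
abelian group `G/⟨x^r⟩` the subgroups generated by `x` and `y` meet trivially, whence `f` (define it on `x^i y^j` as `i`).
`koenig`: `S n` = image of `B (n+1) ... ` see the statement: `s_m = |B (m+1)| / |ker| `; the images
`T m ⊆ B 1` of `B (m+1)` under the reductions decrease, `|B (m+1)| ≤ |B m| * |T m|`, the stable image `T` has at least
`t^ρ` elements, every element of `T` lifts to a compatible sequence (finite sets), and lifts of an independent family of
the `ZMod t`-space `T` are independent over `ℤ_[t]` (divide a relation by the coefficient of largest norm). -/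

namespace Vale.Agent.P024U

theorem lang_factor (x t : ℕ) (hx : 2 ≤ x) (ht : t.Prime) (h2 : t ≠ 2) :
    ∃ l : ℕ, l.Prime ∧ l ≠ t ∧ l ∣ ∑ i ∈ Finset.range t, x ^ i := by
  have h3 : 3 ≤ t := by have := ht.two_le; omega
  have hbig : t < ∑ i ∈ Finset.range t, x ^ i := by
    have h1 : ∑ i ∈ Finset.range t, (i + 1) ≤ ∑ i ∈ Finset.range t, x ^ i :=
      Finset.sum_le_sum fun i _ => Nat.lt_pow_self (by omega)
    have h4 := Finset.sum_range_id_mul_two t
    rw [Finset.sum_add_distrib, Finset.sum_const, Finset.card_range, smul_eq_mul, mul_one] at h1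
    have h5 : 3 * 2 ≤ t * (t - 1) := Nat.mul_le_mul h3 (by omega)
    omega
  by_contra hc
  push Not at hc
  have hpow := Nat.eq_prime_pow_of_unique_prime_dvd (p := t) (by omega :
    ∑ i ∈ Finset.range t, x ^ i ≠ 0) fun {l} hl hd => by
      by_contra h
      exact hc l hl h hd
  generalize (∑ i ∈ Finset.range t, x ^ i).primeFactorsList.length = m at hpow
  have hm : 2 ≤ m := by
    rw [hpow] at hbig
    by_contra h
    have : m = 0 ∨ m = 1 := by omega
    rcases this with rfl | rfl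
    · rw [pow_zero] at hbig; omega
    · rw [pow_one] at hbig; omega
  have hsq : (t : ℤ) ^ 2 ∣ ∑ i ∈ Finset.range t, (x : ℤ) ^ i := by
    have : t ^ 2 ∣ ∑ i ∈ Finset.range t, x ^ i := hpow ▸ pow_dvd_pow t hm
    exact_mod_cast this
  have := Fact.mk ht
  have hx1 : (t : ℤ) ∣ (x : ℤ) - 1 := by
    have h6 : (t : ℤ) ∣ (x : ℤ) ^ t - 1 := by
      rw [← geom_sum_mul]
      exact ((dvd_pow_self _ two_ne_zero).trans hsq).mul_right _
    rw [← ZMod.intCast_zmod_eq_zero_iff_dvd] at h6 ⊢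
    push_cast at h6 ⊢
    rwa [ZMod.pow_card] at h6
  obtain ⟨b, hb⟩ := hx1
  have h7 := odd_sq_dvd_geom_sum₂_sub (1 : ℤ) b (ht.odd_of_ne_two h2)
  simp only [one_pow, mul_one, ← hb, add_sub_cancel] at h7
  have h8 : (t : ℤ) ^ 2 ∣ t := (dvd_iff_dvd_of_dvd_sub h7).1 hsq
  have h9 : t ^ 2 ∣ t := by exact_mod_cast h8
  have h10 := Nat.le_of_dvd ht.pos h9
  nlinarith

theorem lang_prime (a t : ℕ) (ha : 2 ≤ a) (ht : t.Prime) (h2 : t ≠ 2) (n B : ℕ) :
    ∃ l k : ℕ, l.Prime ∧ B < l ∧ n ≤ k ∧ orderOf (a : ZMod l) = t ^ k := by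
  have hx : 2 ≤ a ^ t ^ (n + B) := ha.trans (Nat.le_self_pow (pow_pos ht.pos _).ne' a)
  obtain ⟨l, hl, hlt, hd⟩ := lang_factor _ t hx ht h2
  have := Fact.mk hl
  have := Fact.mk ht
  have h0 : ∑ i ∈ Finset.range t, ((a : ZMod l) ^ t ^ (n + B)) ^ i = 0 := by
    have := (ZMod.natCast_eq_zero_iff _ l).2 hd
    exact_mod_cast this
  have h1 : (a : ZMod l) ^ t ^ (n + B + 1) = 1 := by
    rw [pow_succ, pow_mul, ← sub_eq_zero, ← geom_sum_mul, h0, zero_mul]
  have h3 : ¬ (a : ZMod l) ^ t ^ (n + B) = 1 := fun h => by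
    simp only [h, one_pow, Finset.sum_const, Finset.card_range, nsmul_eq_mul, mul_one] at h0
    exact hlt ((Nat.prime_dvd_prime_iff_eq hl ht).1 ((ZMod.natCast_eq_zero_iff _ l).1 h0))
  have ho := orderOf_eq_prime_pow h3 h1
  refine ⟨l, n + B + 1, hl, ?_, by omega, ho⟩
  have ha0 : (a : ZMod l) ≠ 0 := fun h => by
    rw [h, zero_pow (pow_pos ht.pos _).ne'] at h1
    exact zero_ne_one h1
  have h4 := Nat.le_of_dvd (by have := hl.two_le; omega) (ZMod.orderOf_dvd_card_sub_one ha0)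
  have h5 : n + B + 1 < t ^ (n + B + 1) := Nat.lt_pow_self ht.one_lt
  omega

theorem lang_comm {G : Type*} [Group G] {x y : G} {q : ℕ} (hxy : y * x * y⁻¹ = x ^ q)
    (i j : ℕ) : y ^ j * x ^ i = x ^ (i * q ^ j) * y ^ j := by
  induction j with
  | zero => simp
  | succ j ih =>
    have h1 : y * x ^ (i * q ^ j) * y⁻¹ = x ^ (i * q ^ (j + 1)) := by
      rw [← conj_pow, hxy, ← pow_mul]
      congr 1
      ring
    rw [pow_succ' y, mul_assoc, ih, ← h1]
    group

theorem lang_key {G : Type*} [Group G] {r : ℕ} (hr : r.Prime) {x y : G} {q N : ℕ}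
    (hq : q % r = 1) (hx : x ^ r ^ N = 1) (hxy : y * x * y⁻¹ = x ^ q) (hne : x ^ (q - 1) ≠ 1)
    {d : ℕ} {s : ℤ} (h : y ^ d = x ^ s) : (s : ZMod r) = 0 ∧ (d : ZMod r) = 0 := by
  obtain ⟨e, -, he⟩ := (Nat.dvd_prime_pow hr).1 (orderOf_dvd_of_pow_eq_one hx)
  have hq1 : 1 ≤ q := by
    rcases Nat.eq_zero_or_pos q with rfl | h
    · simp at hq
    · exact h
  have hdv : ∀ u : ℤ, x ^ (u * ((q : ℤ) - 1)) = 1 → (u : ZMod r) = 0 := by
    intro u hu
    rw [ZMod.intCast_zmod_eq_zero_iff_dvd]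
    by_contra hc
    rw [← orderOf_dvd_iff_zpow_eq_one, he, Nat.cast_pow] at hu
    have h1 := (Nat.prime_iff_prime_int.1 hr).pow_dvd_of_dvd_mul_left e hc hu
    rw [← Nat.cast_pow, ← he, orderOf_dvd_iff_zpow_eq_one, ← Nat.cast_pred hq1,
      zpow_natCast] at h1
    exact hne h1
  constructor
  · refine hdv s ?_
    have h1 : y * x ^ s * y⁻¹ = x ^ s := by rw [← h]; group
    rw [← conj_zpow, hxy, ← zpow_natCast, ← zpow_mul] at h1
    rw [mul_sub, mul_one, zpow_sub, mul_comm s, h1, mul_inv_cancel]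
  · have h1 := lang_comm hxy 1 d
    have h2 : x ^ s * x = x * x ^ s := by group
    rw [pow_one, one_mul, h, h2, mul_left_inj] at h1
    have h3 := hdv (∑ i ∈ Finset.range d, (q : ℤ) ^ i) (by
      rw [geom_sum_mul, zpow_sub, zpow_one, ← Nat.cast_pow, zpow_natCast, ← h1, mul_inv_cancel])
    have h4 : (q : ZMod r) = 1 := by rw [← ZMod.natCast_mod, hq, Nat.cast_one]
    simpa [h4] using h3

theorem lang_grp {G : Type*} [Group G] {r : ℕ} (hr : r.Prime) {x y : G} {q N : ℕ}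
    (hq : q % r = 1) (hgen : ∀ g : G, ∃ i j : ℕ, g = x ^ i * y ^ j) (hx : x ^ r ^ N = 1)
    (hxy : y * x * y⁻¹ = x ^ q) (hne : x ^ (q - 1) ≠ 1) :
    ∃ f g : G →* Multiplicative (ZMod r), f x ≠ 1 ∧ g x = 1 ∧ g y ≠ 1 := by
  have key0 : ∀ i j i' d : ℕ, x ^ i * y ^ j = x ^ i' * y ^ (d + j) →
      (i : ZMod r) = i' ∧ (j : ZMod r) = (d + j : ℕ) := by
    intro i j i' d h
    rw [pow_add, ← mul_assoc, mul_left_inj] at h
    have h1 : y ^ d = x ^ ((i : ℤ) - i') := by
      rw [sub_eq_neg_add, zpow_add, zpow_neg, zpow_natCast, zpow_natCast, h, inv_mul_cancel_left]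
    obtain ⟨h2, h3⟩ := lang_key hr hq hx hxy hne h1
    push_cast at h2 ⊢
    exact ⟨sub_eq_zero.1 h2, by rw [h3, zero_add]⟩
  have key : ∀ i j i' j' : ℕ, x ^ i * y ^ j = x ^ i' * y ^ j' →
      (i : ZMod r) = i' ∧ (j : ZMod r) = j' := by
    intro i j i' j' h
    rcases le_total j j' with hj | hj
    · obtain ⟨d, rfl⟩ := Nat.exists_eq_add_of_le' hj
      exact key0 i j i' d h
    · obtain ⟨d, rfl⟩ := Nat.exists_eq_add_of_le' hj
      exact ⟨(key0 i' j' i d h.symm).1.symm, (key0 i' j' i d h.symm).2.symm⟩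
  choose I J hIJ using hgen
  have h4 : (q : ZMod r) = 1 := by rw [← ZMod.natCast_mod, hq, Nat.cast_one]
  have hmul : ∀ a b : G, (I (a * b) : ZMod r) = I a + I b ∧ (J (a * b) : ZMod r) = J a + J b := by
    intro a b
    have h1 : x ^ I (a * b) * y ^ J (a * b) = x ^ (I a + I b * q ^ J a) * y ^ (J a + J b) := by
      rw [← hIJ, pow_add, pow_add, mul_assoc, ← mul_assoc (x ^ (I b * q ^ J a)),
        ← lang_comm hxy, ← mul_assoc, ← mul_assoc, ← hIJ, mul_assoc, ← hIJ]
    simpa [h4] using key _ _ _ _ h1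
  have hx1 := key (I x) (J x) 1 0 (by rw [← hIJ]; simp)
  have hy1 := key (I y) (J y) 0 1 (by rw [← hIJ]; simp)
  have := Fact.mk hr
  refine ⟨MonoidHom.mk' (fun a => Multiplicative.ofAdd (I a : ZMod r)) fun a b => by
      rw [(hmul a b).1, ofAdd_add],
    MonoidHom.mk' (fun a => Multiplicative.ofAdd (J a : ZMod r)) fun a b => by
      rw [(hmul a b).2, ofAdd_add], ?_, ?_, ?_⟩
  · simp [hx1.1]
  · simp [hx1.2]
  · simp [hy1.2]

theorem fin_grp {G : Type*} [Group G] [Finite G] (r : ℕ) (hr : r.Prime) (J : Subgroup G) [J.Normal]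
    (x y : G) (q N : ℕ) (hq : q % r = 1)
    (hgen : ∀ g : G, ∃ (i j : ℕ), ∃ ρ ∈ J, g = ρ * x ^ i * y ^ j)
    (hx : x ^ r ^ N ∈ J) (hxy : y * x * y⁻¹ * (x ^ q)⁻¹ ∈ J) (hne : x ^ (q - 1) ∉ J) :
    ∃ f g : G →* Multiplicative (ZMod r), f x ≠ 1 ∧ g x = 1 ∧ g y ≠ 1 := by
  have h1 : ∀ z : G, z ∈ J ↔ QuotientGroup.mk' J z = 1 := fun z =>
    (QuotientGroup.eq_one_iff z).symm
  simp only [h1, map_pow, map_mul, map_inv, mul_inv_eq_one] at hx hxy hne
  obtain ⟨f, g, h⟩ := lang_grp hr hq (fun z => by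
    obtain ⟨z, rfl⟩ := QuotientGroup.mk'_surjective J z
    obtain ⟨i, j, ρ, hρ, rfl⟩ := hgen z
    exact ⟨i, j, by rw [map_mul, map_mul, (h1 ρ).1 hρ, one_mul, map_pow, map_pow]⟩) hx hxy hne
  exact ⟨f.comp (QuotientGroup.mk' J), g.comp (QuotientGroup.mk' J), h⟩

theorem lang_cont (t : ℕ) [Fact t.Prime] (n : ℕ) :
    Continuous (PadicInt.toZModPow n : ℤ_[t] → ZMod (t ^ n)) := by
  refine continuous_iff_continuousAt.2 fun x =>
    (continuousAt_const (y := PadicInt.toZModPow n x)).congr ?_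
  have h : (0 : ℝ) < (t : ℝ) ^ (-n : ℤ) :=
    zpow_pos (Nat.cast_pos.2 (Fact.out : t.Prime).pos) _
  filter_upwards [Metric.closedBall_mem_nhds x h] with y hy
  rw [mem_closedBall_iff_norm', PadicInt.norm_le_pow_iff_mem_span_pow, ← PadicInt.ker_toZModPow,
    RingHom.mem_ker, map_sub, sub_eq_zero] at hy
  exact hy

theorem lang_grow {τ c D n1 : ℕ} (hc : c < τ) {b : ℕ → ℕ} (hb : ∀ k, b (n1 + k) ≤ D * c ^ k)
    (hbig : ∀ n0, ∃ n, n0 ≤ n ∧ τ ^ n ≤ b n) : False := by
  have hτ : (0 : ℝ) < τ := Nat.cast_pos.2 (by omega)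
  have h1 := (tendsto_pow_atTop_nhds_zero_of_lt_one (r := (c : ℝ) / τ) (by positivity)
    ((div_lt_one hτ).2 (Nat.cast_lt.2 hc))).const_mul (D : ℝ)
  rw [mul_zero] at h1
  obtain ⟨k0, hk0⟩ := Filter.eventually_atTop.1 (h1.eventually (gt_mem_nhds zero_lt_one))
  obtain ⟨n, hn, h2⟩ := hbig (n1 + k0)
  obtain ⟨k, rfl⟩ := Nat.exists_eq_add_of_le ((Nat.le_add_right n1 k0).trans hn)
  have h3 := hk0 k (by omega)
  rw [div_pow, ← mul_div_assoc, div_lt_one (pow_pos hτ k)] at h3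
  have h4 : D * c ^ k < τ ^ k := by exact_mod_cast h3
  have h5 : τ ^ k ≤ τ ^ (n1 + k) := Nat.pow_le_pow_right (by omega) (by omega)
  have h6 := hb k
  omega

/-- reduction modulo `t` -/
def langR (X : Type*) (t n : ℕ) : (X → ZMod (t ^ (n + 1))) →+ (X → ZMod (t ^ 1)) where
  toFun f x := ZMod.castHom (pow_dvd_pow t (Nat.le_add_left 1 n)) (ZMod (t ^ 1)) (f x)
  map_zero' := funext fun _ => map_zero _
  map_add' _ _ := funext fun _ => map_add _ _ _

/-- `B n` is a set of functions modulo `t^n`; a growth condition produces independent `t`-adic functions -/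
theorem koenig {X : Type*} (t : ℕ) [Fact t.Prime] (B : (n : ℕ) → AddSubgroup (X → ZMod (t ^ n)))
    (hred : ∀ n, ∀ f ∈ B (n + 1),
      (fun x => ZMod.castHom (pow_dvd_pow t n.le_succ) (ZMod (t ^ n)) (f x)) ∈ B n)
    (hdiv : ∀ n, ∀ f ∈ B (n + 1), (∀ x, ((t : ZMod (t ^ (n + 1)))) ∣ f x) →
      ∃ g ∈ B n, ∀ x, f x = (t : ZMod (t ^ (n + 1))) * ((g x).val : ZMod (t ^ (n + 1))))
    (hfin : Finite (B 1)) (ρ v : ℕ)
    (hbig : ∀ n0, ∃ n, n0 ≤ n ∧ t ^ (n * ρ) ≤ Nat.card (B n) * t ^ v) :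
    ∃ θ : Fin ρ → X → ℤ_[t], (∀ i n, (fun x => PadicInt.toZModPow n (θ i x)) ∈ B n) ∧
      ∀ c : Fin ρ → ℚ_[t], (∀ x, ∑ i, c i * (θ i x : ℚ_[t]) = 0) → ∀ i, c i = 0 := by
  have ht : t.Prime := Fact.out
  let T : ℕ → AddSubgroup (X → ZMod (t ^ 1)) := fun n => (B (n + 1)).map (langR X t n)
  have hanti : Antitone T := antitone_nat_of_succ_le fun n => by
    rintro _ ⟨f, hf, rfl⟩
    refine ⟨_, hred _ f hf, funext fun x => ?_⟩
    exact RingHom.congr_fun (ZMod.castHom_comp _ _) (f x)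
  have hT0 : T 0 ≤ B 1 := by
    rintro _ ⟨f, hf, rfl⟩
    have : langR X t 0 f = f := funext fun x => RingHom.congr_fun (ZMod.castHom_self) (f x)
    rwa [this]
  have hTf : ∀ n, Finite (T n) := fun n =>
    Finite.of_injective _ (AddSubgroup.inclusion_injective ((hanti n.zero_le).trans hT0))
  have hstep : ∀ n, Finite (B n) → Finite (B (n + 1)) ∧
      Nat.card (B (n + 1)) ≤ Nat.card (B n) * Nat.card (T n) := by
    intro n hn
    let r := (langR X t n).comp (B (n + 1)).subtype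
    have hr : r.range = T n := by
      rw [AddMonoidHom.range_comp, AddSubgroup.range_subtype]
    have hk : ∀ f : r.ker, ∃ g ∈ B n, ∀ x, f.1.1 x =
        (t : ZMod (t ^ (n + 1))) * ((g x).val : ZMod (t ^ (n + 1))) := fun f => by
      refine hdiv n _ f.1.2 fun x => ?_
      have h1 : ZMod.castHom (pow_dvd_pow t (Nat.le_add_left 1 n)) (ZMod (t ^ 1)) (f.1.1 x) = 0 :=
        congrFun f.2 x
      obtain ⟨k, hk⟩ := ZMod.intCast_surjective (f.1.1 x)
      rw [← hk, map_intCast, ZMod.intCast_zmod_eq_zero_iff_dvd, pow_one] at h1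
      obtain ⟨j, rfl⟩ := h1
      rw [← hk]
      push_cast
      exact dvd_mul_right _ _
    choose g hg hfg using hk
    have hinj : Function.Injective fun f : r.ker => (⟨g f, hg f⟩ : B n) := fun f f' h => by
      have h1 : g f = g f' := congrArg Subtype.val h
      exact Subtype.ext (Subtype.ext (funext fun x => by rw [hfg f, hfg f', h1]))
    refine ⟨r.finite_iff_finite_ker_range.2 ⟨Finite.of_injective _ hinj, hr ▸ hTf n⟩, ?_⟩
    rw [← r.ker.card_mul_index, AddSubgroup.index_ker, hr]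
    exact Nat.mul_le_mul_right _ (Nat.card_le_card_of_injective _ hinj)
  have hsub : Subsingleton (ZMod (t ^ 0)) := ZMod.subsingleton_iff.2 (pow_zero t)
  have hBf : ∀ n, Finite (B n) := fun n => by
    induction n with
    | zero => infer_instance
    | succ n ih => exact (hstep n ih).1
  obtain ⟨n1, hn1⟩ : ∃ n1, ∀ n, Nat.card (T n1) ≤ Nat.card (T n) :=
    ⟨Function.argmin (fun n => Nat.card (T n)), 
      fun n => Function.argmin_le (fun n => Nat.card (T n)) n⟩
  have hst : ∀ n, T n1 ≤ T n := fun n => by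
    rcases le_total n n1 with h | h
    · exact hanti h
    · exact (AddSubgroup.eq_of_le_of_card_ge (hanti h) (hn1 n)).ge
  have hcard : t ^ ρ ≤ Nat.card (T n1) := by
    by_contra hc
    refine lang_grow (not_le.1 hc) (D := Nat.card (B n1) * t ^ v) (n1 := n1)
      (b := fun n => Nat.card (B n) * t ^ v) (fun k => ?_) fun n0 => ?_
    · have h1 : Nat.card (B (n1 + k)) ≤ Nat.card (B n1) * Nat.card (T n1) ^ k := by
        induction k with
        | zero => simp
        | succ k ih =>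
          refine (hstep _ (hBf _)).2.trans ?_
          rw [pow_succ _ k, ← mul_assoc]
          exact Nat.mul_le_mul ih (AddSubgroup.card_le_of_le (hanti (n1.le_add_right k)))
      rw [mul_right_comm]
      exact Nat.mul_le_mul_right _ h1
    · obtain ⟨n, h1, h2⟩ := hbig n0
      exact ⟨n, h1, by rwa [← pow_mul, mul_comm ρ]⟩
  have := Fact.mk (show (t ^ 1).Prime by rwa [pow_one])
  let S := AddSubgroup.toZModSubmodule (t ^ 1) (T n1)
  have hSf : Finite S := hTf n1
  have hrank : ρ ≤ Module.finrank (ZMod (t ^ 1)) S := by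
    have h1 : Nat.card (T n1) = _ := Module.natCard_eq_pow_finrank (K := ZMod (t ^ 1)) (V := S)
    rw [h1, Nat.card_zmod, ← pow_mul, one_mul] at hcard
    exact (Nat.pow_le_pow_iff_right ht.one_lt).1 hcard
  obtain ⟨e, he⟩ := exists_linearIndependent_of_le_finrank hrank
  have hlift : ∀ u ∈ T n1, ∃ θ : X → ℤ_[t], (∀ n, (fun x => PadicInt.toZModPow n (θ x)) ∈ B n) ∧
      ∀ x, PadicInt.toZModPow 1 (θ x) = u x := by
    intro u hu
    have hcl : ∀ n, IsClosed {θ : X → ℤ_[t] | (fun x => PadicInt.toZModPow (n + 1) (θ x)) ∈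
        B (n + 1) ∧ (fun x => PadicInt.toZModPow 1 (θ x)) = u} := fun n => by
      have hc : ∀ m, Continuous fun (θ : X → ℤ_[t]) x => PadicInt.toZModPow m (θ x) := fun m =>
        continuous_pi fun x => (lang_cont t m).comp (continuous_apply x)
      have hf : (B (n + 1) : Set (X → ZMod (t ^ (n + 1)))).Finite := hBf (n + 1)
      exact (hf.isClosed.preimage (hc _)).inter (isClosed_eq (hc 1) continuous_const)
    obtain ⟨θ, hθ⟩ := IsCompact.nonempty_iInter_of_sequence_nonempty_isCompact_isClosed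
      (fun n => {θ : X → ℤ_[t] | (fun x => PadicInt.toZModPow (n + 1) (θ x)) ∈
        B (n + 1) ∧ (fun x => PadicInt.toZModPow 1 (θ x)) = u})
      (fun n θ hθ => ⟨by
        have h1 := hred _ _ hθ.1
        simpa only [ZMod.castHom_apply, PadicInt.cast_toZModPow _ _ (Nat.le_succ _)] using h1,
        hθ.2⟩) (fun n => by
        obtain ⟨f, hf, hfu⟩ := hst n hu
        choose θ hθ using fun x => ZMod.ringHom_surjective (PadicInt.toZModPow (n + 1)) (f x)
        refine ⟨θ, (funext hθ).symm ▸ hf, funext fun x => ?_⟩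
        rw [← hfu, ← PadicInt.zmod_cast_comp_toZModPow 1 (n + 1) (Nat.le_add_left 1 n),
          RingHom.comp_apply, hθ]
        rfl) (hcl 0).isCompact hcl
    rw [Set.mem_iInter] at hθ
    refine ⟨θ, fun n => ?_, congrFun (hθ 0).2⟩
    cases n with
    | zero =>
      rw [Subsingleton.elim (fun x => PadicInt.toZModPow 0 (θ x)) 0]
      exact (B 0).zero_mem
    | succ n => exact (hθ n).1
  choose θ hθ1 hθ2 using fun i => hlift (e i).1 (e i).2
  refine ⟨θ, hθ1, fun c hc i => ?_⟩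
  by_contra hi
  obtain ⟨i0, -, hi0⟩ := Finset.exists_max_image Finset.univ (fun i => ‖c i‖)
    ⟨i, Finset.mem_univ i⟩
  have h0 : 0 < ‖c i0‖ := (norm_pos_iff.2 hi).trans_le (hi0 i (Finset.mem_univ i))
  let d : Fin ρ → ℤ_[t] := fun j => ⟨c j / c i0, by
    rw [norm_div]
    exact (div_le_one h0).2 (hi0 j (Finset.mem_univ j))⟩
  have hd0 : d i0 = 1 := Subtype.ext (div_self (norm_pos_iff.1 h0))
  have hd : ∀ x, ∑ j, d j * θ j x = 0 := fun x => by
    refine Subtype.ext ?_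
    have h1 : ((∑ j, d j * θ j x : ℤ_[t]) : ℚ_[t]) = (∑ j, c j * (θ j x : ℚ_[t])) / c i0 := by
      rw [PadicInt.coe_sum, Finset.sum_div]
      refine Finset.sum_congr rfl fun j _ => ?_
      rw [PadicInt.coe_mul, div_mul_eq_mul_div]
    rw [h1, hc x, zero_div, PadicInt.coe_zero]
  have h2 := Fintype.linearIndependent_iff.1 he (fun j => PadicInt.toZModPow 1 (d j)) (by
    refine Subtype.ext (funext fun x => ?_)
    have h3 := congrArg (PadicInt.toZModPow 1) (hd x)
    simp only [map_sum, map_mul, hθ2, map_zero] at h3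
    simpa using h3) i0
  rw [hd0, map_one] at h2
  exact one_ne_zero h2

end Vale.Agent.P024U
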