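import Vale.Agent.P024U.ArtE
import Vale.Agent.P024U.Lang
import Vale.Agent.P024U.I2

/-! Artin reciprocity for cyclic characters of odd prime power order.
`art_aux`: `a = ch P ^ deg H P`.  `lang_prime` twice: primes `l1 ≠ l2 > B` with orders `t^k1`, `t^k2`, `n ≤ k1 ≤ k2`; `k = l1 l2`.
`art_pair`: for `P`, `P'` take `k = l1 l2`, `k' = l1' l2'` (four different large primes).  By `ine_cyc` modify `σ` by inertia elements at these primes (they lie in `kerX`) to `σ1` with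
`θ σ1 = θ σ`, acting on `l1`-th roots of unity as `a`, on `l1'`-th roots as `a'`, trivially on `l2`-th and `l2'`-th roots.  `cheb` for `W` = normal core of
`kerX ⊓ Gmu (k k')` gives `P0`, `φ0` of degree one with `⟨φ0⟩ W = ⟨σ1⟩ W`.  `E = (kerX ⊓ Gmu k) ⊔ ⟨φ, σ1⟩`: if `φ^i σ1^j` acts trivially on `k`-th roots of unity then `t^k2 ∣ i`, then `t^k1 ∣ j`,
so `θ = 0`.  `θ φ = b • θ φ0`; `art_desc` gives `ind P ≡ b ind P0`, likewise for `P'`, and `c • ind P0 ∈ Nsub` when `c • θ φ0 = 0`.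
`art_ker`: fix `P'` with `θ (frob P')` a generator (`cheb`), `Div.induction`: `d ≡ c • ind P'` with `art d = c • θ (frob P')`.
`art_rec`: indices: `ker art ≤ B`, `[Div : ker] ≤ order ≤ [Div : B]` (`norm_index_ge`), so `B = ker`.  `θ H` is a subgroup of the cyclic group `ZMod (t^n)`. -/

namespace Vale.Agent.P024U

variable {t n : ℕ}

/-- `g` acts on the `l`-th roots of unity as the `c`-th power -/
def ArtLAct (l : ℕ) (g : Ga) (c : ℕ) : Prop := ∀ z : Om, z ^ l = 1 → g z = z ^ c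

theorem ArtLAct.mul {l c d : ℕ} {g h : Ga} (hg : ArtLAct l g c) (hh : ArtLAct l h d) :
    ArtLAct l (g * h) (c * d) := fun z hz => by
  rw [AlgEquiv.mul_apply, hh z hz, map_pow, hg z hz, ← pow_mul]

theorem ArtLAct.inv {l c d : ℕ} {g : Ga} (hg : ArtLAct l g c) (h : (c * d : ZMod l) = 1) :
    ArtLAct l g⁻¹ d := fun z hz => by
  apply g.injective
  have e : g (g⁻¹ z) = z := g.apply_symm_apply z
  rw [e, map_pow, hg z hz, ← pow_mul]
  have h1 : c * d ≡ 1 [MOD l] := by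
    rw [← ZMod.natCast_eq_natCast_iff]
    push_cast
    exact h
  have h2 : z ^ (c * d) = z ^ 1 := by
    rw [pow_eq_pow_mod _ hz, h1, ← pow_eq_pow_mod _ hz]
  rw [h2, pow_one]

theorem ArtL_prim (l : ℕ) (hl : l ≠ 0) : ∃ z : Om, IsPrimitiveRoot z l := by
  have : NeZero l := ⟨hl⟩
  exact HasEnoughRootsOfUnity.exists_primitiveRoot Om l

theorem ArtLAct.eq_one {l c : ℕ} (hl : l ≠ 0) {g : Ga} (hg : ArtLAct l g c) (h : g ∈ Gmu l) :
    (c : ZMod l) = 1 := by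
  obtain ⟨z, hz⟩ := ArtL_prim l hl
  have h1 : z ^ c = z ^ 1 := by rw [← hg z hz.pow_eq_one, h z hz.pow_eq_one, pow_one]
  have hu : IsUnit z := hz.isUnit hl
  obtain ⟨u, rfl⟩ := hu
  have hz' : IsPrimitiveRoot u l := IsPrimitiveRoot.coe_units_iff.1 hz
  have h2 : u ^ c = u ^ 1 := Units.ext (by simpa using h1)
  rw [pow_eq_pow_iff_modEq, ← hz'.eq_orderOf] at h2
  have := (ZMod.natCast_eq_natCast_iff _ _ _).2 h2
  simpa using this

theorem ArtLAct.of_mem {l : ℕ} {g : Ga} (h : g ∈ Gmu l) : ArtLAct l g 1 := fun z hz => by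
  rw [h z hz, pow_one]

theorem ArtL_exists_act {l : ℕ} (hl : l.Prime) (g : Ga) : ∃ c, ¬ l ∣ c ∧ ArtLAct l g c := by
  obtain ⟨z, hz⟩ := ArtL_prim l hl.ne_zero
  have : NeZero l := ⟨hl.ne_zero⟩
  have h1 : (g z) ^ l = 1 := by rw [← map_pow, hz.pow_eq_one, map_one]
  obtain ⟨c, -, hc⟩ := hz.eq_pow_of_pow_eq_one h1
  refine ⟨c, fun hd => ?_, fun w hw => ?_⟩
  · rw [(hz.pow_eq_one_iff_dvd c).2 hd] at hc
    have : z = 1 := g.injective (by rw [← hc, map_one])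
    exact hz.ne_one hl.one_lt this
  · obtain ⟨i, -, rfl⟩ := hz.eq_pow_of_pow_eq_one hw
    rw [map_pow, ← hc, ← pow_mul, ← pow_mul, mul_comm]

theorem ArtL_adjust {K : Subgroup Ga} {m : ℕ} (hu : UnrOut K m) {l : ℕ} (hl : l.Prime)
    (hlm : ¬ l ∣ m) (σ : Ga) {c : ℕ} (hc : ¬ l ∣ c) :
    ∃ ρ ∈ K, ArtLAct l (σ * ρ) c ∧ ∀ l', ¬ l ∣ l' → ρ ∈ Gmu l' := by
  obtain ⟨Q, rfl⟩ := exists_pr l hl
  obtain ⟨s, hs, hσ⟩ := ArtL_exists_act hl σ
  obtain ⟨ρ0, h0, h0'⟩ := ine_cyc Q s hs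
  obtain ⟨ρ1, h1, h1'⟩ := ine_cyc Q c hc
  have hm : ρ0⁻¹ * ρ1 ∈ Ine Q := (Ine Q).mul_mem ((Ine Q).inv_mem h0) h1
  refine ⟨ρ0⁻¹ * ρ1, hu Q hlm hm, fun z hz => ?_, fun l' hl' => Ine_le_Gmu hl' hm⟩
  have hz' : (ρ0⁻¹ z) ^ ch Q = 1 := by rw [← map_pow, hz, map_one]
  have e : σ (ρ0⁻¹ z) = z := by
    rw [hσ _ hz', ← h0' _ hz']
    exact ρ0.apply_symm_apply z
  rw [AlgEquiv.mul_apply, AlgEquiv.mul_apply, h1' z hz, map_pow, map_pow, e]

section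
variable {A : Type} [AddCommGroup A] [TopologicalSpace A] {H : Subgroup Ga} {θ : Ga → A}

/-- preimage of a subgroup under a character -/
def ArtLSub (hθ : IsX H θ) (S : AddSubgroup A) : Subgroup Ga where
  carrier := {g | g ∈ H ∧ θ g ∈ S}
  one_mem' := ⟨H.one_mem, by rw [hθ.one]; exact S.zero_mem⟩
  mul_mem' := fun {a b} ha hb => ⟨H.mul_mem ha.1 hb.1, by
    rw [hθ.2 a ha.1 b hb.1]; exact S.add_mem ha.2 hb.2⟩
  inv_mem' := fun {a} ha => ⟨H.inv_mem ha.1, by rw [hθ.inv ha.1]; exact S.neg_mem ha.2⟩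

theorem ArtL_ker_le (hθ : IsX H θ) : kerX H θ ≤ H := fun _ hg => (hθ.mem_kerX.1 hg).1

theorem ArtL_cheb (hH : Op H) (hθ : IsX H θ) {K : Subgroup Ga} (hK : Op K) (hle : K ≤ kerX H θ)
    {σ : Ga} (hσ : σ ∈ H) {N : ℕ} (hN : N ≠ 0) :
    ∃ (P : Pr) (φ : Ga), ¬ ch P ∣ N ∧ IsFrob P (deg H P) φ ∧ φ ∈ K ⊔ Subgroup.zpowers σ ∧ φ ∈ H ∧
      θ σ ∈ AddSubgroup.zmultiples (θ φ) := by
  obtain ⟨l, ⟨P, φ, rfl, hφ, h1, h2⟩, hl⟩ := (cheb hK.normalCore σ).exists_gt N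
  have h1' : φ ∈ K ⊔ Subgroup.zpowers σ := sup_le_sup_right K.normalCore_le _ h1
  have hφH : φ ∈ H := by
    have : K ⊔ Subgroup.zpowers σ ≤ H :=
      sup_le (hle.trans (ArtL_ker_le hθ)) ((Subgroup.zpowers_le).2 hσ)
    exact this h1'
  have hd : deg H P = 1 := Nat.dvd_one.1 (deg_dvd hH hφH hφ)
  refine ⟨P, φ, fun h => absurd (Nat.le_of_dvd (Nat.pos_of_ne_zero hN) h) (not_le.2 hl),
    hd ▸ hφ, h1', hφH, ?_⟩
  have : K.normalCore ⊔ Subgroup.zpowers φ ≤ ArtLSub hθ (AddSubgroup.zmultiples (θ φ)) := by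
    refine sup_le (fun g hg => ?_) ((Subgroup.zpowers_le).2 ⟨hφH, AddSubgroup.mem_zmultiples _⟩)
    have := hθ.mem_kerX.1 (hle (K.normalCore_le hg))
    exact ⟨this.1, by rw [this.2]; exact AddSubgroup.zero_mem _⟩
  exact (this h2).2

theorem ArtL_frob_eq (hH : Op H) (hθ : IsX H θ) {m : ℕ} (hu : UnrOut (kerX H θ) m) {P : Pr}
    (hP : ¬ ch P ∣ m) {φ : Ga} (hφH : φ ∈ H) (hφ : IsFrob P (deg H P) φ) :
    θ (frob H P) = θ φ := by
  have h1 := hθ.mem_kerX.1 (hu P hP (hφ.inv_mul (frob_spec hH P).2))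
  have : frob H P = φ * (φ⁻¹ * frob H P) := by group
  rw [this, hθ.2 _ hφH _ h1.1, h1.2, add_zero]

end

theorem ArtL_gen {N : ℕ} {H : Subgroup Ga} {θ : Ga → ZMod N} (hθ : IsX H θ) :
    ∃ σ ∈ H, ∀ g ∈ H, θ g ∈ AddSubgroup.zmultiples (θ σ) := by
  let S : AddSubgroup (ZMod N) :=
    { carrier := {x | ∃ g ∈ H, θ g = x}
      zero_mem' := ⟨1, H.one_mem, hθ.one⟩
      add_mem' := by
        rintro _ _ ⟨a, ha, rfl⟩ ⟨b, hb, rfl⟩
        exact ⟨a * b, H.mul_mem ha hb, hθ.2 a ha b hb⟩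
      neg_mem' := by
        rintro _ ⟨a, ha, rfl⟩
        exact ⟨a⁻¹, H.inv_mem ha, hθ.inv ha⟩ }
  obtain ⟨⟨_, σ, hσ, rfl⟩, hg⟩ := IsAddCyclic.exists_generator (α := S)
  refine ⟨σ, hσ, fun g hgH => ?_⟩
  obtain ⟨k, hk⟩ := AddSubgroup.mem_zmultiples_iff.1 (hg ⟨θ g, g, hgH, rfl⟩)
  exact AddSubgroup.mem_zmultiples_iff.2 ⟨k, congrArg Subtype.val hk⟩

theorem ArtL_smul_zero {i : ℕ} (h : t ^ n ∣ i) (x : ZMod (t ^ n)) : i • x = 0 := by
  rw [nsmul_eq_mul, (ZMod.natCast_eq_zero_iff _ _).2 h, zero_mul]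

/-- the crossing subgroup -/
def ArtLE {H : Subgroup Ga} {θ : Ga → ZMod (t ^ n)} (hθ : IsX H θ) (x y : ZMod (t ^ n))
    (a l1 l2 N : ℕ) (hN0 : N ≠ 0) (hN : t ^ n ∣ N) (h1 : (a : ZMod l1) ^ N = 1)
    (h2 : (a : ZMod l2) ^ N = 1) : Subgroup Ga where
  carrier := {g | g ∈ H ∧ ∃ i j : ℕ, θ g = i • x + j • y ∧ ArtLAct l1 g (a ^ (i + j)) ∧
    ArtLAct l2 g (a ^ i)}
  one_mem' := ⟨H.one_mem, 0, 0, by simp [hθ.one], ArtLAct.of_mem (Subgroup.one_mem _),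
    ArtLAct.of_mem (Subgroup.one_mem _)⟩
  mul_mem' := by
    rintro g h ⟨hg, i, j, e, a1, a2⟩ ⟨hh, i', j', e', a1', a2'⟩
    refine ⟨H.mul_mem hg hh, i + i', j + j', ?_, ?_, ?_⟩
    · rw [hθ.2 g hg h hh, e, e', add_smul, add_smul]; abel
    · have := a1.mul a1'
      rwa [← pow_add, show i + j + (i' + j') = i + i' + (j + j') by ring] at this
    · have := a2.mul a2'
      rwa [← pow_add] at this
  inv_mem' := by
    rintro g ⟨hg, i, j, e, a1, a2⟩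
    obtain ⟨N', rfl⟩ := Nat.exists_eq_succ_of_ne_zero hN0
    refine ⟨H.inv_mem hg, N' * i, N' * j, ?_, a1.inv ?_, a2.inv ?_⟩
    · rw [hθ.inv hg, e, neg_eq_iff_add_eq_zero]
      have e1 := ArtL_smul_zero (Dvd.dvd.mul_right hN i) x
      have e2 := ArtL_smul_zero (Dvd.dvd.mul_right hN j) y
      rw [Nat.succ_mul, add_smul] at e1 e2
      linear_combination e1 + e2
    · push_cast
      rw [← pow_add, show i + j + (N' * i + N' * j) = N'.succ * (i + j) by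
        rw [Nat.succ_eq_add_one]; ring, pow_mul, h1, one_pow]
    · push_cast
      rw [← pow_add, show i + N' * i = N'.succ * i by
        rw [Nat.succ_eq_add_one]; ring, pow_mul, h2, one_pow]

theorem ArtL_one (ht : t.Prime) {H : Subgroup Ga} (hH : Op H) (h4 : H ≤ Gmu 4)
    {θ : Ga → ZMod (t ^ n)} (hθ : IsX H θ) {m M : ℕ} (hm : m ≠ 0) (hM : M ≠ 0)
    (hu : UnrOut (kerX H θ) m) {P P0 : Pr} {l1 l2 k1 k2 : ℕ} (hl1 : l1.Prime) (hl2 : l2.Prime)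
    (hne : l1 ≠ l2) (hk1 : n ≤ k1) (hk2 : k1 ≤ k2)
    (ho1 : orderOf ((ch P ^ deg H P : ℕ) : ZMod l1) = t ^ k1)
    (ho2 : orderOf ((ch P ^ deg H P : ℕ) : ZMod l2) = t ^ k2)
    (hP : ¬ ch P ∣ m * (l1 * l2)) (hP0 : ¬ ch P0 ∣ m * (l1 * l2)) {σ φ0 : Ga} (hσ : σ ∈ H)
    (a1 : ArtLAct l1 σ (ch P ^ deg H P)) (a2 : σ ∈ Gmu l2)
    (hφ0 : φ0 ∈ (kerX H θ ⊓ Gmu (l1 * l2)) ⊔ Subgroup.zpowers σ)
    (hf0 : IsFrob P0 (deg H P0) φ0) (b : ℤ) (hb : θ (frob H P) = b • θ φ0) :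
    ind H P - b • ind H P0 ∈ dvRay H m M ⊔ Nsub H m θ := by
  set a := ch P ^ deg H P with ha
  have hN0 : t ^ k2 ≠ 0 := pow_ne_zero _ ht.ne_zero
  have hN : t ^ n ∣ t ^ k2 := pow_dvd_pow _ (hk1.trans hk2)
  have h1 : (a : ZMod l1) ^ t ^ k2 = 1 := by
    rw [← orderOf_dvd_iff_pow_eq_one, ho1]; exact pow_dvd_pow _ hk2
  have h2 : (a : ZMod l2) ^ t ^ k2 = 1 := by rw [← orderOf_dvd_iff_pow_eq_one, ho2]
  set E := ArtLE hθ (θ (frob H P)) (θ σ) a l1 l2 _ hN0 hN h1 h2 with hE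
  have hKE : kerX H θ ⊓ Gmu (l1 * l2) ≤ E := fun g hg => by
    have := hθ.mem_kerX.1 hg.1
    exact ⟨this.1, 0, 0, by simp [this.2], ArtLAct.of_mem (Gmu_le (dvd_mul_right _ _) hg.2),
      ArtLAct.of_mem (Gmu_le (dvd_mul_left _ _) hg.2)⟩
  have hσE : σ ∈ E := ⟨hσ, 0, 1, by simp, by simpa using a1, ArtLAct.of_mem a2⟩
  have hfs := frob_spec hH P
  have hφE : frob H P ∈ E := by
    refine ⟨hfs.1, 1, 0, by simp, fun z hz => ?_, fun z hz => ?_⟩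
    · rw [hfs.2.root (fun h => hP ((h.mul_right l2).mul_left m)) hz]; simp [ha]
    · rw [hfs.2.root (fun h => hP ((h.mul_left l1).mul_left m)) hz]; simp [ha]
  have hφ0E : φ0 ∈ E := (sup_le hKE ((Subgroup.zpowers_le).2 hσE)) hφ0
  have hk : ∀ g ∈ E, g ∈ Gmu (l1 * l2) → θ g = 0 := by
    rintro g ⟨-, i, j, e, b1, b2⟩ hg
    have c1 := b1.eq_one hl1.ne_zero (Gmu_le (dvd_mul_right _ _) hg)
    have c2 := b2.eq_one hl2.ne_zero (Gmu_le (dvd_mul_left _ _) hg)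
    rw [Nat.cast_pow, ← orderOf_dvd_iff_pow_eq_one] at c1 c2
    rw [ho1] at c1
    rw [ho2] at c2
    have d1 : t ^ n ∣ i := hN.trans c2
    have d2 : t ^ n ∣ j := (Nat.dvd_add_right d1).1 ((pow_dvd_pow _ hk1).trans c1)
    rw [e, ArtL_smul_zero d1, ArtL_smul_zero d2, add_zero]
  have hsq : Squarefree (l1 * l2) :=
    (Nat.squarefree_mul ((Nat.coprime_primes hl1 hl2).2 hne)).2
      ⟨hl1.prime.squarefree, hl2.prime.squarefree⟩
  have hEH : E ≤ H := fun g hg => hg.1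
  have := art_desc hH h4 hθ hm hsq hM hu hEH hKE hk hP hP0 hφE hφ0E hfs.2 hf0 1 b
    (by rw [one_smul, hb])
  rwa [one_smul] at this

theorem art_pair (ht : t.Prime) (h2 : t ≠ 2) {H : Subgroup Ga} (hH : Op H) (h4 : H ≤ Gmu 4)
    {θ : Ga → ZMod (t ^ n)} (hθ : IsX H θ) {m M : ℕ} (hm : m ≠ 0) (hM : M ≠ 0)
    (hu : UnrOut (kerX H θ) m) {P P' : Pr} (hP : ¬ ch P ∣ m) (hP' : ¬ ch P' ∣ m) (a b : ℤ)
    (hab : a • θ (frob H P) = b • θ (frob H P')) :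
    a • ind H P - b • ind H P' ∈ dvRay H m M ⊔ Nsub H m θ := by
  have : NeZero (t ^ n) := ⟨pow_ne_zero _ ht.ne_zero⟩
  obtain ⟨σ, hσ, hgen⟩ := ArtL_gen hθ
  have hge : ∀ Q : Pr, 2 ≤ ch Q ^ deg H Q := fun Q =>
    (ch_prime Q).two_le.trans (Nat.le_self_pow (deg_pos hH Q).ne' _)
  obtain ⟨l1, k1, p1, b1, n1, o1⟩ := lang_prime _ t (hge P) ht h2 n (m + ch P + ch P')
  obtain ⟨l2, k2, p2, b2, n2, o2⟩ := lang_prime _ t (hge P) ht h2 k1 l1
  obtain ⟨l3, k3, p3, b3, n3, o3⟩ := lang_prime _ t (hge P') ht h2 n l2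
  obtain ⟨l4, k4, p4, b4, n4, o4⟩ := lang_prime _ t (hge P') ht h2 k3 l3
  have nd : ∀ {l : ℕ}, m < l → ¬ l ∣ m := fun h h' =>
    absurd (Nat.le_of_dvd (Nat.pos_of_ne_zero hm) h') (not_le.2 h)
  have np : ∀ {l l' : ℕ}, l.Prime → l'.Prime → l ≠ l' → ¬ l ∣ l' := fun h h' hne hd =>
    hne ((Nat.prime_dvd_prime_iff_eq h h').1 hd)
  have npw : ∀ {l : ℕ} (Q : Pr), l.Prime → ch Q < l → ¬ l ∣ ch Q ^ deg H Q := fun Q h h' hd =>
    np h (ch_prime Q) h'.ne' (h.dvd_of_dvd_pow hd)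
  obtain ⟨ρ1, r1, c1, g1⟩ := ArtL_adjust hu p1 (nd (by omega)) σ (npw P p1 (by omega))
  obtain ⟨ρ2, r2, c2, g2⟩ := ArtL_adjust hu p2 (nd (by omega)) (σ * ρ1) p2.not_dvd_one
  obtain ⟨ρ3, r3, c3, g3⟩ := ArtL_adjust hu p3 (nd (by omega)) (σ * ρ1 * ρ2)
    (npw P' p3 (by omega))
  obtain ⟨ρ4, r4, c4, g4⟩ := ArtL_adjust hu p4 (nd (by omega)) (σ * ρ1 * ρ2 * ρ3) p4.not_dvd_one
  set σ1 := σ * ρ1 * ρ2 * ρ3 * ρ4 with hσ1
  have m1 := hθ.mem_kerX.1 r1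
  have m2 := hθ.mem_kerX.1 r2
  have m3 := hθ.mem_kerX.1 r3
  have m4 := hθ.mem_kerX.1 r4
  have s1 := H.mul_mem hσ m1.1
  have s2 := H.mul_mem s1 m2.1
  have s3 := H.mul_mem s2 m3.1
  have s4 : σ1 ∈ H := H.mul_mem s3 m4.1
  have eθ : θ σ1 = θ σ := by
    rw [hσ1, hθ.2 _ s3 _ m4.1, hθ.2 _ s2 _ m3.1, hθ.2 _ s1 _ m2.1, hθ.2 _ hσ _ m1.1, m1.2, m2.2,
      m3.2, m4.2]
    simp
  have a1 : ArtLAct l1 σ1 (ch P ^ deg H P) := by
    have := ((c1.mul (ArtLAct.of_mem (g2 l1 (np p2 p1 (by omega))))).mul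
      (ArtLAct.of_mem (g3 l1 (np p3 p1 (by omega))))).mul
      (ArtLAct.of_mem (g4 l1 (np p4 p1 (by omega))))
    simpa using this
  have a2 : σ1 ∈ Gmu l2 := by
    have := (c2.mul (ArtLAct.of_mem (g3 l2 (np p3 p2 (by omega))))).mul
      (ArtLAct.of_mem (g4 l2 (np p4 p2 (by omega))))
    intro z hz
    have h3 := this z hz
    rwa [mul_one, mul_one, pow_one] at h3
  have a3 : ArtLAct l3 σ1 (ch P' ^ deg H P') := by
    have := c3.mul (ArtLAct.of_mem (g4 l3 (np p4 p3 (by omega))))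
    simpa using this
  have a4 : σ1 ∈ Gmu l4 := fun z hz => by simpa using c4 z hz
  have hk0 : l1 * l2 * (l3 * l4) ≠ 0 :=
    mul_ne_zero (mul_ne_zero p1.ne_zero p2.ne_zero) (mul_ne_zero p3.ne_zero p4.ne_zero)
  obtain ⟨P0, φ0, hP0, hf0, hφ0, hφH, hz⟩ := ArtL_cheb hH hθ
    ((hθ.op_kerX hH).inf (op_Gmu hk0)) inf_le_left s4 (mul_ne_zero hm hk0)
  have hzz : ∀ g ∈ H, ∃ c : ℤ, θ g = c • θ φ0 := fun g hg => by
    have := (AddSubgroup.zmultiples_le_of_mem hz) (eθ ▸ hgen g hg)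
    obtain ⟨c, hc⟩ := AddSubgroup.mem_zmultiples_iff.1 this
    exact ⟨c, hc.symm⟩
  obtain ⟨e, he⟩ := hzz _ (frob_spec hH P).1
  obtain ⟨e', he'⟩ := hzz _ (frob_spec hH P').1
  have nQ : ∀ (Q : Pr) {l l' : ℕ}, l.Prime → l'.Prime → ¬ ch Q ∣ m → ch Q < l → ch Q < l' →
      ¬ ch Q ∣ m * (l * l') := fun Q l l' h h' h0 h1 h1' hd => by
    rcases ((ch_prime Q).dvd_mul).1 hd with h3 | h3
    · exact h0 h3
    · rcases ((ch_prime Q).dvd_mul).1 h3 with h3 | h3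
      · exact np (ch_prime Q) h h1.ne h3
      · exact np (ch_prime Q) h' h1'.ne h3
  have q1 := ArtL_one ht hH h4 hθ hm hM hu p1 p2 b2.ne n1 n2 o1 o2
    (nQ P p1 p2 hP (by omega) (by omega))
    (fun h => hP0 (h.trans (Nat.mul_dvd_mul_left _ (dvd_mul_right _ _)))) s4 a1 a2
    (sup_le_sup_right (inf_le_inf_left _ (Gmu_le (dvd_mul_right _ _))) _ hφ0) hf0 e he
  have q2 := ArtL_one ht hH h4 hθ hm hM hu p3 p4 b4.ne n3 n4 o3 o4
    (nQ P' p3 p4 hP' (by omega) (by omega))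
    (fun h => hP0 (h.trans (Nat.mul_dvd_mul_left _ (dvd_mul_left _ _)))) s4 a3 a4
    (sup_le_sup_right (inf_le_inf_left _ (Gmu_le (dvd_mul_left _ _))) _ hφ0) hf0 e' he'
  have hP0m : ¬ ch P0 ∣ m := fun h => hP0 (h.mul_right _)
  have q3 : (a * e - b * e') • ind H P0 ∈ dvRay H m M ⊔ Nsub H m θ := by
    refine AddSubgroup.mem_sup_right (AddSubgroup.subset_closure ⟨P0, _, hP0m, ?_, rfl⟩)
    rw [ArtL_frob_eq hH hθ hu hP0m hφH hf0, sub_smul, mul_smul, mul_smul, ← he, ← he', hab,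
      sub_self]
  have : a • ind H P - b • ind H P' = a • (ind H P - e • ind H P0) -
      b • (ind H P' - e' • ind H P0) + (a * e - b * e') • ind H P0 := by
    rw [smul_sub, smul_sub, sub_smul, mul_smul, mul_smul]; abel
  rw [this]
  exact AddSubgroup.add_mem _ (AddSubgroup.sub_mem _ (AddSubgroup.zsmul_mem _ q1 a)
    (AddSubgroup.zsmul_mem _ q2 b)) q3

theorem ArtL_art_ind {H : Subgroup Ga} (hH : Op H) {θ : Ga → ZMod (t ^ n)} (hθ : IsX H θ) {m : ℕ}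
    (hu : UnrOut (kerX H θ) m) {P : Pr} (hP : ¬ ch P ∣ m) (c : ℤ) :
    art H θ (c • ind H P) = c • θ (frob H P) := by
  have h1 := art_ind hH hθ (P := P) (fun σ hσ _ => (hθ.mem_kerX.1 (hu P hP hσ)).2)
    (frob_spec hH P).1 (frob_spec hH P).2
  rw [← h1]
  exact lift_zsmul hH _ (ind_mem H hP) c

theorem art_rec (ht : t.Prime) (h2 : t ≠ 2) {H : Subgroup Ga} (hH : Op H) (h4 : H ≤ Gmu 4)
    {θ : Ga → ZMod (t ^ n)} (hθ : IsX H θ) {m : ℕ} (hm : m ≠ 0) (hu : UnrOut (kerX H θ) m) :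
    ∃ M : ℕ, ∀ x ∈ Ray H m M, art H θ (dv m x) = 0 := by
  have : NeZero (t ^ n) := ⟨pow_ne_zero _ ht.ne_zero⟩
  obtain ⟨σ, hσ, hgen⟩ := ArtL_gen hθ
  obtain ⟨M, hM, hge⟩ := norm_index_ge hH h4 hθ hσ hgen hm hu
  refine ⟨M, fun x hx => ?_⟩
  set B := dvRay H m M ⊔ Nsub H m θ with hB
  obtain ⟨P', φ', hP', hf', -, hφH, hz⟩ := ArtL_cheb hH hθ (hθ.op_kerX hH) le_rfl hσ hm
  rw [← ArtL_frob_eq hH hθ hu hP' hφH hf'] at hz
  have key : ∀ d ∈ Div H m, ∃ c : ℤ, d - c • ind H P' ∈ B ∧ art H θ d = c • θ (frob H P') := by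
    refine Div.induction hH _ ⟨0, by simp, ?_⟩ ?_ ?_
    · have := ArtL_art_ind hH hθ hu hP' 0
      rwa [zero_smul] at this
    · rintro a ha b hb ⟨c, h1, h1'⟩ ⟨c', h3, h3'⟩
      refine ⟨c + c', ?_, ?_⟩
      · have : a + b - (c + c') • ind H P' = (a - c • ind H P') + (b - c' • ind H P') := by
          rw [add_smul]; abel
        rw [this]
        exact B.add_mem h1 h3
      · rw [add_smul, ← h1', ← h3']
        exact lift_add hH _ ha hb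
    · intro P c hP
      obtain ⟨e, he⟩ := AddSubgroup.mem_zmultiples_iff.1
        (AddSubgroup.zmultiples_le_of_mem hz (hgen _ (frob_spec hH P).1))
      have hab : c • θ (frob H P) = (c * e) • θ (frob H P') := by rw [mul_smul, he]
      exact ⟨c * e, art_pair ht h2 hH h4 hθ hm hM hu hP hP' _ _ hab, by
        rw [ArtL_art_ind hH hθ hu hP, hab]⟩
  let f : Div H m →+ ZMod (t ^ n) :=
    AddMonoidHom.mk' (fun d => art H θ d) fun a b => lift_add hH _ a.2 b.2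
  have hker : f.ker ≤ B.addSubgroupOf (Div H m) := fun d hd => by
    obtain ⟨c, h1, h1'⟩ := key d d.2
    have h0 : art H θ d = 0 := hd
    have h3 : c • ind H P' ∈ B :=
      AddSubgroup.mem_sup_right (AddSubgroup.subset_closure ⟨P', c, hP', by rw [← h1', h0], rfl⟩)
    have := B.add_mem h1 h3
    rw [sub_add_cancel] at this
    exact this
  have hran : f.range ≤ AddSubgroup.zmultiples (θ σ) := by
    rintro _ ⟨d, rfl⟩
    obtain ⟨c, -, h1'⟩ := key d d.2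
    show art H θ d ∈ _
    rw [h1']
    exact AddSubgroup.zsmul_mem _ (hgen _ (frob_spec hH P').1) c
  have hi : f.ker.index ≤ addOrderOf (θ σ) := by
    rw [AddSubgroup.index_ker, ← Nat.card_zmultiples]
    exact AddSubgroup.card_le_of_le hran
  have hi0 : f.ker.index ≠ 0 := by
    rw [AddSubgroup.index_ker]
    exact Nat.card_pos.ne'
  have hmul := AddSubgroup.relIndex_mul_index hker
  have hge' : addOrderOf (θ σ) ≤ (B.addSubgroupOf (Div H m)).index := hge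
  have h1 : f.ker.relIndex (B.addSubgroupOf (Div H m)) = 1 := by
    set u := f.ker.relIndex (B.addSubgroupOf (Div H m))
    set v := (B.addSubgroupOf (Div H m)).index
    have hu0 : u ≠ 0 := fun h => hi0 (by rw [← hmul, h, zero_mul])
    have hv0 : v ≠ 0 := fun h => hi0 (by rw [← hmul, h, mul_zero])
    have : u * v ≤ 1 * v := by rw [hmul, one_mul]; exact hi.trans hge'
    have := Nat.le_of_mul_le_mul_right this (Nat.pos_of_ne_zero hv0)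
    omega
  have hle := AddSubgroup.relIndex_eq_one.1 h1
  have hx' : dv m x ∈ B := AddSubgroup.mem_sup_left (AddSubgroup.subset_closure ⟨x, hx, rfl⟩)
  exact hle (x := ⟨dv m x, dv_mem x hx.1⟩) hx'

end Vale.Agent.P024U
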