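import Vale.Agent.P024U.Dec0

/-! Decomposition groups.  `trans_pr`, `surj_res`: apply `Algebra.IsInvariant.exists_smul_of_under_eq_of_profinite` and
`Ideal.Quotient.stabilizerHom_surjective_of_profinite` to the compact group `H` acting on `Oi` (discrete topology) with
`A = FixedPoints.subring Oi H` (or `FixedPoints.subalgebra ℤ Oi H`).  `exists_frob`: the same for `H = ⊤`, `A = ℤ`, and the
Frobenius of the residue field, which is bijective (algebraic over the prime field).  The rest is elementary: every residue class lies in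
a finite field.  `dec_decomp`: the finitely many residues of `fix W ∩ Oi` form a finite field on which `σ` is a power of Frobenius
(`FiniteField` / `bijective_frobeniusAlgEquivOfAlgebraic_pow`), then `surj_res` for `W`. -/

namespace Vale.Agent.P024U
open NumberField

open scoped Pointwise

theorem Dec_gal : IsGalois ℚ Om :=
  @IsAlgClosure.isGalois ℚ Om _ _ _ (AlgebraicClosure.instIsAlgClosure ℚ) _

theorem Dec_cont (H : Subgroup Ga) : @ContinuousSMul H Oi _ _ ⊥ := by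
  letI : TopologicalSpace Oi := ⊥
  have : DiscreteTopology Oi := ⟨rfl⟩
  refine continuousSMul_iff_stabilizer_isOpen.2 fun x => ?_
  have h : (MulAction.stabilizer H x : Set H) = Subtype.val ⁻¹' {g : Ga | g x = x} :=
    Set.ext fun g => RingOfIntegers.ext_iff
  rw [h]
  exact (op_stab (x : Om)).preimage continuous_subtype_val

theorem Dec_cpt {H : Subgroup Ga} (hH : Cl H) : CompactSpace H := by
  have := Dec_gal
  exact isCompact_iff_compactSpace.1 hH.isCompact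

theorem Dec_fix {H : Subgroup Ga} (x : FixedPoints.subring Oi H) : ((x : Oi) : Om) ∈ fix H :=
  mem_fix.2 fun g hg => congrArg (fun y : Oi => (y : Om)) (x.2 ⟨g, hg⟩)

theorem Dec_inv (H : Subgroup Ga) : Algebra.IsInvariant (FixedPoints.subring Oi H) Oi H :=
  ⟨fun x hx => ⟨⟨x, hx⟩, rfl⟩⟩

theorem trans_pr {H : Subgroup Ga} (hH : Cl H) (P Q : Pr)
    (h : ∀ x : Oi, (x : Om) ∈ fix H → (x ∈ P.I ↔ x ∈ Q.I)) : ∃ g ∈ H, g • P = Q := by
  letI : TopologicalSpace Oi := ⊥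
  have : DiscreteTopology Oi := ⟨rfl⟩
  have := Dec_cont H
  have := Dec_cpt hH
  have := Dec_inv H
  have := Dec_gal
  have := P.max
  have := Q.max
  obtain ⟨g, hg⟩ := Algebra.IsInvariant.exists_smul_of_under_eq_of_profinite
    (A := FixedPoints.subring Oi H) (G := H) P.I Q.I (Ideal.ext fun x => h x (Dec_fix x))
  exact ⟨g, g.2, Pr.ext hg.symm⟩

theorem Dec_int {x : Oi} (hx : (x : Om) ∈ fix ⊤) : ∃ n : ℤ, x = n := by
  have := Dec_gal
  obtain ⟨q, hq⟩ := (InfiniteGalois.mem_range_algebraMap_iff_fixed (k := ℚ) (x : Om)).2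
    fun g => mem_fix.1 hx g trivial
  have h1 : IsIntegral ℤ q :=
    (isIntegral_algebraMap_iff (algebraMap ℚ Om).injective).1 (hq ▸ x.isIntegral_coe)
  obtain ⟨n, rfl⟩ := IsIntegrallyClosed.isIntegral_iff.1 h1
  exact ⟨n, RingOfIntegers.ext (by rw [← hq]; simp)⟩

theorem trans_ch (P Q : Pr) (h : ch P = ch Q) : ∃ g : Ga, g • P = Q := by
  obtain ⟨g, -, hg⟩ := trans_pr (H := ⊤) isClosed_univ P Q fun x hx => by
    obtain ⟨n, rfl⟩ := Dec_int hx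
    obtain ⟨m, rfl | rfl⟩ := n.eq_nat_or_neg
    · rw [Int.cast_natCast, natCast_mem, natCast_mem, h]
    · rw [Int.cast_neg, neg_mem_iff, neg_mem_iff, Int.cast_natCast, natCast_mem, natCast_mem, h]
  exact ⟨g, hg⟩

theorem Dec_lift {H : Subgroup Ga} (hH : Cl H) (P : Pr) (τ : (Oi ⧸ P.I) ≃+* (Oi ⧸ P.I))
    (h : ∀ x : Oi, (x : Om) ∈ fix H → τ (Ideal.Quotient.mk _ x) = Ideal.Quotient.mk _ x) :
    ∃ g ∈ H, g ∈ Dec P ∧ ∀ x : Oi, Ideal.Quotient.mk _ (g • x) = τ (Ideal.Quotient.mk _ x) := by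
  letI : TopologicalSpace Oi := ⊥
  have : DiscreteTopology Oi := ⟨rfl⟩
  have := Dec_cont H
  have := Dec_cpt hH
  have := Dec_inv H
  have := Dec_gal
  have := P.max
  obtain ⟨g, hg⟩ := Ideal.Quotient.stabilizerHom_surjective_of_profinite (G := H)
    (P.I.under (FixedPoints.subring Oi H)) P.I (AlgEquiv.ofRingEquiv (f := τ) fun y => by
      obtain ⟨x, rfl⟩ := Ideal.Quotient.mk_surjective y
      exact h x (Dec_fix x))
  exact ⟨g.1, g.1.2, Pr.ext g.2, fun x => DFunLike.congr_fun hg (Ideal.Quotient.mk _ x)⟩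

/-- action on the residue field -/
noncomputable def Dec_res (P : Pr) {σ : Ga} (hσ : σ ∈ Dec P) : (Oi ⧸ P.I) ≃+* (Oi ⧸ P.I) :=
  (Ideal.Quotient.stabilizerHom P.I (P.I.under ℤ) Ga ⟨σ, congrArg Pr.I hσ⟩).toRingEquiv

theorem Dec_res_mk (P : Pr) {σ : Ga} (hσ : σ ∈ Dec P) (x : Oi) :
    Dec_res P hσ (Ideal.Quotient.mk _ x) = Ideal.Quotient.mk _ (σ • x) := rfl

theorem Dec_mem {P : Pr} {σ : Ga} (hσ : σ ∈ Dec P) {x : Oi} (hx : x ∈ P.I) : σ⁻¹ • x ∈ P.I := by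
  rw [← Pr.mem_smul, mem_Dec.1 hσ]
  exact hx

theorem surj_res {H : Subgroup Ga} (hH : Cl H) (P : Pr) (σ : Ga) (hσ : σ ∈ Dec P)
    (h : ∀ x : Oi, (x : Om) ∈ fix H → σ • x - x ∈ P.I) : ∃ g ∈ H, g ∈ Dec P ∧ g⁻¹ * σ ∈ Ine P := by
  obtain ⟨g, h1, h2, h3⟩ := Dec_lift hH P (Dec_res P hσ) fun x hx => Ideal.Quotient.eq.2 (h x hx)
  refine ⟨g, h1, h2, mem_Ine.2 fun x => ?_⟩
  have h4 := Dec_mem h2 (Ideal.Quotient.eq.1 ((Dec_res_mk P hσ x).symm.trans (h3 x).symm))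
  rwa [smul_sub, inv_smul_smul, ← mul_smul] at h4

theorem exists_frob (P : Pr) : ∃ φ, IsFrob P 1 φ := by
  have := P.max
  have : Fact (ch P).Prime := ⟨ch_prime P⟩
  have : CharP (Oi ⧸ P.I) (ch P) := ringChar.charP _
  have h1 : Function.Bijective (frobenius (Oi ⧸ P.I) (ch P)) := by
    refine ⟨frobenius_inj _ _, fun y => ?_⟩
    obtain ⟨x, rfl⟩ := Ideal.Quotient.mk_surjective y
    obtain ⟨z, hz⟩ := IsAlgClosed.exists_pow_nat_eq (x : Om) (ch_prime P).pos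
    obtain ⟨y, rfl⟩ : ∃ y : Oi, (y : Om) = z :=
      ⟨⟨z, IsIntegral.of_pow (ch_prime P).pos (hz ▸ x.isIntegral_coe)⟩, rfl⟩
    refine ⟨Ideal.Quotient.mk _ y, ?_⟩
    rw [frobenius_def, ← map_pow]
    exact congrArg _ (RingOfIntegers.ext hz)
  obtain ⟨g, -, -, h⟩ := Dec_lift (H := ⊤) isClosed_univ P (RingEquiv.ofBijective _ h1)
    fun x hx => by
      obtain ⟨n, rfl⟩ := Dec_int hx
      rw [map_intCast, map_intCast]
  refine ⟨g, fun x => Ideal.Quotient.eq.1 ((h x).trans ?_)⟩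
  rw [pow_one, map_pow]
  rfl

theorem Dec_fin {F : Type} [Field F] (p : ℕ) [Fact p.Prime] [CharP F p]
    (hF : ∀ x : F, IsIntegral ℤ x) (τ : F ≃+* F) (S : Finset F) :
    ∃ k, ∀ x ∈ S, τ x = x ^ p ^ k := by
  letI := ZMod.algebra F p
  have : FiniteDimensional (ZMod p) (IntermediateField.adjoin (ZMod p) (S : Set F)) :=
    IntermediateField.finiteDimensional_adjoin fun x _ => (hF x).tower_top
  have : Finite (IntermediateField.adjoin (ZMod p) (S : Set F)) := Module.finite_of_finite (ZMod p)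
  set τ' : F ≃ₐ[ZMod p] F := AlgEquiv.ofRingEquiv (f := τ) fun c =>
    DFunLike.congr_fun (RingHom.ext_zmod ((τ : F →+* F).comp (algebraMap _ F)) (algebraMap _ F)) c
  obtain ⟨n, hn⟩ := (FiniteField.bijective_frobeniusAlgEquivOfAlgebraic_pow (ZMod p) _).2
    (τ'.restrictNormal (IntermediateField.adjoin (ZMod p) (S : Set F)))
  refine ⟨n, fun x hx => ?_⟩
  have h := τ'.restrictNormal_commutes (IntermediateField.adjoin (ZMod p) (S : Set F))
    ⟨x, IntermediateField.subset_adjoin _ _ hx⟩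
  rw [← hn, AlgEquiv.coe_pow, FiniteField.coe_frobeniusAlgEquivOfAlgebraic_iterate, ZMod.card,
    map_pow] at h
  exact h.symm

theorem Dec_pow {P : Pr} {W : Subgroup Ga} (hW : Op W) {σ : Ga} (hσ : σ ∈ Dec P) :
    ∃ k : ℕ, ∀ x : Oi, (x : Om) ∈ fix W → σ • x - x ^ ch P ^ k ∈ P.I := by
  classical
  have := P.max
  have : Fact (ch P).Prime := ⟨ch_prime P⟩
  have : CharP (Oi ⧸ P.I) (ch P) := ringChar.charP _
  have := numberField_fix hW
  letI := Ideal.Quotient.field P.I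
  set f : 𝓞 (fix W) →+* Oi ⧸ P.I := (Ideal.Quotient.mk P.I).comp (algebraMap (𝓞 (fix W)) Oi) with hf
  obtain ⟨T, hT⟩ := Module.Finite.fg_top (R := ℤ) (M := 𝓞 (fix W))
  obtain ⟨k, hk⟩ := Dec_fin (ch P) (fun y => by
    obtain ⟨x, rfl⟩ := Ideal.Quotient.mk_surjective y
    exact (RingOfIntegers.isIntegral x).map (Ideal.Quotient.mkₐ ℤ P.I)) (Dec_res P hσ) (T.image f)
  have h1 : ((Dec_res P hσ : _ →+* _).comp f).toAddMonoidHom.toIntLinearMap =
      ((iterateFrobenius _ (ch P) k).comp f).toAddMonoidHom.toIntLinearMap :=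
    LinearMap.ext_on hT fun y hy => hk _ (Finset.mem_image_of_mem f hy)
  refine ⟨k, fun x hx => Ideal.Quotient.eq.1 ?_⟩
  have h2 : IsIntegral ℤ (⟨x, hx⟩ : fix W) :=
    (isIntegral_algebraMap_iff (algebraMap (fix W) Om).injective).1 x.isIntegral_coe
  rw [map_pow]
  exact DFunLike.congr_fun h1 ⟨_, h2⟩

theorem dec_decomp {P : Pr} {φ : Ga} (hφ : IsFrob P 1 φ) {W : Subgroup Ga} (hW : Op W) {σ : Ga}
    (hσ : σ ∈ Dec P) : ∃ k : ℕ, ∃ ρ ∈ Ine P, ∃ w ∈ W, w ∈ Dec P ∧ σ = φ ^ k * ρ * w := by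
  obtain ⟨k, hk⟩ := Dec_pow hW hσ
  have h1 := hφ.pow k
  rw [one_mul] at h1
  obtain ⟨g, g1, g2, g3⟩ := surj_res hW.cl P ((φ ^ k)⁻¹ * σ)
    (mul_mem (inv_mem h1.mem_Dec) hσ) fun x hx => by
      have h2 := Dec_mem h1.mem_Dec (sub_mem (hk x hx) (h1 x))
      rwa [sub_sub_sub_cancel_right, smul_sub, inv_smul_smul, ← mul_smul] at h2
  have h3 := conj_mem_Ine g g3
  rw [mem_Dec.1 g2] at h3
  exact ⟨k, _, h3, g, g1, g2, by group⟩

theorem Dec_spec {H : Subgroup Ga} (hH : Op H) (P : Pr) :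
    0 < deg H P ∧ ∃ g ∈ H, IsFrob P (deg H P) g := by
  obtain ⟨φ, hφ⟩ := exists_frob P
  obtain ⟨n, h1, -, h2⟩ := Subgroup.exists_pow_mem_of_index_ne_zero hH.index_ne_zero φ
  exact Nat.sInf_mem (s := {k | 0 < k ∧ ∃ g ∈ H, IsFrob P k g})
    ⟨1 * n, by omega, _, h2, hφ.pow n⟩

theorem deg_pos {H : Subgroup Ga} (hH : Op H) (P : Pr) : 0 < deg H P := (Dec_spec hH P).1

theorem frob_spec {H : Subgroup Ga} (hH : Op H) (P : Pr) :
    frob H P ∈ H ∧ IsFrob P (deg H P) (frob H P) := by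
  rw [frob, dif_pos (Dec_spec hH P).2]
  exact (Dec_spec hH P).2.choose_spec

theorem deg_dvd {H : Subgroup Ga} (hH : Op H) {P : Pr} {k : ℕ} {φ : Ga} (hφ : φ ∈ H)
    (h : IsFrob P k φ) : deg H P ∣ k := by
  obtain ⟨ψ, hψ⟩ := exists_frob P
  obtain ⟨h1, h2⟩ := frob_spec hH P
  have h3 := hψ.pow (k % deg H P)
  rw [one_mul] at h3
  have h4 := (h2.pow (k / deg H P)).mul h3
  rw [Nat.div_add_mod] at h4
  have h5 := h3.mul (isFrob_zero.2 (h4.inv_mul h))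
  rw [add_zero, show ψ ^ (k % deg H P) * ((frob H P ^ (k / deg H P) * ψ ^ (k % deg H P))⁻¹ * φ) =
    (frob H P ^ (k / deg H P))⁻¹ * φ by group] at h5
  by_contra hn
  exact (Nat.mod_lt k (deg_pos hH P)).not_ge (Nat.sInf_le
    ⟨Nat.pos_of_ne_zero fun e => hn (Nat.dvd_of_mod_eq_zero e), _,
      mul_mem (inv_mem (pow_mem h1 _)) hφ, h5⟩)

theorem deg_smul {H : Subgroup Ga} (P : Pr) {g : Ga} (hg : ∀ h, h ∈ H ↔ g * h * g⁻¹ ∈ H) :
    deg H (g • P) = deg H P := by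
  refine congrArg sInf (Set.ext fun k => and_congr_right fun _ => ⟨?_, ?_⟩)
  · rintro ⟨h, h1, h2⟩
    have h3 := h2.conj g⁻¹
    rw [inv_smul_smul] at h3
    exact ⟨_, (hg _).2 (by simpa [mul_assoc] using h1), h3⟩
  · rintro ⟨h, h1, h2⟩
    exact ⟨_, (hg h).1 h1, h2.conj g⟩

theorem dec_decomp' {H : Subgroup Ga} (hH : Op H) (P : Pr) {W : Subgroup Ga} (hW : Op W) {σ : Ga}
    (hσ : σ ∈ Dec P) (hσH : σ ∈ H) :
    ∃ k : ℕ, ∃ ρ ∈ Ine P, ρ ∈ H ∧ ∃ w ∈ W, w ∈ H ∧ w ∈ Dec P ∧ σ = frob H P ^ k * ρ * w := by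
  obtain ⟨φ, hφ⟩ := exists_frob P
  obtain ⟨k, ρ, h1, w, h2, h3, h4⟩ := dec_decomp hφ (hW.inf hH) hσ
  have h5 := (hφ.pow k).mul (isFrob_zero.2 h1)
  have h6 : φ ^ k * ρ ∈ H := by
    rw [eq_mul_inv_of_mul_eq h4.symm]
    exact mul_mem hσH (inv_mem h2.2)
  obtain ⟨j, hj⟩ := deg_dvd hH h6 h5
  obtain ⟨h7, h8⟩ := frob_spec hH P
  rw [hj] at h5
  exact ⟨j, _, (h8.pow j).inv_mul h5, mul_mem (inv_mem (pow_mem h7 j)) h6, w, h2.1, h2.2, h3,
    by rw [mul_inv_cancel_left, h4]⟩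

theorem orbits_finite {H : Subgroup Ga} (hH : Op H) (l : ℕ) :
    ∃ S : Finset Pr, (∀ Q ∈ S, ch Q = l) ∧ ∀ P, ch P = l → ∃ Q ∈ S, ∃ h ∈ H, h • Q = P := by
  classical
  by_cases h : ∃ P0, ch P0 = l
  swap
  · exact ⟨∅, by simp, fun P hP => absurd ⟨P, hP⟩ h⟩
  obtain ⟨P0, h0⟩ := h
  letI := Subgroup.fintypeOfIndexNeZero hH.index_ne_zero
  refine ⟨Finset.univ.image fun c : Ga ⧸ H => c.out⁻¹ • P0, fun Q hQ => ?_, fun P hP => ?_⟩
  · obtain ⟨c, -, rfl⟩ := Finset.mem_image.1 hQ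
    rw [ch_smul, h0]
  · obtain ⟨g, rfl⟩ := trans_ch P0 P (h0.trans hP.symm)
    obtain ⟨h, hh⟩ := QuotientGroup.mk_out_eq_mul H g⁻¹
    refine ⟨_, Finset.mem_image_of_mem _ (Finset.mem_univ (QuotientGroup.mk g⁻¹ : Ga ⧸ H)), h, h.2, ?_⟩
    rw [hh, mul_inv_rev, inv_inv, mul_smul, smul_inv_smul]

end Vale.Agent.P024U
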