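import Vale.Agent.P024U.XApi
import Vale.Agent.P024U.Dec

/-! Correspondences: API.  Closedness: images of compact sets.  Openness of `im A`: closed of finite index in `G2` (`op_of_cl`).
`x_N2`: a nonzero character of `N2` has compact image, so after scaling (`IsX.exists_int`) and reduction it gives a nonzero character `f` mod `t`; `h90` gives `w` with
`ν w = ζ^(f ν) w`, `w^t ∈ fix N2`, so `w ∈ fix N2` by `rc`.  `isX_pull`: closed graph / quotient map `R ∩ (W × Ga) → W` of compact spaces. -/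

namespace Vale.Agent.P024U

theorem CApi_relIndex_map {G G' : Type*} [Group G] [Group G'] (f : G →* G') (K L : Subgroup G)
    (h : L.index ≠ 0) : ((K ⊓ L).map f).relIndex (K.map f) ≠ 0 := by
  rw [← Subgroup.relIndex_comap]
  intro h0
  have h1 := Subgroup.relIndex_eq_zero_of_le_left (Subgroup.le_comap_map f (K ⊓ L)) h0
  rw [Subgroup.inf_relIndex_left] at h1
  have h2 := Subgroup.relIndex_eq_zero_of_le_right (le_top : K ≤ ⊤) h1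
  rw [Subgroup.relIndex_top_right] at h2
  exact h h2

theorem CApi_index_map {G G' : Type*} [Group G] [Group G'] (f : G →* G') (K L : Subgroup G)
    (h : L.index ≠ 0) (hK : (K.map f).index ≠ 0) : ((K ⊓ L).map f).index ≠ 0 := by
  rw [← Subgroup.relIndex_mul_index (Subgroup.map_mono (inf_le_left : K ⊓ L ≤ K))]
  exact mul_ne_zero (CApi_relIndex_map f K L h) hK

namespace Corr
variable (c : Corr)

theorem mem_G1 {σ : Ga} : σ ∈ c.G1 ↔ ∃ τ, (σ, τ) ∈ c.R := by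
  constructor
  · rintro ⟨⟨a, b⟩, h, rfl⟩
    exact ⟨b, h⟩
  · rintro ⟨b, h⟩
    exact ⟨(σ, b), h, rfl⟩
theorem mem_G2 {τ : Ga} : τ ∈ c.G2 ↔ ∃ σ, (σ, τ) ∈ c.R := by
  constructor
  · rintro ⟨⟨a, b⟩, h, rfl⟩
    exact ⟨a, h⟩
  · rintro ⟨a, h⟩
    exact ⟨(a, τ), h, rfl⟩
theorem mem_N1 {σ : Ga} : σ ∈ c.N1 ↔ (σ, 1) ∈ c.R := Iff.rfl
theorem mem_N2 {τ : Ga} : τ ∈ c.N2 ↔ (1, τ) ∈ c.R := Iff.rfl
theorem mem_im {A : Subgroup Ga} {τ : Ga} : τ ∈ c.im A ↔ ∃ σ ∈ A, (σ, τ) ∈ c.R := by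
  constructor
  · rintro ⟨⟨a, b⟩, h, rfl⟩
    exact ⟨a, h.2.1, h.1⟩
  · rintro ⟨a, ha, h⟩
    exact ⟨(a, τ), ⟨h, ha, trivial⟩, rfl⟩
theorem mem_pre {B : Subgroup Ga} {σ : Ga} : σ ∈ c.pre B ↔ ∃ τ ∈ B, (σ, τ) ∈ c.R := by
  constructor
  · rintro ⟨⟨a, b⟩, h, rfl⟩
    exact ⟨b, h.2.2, h.1⟩
  · rintro ⟨b, hb, h⟩
    exact ⟨(σ, b), ⟨h, trivial, hb⟩, rfl⟩
theorem op_G1 : Op c.G1 := c.open1
theorem op_G2 : Op c.G2 := c.open2
theorem cl_N1 : Cl c.N1 := by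
  have : Continuous (fun σ : Ga => ((σ, 1) : Ga × Ga)) := continuous_id.prodMk continuous_const
  exact c.closed.preimage this
theorem cl_N2 : Cl c.N2 := by
  have : Continuous (fun σ : Ga => ((1, σ) : Ga × Ga)) := continuous_const.prodMk continuous_id
  exact c.closed.preimage this
theorem cl_im {A : Subgroup Ga} (h : Cl A) : Cl (c.im A) := by
  have h1 : IsClosed ((c.R : Set (Ga × Ga)) ∩ Prod.fst ⁻¹' (A : Set Ga)) :=
    c.closed.inter (h.preimage continuous_fst)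
  have h2 := (h1.isCompact.image continuous_snd).isClosed
  have e : (c.im A : Set Ga) = Prod.snd '' ((c.R : Set (Ga × Ga)) ∩ Prod.fst ⁻¹' (A : Set Ga)) := by
    ext τ
    rw [SetLike.mem_coe, c.mem_im]
    constructor
    · rintro ⟨σ, hσ, hR⟩
      exact ⟨(σ, τ), ⟨hR, hσ⟩, rfl⟩
    · rintro ⟨⟨a, b⟩, hR, rfl⟩
      exact ⟨a, hR.2, hR.1⟩
  unfold Cl
  rw [e]
  exact h2
theorem op_im {A : Subgroup Ga} (h : Op A) : Op (c.im A) := by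
  refine op_of_cl (c.cl_im h.cl) (CApi_index_map _ _ _ ?_ c.op_G2.index_ne_zero)
  rw [Subgroup.index_prod, Subgroup.index_top, mul_one]
  exact h.index_ne_zero
theorem CApi_cl_pre {B : Subgroup Ga} (h : Cl B) : Cl (c.pre B) := by
  have h1 : IsClosed ((c.R : Set (Ga × Ga)) ∩ Prod.snd ⁻¹' (B : Set Ga)) :=
    c.closed.inter (h.preimage continuous_snd)
  have h2 := (h1.isCompact.image continuous_fst).isClosed
  have e : (c.pre B : Set Ga) = Prod.fst '' ((c.R : Set (Ga × Ga)) ∩ Prod.snd ⁻¹' (B : Set Ga)) := by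
    ext τ
    rw [SetLike.mem_coe, c.mem_pre]
    constructor
    · rintro ⟨σ, hσ, hR⟩
      exact ⟨(τ, σ), ⟨hR, hσ⟩, rfl⟩
    · rintro ⟨⟨a, b⟩, hR, rfl⟩
      exact ⟨b, hR.2, hR.1⟩
  unfold Cl
  rw [e]
  exact h2
theorem op_pre {B : Subgroup Ga} (h : Op B) : Op (c.pre B) := by
  refine op_of_cl (c.CApi_cl_pre h.cl) (CApi_index_map _ _ _ ?_ c.op_G1.index_ne_zero)
  rw [Subgroup.index_prod, Subgroup.index_top, one_mul]
  exact h.index_ne_zero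
theorem im_mono {A A' : Subgroup Ga} (h : A ≤ A') : c.im A ≤ c.im A' := by
  intro τ hτ
  obtain ⟨σ, hσ, hR⟩ := c.mem_im.1 hτ
  exact c.mem_im.2 ⟨σ, h hσ, hR⟩
theorem im_le_G2 (A : Subgroup Ga) : c.im A ≤ c.G2 := by
  intro τ hτ
  obtain ⟨σ, -, hR⟩ := c.mem_im.1 hτ
  exact c.mem_G2.2 ⟨σ, hR⟩
theorem pre_le_G1 (B : Subgroup Ga) : c.pre B ≤ c.G1 := by
  intro τ hτ
  obtain ⟨σ, -, hR⟩ := c.mem_pre.1 hτ
  exact c.mem_G1.2 ⟨σ, hR⟩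
theorem N2_le_im (A : Subgroup Ga) : c.N2 ≤ c.im A := by
  intro τ hτ
  exact c.mem_im.2 ⟨1, A.one_mem, hτ⟩
theorem im_le_of_le_pre {A B : Subgroup Ga} (hB : c.N2 ≤ B) (h : A ≤ c.pre B) : c.im A ≤ B := by
  intro τ hτ
  obtain ⟨σ, hσ, hR⟩ := c.mem_im.1 hτ
  obtain ⟨τ', hτ', hR'⟩ := c.mem_pre.1 (h hσ)
  have h1 : τ'⁻¹ * τ ∈ c.N2 := by
    have := c.R.mul_mem (c.R.inv_mem hR') hR
    rw [c.mem_N2]
    simpa using this
  simpa using B.mul_mem hτ' (hB h1)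
theorem inv_mul_mem_N2 {σ τ τ' : Ga} (h : (σ, τ) ∈ c.R) (h' : (σ, τ') ∈ c.R) : τ⁻¹ * τ' ∈ c.N2 := by
  have := c.R.mul_mem (c.R.inv_mem h) h'
  rw [c.mem_N2]
  simpa using this
theorem conj_mem_N2 {τ ν : Ga} (hτ : τ ∈ c.G2) (hν : ν ∈ c.N2) : τ * ν * τ⁻¹ ∈ c.N2 := by
  obtain ⟨σ, hR⟩ := c.mem_G2.1 hτ
  have := c.R.mul_mem (c.R.mul_mem hR (c.mem_N2.1 hν)) (c.R.inv_mem hR)
  rw [c.mem_N2]
  simpa using this
theorem conj_mem_N1 {σ ν : Ga} (hσ : σ ∈ c.G1) (hν : ν ∈ c.N1) : σ * ν * σ⁻¹ ∈ c.N1 := by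
  obtain ⟨τ, hR⟩ := c.mem_G1.1 hσ
  have := c.R.mul_mem (c.R.mul_mem hR (c.mem_N1.1 hν)) (c.R.inv_mem hR)
  rw [c.mem_N1]
  simpa using this
theorem conj_mem_im {A : Subgroup Ga} {σ τ a : Ga} (h : (σ, τ) ∈ c.R)
    (hA : ∀ x ∈ A, σ * x * σ⁻¹ ∈ A) (ha : a ∈ c.im A) : τ * a * τ⁻¹ ∈ c.im A := by
  obtain ⟨x, hx, hR⟩ := c.mem_im.1 ha
  exact c.mem_im.2 ⟨_, hA x hx, c.R.mul_mem (c.R.mul_mem h hR) (c.R.inv_mem h)⟩
theorem apply_mem_fix {τ : Ga} (hτ : τ ∈ c.G2) {y : Om} (hy : y ∈ fix c.N2) : τ y ∈ fix c.N2 := by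
  refine mem_fix.2 fun ν hν => ?_
  have h1 := mem_fix.1 hy _ (c.conj_mem_N2 (c.G2.inv_mem hτ) hν)
  have h2 := congrArg τ h1
  rw [← AlgEquiv.mul_apply] at h2
  rw [← AlgEquiv.mul_apply, ← h2]
  congr 1
  group
theorem apply_eq {σ τ τ' : Ga} (h : (σ, τ) ∈ c.R) (h' : (σ, τ') ∈ c.R) {y : Om}
    (hy : y ∈ fix c.N2) : τ y = τ' y := by
  have h1 := congrArg τ (mem_fix.1 hy _ (c.inv_mul_mem_N2 h h'))
  rw [← AlgEquiv.mul_apply, mul_inv_cancel_left] at h1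
  exact h1.symm
theorem root_mem {y : Om} {n : ℕ} (hn : n ≠ 0) (h : y ^ n ∈ fix c.N2) : y ∈ fix c.N2 := by
  exact mem_fix.2 fun ν hν => c.rc y n hn (fun τ hτ => mem_fix.1 h τ hτ) ν hν
theorem N2_le_Gmu {n : ℕ} (hn : n ≠ 0) : c.N2 ≤ Gmu n := by
  intro ν hν z hz
  exact mem_fix.1 (c.root_mem hn (hz ▸ (fix c.N2).one_mem)) ν hν
theorem chi_N2 (t : ℕ) [Fact t.Prime] {ν : Ga} (hν : ν ∈ c.N2) : chi t ν = 1 := by
  rw [← map_one (chi t), chi_eq_iff]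
  intro n z hz
  exact c.N2_le_Gmu (pow_ne_zero n (Fact.out : t.Prime).ne_zero) hν z hz
theorem mem_N2_of_forall (A V0 : Subgroup Ga) (hA : Cl A) (h0 : Op V0) {τ : Ga}
    (h : ∀ W, Op W → W.Normal → W ≤ V0 → τ ∈ c.im (A ⊓ W)) : τ ∈ c.N2 := by
  have hc : IsClosed ((fun σ : Ga => ((σ, τ) : Ga × Ga)) ⁻¹' (c.R : Set (Ga × Ga))) :=
    c.closed.preimage (continuous_id.prodMk continuous_const)
  by_contra hτ
  have h1 : ((fun σ : Ga => ((σ, τ) : Ga × Ga)) ⁻¹' (c.R : Set (Ga × Ga)))ᶜ ∩ (V0 : Set Ga) ∈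
      nhds (1 : Ga) :=
    Filter.inter_mem (hc.isOpen_compl.mem_nhds hτ) (h0.mem_nhds V0.one_mem)
  obtain ⟨W, hW, hn, hsub⟩ := exists_op_normal h1
  obtain ⟨σ, hσ, hR⟩ := c.mem_im.1 (h W hW hn fun x hx => (hsub hx).2)
  exact (hsub hσ.2).1 hR
theorem x_N2 {t : ℕ} [Fact t.Prime] {B : Subgroup Ga} (hB : c.N2 ≤ B) {θ : Ga → ℚ_[t]}
    (hθ : IsX B θ) {ν : Ga} (hν : ν ∈ c.N2) : θ ν = 0 := by
  have ht : t.Prime := Fact.out
  obtain ⟨k, η, hη, he⟩ := (hθ.mono hB).exists_int c.cl_N2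
  have h0 : η ν = 0 := by
    refine PadicInt.ext_of_toZModPow.1 fun n => ?_
    have hf := hη.toZModPow n
    have hn : t ^ n ≠ 0 := pow_ne_zero n ht.ne_zero
    have : NeZero (t ^ n) := ⟨hn⟩
    obtain ⟨ζ, hζ⟩ := HasEnoughRootsOfUnity.exists_primitiveRoot Om (t ^ n)
    have hζ0 : ζ ≠ 0 := hζ.ne_zero hn
    obtain ⟨W, hW, -, hW0⟩ := hf.exists_op
    obtain ⟨w, hw0, hw⟩ := h90 c.cl_N2 (fun a => ζ ^ (PadicInt.toZModPow n (η a)).val)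
      (fun a _ => pow_ne_zero _ hζ0) (fun a ha b hb => by
        have e1 := hf.2 a ha b hb
        simp only at e1 ⊢
        rw [e1, map_pow, c.N2_le_Gmu hn ha ζ hζ.pow_eq_one, ← pow_add, ZMod.val_add,
          ← pow_eq_pow_mod _ hζ.pow_eq_one])
      ⟨W, hW, fun a ha haW => by
        have e1 := hW0 a ha haW
        rw [e1, ZMod.val_zero, pow_zero]⟩
    have hw1 : w ∈ fix c.N2 := c.root_mem hn (mem_fix.2 fun a ha => by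
      rw [map_pow, hw a ha, mul_pow, ← pow_mul, mul_comm _ (t ^ n), pow_mul, hζ.pow_eq_one,
        one_pow, one_mul])
    have h2 := hw ν hν
    rw [mem_fix.1 hw1 ν hν] at h2
    have h3 : ζ ^ (PadicInt.toZModPow n (η ν)).val = 1 :=
      mul_right_cancel₀ hw0 (h2.symm.trans (one_mul w).symm)
    rw [map_zero, ← ZMod.val_eq_zero]
    exact Nat.eq_zero_of_dvd_of_lt (hζ.dvd_of_pow_eq_one _ h3) (ZMod.val_lt _)
  have h4 := he ν hν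
  rw [h0] at h4
  have h5 : (t : ℚ_[t]) ^ k ≠ 0 := pow_ne_zero _ (Nat.cast_ne_zero.2 ht.ne_zero)
  exact (mul_eq_zero.1 h4.symm).resolve_left h5
theorem pull_eq {t : ℕ} [Fact t.Prime] {W : Subgroup Ga} {θ : Ga → ℚ_[t]} (hθ : IsX (c.im W) θ)
    {σ τ : Ga} (hσ : σ ∈ W) (h : (σ, τ) ∈ c.R) : c.pull θ σ = θ τ := by
  have hex : ∃ τ, (σ, τ) ∈ c.R := ⟨τ, h⟩
  have h1 := hex.choose_spec
  have h2 := c.inv_mul_mem_N2 h1 h
  have h3 := hθ.2 _ (c.mem_im.2 ⟨σ, hσ, h1⟩) _ (c.N2_le_im W h2)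
  rw [mul_inv_cancel_left, c.x_N2 (c.N2_le_im W) hθ h2, add_zero] at h3
  unfold pull
  rw [dif_pos hex, h3]
theorem isX_pull {t : ℕ} [Fact t.Prime] {W : Subgroup Ga} (hW : Cl W) (hle : W ≤ c.G1)
    {θ : Ga → ℚ_[t]} (hθ : IsX (c.im W) θ) : IsX W (c.pull θ) := by
  constructor
  · rw [continuousOn_iff_isClosed]
    intro T hT
    have h1 : IsClosed ((c.R : Set (Ga × Ga)) ∩ Prod.fst ⁻¹' (W : Set Ga)) :=
      c.closed.inter (hW.preimage continuous_fst)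
    have h2 : ContinuousOn (fun p : Ga × Ga => θ p.2)
        ((c.R : Set (Ga × Ga)) ∩ Prod.fst ⁻¹' (W : Set Ga)) :=
      hθ.1.comp continuous_snd.continuousOn fun p hp => c.mem_im.2 ⟨p.1, hp.2, hp.1⟩
    have h3 := h2.preimage_isClosed_of_isClosed h1 hT
    refine ⟨_, (h3.isCompact.image continuous_fst).isClosed, ?_⟩
    ext σ
    constructor
    · rintro ⟨hσ, hσW⟩
      obtain ⟨τ, hR⟩ := c.mem_G1.1 (hle hσW)
      refine ⟨⟨(σ, τ), ⟨⟨hR, hσW⟩, ?_⟩, rfl⟩, hσW⟩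
      rw [Set.mem_preimage, c.pull_eq hθ hσW hR] at hσ
      exact hσ
    · rintro ⟨⟨⟨a, b⟩, ⟨⟨hR, ha⟩, hb⟩, rfl⟩, hσW⟩
      refine ⟨?_, hσW⟩
      rw [Set.mem_preimage, c.pull_eq hθ hσW hR]
      exact hb
  · intro a ha b hb
    obtain ⟨x, hx⟩ := c.mem_G1.1 (hle ha)
    obtain ⟨y, hy⟩ := c.mem_G1.1 (hle hb)
    rw [c.pull_eq hθ ha hx, c.pull_eq hθ hb hy, c.pull_eq hθ (W.mul_mem ha hb) (c.R.mul_mem hx hy)]
    exact hθ.2 _ (c.mem_im.2 ⟨a, ha, hx⟩) _ (c.mem_im.2 ⟨b, hb, hy⟩)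
theorem Eqv.refl (Q : Pr) : c.Eqv Q Q := ⟨1, c.N2.one_mem, one_smul _ _⟩
theorem Eqv.symm {Q Q' : Pr} (h : c.Eqv Q Q') : c.Eqv Q' Q := by
  obtain ⟨ν, hν, rfl⟩ := h
  exact ⟨ν⁻¹, c.N2.inv_mem hν, inv_smul_smul _ _⟩
theorem Eqv.trans {Q Q' Q'' : Pr} (h : c.Eqv Q Q') (h' : c.Eqv Q' Q'') : c.Eqv Q Q'' := by
  obtain ⟨ν, hν, rfl⟩ := h
  obtain ⟨μ, hμ, rfl⟩ := h'
  exact ⟨μ * ν, c.N2.mul_mem hμ hν, mul_smul _ _ _⟩
theorem Maps.exists {P Q : Pr} (h : c.Maps P Q) {σ τ : Ga} (hR : (σ, τ) ∈ c.R) (hσ : σ ∈ Dec P) :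
    ∃ τ' ∈ Dec Q, (σ, τ') ∈ c.R := by
  obtain ⟨ν, hν, e⟩ := h σ τ hR hσ
  refine ⟨ν * τ, by rw [mem_Dec, mul_smul, e], ?_⟩
  have := c.R.mul_mem (c.mem_N2.1 hν) hR
  simpa using this
theorem Maps.smul {P Q : Pr} (h : c.Maps P Q) {g γ : Ga} (hg : c.NU g γ) :
    c.Maps (g • P) (γ • Q) := by
  intro σ τ hR hσ
  have h1 : (g⁻¹ * σ * g, γ⁻¹ * τ * γ) ∈ c.R := by
    rw [hg]
    simpa [mul_assoc] using hR
  have h2 : g⁻¹ * σ * g ∈ Dec P := by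
    have := conj_mem_Dec g⁻¹ hσ
    rwa [inv_inv, inv_smul_smul] at this
  obtain ⟨ν, hν, e⟩ := h _ _ h1 h2
  refine ⟨γ * ν * γ⁻¹, ?_, ?_⟩
  · have := (hg 1 ν).1 hν
    rw [c.mem_N2]
    simpa using this
  · rw [← mul_smul, ← mul_smul]
    conv_rhs => rw [← e, ← mul_smul, ← mul_smul]
    exact congrArg (· • Q) (by group)
theorem Ram.smul {r : ℕ} {P : Pr} (h : c.Ram r P) {g γ : Ga} (hg : c.NU g γ) : c.Ram r (g • P) := by
  obtain ⟨σ, τ, y, hσ, hR, hy, h1, h2⟩ := h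
  refine ⟨g * σ * g⁻¹, γ * τ * γ⁻¹, γ y, conj_mem_Ine g hσ, (hg σ τ).1 hR, ?_, ?_, ?_⟩
  · refine mem_fix.2 fun ν hν => ?_
    have h3 : γ⁻¹ * ν * γ ∈ c.N2 := by
      rw [c.mem_N2, hg]
      simpa [mul_assoc] using c.mem_N2.1 hν
    have h4 := congrArg γ (mem_fix.1 hy _ h3)
    rw [← AlgEquiv.mul_apply] at h4
    rw [← AlgEquiv.mul_apply, ← h4]
    congr 1
    group
  · intro e
    rw [← AlgEquiv.mul_apply, inv_mul_cancel_right, AlgEquiv.mul_apply] at e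
    exact h1 (γ.injective e)
  · rw [conj_pow, ← AlgEquiv.mul_apply, inv_mul_cancel_right, AlgEquiv.mul_apply, h2]
theorem nu_of_mem {σ τ : Ga} (h : (σ, τ) ∈ c.R) : c.NU σ τ := by
  intro a b
  constructor
  · intro hab
    exact c.R.mul_mem (c.R.mul_mem h hab) (c.R.inv_mem h)
  · intro hab
    have := c.R.mul_mem (c.R.mul_mem (c.R.inv_mem h) hab) h
    simpa [mul_assoc] using this
theorem NU.mul {g γ g' γ' : Ga} (h : c.NU g γ) (h' : c.NU g' γ') : c.NU (g * g') (γ * γ') := by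
  intro a b
  rw [h' a b, h]
  simp only [mul_assoc, mul_inv_rev]
theorem NU.inv {g γ : Ga} (h : c.NU g γ) : c.NU g⁻¹ γ⁻¹ := by
  intro a b
  rw [h (g⁻¹ * a * g⁻¹⁻¹) (γ⁻¹ * b * γ⁻¹⁻¹)]
  simp [mul_assoc]
theorem Hit.smul {r : ℕ} {Q : Pr} (h : c.Hit r Q) {τ : Ga} (hτ : τ ∈ c.G2) : c.Hit r (τ • Q) := by
  obtain ⟨σ, hR⟩ := c.mem_G2.1 hτ
  obtain ⟨P, h1, h2, h3⟩ := h
  exact ⟨σ • P, by rwa [ch_smul], Ram.smul c h2 (c.nu_of_mem hR), Maps.smul c h3 (c.nu_of_mem hR)⟩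
theorem G1_le_NF : c.G1 ≤ c.NF := by
  intro σ hσ
  refine Subgroup.mem_normalizer_iff.2 fun ν => ⟨c.conj_mem_N1 hσ, fun h => ?_⟩
  have := c.conj_mem_N1 (c.G1.inv_mem hσ) h
  simpa [mul_assoc] using this

/-- restriction of the source to an open subgroup -/
noncomputable def res (W : Subgroup Ga) (hW : Op W) : Corr where
  R := c.R ⊓ W.prod ⊤
  closed := c.closed.inter (hW.cl.prod isClosed_univ)
  open1 := (c.op_G1.inf hW).mono fun σ hσ => by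
    obtain ⟨τ, hR⟩ := c.mem_G1.1 hσ.1
    exact ⟨(σ, τ), ⟨hR, hσ.2, trivial⟩, rfl⟩
  open2 := c.op_im hW
  rc := fun y n hn h τ hτ =>
    c.rc y n hn (fun ν hν => h ν ⟨hν, W.one_mem, trivial⟩) τ hτ.1

theorem exists_std : ∃ (W : Subgroup Ga) (hW : Op W), (c.res W hW).Std := by
  have h4 : Op (Gmu 4) := op_Gmu (by norm_num)
  have h0 : Op (Gmu 4 ⊓ c.pre (Gmu 4)) := h4.inf (c.op_pre h4)
  have hle := (Gmu 4 ⊓ c.pre (Gmu 4)).normalCore_le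
  have e : (c.res _ h0.normalCore).G1 = (Gmu 4 ⊓ c.pre (Gmu 4)).normalCore := by
    ext σ
    rw [mem_G1]
    constructor
    · rintro ⟨τ, hτ⟩
      exact hτ.2.1
    · intro hσ
      obtain ⟨τ, -, hR⟩ := c.mem_pre.1 (hle hσ).2
      exact ⟨τ, hR, hσ, trivial⟩
  refine ⟨_, h0.normalCore, ?_, ?_, ?_⟩
  · rw [e]
    infer_instance
  · rw [e]
    exact hle.trans inf_le_left
  · exact c.im_le_of_le_pre (c.N2_le_Gmu (by norm_num)) (hle.trans inf_le_right)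

theorem HitT.of_res {t : ℕ} [Fact t.Prime] {W : Subgroup Ga} {hW : Op W}
    (h : (c.res W hW).HitT t) : c.HitT t := by
  intro V hV hn
  refine (h V hV hn).mono ?_
  rintro l ⟨P, Q, φ, ψ, τ, h1, h2, h3, h4, h5, h6, h7, h8⟩
  exact ⟨P, Q, φ, ψ, τ, h1, h2, h3, h4, h5, h6, h7.1, h8⟩

end Corr
end Vale.Agent.P024U
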