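import Vale.Agent.P024U.Rig

/-! From a commuting pair of characters to a valuation (Topaz).
`Ψ (-1) = 0` since r is odd.  For u, v, with Ψ u ≠ Ψ v we have u + v ≠ 0 and Ψ (u+v) is on the affine
line through Ψ u, Ψ v (apply hC to -v/u).  Call x bad if Ψ x ≠ 0 and Ψ (1+x) ∉ {0, Ψ x}.
`cpair_bad`: two bad elements x, y have dependent Ψ.  Otherwise take coordinates with Ψ x = (1,0),
Ψ y = (0,1), Ψ(1+x) = (a,0), Ψ(1+y) = (0,b), a, b ≠ 0, 1; c1 = a/(1-a), c2 = b/(1-b); say a point (X,Y)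
has type (i:j:k) if (i + c1 j + c2 k) X = c1 j and (i + c1 j + c2 k) Y = c2 k.  Ψ(x-y) has type (0:1:-1)
(lines x,y and 1+x,1+y).  By induction on k : ℕ, 1+kx ≠ 0 has type (1:k:0) and 1+kx+y ≠ 0 has type
(1:k:1): 1+(k+1)x = (1+kx)+x = (1+kx+y)+(x-y); 1+(k+1)x+y = (1+(k+1)x)+y = (1+kx+y)+x.
For k with 1 + c1 k = 0 in ZMod r the type equation is 0 = -1.
`cpair_val`: T = ker Ψ, H = preimage of the line through a bad x0 (or H = T), apply `rig_val`. -/

namespace Vale.Agent.P024U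

section

variable {K F : Type*} [Field K] [Field F] {f : K → F}

theorem cpair_one (hf : ∀ x y, x ≠ 0 → y ≠ 0 → f (x * y) = f x + f y) : f 1 = 0 := by
  have := hf 1 1 one_ne_zero one_ne_zero
  rw [mul_one] at this
  linear_combination -this

theorem cpair_neg (h2 : (2 : F) ≠ 0) (hf : ∀ x y, x ≠ 0 → y ≠ 0 → f (x * y) = f x + f y) {x : K}
    (hx : x ≠ 0) : f (-x) = f x := by
  have h1 := hf (-1) (-1) (by simp) (by simp)
  rw [neg_mul_neg, mul_one, cpair_one hf] at h1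
  have h3 : f (-1) = 0 := (mul_eq_zero.1 (show 2 * f (-1) = 0 by linear_combination -h1)).resolve_left h2
  have := hf (-1) x (by simp) hx
  rwa [neg_one_mul, h3, zero_add] at this

theorem cpair_div (hf : ∀ x y, x ≠ 0 → y ≠ 0 → f (x * y) = f x + f y) {x y : K} (hx : x ≠ 0)
    (hy : y ≠ 0) : f (x / y) = f x - f y := by
  have := hf (x / y) y (div_ne_zero hx hy) hy
  rw [div_mul_cancel₀ _ hy] at this
  linear_combination -this

variable {g : K → F} (h2 : (2 : F) ≠ 0) (hf : ∀ x y, x ≠ 0 → y ≠ 0 → f (x * y) = f x + f y)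
  (hg : ∀ x y, x ≠ 0 → y ≠ 0 → g (x * y) = g x + g y)
  (hC : ∀ x, x ≠ 0 → 1 - x ≠ 0 → f x * g (1 - x) = g x * f (1 - x))
include h2 hf hg

theorem cpair_ne {u v : K} (hu : u ≠ 0) (h : f u ≠ f v ∨ g u ≠ g v) : u + v ≠ 0 := fun e => by
  obtain rfl : v = -u := eq_neg_of_add_eq_zero_right e
  rw [cpair_neg h2 hf hu, cpair_neg h2 hg hu] at h
  exact h.elim (fun h => h rfl) fun h => h rfl

include hC

theorem cpair_line {u v w : K} (hu : u ≠ 0) (hv : v ≠ 0) (hw : w ≠ 0) (e : w = u + v) :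
    (f v - f u) * (g w - g u) = (g v - g u) * (f w - f u) := by
  have e' : 1 - -v / u = w / u := by rw [e]; field_simp; ring
  have := hC (-v / u) (div_ne_zero (neg_ne_zero.2 hv) hu) (e' ▸ div_ne_zero hw hu)
  rwa [e', cpair_div hf hw hu, cpair_div hg hw hu, cpair_div hf (neg_ne_zero.2 hv) hu,
    cpair_div hg (neg_ne_zero.2 hv) hu, cpair_neg h2 hf hv, cpair_neg h2 hg hv] at this

theorem cpair_core {x y : K} (hx : x ≠ 0) (hy : y ≠ 0) (fx : f x = 1) (gx : g x = 0) (fy : f y = 0)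
    (gy : g y = 1) (a0 : f (1 + x) ≠ 0) (a1 : f (1 + x) ≠ 1) (ga : g (1 + x) = 0)
    (fb : f (1 + y) = 0) (b0 : g (1 + y) ≠ 0) (b1 : g (1 + y) ≠ 1) :
    ∃ c : F, c ≠ 0 ∧ ∀ k : ℕ, 1 + c * k ≠ 0 := by
  have f1 := cpair_one hf
  have g1 := cpair_one hg
  have x1 : 1 + x ≠ 0 := cpair_ne h2 hf hg one_ne_zero (Or.inl (by simp [f1, fx]))
  have y1 : 1 + y ≠ 0 := cpair_ne h2 hf hg one_ne_zero (Or.inr (by simp [g1, gy]))
  have ny := neg_ne_zero.2 hy
  have xy : x + -y ≠ 0 := cpair_ne h2 hf hg hx (Or.inl (by simp [cpair_neg h2 hf hy, fx, fy]))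
  have l1 := cpair_line h2 hf hg hC hx ny xy rfl
  have l2 := cpair_line h2 hf hg hC x1 (neg_ne_zero.2 y1) xy (by ring)
  rw [cpair_neg h2 hf hy, cpair_neg h2 hg hy, fx, gx, fy, gy] at l1
  rw [cpair_neg h2 hf y1, cpair_neg h2 hg y1, ga, fb] at l2
  obtain ⟨c, hc⟩ : ∃ c, (1 + c) * f (1 + x) = c :=
    ⟨f (1 + x) / (1 - f (1 + x)), by have := sub_ne_zero.2 a1.symm; field_simp; ring⟩
  obtain ⟨d, hd⟩ : ∃ d, (1 + d) * g (1 + y) = d :=
    ⟨g (1 + y) / (1 - g (1 + y)), by have := sub_ne_zero.2 b1.symm; field_simp; ring⟩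
  have c1 : 1 + c ≠ 0 := fun h => one_ne_zero (by linear_combination h + hc - f (1 + x) * h : (1 : F) = 0)
  have d1 : 1 + d ≠ 0 := fun h => one_ne_zero (by linear_combination h + hd - g (1 + y) * h : (1 : F) = 0)
  have c0 : c ≠ 0 := fun h => a0 (by linear_combination hc + (1 - f (1 + x)) * h)
  have d0 : d ≠ 0 := fun h => b0 (by linear_combination hd + (1 - g (1 + y)) * h)
  have q0 : d * (1 + c) * f (x + -y) + c * (1 + d) * g (x + -y) = c * d := by
    linear_combination (-(1 + c) * (1 + d)) * l2 - (1 + d) * (g (x + -y) - g (1 + y)) * hc -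
      ((1 + c) * f (x + -y) - c) * hd
  have q1 : (c - d) * f (x + -y) = c := by linear_combination -q0 - c * (1 + d) * l1
  have q2 : (c - d) * g (x + -y) = -d := by linear_combination q0 + d * (1 + c) * l1
  have key : ∀ k : ℕ, (1 + k * x ≠ 0 ∧ (1 + c * k) * f (1 + k * x) = c * k ∧ g (1 + k * x) = 0) ∧
      1 + k * x + y ≠ 0 ∧ (1 + c * k + d) * f (1 + k * x + y) = c * k ∧
        (1 + c * k + d) * g (1 + k * x + y) = d := by
    intro k
    induction k with
    | zero => simp [f1, g1, y1, fb, hd]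
    | succ k ih =>
      obtain ⟨⟨u0, u1, u2⟩, w0, w1, w2⟩ := ih
      have e : 1 + ((k + 1 : ℕ) : K) * x = 1 + k * x + x := by push_cast; ring
      have n1 : f (1 + k * x) ≠ 1 := fun h => one_ne_zero (by
        rw [h] at u1; linear_combination u1 : (1 : F) = 0)
      have U0 : 1 + k * x + x ≠ 0 := cpair_ne h2 hf hg u0 (Or.inl (by rwa [fx]))
      have m1 := cpair_line h2 hf hg hC u0 hx U0 rfl
      rw [fx, gx, u2] at m1
      have U2 : g (1 + k * x + x) = 0 :=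
        (mul_eq_zero.1 (show (1 - f (1 + k * x)) * g (1 + k * x + x) = 0 by
          linear_combination m1)).resolve_left (sub_ne_zero.2 n1.symm)
      have m2 := cpair_line h2 hf hg hC w0 xy U0 (by ring)
      rw [U2] at m2
      have U1 : (1 + c * (k + 1)) * f (1 + k * x + x) = c * (k + 1) := by
        refine mul_left_cancel₀ d0 ?_
        linear_combination ((1 + c * k + d) * (c - d)) * m2
          + ((1 + c * k + d) * g (1 + k * x + y)) * q1 + c * w2
          + ((1 + c * k + d) * f (1 + k * x + x)) * q2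
          - ((1 + c * k + d) * f (1 + k * x + y)) * q2 + d * w1
          - ((c - d) * f (1 + k * x + x)) * w2
      have W0 : 1 + k * x + x + y ≠ 0 := cpair_ne h2 hf hg U0 (Or.inr (by simp [U2, gy]))
      have m3 := cpair_line h2 hf hg hC U0 hy W0 rfl
      have m4 := cpair_line h2 hf hg hC w0 hx W0 (by ring)
      rw [fy, gy, U2] at m3
      rw [fx, gx] at m4
      have r1 : f (1 + k * x + x + y) * (1 + c * (k + 1)) +
          (g (1 + k * x + x + y) - 1) * (c * (k + 1)) = 0 := by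
        linear_combination (-(1 + c * (k + 1))) * m3 - (g (1 + k * x + x + y) - 1) * U1
      have r2 : (1 + d) * g (1 + k * x + x + y) = d * (1 - f (1 + k * x + x + y)) := by
        linear_combination (1 + c * k + d) * m4 + (1 - f (1 + k * x + x + y)) * w2 +
          g (1 + k * x + x + y) * w1
      have W1 : (1 + c * (k + 1) + d) * f (1 + k * x + x + y) = c * (k + 1) := by
        linear_combination (1 + d) * r1 - c * (k + 1) * r2
      rw [e]
      push_cast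
      refine ⟨⟨U0, U1, U2⟩, W0, W1, mul_left_cancel₀ d1 ?_⟩
      linear_combination (1 + c * (k + 1) + d) * r2 - d * W1
  refine ⟨c, c0, fun k h => one_ne_zero (α := F) ?_⟩
  linear_combination h + (key k).1.2.1 - f (1 + k * x) * h

/-- two bad elements have dependent images -/
theorem cpair_bad (hF : ∀ c : F, c ≠ 0 → ∃ k : ℕ, 1 + c * k = 0) {x y : K} (hx : x ≠ 0) (hy : y ≠ 0)
    (a0 : ¬(f (1 + x) = 0 ∧ g (1 + x) = 0)) (a1 : ¬(f (1 + x) = f x ∧ g (1 + x) = g x))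
    (b0 : ¬(f (1 + y) = 0 ∧ g (1 + y) = 0)) (b1 : ¬(f (1 + y) = f y ∧ g (1 + y) = g y)) :
    f x * g y = g x * f y := by
  by_contra h
  have D0 : f x * g y - g x * f y ≠ 0 := sub_ne_zero.2 h
  obtain ⟨E, hE⟩ : ∃ E, E * (f x * g y - g x * f y) = 1 := ⟨_, inv_mul_cancel₀ D0⟩
  have f1 := cpair_one hf
  have g1 := cpair_one hg
  have x1 : 1 + x ≠ 0 := cpair_ne h2 hf hg one_ne_zero (by
    rw [f1, g1]
    by_contra hh
    push Not at hh
    exact D0 (by rw [← hh.1, ← hh.2]; ring))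
  have y1 : 1 + y ≠ 0 := cpair_ne h2 hf hg one_ne_zero (by
    rw [f1, g1]
    by_contra hh
    push Not at hh
    exact D0 (by rw [← hh.1, ← hh.2]; ring))
  have l1 := cpair_line h2 hf hg hC one_ne_zero hx x1 rfl
  have l2 := cpair_line h2 hf hg hC one_ne_zero hy y1 rfl
  rw [f1, g1] at l1 l2
  have ga : E * (f x * g (1 + x) - g x * f (1 + x)) = 0 := by linear_combination E * l1
  have fb : E * (f (1 + y) * g y - g (1 + y) * f y) = 0 := by linear_combination -E * l2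
  have inv : ∀ z, f z = E * (f z * g y - g z * f y) * f x + E * (f x * g z - g x * f z) * f y ∧
      g z = E * (f z * g y - g z * f y) * g x + E * (f x * g z - g x * f z) * g y := fun z =>
    ⟨by linear_combination -f z * hE, by linear_combination -g z * hE⟩
  obtain ⟨c, c0, hc⟩ := cpair_core (f := fun z => E * (f z * g y - g z * f y))
    (g := fun z => E * (f x * g z - g x * f z)) h2
    (fun u v hu hv => by rw [hf u v hu hv, hg u v hu hv]; ring)
    (fun u v hu hv => by rw [hf u v hu hv, hg u v hu hv]; ring)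
    (fun u hu hu' => by linear_combination E * hC u hu hu' +
      E * (f u * g (1 - u) - g u * f (1 - u)) * hE) hx hy hE (by ring) (by ring) hE
    (fun e => a0 (by have := inv (1 + x); rw [e, ga] at this; simpa using this))
    (fun e => a1 (by have := inv (1 + x); rw [e, ga] at this; simpa using this)) ga fb
    (fun e => b0 (by have := inv (1 + y); rw [e, fb] at this; simpa using this))
    (fun e => b1 (by have := inv (1 + y); rw [e, fb] at this; simpa using this))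
  obtain ⟨k, hk⟩ := hF c c0
  exact hc k hk

end

theorem cpair_val {K : Type*} [Field K] {r : ℕ} [Fact r.Prime] (hr : r ≠ 2)
    (Ψ : K → ZMod r × ZMod r)
    (hmul : ∀ x y, x ≠ 0 → y ≠ 0 → Ψ (x * y) = Ψ x + Ψ y)
    (hsurj : ∀ v, ∃ x, x ≠ 0 ∧ Ψ x = v)
    (hC : ∀ x, x ≠ 0 → 1 - x ≠ 0 → (Ψ x).1 * (Ψ (1 - x)).2 = (Ψ x).2 * (Ψ (1 - x)).1) :
    ∃ V : ValuationSubring K, V ≠ ⊤ ∧ ∀ m : K, V.valuation m < 1 → Ψ (1 + m) = 0 := by
  have h2 : (2 : ZMod r) ≠ 0 := fun h => hr ((Nat.prime_dvd_prime_iff_eq Fact.out Nat.prime_two).1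
    ((ZMod.natCast_eq_zero_iff 2 r).1 (by exact_mod_cast h)))
  have hf : ∀ x y, x ≠ 0 → y ≠ 0 → (Ψ (x * y)).1 = (Ψ x).1 + (Ψ y).1 := fun x y hx hy => by
    rw [hmul x y hx hy]; rfl
  have hg : ∀ x y, x ≠ 0 → y ≠ 0 → (Ψ (x * y)).2 = (Ψ x).2 + (Ψ y).2 := fun x y hx hy => by
    rw [hmul x y hx hy]; rfl
  have hF : ∀ c : ZMod r, c ≠ 0 → ∃ k : ℕ, 1 + c * k = 0 := fun c hc =>
    ⟨(-c⁻¹).val, by rw [ZMod.natCast_zmod_val, mul_neg, mul_inv_cancel₀ hc, add_neg_cancel]⟩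
  have f1 : (Ψ 1).1 = 0 := cpair_one (f := fun x => (Ψ x).1) hf
  have g1 : (Ψ 1).2 = 0 := cpair_one (f := fun x => (Ψ x).2) hg
  obtain ⟨v, v0, hv⟩ : ∃ v : ZMod r × ZMod r, v ≠ 0 ∧ ∀ x, x ≠ 0 → Ψ (1 + x) ≠ 0 →
      Ψ (1 + x) ≠ Ψ x → v.1 * (Ψ x).2 = v.2 * (Ψ x).1 := by
    by_cases h : ∃ x, x ≠ 0 ∧ Ψ x ≠ 0 ∧ Ψ (1 + x) ≠ 0 ∧ Ψ (1 + x) ≠ Ψ x
    · obtain ⟨x, hx, h0, h1, h3⟩ := h
      exact ⟨Ψ x, h0, fun y hy k1 k3 => cpair_bad (f := fun x => (Ψ x).1) (g := fun x => (Ψ x).2) h2 hf hg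
        hC hF hx hy
        (fun e => h1 (Prod.ext e.1 e.2)) (fun e => h3 (Prod.ext e.1 e.2))
        (fun e => k1 (Prod.ext e.1 e.2)) fun e => k3 (Prod.ext e.1 e.2)⟩
    · refine ⟨(1, 0), by simp, fun y hy k1 k3 => ?_⟩
      have : Ψ y = 0 := by_contra fun e => h ⟨y, hy, e, k1, k3⟩
      simp [this]
  have p1 : Ψ 1 = 0 := Prod.ext f1 g1
  have pinv : ∀ u : Kˣ, Ψ (u⁻¹ : Kˣ) = -Ψ u := fun u => by
    have := hmul (u⁻¹ : Kˣ) u (Units.ne_zero _) u.ne_zero
    rw [Units.inv_mul, p1] at this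
    exact eq_neg_of_add_eq_zero_left this.symm
  let ψ : Kˣ →* Multiplicative (ZMod r × ZMod r) :=
    { toFun := fun u => Multiplicative.ofAdd (Ψ u)
      map_one' := congrArg Multiplicative.ofAdd p1
      map_mul' := fun a b => congrArg Multiplicative.ofAdd (hmul a b a.ne_zero b.ne_zero) }
  let δ : Kˣ →* Multiplicative (ZMod r) :=
    { toFun := fun u => Multiplicative.ofAdd (v.1 * (Ψ u).2 - v.2 * (Ψ u).1)
      map_one' := congrArg Multiplicative.ofAdd (by simp [p1])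
      map_mul' := fun a b => congrArg Multiplicative.ofAdd (by
        rw [Units.val_mul, hf _ _ a.ne_zero b.ne_zero, hg _ _ a.ne_zero b.ne_zero]
        change _ = (_ : ZMod r) + _
        simp only [toAdd_ofAdd]
        ring) }
  have mT : ∀ u : Kˣ, u ∈ ψ.ker ↔ Ψ u = 0 := fun u => Iff.rfl
  have mH : ∀ u : Kˣ, u ∈ δ.ker ↔ v.1 * (Ψ u).2 - v.2 * (Ψ u).1 = 0 := fun u => Iff.rfl
  obtain ⟨V, hV, h⟩ := rig_val ψ.ker δ.ker (fun u hu => (mH u).2 (by simp [(mT u).1 hu]))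
    ((mT _).2 (Prod.ext ((cpair_neg (f := fun x => (Ψ x).1) h2 hf one_ne_zero).trans f1)
      ((cpair_neg (f := fun x => (Ψ x).2) h2 hg one_ne_zero).trans g1))) (fun x hx => by
      rw [mH] at hx
      have x1 : 1 + (x : K) ≠ 0 := cpair_ne (f := fun x => (Ψ x).1) (g := fun x => (Ψ x).2) h2 hf hg
        one_ne_zero (by
        rw [f1, g1]
        by_contra hh
        push Not at hh
        exact hx (by rw [← hh.1, ← hh.2]; ring))
      refine ⟨Units.mk0 _ x1, rfl, ?_⟩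
      by_contra hh
      rw [not_or, mT, mT] at hh
      refine hx (sub_eq_zero.2 (hv x x.ne_zero hh.1 fun e => hh.2 ?_))
      rw [div_eq_mul_inv, Units.val_mul, hmul _ _ (Units.ne_zero _) (Units.ne_zero _), pinv,
        Units.val_mk0, e, add_neg_cancel]) (fun x hx => by
      rw [mH] at hx ⊢
      rw [sq, Units.val_mul, hf _ _ x.ne_zero x.ne_zero, hg _ _ x.ne_zero x.ne_zero] at hx
      exact (mul_eq_zero.1 (show 2 * (v.1 * (Ψ x).2 - v.2 * (Ψ x).1) = 0 by
        linear_combination hx)).resolve_left h2) (fun e => v0 (by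
      obtain ⟨x, hx, ex⟩ := hsurj (0, 1)
      obtain ⟨y, hy, ey⟩ := hsurj (1, 0)
      have a := (mH (Units.mk0 x hx)).1 (e ▸ Subgroup.mem_top _)
      have b := (mH (Units.mk0 y hy)).1 (e ▸ Subgroup.mem_top _)
      rw [Units.val_mk0, ex] at a
      rw [Units.val_mk0, ey] at b
      exact Prod.ext (by simpa using a) (by simpa using b)))
  refine ⟨V, hV, fun m hm => ?_⟩
  obtain ⟨y, hy, e⟩ := h m hm
  rw [← e]
  exact (mT y).1 hy

end Vale.Agent.P024U
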