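import Vale.Agent.P024U.Dec

/-! Hensel property and uniqueness (F. K. Schmidt).
`hens_of_dec`: `∏ (1 - z) = 1 - x` over the `r^n` roots `z` of `x`, so for `M` large some root has `val (z - 1) > 1`; it is unique (`root_eq_one'`), fixed by `Dec Q ∩ T` and by `N`.
`hens_of_one`: induction on `n`; a root `z` of `x ≡ 1` is congruent to an `r`-th root of unity (`∏ (z - ζ^i) = x - 1`), divide by it.
`fks`: if `Q0`, `Q1` differ on `fix T0` then by `approx` every `a ∈ fix T0`, `a ≠ 0`, is `b * (a/b)` with `b` an `r^n`-th power in `fix T0` and `a / b` an `r^n`-th power in `fix T1`.  Taking the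
norm over `T0 / T1` (index `k = r^c k'`, `n = c + 1`): `a^k = y^(r^(c+1))`, so `a^k' = y^r η` with `η^(r^c) = 1`, `η ∈ fix T0`.  The group of such `η` is cyclic, so for `a, b` as in `Dim2` some
`a^(k' i) b^(k' j)` with `i, j` not both divisible by `r` is an `r`-th power.  Then `trans_pr`. -/

namespace Vale.Agent.P024U

theorem FKS_add {P : Pr} {q : ℚ} {x y : Om} (hx : x = 0 ∨ q < val P x) (hy : y = 0 ∨ q < val P y) :
    x + y = 0 ∨ q < val P (x + y) := by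
  rcases hx with rfl | hx
  · rwa [zero_add]
  rcases hy with rfl | hy
  · rw [add_zero]; exact Or.inr hx
  exact (Sm.add ((sm_val P x).mono (min_le_left _ (val P y)))
    ((sm_val P y).mono (min_le_right (val P x) _))).imp_right fun h => (lt_min hx hy).trans_le h

/-- some factor of `x ^ n - y ^ n` has at least average valuation -/
theorem FKS_fac {P : Pr} {n : ℕ} (hn : n ≠ 0) {x y : Om} {q : ℚ} (h0 : x ^ n - y ^ n ≠ 0)
    (h : n * q < val P (x ^ n - y ^ n)) : ∃ ζ : Om, ζ ^ n = 1 ∧ q < val P (x - ζ * y) := by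
  have : NeZero n := ⟨hn⟩
  obtain ⟨ξ, hξ⟩ := HasEnoughRootsOfUnity.exists_primitiveRoot Om n
  have e := hξ.pow_sub_pow_eq_prod_sub_mul x y (Nat.pos_of_ne_zero hn)
  rw [e] at h h0
  rw [val_prod P _ _ (Finset.prod_ne_zero_iff.1 h0)] at h
  obtain ⟨ζ, h1, h2⟩ := Finset.exists_lt_of_sum_lt (f := fun _ => q) (lt_of_eq_of_lt (by
    rw [Finset.sum_const, hξ.card_nthRootsFinset, nsmul_eq_mul]) h)
  exact ⟨ζ, (Polynomial.mem_nthRootsFinset (Nat.pos_of_ne_zero hn) 1).1 h1, h2⟩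

theorem FKS_uniq {P : Pr} {n : ℕ} (hn : n ≠ 0) {z w : Om} (h : z ^ n = w ^ n)
    (hz : 1 < val P (z - 1)) (hw : 1 < val P (w - 1)) : z = w := by
  have h1 := val_add_of_lt (P := P) (x := 1) (y := w - 1) one_ne_zero
    (Or.inr (by rw [val_one]; linarith))
  rw [add_sub_cancel, val_one] at h1
  have h2 := FKS_add (Or.inr hz) (y := -(w - 1)) (Or.inr (by rwa [val_neg]))
  have h3 : z / w - 1 = (z - 1 + -(w - 1)) / w := by field_simp [h1.1]; ring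
  have h4 : z / w = 1 := by
    refine root_eq_one' (P := P) hn (by rw [div_pow, h, div_self (pow_ne_zero _ h1.1)]) ?_
    rw [h3]
    by_cases h5 : z - 1 + -(w - 1) = 0
    · left; rw [h5, zero_div]
    · right
      rw [val_div P h5 h1.1, h1.2, sub_zero]
      exact h2.resolve_left h5
  exact (div_eq_one_iff_eq h1.1).1 h4

theorem hens_of_dec {T N : Subgroup Ga} {r : ℕ} (hr : r ≠ 0) {Q : Pr} (hNT : N ≤ T)
    (hN : ∀ (y : Om) (n : ℕ), n ≠ 0 → y ^ n ∈ fix N → y ∈ fix N)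
    (hT : ∀ τ ∈ T, ∃ τ' ∈ Dec Q, τ⁻¹ * τ' ∈ N) : Hens T r Q := by
  intro n
  have hn : r ^ n ≠ 0 := pow_ne_zero _ hr
  refine ⟨(r ^ n : ℕ) + 1, fun x hx h => ?_⟩
  by_cases h1 : x - 1 = 0
  · exact ⟨1, one_mem _, by rw [one_pow, sub_eq_zero.1 h1]⟩
  obtain ⟨y, rfl⟩ := IsAlgClosed.exists_pow_nat_eq x (Nat.pos_of_ne_zero hn)
  have e : (1 : Om) ^ r ^ n - y ^ r ^ n = -(y ^ r ^ n - 1) := by rw [one_pow, neg_sub]
  obtain ⟨ζ, h2, h3⟩ := FKS_fac (P := Q) (q := 1) hn (x := 1) (y := y)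
    (by rw [e]; exact neg_ne_zero.2 h1)
    (by rw [e, val_neg]; linarith [h.resolve_left h1])
  rw [← val_neg, neg_sub] at h3
  have h4 : (ζ * y) ^ r ^ n = y ^ r ^ n := by rw [mul_pow, h2, one_mul]
  have h5 : y ^ r ^ n ∈ fix N := mem_fix.2 fun g hg => mem_fix.1 hx g (hNT hg)
  have h6 := hN _ _ hn (h4 ▸ h5)
  refine ⟨ζ * y, mem_fix.2 fun τ hτ => ?_, h4⟩
  obtain ⟨τ', h7, h8⟩ := hT τ hτ
  have h9 : ∀ u ∈ fix N, τ' u = τ u := fun u hu => by
    conv_rhs => rw [← mem_fix.1 hu _ h8, ← AlgEquiv.mul_apply, mul_inv_cancel_left]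
  rw [← h9 _ h6]
  refine FKS_uniq (P := Q) hn ?_ ?_ h3
  · rw [← map_pow, h4, h9 _ h5, mem_fix.1 hx τ hτ]
  · rwa [← map_one τ', ← map_sub, val_dec h7]

theorem hens_of_one {T : Subgroup Ga} {r : ℕ} (hr : r.Prime) (hμ : T ≤ Gmu r) {Q : Pr}
    (hQ : ch Q ≠ r) (h : ∀ x ∈ fix T, Pos Q (x - 1) → ∃ z ∈ fix T, z ^ r = x) : Hens T r Q := by
  have _ := hQ
  have h1 : ∀ x ∈ fix T, Pos Q (x - 1) → ∃ z ∈ fix T, Pos Q (z - 1) ∧ z ^ r = x := by
    intro x hx hp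
    by_cases h0 : x - 1 = 0
    · exact ⟨1, one_mem _, Or.inl (sub_self _), by rw [one_pow, sub_eq_zero.1 h0]⟩
    obtain ⟨z, hz, rfl⟩ := h x hx hp
    obtain ⟨ζ, h2, h3⟩ := FKS_fac (P := Q) (q := 0) hr.ne_zero (x := z) (y := 1)
      (by rwa [one_pow]) (by rw [one_pow, mul_zero]; exact hp.resolve_left h0)
    have h4 : ζ ≠ 0 := by
      rintro rfl
      rw [zero_pow hr.ne_zero] at h2
      exact zero_ne_one h2
    have h5 : ζ ∈ fix T := mem_fix.2 fun g hg => hμ hg ζ h2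
    refine ⟨z / ζ, div_mem hz h5, ?_, by rw [div_pow, h2, div_one]⟩
    have e : z / ζ - 1 = (z - ζ * 1) / ζ := by field_simp
    by_cases h6 : z - ζ * 1 = 0
    · left; rw [e, h6, zero_div]
    · right
      rwa [e, val_div Q h6 h4, val_of_pow_eq_one Q hr.ne_zero h2, sub_zero]
  have h2 : ∀ n : ℕ, ∀ x ∈ fix T, Pos Q (x - 1) → ∃ z ∈ fix T, z ^ r ^ n = x := by
    intro n
    induction n with
    | zero => exact fun x hx _ => ⟨x, hx, by simp⟩
    | succ n ih =>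
      intro x hx hp
      obtain ⟨z, hz, hp', rfl⟩ := h1 x hx hp
      obtain ⟨w, hw, rfl⟩ := ih z hz hp'
      exact ⟨w, hw, by rw [pow_succ, pow_mul]⟩
  exact fun n => ⟨1, fun x hx hs => h2 n x hx (hs.imp_right fun h => one_pos.trans_le h)⟩

theorem Hens.smul {T : Subgroup Ga} {r : ℕ} {Q : Pr} (h : Hens T r Q) {τ : Ga}
    (hτ : ∀ a, a ∈ T ↔ τ * a * τ⁻¹ ∈ T) : Hens T r (τ • Q) := by
  intro n
  obtain ⟨M, hM⟩ := h n
  refine ⟨M, fun x hx hs => ?_⟩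
  have h1 : τ⁻¹ x ∈ fix T := mem_fix.2 fun a ha => by
    conv_rhs => rw [← mem_fix.1 hx _ ((hτ a).1 ha)]
    rw [← AlgEquiv.mul_apply, ← AlgEquiv.mul_apply]
    congr 1
    group
  have h2 := hs.smul τ⁻¹
  rw [inv_smul_smul, map_sub, map_one] at h2
  obtain ⟨z, hz, h3⟩ := hM _ h1 h2
  refine ⟨τ z, mem_fix.2 fun a ha => ?_, ?_⟩
  · have h4 : τ⁻¹ * a * τ ∈ T := (hτ _).2 (by simpa [mul_assoc] using ha)
    conv_rhs => rw [← mem_fix.1 hz _ h4]
    rw [← AlgEquiv.mul_apply, ← AlgEquiv.mul_apply]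
    congr 1
    group
  · rw [← map_pow, h3, ← AlgEquiv.mul_apply, mul_inv_cancel, AlgEquiv.one_apply]

/-- the norm of a root -/
theorem FKS_norm {T0 T1 : Subgroup Ga} (hi : T1.relIndex T0 ≠ 0) {a y : Om} {m : ℕ}
    (ha : a ∈ fix T0) (hy : y ∈ fix T1) (h : y ^ m = a) :
    ∃ z ∈ fix T0, z ^ m = a ^ T1.relIndex T0 := by
  classical
  have : (T1.subgroupOf T0).FiniteIndex := ⟨hi⟩
  have := Fintype.ofFinite (T0 ⧸ T1.subgroupOf T0)
  have h1 : ∀ g : T0, (((g : T0 ⧸ T1.subgroupOf T0).out : T0) : Ga) y = (g : Ga) y := fun g => by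
    obtain ⟨s, hs⟩ := QuotientGroup.mk_out_eq_mul (T1.subgroupOf T0) g
    rw [hs, Subgroup.coe_mul, AlgEquiv.mul_apply, mem_fix.1 hy _ (Subgroup.mem_subgroupOf.1 s.2)]
  refine ⟨∏ c : T0 ⧸ T1.subgroupOf T0, ((c.out : T0) : Ga) y, mem_fix.2 fun t ht => ?_, ?_⟩
  · rw [map_prod]
    refine Fintype.prod_equiv (MulAction.toPerm (⟨t, ht⟩ : T0)) _ _ fun c => ?_
    rw [MulAction.toPerm_apply, ← MulAction.Quotient.mk_smul_out, h1]
    rfl
  · rw [← Finset.prod_pow, Finset.prod_congr rfl (g := fun _ => a) fun c _ => by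
      rw [← map_pow, h, mem_fix.1 ha _ (c.out).2]]
    rw [Finset.prod_const, Finset.card_univ, ← Nat.card_eq_fintype_card]
    rfl

theorem FKS_cyc {K : Type*} [Field K] {m : ℕ} (hm : m ≠ 0) {a b : K} (ha : a ^ m = 1)
    (hb : b ^ m = 1) : ∃ (g : K) (s t : ℕ), g ^ s = a ∧ g ^ t = b := by
  have : NeZero m := ⟨hm⟩
  obtain ⟨g, hg⟩ := IsCyclic.exists_monoid_generator (α := rootsOfUnity m K)
  obtain ⟨s, hs⟩ := hg (rootsOfUnity.mkOfPowEq a ha)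
  obtain ⟨t, ht⟩ := hg (rootsOfUnity.mkOfPowEq b hb)
  refine ⟨((g : Kˣ) : K), s, t, ?_, ?_⟩
  · simpa using congrArg (fun u : rootsOfUnity m K => ((u : Kˣ) : K)) hs
  · simpa using congrArg (fun u : rootsOfUnity m K => ((u : Kˣ) : K)) ht

theorem fks {T0 T1 : Subgroup Ga} (hcl : Cl T0) (hle : T1 ≤ T0) (hi : T1.relIndex T0 ≠ 0) {r : ℕ}
    (hr : r.Prime) (hd : Dim2 T0 r) {Q0 Q1 : Pr} (h0 : Hens T0 r Q0) (h1 : Hens T1 r Q1) :
    ∃ τ ∈ T0, τ • Q0 = Q1 := by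
  refine trans_pr hcl Q0 Q1 fun x hx => ?_
  by_contra hne
  obtain ⟨c, k, hk, e⟩ := Nat.exists_eq_pow_mul_and_not_dvd hi r hr.ne_one
  obtain ⟨M0, H0⟩ := h0 (c + 1)
  obtain ⟨M1, H1⟩ := h1 (c + 1)
  have key : ∀ a ∈ fix T0, a ≠ 0 → ∃ y ∈ fix T0, ∃ η ∈ fix T0, η ^ r ^ c = 1 ∧ a ^ k = y ^ r * η := by
    intro a ha a0
    obtain ⟨b, hb, s1, s0⟩ := approx (fix T0) Q1 Q0 ⟨x, hx, fun h => hne h.symm⟩ a ha
      (max (max M0 1) (M1 + val Q1 a))
    have b0 : b ≠ 0 := by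
      rintro rfl
      rcases s0.mono ((le_max_right M0 1).trans (le_max_left _ _)) with h | h
      · simp at h
      · rw [zero_sub, val_neg, val_one] at h
        exact absurd h (by norm_num)
    obtain ⟨u, hu, eu⟩ := H0 b hb (s0.mono ((le_max_left M0 1).trans (le_max_left _ _)))
    have up : ∀ {z}, z ∈ fix T0 → z ∈ fix T1 := fun hz =>
      mem_fix.2 fun g hg => mem_fix.1 hz g (hle hg)
    obtain ⟨w, hw, ew⟩ := H1 (b / a) (up (div_mem hb ha)) (by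
      have := (s1.mono (le_max_right _ _)).mul (sm_val Q1 a⁻¹)
      rwa [val_inv, add_neg_cancel_right, sub_mul, mul_inv_cancel₀ a0, ← div_eq_mul_inv] at this)
    obtain ⟨y, hy, ey⟩ := FKS_norm hi (m := r ^ (c + 1)) ha (div_mem (up hu) hw)
      (by rw [div_pow, eu, ew]; field_simp)
    have y0 : y ≠ 0 := by
      rintro rfl
      rw [zero_pow (pow_ne_zero _ hr.ne_zero)] at ey
      exact pow_ne_zero _ a0 ey.symm
    refine ⟨y, hy, a ^ k / y ^ r, div_mem (pow_mem ha _) (pow_mem hy _), ?_, by field_simp⟩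
    rw [div_pow, ← pow_mul, ← pow_mul, ← pow_succ', ey, e, mul_comm, div_self (pow_ne_zero _ a0)]
  obtain ⟨a, ha, b, hb, a0, b0, H⟩ := hd
  obtain ⟨y, hy, η, hη, e1, e2⟩ := key a ha a0
  obtain ⟨z, hz, θ, hθ, e3, e4⟩ := key b hb b0
  obtain ⟨g, s, t, hs, ht⟩ := FKS_cyc (K := fix T0) (pow_ne_zero c hr.ne_zero) (a := ⟨η, hη⟩)
    (b := ⟨θ, hθ⟩) (Subtype.ext e1) (Subtype.ext e3)
  replace hs : (g : Om) ^ s = η := congrArg Subtype.val hs
  replace ht : (g : Om) ^ t = θ := congrArg Subtype.val ht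
  by_cases hs' : r ∣ s
  · obtain ⟨s, rfl⟩ := hs'
    refine hk (H k 0 ⟨y * g ^ s, mul_mem hy (pow_mem g.2 _), ?_⟩).1
    rw [e2, ← hs]
    ring
  · obtain ⟨r', hr'⟩ : ∃ r', r = r' + 1 := ⟨r - 1, by have := hr.pos; omega⟩
    refine ((Nat.Prime.dvd_mul hr).1 (H (k * (r' * t)) (k * s) ⟨y ^ (r' * t) * z ^ s * g ^ (s * t),
      mul_mem (mul_mem (pow_mem hy _) (pow_mem hz _)) (pow_mem g.2 _), ?_⟩).2).elim hk hs'
    rw [pow_mul a, pow_mul b, e2, e4, ← hs, ← ht, hr']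
    ring

end Vale.Agent.P024U
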