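import Vale.Agent.P024U.DimT
import Vale.Agent.P024U.CPair
import Vale.Agent.P024U.FKS
import Vale.Agent.P024U.Kum

/-! Existence of a Hensel prime.  `T = im (Dec P ⊓ V)`, `L = fix T`, `x, y ∈ T` images of `σ0, φ` (`loc_struct`).  For `a ∈ L`, `a ≠ 0`, `u^r = a`: `Ψ a` = exponents of `x u / u`, `y u / u` in a primitive root `ζ`.
If `Ψ a = 0` then `u ∈ L` (action of `T` on the roots of `a`: `J` acts trivially, `T` is generated by `x, y`).  `Ψ` is onto by `dim_two` (its image is a subspace and `Ψ a, Ψ b` are independent).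
Commuting pair: let `u^r = a`, `S` = set of all `ζ^i u` and all `z` with `z^r = 1 - ζ^i u`; every `τ ∈ T` has `τ^(r^2)` trivial on `S`, so `J` acts trivially and `x^q = x` (`q ≡ 1 mod r^2` since
`φ ∈ Gmu (r^2)`, `IsFrob.root`), the action is commutative.  If `Ψ a`, `Ψ (1-a)` are independent choose `s ∈ T` with `s u = ζ u` and `ρ ∈ T` with `ρ u = u`, moving the roots of `1 - a`;
for `w^r = 1 - u`, `ρ w = η w`, and `ρ (s^i w) = η s^i w`, so `ρ` fixes `∏ s^i w`, a root of `1 - a`: contradiction.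
`cpair_val` on `L`, `pr_of_valuation`.  If `ch Q = r`: every `Q`-unit `a` of `L` has `a^n ≡ 1` with `r ∤ n` (`pow_sub_one_pos`) so `Ψ a = 0`, and for `a, b` some `a^i b^j` with
integers `i, j` not both divisible by `r` is a unit; contradiction with surjectivity.  Then `hens_of_one`. -/

namespace Vale.Agent.P024U

open Classical in
/-- the exponent of `t u / u` in the root of unity `ζ` -/
noncomputable def dpsiK (r : ℕ) (ζ : Om) (t : Ga) (u : Om) : ZMod r :=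
  if h : ∃ e : ZMod r, t u = ζ ^ e.val * u then h.choose else 0

section
variable {r : ℕ} [NeZero r] {ζ : Om}

theorem dpsiK_spec (hζ : IsPrimitiveRoot ζ r) {t : Ga} {u : Om} (h : t (u ^ r) = u ^ r) :
    t u = ζ ^ (dpsiK r ζ t u).val * u := by
  have hex : ∃ e : ZMod r, t u = ζ ^ e.val * u := by
    by_cases hu : u = 0
    · exact ⟨0, by simp [hu]⟩
    · have h1 : (t u / u) ^ r = 1 := by
        rw [div_pow, ← map_pow, h, div_self (pow_ne_zero _ hu)]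
      obtain ⟨i, hi, e⟩ := hζ.eq_pow_of_pow_eq_one h1
      refine ⟨i, ?_⟩
      rw [ZMod.val_cast_of_lt hi, e]
      field_simp
  rw [dpsiK, dif_pos hex]
  exact hex.choose_spec

theorem dpsiK_eq (hζ : IsPrimitiveRoot ζ r) {t : Ga} {u : Om} (hu : u ≠ 0) {e : ZMod r}
    (h : t u = ζ ^ e.val * u) : dpsiK r ζ t u = e := by
  have h1 : t (u ^ r) = u ^ r := by
    rw [map_pow, h, mul_pow, ← pow_mul, mul_comm e.val, pow_mul, hζ.pow_eq_one]
    simp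
  have h2 := dpsiK_spec hζ h1
  rw [h] at h2
  have h3 := mul_right_cancel₀ hu h2
  exact (ZMod.val_injective r (hζ.pow_inj (ZMod.val_lt _) (ZMod.val_lt _) h3)).symm

theorem dpsiK_mul (hζ : IsPrimitiveRoot ζ r) {t : Ga} {u v : Om} (hu : u ≠ 0) (hv : v ≠ 0)
    (h : t (u ^ r) = u ^ r) (h' : t (v ^ r) = v ^ r) :
    dpsiK r ζ t (u * v) = dpsiK r ζ t u + dpsiK r ζ t v := by
  apply dpsiK_eq hζ (mul_ne_zero hu hv)
  rw [dimT_pow_val hζ.pow_eq_one, map_mul]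
  conv_lhs => rw [dpsiK_spec hζ h, dpsiK_spec hζ h']
  ring

theorem dpsiK_zero (hζ : IsPrimitiveRoot ζ r) {t : Ga} {u : Om} (hu : u ≠ 0) (h : t u = u) :
    dpsiK r ζ t u = 0 :=
  dpsiK_eq hζ hu (by simpa using h)

theorem dpsiK_congr (hζ : IsPrimitiveRoot ζ r) {t : Ga} (ht : t ∈ Gmu r) {u v : Om} (hu : u ≠ 0)
    (h : t (u ^ r) = u ^ r) (huv : v ^ r = u ^ r) : dpsiK r ζ t v = dpsiK r ζ t u := by
  have h1 : (v / u) ^ r = 1 := by rw [div_pow, huv, div_self (pow_ne_zero _ hu)]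
  have h2 := ht _ h1
  have hv : v ≠ 0 := by
    rintro rfl
    rw [zero_pow (NeZero.ne r)] at huv
    exact pow_ne_zero _ hu huv.symm
  apply dpsiK_eq hζ hv
  have e : v = v / u * u := by field_simp
  rw [e, map_mul, h2]
  conv_lhs => rw [dpsiK_spec hζ h]
  ring

theorem dpsiK_comp (hζ : IsPrimitiveRoot ζ r) {t t' : Ga} (ht : t ∈ Gmu r) {u : Om} (hu : u ≠ 0)
    (h : t (u ^ r) = u ^ r) (h' : t' (u ^ r) = u ^ r) :
    dpsiK r ζ (t * t') u = dpsiK r ζ t u + dpsiK r ζ t' u := by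
  apply dpsiK_eq hζ hu
  rw [dimT_pow_val hζ.pow_eq_one, AlgEquiv.mul_apply]
  conv_lhs => rw [dpsiK_spec hζ h', map_mul, map_pow, ht ζ hζ.pow_eq_one, dpsiK_spec hζ h]
  ring

theorem dpsiK_pow (hζ : IsPrimitiveRoot ζ r) {t : Ga} (ht : t ∈ Gmu r) {u : Om} (hu : u ≠ 0)
    (h : t (u ^ r) = u ^ r) (n : ℕ) : dpsiK r ζ (t ^ n) u = n * dpsiK r ζ t u := by
  induction n with
  | zero => simpa using dpsiK_zero hζ hu rfl
  | succ n ih =>
    rw [pow_succ', dpsiK_comp hζ ht hu h (dimT_pow_fix h n), ih]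
    push_cast
    ring

omit [NeZero r] in
theorem dpsi_pow_fix {t : Ga} (ht : t ∈ Gmu r) {z : Om} (h : t (z ^ r) = z ^ r) :
    (t ^ r) z = z := by
  by_cases hz : z = 0
  · simp [hz]
  · have h1 : (t z / z) ^ r = 1 := by
      rw [div_pow, ← map_pow, h, div_self (pow_ne_zero _ hz)]
    rw [dimT_pow_apply (ω := t z / z) (by field_simp) (ht _ h1), h1, one_mul]

end

theorem dpsi_rat (r : ℕ) (hr : r.Prime) (α β : ℚ) :
    ∃ i j : ℤ, (i : ℚ) * α + j * β = 0 ∧ ¬ ((r : ℤ) ∣ i ∧ (r : ℤ) ∣ j) := by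
  have h1 : ¬ (r : ℤ) ∣ 1 := by
    intro h
    exact hr.one_lt.ne' (by exact_mod_cast Int.eq_one_of_dvd_one (by positivity) h)
  by_cases hβ : β = 0
  · exact ⟨0, 1, by simp [hβ], fun h => h1 h.2⟩
  · refine ⟨(α / β).den, -(α / β).num, ?_, ?_⟩
    · have h2 := Rat.mul_den_eq_num (α / β)
      push_cast
      rw [← h2]
      field_simp
      ring
    · rintro ⟨h2, h3⟩
      have h4 : r ∣ (α / β).den := by exact_mod_cast h2
      have h5 : r ∣ (α / β).num.natAbs := Int.natCast_dvd.1 ((dvd_neg).1 h3)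
      have := Nat.dvd_gcd h5 h4
      rw [(α / β).reduced] at this
      exact hr.one_lt.ne' (Nat.dvd_one.1 this)

namespace Corr
variable (c : Corr) {r : ℕ} [Fact r.Prime] {P : Pr}

/-- two generators of the action of the image of the decomposition group -/
theorem dpsi_gen (hP : ch P ≠ r) {V : Subgroup Ga} (hV : Op V) (h1 : V ≤ Gmu (r ^ 2))
    (hG : V ≤ c.G1) : ∃ x ∈ c.im (Dec P ⊓ V), ∃ y ∈ c.im (Dec P ⊓ V),
      ∀ S : Set Om, S.Finite → (∀ s ∈ S, s ∈ fix c.N2) →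
        (∀ τ ∈ c.im (Dec P ⊓ V), ∀ g ∈ c.im (Dec P ⊓ V), ∀ s ∈ S, (τ ^ r ^ 2) (g s) = g s) →
        (∀ τ ∈ c.im (Dec P ⊓ V), ∃ i j : ℕ, ∀ s ∈ S, τ s = (x ^ i * y ^ j) s) ∧
        ∀ τ ∈ c.im (Dec P ⊓ V), ∀ τ' ∈ c.im (Dec P ⊓ V), ∀ s ∈ S, τ (τ' s) = τ' (τ s) := by
  have hr : r.Prime := Fact.out
  have : NeZero (r ^ 2) := ⟨pow_ne_zero _ hr.ne_zero⟩
  have hPr : ¬ ch P ∣ r ^ 2 := fun h =>
    hP ((Nat.prime_dvd_prime_iff_eq (ch_prime P) hr).1 ((ch_prime P).dvd_of_dvd_pow h))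
  obtain ⟨σ0, -, φ, hφ, hloc⟩ := loc_struct hr hP hV
  have hA : Dec P ⊓ V ≤ c.G1 := inf_le_right.trans hG
  obtain ⟨x, hx⟩ := c.mem_G1.1 (hA σ0.2)
  obtain ⟨y, hy⟩ := c.mem_G1.1 (hA φ.2)
  have hxT : x ∈ c.im (Dec P ⊓ V) := c.mem_im.2 ⟨σ0, σ0.2, hx⟩
  have hyT : y ∈ c.im (Dec P ⊓ V) := c.mem_im.2 ⟨φ, φ.2, hy⟩
  refine ⟨x, hxT, y, hyT, fun S hS hfix hpow => ?_⟩
  obtain ⟨Q, _, _, π, F, hF, hπ, hsurj, -, hWF⟩ := c.dimT_quot (Dec P ⊓ V) hA S hS hfix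
  obtain ⟨J, hJ1, -, -, hJ3, -, hJ5, -⟩ := hloc Q F hWF
  have hlift : ∀ s : ↥(Dec P ⊓ V), ∃ t : c.im (Dec P ⊓ V), π t = F s := by
    intro s
    obtain ⟨t, ht⟩ := c.mem_G1.1 (hA s.2)
    exact ⟨⟨t, c.mem_im.2 ⟨s, s.2, ht⟩⟩, (hF s _ ht).symm⟩
  have hQ : ∀ z : Q, z ^ r ^ 2 = 1 := by
    intro z
    obtain ⟨s, rfl⟩ := hsurj z
    obtain ⟨t, ht⟩ := hlift s
    rw [← ht, ← map_pow, hπ]
    intro g hg s hs
    exact hpow t t.2 g hg s hs
  have hJ : ∀ ρ ∈ J, ρ = 1 := by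
    intro ρ hρ
    obtain ⟨k, hk, h2⟩ := hJ1 ρ hρ
    exact (pow_eq_one_iff_of_coprime
      (Nat.Coprime.pow_left 2 ((Nat.Prime.coprime_iff_not_dvd hr).2 hk))).1 ⟨hQ ρ, h2⟩
  have hq := dimT_q_mod hφ rfl hPr (h1 φ.2.2)
  have hq0 : 1 ≤ ch P ^ deg V P := Nat.one_le_pow _ _ (ch_prime P).pos
  have hxq : F σ0 ^ ch P ^ deg V P = F σ0 := by
    obtain ⟨k, hk⟩ := hq
    have : ch P ^ deg V P = r ^ 2 * k + 1 := by omega
    rw [this, pow_succ, pow_mul, hQ, one_pow, one_mul]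
  have hcomm : Commute (F φ) (F σ0) := by
    have := hJ _ hJ5
    rw [hxq, mul_inv_eq_one, mul_inv_eq_iff_eq_mul] at this
    exact this
  have hgen : ∀ z : Q, ∃ i j : ℕ, z = F σ0 ^ i * F φ ^ j := by
    intro z
    obtain ⟨s, rfl⟩ := hsurj z
    obtain ⟨i, j, ρ, hρ, e⟩ := hJ3 s
    exact ⟨i, j, by rw [e, hJ ρ hρ, one_mul]⟩
  have hact : ∀ t t' : c.im (Dec P ⊓ V), π t = π t' → ∀ s ∈ S, (t : Ga) s = (t' : Ga) s := by
    intro t t' h s hs
    have h2 : π (t'⁻¹ * t) = 1 := by rw [map_mul, map_inv, h, inv_mul_cancel]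
    have h3 := (hπ _).1 h2 1 (one_mem _) s hs
    simp only [Subgroup.coe_mul, Subgroup.coe_inv, AlgEquiv.mul_apply, AlgEquiv.one_apply] at h3
    have h4 := congrArg (t' : Ga) h3
    rwa [show (t' : Ga) ((t' : Ga)⁻¹ ((t : Ga) s)) = (t : Ga) s from
      (t' : Ga).apply_symm_apply _] at h4
  have ex : F σ0 = π ⟨x, hxT⟩ := hF _ _ hx
  have ey : F φ = π ⟨y, hyT⟩ := hF _ _ hy
  constructor
  · intro τ hτ
    obtain ⟨i, j, e⟩ := hgen (π ⟨τ, hτ⟩)
    rw [ex, ey, ← map_pow, ← map_pow, ← map_mul] at e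
    exact ⟨i, j, fun s hs => hact _ _ e s hs⟩
  · intro τ hτ τ' hτ' s hs
    have e : π (⟨τ, hτ⟩ * ⟨τ', hτ'⟩) = π (⟨τ', hτ'⟩ * ⟨τ, hτ⟩) := by
      rw [map_mul, map_mul]
      obtain ⟨i, j, e⟩ := hgen (π ⟨τ, hτ⟩)
      obtain ⟨i', j', e'⟩ := hgen (π ⟨τ', hτ'⟩)
      rw [e, e']
      refine Commute.eq (Commute.mul_left (Commute.mul_right ?_ ?_) (Commute.mul_right ?_ ?_))
      · exact (Commute.refl _).pow_pow _ _
      · exact hcomm.symm.pow_pow _ _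
      · exact hcomm.pow_pow _ _
      · exact (Commute.refl _).pow_pow _ _
    exact hact _ _ e s hs

/-- the commuting pair condition -/
theorem dpsi_pair {T : Subgroup Ga} (hμ : T ≤ Gmu r) (hN : c.N2 ≤ T) {ζ : Om}
    (hζ : IsPrimitiveRoot ζ r)
    (hcomm : ∀ S : Set Om, S.Finite → (∀ s ∈ S, s ∈ fix c.N2) →
      (∀ τ ∈ T, ∀ g ∈ T, ∀ s ∈ S, (τ ^ r ^ 2) (g s) = g s) →
      ∀ τ ∈ T, ∀ τ' ∈ T, ∀ s ∈ S, τ (τ' s) = τ' (τ s))
    {u v : Om} (hu : u ^ r ∈ fix T) (hv0 : v ≠ 0) (hv : v ^ r = 1 - u ^ r)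
    {s ρ : Ga} (hs : s ∈ T) (hρ : ρ ∈ T) (hsu : dpsiK r ζ s u ≠ 0) (hρu : ρ u = u) :
    dpsiK r ζ ρ v = 0 := by
  have hr : r.Prime := Fact.out
  have : NeZero r := ⟨hr.ne_zero⟩
  obtain ⟨w, hw⟩ := IsAlgClosed.exists_pow_nat_eq (1 - u) hr.pos
  have huN : u ∈ fix c.N2 := c.root_mem hr.ne_zero (mem_fix.2 fun g hg => mem_fix.1 hu g (hN hg))
  have hwN : w ∈ fix c.N2 := c.root_mem hr.ne_zero (hw ▸ sub_mem (one_mem _) huN)
  have hfu : ∀ τ ∈ T, ∀ g ∈ T, (τ ^ r) (g u) = g u := by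
    intro τ hτ g hg
    apply dpsi_pow_fix (hμ hτ)
    rw [← map_pow, mem_fix.1 hu g hg, mem_fix.1 hu τ hτ]
  have hc := hcomm {u, w} (Set.toFinite _) (by
    rintro z (rfl | rfl)
    · exact huN
    · exact hwN) (by
    intro τ hτ g hg z hz
    rw [pow_two, pow_mul]
    rcases hz with rfl | rfl
    · exact dimT_pow_fix (hfu τ hτ g hg) _
    · apply dpsi_pow_fix (hμ (T.pow_mem hτ _))
      rw [← map_pow, hw, map_sub, map_one, map_sub, map_one, hfu τ hτ g hg])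
  have h1 : ρ (w ^ r) = w ^ r := by rw [hw, map_sub, map_one, hρu]
  have h2 := dpsiK_spec hζ h1
  set ξ := ζ ^ (dpsiK r ζ ρ w).val with hξ
  have hξr : ξ ^ r = 1 := by rw [hξ, ← pow_mul, mul_comm, pow_mul, hζ.pow_eq_one, one_pow]
  have h3 : ∀ i : ℕ, ρ ((s ^ i) w) = ξ * (s ^ i) w := by
    intro i
    rw [hc ρ hρ (s ^ i) (T.pow_mem hs i) w (by simp), h2, map_mul,
      hμ (T.pow_mem hs i) ξ hξr]
  have h4 : ρ (∏ i ∈ Finset.range r, (s ^ i) w) = ∏ i ∈ Finset.range r, (s ^ i) w := by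
    rw [map_prod]
    simp only [h3]
    rw [Finset.prod_mul_distrib, Finset.prod_const, Finset.card_range, hξr, one_mul]
  have h5 := dpsiK_spec hζ (mem_fix.1 hu s hs)
  set η := ζ ^ (dpsiK r ζ s u).val with hη
  have hηp : IsPrimitiveRoot η r := by
    refine hζ.pow_of_coprime _ ?_
    refine ((Nat.Prime.coprime_iff_not_dvd hr).2 fun hd => hsu ?_).symm
    rw [← ZMod.val_eq_zero]
    exact Nat.eq_zero_of_dvd_of_lt hd (ZMod.val_lt _)
  have h6 : (∏ i ∈ Finset.range r, (s ^ i) w) ^ r = v ^ r := by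
    rw [← Finset.prod_pow, hv]
    have e := congrArg (Polynomial.eval 1) (X_pow_sub_C_eq_prod hηp hr.pos (α := u) rfl)
    simp only [Polynomial.eval_sub, Polynomial.eval_pow, Polynomial.eval_X, one_pow,
      Polynomial.eval_C, Polynomial.eval_prod] at e
    rw [e]
    refine Finset.prod_congr rfl fun i _ => ?_
    rw [← map_pow, hw, map_sub, map_one, dimT_pow_apply h5 (hμ hs η hηp.pow_eq_one)]
  have h7 : (∏ i ∈ Finset.range r, (s ^ i) w) ≠ 0 := by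
    intro h0
    rw [h0, zero_pow hr.ne_zero] at h6
    exact pow_ne_zero _ hv0 h6.symm
  rw [dpsiK_congr hζ (hμ hρ) h7 (by rw [map_pow, h4]) h6.symm]
  exact dpsiK_zero hζ h7 h4

theorem exists_hens (h2 : r ≠ 2) (hP : ch P ≠ r) (h : c.Ram r P) {V : Subgroup Ga} (hV : Op V)
    [V.Normal] (h1 : V ≤ Gmu (r ^ 2)) (h2' : V ≤ c.pre (Gmu r)) :
    ∃ Q, ch Q ≠ r ∧ Hens (c.im (Dec P ⊓ V)) r Q := by
  classical
  have hr : r.Prime := Fact.out
  have : NeZero r := ⟨hr.ne_zero⟩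
  have hdim := c.dim_two h2 hP h hV (h1.trans (Gmu_le (dvd_pow_self r two_ne_zero))) h2'
  obtain ⟨x, hx, y, hy, hgen⟩ := c.dpsi_gen hP hV h1 (h2'.trans (c.pre_le_G1 _))
  have hμ : c.im (Dec P ⊓ V) ≤ Gmu r :=
    c.im_le_of_le_pre (c.N2_le_Gmu hr.ne_zero) (inf_le_right.trans h2')
  have hN : c.N2 ≤ c.im (Dec P ⊓ V) := c.N2_le_im _
  generalize c.im (Dec P ⊓ V) = T at *
  obtain ⟨ζ, hζ⟩ := HasEnoughRootsOfUnity.exists_primitiveRoot Om r
  choose rt hrt using fun a : Om => IsAlgClosed.exists_pow_nat_eq a hr.pos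
  have hrt0 : ∀ a : fix T, a ≠ 0 → rt a ≠ 0 := by
    intro a ha h0
    have := hrt a
    rw [h0, zero_pow hr.ne_zero] at this
    exact ha (Subtype.ext this.symm)
  have hfx : ∀ (a : fix T), ∀ t ∈ T, t (rt a ^ r) = rt a ^ r := by
    intro a t ht
    rw [hrt]
    exact mem_fix.1 a.2 t ht
  let Ψ : fix T → ZMod r × ZMod r := fun a => (dpsiK r ζ x (rt a), dpsiK r ζ y (rt a))
  have hK : ∀ t ∈ T, ∀ a b : fix T, a ≠ 0 → b ≠ 0 →
      dpsiK r ζ t (rt (a * b : fix T)) = dpsiK r ζ t (rt a) + dpsiK r ζ t (rt b) := by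
    intro t ht a b ha hb
    rw [← dpsiK_mul hζ (hrt0 a ha) (hrt0 b hb) (hfx a t ht) (hfx b t ht)]
    refine dpsiK_congr hζ (hμ ht) (mul_ne_zero (hrt0 a ha) (hrt0 b hb)) ?_ ?_
    · rw [mul_pow, map_mul, hfx a t ht, hfx b t ht]
    · rw [mul_pow, hrt, hrt, hrt]
      rfl
  have hmul : ∀ a b : fix T, a ≠ 0 → b ≠ 0 → Ψ (a * b) = Ψ a + Ψ b := fun a b ha hb =>
    Prod.ext (hK x hx a b ha hb) (hK y hy a b ha hb)
  let Φ : (fix T)ˣ →* Multiplicative (ZMod r × ZMod r) :=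
    MonoidHom.mk' (fun a => Multiplicative.ofAdd (Ψ a)) (fun a b => by
      rw [Units.val_mul, hmul _ _ a.ne_zero b.ne_zero, ofAdd_add])
  have hΦ : ∀ (a b : (fix T)ˣ) (i j : ℤ),
      Ψ ((a ^ i * b ^ j : (fix T)ˣ) : fix T) = i • Ψ a + j • Ψ b := by
    intro a b i j
    have e : Φ (a ^ i * b ^ j) = Φ a ^ i * Φ b ^ j := by rw [map_mul, map_zpow, map_zpow]
    have := congrArg Multiplicative.toAdd e
    simpa [Φ] using this
  have hker : ∀ a : fix T, Ψ a = 0 → ∃ z ∈ fix T, z ^ r = a := by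
    intro a ha
    refine ⟨rt a, mem_fix.2 fun t ht => ?_, hrt a⟩
    have e1 : x (rt a) = rt a := by
      have := dpsiK_spec hζ (hfx a x hx)
      rw [show dpsiK r ζ x (rt a) = 0 from congrArg Prod.fst ha] at this
      simpa using this
    have e2 : y (rt a) = rt a := by
      have := dpsiK_spec hζ (hfx a y hy)
      rw [show dpsiK r ζ y (rt a) = 0 from congrArg Prod.snd ha] at this
      simpa using this
    obtain ⟨i, j, e⟩ := (hgen {rt a} (Set.finite_singleton _) (by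
      rintro s rfl
      exact c.root_mem hr.ne_zero (mem_fix.2 fun g hg => hfx a g (hN hg))) (by
      rintro τ hτ g hg s rfl
      rw [pow_two, pow_mul]
      refine dimT_pow_fix (dpsi_pow_fix (hμ hτ) ?_) _
      rw [← map_pow, hfx a g hg, hfx a τ hτ])).1 t ht
    rw [e _ rfl, AlgEquiv.mul_apply, dimT_pow_fix e2, dimT_pow_fix e1]
  have hsurj : ∀ v, ∃ a : fix T, a ≠ 0 ∧ Ψ a = v := by
    obtain ⟨a, ha, b, hb, ha0, hb0, hab⟩ := hdim
    let a' : (fix T)ˣ := Units.mk0 ⟨a, ha⟩ (fun h => ha0 (congrArg Subtype.val h))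
    let b' : (fix T)ˣ := Units.mk0 ⟨b, hb⟩ (fun h => hb0 (congrArg Subtype.val h))
    let m : ZMod r × ZMod r →+ ZMod r × ZMod r :=
      { toFun := fun p => p.1 • Ψ a' + p.2 • Ψ b'
        map_zero' := by simp
        map_add' := fun p p' => by
          simp only [Prod.fst_add, Prod.snd_add, add_smul]
          abel }
    have hm : ∀ p : ZMod r × ZMod r,
        Ψ ((a' ^ (p.1.val : ℤ) * b' ^ (p.2.val : ℤ) : (fix T)ˣ) : fix T) = m p := by
      intro p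
      rw [hΦ, ← Int.cast_smul_eq_zsmul (ZMod r), ← Int.cast_smul_eq_zsmul (ZMod r)]
      simp [m]
    have hinj : Function.Injective m := by
      rw [injective_iff_map_eq_zero]
      intro p hp
      rw [← hm] at hp
      obtain ⟨z, hz, e⟩ := hker _ hp
      obtain ⟨k1, k2⟩ := hab p.1.val p.2.val ⟨z, hz, by
        rw [e, zpow_natCast, zpow_natCast]
        simp [a', b']⟩
      ext
      · rw [Prod.fst_zero, ← ZMod.val_eq_zero]
        exact Nat.eq_zero_of_dvd_of_lt k1 (ZMod.val_lt _)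
      · rw [Prod.snd_zero, ← ZMod.val_eq_zero]
        exact Nat.eq_zero_of_dvd_of_lt k2 (ZMod.val_lt _)
    intro v
    obtain ⟨p, rfl⟩ := Finite.surjective_of_injective hinj v
    exact ⟨_, Units.ne_zero _, hm p⟩
  have hC : ∀ a : fix T, a ≠ 0 → 1 - a ≠ 0 →
      (Ψ a).1 * (Ψ (1 - a)).2 = (Ψ a).2 * (Ψ (1 - a)).1 := by
    intro a ha hb
    by_contra hne
    have hs : ∃ s ∈ T, dpsiK r ζ s (rt a) ≠ 0 := by
      by_contra hcon
      push Not at hcon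
      apply hne
      simp only [Ψ, hcon x hx, hcon y hy, zero_mul]
    obtain ⟨s, hsT, hs⟩ := hs
    have hρT : x ^ ((Ψ a).2).val * y ^ (-(Ψ a).1).val ∈ T :=
      T.mul_mem (T.pow_mem hx _) (T.pow_mem hy _)
    have hcalc : ∀ b : fix T, b ≠ 0 →
        dpsiK r ζ (x ^ ((Ψ a).2).val * y ^ (-(Ψ a).1).val) (rt b) =
          (Ψ a).2 * (Ψ b).1 - (Ψ a).1 * (Ψ b).2 := by
      intro b hb
      rw [dpsiK_comp hζ (hμ (T.pow_mem hx _)) (hrt0 b hb) (hfx b _ (T.pow_mem hx _))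
        (hfx b _ (T.pow_mem hy _)), dpsiK_pow hζ (hμ hx) (hrt0 b hb) (hfx b _ hx),
        dpsiK_pow hζ (hμ hy) (hrt0 b hb) (hfx b _ hy), ZMod.natCast_zmod_val,
        ZMod.natCast_zmod_val]
      simp only [Ψ]
      ring
    have hρu : (x ^ ((Ψ a).2).val * y ^ (-(Ψ a).1).val) (rt a) = rt a := by
      have := dpsiK_spec hζ (hfx a _ hρT)
      rw [hcalc a ha, mul_comm (Ψ a).2, sub_self] at this
      simpa using this
    have := c.dpsi_pair hμ hN hζ (fun S h1 h2 h3 => (hgen S h1 h2 h3).2)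
      (u := rt a) (v := rt (1 - a : fix T)) (by rw [hrt]; exact a.2) (hrt0 _ hb)
      (by rw [hrt, hrt]; rfl) hsT hρT hs hρu
    rw [hcalc _ hb] at this
    exact hne (sub_eq_zero.1 this).symm
  obtain ⟨O, hO, hOΨ⟩ := cpair_val h2 Ψ hmul hsurj hC
  obtain ⟨Q, hQ⟩ := pr_of_valuation (fix T) O hO
  have hone : ∀ a : fix T, Pos Q ((a : Om) - 1) → Ψ a = 0 := by
    intro a ha
    have := hOΨ (a - 1) (hQ (a - 1) ha)
    rwa [add_sub_cancel] at this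
  have hQr : ch Q ≠ r := by
    intro hQr
    have hunit : ∀ a : (fix T)ˣ, val Q ((a : fix T) : Om) = 0 → Ψ a = 0 := by
      intro a ha
      obtain ⟨n, -, hn, hp⟩ := pow_sub_one_pos Q ((a : fix T) : Om)
        (fun h => a.ne_zero (Subtype.ext h)) ha
      have e := hΦ a a n 0
      rw [hone _ (by simpa using hp), zero_smul, add_zero,
        ← Int.cast_smul_eq_zsmul (ZMod r)] at e
      refine (smul_eq_zero.1 e.symm).resolve_left ?_
      rw [Int.cast_natCast, ZMod.natCast_eq_zero_iff, ← hQr]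
      exact hn
    obtain ⟨a, ha0, ha⟩ := hsurj (1, 0)
    obtain ⟨b, hb0, hb⟩ := hsurj (0, 1)
    obtain ⟨i, j, hij, hnd⟩ := dpsi_rat r hr (val Q (a : Om)) (val Q (b : Om))
    have ha0' : (a : Om) ≠ 0 := fun h => ha0 (Subtype.ext h)
    have hb0' : (b : Om) ≠ 0 := fun h => hb0 (Subtype.ext h)
    have e := hunit (Units.mk0 a ha0 ^ i * Units.mk0 b hb0 ^ j) (by
      have e1 : (((Units.mk0 a ha0 ^ i * Units.mk0 b hb0 ^ j : (fix T)ˣ) : fix T) : Om) =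
          (a : Om) ^ i * (b : Om) ^ j := by
        have e2 := map_zpow₀ (fix T).val a i
        have e3 := map_zpow₀ (fix T).val b j
        simp only [IntermediateField.coe_val] at e2 e3
        simp [e2, e3]
      rw [e1, val_mul Q (zpow_ne_zero _ ha0') (zpow_ne_zero _ hb0'), val_zpow, val_zpow, hij])
    rw [hΦ, Units.val_mk0, Units.val_mk0, ha, hb] at e
    apply hnd
    rw [← ZMod.intCast_zmod_eq_zero_iff_dvd, ← ZMod.intCast_zmod_eq_zero_iff_dvd]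
    simpa [Prod.ext_iff] using e
  exact ⟨Q, hQr, hens_of_one hr hμ hQr fun a ha hp => hker ⟨a, ha⟩ (hone ⟨a, ha⟩ hp)⟩

end Corr
end Vale.Agent.P024U
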