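import Vale.Agent.P024U.Defs

/-! Profinite group and infinite Galois theory API.  `Ga` is compact, Hausdorff, totally disconnected
(`IsGalois ℚ Om`; instances in `Mathlib.FieldTheory.Galois.Profinite`, `KrullTopology`, `InfiniteGalois`).
`h90`: choose an open normal `W` with `c = 1` on `W ∩ A` and fixing the (finitely many) values; Dedekind independence
(`linearIndependent_monoidHom`) of the finitely many restrictions to `fix W` gives `y` with
`w' = ∑_(a ∈ A / (A ∩ W)) c a * a y ≠ 0`, and `w = w'⁻¹`.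
`conj_eq`: `mapClusterPt_one_atTop_pow` or `closure_submonoidClosure_eq_closure_subgroupClosure`. -/

namespace Vale.Agent.P024U

instance isAlgClosure_Om : IsAlgClosure ℚ Om := AlgebraicClosure.instIsAlgClosure ℚ

instance isGalois_Om : IsGalois ℚ Om := IsAlgClosure.isGalois ℚ Om

theorem op_stab (x : Om) : IsOpen {g : Ga | g x = x} := by
  exact stabilizer_isOpen_of_isIntegral (K := ℚ) x

theorem Op.index_ne_zero {H : Subgroup Ga} (h : Op H) : H.index ≠ 0 := by
  have := H.quotient_finite_of_isOpen h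
  exact Subgroup.index_ne_zero_of_finite

theorem Op.cl {H : Subgroup Ga} (h : Op H) : Cl H := by
  exact H.isClosed_of_isOpen h

theorem op_of_cl {H : Subgroup Ga} (h : Cl H) (hi : H.index ≠ 0) : Op H := by
  have : H.FiniteIndex := ⟨hi⟩
  exact H.isOpen_of_isClosed_of_finiteIndex h

theorem Op.mono {H H' : Subgroup Ga} (h : Op H) (hle : H ≤ H') : Op H' := by
  exact Subgroup.isOpen_mono hle h

theorem Op.inf {H H' : Subgroup Ga} (h : Op H) (h' : Op H') : Op (H ⊓ H') := by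
  exact IsOpen.inter h h'

theorem Op.normalCore {H : Subgroup Ga} (h : Op H) : Op H.normalCore := by
  have : H.FiniteIndex := ⟨h.index_ne_zero⟩
  exact Subgroup.isOpen_of_isClosed_of_finiteIndex _ (H.normalCore_isClosed h.cl)

theorem exists_op_normal {U : Set Ga} (hU : U ∈ nhds (1 : Ga)) :
    ∃ W : Subgroup Ga, Op W ∧ W.Normal ∧ (W : Set Ga) ⊆ U := by
  obtain ⟨W, hW⟩ := ProfiniteGrp.exist_openNormalSubgroup_sub_open_nhds_of_one
    isOpen_interior (mem_interior_iff_mem_nhds.2 hU)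
  exact ⟨W.toSubgroup, W.isOpen, inferInstance, hW.trans interior_subset⟩

theorem op_Gmu {n : ℕ} (hn : n ≠ 0) : Op (Gmu n) := by
  classical
  have h : {z : Om | z ^ n = 1}.Finite := (Polynomial.nthRoots n (1 : Om)).toFinset.finite_toSet.subset
    fun z hz => by simpa [Polynomial.mem_nthRoots (Nat.pos_of_ne_zero hn)] using hz
  have e : (Gmu n : Set Ga) = ⋂ z ∈ {z : Om | z ^ n = 1}, {g : Ga | g z = z} := by
    ext g; simp only [Set.mem_iInter]; rfl
  rw [Op, e]
  exact h.isOpen_biInter fun z _ => op_stab z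

instance normal_Gmu (n : ℕ) : (Gmu n).Normal := by
  refine ⟨fun g hg h z hz => ?_⟩
  rw [AlgEquiv.mul_apply, AlgEquiv.mul_apply, hg (h⁻¹ z) (by rw [← map_pow, hz, map_one])]
  exact h.apply_symm_apply z

theorem Gmu_le {m n : ℕ} (h : m ∣ n) : Gmu n ≤ Gmu m := by
  obtain ⟨k, rfl⟩ := h
  exact fun g hg z hz => hg z (by rw [pow_mul, hz, one_pow])

theorem cl_Groot (r : ℕ) (a : Om) : Cl (Groot r a) := by
  have e : (Groot r a : Set Ga) = ⋂ (n : ℕ) (z : Om) (_ : z ^ r ^ n = 1 ∨ z ^ r ^ n = a),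
      {g : Ga | g z = z} := by
    ext g; simp only [Set.mem_iInter]; rfl
  rw [Cl, e]
  exact isClosed_iInter fun n => isClosed_iInter fun z => isClosed_iInter fun _ =>
    (MulAction.stabilizer Ga z).isClosed_of_isOpen (op_stab z)

theorem Grp_fix {H : Subgroup Ga} (h : Cl H) : (fix H).fixingSubgroup = H :=
  InfiniteGalois.fixingSubgroup_fixedField ⟨H, h⟩

theorem mem_of_fix {H : Subgroup Ga} (h : Cl H) {g : Ga} (hg : ∀ x ∈ fix H, g x = x) : g ∈ H := by
  rw [← Grp_fix h]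
  exact (IntermediateField.mem_fixingSubgroup_iff _ _).2 hg

theorem finrank_fix {H : Subgroup Ga} (h : Op H) : Module.finrank ℚ (fix H) = H.index := by
  rw [IntermediateField.finrank_eq_fixingSubgroup_index, Grp_fix h.cl]

theorem numberField_fix {H : Subgroup Ga} (h : Op H) : NumberField (fix H) := by
  have : FiniteDimensional ℚ (fix H) :=
    Module.finite_of_finrank_pos (by rw [finrank_fix h]; exact Nat.pos_of_ne_zero h.index_ne_zero)
  exact NumberField.of_module_finite ℚ (fix H)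

/-- every embedding of a subfield is the restriction of an automorphism -/
theorem exists_ext (L : IntermediateField ℚ Om) (f : L →+* Om) : ∃ g : Ga, ∀ x : L, g x = f x := by
  let φ : L →ₐ[ℚ] Om := f.toRatAlgHom
  refine ⟨AlgEquiv.ofBijective (φ.liftNormal Om) (AlgHom.normal_bijective ℚ Om Om _), fun x => ?_⟩
  exact φ.liftNormal_commutes Om x

/-- membership in a closed subgroup is detected on finite levels -/
theorem mem_of_forall_op {H : Subgroup Ga} (h : Cl H) {g : Ga}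
    (hg : ∀ W : Subgroup Ga, Op W → W.Normal → ∃ w ∈ W, g * w ∈ H) : g ∈ H := by
  by_contra hn
  have hU : {w : Ga | g * w ∉ H} ∈ nhds (1 : Ga) :=
    (h.isOpen_compl.preimage (continuous_const_mul g)).mem_nhds (by simpa using hn)
  obtain ⟨W, h1, h2, h3⟩ := exists_op_normal hU
  obtain ⟨w, hw, hgw⟩ := hg W h1 h2
  exact h3 hw hgw

/-- compactness for a decreasing family indexed by small open normal subgroups -/
theorem exists_forall_op (V0 : Subgroup Ga) (h0 : Op V0) (C : Subgroup Ga → Set Ga)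
    (hcl : ∀ W, Op W → W.Normal → W ≤ V0 → IsClosed (C W))
    (hne : ∀ W, Op W → W.Normal → W ≤ V0 → (C W).Nonempty)
    (hmono : ∀ W W', Op W → W.Normal → W ≤ V0 → Op W' → W'.Normal → W' ≤ W → C W' ⊆ C W) :
    ∃ g, ∀ W, Op W → W.Normal → W ≤ V0 → g ∈ C W := by
  let ι := {W : Subgroup Ga // Op W ∧ W.Normal ∧ W ≤ V0}
  have : Nonempty ι := ⟨⟨V0.normalCore, h0.normalCore, inferInstance, V0.normalCore_le⟩⟩
  obtain ⟨g, hg⟩ := IsCompact.nonempty_iInter_of_directed_nonempty_isCompact_isClosed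
    (fun W : ι => C W) (fun W W' => by
      have h1 := W.2.2.1
      have h2 := W'.2.2.1
      have h3 := W.2.1.inf W'.2.1
      exact ⟨⟨W ⊓ W', h3, inferInstance, inf_le_left.trans W.2.2.2⟩,
        hmono _ _ W.2.1 h1 W.2.2.2 h3 inferInstance inf_le_left,
        hmono _ _ W'.2.1 h2 W'.2.2.2 h3 inferInstance inf_le_right⟩)
    (fun W => hne _ W.2.1 W.2.2.1 W.2.2.2) (fun W => (hcl _ W.2.1 W.2.2.1 W.2.2.2).isCompact)
    fun W => hcl _ W.2.1 W.2.2.1 W.2.2.2
  exact ⟨g, fun W h1 h2 h3 => Set.mem_iInter.1 hg ⟨W, h1, h2, h3⟩⟩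

theorem conj_eq {G : Type*} [Group G] [TopologicalSpace G] [IsTopologicalGroup G] [CompactSpace G]
    (A : Subgroup G) (hA : IsClosed (A : Set G)) (g : G) (h : ∀ a ∈ A, g * a * g⁻¹ ∈ A) :
    ∀ a ∈ A, g⁻¹ * a * g ∈ A := by
  intro a ha
  have h1 : ∀ n : ℕ, g ^ n * a * (g ^ n)⁻¹ ∈ A := fun n => by
    induction n with
    | zero => simpa using ha
    | succ n ih => simpa [pow_succ', mul_assoc] using h _ ih
  have h2 : IsClosed {x : G | x * a * x⁻¹ ∈ A} := hA.preimage (f := fun x => x * a * x⁻¹) (by fun_prop)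
  simpa using h2.mem_of_mapClusterPt (mapClusterPt_self_zpow_atTop_pow g (-1))
    (Filter.Eventually.of_forall h1)

/-- Hilbert 90 for locally constant cocycles on a closed subgroup -/
theorem h90 {A : Subgroup Ga} (hA : Cl A) (c : Ga → Om) (h0 : ∀ a ∈ A, c a ≠ 0)
    (hc : ∀ a ∈ A, ∀ b ∈ A, c (a * b) = c a * a (c b))
    (hW : ∃ W : Subgroup Ga, Op W ∧ ∀ a ∈ A, a ∈ W → c a = 1) :
    ∃ w : Om, w ≠ 0 ∧ ∀ a ∈ A, a w = c a * w := by
  classical
  obtain ⟨W, hWo, hW⟩ := hW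
  have hN := hWo.normalCore
  set N := W.normalCore
  have : N.FiniteIndex := ⟨hN.index_ne_zero⟩
  have := Fintype.ofFinite (A ⧸ N.subgroupOf A)
  have hcl : Cl (A ⊓ N) := IsClosed.inter hA hN.cl
  let f : A ⧸ N.subgroupOf A → (fix (A ⊓ N) →* Om) := fun q =>
    ((q.out : A) : Ga).toMonoidHom.comp (fix (A ⊓ N)).val.toMonoidHom
  have hf : Function.Injective f := fun q q' h => by
    rw [← q.out_eq, ← q'.out_eq]
    refine QuotientGroup.eq.2 (mem_of_fix hcl (g := (q.out⁻¹ * q'.out : A)) fun x hx => ?_).2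
    have e : ((q.out : A) : Ga) x = ((q'.out : A) : Ga) x := DFunLike.congr_fun h ⟨x, hx⟩
    rw [Subgroup.coe_mul, AlgEquiv.mul_apply, ← e]
    exact ((q.out : A) : Ga).symm_apply_apply x
  have hli := Fintype.linearIndependent_iff.1
    ((linearIndependent_monoidHom (fix (A ⊓ N)) Om).comp f hf) fun q => c (q.out : A)
  obtain ⟨y, hy⟩ := Function.ne_iff.1 fun h =>
    h0 _ (QuotientGroup.mk 1 : A ⧸ N.subgroupOf A).out.2 (hli h (QuotientGroup.mk 1))
  have hy' : ∑ q : A ⧸ N.subgroupOf A, c (q.out : A) * ((q.out : A) : Ga) y ≠ 0 := by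
    simpa [f] using hy
  have h1 : ∀ x : A, c ((QuotientGroup.mk x : A ⧸ N.subgroupOf A).out : A) *
      (((QuotientGroup.mk x : A ⧸ N.subgroupOf A).out : A) : Ga) y = c x * (x : Ga) y := fun x => by
    obtain ⟨n, hn⟩ := QuotientGroup.mk_out_eq_mul (N.subgroupOf A) x
    rw [hn, Subgroup.coe_mul, hc _ x.2 _ n.1.2, hW _ n.1.2 (W.normalCore_le n.2), map_one, mul_one,
      AlgEquiv.mul_apply, mem_fix.1 y.2 _ ⟨n.1.2, n.2⟩]
  refine ⟨_, inv_ne_zero hy', fun a ha => ?_⟩
  have h2 : c a * a (∑ q : A ⧸ N.subgroupOf A, c (q.out : A) * ((q.out : A) : Ga) y) =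
      ∑ q : A ⧸ N.subgroupOf A, c (q.out : A) * ((q.out : A) : Ga) y := by
    rw [map_sum, Finset.mul_sum]
    refine Eq.trans (Finset.sum_congr rfl fun q _ => ?_) (Equiv.sum_comp
      (MulAction.toPerm (⟨a, ha⟩ : A)) fun q : A ⧸ N.subgroupOf A =>
        c (q.out : A) * ((q.out : A) : Ga) y)
    rw [MulAction.toPerm_apply, ← MulAction.Quotient.mk_smul_out, h1, smul_eq_mul, Subgroup.coe_mul,
      hc _ ha _ q.out.2, map_mul, mul_assoc, AlgEquiv.mul_apply]
  rw [map_inv₀, eq_mul_inv_iff_mul_eq₀ hy', inv_mul_eq_iff_eq_mul₀ ((map_ne_zero a).2 hy'),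
    mul_comm, h2]

/-- Lagrange resolvent -/
theorem resolvent (r : ℕ) (hr : r.Prime) (L : IntermediateField ℚ Om) (ζ : Om)
    (hζ : IsPrimitiveRoot ζ r) (hζL : ζ ∈ L) (g : Ga) (hg : g ζ = ζ) (hL : ∀ x ∈ L, g x ∈ L)
    (y : Om) (hy : y ∈ L) (h1 : g y ≠ y) (h2 : (g ^ r) y = y) :
    ∃ a ∈ L, a ≠ 0 ∧ ∃ j : ℕ, ¬ r ∣ j ∧ g a = ζ ^ j * a := by
  let R : ℕ → Om := fun j => ∑ i ∈ Finset.range r, (ζ⁻¹ ^ j) ^ i * (g ^ i) y
  have hz : ζ ≠ 0 := hζ.ne_zero hr.ne_zero
  have hR : ∀ j, g (R j) = ζ ^ j * R j := fun j => by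
    have e : ζ⁻¹ ^ j * g (R j) = R j := by
      have a1 := Finset.sum_range_succ (fun i => (ζ⁻¹ ^ j) ^ i * (g ^ i) y) r
      rw [Finset.sum_range_succ', h2, ← pow_mul, ← pow_mul, mul_comm j r, pow_mul _ r j,
        hζ.inv.pow_eq_one, one_pow, mul_zero, pow_zero, pow_zero, AlgEquiv.one_apply,
        add_left_inj] at a1
      refine Eq.trans ?_ a1
      rw [map_sum, Finset.mul_sum]
      refine Finset.sum_congr rfl fun i _ => ?_
      rw [map_mul, map_pow, map_pow, map_inv₀, hg, pow_succ', pow_succ', AlgEquiv.mul_apply,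
        mul_assoc]
    rw [← e, ← mul_assoc, ← mul_pow, mul_inv_cancel₀ hz, one_pow, one_mul, e]
  have hy' : ∀ i : ℕ, (g ^ i) y ∈ L := fun i => by
    induction i with
    | zero => exact hy
    | succ i ih => rw [pow_succ', AlgEquiv.mul_apply]; exact hL _ ih
  by_contra! hn
  have h3 : ∑ j ∈ Finset.range r, R j = R 0 :=
    Finset.sum_eq_single_of_mem 0 (Finset.mem_range.2 hr.pos) fun j hj h0 => by
      by_contra h
      exact hn (R j) (sum_mem fun i _ => mul_mem (pow_mem (pow_mem (inv_mem hζL) _) _) (hy' i)) h j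
        (Nat.not_dvd_of_pos_of_lt (Nat.pos_of_ne_zero h0) (Finset.mem_range.1 hj)) (hR j)
  have h4 : ∑ j ∈ Finset.range r, R j = r * y := by
    rw [Finset.sum_comm, Finset.sum_eq_single_of_mem 0 (Finset.mem_range.2 hr.pos)]
    · simp
    · intro i hi h0
      have a1 := (hζ.inv.pow_of_coprime i ((Nat.coprime_of_lt_prime h0 (Finset.mem_range.1 hi)
        hr).symm)).geom_sum_eq_zero hr.one_lt
      simp only [← pow_mul, mul_comm _ i] at a1 ⊢
      rw [← Finset.sum_mul, a1, zero_mul]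
  have h5 := hR 0
  rw [← h3, h4, pow_zero, one_mul, map_mul, map_natCast] at h5
  exact h1 (mul_left_cancel₀ (Nat.cast_ne_zero.2 hr.ne_zero) h5)

end Vale.Agent.P024U
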