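import Vale.Agent.P024U.Val2
import Vale.Agent.P024U.Grp
import Vale.Agent.P024U.Plog

/-! Decomposition and inertia groups, Frobenius elements: elementary API.  Every residue class of `Oi / P` lies in a finite
field (`pow_sub_one_pos`); `comm_mem_Ine`: for `x : Oi` the residues of the conjugates of `x` generate a finite field whose
automorphism group is cyclic (or: `a` permutes the roots of unity congruent to powers of `x`: `a x ≡ x^i`, `b x ≡ x^j`). -/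

namespace Vale.Agent.P024U
open NumberField

theorem mem_Dec {P : Pr} {g : Ga} : g ∈ Dec P ↔ g • P = P := Iff.rfl

theorem dec0_of {P : Pr} {σ : Ga} (h : ∀ x ∈ P.I, σ • x ∈ P.I) : σ ∈ Dec P :=
  Pr.ext ((σ • P).max.eq_of_le P.max.ne_top fun x hx =>
    smul_inv_smul σ x ▸ h _ ((Pr.mem_smul σ P x).1 hx))

theorem dec0_mem {P : Pr} {σ : Ga} (h : σ ∈ Dec P) {x : Oi} (hx : x ∈ P.I) : σ • x ∈ P.I := by
  rw [← mem_Dec.1 h, Pr.mem_smul, inv_smul_smul]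
  exact hx

theorem dec0_closed (x : Oi) (p : Oi → Prop) : IsClosed {g : Ga | p (g • x)} := by
  have : IsLocallyConstant fun g : Ga => g • x := by
    refine (IsLocallyConstant.iff_exists_open _).2 fun g => ⟨_,
      (op_stab x).preimage (continuous_const_mul g⁻¹), by simp, fun k hk => ?_⟩
    rw [← smul_inv_smul g (k • x), ← mul_smul g⁻¹]
    exact congrArg _ (RingOfIntegers.ext hk)
  exact ⟨this {y | p y}ᶜ⟩

theorem dec0_comm (a b : Ga) {n : ℕ} (hn : n ≠ 0) {ζ : Om} (h : ζ ^ n = 1) :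
    a (b ζ) = b (a ζ) := by
  have := NeZero.mk hn
  obtain ⟨z, hz⟩ := HasEnoughRootsOfUnity.exists_primitiveRoot Om n
  obtain ⟨i, -, hi⟩ := hz.eq_pow_of_pow_eq_one (ξ := a z) (by rw [← map_pow, hz.pow_eq_one, map_one])
  obtain ⟨j, -, hj⟩ := hz.eq_pow_of_pow_eq_one (ξ := b z) (by rw [← map_pow, hz.pow_eq_one, map_one])
  obtain ⟨k, -, rfl⟩ := hz.eq_pow_of_pow_eq_one h
  simp only [map_pow, ← hi, ← hj]
  rw [pow_right_comm z]

theorem dec0_teich (P : Pr) {x : Oi} (hx : x ∉ P.I) :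
    ∃ n : ℕ, n ≠ 0 ∧ ∃ ζ : Oi, ζ ^ n = 1 ∧ x - ζ ∈ P.I := by
  have h1 := not_or.1 (mt (pos_iff_mem P x).1 hx)
  obtain ⟨n, hn, -, h⟩ := pow_sub_one_pos P x h1.1 (le_antisymm (not_lt.1 h1.2) (val_nonneg P x))
  have := NeZero.mk hn
  obtain ⟨z, hz⟩ := HasEnoughRootsOfUnity.exists_primitiveRoot Om n
  have e := congrArg (Polynomial.eval x)
    (Polynomial.X_pow_sub_one_eq_prod hn.bot_lt hz.toInteger_isPrimitiveRoot)
  simp only [Polynomial.eval_sub, Polynomial.eval_pow, Polynomial.eval_X, Polynomial.eval_one,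
    Polynomial.eval_prod, Polynomial.eval_C] at e
  have h2 : x ^ n - 1 ∈ P.I := (pos_iff_mem P _).1 (by simpa using h)
  have := P.max.isPrime
  obtain ⟨ζ, h3, h4⟩ := Ideal.IsPrime.prod_mem_iff.1 (e ▸ h2)
  exact ⟨n, hn, ζ, (Polynomial.mem_nthRootsFinset hn.bot_lt _).1 h3, h4⟩

theorem Ine_le_Dec (P : Pr) : Ine P ≤ Dec P := by
  refine fun σ h => dec0_of fun x hx => ?_
  simpa using P.I.add_mem (mem_Ine.1 h x) hx

theorem cl_Dec (P : Pr) : Cl (Dec P) := by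
  have : (Dec P : Set Ga) = ⋂ x ∈ P.I, {g : Ga | g • x ∈ P.I} := by
    ext g
    simpa using ⟨fun h x hx => dec0_mem h hx, dec0_of⟩
  rw [Cl, this]
  exact isClosed_biInter fun x _ => dec0_closed x (· ∈ P.I)

theorem cl_Ine (P : Pr) : Cl (Ine P) := by
  have : (Ine P : Set Ga) = ⋂ x, {g : Ga | g • x - x ∈ P.I} := by
    ext g
    simpa using mem_Ine
  rw [Cl, this]
  exact isClosed_iInter fun x => dec0_closed x (· - x ∈ P.I)

theorem conj_mem_Dec {P : Pr} {σ : Ga} (g : Ga) (h : σ ∈ Dec P) : g * σ * g⁻¹ ∈ Dec (g • P) := by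
  rw [mem_Dec, mul_smul, mul_smul, inv_smul_smul, mem_Dec.1 h]

theorem conj_mem_Ine {P : Pr} {σ : Ga} (g : Ga) (h : σ ∈ Ine P) : g * σ * g⁻¹ ∈ Ine (g • P) := by
  refine mem_Ine.2 fun x => ?_
  rw [Pr.mem_smul, smul_sub, mul_smul, mul_smul, inv_smul_smul]
  exact mem_Ine.1 h _

theorem comm_mem_Ine {P : Pr} {a b : Ga} (ha : a ∈ Dec P) (hb : b ∈ Dec P) :
    a * b * a⁻¹ * b⁻¹ ∈ Ine P := by
  have hc := (Dec P).mul_mem ((Dec P).mul_mem ((Dec P).mul_mem ha hb) ((Dec P).inv_mem ha))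
    ((Dec P).inv_mem hb)
  refine mem_Ine.2 fun x => ?_
  by_cases hx : x ∈ P.I
  · exact P.I.sub_mem (dec0_mem hc hx) hx
  obtain ⟨n, hn, ζ, h1, h2⟩ := dec0_teich P hx
  have e : (a * b * a⁻¹ * b⁻¹) • ζ = ζ := by
    have h3 : ((b * a)⁻¹ (ζ : Om)) ^ n = 1 := by
      rw [← map_pow, show (ζ : Om) ^ n = 1 from congrArg (fun y : Oi => (y : Om)) h1, map_one]
    apply RingOfIntegers.ext
    rw [coe_smul_Oi, mul_assoc (a * b), ← mul_inv_rev, AlgEquiv.mul_apply, AlgEquiv.mul_apply,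
      dec0_comm a b hn h3]
    exact (b * a).apply_symm_apply _
  convert P.I.sub_mem (dec0_mem hc h2) h2 using 1
  rw [smul_sub, e, sub_sub_sub_cancel_right]

theorem IsFrob.mem_Dec {P : Pr} {k : ℕ} {φ : Ga} (h : IsFrob P k φ) : φ ∈ Dec P := by
  refine dec0_of fun x hx => ?_
  simpa using P.I.add_mem (h x) (P.I.pow_mem_of_mem hx _ (pow_pos (ch_prime P).pos k))

theorem isFrob_zero {P : Pr} {φ : Ga} : IsFrob P 0 φ ↔ φ ∈ Ine P := by
  simp only [IsFrob, pow_zero, pow_one, mem_Ine]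

theorem IsFrob.mul {P : Pr} {k l : ℕ} {φ ψ : Ga} (h : IsFrob P k φ) (h' : IsFrob P l ψ) :
    IsFrob P (k + l) (φ * ψ) := by
  intro x
  convert P.I.add_mem (dec0_mem h.mem_Dec (h' x)) (h (x ^ ch P ^ l)) using 1
  rw [smul_sub, mul_smul, sub_add_sub_cancel, ← pow_mul, ← pow_add, add_comm]

theorem IsFrob.pow {P : Pr} {k : ℕ} {φ : Ga} (h : IsFrob P k φ) (n : ℕ) :
    IsFrob P (k * n) (φ ^ n) := by
  induction n with
  | zero => exact isFrob_zero.2 (Ine P).one_mem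
  | succ n ih => exact pow_succ φ n ▸ ih.mul h

theorem IsFrob.conj {P : Pr} {k : ℕ} {φ : Ga} (h : IsFrob P k φ) (g : Ga) :
    IsFrob (g • P) k (g * φ * g⁻¹) := by
  intro x
  rw [Pr.mem_smul, smul_sub, mul_smul, mul_smul, inv_smul_smul, smul_pow', ch_smul]
  exact h _

theorem IsFrob.inv_mul {P : Pr} {k : ℕ} {φ ψ : Ga} (h : IsFrob P k φ) (h' : IsFrob P k ψ) :
    φ⁻¹ * ψ ∈ Ine P := by
  refine mem_Ine.2 fun x => ?_
  convert dec0_mem ((Dec P).inv_mem h.mem_Dec) (P.I.sub_mem (h' x) (h x)) using 1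
  rw [sub_sub_sub_cancel_right, smul_sub, inv_smul_smul, mul_smul]

theorem IsFrob.root {P : Pr} {k n : ℕ} {φ : Ga} (h : IsFrob P k φ) (hn : ¬ ch P ∣ n) {z : Om}
    (hz : z ^ n = 1) : φ z = z ^ ch P ^ k := by
  have h0 : n ≠ 0 := fun e => hn (e ▸ dvd_zero _)
  have z0 : z ^ ch P ^ k ≠ 0 := pow_ne_zero _ (ne_zero_pow h0 (hz ▸ one_ne_zero))
  have h1 : Pos P (φ z - z ^ ch P ^ k) :=
    (pos_iff_mem P _).2 (h ⟨z, IsIntegral.of_pow h0.bot_lt (hz ▸ isIntegral_one)⟩)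
  have h2 := h1.mul_sm (y := (z ^ ch P ^ k)⁻¹) (.inr (by
    rw [val_inv, val_pow, val_of_pow_eq_one P h0 hz, mul_zero, neg_zero]))
  rw [sub_mul, mul_inv_cancel₀ z0] at h2
  exact (mul_inv_eq_one₀ z0).1 (root_eq_one hn (by
    rw [mul_pow, ← map_pow, inv_pow, pow_right_comm, hz, map_one, one_pow, inv_one, one_mul]) h2)

theorem IsFrob.chi {P : Pr} {k : ℕ} {φ : Ga} (h : IsFrob P k φ) (t : ℕ) [Fact t.Prime]
    (ht : ch P ≠ t) : (chi t φ : ℤ_[t]) = (ch P ^ k : ℕ) := by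
  exact chi_eq_nat φ _ fun n z hz => h.root (fun e => ht
    ((Nat.prime_dvd_prime_iff_eq (ch_prime P) Fact.out).1 ((ch_prime P).dvd_of_dvd_pow e))) hz

theorem Ine_le_Gmu {P : Pr} {n : ℕ} (hn : ¬ ch P ∣ n) : Ine P ≤ Gmu n := by
  intro σ h z hz
  simpa using (isFrob_zero.2 h).root hn hz

theorem Ine.pos {P : Pr} {σ : Ga} (h : σ ∈ Ine P) {x : Om} (hx : 0 ≤ val P x) : Pos P (σ x - x) := by
  obtain ⟨a, b, hb, e⟩ := (val_nonneg_iff P x).1 hx
  have hc : b * σ • b ∉ P.I := fun k => (P.max.isPrime.mem_or_mem k).elim hb fun k => hb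
    (inv_smul_smul σ b ▸ dec0_mem ((Dec P).inv_mem (Ine_le_Dec P h)) k)
  have h1 := not_or.1 (mt (pos_iff_mem P _).1 hc)
  have h2 := (pos_iff_mem P _).2 (P.I.sub_mem (P.I.mul_mem_right b (mem_Ine.1 h a))
    (P.I.mul_mem_left a (mem_Ine.1 h b)))
  have h3 := h2.mul_sm (y := ((b * σ • b : Oi) : Om)⁻¹) (.inr (by
    rw [val_inv]
    exact neg_nonneg.2 (not_lt.1 h1.2)))
  convert h3 using 1
  rw [eq_mul_inv_iff_mul_eq₀ h1.1]
  show (σ x - x) * (b * σ b) = (σ a - a) * b - a * (σ b - b)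
  rw [← e, map_mul]
  ring

theorem val_dec {P : Pr} {σ : Ga} (h : σ ∈ Dec P) (x : Om) : val P (σ x) = val P x := by
  rw [← val_smul σ P x, mem_Dec.1 h]

end Vale.Agent.P024U
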