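import Mathlib

/-! P024 (Uchida conjecture): basic definitions.  Everything happens inside one algebraic
closure `Om` of the rationals; number fields are fixed fields of open subgroups of `Ga`. -/

namespace Vale.Agent.P024U
open NumberField
open scoped Pointwise Classical

noncomputable section

abbrev Om : Type := AlgebraicClosure ℚ
abbrev Ga : Type := Om ≃ₐ[ℚ] Om
abbrev Oi : Type := 𝓞 Om

/-- nonzero primes (= maximal ideals) of the ring of all algebraic integers -/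
@[ext] structure Pr where
  I : Ideal Oi
  max : I.IsMaximal

instance : MulAction Ga Pr where
  smul g P := ⟨g • P.I, by
    have := P.max
    exact Ideal.map_isMaximal_of_equiv (MulSemiringAction.toRingEquiv Ga Oi g)⟩
  one_smul P := Pr.ext (one_smul Ga P.I)
  mul_smul g h P := Pr.ext (mul_smul g h P.I)

theorem Pr.smul_I (g : Ga) (P : Pr) : (g • P).I = g • P.I := rfl

theorem Pr.mem_smul (g : Ga) (P : Pr) (x : Oi) : x ∈ (g • P).I ↔ g⁻¹ • x ∈ P.I :=
  Ideal.mem_pointwise_smul_iff_inv_smul_mem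

theorem coe_smul_Oi (g : Ga) (x : Oi) : ((g • x : Oi) : Om) = g (x : Om) := rfl

/-- residue characteristic -/
def ch (P : Pr) : ℕ := ringChar (Oi ⧸ P.I)

/-- `u` is a unit at `P` -/
def IsU (P : Pr) (u : Om) : Prop := ∃ a b : Oi, a ∉ P.I ∧ b ∉ P.I ∧ u * (b : Om) = (a : Om)

def IsVal (P : Pr) (x : Om) (q : ℚ) : Prop :=
  ∃ n : ℕ, 0 < n ∧ ∃ k : ℤ, (k : ℚ) = n * q ∧ IsU P (x ^ n / (ch P : Om) ^ k)

/-- additive valuation at `P`, normalised by `val P (ch P) = 1`; junk value `val P 0 = 0` -/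
def val (P : Pr) (x : Om) : ℚ := if h : ∃ q, IsVal P x q then h.choose else 0

/-- `x` has valuation at least `q` (true for `x = 0`) -/
def Sm (P : Pr) (q : ℚ) (x : Om) : Prop := x = 0 ∨ q ≤ val P x

/-- `x` has positive valuation (true for `x = 0`) -/
def Pos (P : Pr) (x : Om) : Prop := x = 0 ∨ 0 < val P x

def Dec (P : Pr) : Subgroup Ga := MulAction.stabilizer Ga P

def Ine (P : Pr) : Subgroup Ga := P.I.inertia Ga

theorem mem_Ine {P : Pr} {g : Ga} : g ∈ Ine P ↔ ∀ x : Oi, g • x - x ∈ P.I := Iff.rfl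

/-- `g` acts on the residue field at `P` as the `k`-th power of Frobenius -/
def IsFrob (P : Pr) (k : ℕ) (g : Ga) : Prop := ∀ x : Oi, g • x - x ^ (ch P ^ k) ∈ P.I

/-- residue degree at `P` of the fixed field of `H` -/
def deg (H : Subgroup Ga) (P : Pr) : ℕ := sInf {k | 0 < k ∧ ∃ g ∈ H, IsFrob P k g}

def frob (H : Subgroup Ga) (P : Pr) : Ga :=
  if h : ∃ g ∈ H, IsFrob P (deg H P) g then h.choose else 1

abbrev fix (H : Subgroup Ga) : IntermediateField ℚ Om := IntermediateField.fixedField H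

theorem mem_fix {H : Subgroup Ga} {x : Om} : x ∈ fix H ↔ ∀ g ∈ H, g x = x :=
  IntermediateField.mem_fixedField_iff H x

/-- automorphisms fixing all `n`-th roots of unity -/
def Gmu (n : ℕ) : Subgroup Ga where
  carrier := {g | ∀ z : Om, z ^ n = 1 → g z = z}
  one_mem' := fun _ _ => rfl
  mul_mem' := fun {a b} ha hb z hz => by
    rw [AlgEquiv.mul_apply, hb z hz, ha z hz]
  inv_mem' := fun {a} ha z hz => by
    have := ha z hz
    apply a.injective
    rw [this]; exact a.apply_symm_apply z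

/-- automorphisms fixing all roots of unity of `r`-power order and all `r`-power roots of `a` -/
def Groot (r : ℕ) (a : Om) : Subgroup Ga where
  carrier := {g | ∀ (n : ℕ) (z : Om), (z ^ r ^ n = 1 ∨ z ^ r ^ n = a) → g z = z}
  one_mem' := fun _ _ _ => rfl
  mul_mem' := fun {a b} ha hb n z hz => by
    rw [AlgEquiv.mul_apply, hb n z hz, ha n z hz]
  inv_mem' := fun {a} ha n z hz => by
    have := ha n z hz
    apply a.injective
    rw [this]; exact a.apply_symm_apply z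

/-- open subgroup -/
abbrev Op (H : Subgroup Ga) : Prop := IsOpen (H : Set Ga)
/-- closed subgroup -/
abbrev Cl (H : Subgroup Ga) : Prop := IsClosed (H : Set Ga)

/-- all primes not dividing `m` are unramified in the Galois closure of the fixed field -/
def UnrOut (H : Subgroup Ga) (m : ℕ) : Prop := ∀ P : Pr, ¬ ch P ∣ m → Ine P ≤ H

/-- divisors (prime to `m`) of the fixed field of `H` -/
def Div (H : Subgroup Ga) (m : ℕ) : AddSubgroup (Pr → ℤ) where
  carrier := {d | (∀ h ∈ H, ∀ P, d (h • P) = d P) ∧ (∀ P, ch P ∣ m → d P = 0) ∧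
    {l | ∃ P, ch P = l ∧ d P ≠ 0}.Finite}
  zero_mem' := ⟨fun _ _ _ => rfl, fun _ _ => rfl, by simp⟩
  add_mem' := fun {a b} ha hb => ⟨fun h hh P => by simp [ha.1 h hh P, hb.1 h hh P],
    fun P hP => by simp [ha.2.1 P hP, hb.2.1 P hP],
    (ha.2.2.union hb.2.2).subset (by
      rintro l ⟨P, hP, hne⟩
      by_cases h : a P = 0
      · right; exact ⟨P, hP, by simpa [h] using hne⟩
      · left; exact ⟨P, hP, h⟩)⟩
  neg_mem' := fun {a} ha => ⟨fun h hh P => by simp [ha.1 h hh P],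
    fun P hP => by simp [ha.2.1 P hP], by simpa using ha.2.2⟩

/-- the prime divisor below `P` -/
def ind (H : Subgroup Ga) (P : Pr) : Pr → ℤ := fun Q => if ∃ h ∈ H, h • P = Q then 1 else 0

/-- principal divisor, prime to `m` part -/
def dv (m : ℕ) (x : Om) : Pr → ℤ := fun P => if ch P ∣ m then 0 else ⌊val P x⌋

/-- Galois action on divisors -/
def act (g : Ga) (d : Pr → ℤ) : Pr → ℤ := fun P => d (g⁻¹ • P)

def Ray (H : Subgroup Ga) (m M : ℕ) : Set Om :=
  {x | x ∈ fix H ∧ x ≠ 0 ∧ ∀ P, ch P ∣ m → Sm P M (x - 1)}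

def dvRay (H : Subgroup Ga) (m M : ℕ) : AddSubgroup (Pr → ℤ) :=
  AddSubgroup.closure (dv m '' Ray H m M)

/-- the additive map on divisors with prescribed values on primes -/
def lift {A : Type*} [AddCommGroup A] (H : Subgroup Ga) (a : Pr → A) (d : Pr → ℤ) : A :=
  ∑ᶠ o : MulAction.orbitRel.Quotient H Pr, d o.out • a o.out

/-- Artin map composed with a character -/
def art {A : Type*} [AddCommGroup A] (H : Subgroup Ga) (θ : Ga → A) (d : Pr → ℤ) : A :=
  lift H (fun P => θ (frob H P)) d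

/-- norms from the field cut out by `θ` -/
def Nsub {A : Type*} [AddCommGroup A] (H : Subgroup Ga) (m : ℕ) (θ : Ga → A) :
    AddSubgroup (Pr → ℤ) :=
  AddSubgroup.closure {d | ∃ (P : Pr) (c : ℤ), ¬ ch P ∣ m ∧ c • θ (frob H P) = 0 ∧ d = c • ind H P}

/-- norm of divisors from the fixed field of `H'` to the fixed field of `H` -/
def nmD (H' H : Subgroup Ga) (d : Pr → ℤ) : Pr → ℤ :=
  ∑ᶠ c : H ⧸ H'.subgroupOf H, act (c.out : H) d

/-- norm of elements -/
def nmE (H' H : Subgroup Ga) (x : Om) : Om :=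
  ∏ᶠ c : H ⧸ H'.subgroupOf H, ((c.out : H) : Ga) x

/-- continuous additive character of `H` -/
def IsX {A : Type*} [AddCommGroup A] [TopologicalSpace A] (H : Subgroup Ga) (θ : Ga → A) : Prop :=
  ContinuousOn θ H ∧ ∀ a ∈ H, ∀ b ∈ H, θ (a * b) = θ a + θ b

/-- kernel of a character of `H` -/
def kerX {A : Type*} [AddCommGroup A] (H : Subgroup Ga) (θ : Ga → A) : Subgroup Ga :=
  Subgroup.closure {g | g ∈ H ∧ θ g = 0}

/-- linear independence of functions restricted to `H` -/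
def IndOn {t : ℕ} [Fact t.Prime] {ι : Type} [Fintype ι] (H : Subgroup Ga)
    (θ : ι → Ga → ℚ_[t]) : Prop :=
  ∀ c : ι → ℚ_[t], (∀ g ∈ H, ∑ i, c i * θ i g = 0) → ∀ i, c i = 0

/-- cyclotomic character -/
def chi (t : ℕ) [Fact t.Prime] : Ga →* ℤ_[t]ˣ :=
  (cyclotomicCharacter Om t).comp (MulSemiringAction.toRingAut Ga Om)

/-- `t`-adic logarithm of `x ^ (t - 1)` -/
def plog (t : ℕ) [Fact t.Prime] (x : ℤ_[t]ˣ) : ℚ_[t] :=
  Filter.atTop.limUnder
    (fun k : ℕ => ((((x : ℤ_[t]) : ℚ_[t])) ^ ((t - 1) * t ^ k) - 1) / (t : ℚ_[t]) ^ k)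

/-- Teichmueller representative -/
def teich (t : ℕ) [Fact t.Prime] (x : ℤ_[t]ˣ) : ℤ_[t] :=
  Filter.atTop.limUnder (fun k : ℕ => (x : ℤ_[t]) ^ t ^ k)

def kap (t : ℕ) [Fact t.Prime] (g : Ga) : ℚ_[t] := plog t (chi t g)

/-- a closed correspondence: the graph of an open homomorphism to the Galois group of a
root closed field -/
structure Corr where
  R : Subgroup (Ga × Ga)
  closed : IsClosed (R : Set (Ga × Ga))
  open1 : Op (R.map (MonoidHom.fst Ga Ga))
  open2 : Op (R.map (MonoidHom.snd Ga Ga))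
  rc : ∀ (y : Om) (n : ℕ), n ≠ 0 → (∀ τ, (1, τ) ∈ R → τ (y ^ n) = y ^ n) →
    ∀ τ, (1, τ) ∈ R → τ y = y

namespace Corr
variable (c : Corr)
def G1 : Subgroup Ga := c.R.map (MonoidHom.fst Ga Ga)
def G2 : Subgroup Ga := c.R.map (MonoidHom.snd Ga Ga)
def N1 : Subgroup Ga := c.R.comap (MonoidHom.inl Ga Ga)
def N2 : Subgroup Ga := c.R.comap (MonoidHom.inr Ga Ga)
def im (A : Subgroup Ga) : Subgroup Ga := (c.R ⊓ A.prod ⊤).map (MonoidHom.snd Ga Ga)
def pre (B : Subgroup Ga) : Subgroup Ga := (c.R ⊓ (⊤ : Subgroup Ga).prod B).map (MonoidHom.fst Ga Ga)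
def pull {A : Type*} [Zero A] (θ : Ga → A) (σ : Ga) : A :=
  if h : ∃ τ, (σ, τ) ∈ c.R then θ h.choose else 0
def Eqv (Q Q' : Pr) : Prop := ∃ ν ∈ c.N2, ν • Q = Q'
/-- the decomposition group of `P` is mapped into the one of `Q` -/
def Maps (P Q : Pr) : Prop := ∀ σ τ, (σ, τ) ∈ c.R → σ ∈ Dec P → c.Eqv (τ • Q) Q
/-- the image of inertia at `P` has order divisible by `r` -/
def Ram (r : ℕ) (P : Pr) : Prop :=
  ∃ σ τ y, σ ∈ Ine P ∧ (σ, τ) ∈ c.R ∧ y ∈ fix c.N2 ∧ τ y ≠ y ∧ (τ ^ r) y = y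
def Hit (r : ℕ) (Q : Pr) : Prop := ∃ P, ch P ≠ r ∧ c.Ram r P ∧ c.Maps P Q
def Compat (t : ℕ) [Fact t.Prime] : Prop := ∀ σ τ, (σ, τ) ∈ c.R → kap t τ = kap t σ
/-- conjugation by `g` on the source is conjugation by `γ` on the target -/
def NU (g γ : Ga) : Prop := ∀ σ τ, (σ, τ) ∈ c.R ↔ (g * σ * g⁻¹, γ * τ * γ⁻¹) ∈ c.R
/-- hypothesis of the final theorem -/
def HitT (t : ℕ) [Fact t.Prime] : Prop :=
  ∀ W : Subgroup Ga, Op W → W.Normal →
    {l | ∃ (P Q : Pr) (φ ψ τ : Ga), ch P = l ∧ ch Q = l ∧ IsFrob P 1 φ ∧ IsFrob Q 1 ψ ∧ φ ∈ W ∧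
      ψ ∈ W ∧ (φ, τ) ∈ c.R ∧ τ ∈ Dec Q ∧ kap t τ = kap t φ}.Infinite
/-- normal subgroup of `G2`, nontrivial modulo `N2` -/
def Nt (A : Subgroup Ga) : Prop :=
  A ≤ c.G2 ∧ c.N2 ≤ A ∧ (∀ τ ∈ c.G2, ∀ a ∈ A, τ * a * τ⁻¹ ∈ A) ∧ ¬ A ≤ c.N2
/-- normalizer of `N1` -/
def NF : Subgroup Ga := Subgroup.normalizer (c.N1 : Set Ga)
/-- intersection of the conjugates of `N1` different from `N1` -/
def MM : Subgroup Ga :=
  c.G1 ⊓ ⨅ (g : Ga) (_ : g ∉ c.NF), c.N1.map (MulAut.conj g).toMonoidHom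
/-- standard position -/
def Std : Prop := c.G1.Normal ∧ c.G1 ≤ Gmu 4 ∧ c.G2 ≤ Gmu 4
end Corr

/-- Hensel property of the fixed field of `T` at `Q` for `r`-power roots -/
def Hens (T : Subgroup Ga) (r : ℕ) (Q : Pr) : Prop :=
  ∀ n : ℕ, ∃ M : ℚ, ∀ x ∈ fix T, Sm Q M (x - 1) → ∃ z ∈ fix T, z ^ r ^ n = x

/-- two elements independent modulo `r`-th powers in the fixed field of `T` -/
def Dim2 (T : Subgroup Ga) (r : ℕ) : Prop :=
  ∃ a ∈ fix T, ∃ b ∈ fix T, a ≠ 0 ∧ b ≠ 0 ∧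
    ∀ i j : ℕ, (∃ z ∈ fix T, z ^ r = a ^ i * b ^ j) → r ∣ i ∧ r ∣ j

end
end Vale.Agent.P024U
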