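import Vale.Agent.P024U.EP

/-! The Dedekind zeta function near `s = 1`.  Use `NumberField.dedekindZeta`,
`NumberField.tendsto_sub_one_mul_dedekindZeta_nhdsGT`, `dedekindZeta_residue_pos`,
`NumberField.Ideal.tendsto_norm_le_div_atTop` with `LSeriesSummable_of_sum_norm_bigO` and a sum over the fibres
of `absNorm` (`Ideal.finite_setOf_absNorm_eq`).  `prime_sum`: take logarithms in the (real) Euler product,
`x ≤ -log (1 - x) ≤ x + 2 x^2` for `x ≤ 1/2`; a prime ideal whose norm is not prime has norm `≥ p^2`, and at most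
`[K:ℚ]` primes lie over `p` (or: `∑ N v^(-2) ≤ ζ_K(2)` and the map to `p` has fibres of size `≤ finrank`). -/

namespace Vale.Agent.P024U
open NumberField IsDedekindDomain Filter Topology

variable (K : Type*) [Field K] [NumberField K]

theorem Zeta_fib {ι : Type*} (φ : ι → ℕ) (hφ : ∀ n, Finite {i // φ i = n}) (g : ℕ → ℝ)
    (hg : ∀ n, 0 ≤ g n) (hs : Summable fun n => (Nat.card {i // φ i = n} : ℝ) * g n) :
    HasSum (fun i => g (φ i)) (∑' n, (Nat.card {i // φ i = n} : ℝ) * g n) := by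
  have h1 : ∀ n, HasSum (fun i : {i // φ i = n} => g (φ i.1))
      ((Nat.card {i // φ i = n} : ℝ) * g n) := by
    intro n
    have := hφ n
    have := Fintype.ofFinite {i // φ i = n}
    have h := hasSum_fintype (fun i : {i // φ i = n} => g (φ i.1))
    rw [Finset.sum_congr rfl (g := fun _ => g n) (fun i _ => by rw [i.2]), Finset.sum_const,
      nsmul_eq_mul, Finset.card_univ, ← Nat.card_eq_fintype_card] at h
    exact h
  rw [← (Equiv.sigmaFiberEquiv φ).hasSum_iff]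
  have h2 : Summable ((fun i => g (φ i)) ∘ (Equiv.sigmaFiberEquiv φ)) := by
    refine (summable_sigma_of_nonneg fun x => hg _).2 ⟨fun n => (h1 n).summable, ?_⟩
    exact hs.congr fun n => (h1 n).tsum_eq.symm
  have h3 := h2.hasSum
  rw [h2.tsum_sigma' fun n => (h1 n).summable] at h3
  have h4 : (∑' n, (Nat.card {i // φ i = n} : ℝ) * g n) =
      ∑' n, ∑' c : {i // φ i = n}, ((fun i => g (φ i)) ∘ (Equiv.sigmaFiberEquiv φ)) ⟨n, c⟩ :=
    tsum_congr fun n => (h1 n).tsum_eq.symm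
  rw [h4]
  exact h3

theorem Zeta_term (a : ℕ → ℝ) {s : ℝ} (hs : 1 < s) (n : ℕ) :
    LSeries.term (fun n => (a n : ℂ)) s n = ((a n * (n : ℝ) ^ (-s) : ℝ) : ℂ) := by
  rcases eq_or_ne n 0 with rfl | hn
  · rw [LSeries.term_zero, Nat.cast_zero, Real.zero_rpow (by linarith), mul_zero,
      Complex.ofReal_zero]
  · rw [LSeries.term_of_ne_zero hn, Real.rpow_neg (Nat.cast_nonneg n), Complex.ofReal_mul,
      Complex.ofReal_inv, Complex.ofReal_cpow (Nat.cast_nonneg n), div_eq_mul_inv,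
      Complex.ofReal_natCast]

theorem Zeta_cnt : Tendsto (fun n : ℕ => (∑ k ∈ Finset.Icc 1 n,
    (Nat.card {I : Ideal (𝓞 K) // Ideal.absNorm I = k} : ℝ)) / n) atTop
    (𝓝 (dedekindZeta_residue K)) := by
  refine ((NumberField.Ideal.tendsto_norm_le_div_atTop₀ K).comp
    tendsto_natCast_atTop_atTop).congr fun n ↦ ?_
  simp only [Function.comp_apply, Nat.cast_le, ← Nat.cast_sum]
  congr
  rw [← add_left_inj 1, ← Ideal.card_norm_le_eq_card_norm_le_add_one,
    show Finset.Icc 1 n = Finset.Ioc 0 n from Finset.Icc_succ_left_eq_Ioc _ _,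
    show 1 = Nat.card {I : Ideal (𝓞 K) // Ideal.absNorm I = 0} by
      simp [Ideal.absNorm_eq_zero_iff],
    Finset.sum_Ioc_add_eq_sum_Icc (n.zero_le),
    ← Finset.card_preimage_eq_sum_card_image_eq
      (fun k _ ↦ Ideal.finite_setOfPred_absNorm_eq k)]
  simp [Set.coe_eq_subtype]

theorem Zeta_hasSum {s : ℝ} (hs : 1 < s) :
    HasSum (fun I : Ideal (𝓞 K) => (Ideal.absNorm I : ℝ) ^ (-s))
      (∑' n : ℕ, (Nat.card {I : Ideal (𝓞 K) // Ideal.absNorm I = n} : ℝ) * (n : ℝ) ^ (-s)) := by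
  refine Zeta_fib (fun I : Ideal (𝓞 K) => Ideal.absNorm I)
    (fun n => Ideal.finite_setOfPred_absNorm_eq n) (fun n => (n : ℝ) ^ (-s))
    (fun n => by positivity) ?_
  have h : LSeriesSummable
      (fun n => ((Nat.card {I : Ideal (𝓞 K) // Ideal.absNorm I = n} : ℝ) : ℂ)) s := by
    refine LSeriesSummable_of_sum_norm_bigO_and_nonneg (r := 1) ?_ (fun _ => Nat.cast_nonneg _)
      zero_le_one (by simpa using hs)
    refine Asymptotics.isBigO_of_div_tendsto_nhds ?_ (dedekindZeta_residue K) ?_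
    · filter_upwards [eventually_ne_atTop 0] with n hn h
      exact absurd h (by simpa using hn)
    · refine (Zeta_cnt K).congr fun n => ?_
      simp
  have h2 := h.congr (Zeta_term _ hs)
  exact Complex.summable_ofReal.1 h2

theorem zeta_summable {s : ℝ} (hs : 1 < s) :
    Summable fun I : Ideal (𝓞 K) => (Ideal.absNorm I : ℝ) ^ (-s) := by
  exact (Zeta_hasSum K hs).summable

theorem Zeta_lim : Tendsto (fun s : ℝ => (s - 1) * ∑' I : Ideal (𝓞 K), (Ideal.absNorm I : ℝ) ^ (-s))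
    (𝓝[>] 1) (𝓝 (dedekindZeta_residue K)) := by
  have h := (Complex.continuous_re.tendsto _).comp (tendsto_sub_one_mul_dedekindZeta_nhdsGT K)
  rw [Complex.ofReal_re] at h
  refine h.congr' ?_
  filter_upwards [self_mem_nhdsWithin] with s hs
  have hs' : 1 < s := hs
  have h1 : dedekindZeta K s = ((∑' I : Ideal (𝓞 K), (Ideal.absNorm I : ℝ) ^ (-s) : ℝ) : ℂ) := by
    rw [(Zeta_hasSum K hs').tsum_eq, Complex.ofReal_tsum, dedekindZeta, LSeries]
    refine tsum_congr fun n => ?_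
    rw [← Zeta_term (fun n => (Nat.card {I : Ideal (𝓞 K) // Ideal.absNorm I = n} : ℝ)) hs' n]
    simp only [Complex.ofReal_natCast]
  rw [Function.comp_apply, h1, ← Complex.ofReal_one, ← Complex.ofReal_sub, ← Complex.ofReal_mul,
    Complex.ofReal_re]

theorem zeta_bounds : ∃ c C : ℝ, 0 < c ∧ ∀ᶠ s : ℝ in 𝓝[>] 1,
    c / (s - 1) ≤ ∑' I : Ideal (𝓞 K), (Ideal.absNorm I : ℝ) ^ (-s) ∧
      ∑' I : Ideal (𝓞 K), (Ideal.absNorm I : ℝ) ^ (-s) ≤ C / (s - 1) := by
  have hρ := dedekindZeta_residue_pos K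
  refine ⟨dedekindZeta_residue K / 2, 2 * dedekindZeta_residue K, by positivity, ?_⟩
  filter_upwards [self_mem_nhdsWithin,
    (Zeta_lim K).eventually (lt_mem_nhds (show dedekindZeta_residue K / 2 < _ by linarith)),
    (Zeta_lim K).eventually (gt_mem_nhds (show _ < 2 * dedekindZeta_residue K by linarith))]
    with s hs h1 h2
  have hs' : 0 < s - 1 := sub_pos.2 hs
  rw [div_le_iff₀ hs', le_div_iff₀ hs']
  constructor <;> linarith

theorem Zeta_log {x : ℝ} (h1 : x ≤ 1 / 2) :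
    x ≤ -Real.log (1 - x) ∧ -Real.log (1 - x) ≤ x + 2 * x ^ 2 := by
  have h2 : 0 < 1 - x := by linarith
  refine ⟨by linarith [Real.log_le_sub_one_of_pos h2], ?_⟩
  have h3 := Real.log_le_sub_one_of_pos (inv_pos.2 h2)
  rw [Real.log_inv] at h3
  refine h3.trans ?_
  rw [sub_le_iff_le_add, inv_eq_one_div, div_le_iff₀ h2]
  nlinarith [mul_nonneg (sq_nonneg x) (show 0 ≤ 1 - 2 * x by linarith)]

theorem Zeta_two_le (v : HeightOneSpectrum (𝓞 K)) : 2 ≤ Ideal.absNorm v.asIdeal := by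
  have h0 : Ideal.absNorm v.asIdeal ≠ 0 := by
    rw [Ne, Ideal.absNorm_eq_zero_iff]
    exact v.ne_bot
  have h1 : Ideal.absNorm v.asIdeal ≠ 1 := by
    rw [Ne, Ideal.absNorm_eq_one_iff]
    exact v.isPrime.ne_top
  omega

theorem Zeta_summable_prime {s : ℝ} (hs : 1 < s) :
    Summable fun v : HeightOneSpectrum (𝓞 K) => (Ideal.absNorm v.asIdeal : ℝ) ^ (-s) :=
  (zeta_summable K hs).comp_injective (i := fun v : HeightOneSpectrum (𝓞 K) => v.asIdeal)
    fun _ _ h => HeightOneSpectrum.ext h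

theorem Zeta_half (v : HeightOneSpectrum (𝓞 K)) {s : ℝ} (hs : 1 < s) :
    (Ideal.absNorm v.asIdeal : ℝ) ^ (-s) ≤ (Ideal.absNorm v.asIdeal : ℝ)⁻¹ ∧
      (Ideal.absNorm v.asIdeal : ℝ)⁻¹ ≤ 1 / 2 := by
  have h2 : (2 : ℝ) ≤ Ideal.absNorm v.asIdeal := by exact_mod_cast Zeta_two_le K v
  constructor
  · rw [← Real.rpow_neg_one]
    exact Real.rpow_le_rpow_of_exponent_le (by linarith) (by linarith)
  · rw [one_div]
    exact inv_anti₀ two_pos h2

theorem Zeta_euler {s : ℝ} (hs : 1 < s) :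
    HasSum (fun v : HeightOneSpectrum (𝓞 K) => -Real.log (1 - (Ideal.absNorm v.asIdeal : ℝ) ^ (-s)))
      (Real.log (∑' I : Ideal (𝓞 K), (Ideal.absNorm I : ℝ) ^ (-s))) := by
  have hx0 : ∀ I : Ideal (𝓞 K), 0 ≤ (Ideal.absNorm I : ℝ) ^ (-s) := fun I => by positivity
  have hx1 : ∀ v : HeightOneSpectrum (𝓞 K), (Ideal.absNorm v.asIdeal : ℝ) ^ (-s) ≤ 1 / 2 :=
    fun v => (Zeta_half K v hs).1.trans (Zeta_half K v hs).2
  have h1 := (euler_prod (fun I : Ideal (𝓞 K) => (((Ideal.absNorm I : ℝ) ^ (-s) : ℝ) : ℂ))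
    (by rw [Ideal.absNorm_bot, Nat.cast_zero, Real.zero_rpow (by linarith), Complex.ofReal_zero])
    (by rw [Ideal.absNorm_top, Nat.cast_one, Real.one_rpow, Complex.ofReal_one])
    (fun I J => by
      rw [map_mul, Nat.cast_mul, Real.mul_rpow (Nat.cast_nonneg _) (Nat.cast_nonneg _),
        Complex.ofReal_mul])
    ((zeta_summable K hs).congr fun I => by
      rw [Complex.norm_real, Real.norm_of_nonneg (hx0 I)])).2.norm
  rw [← Complex.ofReal_tsum, Complex.norm_real, Real.norm_of_nonneg (tsum_nonneg hx0)] at h1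
  have h2 : Summable fun v : HeightOneSpectrum (𝓞 K) =>
      -Real.log (1 - (Ideal.absNorm v.asIdeal : ℝ) ^ (-s)) := by
    refine Summable.of_nonneg_of_le (fun v => (hx0 _).trans (Zeta_log (hx1 v)).1)
      (fun v => (Zeta_log (hx1 v)).2.trans ?_) ((Zeta_summable_prime K hs).mul_left 2)
    nlinarith [hx0 v.asIdeal, hx1 v]
  have h3 := h2.hasSum.rexp
  have h4 : (Real.exp ∘ fun v : HeightOneSpectrum (𝓞 K) =>
      -Real.log (1 - (Ideal.absNorm v.asIdeal : ℝ) ^ (-s))) = fun v : HeightOneSpectrum (𝓞 K) =>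
      ‖(1 - (((Ideal.absNorm v.asIdeal : ℝ) ^ (-s) : ℝ) : ℂ))⁻¹‖ := by
    funext v
    have h5 : 0 < 1 - (Ideal.absNorm v.asIdeal : ℝ) ^ (-s) := by linarith [hx1 v]
    rw [Function.comp_apply, Real.exp_neg, Real.exp_log h5, ← Complex.ofReal_one,
      ← Complex.ofReal_sub, ← Complex.ofReal_inv, Complex.norm_real,
      Real.norm_of_nonneg (inv_pos.2 h5).le]
  rw [h4] at h3
  rw [h1.unique h3, Real.log_exp]
  exact h2.hasSum

theorem Zeta_minFac (v : HeightOneSpectrum (𝓞 K)) :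
    (Ideal.absNorm v.asIdeal).minFac.Prime ∧
      (((Ideal.absNorm v.asIdeal).minFac : ℕ) : 𝓞 K) ∈ v.asIdeal ∧
      (¬ (Ideal.absNorm v.asIdeal).Prime →
        (Ideal.absNorm v.asIdeal).minFac ^ 2 ≤ Ideal.absNorm v.asIdeal) := by
  have := v.isMaximal
  obtain ⟨p, n, hn, hp1, hp, h⟩ := Ideal.exists_prime_and_absNorm_eq_pow v.asIdeal
  have h1 : (Ideal.absNorm v.asIdeal).minFac = p := by rw [h, hp.pow_minFac hn.ne']
  rw [h1]
  refine ⟨hp, hp1, fun h2 => ?_⟩
  rw [h] at h2 ⊢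
  refine Nat.pow_le_pow_right hp.pos ?_
  by_contra h3
  obtain rfl : n = 1 := by omega
  exact h2 (by rwa [pow_one])

theorem Zeta_fibre (n : ℕ) :
    Finite {v : HeightOneSpectrum (𝓞 K) // (Ideal.absNorm v.asIdeal).minFac = n} ∧
      Nat.card {v : HeightOneSpectrum (𝓞 K) // (Ideal.absNorm v.asIdeal).minFac = n} ≤
        Module.finrank ℤ (𝓞 K) := by
  by_cases hn : n.Prime
  · have hp : Prime (n : ℤ) := Nat.prime_iff_prime_int.1 hn
    have hpP : (Ideal.span {(n : ℤ)}).IsPrime := (Ideal.span_singleton_prime hp.ne_zero).2 hp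
    have hpM : (Ideal.span {(n : ℤ)}).IsMaximal := hpP.isMaximal (by simpa using hp.ne_zero)
    have hfin : Finite ((Ideal.span {(n : ℤ)}).primesOver (𝓞 K)) :=
      IsDedekindDomain.primesOver_finite _ _
    have hmem : ∀ v : {v : HeightOneSpectrum (𝓞 K) // (Ideal.absNorm v.asIdeal).minFac = n},
        v.1.asIdeal ∈ (Ideal.span {(n : ℤ)}).primesOver (𝓞 K) := by
      intro v
      refine ⟨v.1.isPrime, ⟨hpM.eq_of_le (Ideal.IsPrime.under ℤ v.1.asIdeal).ne_top ?_⟩⟩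
      have h := (Zeta_minFac K v.1).2.1
      rw [v.2] at h
      rwa [Ideal.span_singleton_le_iff_mem, Ideal.under_def, Ideal.mem_comap, map_natCast]
    have hinj : Function.Injective (fun v : {v : HeightOneSpectrum (𝓞 K) //
        (Ideal.absNorm v.asIdeal).minFac = n} =>
        (⟨v.1.asIdeal, hmem v⟩ : (Ideal.span {(n : ℤ)}).primesOver (𝓞 K))) :=
      fun v w h => Subtype.ext (HeightOneSpectrum.ext (congrArg Subtype.val h))
    refine ⟨Finite.of_injective _ hinj, (Nat.card_le_card_of_injective _ hinj).trans ?_⟩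
    have := Fintype.ofFinite ((Ideal.span {(n : ℤ)}).primesOver (𝓞 K))
    rw [← Ideal.sum_ramification_inertia_eq_finrank (Ideal.span {(n : ℤ)}) (𝓞 K),
      Nat.card_eq_fintype_card, ← Finset.card_univ, Finset.card_eq_sum_ones]
    refine Finset.sum_le_sum fun q _ => ?_
    have := q.2.1
    exact Nat.mul_pos (Ideal.ramificationIdx_pos q.1 ℤ) (Ideal.inertiaDeg_pos q.1 ℤ)
  · have : IsEmpty {v : HeightOneSpectrum (𝓞 K) // (Ideal.absNorm v.asIdeal).minFac = n} :=
      ⟨fun v => hn (v.2 ▸ (Zeta_minFac K v.1).1)⟩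
    exact ⟨inferInstance, by simp⟩

theorem Zeta_sq : Summable fun v : HeightOneSpectrum (𝓞 K) =>
    (((Ideal.absNorm v.asIdeal).minFac : ℝ) ^ 2)⁻¹ := by
  refine (Zeta_fib (fun v : HeightOneSpectrum (𝓞 K) => (Ideal.absNorm v.asIdeal).minFac)
    (fun n => (Zeta_fibre K n).1) (fun n => ((n : ℝ) ^ 2)⁻¹) (fun n => by positivity) ?_).summable
  refine Summable.of_nonneg_of_le (fun n => by positivity) (fun n => ?_)
    ((Real.summable_nat_pow_inv.2 one_lt_two).mul_left (Module.finrank ℤ (𝓞 K) : ℝ))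
  exact mul_le_mul_of_nonneg_right (by exact_mod_cast (Zeta_fibre K n).2) (by positivity)

open Classical in
theorem prime_sum : ∃ B : ℝ, ∀ᶠ s : ℝ in 𝓝[>] 1,
    |(∑' v : HeightOneSpectrum (𝓞 K), if (Ideal.absNorm v.asIdeal).Prime then
        (Ideal.absNorm v.asIdeal : ℝ) ^ (-s) else 0) - Real.log (1 / (s - 1))| ≤ B := by
  obtain ⟨c, C, hc, h⟩ := zeta_bounds K
  refine ⟨|Real.log c| + |Real.log C| + 3 * ∑' v : HeightOneSpectrum (𝓞 K),
    (((Ideal.absNorm v.asIdeal).minFac : ℝ) ^ 2)⁻¹, ?_⟩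
  filter_upwards [self_mem_nhdsWithin, h] with s hs ⟨h1, h2⟩
  have hs1 : 1 < s := hs
  have hs' : 0 < s - 1 := sub_pos.2 hs
  have hx0 : ∀ I : Ideal (𝓞 K), 0 ≤ (Ideal.absNorm I : ℝ) ^ (-s) := fun I => by positivity
  have hE := Zeta_euler K hs1
  have hP : Summable fun v : HeightOneSpectrum (𝓞 K) => if (Ideal.absNorm v.asIdeal).Prime then
      (Ideal.absNorm v.asIdeal : ℝ) ^ (-s) else 0 := by
    refine Summable.of_nonneg_of_le (fun v => ?_) (fun v => ?_) (Zeta_summable_prime K hs1)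
    · split_ifs
      exacts [hx0 _, le_rfl]
    · split_ifs
      exacts [le_rfl, hx0 _]
  have hL := fun v : HeightOneSpectrum (𝓞 K) =>
    Zeta_log ((Zeta_half K v hs1).1.trans (Zeta_half K v hs1).2)
  have h3 : (∑' v : HeightOneSpectrum (𝓞 K), if (Ideal.absNorm v.asIdeal).Prime then
      (Ideal.absNorm v.asIdeal : ℝ) ^ (-s) else 0) ≤
      Real.log (∑' I : Ideal (𝓞 K), (Ideal.absNorm I : ℝ) ^ (-s)) := by
    refine hasSum_le (fun v => le_trans ?_ (hL v).1) hP.hasSum hE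
    split_ifs
    exacts [le_rfl, hx0 _]
  have h4 : Real.log (∑' I : Ideal (𝓞 K), (Ideal.absNorm I : ℝ) ^ (-s)) ≤
      (∑' v : HeightOneSpectrum (𝓞 K), if (Ideal.absNorm v.asIdeal).Prime then
      (Ideal.absNorm v.asIdeal : ℝ) ^ (-s) else 0) + 3 * ∑' v : HeightOneSpectrum (𝓞 K),
      (((Ideal.absNorm v.asIdeal).minFac : ℝ) ^ 2)⁻¹ := by
    refine hasSum_le (fun v => (hL v).2.trans ?_) hE
      (hP.hasSum.add ((Zeta_sq K).hasSum.mul_left 3))
    have hm := Zeta_minFac K v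
    have hm0 : (0 : ℝ) < (Ideal.absNorm v.asIdeal).minFac := by exact_mod_cast hm.1.pos
    have hm1 : ((Ideal.absNorm v.asIdeal).minFac : ℝ) ≤ Ideal.absNorm v.asIdeal := by
      exact_mod_cast Nat.minFac_le (by linarith [Zeta_two_le K v])
    have h5 : ((Ideal.absNorm v.asIdeal : ℝ) ^ (-s)) ^ 2 ≤
        (((Ideal.absNorm v.asIdeal).minFac : ℝ) ^ 2)⁻¹ := by
      rw [← inv_pow]
      exact pow_le_pow_left₀ (hx0 _) ((Zeta_half K v hs1).1.trans (inv_anti₀ hm0 hm1)) 2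
    have h6 : 0 ≤ (((Ideal.absNorm v.asIdeal).minFac : ℝ) ^ 2)⁻¹ := by positivity
    split_ifs with hv
    · linarith
    · have h7 : (Ideal.absNorm v.asIdeal : ℝ) ^ (-s) ≤
          (((Ideal.absNorm v.asIdeal).minFac : ℝ) ^ 2)⁻¹ :=
        (Zeta_half K v hs1).1.trans (inv_anti₀ (by positivity) (by exact_mod_cast hm.2.2 hv))
      linarith
  have h5 : 0 < c / (s - 1) := div_pos hc hs'
  have hC : 0 < C := by
    have := (div_pos_iff_of_pos_right hs').1 (h5.trans_le (h1.trans h2))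
    exact this
  have h6 := Real.log_le_log h5 h1
  have h7 := Real.log_le_log (h5.trans_le h1) h2
  rw [Real.log_div hc.ne' hs'.ne'] at h6
  rw [Real.log_div hC.ne' hs'.ne'] at h7
  have h8 : 0 ≤ ∑' v : HeightOneSpectrum (𝓞 K), (((Ideal.absNorm v.asIdeal).minFac : ℝ) ^ 2)⁻¹ :=
    tsum_nonneg fun v => by positivity
  rw [one_div, Real.log_inv, abs_le]
  constructor <;>
    linarith [neg_abs_le (Real.log c), le_abs_self (Real.log C), abs_nonneg (Real.log c),
      abs_nonneg (Real.log C)]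

end Vale.Agent.P024U
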