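import Vale.Agent.P024U.Bridge
import Vale.Agent.P024U.Zeta

/-! Densities of degree one primes.  `dsum H S s` sums over the primes `v` of `fix H` lying below a prime `P` with a Frobenius
(of degree one) in `S`.  `dens_split`: for `H' = H` compare with `prime_sum` (`absNorm_below`: the norm is prime iff `deg = 1`).  In general
the map `below H' P ↦ below H P` from the degree one primes of `fix H'` to the primes counted on the left has fibres of cardinality exactly
`H'.relIndex H` outside the finitely many ramified primes (`exists_unrOut H'`; `Dec P ∩ H ≤ H'` by `dec_decomp`; `below_eq_iff`). -/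

namespace Vale.Agent.P024U
open NumberField IsDedekindDomain Filter Topology

open Classical in
noncomputable def dsum (H : Subgroup Ga) [NumberField (fix H)] (S : Set Ga) (s : ℝ) : ℝ :=
  ∑' v : HeightOneSpectrum (𝓞 (fix H)),
    if ∃ P, below H P = v ∧ ∃ φ ∈ S, IsFrob P 1 φ then (Ideal.absNorm v.asIdeal : ℝ) ^ (-s) else 0

theorem dens_summ (K : Type*) [Field K] [NumberField K] {s : ℝ} (hs : 1 < s)
    (p : HeightOneSpectrum (𝓞 K) → Prop) [DecidablePred p] :
    Summable fun v => if p v then (Ideal.absNorm v.asIdeal : ℝ) ^ (-s) else 0 := by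
  refine ((zeta_summable K hs).comp_injective (i := fun v : HeightOneSpectrum (𝓞 K) => v.asIdeal)
    fun v w h => HeightOneSpectrum.ext h).of_nonneg_of_le (fun v => ?_) fun v => ?_
  · split_ifs
    · positivity
    · exact le_rfl
  · split_ifs
    · exact le_rfl
    · exact Real.rpow_nonneg (Nat.cast_nonneg _) _

theorem dens_deg {H : Subgroup Ga} (hH : Op H) {P : Pr} {φ : Ga} (hφ : φ ∈ H)
    (h : IsFrob P 1 φ) [NumberField (fix H)] : Ideal.absNorm (below H P).asIdeal = ch P := by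
  rw [absNorm_below hH, Nat.dvd_one.1 (deg_dvd hH hφ h), pow_one]

open Classical in
theorem dens_term {H H' : Subgroup Ga} (hH' : Op H') (hle : H' ≤ H)
    (hn : ∀ h ∈ H, ∀ a ∈ H', h * a * h⁻¹ ∈ H') [NumberField (fix H)] [NumberField (fix H')]
    (s : ℝ) (Q : Pr) : (if (Ideal.absNorm (below H' Q).asIdeal).Prime then
      (Ideal.absNorm (below H' Q).asIdeal : ℝ) ^ (-s) else 0) =
    if ∃ P, below H P = below H Q ∧ ∃ φ ∈ (H' : Set Ga), IsFrob P 1 φ then
      (Ideal.absNorm (below H Q).asIdeal : ℝ) ^ (-s) else 0 := by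
  have hH := hH'.mono hle
  by_cases h : ∃ P, below H P = below H Q ∧ ∃ φ ∈ (H' : Set Ga), IsFrob P 1 φ
  · rw [if_pos h]
    obtain ⟨P, e, φ, h1, h2⟩ := h
    obtain ⟨g, hg, rfl⟩ := (below_eq_iff hH P Q).1 e
    rw [dens_deg hH' (hn g hg φ h1) (h2.conj g), dens_deg hH (hle (hn g hg φ h1)) (h2.conj g),
      if_pos (ch_prime _)]
  · rw [if_neg h, if_neg fun h1 => h ⟨Q, rfl, frob H' Q, (frob_spec hH' Q).1, ?_⟩]
    rw [absNorm_below hH'] at h1
    exact h1.eq_one_of_pow ▸ (frob_spec hH' Q).2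

theorem dens_card {H H' : Subgroup Ga} (hH' : Op H') (hle : H' ≤ H)
    (hn : ∀ h ∈ H, ∀ a ∈ H', h * a * h⁻¹ ∈ H')
    {π : HeightOneSpectrum (𝓞 (fix H')) → HeightOneSpectrum (𝓞 (fix H))}
    (hπ : ∀ Q, π (below H' Q) = below H Q) {P : Pr} (hP : Dec P ≤ H') :
    Nat.card (π ⁻¹' {below H P}) = H'.relIndex H := by
  have hH := hH'.mono hle
  have key : ∀ x y : H, below H' ((x : Ga) • P) = below H' ((y : Ga) • P) ↔
      x⁻¹ * y ∈ H'.subgroupOf H := fun x y => by
    rw [below_eq_iff hH', Subgroup.mem_subgroupOf, Subgroup.coe_mul, Subgroup.coe_inv]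
    constructor
    · rintro ⟨a, ha, e⟩
      have h1 : (y : Ga)⁻¹ * a * x ∈ H' :=
        hP (mem_Dec.2 (by rw [mul_smul, mul_smul, e, inv_smul_smul]))
      have h2 := H'.mul_mem (hn _ (H.inv_mem x.2) a ha) (H'.inv_mem h1)
      rwa [show (x : Ga)⁻¹ * a * (x : Ga)⁻¹⁻¹ * ((y : Ga)⁻¹ * a * x)⁻¹ = (x : Ga)⁻¹ * y by
        group] at h2
    · intro h
      exact ⟨_, hn _ x.2 _ h, by rw [mul_inv_cancel_left, mul_smul, inv_smul_smul]⟩
  refine (Nat.card_congr (Equiv.ofBijective (fun q : H ⧸ H'.subgroupOf H =>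
    (⟨below H' ((q.out : Ga) • P), (hπ _).trans
      ((below_eq_iff hH _ _).2 ⟨_, q.out.2, rfl⟩).symm⟩ : π ⁻¹' {below H P})) ⟨?_, ?_⟩)).symm
  · intro q r e
    rw [← q.out_eq', ← r.out_eq']
    exact QuotientGroup.eq.2 ((key _ _).1 (congrArg Subtype.val e))
  · rintro ⟨w, hw⟩
    obtain ⟨Q, rfl⟩ := below_surj H' w
    obtain ⟨g, hg, rfl⟩ := (below_eq_iff hH P Q).1 ((hπ Q).symm.trans hw).symm
    exact ⟨QuotientGroup.mk ⟨g, hg⟩, Subtype.ext ((key _ ⟨g, hg⟩).2
      (QuotientGroup.eq.1 (QuotientGroup.out_eq' _)))⟩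

theorem dens_split {H H' : Subgroup Ga} (hH' : Op H') (hle : H' ≤ H)
    (hn : ∀ h ∈ H, ∀ a ∈ H', h * a * h⁻¹ ∈ H') [NumberField (fix H)] :
    ∃ B : ℝ, ∀ᶠ s : ℝ in 𝓝[>] 1,
      |(H'.relIndex H : ℝ) * dsum H H' s - Real.log (1 / (s - 1))| ≤ B := by
  classical
  have hH := hH'.mono hle
  have := numberField_fix hH'
  obtain ⟨π, hπ⟩ : ∃ π : HeightOneSpectrum (𝓞 (fix H')) → HeightOneSpectrum (𝓞 (fix H)),
      ∀ Q, π (below H' Q) = below H Q :=
    ⟨fun w => below H (Function.surjInv (below_surj H') w), fun Q => by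
      obtain ⟨g, hg, e⟩ := (below_eq_iff hH' _ _).1
        (Function.surjInv_eq (below_surj H') (below H' Q))
      exact (below_eq_iff hH _ _).2 ⟨g, hle hg, e⟩⟩
  obtain ⟨m, m0, hm⟩ := exists_unrOut hH'
  have fin := Ideal.finite_factors (I := Ideal.span {(m : 𝓞 (fix H))})
    (Ideal.span_singleton_eq_bot.not.2 (Nat.cast_ne_zero.2 m0))
  obtain ⟨B, hB⟩ := prime_sum (fix H')
  refine ⟨∑ v ∈ fin.toFinset, |(H'.relIndex H : ℝ) - Nat.card (π ⁻¹' {v})| + B, ?_⟩
  filter_upwards [hB, eventually_mem_nhdsWithin] with s h1 (hs : 1 < s)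
  refine (abs_sub_le _ _ _).trans (add_le_add ?_ h1)
  obtain ⟨b, hb⟩ : ∃ b : HeightOneSpectrum (𝓞 (fix H)) → ℝ, b = fun v =>
    if ∃ P, below H P = v ∧ ∃ φ ∈ (H' : Set Ga), IsFrob P 1 φ then
      (Ideal.absNorm v.asIdeal : ℝ) ^ (-s) else 0 := ⟨_, rfl⟩
  have s1 : HasSum b (dsum H H' s) := hb ▸ (dens_summ _ hs _).hasSum
  have s2 := (dens_summ (fix H') hs
    fun v => (Ideal.absNorm v.asIdeal).Prime).hasSum.tsum_fiberwise π
  have e : ∀ v, (∑' w : π ⁻¹' {v}, if (Ideal.absNorm w.1.asIdeal).Prime then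
      (Ideal.absNorm w.1.asIdeal : ℝ) ^ (-s) else 0) = Nat.card (π ⁻¹' {v}) * b v := fun v => by
    rw [← nsmul_eq_mul, ← tsum_const]
    refine tsum_congr fun ⟨w, hw⟩ => ?_
    obtain ⟨Q, rfl⟩ := below_surj H' w
    obtain rfl : below H Q = v := (hπ Q).symm.trans hw
    rw [hb]
    exact dens_term hH' hle hn s Q
  simp only [e] at s2
  have s3 := (s1.mul_left (H'.relIndex H : ℝ)).sub s2
  rw [s3.unique (hasSum_sum_of_ne_finset_zero (s := fin.toFinset) fun v hv => ?_)]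
  · refine (Finset.abs_sum_le_sum_abs _ _).trans (Finset.sum_le_sum fun v _ => ?_)
    rw [← sub_mul, abs_mul]
    refine mul_le_of_le_one_right (abs_nonneg _) ?_
    simp only [hb]
    split_ifs
    · rw [abs_of_nonneg (by positivity)]
      exact Real.rpow_le_one_of_one_le_of_nonpos (Nat.one_le_cast.2 (Nat.pos_of_ne_zero
        (Ideal.absNorm_eq_zero_iff.not.2 v.ne_bot))) (by linarith)
    · simp
  · simp only [hb]
    split_ifs with h
    · obtain ⟨P, rfl, φ, h2, h3⟩ := h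
      have h4 : ¬ ch P ∣ m := fun h => hv (fin.mem_toFinset.2
        (Ideal.dvd_span_singleton.2 ((natCast_mem_below P m).2 h)))
      rw [dens_card hH' hle hn hπ fun σ hσ => ?_, sub_self]
      obtain ⟨k, ρ, h5, w, h6, -, rfl⟩ := dec_decomp h3 hH' hσ
      exact H'.mul_mem (H'.mul_mem (H'.pow_mem h2 k) (hm P h4 h5)) h6
    · simp

end Vale.Agent.P024U
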