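import Vale.Agent.P024U.Defs

/-! Three small tools for the interpolation determinant.
`det_dvd`: expand the determinant multilinearly in the rows (`Matrix.det_add`-type: `MultilinearMap.map_add_univ`
or induction); a determinant with more than `card κ` rows from `X * Y` vanishes (expand those rows in the rows
of `Y`, two of them coincide).  Alternative: `M` is the Schur complement type block; any proof is fine.
`liouville`: the product of the conjugates is a nonzero integer (constant coefficient of `minpoly ℤ z`);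
every complex root of the minimal polynomial is the image of `z` under an embedding of `Om`
(`IsAlgClosed.lift`, `IntermediateField.adjoin`, or `minpoly.exists_algEquiv_of_root` for `Om` plus one
fixed embedding).  `house_bdd`: finitely many complex roots.
`exists_rows`: independent columns give a nonsingular square submatrix of rows. -/

namespace Vale.Agent.P024U

theorem det_dvd {R : Type*} [CommRing R] {ι κ : Type*} [Fintype ι] [DecidableEq ι] [Fintype κ]
    (p : R) (X : Matrix ι κ R) (Y : Matrix κ ι R) (Z : Matrix ι ι R) :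
    p ^ (Fintype.card ι - Fintype.card κ) ∣ (X * Y + p • Z).det := by
  classical
  have h1 : (X * Y + p • Z).det = (Matrix.fromBlocks (p • Z) X (-Y) 1).det := by
    rw [Matrix.det_fromBlocks_one₂₂, Matrix.mul_neg, sub_neg_eq_add, add_comm]
  rw [h1, Matrix.det_apply]
  refine Finset.dvd_sum fun σ _ => ?_
  rw [Units.smul_def, zsmul_eq_mul, Fintype.prod_sum_type]
  refine Dvd.dvd.mul_left (Dvd.dvd.mul_right ?_ _) _
  let S := Finset.univ.filter fun i : ι => (σ (Sum.inl i)).isLeft
  have h2 : (Finset.univ.filter fun i : ι => ¬ (σ (Sum.inl i)).isLeft).card ≤ Fintype.card κ := by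
    rw [← Finset.card_univ (α := κ),
      ← Finset.card_map (s := Finset.univ) (Function.Embedding.inr (α := ι) (β := κ))]
    refine Finset.card_le_card_of_injOn (fun i => σ (Sum.inl i)) (fun i hi => ?_)
      fun i _ j _ h => Sum.inl_injective (σ.injective h)
    have h3 := (Finset.mem_filter.1 hi).2
    rcases h4 : σ (Sum.inl i) with a | a
    · simp [h4] at h3
    · simp [h4]
  have h3 := Finset.card_filter_add_card_filter_not (s := Finset.univ)
    fun i : ι => (σ (Sum.inl i)).isLeft
  rw [Finset.card_univ] at h3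
  refine (pow_dvd_pow p (by simp only [S]; omega : _ ≤ S.card)).trans ?_
  rw [← Finset.prod_const]
  refine (Finset.prod_dvd_prod_of_dvd _ _ fun i hi => ?_).trans
    (Finset.prod_dvd_prod_of_subset _ _ _ S.subset_univ)
  obtain ⟨a, ha⟩ := Sum.isLeft_iff.1 (Finset.mem_filter.1 hi).2
  rw [ha, Matrix.fromBlocks_apply₁₁, Matrix.smul_apply, smul_eq_mul]
  exact dvd_mul_right _ _

theorem liouville (z : Om) (hz : IsIntegral ℤ z) (h0 : z ≠ 0) :
    ∃ τ : Om →+* ℂ, 1 ≤ ‖τ z‖ := by
  have : Algebra.IsAlgebraic ℚ Om := AlgebraicClosure.isAlgebraic ℚ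
  have h1 : IsIntegral ℚ z := hz.tower_top
  have h2 := IntermediateField.adjoin.finiteDimensional h1
  have h3 : NumberField (IntermediateField.adjoin ℚ {z}) := {}
  have h4 : IsIntegral ℤ (IntermediateField.AdjoinSimple.gen ℚ z) :=
    (isIntegral_algHom_iff (IntermediateField.adjoin ℚ {z}).val.toRingHom.toIntAlgHom
      Subtype.val_injective).1 hz
  obtain ⟨σ, hσ⟩ := NumberField.exists_conjugate_one_le_norm (K := IntermediateField.adjoin ℚ {z})
    (α := ⟨_, h4⟩) fun h => h0 (congrArg (fun x => x.1.1) h)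
  have h5 : σ (IntermediateField.AdjoinSimple.gen ℚ z) ∈ (minpoly ℚ z).rootSet ℂ := by
    rw [← IntermediateField.minpoly_gen, ← Algebra.IsAlgebraic.range_eval_eq_rootSet_minpoly]
    exact ⟨σ.toRatAlgHom, rfl⟩
  rw [← Algebra.IsAlgebraic.range_eval_eq_rootSet_minpoly] at h5
  obtain ⟨τ, hτ⟩ := h5
  exact ⟨τ, hσ.trans_eq (congrArg norm hτ).symm⟩

theorem house_bdd (z : Om) : ∃ C : ℝ, 1 ≤ C ∧ ∀ τ : Om →+* ℂ, ‖τ z‖ ≤ C := by
  have : Algebra.IsAlgebraic ℚ Om := AlgebraicClosure.isAlgebraic ℚ
  obtain ⟨C, hC⟩ := (((minpoly ℚ z).rootSet_finite ℂ).image norm).bddAbove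
  refine ⟨max 1 C, le_max_left _ _, fun τ => le_max_of_le_right (hC ⟨τ z, ?_, rfl⟩)⟩
  rw [← Algebra.IsAlgebraic.range_eval_eq_rootSet_minpoly]
  exact ⟨τ.toRatAlgHom, rfl⟩

theorem exists_rows {K : Type*} [Field K] {α β : Type*} [Fintype β] [DecidableEq β]
    (M : α → β → K) (h : ∀ c : β → K, (∀ a, ∑ b, M a b * c b = 0) → c = 0) :
    ∃ f : β → α, (Matrix.of fun b b' => M (f b) b').det ≠ 0 := by
  have h1 : Submodule.span K (Set.range M) = ⊤ := by
    by_contra hn
    obtain ⟨g, hg, h2⟩ := Submodule.exists_le_ker_of_lt_top _ (lt_top_iff_ne_top.2 hn)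
    have h3 := h (fun b => g fun j => if b = j then 1 else 0) fun a => by
      have h4 : g (M a) = 0 := h2 (Submodule.subset_span ⟨a, rfl⟩)
      rwa [LinearMap.pi_apply_eq_sum_univ] at h4
    refine hg (LinearMap.ext fun x => ?_)
    rw [LinearMap.pi_apply_eq_sum_univ]
    exact Finset.sum_eq_zero fun b _ => by rw [congrFun h3 b, Pi.zero_apply, smul_zero]
  obtain ⟨κ, a, -, h2, h3⟩ := exists_linearIndependent' K M
  let e := (Pi.basisFun K β).indexEquiv (Module.Basis.mk h3 (h2.trans h1).ge)
  refine ⟨a ∘ e, IsUnit.ne_zero ?_⟩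
  rw [← Matrix.isUnit_iff_isUnit_det, ← Matrix.linearIndependent_rows_iff_isUnit]
  exact h3.comp e e.injective

end Vale.Agent.P024U
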