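import Vale.Agent.P024U.CApi
import Vale.Agent.P024U.Loc
import Vale.Agent.P024U.Lang

/-! The image of a ramified decomposition group.
`chi_ine`: `V = pre (Gmu r)`; for each `n`, `f σ` = class of `chi τ` mod `r^n` is a homomorphism on `Ine P ∩ V` killed by `r^n`; `loc_conj` with `g = frob G1 P` and commutativity give
`f σ ^ (q - 1) = 1`, so `chi τ ^ (q-1) = 1`, `eq_one_of_torsion`.  In general `σ^(r-1) ∈ V`, and `chi τ` mod `r`... only the stated form is needed.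
`ram_deep`: `resolvent` for `τ^(r-1)` in `L = fix N2`, then take an `r^(n-1)`-th root of the eigenvector (`root_mem`).
`dim_two`: `σ0`, `φ` from `loc_struct`; let `S` be the (finite, `G2`-stable) set of conjugates of the element `a` of `ram_deep` with `n` large, `F : Dec P ⊓ V → Perm S`.  The element `σ^k`, `k = V.index`
(take the normal `V`), lies in `Ine P ∩ V` and `F (σ^k)` has order `r^n / gcd`, `F (σ^k) = ρ F σ0 ^ i`; if `F σ0 ^ (q-1) ∈ J` then `F (σ^k)^(q-1) ∈ J` has order prime to `r`, false for `n` large.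
`fin_grp` in `F.range` gives two characters of `im (Dec P ⊓ V)` (well defined since `N2` acts trivially on `S`), `h90` gives `u, w` with `τ u = ζ^(f τ) u`, `τ w = ζ^(g τ) w`; `a = u^r`, `b = w^r`. -/

namespace Vale.Agent.P024U

theorem dimT_pow_val {r : ℕ} [NeZero r] {ζ : Om} (hζ : ζ ^ r = 1) (u v : ZMod r) :
    ζ ^ (u + v).val = ζ ^ u.val * ζ ^ v.val := by
  rw [← pow_add, ZMod.val_add, ← pow_eq_pow_mod _ hζ]

theorem dimT_pow_mem_Gmu (r : ℕ) [Fact r.Prime] (g : Ga) : g ^ (r - 1) ∈ Gmu r := by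
  rw [mem_Gmu_one, map_pow, Units.val_pow_eq_pow_val, map_pow]
  apply ZMod.pow_card_sub_one_eq_one
  exact ((chi r g).isUnit.map PadicInt.toZMod).ne_zero

theorem dimT_pow_apply {τ : Ga} {a ω : Om} (h : τ a = ω * a) (hω : τ ω = ω) (N : ℕ) :
    (τ ^ N) a = ω ^ N * a := by
  induction N with
  | zero => simp
  | succ N ih =>
    rw [pow_succ', AlgEquiv.mul_apply, ih, map_mul, map_pow, hω, h]
    ring

theorem dimT_pow_fix {τ : Ga} {a : Om} (h : τ a = a) (N : ℕ) : (τ ^ N) a = a := by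
  have := dimT_pow_apply (τ := τ) (a := a) (ω := 1) (by simpa using h) (map_one τ) N
  simpa using this

/-- Kummer generator of a character of order `r`. -/
theorem dimT_kum {T : Subgroup Ga} (hT : Cl T) {r : ℕ} [NeZero r] (hμ : T ≤ Gmu r) {ζ : Om}
    (hζ : ζ ^ r = 1) (f : T →* Multiplicative (ZMod r))
    (hW : ∃ W : Subgroup Ga, Op W ∧ ∀ τ : T, (τ : Ga) ∈ W → f τ = 1) :
    ∃ u : Om, u ≠ 0 ∧ ∀ τ : T, (τ : Ga) u = ζ ^ (f τ).toAdd.val * u := by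
  classical
  have hζ0 : ζ ≠ 0 := by
    rintro rfl
    rw [zero_pow (NeZero.ne r)] at hζ
    exact zero_ne_one hζ
  obtain ⟨u, hu0, hu⟩ := h90 hT (fun τ => if h : τ ∈ T then ζ ^ (f ⟨τ, h⟩).toAdd.val else 1)
    (fun a ha => by simp only [dif_pos ha]; exact pow_ne_zero _ hζ0)
    (fun a ha b hb => by
      simp only [dif_pos ha, dif_pos hb, dif_pos (T.mul_mem ha hb)]
      have e : (⟨a * b, T.mul_mem ha hb⟩ : T) = ⟨a, ha⟩ * ⟨b, hb⟩ := rfl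
      rw [e, map_mul, toAdd_mul, dimT_pow_val hζ, map_pow, hμ ha ζ hζ])
    (by
      obtain ⟨W, hWo, hW⟩ := hW
      refine ⟨W, hWo, fun a ha haW => ?_⟩
      simp only [dif_pos ha]
      rw [hW ⟨a, ha⟩ haW]
      simp)
  refine ⟨u, hu0, fun τ => ?_⟩
  have := hu τ τ.2
  simpa only [dif_pos τ.2] using this

namespace Corr
variable (c : Corr) {r : ℕ} [Fact r.Prime] {P : Pr}

omit [Fact r.Prime] in
/-- The finite quotient through which `im A` acts on the conjugates of a finite set. -/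
theorem dimT_quot (A : Subgroup Ga) (hA : A ≤ c.G1) (S : Set Om) (hS : S.Finite)
    (hfix : ∀ s ∈ S, s ∈ fix c.N2) :
    ∃ (Q : Type) (_ : Group Q) (_ : Finite Q) (π : c.im A →* Q) (F : A →* Q),
      (∀ (σ : A) (τ : c.im A), ((σ : Ga), (τ : Ga)) ∈ c.R → F σ = π τ) ∧
      (∀ τ : c.im A, π τ = 1 ↔ ∀ g ∈ c.im A, ∀ s ∈ S, (τ : Ga) (g s) = g s) ∧
      Function.Surjective F ∧
      (∃ W : Subgroup Ga, Op W ∧ ∀ τ : c.im A, (τ : Ga) ∈ W → π τ = 1) ∧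
      (∃ W : Subgroup Ga, Op W ∧ ∀ σ : A, (σ : Ga) ∈ W → F σ = 1) := by
  classical
  let B : Subgroup (c.im A) :=
    { carrier := {τ | ∀ g ∈ c.im A, ∀ s ∈ S, (τ : Ga) (g s) = g s}
      one_mem' := fun g _ s _ => rfl
      mul_mem' := fun {a b} ha hb g hg s hs => by
        rw [Subgroup.coe_mul, AlgEquiv.mul_apply, hb g hg s hs, ha g hg s hs]
      inv_mem' := fun {a} ha g hg s hs => by
        apply (a : Ga).injective
        rw [ha g hg s hs]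
        exact (a : Ga).apply_symm_apply _ }
  have hB : ∀ τ : c.im A, τ ∈ B ↔ ∀ g ∈ c.im A, ∀ s ∈ S, (τ : Ga) (g s) = g s := fun _ => Iff.rfl
  have hBn : B.Normal := ⟨fun n hn a => (hB _).2 fun g hg s hs => by
    have h1 := (hB n).1 hn ((a : Ga)⁻¹ * g) ((c.im A).mul_mem ((c.im A).inv_mem a.2) hg) s hs
    simp only [Subgroup.coe_mul, Subgroup.coe_inv, AlgEquiv.mul_apply] at h1 ⊢
    rw [h1]
    exact (a : Ga).apply_symm_apply _⟩
  have hU : IsOpen {g : Ga | ∀ s ∈ S, g s = s} := by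
    have : {g : Ga | ∀ s ∈ S, g s = s} = ⋂ s ∈ S, {g : Ga | g s = s} := by
      ext g
      simp
    rw [this]
    exact hS.isOpen_biInter fun s _ => op_stab s
  obtain ⟨W, hWo, hWn, hW⟩ := exists_op_normal (hU.mem_nhds (fun s _ => rfl))
  have hWB : ∀ τ : c.im A, (τ : Ga) ∈ W → τ ∈ B := by
    intro τ hτ
    refine (hB τ).2 fun g _ s hs => ?_
    have h1 : g⁻¹ * τ * g ∈ W := by simpa using hWn.conj_mem _ hτ g⁻¹
    have h2 := hW h1 s hs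
    simp only [AlgEquiv.mul_apply] at h2
    have h3 := congrArg g h2
    rwa [show g (g⁻¹ ((τ : Ga) (g s))) = (τ : Ga) (g s) from g.apply_symm_apply _] at h3
  have : W.FiniteIndex := ⟨hWo.index_ne_zero⟩
  have : B.FiniteIndex := Subgroup.finiteIndex_of_le (H := W.subgroupOf (c.im A))
    fun τ hτ => hWB τ (Subgroup.mem_subgroupOf.1 hτ)
  have hex : ∀ σ : A, ∃ τ : c.im A, ((σ : Ga), (τ : Ga)) ∈ c.R := by
    intro σ
    obtain ⟨τ, hτ⟩ := c.mem_G1.1 (hA σ.2)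
    exact ⟨⟨τ, c.mem_im.2 ⟨σ, σ.2, hτ⟩⟩, hτ⟩
  choose pt hpt using hex
  have hwd : ∀ (σ : Ga) (τ τ' : c.im A), (σ, (τ : Ga)) ∈ c.R → (σ, (τ' : Ga)) ∈ c.R →
      QuotientGroup.mk' B τ = QuotientGroup.mk' B τ' := by
    intro σ τ τ' h h'
    rw [QuotientGroup.mk'_apply, QuotientGroup.mk'_apply, QuotientGroup.eq]
    refine (hB _).2 fun g hg s hs => ?_
    have h1 := c.inv_mul_mem_N2 h h'
    exact mem_fix.1 (c.apply_mem_fix (c.im_le_G2 A hg) (hfix s hs)) _ h1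
  let F : A →* (c.im A) ⧸ B := MonoidHom.mk' (fun σ => QuotientGroup.mk' B (pt σ)) (by
    intro a b
    rw [← map_mul]
    exact hwd _ _ _ (hpt (a * b)) (c.R.mul_mem (hpt a) (hpt b)))
  have hF : ∀ (σ : A) (τ : c.im A), ((σ : Ga), (τ : Ga)) ∈ c.R → F σ = QuotientGroup.mk' B τ :=
    fun σ τ h => hwd _ _ _ (hpt σ) h
  refine ⟨(c.im A) ⧸ B, inferInstance, inferInstance, QuotientGroup.mk' B, F, hF, ?_, ?_,
    ⟨W, hWo, fun τ hτ => ?_⟩, ⟨c.pre W, c.op_pre hWo, fun σ hσ => ?_⟩⟩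
  · intro τ
    rw [QuotientGroup.mk'_apply, QuotientGroup.eq_one_iff]
    exact hB τ
  · intro x
    obtain ⟨τ, rfl⟩ := QuotientGroup.mk'_surjective B x
    obtain ⟨σ, hσ, h⟩ := c.mem_im.1 τ.2
    exact ⟨⟨σ, hσ⟩, hF _ _ h⟩
  · rw [QuotientGroup.mk'_apply, QuotientGroup.eq_one_iff]
    exact hWB τ hτ
  · obtain ⟨τ, hτ, h⟩ := c.mem_pre.1 hσ
    rw [hF σ ⟨τ, c.mem_im.2 ⟨σ, σ.2, h⟩⟩ h, QuotientGroup.mk'_apply, QuotientGroup.eq_one_iff]
    exact hWB _ hτ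

theorem chi_ine (h2 : r ≠ 2) (hP : ch P ≠ r) {σ τ : Ga} (hσ : σ ∈ Ine P) (hR : (σ, τ) ∈ c.R)
    (hτ : τ ∈ Gmu r) : chi r τ = 1 := by
  have hG : σ ∈ c.G1 := c.mem_G1.2 ⟨τ, hR⟩
  have hX : IsX (c.im c.G1) (kap r) := isX_kap h2 _
  have h1 := x_unr c.op_G1 (c.isX_pull c.op_G1.cl le_rfl hX) hP hσ hG
  rw [c.pull_eq hX hG hR, kap_eq_zero h2] at h1
  apply Units.ext
  refine eq_one_of_pow_of_mod _ ?_ ((mem_Gmu_one τ).1 hτ)
  simpa using congrArg Units.val h1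

theorem ram_deep (h2 : r ≠ 2) (hP : ch P ≠ r) (h : c.Ram r P) :
    ∃ σ τ, σ ∈ Ine P ∧ (σ, τ) ∈ c.R ∧ chi r τ = 1 ∧
      ∀ n : ℕ, ∃ a ∈ fix c.N2, a ≠ 0 ∧ IsPrimitiveRoot (τ a / a) (r ^ n) := by
  have hr : r.Prime := Fact.out
  have : NeZero r := ⟨hr.ne_zero⟩
  obtain ⟨σ, τ, y, hσ, hR, hy, h1, h3⟩ := h
  have hR' : (σ ^ (r - 1), τ ^ (r - 1)) ∈ c.R := c.R.pow_mem hR (r - 1)
  have hμ := dimT_pow_mem_Gmu r τ
  have hχ := c.chi_ine h2 hP ((Ine P).pow_mem hσ _) hR' hμ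
  refine ⟨_, _, (Ine P).pow_mem hσ _, hR', hχ, ?_⟩
  obtain ⟨ζ, hζ⟩ := HasEnoughRootsOfUnity.exists_primitiveRoot Om r
  have hG2 : τ ^ (r - 1) ∈ c.G2 := c.mem_G2.2 ⟨_, hR'⟩
  obtain ⟨a, ha, ha0, j, hj, hja⟩ := resolvent r hr (fix c.N2) ζ hζ
    (mem_fix.2 fun g hg => c.N2_le_Gmu hr.ne_zero hg ζ hζ.pow_eq_one) (τ ^ (r - 1))
    (hμ ζ hζ.pow_eq_one) (fun x hx => c.apply_mem_fix hG2 hx) y hy
    (by
      intro h4
      apply h1
      have e : τ ^ r = τ * τ ^ (r - 1) := by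
        rw [← pow_succ', Nat.sub_add_cancel hr.one_le]
      rw [e, AlgEquiv.mul_apply, h4] at h3
      exact h3)
    (by rw [← pow_mul, mul_comm, pow_mul]; exact dimT_pow_fix h3 _)
  intro n
  rcases n with _ | n
  · exact ⟨1, one_mem _, one_ne_zero, by simp⟩
  · obtain ⟨b, hb⟩ := IsAlgClosed.exists_pow_nat_eq a (pow_pos hr.pos n)
    have hb0 : b ≠ 0 := by
      rintro rfl
      rw [zero_pow (pow_pos hr.pos n).ne'] at hb
      exact ha0 hb.symm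
    refine ⟨b, c.root_mem (pow_pos hr.pos n).ne' (hb ▸ ha), hb0, ?_⟩
    have e : ((τ ^ (r - 1)) b / b) ^ r ^ n = ζ ^ j := by
      rw [div_pow, ← map_pow, hb, hja, mul_div_assoc, div_self ha0, mul_one]
    have ho : orderOf ((τ ^ (r - 1)) b / b) = r ^ (n + 1) := by
      apply orderOf_eq_prime_pow
      · rw [e, hζ.pow_eq_one_iff_dvd]
        exact hj
      · rw [pow_succ, pow_mul, e, ← pow_mul, mul_comm, pow_mul, hζ.pow_eq_one, one_pow]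
    rw [← ho]
    exact IsPrimitiveRoot.orderOf _

theorem dimT_q_mod {m q k : ℕ} [NeZero m] {φ : Ga} (hφ : IsFrob P k φ) (hq : q = ch P ^ k)
    (hm : ¬ ch P ∣ m) (hμ : φ ∈ Gmu m) : m ∣ q - 1 := by
  obtain ⟨ζ, hζ⟩ := HasEnoughRootsOfUnity.exists_primitiveRoot Om m
  have h1 := hφ.root hm hζ.pow_eq_one
  rw [hμ ζ hζ.pow_eq_one, ← hq] at h1
  have hq0 : 1 ≤ q := by
    rw [hq]
    exact Nat.one_le_pow _ _ (ch_prime P).pos
  rw [← hζ.pow_eq_one_iff_dvd]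
  have h0 : ζ ≠ 0 := hζ.ne_zero (NeZero.ne m)
  apply mul_right_cancel₀ h0
  rw [← pow_succ, Nat.sub_add_cancel hq0, one_mul]
  exact h1.symm

theorem dim_two (h2 : r ≠ 2) (hP : ch P ≠ r) (h : c.Ram r P) {V : Subgroup Ga} (hV : Op V)
    [V.Normal] (h1 : V ≤ Gmu r) (h2' : V ≤ c.pre (Gmu r)) : Dim2 (c.im (Dec P ⊓ V)) r := by
  classical
  have hr : r.Prime := Fact.out
  have : NeZero r := ⟨hr.ne_zero⟩
  have hPr : ¬ ch P ∣ r := fun h => hP ((Nat.prime_dvd_prime_iff_eq (ch_prime P) hr).1 h)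
  obtain ⟨σ, τ, hσ, hR, hχ, hdeep⟩ := c.ram_deep h2 hP h
  obtain ⟨σ0, hσ0, φ, hφ, hloc⟩ := loc_struct hr hP hV
  set q := ch P ^ deg V P with hq
  have hq2 : 2 ≤ q := by
    rw [hq]
    exact le_trans (ch_prime P).two_le (Nat.le_self_pow (deg_pos hV P).ne' _)
  have hqr : r ∣ q - 1 := dimT_q_mod hφ hq hPr (h1 φ.2.2)
  have hq1 : q % r = 1 := by
    obtain ⟨k, hk⟩ := hqr
    have : q = 1 + r * k := by omega
    rw [this, Nat.add_mul_mod_self_left, Nat.mod_eq_of_lt hr.one_lt]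
  set k := V.index with hk
  have hk0 : k ≠ 0 := hV.index_ne_zero
  obtain ⟨a, ha, ha0, hprim⟩ := hdeep (k * (q - 1))
  have hA : Dec P ⊓ V ≤ c.G1 := inf_le_right.trans (h2'.trans (c.pre_le_G1 _))
  have hTμ : c.im (Dec P ⊓ V) ≤ Gmu r :=
    c.im_le_of_le_pre (c.N2_le_Gmu hr.ne_zero) (inf_le_right.trans h2')
  have hTc : Cl (c.im (Dec P ⊓ V)) := c.cl_im ((cl_Dec P).inter hV.cl)
  obtain ⟨Q, _, _, π, F, hF, hπ, hsurj, hWπ, hWF⟩ := c.dimT_quot (Dec P ⊓ V) hA {a}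
    (Set.finite_singleton a) (by simpa using ha)
  obtain ⟨J, hJ1, hJ2, -, hJ3, hJ4, hJ5, N, hJ6⟩ := hloc Q F hWF
  have : J.Normal := ⟨fun n hn g => by
    obtain ⟨g', rfl⟩ := hsurj g
    exact hJ2 g' n hn⟩
  have hne : F σ0 ^ (q - 1) ∉ J := by
    intro hx
    have hσk : σ ^ k ∈ Dec P ⊓ V := ⟨(Dec P).pow_mem (Ine_le_Dec P hσ) _, V.pow_index_mem σ⟩
    have hRk : (σ ^ k, τ ^ k) ∈ c.R := c.R.pow_mem hR k
    have hτk : τ ^ k ∈ c.im (Dec P ⊓ V) := c.mem_im.2 ⟨_, hσk, hRk⟩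
    obtain ⟨i, ρ, hρ, e⟩ := hJ4 ⟨_, hσk⟩ ((Ine P).pow_mem hσ k)
    have h3 : F ⟨_, hσk⟩ ^ (q - 1) ∈ J := by
      rw [← QuotientGroup.eq_one_iff] at hx hρ ⊢
      rw [e]
      simp only [QuotientGroup.mk_pow, QuotientGroup.mk_mul, hρ, one_mul] at hx ⊢
      rw [← pow_mul, mul_comm, pow_mul, hx, one_pow]
    obtain ⟨m, hm, h4⟩ := hJ1 _ h3
    rw [hF ⟨_, hσk⟩ ⟨_, hτk⟩ hRk, ← map_pow, ← map_pow, hπ] at h4
    have h5 := h4 1 (one_mem _) a rfl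
    simp only [SubmonoidClass.coe_pow, AlgEquiv.one_apply, ← pow_mul] at h5
    have h6 : τ (τ a / a) = τ a / a := by
      have := (chi_eq_iff τ 1).1 (by rw [hχ, map_one]) _ _ hprim.pow_eq_one
      simpa using this
    rw [dimT_pow_apply (ω := τ a / a) (by field_simp) h6] at h5
    have h7 : (τ a / a) ^ (k * (q - 1) * m) = 1 := by
      apply mul_right_cancel₀ ha0
      rw [one_mul, mul_assoc]
      exact h5
    rw [hprim.pow_eq_one_iff_dvd] at h7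
    have h8 : r ^ (k * (q - 1)) ∣ k * (q - 1) :=
      (Nat.Coprime.pow_left _ ((Nat.Prime.coprime_iff_not_dvd hr).2 hm)).dvd_of_dvd_mul_right h7
    have h9 := Nat.le_of_dvd (Nat.pos_of_ne_zero (mul_ne_zero hk0 (by omega))) h8
    exact absurd h9 (not_le.2 (Nat.lt_pow_self hr.one_lt))
  obtain ⟨f, g, hf, hgx, hgy⟩ := fin_grp r hr J (F σ0) (F φ) q N hq1 (by
    intro x
    obtain ⟨x', rfl⟩ := hsurj x
    exact hJ3 x') hJ6 hJ5 hne
  obtain ⟨ζ, hζ⟩ := HasEnoughRootsOfUnity.exists_primitiveRoot Om r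
  obtain ⟨W, hWo, hW⟩ := hWπ
  obtain ⟨u, hu0, hu⟩ := dimT_kum hTc hTμ hζ.pow_eq_one (f.comp π)
    ⟨W, hWo, fun t ht => by simp [hW t ht]⟩
  obtain ⟨w, hw0, hw⟩ := dimT_kum hTc hTμ hζ.pow_eq_one (g.comp π)
    ⟨W, hWo, fun t ht => by simp [hW t ht]⟩
  have hfixp : ∀ (v : Om) (e : c.im (Dec P ⊓ V) → ℕ), (∀ t : c.im (Dec P ⊓ V),
      (t : Ga) v = ζ ^ e t * v) → v ^ r ∈ fix (c.im (Dec P ⊓ V)) := by
    intro v e hv
    refine mem_fix.2 fun t ht => ?_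
    rw [map_pow, hv ⟨t, ht⟩, mul_pow, ← pow_mul, mul_comm (e _), pow_mul, hζ.pow_eq_one]
    simp
  refine ⟨u ^ r, hfixp u _ hu, w ^ r, hfixp w _ hw, pow_ne_zero _ hu0, pow_ne_zero _ hw0, ?_⟩
  rintro i j ⟨z, hz, hzr⟩
  have hv0 : u ^ i * w ^ j ≠ 0 := mul_ne_zero (pow_ne_zero _ hu0) (pow_ne_zero _ hw0)
  have hzr' : z ^ r = (u ^ i * w ^ j) ^ r := by rw [hzr]; ring
  have hz0 : z ≠ 0 := by
    rintro rfl
    rw [zero_pow hr.ne_zero] at hzr'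
    exact pow_ne_zero _ hv0 hzr'.symm
  have key : ∀ t : c.im (Dec P ⊓ V),
      r ∣ (f (π t)).toAdd.val * i + (g (π t)).toAdd.val * j := by
    intro t
    have h3 : ((u ^ i * w ^ j) / z) ^ r = 1 := by
      rw [div_pow, ← hzr', div_self (pow_ne_zero _ hz0)]
    have h4 := hTμ t.2 _ h3
    rw [map_div₀, mem_fix.1 hz _ t.2, div_left_inj' hz0, map_mul, map_pow, map_pow, hu t,
      hw t] at h4
    rw [← hζ.pow_eq_one_iff_dvd]
    apply mul_right_cancel₀ hv0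
    simp only [MonoidHom.comp_apply] at h4
    rw [one_mul, pow_add, pow_mul, pow_mul]
    linear_combination h4
  have hlift : ∀ s : ↥(Dec P ⊓ V), ∃ t : c.im (Dec P ⊓ V), π t = F s := by
    intro s
    obtain ⟨t, ht⟩ := c.mem_G1.1 (hA s.2)
    exact ⟨⟨t, c.mem_im.2 ⟨s, s.2, ht⟩⟩, (hF s _ ht).symm⟩
  have hnd : ∀ x : Multiplicative (ZMod r), x ≠ 1 → ¬ r ∣ x.toAdd.val := by
    intro x hx hd
    apply hx
    have h3 : x.toAdd.val = 0 := Nat.eq_zero_of_dvd_of_lt hd (ZMod.val_lt _)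
    rw [ZMod.val_eq_zero] at h3
    exact toAdd_eq_zero.1 h3
  obtain ⟨tx, htx⟩ := hlift σ0
  obtain ⟨ty, hty⟩ := hlift φ
  have k1 := key tx
  have k2 := key ty
  rw [htx, hgx] at k1
  rw [hty] at k2
  simp only [toAdd_one, ZMod.val_zero, zero_mul, add_zero] at k1
  have hi : r ∣ i := (hr.dvd_mul.1 k1).resolve_left (hnd _ hf)
  refine ⟨hi, ?_⟩
  have k3 := (Nat.dvd_add_right (hi.mul_left _)).1 k2
  exact (hr.dvd_mul.1 k3).resolve_left (hnd _ hgy)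

end Corr
end Vale.Agent.P024U
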