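import Mathlib

/-! Euler product over the ideals of a number field.  For a finite set `T` of primes the product of the
geometric series is the sum of `F` over the ideals all of whose prime factors lie in `T` (induction on `T`:
such an ideal for `insert v T` is uniquely `v^k * J`; or use the bijection of nonzero ideals with
`HeightOneSpectrum →₀ ℕ`, `Ideal.finprod_heightOneSpectrum_factorization`, `UniqueFactorizationMonoid`), and the
tail is bounded by the tail of the absolutely convergent series.  Compare `EulerProduct.eulerProduct_hasProd`. -/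

namespace Vale.Agent.P024U
open NumberField IsDedekindDomain

section EP
variable {R : Type*} [CommRing R] [IsDedekindDomain R]

/-- nonzero ideals with all prime factors in `T` -/
def EPset (T : Finset (HeightOneSpectrum R)) : Set (Ideal R) :=
  {I | I ≠ ⊥ ∧ ∀ v : HeightOneSpectrum R, v.asIdeal ∣ I → v ∈ T}

theorem EP_pow_inj (v : HeightOneSpectrum R) {k l : ℕ} {I J : Ideal R} (hI : ¬ v.asIdeal ∣ I)
    (hJ : ¬ v.asIdeal ∣ J) (h : v.asIdeal ^ k * I = v.asIdeal ^ l * J) : k = l ∧ I = J := by
  have h0 : ∀ n : ℕ, v.asIdeal ^ n ≠ 0 := fun n => pow_ne_zero n v.ne_bot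
  have key : ∀ {k l : ℕ} {I J : Ideal R}, ¬ v.asIdeal ∣ I →
      v.asIdeal ^ k * I = v.asIdeal ^ l * J → l ≤ k := by
    intro k l I J hI h
    by_contra hkl
    obtain ⟨m, rfl⟩ := Nat.exists_eq_add_of_lt (not_le.1 hkl)
    rw [add_assoc, pow_add, mul_assoc] at h
    exact hI (mul_left_cancel₀ (h0 k) h ▸ (dvd_pow_self _ (Nat.succ_ne_zero m)).mul_right J)
  obtain rfl : k = l := le_antisymm (key hJ h.symm) (key hI h)
  exact ⟨rfl, mul_left_cancel₀ (h0 k) h⟩

omit [IsDedekindDomain R] in
theorem EP_pow {F : Ideal R → ℂ} (h1 : F ⊤ = 1) (hm : ∀ I J, F (I * J) = F I * F J) (I : Ideal R)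
    (k : ℕ) : F (I ^ k) = F I ^ k := by
  induction k with
  | zero => rw [pow_zero, pow_zero, Ideal.one_eq_top, h1]
  | succ k ih => rw [pow_succ, pow_succ, hm, ih]

theorem EP_lt {F : Ideal R → ℂ} (h1 : F ⊤ = 1) (hm : ∀ I J, F (I * J) = F I * F J)
    (hs : Summable fun I => ‖F I‖) (v : HeightOneSpectrum R) : ‖F v.asIdeal‖ < 1 := by
  have hn : ¬ v.asIdeal ∣ 1 := fun h => v.prime.not_unit (isUnit_of_dvd_one h)
  have hi : Function.Injective fun k : ℕ => v.asIdeal ^ k := fun k l h =>
    (EP_pow_inj v hn hn (congrArg (· * 1) h)).1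
  have h := (hs.of_norm.comp_injective hi).congr fun k => EP_pow h1 hm v.asIdeal k
  exact summable_geometric_iff_norm_lt_one.1 h

open Classical in
theorem EP_sum {F : Ideal R → ℂ} (h1 : F ⊤ = 1) (hm : ∀ I J, F (I * J) = F I * F J)
    (hs : Summable fun I => ‖F I‖) (T : Finset (HeightOneSpectrum R)) :
    HasSum (fun I : EPset T => F I) (∏ v ∈ T, (1 - F v.asIdeal)⁻¹) := by
  induction T using Finset.induction_on with
  | empty =>
    have h : EPset (∅ : Finset (HeightOneSpectrum R)) = {⊤} := by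
      ext I
      constructor
      · rintro ⟨h0, h⟩
        by_contra hI
        obtain ⟨M, hM, hle⟩ := Ideal.exists_le_maximal I hI
        have hb : M ≠ ⊥ := fun e => h0 (le_bot_iff.1 (e ▸ hle))
        exact Finset.notMem_empty _ (h ⟨M, hM.isPrime, hb⟩ (Ideal.dvd_iff_le.2 hle))
      · rintro rfl
        refine ⟨top_ne_bot, fun v h => (v.isPrime.ne_top (top_le_iff.1 (Ideal.dvd_iff_le.1 h))).elim⟩
    rw [h, Finset.prod_empty, ← h1]
    exact hasSum_singleton _ F
  | insert v T hv ih =>
    let e : ℕ × EPset T → EPset (insert v T) := fun q => ⟨v.asIdeal ^ q.1 * q.2,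
      mul_ne_zero (pow_ne_zero _ v.ne_bot) q.2.2.1, fun w hw => by
        rcases w.prime.dvd_or_dvd hw with h | h
        · have h' := Ideal.dvd_iff_le.1 (w.prime.dvd_of_dvd_pow h)
          rw [HeightOneSpectrum.ext (v.isMaximal.eq_of_le w.isPrime.ne_top h').symm]
          exact Finset.mem_insert_self _ _
        · exact Finset.mem_insert_of_mem (q.2.2.2 w h)⟩
    have he : Function.Bijective e := by
      constructor
      · rintro ⟨k, I⟩ ⟨l, J⟩ h
        have := EP_pow_inj v (fun h => hv (I.2.2 v h)) (fun h => hv (J.2.2 v h))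
          (congrArg Subtype.val h)
        exact Prod.ext this.1 (Subtype.ext this.2)
      · rintro ⟨I, h0, hI⟩
        obtain ⟨k, J, hJ, rfl⟩ := WfDvdMonoid.max_power_factor' h0 v.prime.not_unit
        refine ⟨(k, ⟨J, right_ne_zero_of_mul h0, fun w hw => ?_⟩), rfl⟩
        rcases Finset.mem_insert.1 (hI w (hw.mul_left _)) with rfl | h
        exacts [(hJ hw).elim, h]
    have hc : ∀ q : ℕ × EPset T, F (e q) = F v.asIdeal ^ q.1 * F q.2 := fun q => by
      rw [← EP_pow h1 hm, ← hm]
    rw [Finset.prod_insert hv, ← (Equiv.ofBijective e he).hasSum_iff]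
    have h2 := (hs.of_norm.comp_injective (Subtype.val_injective.comp he.1)).congr hc
    have h3 := (hasSum_geometric_of_norm_lt_one (EP_lt h1 hm hs v)).mul ih h2
    rw [← funext hc] at h3
    exact h3

end EP

theorem euler_prod {K : Type*} [Field K] [NumberField K] (F : Ideal (𝓞 K) → ℂ) (h0 : F ⊥ = 0)
    (h1 : F ⊤ = 1) (hm : ∀ I J, F (I * J) = F I * F J) (hs : Summable fun I => ‖F I‖) :
    (∀ v : HeightOneSpectrum (𝓞 K), ‖F v.asIdeal‖ < 1) ∧
      HasProd (fun v : HeightOneSpectrum (𝓞 K) => (1 - F v.asIdeal)⁻¹) (∑' I, F I) := by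
  refine ⟨EP_lt h1 hm hs, ?_⟩
  have h : ∀ T : Finset (HeightOneSpectrum (𝓞 K)),
      ∑' I, (EPset T).indicator F I = ∏ v ∈ T, (1 - F v.asIdeal)⁻¹ := fun T =>
    (hasSum_subtype_iff_indicator.1 (EP_sum h1 hm hs T)).tsum_eq
  refine Filter.Tendsto.congr h (tendsto_tsum_of_dominated_convergence hs (fun I => ?_)
    (Filter.Eventually.of_forall fun T I => norm_indicator_le_norm_self _ _))
  refine tendsto_const_nhds.congr' ?_
  by_cases hI : I = ⊥
  · exact Filter.Eventually.of_forall fun T => by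
      simp only [hI, Set.indicator_apply_eq_zero.2 fun _ => h0, h0]
  · filter_upwards [Filter.eventually_ge_atTop (Ideal.finite_factors hI).toFinset] with T hT
    exact (Set.indicator_of_mem (show I ∈ EPset T from
      ⟨hI, fun v hv => hT ((Set.Finite.mem_toFinset _).2 hv)⟩) F).symm

end Vale.Agent.P024U
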