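import Vale.Agent.P024U.XApi
import Vale.Agent.P024U.Dec

/-! `ext_lemma`: let `D` be the closure in `Ga × A` of the subgroup
`{(h σ0^k, f h)}`; it projects onto `H` (compactness and `cyc_gen`, which gives `σ0`), and meets `1 × A` trivially: if `h σ0^k` is in a small
open normal `W'` then `t^a ∣ k` (take `W' ≤ Gmu (t^M)`, `norm_plog`), `(σ0^k)^b ∈ W` with `b` prime to `t`, so `h^b ∈ W ∩ H∞` (work in `H / (W ∩ H)`, `W` normal)
and `b • f h ∈ A'`.  A closed graph in a compact space is continuous.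
`cyc_gen`: the image of `H` in `ℤ_[t]ˣ` is closed of finite index, `(ZMod (t^n))ˣ` is cyclic (`ZMod.isCyclic_units_of_prime_pow`), the sets of
`σ ∈ H` generating the image modulo `t^n` are closed, nonempty, decreasing; the image of `W ∩ H` is open. -/

namespace Vale.Agent.P024U

variable {t : ℕ} [Fact t.Prime]

instance ext_a1 : Algebra.IsAlgebraic ℚ Om := AlgebraicClosure.isAlgebraic ℚ

instance ext_a2 : IsAlgClosure ℚ Om := ⟨inferInstance, inferInstance⟩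

/-- a family whose members are pairwise proportional on `S` has a codimension one subfamily vanishing on `S` -/
theorem codim_one {H : Subgroup Ga} {ρ : ℕ} {θ : Fin (ρ + 1) → Ga → ℚ_[t]} (h : IndOn H θ)
    (S : Set Ga) (hS : ∀ i j, ∀ u ∈ S, ∀ v ∈ S, θ i u * θ j v = θ i v * θ j u) :
    ∃ c : Fin ρ → Fin (ρ + 1) → ℚ_[t], IndOn H (fun k g => ∑ i, c k i * θ i g) ∧
      ∀ k, ∀ u ∈ S, ∑ i, c k i * θ i u = 0 := by
  obtain ⟨i0, a, ha⟩ : ∃ (i0 : Fin (ρ + 1)) (a : Fin (ρ + 1) → ℚ_[t]),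
      ∀ j, ∀ u ∈ S, θ j u = a j * θ i0 u := by
    by_cases h0 : ∃ i0, ∃ v ∈ S, θ i0 v ≠ 0
    · obtain ⟨i0, v, hv, h1⟩ := h0
      refine ⟨i0, fun j => θ j v / θ i0 v, fun j u hu => ?_⟩
      rw [div_mul_eq_mul_div, eq_div_iff h1, hS j i0 u hu v hv]
    · push Not at h0
      exact ⟨0, 0, fun j u hu => by simp [h0 j u hu]⟩
  have e : ∀ (k : Fin ρ) (g : Ga), ∑ i, (Pi.single (i0.succAbove k) (1 : ℚ_[t]) -
      Pi.single i0 (a (i0.succAbove k)) : Fin (ρ + 1) → ℚ_[t]) i * θ i g =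
      θ (i0.succAbove k) g - a (i0.succAbove k) * θ i0 g := fun k g => by
    simp [sub_mul, Finset.sum_sub_distrib, Pi.single_apply]
  refine ⟨fun k => Pi.single (i0.succAbove k) 1 - Pi.single i0 (a (i0.succAbove k)),
    fun d hd k => ?_, fun k u hu => by rw [e, ha _ u hu, sub_self]⟩
  have := h (Fin.insertNth i0 (-∑ k, d k * a (i0.succAbove k)) d) (fun g hg => by
    have h1 := hd g hg
    simp only [e] at h1
    rw [Fin.sum_univ_succAbove _ i0]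
    simp only [Fin.insertNth_apply_same, Fin.insertNth_apply_succAbove]
    simp only [mul_sub, Finset.sum_sub_distrib, ← mul_assoc, ← Finset.sum_mul] at h1
    linear_combination h1) (i0.succAbove k)
  simpa using this

/-- the cyclotomic character modulo `t ^ n` -/
noncomputable def extC (t : ℕ) [Fact t.Prime] (n : ℕ) : Ga →* (ZMod (t ^ n))ˣ :=
  (Units.map (PadicInt.toZModPow n : ℤ_[t] →+* ZMod (t ^ n)).toMonoidHom).comp (chi t)

theorem extC_coe (n : ℕ) (g : Ga) :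
    (extC t n g : ZMod (t ^ n)) = PadicInt.toZModPow n (chi t g : ℤ_[t]) := rfl

theorem extC_eq_one (n : ℕ) (g : Ga) : extC t n g = 1 ↔ g ∈ Gmu (t ^ n) := by
  rw [mem_Gmu_pow, ← Units.val_inj, extC_coe, Units.val_one]

theorem ext_op (n : ℕ) : Op (Gmu (t ^ n)) := op_Gmu (pow_ne_zero _ (Fact.out : t.Prime).ne_zero)

theorem extC_lc (n : ℕ) : IsLocallyConstant (extC t n) := by
  refine (IsLocallyConstant.iff_exists_open _).2 fun x => ⟨(fun y => x⁻¹ * y) ⁻¹' Gmu (t ^ n),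
    (ext_op n).preimage (continuous_const_mul _), by simp, fun y hy => ?_⟩
  have := (extC_eq_one n _).2 hy
  rw [map_mul, map_inv, inv_mul_eq_one] at this
  exact this.symm

theorem ext_chi_one {g : Ga} (h : ∀ n, g ∈ Gmu (t ^ n)) : chi t g = 1 := by
  refine Units.ext (PadicInt.ext_of_toZModPow.1 fun n => ?_)
  rw [(mem_Gmu_pow g n).1 (h n), Units.val_one, map_one]

theorem ext_kap_ne (ht : t ≠ 2) {H : Subgroup Ga} (hH : Op H) : ∃ g ∈ H, kap t g ≠ 0 := by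
  obtain ⟨P, hP⟩ := exists_pr 2 Nat.prime_two
  obtain ⟨φ, hφ⟩ := exists_frob P
  obtain ⟨n, hn, -, h⟩ := Subgroup.exists_pow_mem_of_index_ne_zero hH.index_ne_zero φ
  refine ⟨_, h, kap_ne_zero_of_nat ht _ _ ?_ ((hφ.pow n).chi t (hP ▸ ht.symm))⟩
  rw [hP]
  exact Nat.le_self_pow (by omega) 2

theorem ext_small {H W : Subgroup Ga} (hH : Op H) (hW : Op W) : ∃ n, ∀ x ∈ H, x ∈ Gmu (t ^ n) →
    ∃ w h : Ga, w ∈ W ∧ w ∈ H ∧ h ∈ H ∧ chi t h = 1 ∧ x = w * h := by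
  by_contra hc
  push Not at hc
  let U : Set Ga := {x | ∃ w h : Ga, w ∈ W ∧ w ∈ H ∧ h ∈ H ∧ chi t h = 1 ∧ x = w * h}
  have hU : IsOpen U := by
    refine isOpen_iff_forall_mem_open.2 ?_
    rintro _ ⟨w, h, h1, h2, h3, h4, rfl⟩
    refine ⟨(fun y => y * h⁻¹) ⁻¹' (W ⊓ H : Subgroup Ga), fun y hy => ⟨y * h⁻¹, h, hy.1, hy.2, h3,
      h4, by simp⟩, (hW.inf hH).preimage (continuous_mul_const _), ?_⟩
    simpa using ⟨h1, h2⟩
  let K : ℕ → Set Ga := fun n => (H ∩ Gmu (t ^ n)) ∩ Uᶜ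
  have hK : ∀ n, IsClosed (K n) := fun n => (hH.cl.inter (ext_op n).cl).inter hU.isClosed_compl
  obtain ⟨x, hx⟩ := IsCompact.nonempty_iInter_of_sequence_nonempty_isCompact_isClosed K
    (fun n x hx => ⟨⟨hx.1.1, Gmu_le (pow_dvd_pow t n.le_succ) hx.1.2⟩, hx.2⟩)
    (fun n => by
      obtain ⟨x, h1, h2, h3⟩ := hc n
      exact ⟨x, ⟨h1, h2⟩, fun ⟨w, h, a1, a2, a3, a4, a5⟩ => h3 w h a1 a2 a3 a4 a5⟩)
    (hK 0).isCompact hK
  rw [Set.mem_iInter] at hx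
  exact (hx 0).2 ⟨1, x, W.one_mem, H.one_mem, (hx 0).1.1, ext_chi_one fun n => (hx n).1.2,
    (one_mul x).symm⟩

theorem ext_gen (ht : t ≠ 2) {H : Subgroup Ga} (hH : Op H) :
    ∃ σ ∈ H, ∀ n, ∀ g ∈ H, ∃ j : ℕ, (σ ^ j)⁻¹ * g ∈ Gmu (t ^ n) := by
  let K : ℕ → Set Ga := fun n =>
    H ∩ (extC t n) ⁻¹' {u | ∀ g ∈ H, ∃ j : ℕ, u ^ j = extC t n g}
  have hK : ∀ n, IsClosed (K n) := fun n => hH.cl.inter ⟨extC_lc n _ᶜ⟩
  have hm : ∀ n σ, σ ∈ K n ↔ σ ∈ H ∧ ∀ g ∈ H, ∃ j : ℕ, (σ ^ j)⁻¹ * g ∈ Gmu (t ^ n) := fun n σ => by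
    simp only [K, Set.mem_inter_iff, SetLike.mem_coe, Set.mem_preimage, Set.mem_ofPred_eq,
      ← extC_eq_one, map_mul, map_inv, map_pow, inv_mul_eq_one]
  obtain ⟨x, hx⟩ := IsCompact.nonempty_iInter_of_sequence_nonempty_isCompact_isClosed K
    (fun n x hx => by
      rw [hm] at hx ⊢
      exact ⟨hx.1, fun g hg => (hx.2 g hg).imp fun j hj => Gmu_le (pow_dvd_pow t n.le_succ) hj⟩)
    (fun n => by
      have := ZMod.isCyclic_units_of_prime_pow t Fact.out ht n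
      obtain ⟨⟨_, σ, hσ, rfl⟩, h⟩ := IsCyclic.exists_monoid_generator (α := H.map (extC t n))
      refine ⟨σ, hσ, fun g hg => ?_⟩
      obtain ⟨j, hj⟩ := h ⟨_, g, hg, rfl⟩
      exact ⟨j, congrArg Subtype.val hj⟩)
    (hK 0).isCompact hK
  rw [Set.mem_iInter] at hx
  exact ⟨x, (hx 0).1, fun n => ((hm n x).1 (hx n)).2⟩

theorem cyc_gen (ht : t ≠ 2) {H : Subgroup Ga} (hH : Op H) :
    ∃ σ ∈ H, kap t σ ≠ 0 ∧ ∀ W : Subgroup Ga, Op W → ∀ g ∈ H,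
      ∃ (j : ℕ) (w h : Ga), w ∈ W ∧ w ∈ H ∧ h ∈ H ∧ chi t h = 1 ∧ g = σ ^ j * w * h := by
  obtain ⟨σ, hσ, h⟩ := ext_gen ht hH
  refine ⟨σ, hσ, fun h0 => ?_, fun W hW g hg => ?_⟩
  · obtain ⟨g, hg, h1⟩ := ext_kap_ne ht hH
    rw [kap_eq_zero ht] at h0
    refine h1 ((kap_eq_zero ht g).2 ?_)
    rw [← map_pow]
    refine ext_chi_one fun n => ?_
    obtain ⟨j, hj⟩ := h n g hg
    rw [← extC_eq_one, map_mul, map_inv, inv_mul_eq_one] at hj
    have h2 : extC t n (σ ^ (t - 1)) = 1 := by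
      rw [extC, MonoidHom.comp_apply, map_pow (chi t), h0, map_one]
    rw [← extC_eq_one, map_pow, ← hj, map_pow, ← pow_mul, mul_comm, pow_mul, ← map_pow, h2,
      one_pow]
  · obtain ⟨n, hn⟩ := ext_small (t := t) hH hW
    obtain ⟨j, hj⟩ := h n g hg
    obtain ⟨w, k, h1, h2, h3, h4, h5⟩ := hn _ (H.mul_mem (H.inv_mem (H.pow_mem hσ j)) hg) hj
    exact ⟨j, w, k, h1, h2, h3, h4, by rw [mul_assoc, ← h5, mul_inv_cancel_left]⟩

theorem ext_conj {H : Subgroup Ga} {g h : Ga} (hg : g ∈ H) (hh : h ∈ H ⊓ (chi t).ker) :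
    g⁻¹ * h * g ∈ H ⊓ (chi t).ker :=
  ⟨H.mul_mem (H.mul_mem (H.inv_mem hg) hh.1) hg, (MonoidHom.normal_ker _).conj_mem' h hh.2 g⟩

/-- the dense part of the graph -/
def extD {H : Subgroup Ga} {A : Type*} [AddCommGroup A] [TopologicalSpace A] {f : Ga → A}
    (hf : IsX (H ⊓ (chi t).ker) f)
    (hinv : ∀ g ∈ H, ∀ h ∈ H ⊓ (chi t).ker, f (g⁻¹ * h * g) = f h) {σ : Ga} (hσ : σ ∈ H) :
    Subgroup (Ga × Multiplicative A) where
  carrier := {p | ∃ h ∈ H ⊓ (chi t).ker, ∃ k : ℤ, p = (σ ^ k * h, Multiplicative.ofAdd (f h))}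
  one_mem' := ⟨1, Subgroup.one_mem _, 0, by simp [hf.one, Prod.ext_iff]⟩
  mul_mem' := by
    rintro _ _ ⟨h, hh, k, rfl⟩ ⟨h', hh', l, rfl⟩
    have h1 := ext_conj (H.zpow_mem hσ l) hh
    refine ⟨_, Subgroup.mul_mem _ h1 hh', k + l, Prod.ext ?_ ?_⟩
    · simp [zpow_add, mul_assoc]
    · rw [hf.2 _ h1 _ hh', hinv _ (H.zpow_mem hσ l) _ hh]
      rfl
  inv_mem' := by
    rintro _ ⟨h, hh, k, rfl⟩
    have h0 := Subgroup.inv_mem _ hh
    refine ⟨_, ext_conj (H.zpow_mem hσ (-k)) h0, -k, Prod.ext ?_ ?_⟩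
    · simp [mul_assoc]
    · rw [hinv _ (H.zpow_mem hσ (-k)) _ h0, hf.inv hh]
      rfl

theorem ext_dvd (ht : t ≠ 2) {σ : Ga} (h0 : kap t σ ≠ 0) (α : ℕ) : ∃ V ∈ nhds (1 : Ga),
    ∀ (k : ℤ) (h : Ga), chi t h = 1 → σ ^ k * h ∈ V → (t : ℤ) ^ α ∣ k := by
  have hX := isX_kap ht (⊤ : Subgroup Ga)
  have hp : (0 : ℝ) < (t : ℝ) ^ (-(α : ℤ)) * ‖kap t σ‖ :=
    mul_pos (zpow_pos (by exact_mod_cast (Fact.out : t.Prime).pos) _) (norm_pos_iff.2 h0)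
  refine ⟨{g | ‖kap t g‖ < (t : ℝ) ^ (-(α : ℤ)) * ‖kap t σ‖},
    (isOpen_lt (continuous_kap ht).norm continuous_const).mem_nhds (by simpa [hX.one] using hp),
    fun k h hh hk => ?_⟩
  have e : kap t (σ ^ k) = k * kap t σ := by
    obtain ⟨m, rfl | rfl⟩ := k.eq_nat_or_neg
    · rw [zpow_natCast, hX.pow trivial]; simp
    · rw [zpow_neg, zpow_natCast, hX.inv trivial, hX.pow trivial]; simp
  have e' : kap t h = 0 := (kap_eq_zero ht h).2 (by rw [hh, one_pow])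
  rw [Set.mem_ofPred_eq, kap_mul ht, e, e', add_zero, norm_mul] at hk
  exact (Padic.norm_int_le_pow_iff_dvd k α).1 (lt_of_mul_lt_mul_right hk (norm_nonneg _)).le

theorem ext_lemma (ht : t ≠ 2) {H : Subgroup Ga} (hH : Op H) (hμ : H ≤ Gmu t) {A : Type*}
    [AddCommGroup A] [TopologicalSpace A] [IsTopologicalAddGroup A] [CompactSpace A] [T2Space A]
    (hA : ∀ a : A, a ≠ 0 → ∃ A' : AddSubgroup A, IsOpen (A' : Set A) ∧ a ∉ A' ∧
      ∀ (b : ℕ) (x : A), ¬ t ∣ b → b • x ∈ A' → x ∈ A')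
    {f : Ga → A} (hf : IsX (H ⊓ (chi t).ker) f)
    (hinv : ∀ g ∈ H, ∀ h ∈ H ⊓ (chi t).ker, f (g⁻¹ * h * g) = f h) :
    ∃ θ : Ga → A, IsX H θ ∧ ∀ h ∈ H ⊓ (chi t).ker, θ h = f h := by
  classical
  obtain ⟨σ, hσ, h0, hgen⟩ := cyc_gen ht hH
  let D := (extD hf hinv hσ).topologicalClosure
  have hD : IsClosed (D : Set (Ga × Multiplicative A)) := Subgroup.isClosed_topologicalClosure _
  have hD0 : ∀ h ∈ H ⊓ (chi t).ker, ∀ k : ℤ, (σ ^ k * h, Multiplicative.ofAdd (f h)) ∈ D :=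
    fun h hh k => Subgroup.le_topologicalClosure _ ⟨h, hh, k, rfl⟩
  have hex : ∀ g ∈ H, ∃ a, (g, a) ∈ D := fun g hg => by
    have hcl : Cl (D.map (MonoidHom.fst _ _)) := (hD.isCompact.image continuous_fst).isClosed
    obtain ⟨p, hp, rfl⟩ := mem_of_forall_op hcl (g := g) fun W hW hN => by
      obtain ⟨j, w, h, h1, -, h3, h4, rfl⟩ := hgen W hW g hg
      refine ⟨h⁻¹ * w⁻¹ * h, hN.conj_mem' _ (W.inv_mem h1) h, _, hD0 h ⟨h3, h4⟩ j, ?_⟩
      simp [mul_assoc]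
    exact ⟨p.2, hp⟩
  have hun : ∀ a : Multiplicative A, (1, a) ∈ D → a = 1 := fun a ha => by
    by_contra hne
    obtain ⟨A', hA1, hA2, hA3⟩ := hA a.toAdd hne
    obtain ⟨W, hW, hN, hWf⟩ : ∃ W : Subgroup Ga, Op W ∧ W.Normal ∧
        ∀ h ∈ W, h ∈ H ⊓ (chi t).ker → f h ∈ A' := by
      have h1 := hf.1 1 (Subgroup.one_mem _) (hA1.mem_nhds (by rw [hf.one]; exact A'.zero_mem))
      obtain ⟨U, hU, h2⟩ := mem_nhdsWithin_iff_exists_mem_nhds_inter.1 h1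
      obtain ⟨W, hW, hN, h3⟩ := exists_op_normal hU
      exact ⟨W, hW, hN, fun h hh hh' => h2 ⟨h3 hh, hh'⟩⟩
    obtain ⟨α, b, hb, hαb⟩ := Nat.exists_eq_pow_mul_and_not_dvd hW.index_ne_zero t
      (Fact.out : t.Prime).ne_one
    obtain ⟨V, hV, hVk⟩ := ext_dvd ht h0 α
    have hO : IsOpen {x : Multiplicative A | x.toAdd - a.toAdd ∈ A'} :=
      hA1.preimage (continuous_toAdd.sub continuous_const)
    obtain ⟨_, ⟨⟨h1, h2⟩, h3⟩, h, hh, k, rfl⟩ := mem_closure_iff_nhds.1 ha _ (prod_mem_nhds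
      (Filter.inter_mem (hW.mem_nhds W.one_mem) hV) (hO.mem_nhds (by simp)))
    obtain ⟨m, rfl⟩ := hVk k h hh.2 h2
    have h4 : h ^ b ∈ W := by
      rw [← QuotientGroup.eq_one_iff, QuotientGroup.mk_pow]
      have h5 : (σ : Ga ⧸ W) ^ W.index = 1 := by
        rw [← QuotientGroup.mk_pow, QuotientGroup.eq_one_iff]
        exact W.pow_index_mem σ
      have h6 := (QuotientGroup.eq_one_iff _).2 h1
      rw [QuotientGroup.mk_mul, QuotientGroup.mk_zpow, mul_eq_one_iff_inv_eq] at h6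
      rw [← h6, inv_pow, inv_eq_one, ← zpow_natCast, ← zpow_mul, mul_right_comm, zpow_mul]
      rw [hαb, ← zpow_natCast] at h5
      push_cast at h5
      rw [h5, one_zpow]
    have h7 := hWf _ h4 (Subgroup.pow_mem _ hh b)
    rw [hf.pow hh] at h7
    refine hA2 ?_
    have h8 := A'.sub_mem (hA3 b _ hb h7) h3
    simpa using h8
  have huq : ∀ g a a', (g, a) ∈ D → (g, a') ∈ D → a = a' := fun g a a' h1 h2 => by
    have := D.mul_mem (D.inv_mem h1) h2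
    rw [Prod.inv_mk, Prod.mk_mul_mk, inv_mul_cancel] at this
    exact inv_mul_eq_one.1 (hun _ this)
  let θ : Ga → Multiplicative A := fun g => if h : ∃ a, (g, a) ∈ D then h.choose else 1
  have hθ : ∀ g ∈ H, (g, θ g) ∈ D := fun g hg => by
    simp only [θ, dif_pos (hex g hg)]
    exact (hex g hg).choose_spec
  refine ⟨fun g => (θ g).toAdd, ⟨continuous_toAdd.comp_continuousOn ?_, fun a ha b hb => ?_⟩,
    fun h hh => ?_⟩
  · refine continuousOn_iff_isClosed.2 fun F hF => ⟨Prod.fst '' (D ∩ Prod.snd ⁻¹' F),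
      ((hD.inter (hF.preimage continuous_snd)).isCompact.image continuous_fst).isClosed, ?_⟩
    ext g
    refine ⟨fun h => ⟨⟨_, ⟨hθ g h.2, h.1⟩, rfl⟩, h.2⟩, ?_⟩
    rintro ⟨⟨p, ⟨h1, h2⟩, rfl⟩, h3⟩
    exact ⟨by rw [Set.mem_preimage, huq _ _ _ (hθ _ h3) h1]; exact h2, h3⟩
  · exact congrArg Multiplicative.toAdd
      (huq _ _ _ (hθ _ (H.mul_mem ha hb)) (D.mul_mem (hθ a ha) (hθ b hb)))
  · have h1 := hD0 h hh 0
    rw [zpow_zero, one_mul] at h1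
    exact congrArg Multiplicative.toAdd (huq _ _ _ (hθ h hh.1) h1)

end Vale.Agent.P024U
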