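import Vale.Agent.P024U.LBk
import Vale.Agent.P024U.Lang

/-! Lower bound for eigenspaces.  `koenig` for `B n = Eig H ξ m n`; the limits `f i` are `ℤ_[t]`-valued eigen-characters of `Hi = H ⊓ ker chi` (`isX_of_toZModPow`,
`PadicInt.ext_of_toZModPow`).  Extend by `ext_lemma` to `H1 = H ⊓ Gmu t` and average over `H / H1`:
`θ' g = (1/|H/H1|) ∑_δ (ξ δ)⁻¹ θ (δ⁻¹ g δ)`.  `lb_one`: add `kap t`, which vanishes on `Hi` but not on `H1` (`cyc_gen`).  `H.index` is even since `Gmu 4` has index two. -/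

namespace Vale.Agent.P024U

variable {t : ℕ} [Fact t.Prime]

theorem lb_mem_four {i : Om} (hi : i ^ 2 = -1) (g : Ga) : g ∈ Gmu 4 ↔ g i = i := by
  constructor
  · intro h
    exact h i (by rw [show (4 : ℕ) = 2 * 2 from rfl, pow_mul, hi]; norm_num)
  · intro h z hz
    have h1 : (z - 1) * (z + 1) * (z - i) * (z + i) = 0 := by
      linear_combination hz - (z ^ 2 - 1) * hi
    rcases mul_eq_zero.1 h1 with h2 | h2
    · rcases mul_eq_zero.1 h2 with h3 | h3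
      · rcases mul_eq_zero.1 h3 with h4 | h4
        · rw [sub_eq_zero.1 h4, map_one]
        · rw [eq_neg_of_add_eq_zero_left h4, map_neg, map_one]
      · rw [sub_eq_zero.1 h3, h]
    · rw [eq_neg_of_add_eq_zero_left h2, map_neg, h]

theorem lb_index_four : (Gmu 4).index = 2 := by
  obtain ⟨i, hi⟩ := IsAlgClosed.exists_pow_nat_eq (-1 : Om) (n := 2) (by norm_num)
  obtain ⟨P, hP⟩ := exists_pr 3 Nat.prime_three
  obtain ⟨φ, hφ⟩ := exists_frob P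
  have h4 : i ^ 4 = 1 := by rw [show (4 : ℕ) = 2 * 2 from rfl, pow_mul, hi]; norm_num
  have hφi : φ i = -i := by
    rw [hφ.root (n := 4) (by rw [hP]; norm_num) h4, hP]
    linear_combination i * hi
  have hne : -i ≠ i := by
    intro h
    have h0 : i = 0 := by linear_combination (-1 / 2 : Om) * h
    rw [h0] at hi
    norm_num at hi
  rw [Subgroup.index_eq_two_iff]
  refine ⟨φ, fun b => ?_⟩
  rw [lb_mem_four hi, lb_mem_four hi, AlgEquiv.mul_apply, hφi, map_neg]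
  have hb : (b i - i) * (b i + i) = 0 := by
    have : b i ^ 2 = -1 := by rw [← map_pow, hi, map_neg, map_one]
    linear_combination this - hi
  rcases mul_eq_zero.1 hb with h | h
  · rw [sub_eq_zero.1 h]
    exact Or.inr ⟨rfl, hne⟩
  · rw [eq_neg_of_add_eq_zero_left h, neg_neg]
    exact Or.inl ⟨rfl, hne⟩

theorem index_even {H : Subgroup Ga} (h4 : H ≤ Gmu 4) : ∃ ρ, 2 * ρ = H.index := by
  obtain ⟨ρ, h⟩ := Subgroup.index_dvd_of_le h4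
  exact ⟨ρ, by rw [h, lb_index_four]⟩

/-- reduction modulo `t^n` -/
abbrev lbRed (t n : ℕ) : ZMod (t ^ (n + 1)) →+* ZMod (t ^ n) :=
  ZMod.castHom (pow_dvd_pow t n.le_succ) (ZMod (t ^ n))

theorem lb_key (n : ℕ) (b : ZMod (t ^ (n + 1))) :
    (t : ZMod (t ^ (n + 1))) * ((lbRed t n b).val : ZMod (t ^ (n + 1))) = t * b := by
  have hp : t.Prime := Fact.out
  have : NeZero (t ^ (n + 1)) := ⟨pow_ne_zero _ hp.ne_zero⟩
  obtain ⟨k, rfl⟩ := ZMod.natCast_zmod_surjective b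
  rw [map_natCast, ZMod.val_natCast, ← Nat.cast_mul, ← Nat.cast_mul, ZMod.natCast_eq_natCast_iff]
  rw [pow_succ']
  exact Nat.ModEq.mul_left' t (Nat.mod_modEq k (t ^ n))

theorem lb_inj (n : ℕ) (b b' : ZMod (t ^ (n + 1)))
    (h : (t : ZMod (t ^ (n + 1))) * b = t * b') : lbRed t n b = lbRed t n b' := by
  have hp : t.Prime := Fact.out
  have : NeZero (t ^ (n + 1)) := ⟨pow_ne_zero _ hp.ne_zero⟩
  obtain ⟨k, rfl⟩ := ZMod.natCast_zmod_surjective b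
  obtain ⟨k', rfl⟩ := ZMod.natCast_zmod_surjective b'
  rw [← Nat.cast_mul, ← Nat.cast_mul, ZMod.natCast_eq_natCast_iff, pow_succ'] at h
  rw [map_natCast, map_natCast, ZMod.natCast_eq_natCast_iff]
  exact Nat.ModEq.mul_left_cancel' hp.ne_zero h

theorem lb_red_pow (n : ℕ) (x : ℤ_[t]) :
    lbRed t n (PadicInt.toZModPow (n + 1) x) = PadicInt.toZModPow n x :=
  RingHom.congr_fun (PadicInt.zmod_cast_comp_toZModPow n (n + 1) n.le_succ) x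

theorem lb_hred (H : Subgroup Ga) (ξ : Ga → ℤ_[t]) (m n : ℕ) (f : Ga → ZMod (t ^ (n + 1)))
    (hf : f ∈ Eig H ξ m (n + 1)) : (fun x => lbRed t n (f x)) ∈ Eig H ξ m n := by
  obtain ⟨h1, h2, h3, h4⟩ := hf
  refine ⟨⟨continuous_of_discreteTopology.comp_continuousOn h1.1, fun a ha b hb => ?_⟩,
    fun g hg => ?_, fun P hP σ hσ => ?_, fun g hg h hh => ?_⟩
  · simp only [h1.2 a ha b hb, map_add]
  · simp only [h2 g hg, map_zero]
  · simp only [h3 P hP σ hσ, map_zero]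
  · simp only [h4 g hg h hh, map_mul, lb_red_pow]

theorem lb_hdiv (H : Subgroup Ga) (ξ : Ga → ℤ_[t]) (m n : ℕ) (f : Ga → ZMod (t ^ (n + 1)))
    (hf : f ∈ Eig H ξ m (n + 1)) (hd : ∀ x, (t : ZMod (t ^ (n + 1))) ∣ f x) :
    ∃ g ∈ Eig H ξ m n,
      ∀ x, f x = (t : ZMod (t ^ (n + 1))) * ((g x).val : ZMod (t ^ (n + 1))) := by
  classical
  obtain ⟨h1, h2, h3, h4⟩ := hf
  let q : ZMod (t ^ (n + 1)) → ZMod (t ^ (n + 1)) := fun a =>
    if h : (t : ZMod (t ^ (n + 1))) ∣ a then h.choose else 0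
  have hq : ∀ x, f x = t * q (f x) := fun x => by
    simp only [q, dif_pos (hd x)]
    exact (hd x).choose_spec
  have hz : ∀ x, f x = 0 → lbRed t n (q (f x)) = 0 := fun x hx => by
    rw [← map_zero (lbRed t n)]
    exact lb_inj n _ _ (by rw [← hq, hx, mul_zero])
  refine ⟨fun x => lbRed t n (q (f x)), ⟨⟨?_, fun a ha b hb => ?_⟩, fun g hg => hz g (h2 g hg),
    fun P hP σ hσ => hz σ (h3 P hP σ hσ), fun g hg h hh => ?_⟩, fun x => ?_⟩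
  · exact (continuous_of_discreteTopology (f := fun a => lbRed t n (q a))).comp_continuousOn h1.1
  · show lbRed t n _ = lbRed t n _ + lbRed t n _
    rw [← map_add]
    exact lb_inj n _ _ (by rw [mul_add, ← hq, ← hq, ← hq, h1.2 a ha b hb])
  · show lbRed t n _ = _ * lbRed t n _
    rw [← lb_red_pow, ← map_mul]
    exact lb_inj n _ _ (by rw [mul_left_comm, ← hq, ← hq, h4 g hg h hh])
  · rw [lb_key, ← hq]

theorem LB_ker_le : (chi t).ker ≤ Gmu t := fun g hg => by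
  rw [mem_Gmu_one, MonoidHom.mem_ker.1 hg]
  simp

theorem lb_inf (H : Subgroup Ga) : H ⊓ Gmu t ⊓ (chi t).ker = H ⊓ (chi t).ker := by
  rw [inf_assoc, inf_eq_right.2 LB_ker_le]

theorem lb_sat (a : ℤ_[t]) (ha : a ≠ 0) : ∃ A' : AddSubgroup ℤ_[t], IsOpen (A' : Set ℤ_[t]) ∧
    a ∉ A' ∧ ∀ (b : ℕ) (x : ℤ_[t]), ¬ t ∣ b → b • x ∈ A' → x ∈ A' := by
  have hp : t.Prime := Fact.out
  let A' : AddSubgroup ℤ_[t] :=
    { carrier := {x | ‖x‖ < ‖a‖}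
      zero_mem' := by simpa using ha
      add_mem' := fun {x y} hx hy => (PadicInt.nonarchimedean x y).trans_lt (max_lt hx hy)
      neg_mem' := fun {x} hx => by simpa using hx }
  refine ⟨A', isOpen_lt continuous_norm continuous_const, fun h => lt_irrefl ‖a‖ h, fun b x hb hx => ?_⟩
  have h1 : ‖(b : ℤ_[t])‖ = 1 :=
    PadicInt.norm_natCast_eq_one_iff.2 ((Nat.Prime.coprime_iff_not_dvd hp).2 hb)
  have h2 : ‖b • x‖ < ‖a‖ := hx
  rwa [nsmul_eq_mul, norm_mul, h1, one_mul] at h2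

/-- averaging over `H / (H ⊓ Gmu t)` -/
theorem lb_avg {H : Subgroup Ga} {ξ : Ga → ℤ_[t]}
    (hξ : ∀ g ∈ H, ∀ h ∈ H, ξ (g * h) = ξ g * ξ h) (hξ1 : ∀ g ∈ H, g ∈ Gmu t → ξ g = 1)
    {η : Ga → ℚ_[t]} (hη : IsX (H ⊓ Gmu t) η)
    (heig : ∀ g ∈ H, ∀ h ∈ H ⊓ (chi t).ker, η (g⁻¹ * h * g) = (ξ g : ℚ_[t]) * η h) :
    ∃ θ : Ga → ℚ_[t], IsX (H ⊓ Gmu t) θ ∧ (∀ h ∈ H ⊓ (chi t).ker, θ h = η h) ∧
      ∀ g ∈ H, ∀ h ∈ H ⊓ Gmu t, θ (g⁻¹ * h * g) = (ξ g : ℚ_[t]) * θ h := by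
  classical
  have hp : t.Prime := Fact.out
  let K : Subgroup H := (Gmu t).subgroupOf H
  have hK : K.index ≠ 0 := fun h0 =>
    Subgroup.FiniteIndex.index_ne_zero (H := K) (self := by
      have : (Gmu t).FiniteIndex := ⟨(op_Gmu hp.ne_zero).index_ne_zero⟩
      infer_instance) h0
  have : Fintype (H ⧸ K) := Subgroup.fintypeOfIndexNeZero hK
  have hconj : ∀ g ∈ H, ∀ h ∈ H ⊓ Gmu t, g⁻¹ * h * g ∈ H ⊓ Gmu t := fun g hg h hh =>
    ⟨H.mul_mem (H.mul_mem (H.inv_mem hg) hh.1) hg, by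
      simpa using (normal_Gmu t).conj_mem h hh.2 g⁻¹⟩
  have hu : ∀ g ∈ H, (ξ g : ℚ_[t]) ≠ 0 := fun g hg h0 => by
    have h1 := hξ g hg g⁻¹ (H.inv_mem hg)
    rw [mul_inv_cancel, hξ1 1 H.one_mem (Gmu t).one_mem] at h1
    have h2 : ((1 : ℤ_[t]) : ℚ_[t]) = (ξ g : ℚ_[t]) * (ξ g⁻¹ : ℚ_[t]) := by
      rw [h1]; push_cast; rfl
    rw [h0, zero_mul] at h2
    simp at h2
  let T : Ga → Ga → ℚ_[t] := fun δ h => (ξ δ : ℚ_[t])⁻¹ * η (δ⁻¹ * h * δ)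
  have hT : ∀ δ ∈ H, ∀ u ∈ H ⊓ Gmu t, ∀ h ∈ H ⊓ Gmu t, T (δ * u) h = T δ h := by
    intro δ hδ u hu' h hh
    simp only [T]
    rw [hξ δ hδ u hu'.1, hξ1 u hu'.1 hu'.2, mul_one,
      show (δ * u)⁻¹ * h * (δ * u) = u⁻¹ * (δ⁻¹ * h * δ) * u by group,
      hη.conj_self hu' (hconj δ hδ h hh)]
  let k : ℚ_[t] := Fintype.card (H ⧸ K)
  have hk : k ≠ 0 := Nat.cast_ne_zero.2 Fintype.card_ne_zero
  refine ⟨fun h => ∑ δ : H ⧸ K, (k⁻¹ * (ξ (δ.out : H) : ℚ_[t])⁻¹) *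
    η (((δ.out : H) : Ga)⁻¹ * h * (δ.out : H)), ?_, fun h hh => ?_, fun g hg h hh => ?_⟩
  · exact IsX.lin (θ := fun (δ : H ⧸ K) h => η (((δ.out : H) : Ga)⁻¹ * h * (δ.out : H)))
      (fun δ => hη.conj _ fun a ha => hconj _ (δ.out : H).2 a ha) _
  · have : ∀ δ : H ⧸ K, (k⁻¹ * (ξ (δ.out : H) : ℚ_[t])⁻¹) *
        η (((δ.out : H) : Ga)⁻¹ * h * (δ.out : H)) = k⁻¹ * η h := fun δ => by
      rw [heig _ (δ.out : H).2 h hh]
      have := hu _ (δ.out : H).2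
      field_simp
    simp only [this, Finset.sum_const, Finset.card_univ, nsmul_eq_mul]
    show k * _ = _
    field_simp
  · rw [Finset.mul_sum]
    refine Fintype.sum_equiv (MulAction.toPerm (⟨g, hg⟩ : H)) _ _ fun δ => ?_
    have hδ := (δ.out : H).2
    obtain ⟨u, hu'⟩ := QuotientGroup.mk_out_eq_mul K ((⟨g, hg⟩ : H) * δ.out)
    have h1 : (MulAction.toPerm (⟨g, hg⟩ : H) δ) =
        (QuotientGroup.mk ((⟨g, hg⟩ : H) * δ.out) : H ⧸ K) := by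
      rw [MulAction.toPerm_apply]
      conv_lhs => rw [← QuotientGroup.out_eq' δ]
      rfl
    have h2 := hT (g * (δ.out : H)) (H.mul_mem hg hδ) ((u : H) : Ga) ⟨(u : H).2, u.2⟩ h hh
    rw [h1, hu']
    simp only [T] at h2
    simp only [Subgroup.coe_mul]
    rw [mul_assoc k⁻¹ _ (η ((g * _ * _)⁻¹ * _ * _)), h2, hξ g hg _ hδ,
      show (g * ((δ.out : H) : Ga))⁻¹ * h * (g * (δ.out : H)) =
        ((δ.out : H) : Ga)⁻¹ * (g⁻¹ * h * g) * (δ.out : H) by group]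
    have := hu g hg
    have := hu _ hδ
    push_cast
    field_simp

theorem lb (ht : t ≠ 2) {H : Subgroup Ga} (hH : Op H) (h4 : H ≤ Gmu 4) {ξ : Ga → ℤ_[t]}
    (hξ : ∀ g ∈ H, ∀ h ∈ H, ξ (g * h) = ξ g * ξ h) (hξ1 : ∀ g ∈ H, g ∈ Gmu t → ξ g = 1)
    {ρ : ℕ} (hρ : 2 * ρ = H.index) :
    ∃ θ : Fin ρ → Ga → ℚ_[t], (∀ i, IsX (H ⊓ Gmu t) (θ i)) ∧ IndOn (H ⊓ (chi t).ker) θ ∧
      ∀ i, ∀ g ∈ H, ∀ h ∈ H ⊓ Gmu t, θ i (g⁻¹ * h * g) = (ξ g : ℚ_[t]) * θ i h := by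
  have hp : t.Prime := Fact.out
  obtain ⟨m0, hm0, hu0⟩ := exists_unrOut hH
  have hm : t * m0 ≠ 0 := mul_ne_zero hp.ne_zero hm0
  have hu : UnrOut H (t * m0) := hu0.mono le_rfl (dvd_mul_left _ _)
  obtain ⟨v, hv⟩ := eig_big ht hH h4 hξ hξ1 hm (dvd_mul_right _ _) hu hρ
  obtain ⟨f, hf, hind⟩ := koenig t (fun n => Eig H ξ (t * m0) n) (lb_hred H ξ _) (lb_hdiv H ξ _)
    (eig_fin ht hH hξ1 hm (dvd_mul_right _ _) hu 1) ρ v hv
  have hX : ∀ i, IsX (H ⊓ (chi t).ker) (f i) := fun i => isX_of_toZModPow fun n => (hf i n).1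
  have h0 : ∀ i g, g ∉ H ⊓ (chi t).ker → f i g = 0 := fun i g hg =>
    PadicInt.ext_of_toZModPow.1 fun n => by rw [map_zero]; exact (hf i n).2.1 g hg
  have he : ∀ i, ∀ g ∈ H, ∀ h ∈ H ⊓ (chi t).ker, f i (g⁻¹ * h * g) = ξ g * f i h :=
    fun i g hg h hh => PadicInt.ext_of_toZModPow.1 fun n => by
      rw [map_mul]; exact (hf i n).2.2.2 g hg h hh
  have hext : ∀ i, ∃ θ : Ga → ℚ_[t], IsX (H ⊓ Gmu t) θ ∧
      (∀ h ∈ H ⊓ (chi t).ker, θ h = f i h) ∧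
      ∀ g ∈ H, ∀ h ∈ H ⊓ Gmu t, θ (g⁻¹ * h * g) = (ξ g : ℚ_[t]) * θ h := by
    intro i
    obtain ⟨η, hη, hηf⟩ := ext_lemma ht (hH.inf (op_Gmu hp.ne_zero)) inf_le_right lb_sat
      (f := f i) (by rw [lb_inf]; exact hX i) (by
        rw [lb_inf]
        intro g hg h hh
        rw [he i g hg.1 h hh, hξ1 g hg.1 hg.2, one_mul])
    rw [lb_inf] at hηf
    have hη' : IsX (H ⊓ Gmu t) (fun g => (η g : ℚ_[t])) :=
      ⟨continuous_subtype_val.comp_continuousOn hη.1, fun a ha b hb => by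
        simp only [hη.2 a ha b hb, PadicInt.coe_add]⟩
    obtain ⟨θ, h1, h2, h3⟩ := lb_avg hξ hξ1 hη' fun g hg h hh => by
      have hc : g⁻¹ * h * g ∈ H ⊓ (chi t).ker :=
        ⟨H.mul_mem (H.mul_mem (H.inv_mem hg) hh.1) hg, by
          simpa using (MonoidHom.normal_ker (chi t)).conj_mem h hh.2 g⁻¹⟩
      simp only [hηf _ hc, hηf h hh, he i g hg h hh, PadicInt.coe_mul]
    exact ⟨θ, h1, fun h hh => by rw [h2 h hh, hηf h hh], h3⟩
  choose θ h1 h2 h3 using hext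
  refine ⟨θ, h1, fun c hc => hind c fun x => ?_, h3⟩
  by_cases hx : x ∈ H ⊓ (chi t).ker
  · rw [← hc x hx]
    exact Finset.sum_congr rfl fun i _ => by rw [h2 i x hx]
  · simp [h0 _ x hx]

theorem lb_one (ht : t ≠ 2) {H : Subgroup Ga} (hH : Op H) (h4 : H ≤ Gmu 4)
    {ρ : ℕ} (hρ : 2 * ρ = H.index) :
    ∃ θ : Fin (ρ + 1) → Ga → ℚ_[t], (∀ i, IsX (H ⊓ Gmu t) (θ i)) ∧ IndOn (H ⊓ Gmu t) θ ∧
      ∀ i, ∀ g ∈ H, ∀ h ∈ H ⊓ Gmu t, θ i (g⁻¹ * h * g) = θ i h := by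
  have hp : t.Prime := Fact.out
  obtain ⟨θ, h1, h2, h3⟩ := lb ht hH h4 (ξ := fun _ => 1) (fun _ _ _ _ => (mul_one _).symm)
    (fun _ _ _ => rfl) hρ
  obtain ⟨σ, hσ, hσ0, -⟩ := cyc_gen ht (hH.inf (op_Gmu hp.ne_zero))
  refine ⟨Fin.cons (kap t) θ, fun i => ?_, fun c hc => ?_, fun i g hg h hh => ?_⟩
  · refine Fin.cases ?_ (fun j => ?_) i
    · exact isX_kap ht _
    · exact h1 j
  · simp only [Fin.sum_univ_succ, Fin.cons_zero, Fin.cons_succ] at hc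
    have h5 : ∀ j : Fin ρ, c j.succ = 0 := h2 (fun j => c j.succ) fun g hg => by
      have h6 := hc g ⟨hg.1, LB_ker_le hg.2⟩
      have h7 : kap t g = 0 := by
        rw [kap_eq_zero ht, MonoidHom.mem_ker.1 hg.2, one_pow]
      rwa [h7, mul_zero, zero_add] at h6
    have h8 := hc σ hσ
    simp only [h5, zero_mul, Finset.sum_const_zero, add_zero] at h8
    intro i
    exact Fin.cases ((mul_eq_zero.1 h8).resolve_right hσ0) h5 i
  · refine Fin.cases ?_ (fun j => ?_) i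
    · exact (isX_kap ht ⊤).conj_self (Subgroup.mem_top g) (Subgroup.mem_top h)
    · simpa using h3 j g hg h hh

end Vale.Agent.P024U
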