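import Mathlib

/-! `t`-adic logarithms in coordinates.  For `x ≡ 1 mod t^2` let `t^k y_k = x^(t^k) - 1`; then
`y_(k+1) ≡ y_k mod t^(k+2)`, so the coordinates `β.repr (y k)` converge in `ℤ_[t]`, limit `L x : Fin d → ℤ_[t]`.
`L (x x') = L x + L x'`, and `x^(t^k) - x'^(t^k) = t^k (x - x') (1 + t z)` so `L x - L x' ∈ t^U` implies
`x - x' ∈ t^U B`.  With `Λ z = ∑ lam (β j) z j` we get `Λ (L (x i)) = 0`, `Λ ≠ 0`, so the `L (x i)` lie in a
`ℚ_[t]`-subspace of dimension `< d`.  Lemma: for a finite family in a space of dimension `ρ` there is `J` of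
cardinality `≤ ρ` such that each member is a `ℤ_[t]`-combination of the members in `J` (induction on a finset:
take a nontrivial relation, divide by the coefficient of largest norm).  Approximate the coefficients by
naturals (`PadicInt.appr`). -/

namespace Vale.Agent.P024U
open Filter Topology

theorem wma_sel {t : ℕ} [Fact t.Prime] {ι : Type*} [DecidableEq ι] {d : ℕ}
    (v : ι → Fin d → ℚ_[t]) (h : ∀ s : Finset ι, LinearIndepOn ℚ_[t] v s → s.card < d)
    (s : Finset ι) : ∃ J : Finset ι, J.card < d ∧ ∀ i ∈ s, v i ∈ Submodule.span ℤ_[t] (v '' J) := by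
  induction s using Finset.strongInduction with
  | H s ih =>
    by_cases hs : LinearIndepOn ℚ_[t] v s
    · exact ⟨s, h s hs, fun i hi => Submodule.subset_span ⟨i, hi, rfl⟩⟩
    obtain ⟨f, hf, i, hi, hne⟩ := not_linearIndepOn_finset_iff.1 hs
    obtain ⟨k, hk, hm⟩ := s.exists_max_image (fun i => ‖f i‖) ⟨i, hi⟩
    have h0 : f k ≠ 0 := norm_pos_iff.1 ((norm_pos_iff.2 hne).trans_le (hm i hi))
    obtain ⟨J, hJ, H⟩ := ih (s.erase k) (Finset.erase_ssubset hk)
    refine ⟨J, hJ, fun j hj => ?_⟩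
    rcases eq_or_ne j k with rfl | hjk
    · rw [← Finset.add_sum_erase _ _ hk, add_eq_zero_iff_eq_neg, ← eq_inv_smul_iff₀ h0] at hf
      rw [hf, smul_neg, Finset.smul_sum]
      refine neg_mem (sum_mem fun l hl => ?_)
      rw [smul_smul]
      exact Submodule.smul_mem (R := ℤ_[t]) _ ⟨(f j)⁻¹ * f l, by
        rw [norm_mul, norm_inv]
        exact inv_mul_le_one_of_le₀ (hm l (Finset.mem_of_mem_erase hl)) (norm_nonneg _)⟩ (H l hl)
    · exact H j (Finset.mem_erase.2 ⟨hjk, hj⟩)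

theorem wma_lim {t : ℕ} [Fact t.Prime] (a : ℕ → ℤ) (h : ∀ k, (t : ℤ) ^ k ∣ a (k + 1) - a k) :
    ∃ L : ℤ_[t], Tendsto (fun k => (a k : ℤ_[t])) atTop (𝓝 L) ∧
      ∀ k, (t : ℤ_[t]) ^ k ∣ L - a k := by
  have h1 : ∀ k m, k ≤ m → ‖(a m : ℤ_[t]) - a k‖ ≤ (t : ℝ) ^ (-k : ℤ) := fun k m hkm => by
    rw [← Int.cast_sub, PadicInt.norm_int_le_pow_iff_dvd]
    induction m, hkm using Nat.le_induction with
    | base => simp
    | succ m hm ih => simpa using dvd_add ((pow_dvd_pow _ hm).trans (h m)) ih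
  obtain ⟨L, hL⟩ := cauchySeq_tendsto_of_complete (cauchySeq_of_le_tendsto_0'
    (s := fun k => (a k : ℤ_[t])) (fun k => (t : ℝ) ^ (-k : ℤ))
    (fun k m hkm => by rw [dist_comm, dist_eq_norm]; exact h1 k m hkm) (by
      simpa only [zpow_neg, zpow_natCast, ← inv_pow] using tendsto_pow_atTop_nhds_zero_of_lt_one
        (by positivity) (inv_lt_one_of_one_lt₀ (by exact_mod_cast (Fact.out : t.Prime).one_lt))))
  exact ⟨L, hL, fun k => Ideal.mem_span_singleton.1 ((PadicInt.norm_le_pow_iff_mem_span_pow _ k).1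
    (le_of_tendsto (hL.sub_const _).norm ((eventually_ge_atTop k).mono (h1 k))))⟩

section
variable {B : Type*} [CommRing B]

theorem wma_seq (t : ℕ) {x : B} (hx : (t : B) ^ 2 ∣ x - 1) : ∃ w : ℕ → B,
    (∀ k, x ^ t ^ k = 1 + (t : B) ^ (k + 2) * w k) ∧ ∀ k, (t : B) ^ k ∣ w (k + 1) - w k := by
  obtain ⟨w0, h0⟩ := hx
  have h : ∀ (k : ℕ) (w : B), ∃ w', (1 + (t : B) ^ (k + 2) * w) ^ t = 1 + (t : B) ^ (k + 3) * w' ∧
      (t : B) ^ k ∣ w' - w := fun k w => by
    obtain ⟨c, hc⟩ := sq_dvd_add_pow_sub_sub ((t : B) ^ (k + 2) * w) 1 t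
    exact ⟨w + (t : B) ^ k * (t * w ^ 2 * c), by linear_combination hc, by simp⟩
  choose F h1 h2 using h
  refine ⟨fun k => Nat.rec w0 F k, fun k => ?_, fun k => h2 k _⟩
  induction k with
  | zero => simp [← h0]
  | succ k ih => rw [pow_succ t, pow_mul, ih, h1]

theorem wma_prod {ι : Type*} (J : Finset ι) (q : B) (w : ι → B) (n : ι → ℕ) :
    q ^ 2 ∣ ∏ j ∈ J, (1 + q * w j) ^ n j - (1 + q * ∑ j ∈ J, n j * w j) := by
  induction J using Finset.cons_induction with
  | empty => simp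
  | cons j J hj ih =>
    obtain ⟨c, hc⟩ := ih
    obtain ⟨e, he⟩ := sq_dvd_add_pow_sub_sub (q * w j) 1 (n j)
    rw [Finset.prod_cons, Finset.sum_cons, sub_eq_iff_eq_add.1 hc]
    exact ⟨(1 + q * w j) ^ n j * c + w j ^ 2 * e * (1 + q * ∑ j ∈ J, n j * w j) +
      n j * w j * ∑ j ∈ J, n j * w j, by linear_combination (1 + q * ∑ j ∈ J, n j * w j) * he⟩

theorem wma_down {t : ℕ} (ht : ∀ a b : B, t * a = t * b → a = b) {x y : B}
    (hx : (t : B) ^ 2 ∣ x - 1) (hy : (t : B) ^ 2 ∣ y - 1) (k m : ℕ)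
    (h : (t : B) ^ (m + k) ∣ x ^ t ^ k - y ^ t ^ k) : (t : B) ^ m ∣ x - y := by
  induction k generalizing x y m with
  | zero => simpa using h
  | succ k ih =>
    have hp : ∀ {x : B} (i : ℕ), (t : B) ^ 2 ∣ x - 1 → (t : B) ^ 2 ∣ x ^ i - 1 := fun i hx =>
      hx.trans (sub_one_dvd_pow_sub_one _ i)
    rw [pow_succ' t, pow_mul, pow_mul, ← add_assoc, add_right_comm] at h
    obtain ⟨c, hc⟩ := ih (hp t hx) (hp t hy) _ h
    obtain ⟨z, hz⟩ : (t : B) ^ 2 ∣ ∑ i ∈ Finset.range t, (x ^ i * y ^ (t - 1 - i) - 1) :=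
      Finset.dvd_sum fun i _ => by
        simpa only [sub_mul, one_mul, sub_add_sub_cancel] using
          dvd_add ((hp i hx).mul_right (y ^ (t - 1 - i))) (hp (t - 1 - i) hy)
    rw [Finset.sum_sub_distrib, Finset.sum_const, Finset.card_range, nsmul_one] at hz
    refine (IsCoprime.pow_left (y := 1 + t * z) ⟨-z, 1, by ring⟩).dvd_of_dvd_mul_right
      ⟨c, ht _ _ ?_⟩
    linear_combination hc + geom_sum₂_mul x y t - (x - y) * hz

end

theorem wm_a {B : Type*} [CommRing B] {d : ℕ} (β : Module.Basis (Fin d) ℤ B) (t : ℕ) [Fact t.Prime]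
    (ht : t ≠ 2) (lam : B →+ ℚ_[t]) (hlam : lam ≠ 0) {ι : Type*} [Fintype ι] [DecidableEq ι]
    (x : ι → B) (hx : ∀ i, (t : B) ^ 2 ∣ x i - 1)
    (hlim : ∀ i, ∀ y : ℕ → B, (∀ k, (t : B) ^ k * y k = x i ^ t ^ k - 1) →
      Tendsto (fun k => lam (y k)) atTop (𝓝 0)) :
    ∃ J : Finset ι, J.card < d ∧ ∀ U : ℕ, ∃ n : ι → ι → ℕ,
      ∀ i, (t : B) ^ U ∣ x i - ∏ j ∈ J, x j ^ n i j := by
  have hdv : ∀ (c : ℤ) (b : B), (∀ l, c ∣ β.repr b l) → (c : B) ∣ b := fun c b h => by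
    rw [← β.sum_repr b]
    refine Finset.dvd_sum fun l _ => ?_
    rw [zsmul_eq_mul]
    exact ((Int.castRingHom B).map_dvd (h l)).mul_right _
  have hcan : ∀ a b : B, t * a = t * b → a = b := fun a b h => β.repr.injective
    (smul_right_injective _ (Int.natCast_ne_zero.2 (Fact.out : t.Prime).ne_zero) (by
      simpa only [← map_smul, zsmul_eq_mul, Int.cast_natCast] using congrArg β.repr h))
  choose w hw hw' using fun i => wma_seq t (hx i)
  choose L hL hL' using fun i l => wma_lim (t := t) (fun k => β.repr (w i k) l) fun k => by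
    obtain ⟨c, hc⟩ := hw' i k
    rw [← Finsupp.sub_apply, ← map_sub, hc, ← Nat.cast_pow (α := B), ← nsmul_eq_mul, map_nsmul]
    simp
  have hlm : ∀ b, lam b = ∑ l, (β.repr b l : ℚ_[t]) * lam (β l) := fun b => by
    conv_lhs => rw [← β.sum_repr b, map_sum]
    exact Finset.sum_congr rfl fun l _ => (map_zsmul ..).trans (zsmul_eq_mul ..)
  let Λ : (Fin d → ℚ_[t]) →ₗ[ℚ_[t]] ℚ_[t] := Fintype.linearCombination ℚ_[t] fun l => lam (β l)
  have hΛ : LinearMap.ker Λ ≠ ⊤ := fun h => hlam (AddMonoidHom.ext fun b => by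
    rw [hlm]
    exact (h.ge Submodule.mem_top : Λ (fun l => (β.repr b l : ℚ_[t])) = 0))
  have hker : ∀ i, (fun l => (L i l : ℚ_[t])) ∈ LinearMap.ker Λ := fun i => by
    have h1 := hlim i (fun k => (t ^ 2 : ℕ) • w i k) fun k => by
      rw [hw, nsmul_eq_mul]; push_cast; ring
    simp only [map_nsmul, hlm (w i _)] at h1
    have h2 := (tendsto_finsetSum Finset.univ fun l _ => ((continuous_subtype_val.tendsto _).comp
      (hL i l)).mul_const (lam (β l))).const_smul (t ^ 2 : ℕ)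
    exact (smul_eq_zero.1 (tendsto_nhds_unique h2 h1)).resolve_left
      (pow_ne_zero 2 (Fact.out : t.Prime).ne_zero)
  obtain ⟨J, hJ, H⟩ := wma_sel (fun i l => (L i l : ℚ_[t])) (fun s hs => by
    have := (LinearIndependent.of_comp (v := fun i : s => (⟨_, hker i⟩ : LinearMap.ker Λ))
      (LinearMap.ker Λ).subtype hs).fintype_card_le_finrank
    simpa using this.trans_lt (Submodule.finrank_lt hΛ)) Finset.univ
  choose c hc using fun i =>
    (Submodule.mem_span_image_finset_iff_exists_fun' _).1 (H i (Finset.mem_univ i))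
  refine ⟨J, hJ, fun U => ⟨fun i j => (c i j).appr U, fun i => ?_⟩⟩
  refine wma_down hcan (hx i) ?_ U U ?_
  · exact Finset.prod_induction _ (fun y => (t : B) ^ 2 ∣ y - 1) (fun a b ha hb => by
      simpa only [sub_mul, one_mul, sub_add_sub_cancel] using dvd_add (ha.mul_right b) hb)
      (by simp) fun j _ => (hx j).trans (sub_one_dvd_pow_sub_one _ _)
  obtain ⟨e, he⟩ := wma_prod J ((t : B) ^ (U + 2)) (fun j => w j U) fun j => (c i j).appr U
  obtain ⟨g, hg⟩ := hdv (t ^ U) (w i U - ∑ j ∈ J, ((c i j).appr U : ℕ) • w j U) fun l => by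
    have h1 : L i l = ∑ j ∈ J, c i j * L j l := Subtype.ext (by
      simpa [Algebra.smul_def] using (congrFun (hc i) l).symm)
    have h2 := dvd_sub (Finset.dvd_sum fun j (_ : j ∈ J) => dvd_add
      ((Ideal.mem_span_singleton.1 (PadicInt.appr_spec U (c i j))).mul_right (L j l))
      ((hL' j l U).mul_left ((c i j).appr U))) (hL' i l U)
    rw [← PadicInt.pow_p_dvd_int_iff, map_sub, map_sum]
    simp only [map_nsmul]
    simpa [h1, sub_mul, mul_sub, Finset.sum_sub_distrib] using h2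
  simp only [← Finset.prod_pow, ← pow_mul, mul_comm _ (t ^ U)]
  simp only [pow_mul, hw, nsmul_eq_mul, Int.cast_pow, Int.cast_natCast] at hg ⊢
  exact ⟨t ^ 2 * (g - t ^ 2 * e), by linear_combination (t : B) ^ (U + 2) * hg - he⟩

end Vale.Agent.P024U
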