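import Mathlib

/-! Zero estimate on a torus for multiplicatively independent points.  Induction on `d`
(generalise `D`, `P`).  View `P` as a polynomial in `X 0` over `MvPolynomial (Fin d) K`
(`MvPolynomial.finSuccEquiv`), divide by the power of `X 0`.  If the degree in `X 0` is 0 use the
induction hypothesis.  Otherwise let `P_a (X) = P (γ(a) X)`, `γ(a) s = ∏ i, y s i ^ a i` (an algebra
automorphism).  An irreducible factor `Q` of positive `X 0`-degree has two different monomials, so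
`Q_a` associated to `Q_a'` forces `a = a'` by `hind`; `P` has at most `D` irreducible factors, so at most
`D^2 < A^card ι` values `a ∈ [0,A)^ι` give a common such factor of `P` and `P_a`.  For a good `a0` the
resultant in `X 0` is nonzero (Gauss lemma + `Polynomial.resultant_eq_zero_iff` over the fraction field,
or `resultant_ne_zero`), has total degree `≤ 2 D^2` (determinant of size `≤ 2D`), lies in the ideal
`(P, P_a0)` (`Polynomial.exists_mul_add_mul_eq_C_resultant`); `(2 (2 D^2))^(2^(d+1)) = (2D)^(2^(d+2))`. -/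

namespace Vale.Agent.P024U

open MvPolynomial UniqueFactorizationMonoid

theorem ze_common {R : Type*} [CommRing R] [IsDomain R] [UniqueFactorizationMonoid R]
    {p q : Polynomial R} (hp : p ≠ 0) (h : p.resultant q = 0) :
    ∃ r : Polynomial R, Irreducible r ∧ r.natDegree ≠ 0 ∧ r ∣ p ∧ r ∣ q := by
  have hφ := IsFractionRing.injective R (FractionRing R)
  have hinj := Polynomial.map_injective _ hφ
  have h1 : (p.map (algebraMap R (FractionRing R))).resultant
      (q.map (algebraMap R (FractionRing R))) = 0 := by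
    rw [Polynomial.natDegree_map_eq_of_injective hφ, Polynomial.natDegree_map_eq_of_injective hφ,
      Polynomial.resultant_map_map, h, map_zero]
  have hp' : p.map (algebraMap R (FractionRing R)) ≠ 0 := (Polynomial.map_ne_zero_iff hφ).2 hp
  by_contra hc
  refine (Polynomial.resultant_eq_zero_iff.1 h1).2
    (isCoprime_of_irreducible_dvd (fun h => hp' h.1) fun g hg hgp hgq => hc ?_)
  have h2 : g ∣ ((factors p).map (Polynomial.mapRingHom (algebraMap R (FractionRing R)))).prod := by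
    rw [← map_multiset_prod]
    exact hgp.trans (map_dvd (Polynomial.mapRingHom _) (factors_prod hp).symm.dvd)
  obtain ⟨_, h3, h4⟩ := hg.prime.exists_mem_multiset_dvd h2
  obtain ⟨r, hr, rfl⟩ := Multiset.mem_map.1 h3
  have hi := irreducible_of_factor r hr
  rw [Polynomial.coe_mapRingHom] at h4
  have hd : r.natDegree ≠ 0 := by
    intro h0
    rw [Polynomial.eq_C_of_natDegree_eq_zero h0, Polynomial.map_C] at h4
    refine hg.not_isUnit (isUnit_of_dvd_unit h4 (Polynomial.isUnit_C.2 (IsUnit.mk0 _ ?_)))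
    rw [map_ne_zero_iff _ hφ]
    intro h5
    rw [Polynomial.eq_C_of_natDegree_eq_zero h0, h5, map_zero] at hi
    exact hi.ne_zero rfl
  have hprim := hi.isPrimitive hd
  have h5 := (hprim.irreducible_iff_irreducible_map_fraction_map (K := FractionRing R)).1 hi
  exact ⟨r, hi, hd, dvd_of_mem_factors hr, hprim.dvd_of_fraction_map_dvd_fraction_map
    (K := FractionRing R) ((hg.associated_of_dvd h5 h4).symm.dvd.trans hgq)⟩

variable {K : Type*} [Field K]

theorem ze_res_deg {σ : Type*} {p q : Polynomial (MvPolynomial σ K)} {D : ℕ}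
    (hp : ∀ i, (p.coeff i).totalDegree ≤ D) (hq : ∀ i, (q.coeff i).totalDegree ≤ D) (m n : ℕ) :
    (p.resultant q m n).totalDegree ≤ (m + n) * D := by
  have he : ∀ i j, (p.sylvester q m n i j).totalDegree ≤ D := by
    intro i j
    induction j using Fin.addCases with
    | left j =>
      simp only [Polynomial.sylvester, Matrix.of_apply, Fin.addCases_left]
      split_ifs
      · exact hq _
      · simp
    | right j =>
      simp only [Polynomial.sylvester, Matrix.of_apply, Fin.addCases_right]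
      split_ifs
      · exact hp _
      · simp
  rw [Polynomial.resultant, Matrix.det_apply']
  refine totalDegree_finsetSum_le fun τ _ => (totalDegree_mul _ _).trans ?_
  rw [← map_intCast (C : K →+* MvPolynomial σ K), totalDegree_C, zero_add]
  refine (totalDegree_finsetProd _ _).trans ((Finset.sum_le_sum fun i _ => he _ _).trans ?_)
  simp

theorem ze_card {σ : Type*} (s : Multiset (MvPolynomial σ K)) (hs : ∀ x ∈ s, Irreducible x) :
    s.prod ≠ 0 ∧ s.card ≤ s.prod.totalDegree := by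
  induction s using Multiset.induction_on with
  | empty => simp
  | cons a s ih =>
    obtain ⟨h1, h2⟩ := ih fun x hx => hs x (Multiset.mem_cons_of_mem hx)
    have ha := hs a (Multiset.mem_cons_self a s)
    have h3 : a.totalDegree ≠ 0 := by
      intro h0
      have e := totalDegree_eq_zero_iff_eq_C.1 h0
      refine ha.not_isUnit (isUnit_iff_eq_C_of_isReduced.2 ⟨_, IsUnit.mk0 _ fun h => ?_, e⟩)
      rw [h, map_zero] at e
      exact ha.ne_zero e
    rw [Multiset.prod_cons, Multiset.card_cons, totalDegree_mul_of_isDomain ha.ne_zero h1]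
    exact ⟨mul_ne_zero ha.ne_zero h1, by omega⟩

/-- scaling of the variables -/
noncomputable def zeS {n : ℕ} (γ : Fin n → Kˣ) :
    MvPolynomial (Fin n) K →ₐ[K] MvPolynomial (Fin n) K :=
  aeval fun s => C (γ s : K) * X s

theorem zeS_coeff {n : ℕ} (γ : Fin n → Kˣ) (P : MvPolynomial (Fin n) K) (μ : Fin n →₀ ℕ) :
    coeff μ (zeS γ P) = ((∏ s, γ s ^ μ s : Kˣ) : K) * coeff μ P := by
  classical
  induction P using MvPolynomial.induction_on' with
  | add p q hp hq => simp only [map_add, coeff_add, hp, hq, mul_add]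
  | monomial ν c =>
    have : zeS γ (monomial ν c) = monomial ν (((∏ s, γ s ^ ν s : Kˣ) : K) * c) := by
      rw [zeS, aeval_monomial, monomial_eq, Finsupp.prod_fintype _ _ (by simp),
        Finsupp.prod_fintype _ _ (by simp)]
      simp only [mul_pow, Finset.prod_mul_distrib, algebraMap_eq, Units.coe_prod,
        Units.val_pow_eq_pow_val, map_mul, map_prod, map_pow]
      ring
    rw [this, coeff_monomial, coeff_monomial]
    split_ifs with h
    · rw [h]
    · rw [mul_zero]

theorem zeS_zeS {n : ℕ} (γ δ : Fin n → Kˣ) (P : MvPolynomial (Fin n) K) :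
    zeS γ (zeS δ P) = zeS (γ * δ) P := by
  ext μ
  simp only [zeS_coeff, Pi.mul_apply, mul_pow, Finset.prod_mul_distrib, Units.val_mul, mul_assoc]

theorem zeS_one {n : ℕ} (P : MvPolynomial (Fin n) K) : zeS 1 P = P := by
  ext μ
  simp [zeS_coeff]

theorem zeS_eval {n : ℕ} (γ : Fin n → Kˣ) (P : MvPolynomial (Fin n) K) (x : Fin n → K) :
    eval x (zeS γ P) = eval (fun s => γ s * x s) P := by
  induction P using MvPolynomial.induction_on with
  | C a => simp [zeS]
  | add p q hp hq => simp only [map_add, hp, hq]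
  | mul_X p s hp =>
    rw [map_mul, map_mul, map_mul, hp]
    simp [zeS]

theorem zeS_deg {n : ℕ} (γ : Fin n → Kˣ) (P : MvPolynomial (Fin n) K) :
    (zeS γ P).totalDegree ≤ P.totalDegree :=
  totalDegree_le_of_support_subset fun μ hμ => by
    rw [mem_support_iff] at hμ ⊢
    rw [zeS_coeff] at hμ
    exact right_ne_zero_of_mul hμ

/-- the scaling as a multiplicative equivalence -/
noncomputable def zeE {n : ℕ} (γ : Fin n → Kˣ) :
    MvPolynomial (Fin n) K ≃* MvPolynomial (Fin n) K where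
  toFun := zeS γ
  invFun := zeS γ⁻¹
  left_inv P := by rw [zeS_zeS, inv_mul_cancel, zeS_one]
  right_inv P := by rw [zeS_zeS, mul_inv_cancel, zeS_one]
  map_mul' := map_mul _

theorem ze_assoc {σ : Type*} {P Q : MvPolynomial σ K} (h : Associated P Q) :
    ∃ c : K, ∀ μ, coeff μ Q = c * coeff μ P := by
  obtain ⟨u, rfl⟩ := h
  obtain ⟨c, -, hc⟩ := isUnit_iff_eq_C_of_isReduced.1 u.isUnit
  exact ⟨c, fun μ => by rw [hc, mul_comm, coeff_C_mul]⟩

theorem ze_inj {ι : Type*} [Fintype ι] {n : ℕ} (y : Fin n → ι → Kˣ)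
    (hind : ∀ e : Fin n → ι → ℤ, ∏ s, ∏ i, y s i ^ e s i = 1 → e = 0)
    {Q : MvPolynomial (Fin n) K} {μ ν : Fin n →₀ ℕ} (hμ : coeff μ Q ≠ 0) (hν : coeff ν Q ≠ 0)
    {t : Fin n} (ht : μ t ≠ ν t) {a b : ι → ℕ}
    (h : Associated (zeS (fun s => ∏ i, y s i ^ a i) Q) (zeS (fun s => ∏ i, y s i ^ b i) Q)) :
    a = b := by
  obtain ⟨c, hc⟩ := ze_assoc h
  have h1 := hc μ
  have h2 := hc ν
  rw [zeS_coeff, zeS_coeff, ← mul_assoc] at h1 h2
  have h3 := mul_right_cancel₀ hμ h1
  have h4 := mul_right_cancel₀ hν h2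
  have h5 : (∏ s, (∏ i, y s i ^ b i) ^ μ s) * (∏ s, (∏ i, y s i ^ a i) ^ ν s) =
      (∏ s, (∏ i, y s i ^ a i) ^ μ s) * (∏ s, (∏ i, y s i ^ b i) ^ ν s) := by
    apply Units.ext
    rw [Units.val_mul, Units.val_mul, h3, h4]
    ring
  have h6 := hind (fun s i => ((b i : ℤ) - a i) * ((μ s : ℤ) - ν s)) (by
    rw [← div_eq_one] at h5
    rw [← h5]
    simp only [← Finset.prod_pow, ← Finset.prod_mul_distrib, ← Finset.prod_div_distrib]
    refine Finset.prod_congr rfl fun s _ => Finset.prod_congr rfl fun i _ => ?_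
    simp only [← pow_mul, ← pow_add]
    rw [div_eq_mul_inv, ← zpow_natCast, ← zpow_natCast, ← zpow_neg, ← zpow_add]
    congr 1
    push_cast
    ring)
  funext i
  have h7 := congrFun (congrFun h6 t) i
  simp only [Pi.zero_apply, mul_eq_zero] at h7
  omega

theorem ze_coeff_deg {d : ℕ} (P : MvPolynomial (Fin (d + 1)) K) (i : ℕ) :
    ((finSuccEquiv K d P).coeff i).totalDegree ≤ P.totalDegree := by
  by_cases h : (finSuccEquiv K d P).coeff i = 0
  · simp [h]
  · exact le_of_add_le_left (totalDegree_coeff_finSuccEquiv_add_le P i h)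

theorem ze_natDeg {d : ℕ} (P : MvPolynomial (Fin (d + 1)) K) :
    (finSuccEquiv K d P).natDegree ≤ P.totalDegree := by
  rw [natDegree_finSuccEquiv]
  exact degreeOf_le_totalDegree _ _

theorem ze_mono {d : ℕ} {P : MvPolynomial (Fin (d + 1)) K} {i : ℕ}
    (h : (finSuccEquiv K d P).coeff i ≠ 0) : ∃ μ : Fin (d + 1) →₀ ℕ, coeff μ P ≠ 0 ∧ μ 0 = i := by
  obtain ⟨m, hm⟩ := ne_zero_iff.1 h
  exact ⟨m.cons i, by rwa [← finSuccEquiv_coeff_coeff], Finsupp.cons_zero _ _⟩

/-- a good shift -/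
theorem ze_good {ι : Type*} [Fintype ι] {d : ℕ} (y : Fin (d + 1) → ι → Kˣ)
    (hind : ∀ e : Fin (d + 1) → ι → ℤ, ∏ s, ∏ i, y s i ^ e s i = 1 → e = 0)
    {A D : ℕ} {P : MvPolynomial (Fin (d + 1)) K} (hX : ¬X 0 ∣ P) (hdeg : P.totalDegree ≤ D)
    (hA : D ^ 2 < A ^ Fintype.card ι) : ∃ a : ι → ℕ, (∀ i, a i ≤ A) ∧
      (finSuccEquiv K d P).resultant
        (finSuccEquiv K d (zeS (fun s => ∏ i, y s i ^ a i) P)) ≠ 0 := by
  classical
  have hP : P ≠ 0 := fun h => hX (h ▸ dvd_zero _)
  by_contra hc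
  push Not at hc
  have key : ∀ a ∈ Fintype.piFinset fun _ : ι => Finset.range A,
      ∃ Q ∈ (factors P).toFinset ×ˢ (factors P).toFinset, (∃ μ, coeff μ Q.2 ≠ 0 ∧ μ 0 ≠ 0) ∧
        Associated Q.1 (zeS (fun s => ∏ i, y s i ^ a i) Q.2) := by
    intro a ha
    obtain ⟨r, hr, hd, h1, h2⟩ := ze_common ((map_ne_zero_iff _ (finSuccEquiv K d).injective).2 hP)
      (hc a fun i => (Finset.mem_range.1 (Fintype.mem_piFinset.1 ha i)).le)
    obtain ⟨Q, rfl⟩ := (finSuccEquiv K d).surjective r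
    rw [map_dvd_iff] at h1 h2
    rw [MulEquiv.irreducible_iff] at hr
    generalize (fun s => ∏ i, y s i ^ a i) = γ at h2 ⊢
    obtain ⟨Q', rfl⟩ := (zeE γ).surjective Q
    have h3 : Q' ∣ P := (map_dvd_iff (zeE γ)).1 h2
    obtain ⟨Q1, m1, a1⟩ := exists_mem_factors_of_dvd hP hr h1
    obtain ⟨Q2, m2, a2⟩ := exists_mem_factors_of_dvd hP ((MulEquiv.irreducible_iff _).1 hr) h3
    refine ⟨(Q1, Q2), Finset.mem_product.2 ⟨Multiset.mem_toFinset.2 m1,
      Multiset.mem_toFinset.2 m2⟩, ?_, a1.symm.trans (a2.map (zeE γ))⟩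
    obtain ⟨μ, h4, h5⟩ := ze_mono (P := zeE γ Q') (Polynomial.leadingCoeff_ne_zero.2
      ((map_ne_zero_iff _ (finSuccEquiv K d).injective).2 hr.ne_zero))
    obtain ⟨c, h6⟩ := ze_assoc a2.symm
    refine ⟨μ, fun h7 => h4 ?_, h5 ▸ hd⟩
    change coeff μ (zeS γ Q') = 0
    rw [zeS_coeff, h6, h7, mul_zero, mul_zero]
  choose! F hF1 hF2 hF3 using key
  have h1 := Finset.card_le_card_of_injOn F hF1 fun a ha b hb hab => by
    obtain ⟨μ, h2, h3⟩ := hF2 a ha
    have h4 : (F a).2 ∣ P :=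
      dvd_of_mem_factors (Multiset.mem_toFinset.1 (Finset.mem_product.1 (hF1 a ha)).2)
    obtain ⟨ν, h5, h6⟩ := ze_mono (P := (F a).2) (i := 0) fun h => hX (Dvd.dvd.trans (by
      rw [← map_dvd_iff (finSuccEquiv K d), finSuccEquiv_X_zero, Polynomial.X_dvd_iff]
      exact h) h4)
    have h7 := hF3 b hb
    rw [← hab] at h7
    exact ze_inj y hind h2 h5 (t := 0) (by rw [h6]; exact h3) ((hF3 a ha).symm.trans h7)
  have h2 : (factors P).toFinset.card ≤ D :=
    (Multiset.toFinset_card_le _).trans ((ze_card _ irreducible_of_factor).2.trans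
      ((totalDegree_le_of_dvd_of_isDomain (factors_prod hP).dvd hP).trans hdeg))
  rw [Fintype.card_piFinset, Finset.card_product] at h1
  simp only [Finset.card_range, Finset.prod_const, Finset.card_univ] at h1
  have := Nat.mul_le_mul h2 h2
  nlinarith

theorem ze_elim {ι : Type*} [Fintype ι] {d : ℕ} (y : Fin (d + 1) → ι → Kˣ)
    (hind : ∀ e : Fin (d + 1) → ι → ℤ, ∏ s, ∏ i, y s i ^ e s i = 1 → e = 0)
    {A D : ℕ} (hD : 1 ≤ D) {P : MvPolynomial (Fin (d + 1)) K} (hX : ¬X 0 ∣ P)
    (hdeg : P.totalDegree ≤ D) (hA : D ^ 2 < A ^ Fintype.card ι) :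
    ∃ (a : ι → ℕ) (R : MvPolynomial (Fin d) K) (u v : Polynomial (MvPolynomial (Fin d) K)),
      (∀ i, a i ≤ A) ∧ R ≠ 0 ∧ R.totalDegree ≤ 2 * D ^ 2 ∧ finSuccEquiv K d P * u +
        finSuccEquiv K d (zeS (fun s => ∏ i, y s i ^ a i) P) * v = Polynomial.C R := by
  by_cases h0 : (finSuccEquiv K d P).natDegree = 0
  · refine ⟨0, (finSuccEquiv K d P).coeff 0, 1, 0, fun _ => Nat.zero_le _, fun h => hX ?_,
      (ze_coeff_deg P 0).trans (hdeg.trans (by nlinarith)), ?_⟩
    · rw [← map_dvd_iff (finSuccEquiv K d), finSuccEquiv_X_zero, Polynomial.X_dvd_iff]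
      exact h
    · rw [mul_one, mul_zero, add_zero]
      exact Polynomial.eq_C_of_natDegree_eq_zero h0
  · obtain ⟨a, ha, hr⟩ := ze_good y hind hX hdeg hA
    obtain ⟨u, v, -, -, e⟩ := Polynomial.exists_mul_add_mul_eq_C_resultant (finSuccEquiv K d P)
      (finSuccEquiv K d (zeS (fun s => ∏ i, y s i ^ a i) P)) le_rfl le_rfl (Or.inl h0)
    have hd2 := (zeS_deg (fun s => ∏ i, y s i ^ a i) P).trans hdeg
    refine ⟨a, _, u, v, ha, hr, (ze_res_deg (fun i => (ze_coeff_deg _ i).trans hdeg)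
      (fun i => (ze_coeff_deg _ i).trans hd2) _ _).trans ?_, e⟩
    have := Nat.mul_le_mul_right D
      (add_le_add ((ze_natDeg P).trans hdeg) ((ze_natDeg _).trans hd2))
    nlinarith

theorem zero_est {K : Type*} [Field K] {ι : Type*} [Fintype ι] (d : ℕ) (y : Fin d → ι → Kˣ)
    (hind : ∀ e : Fin d → ι → ℤ, ∏ s, ∏ i, y s i ^ e s i = 1 → e = 0)
    (A D : ℕ) (hD : 1 ≤ D) (P : MvPolynomial (Fin d) K) (hP : P ≠ 0) (hdeg : P.totalDegree ≤ D)
    (hA : (2 * D) ^ (2 ^ (d + 1)) < A ^ Fintype.card ι) :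
    ∃ a : ι → ℕ, (∀ i, a i ≤ d * A) ∧
      MvPolynomial.eval (fun s => ∏ i, (y s i : K) ^ a i) P ≠ 0 := by
  induction d generalizing D with
  | zero =>
    refine ⟨0, fun _ => Nat.zero_le _, ?_⟩
    rw [eq_C_of_isEmpty P] at hP ⊢
    rw [eval_C]
    exact fun h => hP (by rw [h, map_zero])
  | succ d ih =>
    obtain ⟨k, Q, hX, rfl⟩ := WfDvdMonoid.max_power_factor' hP
      (x := (X 0 : MvPolynomial (Fin (d + 1)) K)) (X_prime.not_isUnit)
    have hQ : Q.totalDegree ≤ D :=
      (totalDegree_le_of_dvd_of_isDomain (dvd_mul_left _ _) hP).trans hdeg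
    have hpow : (2 * (2 * D ^ 2)) ^ 2 ^ (d + 1) = (2 * D) ^ 2 ^ (d + 1 + 1) := by
      rw [pow_succ' 2 (d + 1), pow_mul]
      congr 1
      ring
    have hA2 : D ^ 2 < A ^ Fintype.card ι := by
      refine lt_of_le_of_lt ?_ hA
      rw [← hpow]
      exact le_trans (by omega) (Nat.le_self_pow (by positivity) _)
    obtain ⟨a0, R, u, v, ha0, hR, hRd, e⟩ := ze_elim y hind hD hX hQ hA2
    obtain ⟨a, ha, hv⟩ := ih (fun s => y s.succ) (fun e' he' => by
      have := hind (Fin.cons 0 e') (by simpa [Fin.prod_univ_succ] using he')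
      funext s
      simpa using congrFun this s.succ) (2 * D ^ 2) (by nlinarith) R hR hRd (hpow ▸ hA)
    have main : ∃ b : ι → ℕ, (∀ i, b i ≤ (d + 1) * A) ∧
        eval (fun s => ∏ i, (y s i : K) ^ b i) Q ≠ 0 := by
      by_contra hc
      push Not at hc
      have z1 := hc a fun i => (ha i).trans (by nlinarith)
      have z2 : eval (fun s => ∏ i, (y s i : K) ^ a i)
          (zeS (fun s => ∏ i, y s i ^ a0 i) Q) = 0 := by
        rw [zeS_eval, ← hc (a0 + a) fun i => by
          have := add_le_add (ha0 i) (ha i)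
          rw [Pi.add_apply]
          nlinarith]
        simp only [Units.coe_prod, Units.val_pow_eq_pow_val, Pi.add_apply, pow_add,
          Finset.prod_mul_distrib]
      rw [← Fin.cons_self_tail (fun s => ∏ i, (y s i : K) ^ a i), eval_eq_eval_mv_eval'] at z1 z2
      have e2 := congrArg (fun p => Polynomial.eval (∏ i, (y 0 i : K) ^ a i)
        (Polynomial.map (eval (Fin.tail fun s => ∏ i, (y s i : K) ^ a i)) p)) e
      simp only [Polynomial.map_add, Polynomial.map_mul, Polynomial.eval_add, Polynomial.eval_mul,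
        z1, z2, zero_mul, add_zero, Polynomial.map_C, Polynomial.eval_C] at e2
      exact hv e2.symm
    obtain ⟨b, hb, hv2⟩ := main
    refine ⟨b, hb, ?_⟩
    rw [map_mul, map_pow, eval_X]
    exact mul_ne_zero (pow_ne_zero _ (Finset.prod_ne_zero_iff.2 fun i _ =>
      pow_ne_zero _ (y 0 i).ne_zero)) hv2

end Vale.Agent.P024U
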