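import Vale.Agent.P024U.Det
import Vale.Agent.P024U.ZE

/-! Auxiliary lemmas for the interpolation determinant. -/

namespace Vale.Agent.P024U

theorem WMb_binom {S : Type*} [CommRing S] (v : S) (U N : ℕ) (hv : v ^ U = 0) :
    (1 + v) ^ N = ∑ k : Fin U, (N.choose k : S) * v ^ (k : ℕ) := by
  rw [Fin.sum_univ_eq_sum_range (fun k => (N.choose k : S) * v ^ k) U, add_comm, add_pow]
  have h1 : ∑ k ∈ Finset.range (N + 1), v ^ k * 1 ^ (N - k) * (N.choose k : S) =
      ∑ k ∈ Finset.range (N + 1 + U), (N.choose k : S) * v ^ k := by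
    rw [← Finset.sum_subset (Finset.range_mono (Nat.le_add_right (N + 1) U))]
    · exact Finset.sum_congr rfl fun k _ => by rw [one_pow, mul_one, mul_comm]
    · intro k _ hk
      rw [Finset.mem_range, not_lt] at hk
      rw [Nat.choose_eq_zero_of_lt (by omega), Nat.cast_zero, zero_mul]
  rw [h1, Finset.sum_subset (Finset.range_mono (Nat.le_add_left U (N + 1)))]
  intro k _ hk
  rw [Finset.mem_range, not_lt] at hk
  rw [pow_eq_zero_of_le hk hv, mul_zero]

/-- high divisibility of the interpolation determinant -/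
theorem WMb_dvd {B R : Type*} [CommRing B] [CommRing R] {d m : ℕ} (t U : ℕ)
    (s : Fin d → B →+* R) (x : Fin m → B) (hx : ∀ i, (t : B) ∣ x i - 1) (J : Finset (Fin m))
    (n : Fin m → Fin m → ℕ) (hn : ∀ i, (t : B) ^ U ∣ x i - ∏ j ∈ J, x j ^ n i j)
    {ι : Type*} [Fintype ι] [DecidableEq ι] (f : ι → Fin m → ℕ) (g : ι → Fin d → ℕ) :
    ((t : R) ^ U) ^ (Fintype.card ι - U ^ J.card) ∣
      (Matrix.of fun r c => ∏ σ, s σ (∏ i, x i ^ f r i) ^ g c σ).det := by
  classical
  let I : Ideal R := Ideal.span {(t : R) ^ U}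
  let φ : R →+* R ⧸ I := Ideal.Quotient.mk I
  let u : ι → Fin m → R := fun c j => ∏ σ, s σ (x j) ^ g c σ - 1
  let N : ι → Fin m → ℕ := fun r j => ∑ i, n i j * f r i
  let X : Matrix ι (J → Fin U) R := Matrix.of fun r κ => ∏ j : J, ((N r j).choose (κ j) : R)
  let Y : Matrix (J → Fin U) ι R := Matrix.of fun κ c => ∏ j : J, u c j ^ (κ j : ℕ)
  have hu : ∀ c j, (t : R) ∣ u c j := by
    intro c j
    rw [← Ideal.mem_span_singleton, ← Ideal.Quotient.eq, map_prod, map_one]
    refine Finset.prod_eq_one fun σ _ => ?_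
    have : Ideal.Quotient.mk (Ideal.span {(t : R)}) (s σ (x j)) = 1 := by
      rw [← map_one (Ideal.Quotient.mk (Ideal.span {(t : R)})), Ideal.Quotient.eq,
        Ideal.mem_span_singleton]
      have := map_dvd (s σ) (hx j)
      rwa [map_natCast, map_sub, map_one] at this
    rw [map_pow, this, one_pow]
  have hu0 : ∀ c j, φ (u c j) ^ U = 0 := by
    intro c j
    rw [← map_pow, Ideal.Quotient.eq_zero_iff_mem, Ideal.mem_span_singleton]
    exact pow_dvd_pow_of_dvd (hu c j) U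
  have hn' : ∀ σ i, φ (s σ (x i)) = ∏ j : J, φ (s σ (x j)) ^ n i j := by
    intro σ i
    have h1 := map_dvd (s σ) (hn i)
    rw [map_pow, map_natCast, map_sub, ← Ideal.mem_span_singleton, ← Ideal.Quotient.eq] at h1
    rw [h1, Finset.prod_coe_sort J (fun j => φ (s σ (x j)) ^ n i j)]
    simp only [map_prod, map_pow, φ, I]
  have key : ∀ r c, (t : R) ^ U ∣ (∏ σ, s σ (∏ i, x i ^ f r i) ^ g c σ) - (X * Y) r c := by
    intro r c
    rw [← Ideal.mem_span_singleton, ← Ideal.Quotient.eq]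
    change φ _ = φ _
    have e1 : φ (∏ σ, s σ (∏ i, x i ^ f r i) ^ g c σ) = ∏ j : J, (1 + φ (u c j)) ^ N r j := by
      have : ∀ j : J, 1 + φ (u c j) = ∏ σ, φ (s σ (x j)) ^ g c σ := by
        intro j
        simp only [u, map_sub, map_one, map_prod, map_pow, add_sub_cancel]
      simp only [this, map_prod, map_pow, N, ← Finset.prod_pow_eq_pow_sum]
      simp only [← Finset.prod_pow, ← pow_mul]
      rw [Finset.prod_comm]
      conv_rhs => rw [Finset.prod_comm]
      refine Finset.prod_congr rfl fun i _ => ?_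
      conv_rhs => rw [Finset.prod_comm]
      refine Finset.prod_congr rfl fun σ _ => ?_
      rw [hn' σ i, ← Finset.prod_pow]
      refine Finset.prod_congr rfl fun j _ => ?_
      rw [← pow_mul]
      congr 1
      ring
    rw [e1]
    simp only [fun j : J => WMb_binom (φ (u c j)) U (N r j) (hu0 c j)]
    rw [Fintype.prod_sum, Matrix.mul_apply, map_sum]
    refine Finset.sum_congr rfl fun κ _ => ?_
    simp only [X, Y, Matrix.of_apply, map_mul, map_prod, map_natCast, map_pow,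
      Finset.prod_mul_distrib]
  choose Z hZ using key
  have e : (Matrix.of fun r c => ∏ σ, s σ (∏ i, x i ^ f r i) ^ g c σ) =
      X * Y + ((t : R) ^ U) • Matrix.of Z := by
    ext r c
    rw [Matrix.add_apply, Matrix.smul_apply, Matrix.of_apply, Matrix.of_apply, smul_eq_mul,
      ← hZ r c, add_sub_cancel]
  rw [e]
  have := det_dvd ((t : R) ^ U) X Y (Matrix.of Z)
  rwa [Fintype.card_fun, Fintype.card_fin, Fintype.card_coe] at this

/-- nonvanishing of the interpolation determinant -/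
theorem WMb_rows {K : Type*} [Field K] {d m : ℕ} (y : Fin d → Fin m → K) (h0 : ∀ σ i, y σ i ≠ 0)
    (hind : ∀ e : Fin d → Fin m → ℤ, ∏ σ, ∏ i, y σ i ^ e σ i = 1 → e = 0) (A D : ℕ)
    (hD : 1 ≤ d * D) (hA : (2 * (d * D)) ^ (2 ^ (d + 1)) < A ^ m) :
    ∃ f : (Fin d → Fin D) → Fin m → ℕ, (∀ r i, f r i ≤ d * A) ∧
      (Matrix.of fun r (c : Fin d → Fin D) => ∏ σ, (∏ i, y σ i ^ f r i) ^ (c σ : ℕ)).det ≠ 0 := by
  classical
  obtain ⟨f, hf⟩ := exists_rows (α := {a : Fin m → ℕ // ∀ i, a i ≤ d * A}) (β := Fin d → Fin D)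
    (fun a c => ∏ σ, (∏ i, y σ i ^ a.1 i) ^ (c σ : ℕ)) (by
      intro c hc
      by_contra hne
      let ex : (Fin d → Fin D) → (Fin d →₀ ℕ) := fun b =>
        Finsupp.equivFunOnFinite.symm fun σ => (b σ : ℕ)
      have hex : Function.Injective ex := by
        intro b b' h
        funext σ
        have := congrFun (Finsupp.equivFunOnFinite.symm.injective h) σ
        exact Fin.ext this
      let P : MvPolynomial (Fin d) K := ∑ b, MvPolynomial.monomial (ex b) (c b)
      have hP : P ≠ 0 := by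
        obtain ⟨b, hb⟩ := Function.ne_iff.1 hne
        refine MvPolynomial.ne_zero_iff.2 ⟨ex b, ?_⟩
        simp only [P, MvPolynomial.coeff_sum, MvPolynomial.coeff_monomial, hex.eq_iff,
          Finset.sum_ite_eq', Finset.mem_univ, if_true]
        exact hb
      have hdeg : P.totalDegree ≤ d * D := by
        refine MvPolynomial.totalDegree_finsetSum_le fun b _ =>
          (MvPolynomial.totalDegree_monomial_le _ _).trans ?_
        rw [Finsupp.sum_fintype _ _ (by simp)]
        refine (Finset.sum_le_sum fun σ _ => (b σ).2.le).trans ?_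
        simp
      obtain ⟨a, ha, hv⟩ := zero_est d (fun σ i => Units.mk0 (y σ i) (h0 σ i)) (fun e he => by
        refine hind e ?_
        have := congrArg Units.val he
        simpa only [Units.coe_prod, Units.val_zpow_eq_zpow_val, Units.val_mk0, Units.val_one]
          using this) A (d * D) hD P hP hdeg (by rwa [Fintype.card_fin])
      refine hv ?_
      rw [← hc ⟨a, ha⟩]
      simp only [P, map_sum, MvPolynomial.eval_monomial, Units.val_mk0]
      refine Finset.sum_congr rfl fun b _ => ?_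
      rw [mul_comm, Finsupp.prod_fintype _ _ (by simp)]
      rfl)
  exact ⟨fun r => (f r).1, fun r => (f r).2, hf⟩

/-- size of the interpolation determinant -/
theorem WMb_size {d m : ℕ} (y : Fin d → Fin m → ℂ) (c : ℕ) (hc : ∀ σ i, ‖y σ i‖ ≤ 2 ^ c)
    (A D : ℕ) (f : (Fin d → Fin D) → Fin m → ℕ) (hf : ∀ r i, f r i ≤ A) :
    ‖(Matrix.of fun r (b : Fin d → Fin D) => ∏ σ, (∏ i, y σ i ^ f r i) ^ (b σ : ℕ)).det‖ ≤
      ((2 : ℝ) ^ (d * D + c * A * m * D * d)) ^ (D ^ d) := by
  classical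
  have h1 : ∀ r (b : Fin d → Fin D), ‖∏ σ, (∏ i, y σ i ^ f r i) ^ (b σ : ℕ)‖ ≤
      (2 : ℝ) ^ (c * A * m * D * d) := by
    intro r b
    have h2 : ∀ σ, ‖∏ i, y σ i ^ f r i‖ ≤ (2 : ℝ) ^ (c * A * m) := by
      intro σ
      rw [norm_prod, pow_mul]
      refine (Finset.prod_le_prod (g := fun _ => (2 : ℝ) ^ (c * A)) (fun i _ => norm_nonneg _)
        fun i _ => ?_).trans (by simp)
      rw [norm_pow, pow_mul]
      exact (pow_le_pow_left₀ (norm_nonneg _) (hc σ i) _).trans
        (pow_le_pow_right₀ (one_le_pow₀ one_le_two) (hf r i))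
    rw [norm_prod, pow_mul]
    refine (Finset.prod_le_prod (g := fun _ => (2 : ℝ) ^ (c * A * m * D))
      (fun i _ => norm_nonneg _) fun σ _ => ?_).trans (by simp)
    rw [norm_pow, pow_mul]
    exact (pow_le_pow_left₀ (norm_nonneg _) (h2 σ) _).trans
      (pow_le_pow_right₀ (one_le_pow₀ one_le_two) (b σ).2.le)
  have h3 := Matrix.det_le (abv := NormedField.toAbsoluteValue ℂ)
    (A := Matrix.of fun r (b : Fin d → Fin D) => ∏ σ, (∏ i, y σ i ^ f r i) ^ (b σ : ℕ)) h1
  rw [Fintype.card_fun, Fintype.card_fin, Fintype.card_fin, nsmul_eq_mul] at h3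
  refine h3.trans ?_
  rw [pow_add, mul_pow]
  refine mul_le_mul_of_nonneg_right ?_ (by positivity)
  have h4 : (D ^ d).factorial ≤ (2 ^ (d * D)) ^ (D ^ d) := by
    refine (Nat.factorial_le_pow _).trans (Nat.pow_le_pow_left ?_ _)
    rw [mul_comm, pow_mul]
    exact Nat.pow_le_pow_left Nat.lt_two_pow_self.le _
  exact_mod_cast h4

/-- the final numerical contradiction -/
theorem WMb_arith (e ρ c m z : ℕ) (hρ : ρ ≤ e) (hz : 4 * (e + 1) + 4 * (c * (e + 1) ^ 2 * m) < z)
    (h : z ^ (2 * (e + 1)) * ((2 * z ^ (2 * e)) ^ (e + 1) - (z ^ (2 * (e + 1))) ^ ρ) ≤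
      ((e + 1) * (2 * z ^ (2 * e)) + c * ((e + 1) * z) * m * (2 * z ^ (2 * e)) * (e + 1)) *
        (2 * z ^ (2 * e)) ^ (e + 1)) : False := by
  have hz0 : 0 < z := by omega
  have h1 : 2 * (z ^ (2 * (e + 1))) ^ ρ ≤ (2 * z ^ (2 * e)) ^ (e + 1) := by
    rw [mul_pow, ← pow_mul, ← pow_mul]
    refine Nat.mul_le_mul (Nat.le_self_pow (by omega) 2) (Nat.pow_le_pow_right hz0 ?_)
    nlinarith
  have hL : 0 < (2 * z ^ (2 * e)) ^ (e + 1) := by positivity
  have hw : 0 < z ^ (2 * e) := by positivity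
  have hU : z ^ (2 * (e + 1)) = z * z * z ^ (2 * e) := by ring
  generalize (z ^ (2 * (e + 1))) ^ ρ = V at h h1
  rw [hU] at h
  generalize (2 * z ^ (2 * e)) ^ (e + 1) = L at h h1 hL
  generalize z ^ (2 * e) = w at h hw
  have h2 : L ≤ 2 * (L - V) := by omega
  have h3 : z * z * w * L ≤ 2 * ((e + 1) * (2 * w) + c * ((e + 1) * z) * m * (2 * w) * (e + 1)) * L :=
    calc z * z * w * L ≤ z * z * w * (2 * (L - V)) := Nat.mul_le_mul_left _ h2
      _ = 2 * (z * z * w * (L - V)) := by ring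
      _ ≤ 2 * (((e + 1) * (2 * w) + c * ((e + 1) * z) * m * (2 * w) * (e + 1)) * L) :=
        Nat.mul_le_mul_left _ h
      _ = _ := by ring
  have h4 := Nat.le_of_mul_le_mul_right h3 hL
  have h5 : z * z * w ≤ (4 * (e + 1) + 4 * (c * (e + 1) ^ 2 * m) * z) * w :=
    h4.trans (le_of_eq (by ring))
  have h6 := Nat.le_of_mul_le_mul_right h5 hw
  nlinarith

end Vale.Agent.P024U
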