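import Vale.Agent.P024U.Det
import Vale.Agent.P024U.ZE
import Vale.Agent.P024U.WMa
import Vale.Agent.P024U.WMbX1

/-! The interpolation determinant (generic `t`-adic Waldschmidt-Masser theorem).
`wm_b`: put `m = 2 d 2^(d+1) + 1`, take `J ⊆ Fin m` of cardinality `< d`.  For a large natural `z` let
`A = z`, `D = 2 z^(2(d-1))`, `U = z^(2d)`, `L = D^d`.  Columns `b : Fin d → Fin D`, rows `a : Fin m → ℕ`,
`a i ≤ d A`, entries `M a b = ∏ σ, (s σ (∏ i, x i ^ a i))^(b σ)`.  By `zero_est` (total degree `≤ d D`) the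
columns are independent, `exists_rows` gives `Δ ≠ 0`.  Work in `Oi` (or in `integralClosure ℤ Om`):
`∏ x i ^ a i ≡ ∏_(j ∈ J) x j ^ (N j a) mod t^U`, so `M a b ≡ ∏_(j∈J) (1 + u b j)^(N j a)` with `t ∣ u b j`,
and the binomial theorem gives `M ≡ X * Y mod t^U` with inner index type `J → Fin U` of cardinality
`≤ U^(d-1) ≤ L/2`.  `det_dvd`: `t^(U (L - L/2)) ∣ Δ`; `liouville` applied to the quotient and `house_bdd`:
`t^(U L/2) ≤ L! C^(d D m d A L)`, i.e. `z^(2d)/2 ≤ log L + c z^(2d-1)`, false for large `z`. -/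

namespace Vale.Agent.P024U
open Filter Topology

theorem wm_b {B : Type*} [CommRing B] [Module.Finite ℤ B] {d : ℕ} (t : ℕ) (ht : 2 ≤ t)
    (s : Fin d → B →+* Om) (x : ℕ → B) (hx : ∀ i, (t : B) ∣ x i - 1)
    (h0 : ∀ σ i, s σ (x i) ≠ 0)
    (hind : ∀ (m : ℕ) (e : Fin d → Fin m → ℤ), ∏ σ, ∏ i : Fin m, s σ (x i) ^ e σ i = 1 → e = 0)
    (hJ : ∀ m : ℕ, ∃ J : Finset (Fin m), J.card < d ∧ ∀ U : ℕ, ∃ n : Fin m → Fin m → ℕ,
      ∀ i : Fin m, (t : B) ^ U ∣ x i - ∏ j ∈ J, x j ^ n i j) : False := by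
  classical
  obtain ⟨m, hm⟩ : ∃ m, m = 2 * d * 2 ^ (d + 1) + 1 := ⟨_, rfl⟩
  obtain ⟨J, hJd, hJU⟩ := hJ m
  obtain ⟨e, rfl⟩ : ∃ e, d = e + 1 := ⟨d - 1, by omega⟩
  obtain ⟨c, hc⟩ : ∃ c : ℕ, ∀ (τ : Om →+* ℂ) σ (i : Fin m), ‖τ (s σ (x i))‖ ≤ 2 ^ c := by
    choose C _ hC using house_bdd
    obtain ⟨b, hb⟩ := (Set.finite_range fun p : Fin (e + 1) × Fin m => C (s p.1 (x p.2))).bddAbove
    obtain ⟨c, hc⟩ := pow_unbounded_of_one_lt b (one_lt_two (α := ℝ))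
    exact ⟨c, fun τ σ i => (hC _ τ).trans ((hb ⟨(σ, i), rfl⟩).trans hc.le)⟩
  obtain ⟨z, hz⟩ : ∃ z, 4 * (e + 1) + 4 * (c * (e + 1) ^ 2 * m) < z := ⟨_, Nat.lt_succ_self _⟩
  have hz4 : 4 * (e + 1) < z := by omega
  obtain ⟨n, hn⟩ := hJU (z ^ (2 * (e + 1)))
  have hw : 0 < z ^ (2 * e) := Nat.pow_pos (by omega)
  obtain ⟨f, hf, hdet⟩ := WMb_rows (fun σ (i : Fin m) => s σ (x i)) (fun σ i => h0 σ i) (hind m)
    z (2 * z ^ (2 * e)) (by nlinarith) (by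
      rw [hm, pow_succ z, pow_mul z (2 * (e + 1))]
      have h1 : 2 * ((e + 1) * (2 * z ^ (2 * e))) ≤ z ^ (2 * (e + 1)) := by
        have : z ^ (2 * (e + 1)) = z * z * z ^ (2 * e) := by ring
        rw [this]
        have h2 : 4 * (e + 1) ≤ z * z := by nlinarith
        nlinarith
      refine (Nat.pow_le_pow_left h1 _).trans_lt ?_
      have h3 : 0 < (z ^ (2 * (e + 1))) ^ 2 ^ (e + 1 + 1) :=
        Nat.pow_pos (Nat.pow_pos (by omega))
      nlinarith)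
  let s' : Fin (e + 1) → B →+* integralClosure ℤ Om := fun σ =>
    (s σ).codRestrict (integralClosure ℤ Om).toSubring fun b =>
      (Algebra.IsIntegral.isIntegral (R := ℤ) b).map (s σ).toIntAlgHom
  obtain ⟨q, hq⟩ := WMb_dvd t (z ^ (2 * (e + 1))) s' (fun i : Fin m => x i) (fun i => hx i) J n hn
    f (fun (b : Fin (e + 1) → Fin (2 * z ^ (2 * e))) σ => (b σ : ℕ))
  have hq' : (Matrix.of fun r (b : Fin (e + 1) → Fin (2 * z ^ (2 * e))) =>
      ∏ σ, (∏ i : Fin m, s σ (x i) ^ f r i) ^ (b σ : ℕ)).det =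
      (t : Om) ^ (z ^ (2 * (e + 1)) * ((2 * z ^ (2 * e)) ^ (e + 1) -
        (z ^ (2 * (e + 1))) ^ J.card)) * (q : Om) := by
    have h1 := congrArg (algebraMap (integralClosure ℤ Om) Om) hq
    rw [RingHom.map_det, map_mul, map_pow, map_pow, map_natCast, Fintype.card_fun,
      Fintype.card_fin, Fintype.card_fin, ← pow_mul] at h1
    refine Eq.trans ?_ h1
    congr 1
    ext r b
    simp only [Matrix.of_apply, RingHom.mapMatrix_apply, Matrix.map_apply, map_prod, map_pow]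
    rfl
  have hq0 : (q : Om) ≠ 0 := fun h => hdet (by rw [hq', h, mul_zero])
  obtain ⟨τ, hτ⟩ := liouville q q.2 hq0
  have h2 := WMb_size (fun σ (i : Fin m) => τ (s σ (x i))) c (hc τ) _ _ f hf
  have h3 := congrArg τ hq'
  rw [RingHom.map_det, map_mul, map_pow, map_natCast] at h3
  have h4 : τ.mapMatrix (Matrix.of fun r (b : Fin (e + 1) → Fin (2 * z ^ (2 * e))) =>
      ∏ σ, (∏ i : Fin m, s σ (x i) ^ f r i) ^ (b σ : ℕ)) = Matrix.of fun r b =>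
      ∏ σ, (∏ i : Fin m, τ (s σ (x i)) ^ f r i) ^ (b σ : ℕ) := by
    ext r b
    simp only [Matrix.of_apply, RingHom.mapMatrix_apply, Matrix.map_apply, map_prod, map_pow]
  rw [← h4, h3, norm_mul, norm_pow, Complex.norm_natCast, ← pow_mul (2 : ℝ)] at h2
  refine WMb_arith e J.card c m z (by omega) hz ?_
  have h5 : (2 : ℝ) ≤ t := by exact_mod_cast ht
  refine (pow_le_pow_iff_right₀ (one_lt_two (α := ℝ))).1 (le_trans ?_ h2)
  exact (pow_le_pow_left₀ zero_le_two h5 _).trans (le_mul_of_one_le_right (by positivity) hτ)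

theorem wm {B : Type*} [CommRing B] {d : ℕ} (β : Module.Basis (Fin d) ℤ B) (t : ℕ) [Fact t.Prime]
    (ht : t ≠ 2) (s : Fin d → B →+* Om) (x : ℕ → B) (hx : ∀ i, (t : B) ^ 2 ∣ x i - 1)
    (h0 : ∀ σ i, s σ (x i) ≠ 0)
    (hind : ∀ (m : ℕ) (e : Fin d → Fin m → ℤ), ∏ σ, ∏ i : Fin m, s σ (x i) ^ e σ i = 1 → e = 0)
    (lam : B →+ ℚ_[t])
    (hlim : ∀ i, ∀ y : ℕ → B, (∀ k, (t : B) ^ k * y k = x i ^ t ^ k - 1) →
      Tendsto (fun k => lam (y k)) atTop (𝓝 0)) : lam = 0 := by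
  by_contra hlam
  have : Module.Finite ℤ B := Module.Finite.of_basis β
  refine wm_b t (Fact.out : t.Prime).two_le s x
    (fun i => (dvd_pow_self _ two_ne_zero).trans (hx i)) h0 hind (fun m => ?_)
  exact wm_a β t ht lam hlam (fun i : Fin m => x i) (fun i => hx i) (fun i => hlim i)

end Vale.Agent.P024U
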