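import Vale.Agent.P024U.AR
import Vale.Agent.P024U.WMb

/-! Upper bound for invariants and the rigidity theorem.
`ub`: `lamX θ_i` is invariant under `H`, so `[H:W] lamX θ_i y = lamX θ_i (Tr y)` with `Tr y ∈ 𝓞 (fix H)`, free of rank `H.index` (`finrank_fix`); more characters than the rank give a
nontrivial combination vanishing on a basis; `lam_lin`, `lam_inj`.
`rigid`: `H = W ⊔ zpowers φ`, `k = fix H`; discard the primes dividing `t m`; pick an injective sequence `l i` with `P i`, `φ i`; `prime_gen` for `H` and modulus `t^2 m` gives `x i`;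
`ind H (P i) = ind W (P i)`, `deg W (P i) = n`, so `art W θ (dv (x i)) = N θ (φ i ^ n) = 0`.  The embeddings of `k` are the restrictions of coset representatives `g` of `Ga / H`, and
`val (g • P i) (g' (x j)) = N [i = j, gH = g'H]` because `Dec (P i) ≤ H` (`dec_decomp`).  `wm` gives `lamX θ = 0` on `𝓞 k`; then `lam_conj`, `lam_lin`, `lam_inj`
(the sum of `φ^(-j) y`, `j < n`, lies in `𝓞 k`). -/

namespace Vale.Agent.P024U
open NumberField Filter Topology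

variable {t : ℕ} [Fact t.Prime]

/-- inclusion of rings of integers of fixed fields -/
noncomputable def uwIncl {W H : Subgroup Ga} (hle : W ≤ H) : 𝓞 (fix H) →+* 𝓞 (fix W) :=
  RingOfIntegers.mapRingHom
    (IntermediateField.inclusion (IntermediateField.fixedField_le hle)).toRingHom

theorem uwIncl_coe {W H : Subgroup Ga} (hle : W ≤ H) (x : 𝓞 (fix H)) :
    ((uwIncl hle x : fix W) : Om) = ((x : fix H) : Om) := rfl

theorem uw_mk {W : Subgroup Ga} {y : Om} (hy : y ∈ fix W) (hi : IsIntegral ℤ y) :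
    ∃ x : 𝓞 (fix W), ((x : fix W) : Om) = y :=
  ⟨⟨⟨y, hy⟩, (isIntegral_algebraMap_iff (A := fix W) (B := Om) Subtype.val_injective).1 hi⟩, rfl⟩

theorem uw_int {W : Subgroup Ga} (x : 𝓞 (fix W)) : IsIntegral ℤ ((x : fix W) : Om) :=
  (isIntegral_algebraMap_iff (A := fix W) (B := Om) Subtype.val_injective).2 x.2

theorem uw_int_smul (g : Ga) {y : Om} (hi : IsIntegral ℤ y) : IsIntegral ℤ (g y) :=
  hi.map (g.toRingHom.toIntAlgHom)

theorem uw_fix_smul {W : Subgroup Ga} [hn : W.Normal] (g : Ga) {y : Om} (hy : y ∈ fix W) :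
    g y ∈ fix W := by
  refine mem_fix.2 fun w hw => ?_
  have h1 := mem_fix.1 hy _ (hn.conj_mem w hw g⁻¹)
  have e : w * g = g * (g⁻¹ * w * g⁻¹⁻¹) := by group
  rw [← AlgEquiv.mul_apply, e, AlgEquiv.mul_apply, h1]

theorem uw_basis {H : Subgroup Ga} (hH : Op H) :
    Nonempty (Module.Basis (Fin H.index) ℤ (𝓞 (fix H))) := by
  have := numberField_fix hH
  exact ⟨Module.finBasisOfFinrankEq ℤ (𝓞 (fix H))
    ((RingOfIntegers.rank (fix H)).trans (finrank_fix hH))⟩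

/-- a linear form vanishing on the integers of the smaller field kills the traces -/
theorem uw_key (ht : t ≠ 2) {W H : Subgroup Ga} (hW : Op W) [hn : W.Normal] (h4 : W ≤ Gmu 4)
    {m : ℕ} (hm : m ≠ 0) (hu : UnrOut W m) {η : Ga → ℚ_[t]} (hη : IsX W η)
    (h0 : ∀ y : 𝓞 (fix H), lamX W m η ((y : fix H) : Om) = 0) {ι : Type} [Fintype ι] (g : ι → Ga)
    (hg : ∀ y ∈ fix W, ∑ i, (g i)⁻¹ y ∈ fix H) :
    ∀ a ∈ W, ∑ i, η ((g i)⁻¹ * a * g i) = 0 := by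
  have hX : ∀ i, IsX W (fun a => η ((g i)⁻¹ * a * g i)) := fun i =>
    hη.conj (g i) fun a ha => by simpa using hn.conj_mem a ha (g i)⁻¹
  have hS : IsX W (fun a => ∑ i, η ((g i)⁻¹ * a * g i)) := by
    simpa using IsX.lin hX (fun _ => 1)
  refine lam_inj ht hW h4 hm hu hS fun y => ?_
  obtain ⟨lam, hlam, -, -⟩ := lam_spec ht hW h4 hm hu hη
  have hy : ((y : fix W) : Om) ∈ fix W := (y : fix W).2
  have h1 : ∀ i, ∃ x : 𝓞 (fix W), ((x : fix W) : Om) = (g i)⁻¹ ((y : fix W) : Om) := fun i =>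
    uw_mk (uw_fix_smul _ hy) (uw_int_smul _ (uw_int y))
  choose x hx using h1
  obtain ⟨z, hz⟩ := uw_mk (hg _ hy)
    (IsIntegral.sum _ fun i _ => uw_int_smul (g i)⁻¹ (uw_int y))
  rw [lam_lin ht hW h4 hm hu hX (fun _ => 1) (fun a _ => by simp) y, ← h0 z, hz]
  have h2 : ((((∑ i, x i : 𝓞 (fix W))) : fix W) : Om) = ∑ i, (g i)⁻¹ ((y : fix W) : Om) := by
    rw [← coe_incl, map_sum, RingOfIntegers.coe_eq_algebraMap, map_sum]
    exact Finset.sum_congr rfl fun i _ => hx i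
  rw [← h2, ← hlam, map_sum]
  refine Finset.sum_congr rfl fun i _ => ?_
  rw [one_mul, hlam, hx, ← lam_conj hW hu hη (g i) (uw_fix_smul (g i)⁻¹ hy),
    ← AlgEquiv.mul_apply, mul_inv_cancel, AlgEquiv.one_apply]

theorem uw_trace {W H : Subgroup Ga} [Fintype (H ⧸ W.subgroupOf H)] {y : Om} (hy : y ∈ fix W) :
    ∑ c : H ⧸ W.subgroupOf H, ((c.out : H) : Ga) y ∈ fix H := by
  refine mem_fix.2 fun h hh => ?_
  rw [map_sum]
  refine Fintype.sum_equiv (MulAction.toPerm (⟨h, hh⟩ : H)) _ _ fun c => ?_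
  have h1 : ((⟨h, hh⟩ : H) • c).out = (⟨h, hh⟩ : H) • c := QuotientGroup.out_eq' _
  have h2 : (((⟨h, hh⟩ : H) * c.out : H) : H ⧸ W.subgroupOf H) = (⟨h, hh⟩ : H) • c := by
    conv_rhs => rw [← QuotientGroup.out_eq' c]
    rfl
  have h3 := mem_fix.1 hy _ (Subgroup.mem_subgroupOf.1 (QuotientGroup.eq.1 (h2.trans h1.symm)))
  rw [MulAction.toPerm_apply, ← AlgEquiv.mul_apply]
  generalize ((⟨h, hh⟩ : H) • c).out = u at h3
  have e : (u : Ga) = h * (c.out : H) * ((((⟨h, hh⟩ : H) * c.out)⁻¹ * u : H) : Ga) := by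
    simp only [Subgroup.coe_mul, Subgroup.coe_inv, mul_inv_cancel_left]
  rw [e, AlgEquiv.mul_apply (h * ((c.out : H) : Ga)), h3]

theorem ub (ht : t ≠ 2) {W H : Subgroup Ga} (hW : Op W) [W.Normal] (h4 : W ≤ Gmu 4) (hle : W ≤ H)
    {ρ : ℕ} {θ : Fin ρ → Ga → ℚ_[t]} (hθ : ∀ i, IsX W (θ i)) (hind : IndOn W θ)
    (hinv : ∀ i, ∀ h ∈ H, ∀ g ∈ W, θ i (h⁻¹ * g * h) = θ i g) : ρ ≤ H.index := by
  by_contra hlt
  obtain ⟨m, hm, hu⟩ := exists_unrOut hW
  obtain ⟨β⟩ := uw_basis (hW.mono hle)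
  let A : Matrix (Fin H.index) (Fin ρ) ℚ_[t] := fun j i => lamX W m (θ i) ((β j : fix H) : Om)
  have hk : LinearMap.ker A.mulVecLin ≠ ⊥ :=
    LinearMap.ker_ne_bot_of_finrank_lt (by simpa using hlt)
  obtain ⟨c, hc, hc0⟩ := Submodule.exists_mem_ne_zero_of_ne_bot hk
  have hη := IsX.lin hθ c
  obtain ⟨lam, hlam, -, -⟩ := lam_spec ht hW h4 hm hu hη
  have h1 : (lam.comp (uwIncl hle).toAddMonoidHom).toIntLinearMap = 0 := by
    refine β.ext fun j => ?_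
    have h2 := congrFun (LinearMap.mem_ker.1 hc) j
    have h3 := lam_lin ht hW h4 hm hu hθ c (η := fun g => ∑ i, c i * θ i g) (fun _ _ => rfl)
      (uwIncl hle (β j))
    refine (hlam _).trans (h3.trans (Eq.trans ?_ h2))
    exact Finset.sum_congr rfl fun i _ => mul_comm _ _
  have h0 : ∀ y : 𝓞 (fix H), lamX W m (fun g => ∑ i, c i * θ i g) ((y : fix H) : Om) = 0 :=
    fun y => (hlam (uwIncl hle y)).symm.trans (LinearMap.congr_fun h1 y)
  have hfi : (W.subgroupOf H).FiniteIndex := by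
    have : W.FiniteIndex := ⟨hW.index_ne_zero⟩
    infer_instance
  have hft : Fintype (H ⧸ W.subgroupOf H) := Fintype.ofFinite _
  have h5 := uw_key ht hW h4 hm hu hη h0 (fun c : H ⧸ W.subgroupOf H => ((c.out : H) : Ga)⁻¹)
    (fun y hy => by simpa only [inv_inv] using uw_trace hy)
  refine hc0 (funext (hind c fun a ha => ?_))
  have h6 := h5 a ha
  have h7 : ∀ i, ∀ b : H ⧸ W.subgroupOf H,
      θ i (((b.out : H) : Ga)⁻¹⁻¹ * a * ((b.out : H) : Ga)⁻¹) = θ i a := fun i b =>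
    hinv i _ (H.inv_mem b.out.2) a ha
  simp only [h7, Finset.sum_const, Finset.card_univ, nsmul_eq_mul] at h6
  exact (mul_eq_zero.1 h6).resolve_left (Nat.cast_ne_zero.2 Fintype.card_ne_zero)

theorem uw_sum_fix {W : Subgroup Ga} [W.Normal] {φ : Ga} {n : ℕ} (hn : φ ^ n ∈ W) {y : Om}
    (hy : y ∈ fix W) : ∑ j : Fin n, (φ ^ (j : ℕ))⁻¹ y ∈ fix (W ⊔ Subgroup.zpowers φ) := by
  rw [Fin.sum_univ_eq_sum_range (fun j => (φ ^ j)⁻¹ y) n]
  have h1 : ∑ j ∈ Finset.range n, (φ ^ j)⁻¹ y ∈ fix W :=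
    sum_mem fun j _ => uw_fix_smul _ hy
  have h2 : φ⁻¹ (∑ j ∈ Finset.range n, (φ ^ j)⁻¹ y) = ∑ j ∈ Finset.range n, (φ ^ j)⁻¹ y := by
    have h3 := Finset.sum_range_succ (fun j => (φ ^ j)⁻¹ y) n
    rw [Finset.sum_range_succ', mem_fix.1 hy _ (W.inv_mem hn), pow_zero, inv_one,
      AlgEquiv.one_apply, add_left_inj] at h3
    rw [map_sum]
    refine Eq.trans (Finset.sum_congr rfl fun j _ => ?_) h3
    rw [← AlgEquiv.mul_apply, pow_succ, mul_inv_rev]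
  generalize ∑ j ∈ Finset.range n, (φ ^ j)⁻¹ y = S at h1 h2
  have h4 : W ⊔ Subgroup.zpowers φ ≤ MulAction.stabilizer Ga S := by
    refine sup_le (fun w hw => mem_fix.1 h1 w hw) (Subgroup.zpowers_le.2 ?_)
    exact (MulAction.stabilizer Ga S).inv_mem_iff.1 h2
  exact mem_fix.2 fun g hg => h4 hg

theorem uw_dec_le {W : Subgroup Ga} (hW : Op W) {φ ψ : Ga} {P : Pr} (hψ : IsFrob P 1 ψ)
    (hφ : φ⁻¹ * ψ ∈ W) (hI : Ine P ≤ W) : Dec P ≤ W ⊔ Subgroup.zpowers φ := by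
  intro σ hσ
  obtain ⟨k, ρ, hρ, w, hw, -, rfl⟩ := dec_decomp hψ hW hσ
  have h1 : ψ ∈ W ⊔ Subgroup.zpowers φ := by
    have h2 := Subgroup.mul_mem _ (Subgroup.mem_sup_right (S := W) (Subgroup.mem_zpowers φ))
      (Subgroup.mem_sup_left (T := Subgroup.zpowers φ) hφ)
    rwa [mul_inv_cancel_left] at h2
  exact Subgroup.mul_mem _ (Subgroup.mul_mem _ (Subgroup.pow_mem _ h1 k)
    (Subgroup.mem_sup_left (hI hρ))) (Subgroup.mem_sup_left hw)

theorem uw_ind_eq {W : Subgroup Ga} [W.Normal] {φ ψ : Ga} {P : Pr} (hψ : ψ ∈ Dec P)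
    (hφ : φ⁻¹ * ψ ∈ W) : ind (W ⊔ Subgroup.zpowers φ) P = ind W P := by
  have h1 : W ⊔ Subgroup.zpowers φ ≤ W ⊔ Dec P := by
    refine sup_le le_sup_left (Subgroup.zpowers_le.2 ?_)
    have h2 := Subgroup.mul_mem _ (Subgroup.mem_sup_right (S := W) hψ)
      (Subgroup.mem_sup_left (T := Dec P) (W.inv_mem hφ))
    rwa [mul_inv_rev, inv_inv, mul_inv_cancel_left] at h2
  funext Q
  have h3 : (∃ h ∈ W ⊔ Subgroup.zpowers φ, h • P = Q) ↔ ∃ h ∈ W, h • P = Q := by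
    refine ⟨fun ⟨h, hh, e⟩ => ?_, fun ⟨h, hh, e⟩ => ⟨h, Subgroup.mem_sup_left hh, e⟩⟩
    obtain ⟨w, hw, u, hu, rfl⟩ := Subgroup.mem_sup_of_normal_left.1 (h1 hh)
    refine ⟨w, hw, ?_⟩
    rw [← e, mul_smul, mem_Dec.1 hu]
  unfold ind
  by_cases h4 : ∃ h ∈ W, h • P = Q
  · rw [if_pos h4, if_pos (h3.2 h4)]
  · rw [if_neg h4, if_neg fun h5 => h4 (h3.1 h5)]

theorem uw_pow_mem {W : Subgroup Ga} [W.Normal] {φ ψ : Ga} (hφ : φ⁻¹ * ψ ∈ W) (j : ℕ) :
    ψ ^ j ∈ W ↔ φ ^ j ∈ W := by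
  have h1 : (QuotientGroup.mk' W) φ = (QuotientGroup.mk' W) ψ := QuotientGroup.eq.2 hφ
  rw [← QuotientGroup.eq_one_iff, ← QuotientGroup.eq_one_iff]
  change (QuotientGroup.mk' W) (ψ ^ j) = 1 ↔ (QuotientGroup.mk' W) (φ ^ j) = 1
  rw [map_pow, map_pow, h1]

theorem uw_art_ind {W : Subgroup Ga} (hW : Op W) [W.Normal] {θ : Ga → ℚ_[t]} (hθ : IsX W θ)
    {φ ψ : Ga} {n : ℕ} (hn : ∀ j : ℕ, φ ^ j ∈ W ↔ n ∣ j) {P : Pr} (hψ : IsFrob P 1 ψ)
    (hφ : φ⁻¹ * ψ ∈ W) (hI : Ine P ≤ W) (hP : ch P ≠ t) (h0 : θ (ψ ^ n) = 0) :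
    art W θ (ind W P) = 0 := by
  have h1 : IsFrob P (deg W P) (ψ ^ deg W P) := by simpa using hψ.pow (deg W P)
  obtain ⟨h2, h3⟩ := frob_spec hW P
  have h4 : ψ ^ deg W P ∈ W := by
    have h5 := W.mul_mem h2 (hI (h3.inv_mul h1))
    rwa [mul_inv_cancel_left] at h5
  rw [art_ind hW hθ (fun σ hσ hσW => x_unr hW hθ hP hσ hσW) h4 h1]
  obtain ⟨k, hk⟩ := (hn _).1 ((uw_pow_mem hφ _).1 h4)
  rw [hk, pow_mul, hθ.pow ((uw_pow_mem hφ _).2 ((hn n).2 dvd_rfl)), h0, smul_zero]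

theorem uw_dv {W : Subgroup Ga} {M N : ℕ} {P : Pr} (hP : ¬ ch P ∣ M) {x : Om}
    (hx : ∀ Q, val Q x = N * ind W P Q) : dv M x = (N : ℤ) • ind W P := by
  funext Q
  by_cases hQ : ch Q ∣ M
  · have h1 : ¬ ∃ h ∈ W, h • P = Q := by
      rintro ⟨h, -, rfl⟩
      exact hP (ch_smul h P ▸ hQ)
    simp only [dv, ind, hQ, h1, if_true, if_false, Pi.smul_apply, smul_zero]
  · have h1 : val Q x = (((N : ℤ) * ind W P Q : ℤ) : ℚ) := by rw [hx, Int.cast_mul, Int.cast_natCast]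
    simp only [dv, hQ, if_false, h1, Int.floor_intCast, Pi.smul_apply, smul_eq_mul]

/-- multiplicative independence of the conjugates -/
theorem uw_indep {H : Subgroup Ga} {ι κ : Type} [Fintype ι] [Fintype κ] (g : ι → Ga)
    (hg : ∀ σ τ, (g σ)⁻¹ * g τ ∈ H → σ = τ) (P : κ → Pr) (hP : ∀ i j, ch (P i) = ch (P j) → i = j)
    (hD : ∀ i, Dec (P i) ≤ H) (x : κ → Om) (hx0 : ∀ i, x i ≠ 0) (N : κ → ℕ) (hN : ∀ i, N i ≠ 0)
    (hx : ∀ i Q, val Q (x i) = N i * ind H (P i) Q) (e : ι → κ → ℤ)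
    (he : ∏ σ, ∏ i, g σ (x i) ^ e σ i = 1) : e = 0 := by
  classical
  funext τ j
  have h0 : ∀ σ i, g σ (x i) ^ e σ i ≠ 0 := fun σ i =>
    zpow_ne_zero _ ((map_ne_zero (g σ)).2 (hx0 i))
  have h1 := congrArg (val (g τ • P j)) he
  rw [val_one, val_prod _ _ _ fun σ _ => Finset.prod_ne_zero_iff.2 fun i _ => h0 σ i] at h1
  have h2 : ∀ σ i, val (g τ • P j) (g σ (x i) ^ e σ i) =
      if σ = τ then (if i = j then (e τ j * N j : ℚ) else 0) else 0 := by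
    intro σ i
    have e1 : g τ • P j = g σ • ((g σ)⁻¹ * g τ) • P j := by rw [← mul_smul, mul_inv_cancel_left]
    rw [val_zpow, e1, val_smul, hx]
    by_cases hc : ∃ h ∈ H, h • P i = ((g σ)⁻¹ * g τ) • P j
    · obtain ⟨h, hh, e2⟩ := id hc
      have e3 : i = j := hP i j (by rw [← ch_smul h, e2, ch_smul])
      subst e3
      have e4 : h⁻¹ * ((g σ)⁻¹ * g τ) ∈ H :=
        hD i (mem_Dec.2 (by rw [mul_smul, ← e2, inv_smul_smul]))
      have e5 : σ = τ := hg σ τ ((H.mul_mem_cancel_left (H.inv_mem hh)).1 e4)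
      subst e5
      simp only [ind, hc, if_true, Int.cast_one, mul_one]
    · have e2 : ¬ (σ = τ ∧ i = j) := by
        rintro ⟨rfl, rfl⟩
        exact hc ⟨1, H.one_mem, by rw [inv_mul_cancel]⟩
      simp only [ind, hc, if_false, Int.cast_zero, mul_zero]
      by_cases e3 : σ = τ
      · rw [if_pos e3, if_neg fun e4 => e2 ⟨e3, e4⟩]
      · rw [if_neg e3]
  have h3 : ∀ σ, val (g τ • P j) (∏ i, g σ (x i) ^ e σ i) =
      if σ = τ then (e τ j * N j : ℚ) else 0 := by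
    intro σ
    rw [val_prod _ _ _ fun i _ => h0 σ i]
    simp only [h2]
    by_cases e3 : σ = τ
    · simp only [e3, if_true, Finset.sum_ite_eq', Finset.mem_univ]
    · simp only [e3, if_false, Finset.sum_const_zero]
  simp only [h3, Finset.sum_ite_eq', Finset.mem_univ, if_true] at h1
  exact Int.cast_eq_zero.1 ((mul_eq_zero.1 h1).resolve_right (Nat.cast_ne_zero.2 (hN j)))

theorem rigid (ht : t ≠ 2) {W : Subgroup Ga} (hW : Op W) [W.Normal] (h4 : W ≤ Gmu 4)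
    {θ : Ga → ℚ_[t]} (hθ : IsX W θ) (φ : Ga) {n : ℕ} (hn : ∀ j : ℕ, φ ^ j ∈ W ↔ n ∣ j)
    (h : {l | ∃ (P : Pr) (ψ : Ga), ch P = l ∧ IsFrob P 1 ψ ∧ φ⁻¹ * ψ ∈ W ∧ θ (ψ ^ n) = 0}.Infinite) :
    ∀ g ∈ W, ∑ j ∈ Finset.range n, θ ((φ ^ j)⁻¹ * g * φ ^ j) = 0 := by
  obtain ⟨m, hm, hu⟩ := exists_unrOut hW
  have ht0 : t ≠ 0 := (Fact.out : t.Prime).ne_zero
  have hM : t ^ 2 * m ≠ 0 := mul_ne_zero (pow_ne_zero 2 ht0) hm
  have hfin : {l : ℕ | l ∣ t ^ 2 * m}.Finite :=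
    (Set.finite_Iic _).subset fun l hl => Nat.le_of_dvd (Nat.pos_of_ne_zero hM) hl
  have hinf := h.sdiff hfin
  have h1 : ∀ i : ℕ, ∃ (P : Pr) (ψ : Ga), ch P = (hinf.natEmbedding _ i : ℕ) ∧ IsFrob P 1 ψ ∧
      φ⁻¹ * ψ ∈ W ∧ θ (ψ ^ n) = 0 := fun i => (hinf.natEmbedding _ i).2.1
  choose P ψ hP hψ hφ h0 using h1
  have hP1 : ∀ i, ¬ ch (P i) ∣ t ^ 2 * m := fun i => by
    rw [hP]
    exact (hinf.natEmbedding _ i).2.2
  have hP2 : ∀ i j, ch (P i) = ch (P j) → i = j := fun i j hij => by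
    rw [hP, hP] at hij
    exact (hinf.natEmbedding _).injective (Subtype.ext hij)
  have hP3 : ∀ i, ¬ ch (P i) ∣ t * m := fun i hd =>
    hP1 i (hd.trans (mul_dvd_mul_right (dvd_pow_self t two_ne_zero) m))
  have hP4 : ∀ i, ch (P i) ≠ t := fun i hd => hP3 i (hd ▸ dvd_mul_right _ _)
  have hI : ∀ i, Ine (P i) ≤ W := fun i => hu _ fun hd => hP3 i (hd.mul_left t)
  obtain ⟨H, hH⟩ : ∃ H, H = W ⊔ Subgroup.zpowers φ := ⟨_, rfl⟩
  have hle : W ≤ H := hH ▸ le_sup_left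
  have hHo : Op H := hW.mono hle
  have hD : ∀ i, Dec (P i) ≤ H := fun i => hH ▸ uw_dec_le hW (hψ i) (hφ i) (hI i)
  have hind : ∀ i, ind H (P i) = ind W (P i) := fun i => hH ▸ uw_ind_eq (hψ i).mem_Dec (hφ i)
  choose x N hN hx0 hx1 hx using fun i => prime_gen hHo (t ^ 2 * m) hM (P i) (hP1 i)
  obtain ⟨β⟩ := uw_basis hHo
  have hfi : H.FiniteIndex := ⟨hHo.index_ne_zero⟩
  have q : (Ga ⧸ H) ≃ Fin H.index := Finite.equivFinOfCardEq rfl
  obtain ⟨lam, hlam, -, hlim⟩ := lam_spec ht hW h4 hm hu hθ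
  have hx2 : ∀ i, (((x i : 𝓞 (fix H)) : fix H) : Om) ≠ 0 := fun i e =>
    hx0 i (RingOfIntegers.ext (Subtype.ext e))
  have h5 : lam.comp (uwIncl hle).toAddMonoidHom = 0 := by
    refine wm β t ht (fun σ => ((q.symm σ).out : Ga).toRingEquiv.toRingHom.comp
      ((algebraMap Oi Om).comp (incl H))) x (fun i => ?_) (fun σ i => ?_) (fun k e he => ?_) _
      (fun i y hy => ?_)
    · refine dvd_trans ?_ (hx1 i)
      rw [Nat.cast_mul, Nat.cast_pow]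
      exact dvd_mul_right _ _
    · exact (map_ne_zero ((q.symm σ).out : Ga)).2 (hx2 i)
    · refine uw_indep (H := H) (fun σ => (q.symm σ).out) (fun σ τ hστ => ?_)
        (fun i : Fin k => P i) (fun i j hij => Fin.ext (hP2 _ _ hij)) (fun i => hD i)
        (fun i => ((x i : fix H) : Om)) (fun i => hx2 i) (fun i => N i) (fun i => hN i)
        (fun i => hx i) e he
      have e1 := QuotientGroup.eq.2 hστ
      rw [QuotientGroup.out_eq', QuotientGroup.out_eq'] at e1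
      exact q.symm.injective e1
    · have e1 : (t * m : 𝓞 (fix W)) ∣ uwIncl hle (x i) - 1 := by
        have e2 := map_dvd (uwIncl hle) (hx1 i)
        rw [map_natCast, map_sub, map_one, Nat.cast_mul, Nat.cast_pow] at e2
        exact (mul_dvd_mul_right (dvd_pow_self _ two_ne_zero) _).trans e2
      have e2 := hlim _ e1 (fun k => uwIncl hle (y k)) fun k => by
        have e3 := congrArg (uwIncl hle) (hy k)
        rwa [map_mul, map_pow, map_natCast, map_sub, map_pow, map_one] at e3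
      have e3 : art W θ (dv (t * m) ((uwIncl hle (x i) : fix W) : Om)) = 0 := by
        have e4 := uw_art_ind hW hθ hn (hψ i) (hφ i) (hI i) (hP4 i) (h0 i)
        rw [uwIncl_coe, uw_dv (W := W) (hP3 i) (fun Q => by rw [hx, hind]), art,
          lift_zsmul hW _ (ind_mem W (hP3 i))]
        rw [art] at e4
        rw [e4, smul_zero]
      rwa [e3] at e2
  have h6 : ∀ y : 𝓞 (fix H), lamX W m θ ((y : fix H) : Om) = 0 := fun y =>
    (hlam (uwIncl hle y)).symm.trans (DFunLike.congr_fun h5 y)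
  intro g hg
  rw [← Fin.sum_univ_eq_sum_range (fun j => θ ((φ ^ j)⁻¹ * g * φ ^ j)) n]
  exact uw_key ht hW h4 hm hu hθ h6 (fun j : Fin n => φ ^ (j : ℕ))
    (fun y hy => hH ▸ uw_sum_fix ((hn n).2 dvd_rfl) hy) g hg

end Vale.Agent.P024U
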