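import Vale.Agent.P024U.CApi
import Vale.Agent.P024U.UW
import Vale.Agent.P024U.LB

/-! Construction of the embedding.  `final_level`: `U = im W ≤ Gmu 4 ⊓ Gmu t`, `W2` = normal core of `W ⊓ U`.  For each `l` of `HitT` at `W2` (`l ≠ t`) pick `g` with `g • Q = P` (`trans_ch`); pigeonhole on `g W2`.
For `θ` a character of `U`: `pull θ φ = θ τ = θ ψ` (`x_prop` with `kap`, `kap τ = kap φ = kap ψ ≠ 0` by `IsFrob.chi`) `= θ (g⁻¹ φ g)` (`IsFrob.conj`, `IsFrob.inv_mul`, `x_unr`).  `rigid` with `φ = 1`, `n = 1`: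
`pull θ x = θ (g⁻¹ x g)` on `W2`.  For `(σ, s) ∈ R` apply this to `θ` and `θ (s⁻¹ · s)`: `θ (ρ⁻¹ y ρ) = θ y` on `W2` for `ρ = g⁻¹ σ⁻¹ g s`.  With `lb_one` for `U`, `IndOn.of_op`, and `ub` for
`H = U ⊔ zpowers ρ` (the invariance condition defines a subgroup): `ρ0 + 1 ≤ H.index`; if `ρ ∉ U` then `2 H.index ≤ U.index = 2 ρ0`.
`final`: `exists_forall_op`, `mem_N2_of_forall`. -/

namespace Vale.Agent.P024U
namespace Corr
variable (c : Corr) {t : ℕ} [Fact t.Prime]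

omit c in
theorem Final_frob (ht : t ≠ 2) {U : Subgroup Ga} (hU : Op U) {θ : Ga → ℚ_[t]} (hθ : IsX U θ)
    {P Q : Pr} {φ ψ τ g : Ga} (hP : ch P ≠ t) (hφ : IsFrob P 1 φ) (hψ : IsFrob Q 1 ψ)
    (hψU : ψ ∈ U) (hτU : τ ∈ U) (hτ : τ ∈ Dec Q) (hk : kap t τ = kap t φ) (hg : g • Q = P)
    (hgU : g⁻¹ * φ * g ∈ U) : θ τ = θ (g⁻¹ * φ * g) := by
  have hPQ : ch P = ch Q := by rw [← hg, ch_smul]
  have hQ : ch Q ≠ t := hPQ ▸ hP
  have e1 := hφ.chi t hP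
  have e2 := hψ.chi t hQ
  have e3 : kap t φ = kap t ψ := by
    unfold kap
    rw [Units.ext (e1.trans (hPQ ▸ e2.symm))]
  have e4 : kap t ψ ≠ 0 :=
    kap_ne_zero_of_nat ht ψ _ (by rw [pow_one]; exact (ch_prime Q).two_le) e2
  have e5 := x_prop hU hθ (isX_kap ht U) hQ hτ hτU hψ.mem_Dec hψU
  rw [hk, e3] at e5
  have e6 := mul_right_cancel₀ e4 e5
  have h7 := hφ.conj g⁻¹
  rw [← hg, inv_smul_smul, inv_inv] at h7
  have e8 := x_unr hU hθ hQ (hψ.inv_mul h7) (U.mul_mem (U.inv_mem hψU) hgU)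
  rw [hθ.2 _ (U.inv_mem hψU) _ hgU, hθ.inv hψU] at e8
  rw [e6]
  exact neg_add_eq_zero.1 e8

theorem Final_match (ht : t ≠ 2) (h : c.HitT t) {W : Subgroup Ga} (hW : Op W)
    (h4 : W ≤ Gmu 4) (hG1 : W ≤ c.G1) :
    ∃ V : Subgroup Ga, Op V ∧ V.Normal ∧ V ≤ W ∧ V ≤ c.im W ∧ ∃ g : Ga,
      ∀ θ : Ga → ℚ_[t], IsX (c.im W) θ → ∀ x ∈ V, ∀ τ, (x, τ) ∈ c.R → θ τ = θ (g⁻¹ * x * g) := by
  have hU : Op (c.im W) := c.op_im hW
  obtain ⟨V, hV, hVn, hVW, hVU⟩ : ∃ V : Subgroup Ga, Op V ∧ V.Normal ∧ V ≤ W ∧ V ≤ c.im W :=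
    ⟨(W ⊓ c.im W).normalCore, (hW.inf hU).normalCore, inferInstance,
      (Subgroup.normalCore_le _).trans inf_le_left, (Subgroup.normalCore_le _).trans inf_le_right⟩
  refine ⟨V, hV, hVn, hVW, hVU, ?_⟩
  have hfin : Finite (Ga ⧸ V) := Subgroup.index_ne_zero_iff_finite.1 hV.index_ne_zero
  obtain ⟨q, hq⟩ : ∃ q : Ga ⧸ V, {l | ∃ (P Q : Pr) (φ ψ τ g : Ga), ch P = l ∧ IsFrob P 1 φ ∧
      IsFrob Q 1 ψ ∧ φ ∈ V ∧ ψ ∈ V ∧ (φ, τ) ∈ c.R ∧ τ ∈ Dec Q ∧ kap t τ = kap t φ ∧ g • Q = P ∧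
      (g : Ga ⧸ V) = q}.Infinite := by
    by_contra hn
    simp only [not_exists, Set.not_infinite] at hn
    refine h V hV hVn ((Set.finite_iUnion hn).subset ?_)
    rintro l ⟨P, Q, φ, ψ, τ, h1, h2, h3, h5, h6, h7, h8, h9, h10⟩
    obtain ⟨g, hg⟩ := trans_ch Q P (h2.trans h1.symm)
    exact Set.mem_iUnion.2 ⟨g, P, Q, φ, ψ, τ, g, h1, h3, h5, h6, h7, h8, h9, h10, hg, rfl⟩
  obtain ⟨g0, rfl⟩ := QuotientGroup.mk_surjective q
  have hc : ∀ a : Ga, ∀ x ∈ V, a⁻¹ * x * a ∈ V := fun a x hx => hVn.conj_mem' x hx a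
  refine ⟨g0, fun θ hθ x hx τ hR => ?_⟩
  have hX : IsX V (fun a => c.pull θ a - θ (g0⁻¹ * a * g0)) :=
    ((c.isX_pull hW.cl hG1 hθ).mono hVW).sub (hθ.conj g0 fun a ha => hVU (hc g0 a ha))
  have key := rigid ht hV (hVW.trans h4) hX 1 (n := 1) (fun j => by simp) (by
    refine (hq.sdiff (Set.finite_singleton t)).mono ?_
    rintro l ⟨⟨P, Q, φ, ψ, τ', g, h1, h2, h3, h5, h6, h7, h8, h9, h10, h11⟩, hl⟩
    refine ⟨P, φ, h1, h2, by simpa using h5, ?_⟩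
    have hw : g⁻¹ * g0 ∈ V := QuotientGroup.eq.1 h11
    have e1 := Final_frob ht hU hθ (h1 ▸ hl) h2 h3 (hVU h6) (c.mem_im.2 ⟨φ, hVW h5, h7⟩) h8 h9 h10
      (hVU (hc g φ h5))
    have e2 := hθ.conj_self (hVU hw) (hVU (hc g φ h5))
    have e3 : (g⁻¹ * g0)⁻¹ * (g⁻¹ * φ * g) * (g⁻¹ * g0) = g0⁻¹ * φ * g0 := by group
    rw [e3] at e2
    rw [pow_one, c.pull_eq hθ (hVW h5) h7, e1, e2, sub_self]) x hx
  rw [Finset.sum_range_one, pow_zero, inv_one, one_mul, mul_one, c.pull_eq hθ (hVW hx) hR] at key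
  exact sub_eq_zero.1 key

omit c in
theorem Final_mem (ht : t ≠ 2) {U V : Subgroup Ga} (hU : Op U) (hUle : U ≤ Gmu 4 ⊓ Gmu t)
    (hV : Op V) [hVn : V.Normal] (hVU : V ≤ U) {ρ : Ga}
    (hinv : ∀ θ : Ga → ℚ_[t], IsX U θ → ∀ y ∈ V, θ (ρ⁻¹ * y * ρ) = θ y) : ρ ∈ U := by
  have h4 : U ≤ Gmu 4 := hUle.trans inf_le_left
  obtain ⟨k, hk⟩ := index_even h4
  obtain ⟨θ, hθ, hind, -⟩ := lb_one ht hU h4 hk
  have e : U ⊓ Gmu t = U := inf_eq_left.2 (hUle.trans inf_le_right)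
  rw [e] at hθ hind
  let K : Subgroup Ga :=
    { carrier := {a | ∀ i, ∀ y ∈ V, θ i (a⁻¹ * y * a) = θ i y}
      one_mem' := fun i y _ => by rw [inv_one, one_mul, mul_one]
      mul_mem' := fun {a b} ha hb i y hy => by
        have e1 : (a * b)⁻¹ * y * (a * b) = b⁻¹ * (a⁻¹ * y * a) * b := by group
        rw [e1, hb i _ (hVn.conj_mem' y hy a), ha i y hy]
      inv_mem' := fun {a} ha i y hy => by
        have e1 : a⁻¹ * (a⁻¹⁻¹ * y * a⁻¹) * a = y := by group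
        rw [← ha i _ (hVn.conj_mem' y hy a⁻¹), e1] }
  have hUK : U ≤ K := fun a ha i y hy => (hθ i).conj_self ha (hVU hy)
  have hρ : ρ ∈ K := fun i y hy => hinv _ (hθ i) y hy
  have hub : k + 1 ≤ K.index := ub ht hV (hVU.trans h4) (hVU.trans hUK)
    (fun i => (hθ i).mono hVU) (hind.of_op hθ hV hVU) fun i a ha y hy => ha i y hy
  by_contra hn
  have h1 := Subgroup.relIndex_mul_index hUK
  have h2 : U.relIndex K ≠ 1 := fun h => hn (Subgroup.relIndex_eq_one.1 h hρ)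
  have h3 : U.relIndex K ≠ 0 := fun h => hU.index_ne_zero (by rw [← h1, h, zero_mul])
  have h5 : 2 * K.index ≤ U.relIndex K * K.index := Nat.mul_le_mul_right _ (by omega)
  omega

theorem final_level (ht : t ≠ 2) (h : c.HitT t) {W : Subgroup Ga} (hW : Op W) [W.Normal]
    (h4 : W ≤ Gmu 4) (hle : W ≤ c.pre (Gmu 4 ⊓ Gmu t)) :
    ∃ g : Ga, ∀ σ s, (σ, s) ∈ c.R → g⁻¹ * σ⁻¹ * g * s ∈ c.im W := by
  have ht0 : t ≠ 0 := (Fact.out : t.Prime).ne_zero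
  have hU : Op (c.im W) := c.op_im hW
  have hUle : c.im W ≤ Gmu 4 ⊓ Gmu t :=
    c.im_le_of_le_pre (le_inf (c.N2_le_Gmu (by norm_num)) (c.N2_le_Gmu ht0)) hle
  have hG1 : W ≤ c.G1 := hle.trans (c.pre_le_G1 _)
  obtain ⟨V, hV, hVn, hVW, hVU, g, hg⟩ := c.Final_match ht h hW h4 hG1
  refine ⟨g, fun σ s hR => ?_⟩
  have hinv : ∀ θ : Ga → ℚ_[t], IsX (c.im W) θ → ∀ y ∈ V,
      θ ((g⁻¹ * σ⁻¹ * g * s)⁻¹ * y * (g⁻¹ * σ⁻¹ * g * s)) = θ y := by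
    intro θ hθ y hy
    have hx : σ * g * y * (σ * g)⁻¹ ∈ V := hVn.conj_mem y hy _
    have hx' : g * y * g⁻¹ ∈ V := hVn.conj_mem y hy _
    obtain ⟨τ, hτ⟩ := c.mem_G1.1 (hG1 (hVW hx))
    have hs : IsX (c.im W) (fun a => θ (s⁻¹ * a * s)) := by
      refine hθ.conj s fun a ha => ?_
      have := c.conj_mem_im (A := W) (c.R.inv_mem hR)
        (fun x hx => (inferInstance : W.Normal).conj_mem x hx _) ha
      simpa using this
    have e1 := hg _ hs _ hx τ hτ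
    have hR' : (g * y * g⁻¹, s⁻¹ * τ * s) ∈ c.R := by
      have := c.R.mul_mem (c.R.mul_mem (c.R.inv_mem hR) hτ) hR
      simpa [mul_assoc] using this
    have e2 := hg _ hθ _ hx' _ hR'
    rw [e2] at e1
    have e3 : g⁻¹ * (g * y * g⁻¹) * g = y := by group
    have e4 : s⁻¹ * (g⁻¹ * (σ * g * y * (σ * g)⁻¹) * g) * s =
        (g⁻¹ * σ⁻¹ * g * s)⁻¹ * y * (g⁻¹ * σ⁻¹ * g * s) := by group
    rw [e3, e4] at e1
    exact e1.symm
  exact Final_mem ht hU hUle hV hVU hinv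

omit c in
theorem Final_closed {G : Type*} [Group G] [TopologicalSpace G] [IsTopologicalGroup G]
    (R : Set (G × G)) {S : Set G} (hS : IsClosed S) :
    IsClosed {g | ∀ σ s, (σ, s) ∈ R → g⁻¹ * σ⁻¹ * g * s ∈ S} := by
  simp only [Set.ofPred_forall]
  refine isClosed_iInter fun σ => isClosed_iInter fun s => isClosed_iInter fun _ => ?_
  have hc : Continuous fun g : G => g⁻¹ * σ⁻¹ * g * s := by fun_prop
  exact hS.preimage hc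

theorem final (ht : t ≠ 2) (h : c.HitT t) : ∃ j : Ga, ∀ σ ∈ c.G1, (σ, j⁻¹ * σ * j) ∈ c.R := by
  have ht0 : t ≠ 0 := (Fact.out : t.Prime).ne_zero
  have h4 : Op (Gmu 4) := op_Gmu (by norm_num)
  have h0 : Op (Gmu 4 ⊓ c.pre (Gmu 4 ⊓ Gmu t)) := h4.inf (c.op_pre (h4.inf (op_Gmu ht0)))
  obtain ⟨g, hg⟩ := exists_forall_op _ h0
    (fun W => {g | ∀ σ s, (σ, s) ∈ c.R → g⁻¹ * σ⁻¹ * g * s ∈ c.im W})
    (fun W hW _ _ => Final_closed (c.R : Set (Ga × Ga)) (c.cl_im hW.cl))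
    (fun W hW _ hle => c.final_level ht h hW (hle.trans inf_le_left) (hle.trans inf_le_right))
    (fun W W' _ _ _ _ _ hle g hg σ s hR => c.im_mono hle (hg σ s hR))
  refine ⟨g, fun σ hσ => ?_⟩
  obtain ⟨s, hR⟩ := c.mem_G1.1 hσ
  have h1 : g⁻¹ * σ⁻¹ * g * s ∈ c.N2 :=
    c.mem_N2_of_forall ⊤ _ isClosed_univ h0 fun W hW hn hle => by
      rw [top_inf_eq]
      exact hg W hW hn hle σ s hR
  have := c.R.mul_mem hR (c.R.inv_mem (c.mem_N2.1 h1))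
  simpa [mul_assoc] using this

end Corr
end Vale.Agent.P024U
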