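import Mathlib

/-! Herbrand quotient lemma (Lang, q-lemma).  `hq f g = [ker f : im g]`.
Factor `π` through its range and prove: (1) for `B' ≤ B` of finite index stable under f, g and
(2) for a quotient by a finite stable subgroup.  Basic identity for `A' ≤ A` of finite index:
`[A : A'] = [f A : f A'] [ker f : ker f ∩ A']`. -/

namespace Vale.Agent.P024U

/-- index of the image of `g` in the kernel of `f` (zero if infinite) -/
noncomputable def hq {A : Type*} [AddCommGroup A] (f g : AddMonoid.End A) : ℕ :=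
  (AddMonoidHom.range (g : A →+ A)).relIndex (AddMonoidHom.ker (f : A →+ A))

/-- the norm element -/
def nrm {A : Type*} [AddCommGroup A] (s : AddMonoid.End A) (n : ℕ) : AddMonoid.End A :=
  ∑ i ∈ Finset.range n, s ^ i

/-- `π` identifies `A × ℤ` with a free module over the group ring of a cyclic group of order `N`,
up to finite groups -/
structure PermHom {A : Type*} [AddCommGroup A] (s : AddMonoid.End A) (N ρ : ℕ)
    (π : A × ℤ →+ (Fin ρ × ZMod N → ℤ)) : Prop where
  equi : ∀ a k j i, π (s a, k) (j, i + 1) = π (a, k) (j, i)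
  ker : Finite π.ker
  coker : π.range.FiniteIndex

theorem HQ_basic {B : Type*} [AddCommGroup B] (f : B →+ B) (C : AddSubgroup B) :
    (C.map f).relIndex f.range * C.relIndex f.ker = C.index := by
  rw [AddMonoidHom.range_eq_map, AddSubgroup.relIndex_map_map, top_sup_eq,
    AddSubgroup.relIndex_top_right, ← AddSubgroup.relIndex_sup_left f.ker C, mul_comm]
  exact AddSubgroup.relIndex_mul_index le_sup_left

theorem HQ_step1 {B : Type*} [AddCommGroup B] (f g : B →+ B) (C : AddSubgroup B)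
    (hfg : g.range ≤ f.ker) (hC : C.map g ≤ C) :
    (C.map g).relIndex g.range * g.range.relIndex f.ker =
      (C.map g).relIndex (C ⊓ f.ker) * C.relIndex f.ker := by
  have h1 : C.map g ≤ g.range := AddSubgroup.map_le_range g C
  rw [AddSubgroup.relIndex_mul_relIndex _ _ _ h1 hfg, ← AddSubgroup.inf_relIndex_right C f.ker,
    AddSubgroup.relIndex_mul_relIndex _ _ _ (le_inf hC (h1.trans hfg)) inf_le_right]

theorem HQ_card {A : Type*} [AddCommGroup A] (R K : AddSubgroup A) :
    Nat.card (R ⊓ K : AddSubgroup A) * R.relIndex K = Nat.card K := by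
  rw [← AddSubgroup.relIndex_bot_left, ← AddSubgroup.relIndex_bot_left,
    ← AddSubgroup.inf_relIndex_right R K]
  exact AddSubgroup.relIndex_mul_relIndex _ _ _ bot_le inf_le_right

theorem HQ_step2 {A B : Type*} [AddCommGroup A] [AddCommGroup B] (fA gA : A →+ A)
    (fB gB : B →+ B) (hA : gA.range ≤ fA.ker) (hB : gB.range ≤ fB.ker) (π : A →+ B)
    (hf : ∀ a, π (fA a) = fB (π a)) (hg : ∀ a, π (gA a) = gB (π a)) :
    gA.range.relIndex π.ker * (π.range.map gB).relIndex (π.range ⊓ fB.ker) =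
      gA.range.relIndex fA.ker * Nat.card (fA.range ⊓ π.ker : AddSubgroup A) := by
  have e1 : π.range.map gB = gA.range.map π := by
    ext b
    simp only [AddSubgroup.mem_map, AddMonoidHom.mem_range]
    constructor
    · rintro ⟨_, ⟨a, rfl⟩, rfl⟩
      exact ⟨_, ⟨a, rfl⟩, hg a⟩
    · rintro ⟨_, ⟨a, rfl⟩, rfl⟩
      exact ⟨_, ⟨a, rfl⟩, (hg a).symm⟩
  have e2 : fB.ker.comap π = π.ker.comap fA := by
    ext a
    simp only [AddSubgroup.mem_comap, AddMonoidHom.mem_ker, hf]
  have l1 : gA.range ⊔ π.ker ≤ fB.ker.comap π := by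
    refine sup_le ?_ ?_
    · rintro _ ⟨a, rfl⟩
      rw [AddSubgroup.mem_comap, hg]
      exact hB ⟨_, rfl⟩
    · intro a ha
      rw [AddSubgroup.mem_comap, AddMonoidHom.mem_ker, (AddMonoidHom.mem_ker).1 ha, map_zero]
  have l2 : fA.ker ≤ π.ker.comap fA := by
    intro a ha
    rw [AddSubgroup.mem_comap, AddMonoidHom.mem_ker, (AddMonoidHom.mem_ker).1 ha, map_zero]
  rw [e1, ← AddSubgroup.map_comap_eq, ← AddSubgroup.relIndex_comap, AddSubgroup.comap_map_eq,
    ← AddSubgroup.relIndex_sup_left π.ker gA.range,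
    AddSubgroup.relIndex_mul_relIndex _ _ _ le_sup_left l1, ← AddSubgroup.map_comap_eq,
    ← AddSubgroup.relIndex_ker, AddSubgroup.relIndex_mul_relIndex _ _ _ hA l2, e2]

theorem HQ_le {A : Type*} [AddCommGroup A] (f g : AddMonoid.End A) (h : f * g = 0) :
    AddMonoidHom.range (g : A →+ A) ≤ AddMonoidHom.ker (f : A →+ A) := by
  rintro _ ⟨a, rfl⟩
  have := DFunLike.congr_fun h a
  exact this

theorem hq_inv {A B : Type*} [AddCommGroup A] [AddCommGroup B] (fA gA : AddMonoid.End A)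
    (fB gB : AddMonoid.End B) (hA1 : fA * gA = 0) (hA2 : gA * fA = 0) (hB1 : fB * gB = 0)
    (hB2 : gB * fB = 0) (π : A →+ B) (hf : ∀ a, π (fA a) = fB (π a))
    (hg : ∀ a, π (gA a) = gB (π a)) (hk : Finite π.ker) (hr : π.range.FiniteIndex)
    (h1 : hq fB gB ≠ 0) (h2 : hq gB fB ≠ 0) :
    hq fA gA ≠ 0 ∧ hq gA fA ≠ 0 ∧ hq fA gA * hq gB fB = hq fB gB * hq gA fA := by
  have sf : π.range.map (fB : B →+ B) ≤ π.range := by
    rintro _ ⟨_, ⟨a, rfl⟩, rfl⟩
    exact ⟨_, hf a⟩
  have sg : π.range.map (gB : B →+ B) ≤ π.range := by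
    rintro _ ⟨_, ⟨a, rfl⟩, rfl⟩
    exact ⟨_, hg a⟩
  have b1 := HQ_basic (fB : B →+ B) π.range
  have b2 := HQ_basic (gB : B →+ B) π.range
  have s1 := HQ_step1 (fB : B →+ B) (gB : B →+ B) π.range (HQ_le _ _ hB1) sg
  have s2 := HQ_step1 (gB : B →+ B) (fB : B →+ B) π.range (HQ_le _ _ hB2) sf
  have t1 := HQ_step2 (fA : A →+ A) (gA : A →+ A) (fB : B →+ B) (gB : B →+ B) (HQ_le _ _ hA1)
    (HQ_le _ _ hB1) π hf hg
  have t2 := HQ_step2 (gA : A →+ A) (fA : A →+ A) (gB : B →+ B) (fB : B →+ B) (HQ_le _ _ hA2)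
    (HQ_le _ _ hB2) π hg hf
  have c1 := HQ_card (AddMonoidHom.range (fA : A →+ A)) π.ker
  have c2 := HQ_card (AddMonoidHom.range (gA : A →+ A)) π.ker
  have hN : π.range.index ≠ 0 := hr.index_ne_zero
  have hK : Nat.card π.ker ≠ 0 := Nat.card_pos.ne'
  unfold hq at *
  generalize (AddMonoidHom.range (gA : A →+ A)).relIndex (AddMonoidHom.ker (fA : A →+ A)) = a0 at *
  generalize (AddMonoidHom.range (fA : A →+ A)).relIndex (AddMonoidHom.ker (gA : A →+ A)) = a1 at *
  generalize (AddMonoidHom.range (gB : B →+ B)).relIndex (AddMonoidHom.ker (fB : B →+ B)) = x0 at *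
  generalize (AddMonoidHom.range (fB : B →+ B)).relIndex (AddMonoidHom.ker (gB : B →+ B)) = x1 at *
  generalize (π.range.map (gB : B →+ B)).relIndex
    (π.range ⊓ AddMonoidHom.ker (fB : B →+ B)) = y0 at *
  generalize (π.range.map (fB : B →+ B)).relIndex
    (π.range ⊓ AddMonoidHom.ker (gB : B →+ B)) = y1 at *
  generalize (π.range.map (gB : B →+ B)).relIndex (AddMonoidHom.range (gB : B →+ B)) = ug at *
  generalize (π.range.map (fB : B →+ B)).relIndex (AddMonoidHom.range (fB : B →+ B)) = uf at *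
  generalize π.range.relIndex (AddMonoidHom.ker (fB : B →+ B)) = vf at *
  generalize π.range.relIndex (AddMonoidHom.ker (gB : B →+ B)) = vg at *
  generalize (AddMonoidHom.range (gA : A →+ A)).relIndex π.ker = rg at *
  generalize (AddMonoidHom.range (fA : A →+ A)).relIndex π.ker = rf at *
  generalize Nat.card (AddMonoidHom.range (gA : A →+ A) ⊓ π.ker : AddSubgroup A) = kg at *
  generalize Nat.card (AddMonoidHom.range (fA : A →+ A) ⊓ π.ker : AddSubgroup A) = kf at *
  generalize Nat.card π.ker = k at *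
  generalize π.range.index = N at *
  have huf : uf ≠ 0 := fun h => hN (by rw [← b1, h, zero_mul])
  have hug : ug ≠ 0 := fun h => hN (by rw [← b2, h, zero_mul])
  have hrf : rf ≠ 0 := fun h => hK (by rw [← c1, h, mul_zero])
  have hrg : rg ≠ 0 := fun h => hK (by rw [← c2, h, mul_zero])
  have hy0 : y0 ≠ 0 := fun h => mul_ne_zero hug h1 (by rw [s1, h, zero_mul])
  have hy1 : y1 ≠ 0 := fun h => mul_ne_zero huf h2 (by rw [s2, h, zero_mul])
  have ha0 : a0 ≠ 0 := fun h => mul_ne_zero hrg hy0 (by rw [t1, h, zero_mul])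
  have ha1 : a1 ≠ 0 := fun h => mul_ne_zero hrf hy1 (by rw [t2, h, zero_mul])
  refine ⟨ha0, ha1, ?_⟩
  have e1 : y0 * x1 = x0 * y1 := by
    apply Nat.eq_of_mul_eq_mul_left (Nat.pos_of_ne_zero hN)
    calc N * (y0 * x1) = (y0 * vf) * (uf * x1) := by rw [← b1]; ring
      _ = (ug * x0) * (y1 * vg) := by rw [← s1, s2]
      _ = N * (x0 * y1) := by rw [← b2]; ring
  have e2 : a0 * y1 = y0 * a1 := by
    apply Nat.eq_of_mul_eq_mul_left (Nat.pos_of_ne_zero hK)
    calc k * (a0 * y1) = (a0 * kf) * (rf * y1) := by rw [← c1]; ring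
      _ = (rg * y0) * (a1 * kg) := by rw [← t1, t2]
      _ = k * (y0 * a1) := by rw [← c2]; ring
  apply Nat.eq_of_mul_eq_mul_left (Nat.pos_of_ne_zero hy1)
  calc y1 * (a0 * x1) = (a0 * y1) * x1 := by ring
    _ = (y0 * x1) * a1 := by rw [e2]; ring
    _ = y1 * (x0 * a1) := by rw [e1]; ring

end Vale.Agent.P024U
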