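import Vale.Agent.P024U.Kmap

/-! The subgroup on which source and target act in the same way on roots of unity, and pairs of
Kummer generators. -/

namespace Vale.Agent.P024U
namespace Corr
variable (c : Corr) (r : ℕ) [Fact r.Prime]

/-- elements whose images have the same cyclotomic character -/
def hbW : Subgroup Ga where
  carrier := {σ | ∃ τ, (σ, τ) ∈ c.R ∧ chi r τ = chi r σ}
  one_mem' := ⟨1, c.R.one_mem, rfl⟩
  mul_mem' := by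
    rintro a b ⟨τ, h1, h2⟩ ⟨τ', h1', h2'⟩
    exact ⟨τ * τ', c.R.mul_mem h1 h1', by rw [map_mul, map_mul, h2, h2']⟩
  inv_mem' := by
    rintro a ⟨τ, h1, h2⟩
    exact ⟨τ⁻¹, c.R.inv_mem h1, by rw [map_inv, map_inv, h2]⟩

variable {c r}

theorem hbW_chi {σ τ : Ga} (hσ : σ ∈ c.hbW r) (h : (σ, τ) ∈ c.R) : chi r τ = chi r σ := by
  obtain ⟨τ', h1, h2⟩ := hσ
  have := c.chi_N2 r (c.inv_mul_mem_N2 h1 h)
  rw [map_mul, map_inv, inv_mul_eq_one] at this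
  rw [← this, h2]

theorem hbW_le : c.hbW r ≤ c.G1 := fun _ ⟨τ, h, _⟩ => c.mem_G1.2 ⟨τ, h⟩

theorem hbW_conj {g σ : Ga} (hg : g ∈ c.G1) (hσ : σ ∈ c.hbW r) : g * σ * g⁻¹ ∈ c.hbW r := by
  obtain ⟨γ, hγ⟩ := c.mem_G1.1 hg
  obtain ⟨τ, h1, h2⟩ := hσ
  refine ⟨γ * τ * γ⁻¹, c.R.mul_mem (c.R.mul_mem hγ h1) (c.R.inv_mem hγ), ?_⟩
  simp only [map_mul, map_inv, mul_inv_cancel_comm, h2]

theorem hbW_fix {g : Ga} (hg : g ∈ c.G1) {x : Om} (hx : x ∈ fix (c.hbW r)) :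
    g x ∈ fix (c.hbW r) := by
  rw [mem_fix] at hx ⊢
  intro σ hσ
  have h := hx _ (hbW_conj (c.G1.inv_mem hg) hσ)
  rw [inv_inv, AlgEquiv.mul_apply, AlgEquiv.mul_apply] at h
  rw [← h]
  conv_lhs => rw [h]
  exact (g.apply_symm_apply _).symm

theorem hb_psi (h2 : r ≠ 2) (hc : c.Compat r) {σ τ : Ga} (h : (σ, τ) ∈ c.R) :
    chi r (τ * σ⁻¹) ^ (r - 1) = 1 := by
  rw [← kap_eq_zero h2, kap_mul h2, (isX_kap h2 ⊤).inv (Subgroup.mem_top σ), hc σ τ h,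
    add_neg_cancel]

theorem op_hbW (h2 : r ≠ 2) (hc : c.Compat r) : Op (c.hbW r) := by
  have hr : r ≠ 0 := (Fact.out : r.Prime).ne_zero
  refine ((op_Gmu hr).inf (c.op_pre (op_Gmu hr))).mono ?_
  rintro σ ⟨h1, h3⟩
  obtain ⟨τ, hτ, h⟩ := c.mem_pre.1 h3
  refine ⟨τ, h, ?_⟩
  have h4 := (mem_Gmu_one _).1 ((Gmu r).mul_mem hτ ((Gmu r).inv_mem h1))
  have h5 := eq_one_of_pow_of_mod _ (by
    rw [← Units.val_pow_eq_pow_val, hb_psi h2 hc h, Units.val_one]) h4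
  have h6 : chi r (τ * σ⁻¹) = 1 := Units.ext h5
  rwa [map_mul, map_inv, mul_inv_eq_one] at h6

theorem hb_gen (h2 : r ≠ 2) (hc : c.Compat r) : ∃ g ∈ c.G1, ∃ N : ℕ,
    (∀ j : ℕ, g ^ j ∈ c.hbW r ↔ N ∣ j) ∧ (c.hbW r).index = N * c.G1.index := by
  let f1 : c.R →* Ga := (MonoidHom.fst Ga Ga).comp c.R.subtype
  let f2 : c.R →* Ga := (MonoidHom.snd Ga Ga).comp c.R.subtype
  let Ψ : c.R →* ℤ_[r]ˣ := (chi r).comp f2 / (chi r).comp f1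
  have hΨ : ∀ x : c.R, Ψ x = chi r x.1.2 / chi r x.1.1 := fun x => rfl
  have hr : 1 < r := (Fact.out : r.Prime).one_lt
  have : NeZero (r - 1) := ⟨by omega⟩
  have hle : Ψ.range ≤ rootsOfUnity (r - 1) ℤ_[r] := by
    rintro _ ⟨x, rfl⟩
    have := hb_psi h2 hc (σ := x.1.1) (τ := x.1.2) x.2
    rw [map_mul, map_inv, ← div_eq_mul_inv] at this
    exact this
  have : Finite Ψ.range := Finite.of_injective _ (Subgroup.inclusion_injective hle)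
  have : IsCyclic Ψ.range := isCyclic_subgroup_units _
  obtain ⟨⟨_, x, rfl⟩, hx⟩ := IsCyclic.exists_generator (α := Ψ.range)
  have hker : (c.hbW r).comap f1 = Ψ.ker := by
    ext y
    rw [Subgroup.mem_comap, MonoidHom.mem_ker, hΨ, div_eq_one]
    exact ⟨fun h => hbW_chi h y.2, fun h => ⟨y.1.2, y.2, h⟩⟩
  have hrange : f1.range = c.G1 := by
    rw [MonoidHom.range_comp, Subgroup.range_subtype]
    rfl
  refine ⟨f1 x, hrange ▸ ⟨x, rfl⟩, orderOf (Ψ x), fun j => ?_, ?_⟩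
  · rw [← map_pow, ← Subgroup.mem_comap, hker, MonoidHom.mem_ker, map_pow,
      orderOf_dvd_iff_pow_eq_one]
  · rw [← Subgroup.relIndex_mul_index hbW_le, ← hrange, ← Subgroup.index_comap, hker,
      Subgroup.index_ker, ← orderOf_eq_card_of_forall_mem_zpowers hx, ← Subgroup.orderOf_coe]

variable (c r) in
/-- pairs of Kummer generators with the same cocycle -/
def hbP (q : ℕ) : Subgroup (Omˣ × Omˣ) where
  carrier := {p | (p.1 : Om) ^ q ∈ fix c.G2 ∧ (∀ Q, c.Hit r Q → val Q p.1 = 0) ∧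
    ∀ σ τ, (σ, τ) ∈ c.R → σ ∈ c.hbW r → σ p.2 / p.2 = τ p.1 / p.1}
  one_mem' := ⟨by simpa using one_mem _, fun Q _ => val_one Q, fun σ τ _ _ => by simp⟩
  mul_mem' := by
    rintro a b ⟨h1, h2, h3⟩ ⟨h1', h2', h3'⟩
    refine ⟨?_, fun Q hQ => ?_, fun σ τ h hσ => ?_⟩
    · rw [Prod.fst_mul, Units.val_mul, mul_pow]
      exact mul_mem h1 h1'
    · rw [Prod.fst_mul, Units.val_mul, val_mul Q a.1.ne_zero b.1.ne_zero, h2 Q hQ, h2' Q hQ,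
        add_zero]
    · rw [Prod.fst_mul, Prod.snd_mul, Units.val_mul, Units.val_mul, map_mul, map_mul,
        mul_div_mul_comm, mul_div_mul_comm, h3 σ τ h hσ, h3' σ τ h hσ]
  inv_mem' := by
    rintro a ⟨h1, h2, h3⟩
    refine ⟨?_, fun Q hQ => ?_, fun σ τ h hσ => ?_⟩
    · rw [Prod.fst_inv, Units.val_inv_eq_inv_val, inv_pow]
      exact inv_mem h1
    · rw [Prod.fst_inv, Units.val_inv_eq_inv_val, val_inv, h2 Q hQ, neg_zero]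
    · rw [Prod.fst_inv, Prod.snd_inv, Units.val_inv_eq_inv_val, Units.val_inv_eq_inv_val,
        map_inv₀, map_inv₀, inv_div_inv, inv_div_inv, ← inv_div, h3 σ τ h hσ, inv_div]

theorem hb_root {q : ℕ} {w : Om} (h0 : w ≠ 0) (hw : w ^ q ∈ fix c.G2) {τ : Ga} (hτ : τ ∈ c.G2) :
    (τ w / w) ^ q = 1 := by
  rw [div_pow, ← map_pow, mem_fix.1 hw τ hτ, div_self (pow_ne_zero _ h0)]

theorem hb_N2 {q : ℕ} (hq : q ≠ 0) {w : Om} (hw : w ^ q ∈ fix c.G2) : w ∈ fix c.N2 :=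
  c.root_mem hq (mem_fix.2 fun g hg => mem_fix.1 hw g ((c.N2_le_im ⊤).trans (c.im_le_G2 ⊤) hg))

theorem hb_mu {n : ℕ} {σ τ : Ga} (hσ : σ ∈ c.hbW r) (h : (σ, τ) ∈ c.R) {z : Om}
    (hz : z ^ r ^ n = 1) : τ z = σ z := (chi_eq_iff τ σ).1 (hbW_chi hσ h) n z hz

theorem hbP_exists (h2 : r ≠ 2) (hc : c.Compat r) (n : ℕ) {y : Om} (h0 : y ≠ 0)
    (hy : y ∈ fix c.G2) (hv : ∀ Q, c.Hit r Q → val Q y = 0) :
    ∃ p ∈ c.hbP r (r ^ n), (p.1 : Om) ^ r ^ n = y := by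
  have hq : r ^ n ≠ 0 := pow_ne_zero _ (Fact.out : r.Prime).ne_zero
  obtain ⟨w, hw⟩ := IsAlgClosed.exists_pow_nat_eq y (Nat.pos_of_ne_zero hq)
  have hw0 : w ≠ 0 := by
    rintro rfl
    exact h0 (by rw [← hw, zero_pow hq])
  have hwG : w ^ r ^ n ∈ fix c.G2 := hw ▸ hy
  have hN := hb_N2 hq hwG
  have hpull : ∀ σ τ, (σ, τ) ∈ c.R → c.pull (fun τ => τ w / w) σ = τ w / w := by
    intro σ τ h
    have hex : ∃ τ, (σ, τ) ∈ c.R := ⟨τ, h⟩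
    rw [pull, dif_pos hex, c.apply_eq hex.choose_spec h hN]
  obtain ⟨w', hw', h⟩ := h90 (op_hbW h2 hc).cl (c.pull fun τ => τ w / w)
    (fun a ⟨τ, h, _⟩ => by
      rw [hpull a τ h]
      exact div_ne_zero ((map_ne_zero τ).2 hw0) hw0)
    (fun a ha b hb => by
      obtain ⟨τ, h, -⟩ := id ha
      obtain ⟨τ', h', -⟩ := id hb
      rw [hpull _ _ (c.R.mul_mem h h'), hpull _ _ h, hpull _ _ h',
        ← hb_mu ha h (hb_root hw0 hwG (c.mem_G2.2 ⟨b, h'⟩)), map_div₀]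
      have : τ w ≠ 0 := (map_ne_zero τ).2 hw0
      change τ (τ' w) / w = _
      field_simp)
    ⟨c.pre (MulAction.stabilizer Ga w), c.op_pre (op_stab w), fun a _ ha => by
      obtain ⟨τ, h1, h⟩ := c.mem_pre.1 ha
      have h3 : τ w = w := h1
      rw [hpull a τ h, h3, div_self hw0]⟩
  refine ⟨(Units.mk0 w hw0, Units.mk0 w' hw'), ⟨hwG, fun Q hQ => ?_, fun σ τ hR hσ => ?_⟩, hw⟩
  · have := hv Q hQ
    rw [← hw, val_pow] at this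
    exact (mul_eq_zero.1 this).resolve_left (Nat.cast_ne_zero.2 hq)
  · change σ w' / w' = τ w / w
    rw [h σ hσ, hpull σ τ hR, mul_div_assoc, div_self hw', mul_one]

theorem hbP_fix {q : ℕ} {p : Omˣ × Omˣ} (hp : p ∈ c.hbP r q) :
    (p.2 : Om) ^ q ∈ fix (c.hbW r) := by
  refine mem_fix.2 fun σ hσ => ?_
  obtain ⟨τ, h, -⟩ := id hσ
  have h1 := hb_root p.1.ne_zero hp.1 (c.mem_G2.2 ⟨σ, h⟩)
  rw [← hp.2.2 σ τ h hσ, div_pow, div_eq_one_iff_eq (pow_ne_zero _ p.2.ne_zero)] at h1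
  rw [map_pow, h1]

theorem hbP_unr (h2 : r ≠ 2) {n : ℕ} {p : Omˣ × Omˣ} (hp : p ∈ c.hbP r (r ^ n)) {P : Pr}
    (hP : ch P ≠ r) {σ : Ga} (hσ : σ ∈ Ine P) (hW : σ ∈ c.hbW r) : σ p.2 = p.2 := by
  have hr : r.Prime := Fact.out
  obtain ⟨τ, h, h'⟩ := id hW
  have h1 : σ ∈ Gmu r := Ine_le_Gmu (fun hd => hP
    ((Nat.prime_dvd_prime_iff_eq (ch_prime P) hr).1 hd)) hσ
  have h3 : τ ∈ Gmu r := by
    rw [mem_Gmu_one] at h1 ⊢
    rwa [h']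
  have h4 := c.kum_unr h2 hP hσ h h3 (hb_N2 (pow_ne_zero _ hr.ne_zero) hp.1) n
    (mem_fix.1 hp.1 τ (c.mem_G2.2 ⟨σ, h⟩)) (fun Q _ hQ => hp.2.1 Q hQ)
  have h5 := hp.2.2 σ τ h hW
  rwa [h4, div_self p.1.ne_zero, div_eq_one_iff_eq p.2.ne_zero] at h5

theorem hbP_eig (n : ℕ) {g : Ga} (hg : g ∈ c.G1) : ∃ s : ℕ, ∀ p ∈ c.hbP r (r ^ n),
    ∃ z ∈ fix (c.hbW r), z ≠ 0 ∧
      g ((p.2 : Om) ^ r ^ n) = ((p.2 : Om) ^ r ^ n) ^ s * z ^ r ^ n := by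
  obtain ⟨γ, hγ⟩ := c.mem_G1.1 hg
  have hγ2 : γ ∈ c.G2 := c.mem_G2.2 ⟨g, hγ⟩
  obtain ⟨s, hs⟩ : ∃ s : ℕ, ∀ z : Om, z ^ r ^ n = 1 → g (γ⁻¹ z) = z ^ s :=
    ⟨_, fun z hz => chi_spec (t := r) (g * γ⁻¹) n z hz⟩
  refine ⟨s, fun p hp => ?_⟩
  have hw := p.1.ne_zero
  have hw' := p.2.ne_zero
  have hη := hb_root hw hp.1 hγ2
  have hη0 : γ p.1 / p.1 ≠ 0 := div_ne_zero ((map_ne_zero γ).2 hw) hw
  have hg0 : g p.2 ≠ 0 := (map_ne_zero g).2 hw'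
  refine ⟨g p.2 / ((γ p.1 / p.1) ^ s * p.2 ^ s), mem_fix.2 fun σ hσ => ?_,
    div_ne_zero hg0 (mul_ne_zero (pow_ne_zero _ hη0) (pow_ne_zero _ hw')), ?_⟩
  · obtain ⟨τ, h, -⟩ := id hσ
    have h1 := hp.2.2 (g⁻¹ * σ * g) (γ⁻¹ * τ * γ)
      (c.R.mul_mem (c.R.mul_mem (c.R.inv_mem hγ) h) hγ)
      (by simpa using hbW_conj (c.G1.inv_mem hg) hσ)
    have hτ2 : τ ∈ c.G2 := c.mem_G2.2 ⟨σ, h⟩
    have h3 : (τ (γ p.1) / γ p.1) ^ r ^ n = 1 :=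
      hb_root ((map_ne_zero γ).2 hw) (by rw [← map_pow, mem_fix.1 hp.1 γ hγ2]; exact hp.1) hτ2
    have h4 : (γ⁻¹ * τ * γ) p.1 / p.1 = γ⁻¹ (τ (γ p.1) / γ p.1) := by
      rw [map_div₀]
      congr 1
      exact (γ.symm_apply_apply _).symm
    have h5 : σ (g p.2) / g p.2 = (τ (γ p.1) / γ p.1) ^ s := by
      rw [← hs _ h3, ← h4, ← h1, map_div₀]
      congr 1
      exact (g.apply_symm_apply _).symm
    have h6 := hp.2.2 σ τ h hσ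
    have h7 : τ p.1 ≠ 0 := (map_ne_zero τ).2 hw
    have h8 : γ p.1 ≠ 0 := (map_ne_zero γ).2 hw
    have h9 : τ (γ p.1) ≠ 0 := (map_ne_zero τ).2 h8
    rw [div_eq_iff hg0] at h5
    rw [div_eq_iff hw'] at h6
    rw [map_div₀, map_mul, map_pow, map_pow, ← hb_mu hσ h hη, h5, h6, map_div₀]
    simp only [div_pow, mul_pow]
    field_simp
  · rw [div_pow, mul_pow, ← pow_mul (γ p.1 / p.1), mul_comm s, pow_mul (γ p.1 / p.1), hη,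
      one_pow, one_mul, map_pow, ← pow_mul, ← pow_mul, mul_comm s]
    field_simp

theorem hbP_desc {n M : ℕ} {p : Omˣ × Omˣ} (hp : p ∈ c.hbP r (r ^ n)) {z : Om}
    (hz : z ∈ fix (c.hbW r)) (h : ((p.2 : Om) ^ r ^ n) ^ M = z ^ r ^ n) :
    ∃ z' ∈ fix (c.im (c.hbW r)), ∀ Q, val Q z' = M * val Q p.1 := by
  have hq : r ^ n ≠ 0 := pow_ne_zero _ (Fact.out : r.Prime).ne_zero
  have hw := p.1.ne_zero
  have hw' := p.2.ne_zero
  have hz0 : z ≠ 0 := by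
    rintro rfl
    rw [zero_pow hq] at h
    exact pow_ne_zero _ (pow_ne_zero _ hw') h
  have hη : ((p.2 : Om) ^ M / z) ^ r ^ n = 1 := by
    rw [div_pow, ← h, ← pow_mul, ← pow_mul, mul_comm, div_self (pow_ne_zero _ hw')]
  have hη0 : (p.2 : Om) ^ M / z ≠ 0 := div_ne_zero (pow_ne_zero _ hw') hz0
  refine ⟨p.1 ^ M / (p.2 ^ M / z), mem_fix.2 fun τ hτ => ?_, fun Q => ?_⟩
  · obtain ⟨σ, hσ, hR⟩ := c.mem_im.1 hτ
    have h6 := hp.2.2 σ τ hR hσ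
    have h7 : σ p.2 ≠ 0 := (map_ne_zero σ).2 hw'
    rw [eq_comm, div_eq_iff hw] at h6
    rw [map_div₀, hb_mu hσ hR hη, map_div₀, mem_fix.1 hz σ hσ, map_pow, map_pow, h6]
    simp only [div_pow, mul_pow]
    field_simp
  · rw [val_div Q (pow_ne_zero _ hw) hη0, val_of_pow_eq_one Q hq hη, sub_zero, val_pow]

end Corr
end Vale.Agent.P024U
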