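import Vale.Agent.P024U.Bridge

/-! Units of a number field inside the algebraic closure. -/

namespace Vale.Agent.P024U
open NumberField

/-- a unit of the ring of integers as an algebraic number -/
noncomputable def lbU (H : Subgroup Ga) : (𝓞 (fix H))ˣ →* Om :=
  ((algebraMap (fix H) Om).comp (algebraMap (𝓞 (fix H)) (fix H))).toMonoidHom.comp
    (Units.coeHom _)

variable {H : Subgroup Ga}

theorem lbU_apply (u : (𝓞 (fix H))ˣ) : lbU H u = (((u : 𝓞 (fix H)) : fix H) : Om) := rfl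

theorem lbU_inj : Function.Injective (lbU H) := fun _ _ h =>
  Units.ext (RingOfIntegers.ext (Subtype.ext h))

theorem lbU_ne (u : (𝓞 (fix H))ˣ) : lbU H u ≠ 0 :=
  ((Group.isUnit u).map (lbU H)).ne_zero

theorem lbU_mem (u : (𝓞 (fix H))ˣ) : lbU H u ∈ fix H := ((u : 𝓞 (fix H)) : fix H).2

theorem lbU_val (u : (𝓞 (fix H))ˣ) (P : Pr) : val P (lbU H u) = 0 := val_unit u P

/-- a root in the field of a unit is a unit -/
theorem lbU_root {x : Om} (hx : x ∈ fix H) {q : ℕ} (hq : q ≠ 0) {u : (𝓞 (fix H))ˣ}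
    (h : x ^ q = lbU H u) : ∃ v, lbU H v = x ∧ v ^ q = u := by
  have h0 : x ≠ 0 := by
    rintro rfl
    rw [zero_pow hq] at h
    exact lbU_ne u h.symm
  obtain ⟨v, hv⟩ := exists_unit hx h0 fun P => by
    have := lbU_val u P
    rw [← h, val_pow] at this
    exact (mul_eq_zero.1 this).resolve_left (Nat.cast_ne_zero.2 hq)
  refine ⟨v, hv, lbU_inj ?_⟩
  rw [map_pow, ← h, ← hv, lbU_apply]

end Vale.Agent.P024U
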