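import Vale.Agent.P024U.Kmap
import Vale.Agent.P024U.HU
import Vale.Agent.P024U.USa
import Vale.Agent.P024U.HitBX1
import Vale.Agent.P024U.LBkX0

/-! Uniform bound for the primes that are not hit.  `ψ σ = chi τ / chi σ` is a character of `G1` with `ψ^(r-1) = 1` (`Compat`, `plog_eq_zero`), `W'` = kernel (open: it is the kernel mod `r`,
`eq_one_of_pow_of_mod`), `G1 / W'` cyclic with generator `g`, `(g, γ) ∈ R`.  `y i` as in `hit_fin` for `l ∈ S`.  For `q = r^n`, `e : S → ℤ`, `y = ∏ y i ^ e i`, `w^q = y`, the map `σ ↦ τ w / w` is a cocycle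
on `W'` (`τ` and `σ` act in the same way on roots of unity), `h90` gives `w'`, `b = w'^q ∈ fix W'`, well defined and multiplicative modulo `q`-th powers.  `kum_unr`, `val_int'`: `n0 val P b ∈ q ℤ` for `ch P ≠ r`.
`g b = b^s z^q` with `s ≡ ψ(g)⁻¹ mod q`.  The map `e ↦ (n0 val P b mod q)` for `P` in representatives of the at most `d` orbits of `G1` over `r`, then on its kernel `e ↦ π(u)(j,0) mod q` with `b^N = u z^q` (`sel_unit`, `units_abs`,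
at most `d` indices `j`).  On the final kernel (index `≤ q^(2d)`) `hu_eig` gives `b^(N C) = z^q`, so `y^(N C) = z'^q` with `z' ∈ fix (im W')`, and `q ∣ n1 N C h e i`.  Pigeonhole version: among the
`e ∈ [0, q / r^k)^S`... two have the same invariants if `(q/r^k)^card S > q^(2d)`. -/

namespace Vale.Agent.P024U
open NumberField

theorem hb_orb (H : Subgroup Ga) {l : ℕ} (hl : l.Prime) : ∃ Pf : Ga ⧸ H → Pr,
    ∀ P, ch P = l → ∃ x, ∃ h ∈ H, h • Pf x = P := by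
  obtain ⟨P₀, h₀⟩ := exists_pr l hl
  refine ⟨fun x => x.out⁻¹ • P₀, fun P hP => ?_⟩
  obtain ⟨g, hg⟩ := trans_ch P₀ P (h₀.trans hP.symm)
  obtain ⟨h, hh⟩ := QuotientGroup.mk_out_eq_mul H g⁻¹
  refine ⟨(g⁻¹ : Ga), h, h.2, ?_⟩
  simp only [hh, mul_inv_rev, inv_inv, mul_smul, smul_inv_smul, hg]

theorem hb_pigeon {D A B : Type*} [Finite A] [Finite B] (f1 : D → A) (f2 : D → D → B)
    (h : ∀ e₀ e e', f1 e = f1 e₀ → f1 e' = f1 e₀ → f2 e₀ e = f2 e₀ e' → e = e') :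
    Nat.card D ≤ Nat.card A * Nat.card B := by
  rcases isEmpty_or_nonempty D with hD | hD
  · simp
  · rw [← Nat.card_prod]
    refine Nat.card_le_card_of_injective
      (fun e => (f1 e, f2 (Function.invFun f1 (f1 e)) e)) fun e e' he => ?_
    obtain ⟨h1, h2⟩ := Prod.mk.inj he
    have h3 : f1 (Function.invFun f1 (f1 e)) = f1 e := Function.invFun_eq ⟨e, rfl⟩
    rw [← h1] at h2
    exact h _ e e' h3.symm (h1.symm.trans h3.symm) h2

theorem hb_num (r d D : ℕ) (hr : 1 < r) (hD : D ≠ 0) :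
    ∃ n L : ℕ, L * D ≤ r ^ n ∧ L ≠ 0 ∧ (r ^ n) ^ (2 * d) < L ^ (2 * d + 1) := by
  have hD' : 0 < D := Nat.pos_of_ne_zero hD
  obtain ⟨n, hn⟩ : ∃ n, ((2 * D) ^ (2 * d) + 1) * D ≤ r ^ n :=
    ⟨_, (Nat.lt_pow_self hr).le⟩
  have h1 : (2 * D) ^ (2 * d) + 1 ≤ r ^ n / D := (Nat.le_div_iff_mul_le hD').2 hn
  have h2 : r ^ n < (r ^ n / D + 1) * D := by
    rw [mul_comm]; exact Nat.lt_mul_div_succ _ hD'
  have h0 : 0 < r ^ n / D := by omega
  refine ⟨n, r ^ n / D, Nat.div_mul_le_self _ _, h0.ne', ?_⟩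
  generalize r ^ n / D = L at *
  generalize r ^ n = q at *
  have h3 : q ≤ 2 * D * L := by nlinarith
  calc q ^ (2 * d) ≤ (2 * D * L) ^ (2 * d) := Nat.pow_le_pow_left h3 _
    _ = (2 * D) ^ (2 * d) * L ^ (2 * d) := mul_pow _ _ _
    _ < L * L ^ (2 * d) := Nat.mul_lt_mul_of_pos_right h1 (Nat.pow_pos h0)
    _ = L ^ (2 * d + 1) := by ring

namespace Corr
variable (c : Corr) {r : ℕ} [Fact r.Prime]

variable {c} in
theorem hb_all (h2 : r ≠ 2) {n0 : ℕ} (hn0 : ∀ (P : Pr) (x : Om),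
      (∀ σ ∈ Ine P, σ ∈ c.hbW r → σ x = x) → ∃ k : ℤ, n0 * val P x = k)
    {Pf : Ga ⧸ c.G1 → Pr} (hPf : ∀ P, ch P = r → ∃ x, ∃ h ∈ c.G1, h • Pf x = P) {n : ℕ}
    {p : Omˣ × Omˣ} (hp : p ∈ c.hbP r (r ^ n))
    (h : ∀ x, ∃ k : ℤ, n0 * val (Pf x) ((p.2 : Om) ^ r ^ n) = (r ^ n : ℕ) * k) (P : Pr) :
    ∃ k : ℤ, n0 * val P ((p.2 : Om) ^ r ^ n) = (r ^ n : ℕ) * k := by
  by_cases hP : ch P = r
  · obtain ⟨x, g, hg, rfl⟩ := hPf P hP
    obtain ⟨s, hs⟩ := hbP_eig (c := c) (r := r) n (c.G1.inv_mem hg)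
    obtain ⟨z, hz, hz0, he⟩ := hs p hp
    obtain ⟨k, hk⟩ := h x
    obtain ⟨k', hk'⟩ := hn0 (Pf x) z fun σ _ hσ => mem_fix.1 hz σ hσ
    have h1 := val_smul g (Pf x) (g⁻¹ ((p.2 : Om) ^ r ^ n))
    have h3 : g (g⁻¹ ((p.2 : Om) ^ r ^ n)) = (p.2 : Om) ^ r ^ n := g.apply_symm_apply _
    rw [h3, he, val_mul _ (pow_ne_zero _ (pow_ne_zero _ p.2.ne_zero)) (pow_ne_zero _ hz0),
      val_pow _ _ s, val_pow _ z] at h1
    refine ⟨s * k + k', ?_⟩
    rw [h1]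
    push_cast at hk ⊢
    linear_combination (s : ℚ) * hk + (r : ℚ) ^ n * hk'
  · obtain ⟨k, hk⟩ := hn0 P p.2 fun σ h1 h3 => hbP_unr h2 hp hP h1 h3
    refine ⟨k, ?_⟩
    rw [val_pow, ← hk]
    ring

variable {c} in
theorem hb_unit {g : Ga} (hg : g ∈ c.G1) {sE : AddMonoid.End (Additive (𝓞 (fix (c.hbW r)))ˣ)}
    (hsE : ∀ u, lbU _ (sE (Additive.ofMul u)).toMul = g (lbU _ u)) {n M : ℕ}
    {p : Omˣ × Omˣ} (hp : p ∈ c.hbP r (r ^ n)) {u : (𝓞 (fix (c.hbW r)))ˣ} {z : Om}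
    (hz : z ∈ fix (c.hbW r)) (h : ((p.2 : Om) ^ r ^ n) ^ M = lbU _ u * z ^ r ^ n) :
    ∃ e : ℤ, ∃ b, sE (Additive.ofMul u) - e • Additive.ofMul u = r ^ n • b := by
  have hq : r ^ n ≠ 0 := pow_ne_zero _ (Fact.out : r.Prime).ne_zero
  obtain ⟨s, hs⟩ := hbP_eig (c := c) (r := r) n hg
  obtain ⟨y, hy, hy0, he⟩ := hs p hp
  have hz0 : z ≠ 0 := by
    rintro rfl
    rw [zero_pow hq, mul_zero] at h
    exact pow_ne_zero _ (pow_ne_zero _ p.2.ne_zero) h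
  have hgz : g z ≠ 0 := (map_ne_zero g).2 hz0
  have h1 := congrArg g h
  rw [map_pow, he, mul_pow, ← pow_mul, mul_comm s, pow_mul, h, map_mul, map_pow, ← hsE] at h1
  obtain ⟨v, -, hv⟩ := lbU_root (H := c.hbW r) (x := z ^ s * y ^ M / g z)
    (div_mem (mul_mem (pow_mem hz _) (pow_mem hy _)) (hbW_fix hg hz)) hq
    (u := (sE (Additive.ofMul u)).toMul / u ^ s) (by
      have h3 := lbU_ne u
      rw [map_div, map_pow, div_pow, div_eq_div_iff (pow_ne_zero _ hgz) (pow_ne_zero _ h3), ← h1]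
      ring)
  refine ⟨s, Additive.ofMul v, ?_⟩
  rw [← ofMul_pow, hv, ofMul_div, ofMul_pow, natCast_zsmul]
  rfl

theorem hit_bdd (h2 : r ≠ 2) (h4 : c.G1 ≤ Gmu 4) (hc : c.Compat r) (S : Finset ℕ)
    (hS : ∀ l ∈ S, ∃ Q, ch Q = l ∧ ¬ c.Hit r Q) : S.card ≤ 2 * c.G1.index := by
  classical
  by_contra hlt
  have hr : r.Prime := Fact.out
  have hW := op_hbW h2 hc
  obtain ⟨g, hg, N, hN, hidx⟩ := hb_gen h2 hc
  obtain ⟨ρ, sE, hρ, hN0, -, hsE, π, hπ⟩ := units_abs hW (hbW_le.trans h4) (h4 hg)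
    (fun a ha => hbW_conj hg ha) hN
  have hρd : ρ ≤ c.G1.index := by
    rw [hidx] at hρ
    have : 0 < N := Nat.pos_of_ne_zero hN0
    nlinarith
  obtain ⟨C, hC0, hC⟩ := hu_eig hN0 hπ
  obtain ⟨n0, hn00, hn0⟩ := val_int' hW
  obtain ⟨n1, hn10, hn1⟩ := val_int' (c.op_im hW)
  obtain ⟨M, hM0, hM⟩ := sel_unit hW n0 hn00
  obtain ⟨h, hh0, hh⟩ := cls_div c.op_G2
  obtain ⟨Pf, hPf⟩ := hb_orb c.G1 hr
  obtain ⟨n, L, hL1, hL0, hL2⟩ := hb_num r c.G1.index (n1 * (M * C) * h) hr.one_lt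
    (by positivity)
  have hq : r ^ n ≠ 0 := pow_ne_zero _ hr.ne_zero
  have : NeZero (r ^ n) := ⟨hq⟩
  have : c.G1.FiniteIndex := ⟨c.op_G1.index_ne_zero⟩
  have : Nonempty Pr := ⟨Pf (1 : Ga)⟩
  choose! Q hQ1 hQ2 using hS
  have hx : ∀ l : S, ∃ p ∈ c.hbP r (r ^ n),
      ∀ P, val P ((p.1 : Om) ^ r ^ n) = h * ind c.G2 (Q l) P := by
    intro l
    obtain ⟨y, hy, hy0, hv⟩ := hh (ind c.G2 (Q l)) (ind_mem c.G2 fun hd =>
      (ch_prime _).one_lt.ne' (Nat.dvd_one.1 hd))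
    obtain ⟨p, hp, he⟩ := hbP_exists h2 hc n hy0 hy fun P hP => by
      rw [hv, ind, if_neg]
      · simp
      · rintro ⟨τ, hτ, rfl⟩
        have := hP.smul c (c.G2.inv_mem hτ)
        rw [inv_smul_smul] at this
        exact hQ2 l l.2 this
    exact ⟨p, hp, he ▸ hv⟩
  choose x hx1 hx2 using hx
  let pe : (S → Fin L) → Omˣ × Omˣ := fun e => ∏ l, x l ^ (e l : ℕ)
  have hpe : ∀ e, pe e ∈ c.hbP r (r ^ n) := fun e =>
    Subgroup.prod_mem _ fun l _ => Subgroup.pow_mem _ (hx1 l) _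
  have hval : ∀ e (l : S), val (Q l) (((pe e).1 : Om) ^ r ^ n) = h * (e l : ℕ) := by
    intro e l
    have e1 : ((pe e).1 : Om) ^ r ^ n = ∏ l, (((x l).1 : Om) ^ r ^ n) ^ (e l : ℕ) := by
      simp only [pe, Prod.fst_prod, Units.coe_prod, Prod.pow_fst, Units.val_pow_eq_pow_val,
        ← Finset.prod_pow, ← pow_mul, mul_comm]
    rw [e1, val_prod _ _ _ fun l _ => pow_ne_zero _ (pow_ne_zero _ (x l).1.ne_zero),
      Finset.sum_eq_single l]
    · rw [val_pow, hx2, ind, if_pos ⟨1, one_mem _, one_smul _ _⟩]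
      push_cast
      ring
    · intro l' _ hne
      rw [val_pow, hx2, ind, if_neg]
      · simp
      · rintro ⟨τ, -, hτ⟩
        refine hne (Subtype.ext ?_)
        rw [← hQ1 l' l'.2, ← hQ1 l l.2, ← hτ, ch_smul]
    · simp
  have hK : ∀ (p : Omˣ × Omˣ) (y : Ga ⧸ c.G1), ∃ k : ℤ, p ∈ c.hbP r (r ^ n) →
      n0 * val (Pf y) ((p.2 : Om) ^ r ^ n) = k := by
    intro p y
    by_cases hp : p ∈ c.hbP r (r ^ n)
    · obtain ⟨k, hk⟩ := hn0 (Pf y) _ fun σ _ hσ => mem_fix.1 (hbP_fix hp) σ hσ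
      exact ⟨k, fun _ => hk⟩
    · exact ⟨0, fun h => absurd h hp⟩
  choose K hK using hK
  have hU : ∀ p p' : Omˣ × Omˣ, ∃ (u : (𝓞 (fix (c.hbW r)))ˣ) (z : Om),
      p ∈ c.hbP r (r ^ n) → p' ∈ c.hbP r (r ^ n) →
      (fun y => (K p y : ZMod (r ^ n))) = (fun y => (K p' y : ZMod (r ^ n))) →
      z ∈ fix (c.hbW r) ∧ (((p / p').2 : Om) ^ r ^ n) ^ M = lbU _ u * z ^ r ^ n := by
    intro p p'
    by_cases hcond : p ∈ c.hbP r (r ^ n) ∧ p' ∈ c.hbP r (r ^ n) ∧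
      (fun y => (K p y : ZMod (r ^ n))) = (fun y => (K p' y : ZMod (r ^ n)))
    · obtain ⟨hp, hp', he⟩ := hcond
      have hpp := Subgroup.div_mem _ hp hp'
      obtain ⟨u, z, h1, h3⟩ := hM (r ^ n) hq _ (hbP_fix hpp) (pow_ne_zero _ (p / p').2.ne_zero)
        (hb_all h2 hn0 hPf hpp fun y => by
          obtain ⟨k, hk⟩ := (ZMod.intCast_eq_intCast_iff_dvd_sub _ _ _).1 (congrFun he y).symm
          refine ⟨k, ?_⟩
          rw [Prod.snd_div, Units.val_div_eq_div_val, div_pow,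
            val_div _ (pow_ne_zero _ p.2.ne_zero) (pow_ne_zero _ p'.2.ne_zero), mul_sub,
            hK p y hp, hK p' y hp']
          exact_mod_cast hk)
      exact ⟨u, z, fun _ _ _ => ⟨h1, h3⟩⟩
    · exact ⟨1, 0, fun h1 h3 h5 => absurd ⟨h1, h3, h5⟩ hcond⟩
  choose U Z hU using hU
  have key := hb_pigeon (fun e : S → Fin L => fun y => (K (pe e) y : ZMod (r ^ n)))
    (fun e₀ e => fun j : Fin ρ =>
      (π (Additive.ofMul (U (pe e) (pe e₀)), 0) (j, 0) : ZMod (r ^ n))) (by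
    intro e₀ e e' h1 h1' h3
    obtain ⟨a1, a2⟩ := hU _ _ (hpe e) (hpe e₀) h1
    obtain ⟨b1, b2⟩ := hU _ _ (hpe e') (hpe e₀) h1'
    have hpp := Subgroup.div_mem _ (hpe e) (hpe e')
    have hz := div_mem a1 b1
    have h5 : (((pe e / pe e').2 : Om) ^ r ^ n) ^ M =
        lbU _ (U (pe e) (pe e₀) / U (pe e') (pe e₀)) *
          (Z (pe e) (pe e₀) / Z (pe e') (pe e₀)) ^ r ^ n := by
      rw [← div_div_div_cancel_right (pe e) (pe e') (pe e₀), Prod.snd_div,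
        Units.val_div_eq_div_val, div_pow, div_pow, a2, b2, map_div, div_pow, mul_div_mul_comm]
    obtain ⟨s, hs⟩ := hb_unit hg hsE hpp hz h5
    obtain ⟨b, hb⟩ := hC (r ^ n) s _ hs fun j => by
      have h6 := (ZMod.intCast_eq_intCast_iff_dvd_sub _ _ _).1 (congrFun h3 j).symm
      have h7 : (Additive.ofMul (U (pe e) (pe e₀) / U (pe e') (pe e₀)), (0 : ℤ)) =
          (Additive.ofMul (U (pe e) (pe e₀)), 0) - (Additive.ofMul (U (pe e') (pe e₀)), 0) := by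
        rw [Prod.mk_sub_mk, sub_zero, ofMul_div]
      rw [h7, map_sub]
      exact h6
    have h8 := congrArg (fun a => lbU _ (Additive.toMul a)) hb
    simp only [toMul_nsmul, toMul_ofMul, map_pow] at h8
    obtain ⟨z', hz', hv⟩ := hbP_desc (M := M * C) hpp
      (z := lbU _ b.toMul * (Z (pe e) (pe e₀) / Z (pe e') (pe e₀)) ^ C)
      (mul_mem (lbU_mem _) (pow_mem hz _)) (by
        rw [pow_mul, h5, mul_pow, h8, mul_pow, ← pow_mul, ← pow_mul, mul_comm C])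
    funext l
    obtain ⟨k, hk⟩ := hn1 (Q l) z' fun σ _ hσ => mem_fix.1 hz' σ hσ
    have h9 : val (Q l) (((pe e / pe e').1 : Om) ^ r ^ n) = h * (e l : ℕ) - h * (e' l : ℕ) := by
      rw [Prod.fst_div, Units.val_div_eq_div_val, div_pow,
        val_div _ (pow_ne_zero _ (pe e).1.ne_zero) (pow_ne_zero _ (pe e').1.ne_zero), hval, hval]
    rw [val_pow] at h9
    have h10 : ((n1 * (M * C) * h : ℕ) : ℤ) * (((e l : ℕ) : ℤ) - (e' l : ℕ)) =
        (r ^ n : ℕ) * k := by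
      have : (((n1 * (M * C) * h : ℕ) : ℤ) * (((e l : ℕ) : ℤ) - (e' l : ℕ)) : ℤ) =
          (((r ^ n : ℕ) * k : ℤ) : ℚ) := by
        rw [hv] at hk
        push_cast at hk h9 ⊢
        linear_combination (r : ℚ) ^ n * hk - (n1 * (M * C) : ℚ) * h9
      exact_mod_cast this
    have h11 := Int.eq_zero_of_abs_lt_dvd ⟨k, h10⟩ (by
      have c1 := (e l).2
      have c2 := (e' l).2
      have c3 : |((e l : ℕ) : ℤ) - (e' l : ℕ)| < L := by
        rw [abs_lt]; constructor <;> omega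
      have c4 : (0 : ℤ) < (n1 * (M * C) * h : ℕ) := by positivity
      have c5 : (L : ℤ) * (n1 * (M * C) * h : ℕ) ≤ (r ^ n : ℕ) := by exact_mod_cast hL1
      rw [abs_mul, abs_of_pos c4]
      nlinarith)
    have h12 := (mul_eq_zero.1 h11).resolve_left (by positivity)
    exact Fin.ext (by omega))
  rw [Nat.card_fun, Nat.card_fun, Nat.card_fun, Nat.card_zmod, Nat.card_fin, Nat.card_fin,
    Nat.card_eq_finsetCard, ← pow_add] at key
  have h13 : (r ^ n) ^ (Nat.card (Ga ⧸ c.G1) + ρ) ≤ (r ^ n) ^ (2 * c.G1.index) :=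
    Nat.pow_le_pow_right (Nat.pos_of_ne_zero hq) (by rw [← Subgroup.index_eq_card]; omega)
  have h14 : L ^ (2 * c.G1.index + 1) ≤ L ^ S.card :=
    Nat.pow_le_pow_right (Nat.pos_of_ne_zero hL0) (by omega)
  omega

end Corr
end Vale.Agent.P024U
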