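import Vale.Agent.P024U.An1
import Vale.Agent.P024U.Dens
import Vale.Agent.P024U.Cls

/-! The universal norm index inequality.  `C = Div H m / B`, `cl I` = class of the divisor
`P ↦ if ch P ∣ m then 0 else count (below H P) I`; modulus `m^(M+1)`.
Compare `dens_le` with `dens_split` as `s → 1` (finitely many primes divide `m`). -/

namespace Vale.Agent.P024U

open NumberField IsDedekindDomain Filter Topology
open scoped nonZeroDivisors

/-- the divisor of an ideal -/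
noncomputable def i1D (H : Subgroup Ga) [NumberField (fix H)] (m : ℕ) (I : Ideal (𝓞 (fix H))) :
    Pr → ℤ := fun P => if ch P ∣ m then 0 else
      FractionalIdeal.count (fix H) (below H P) (I : FractionalIdeal (𝓞 (fix H))⁰ (fix H))

section
variable {H : Subgroup Ga} [NumberField (fix H)] {m : ℕ}

theorem i1D_mem (hH : Op H) (I : Ideal (𝓞 (fix H))) : i1D H m I ∈ Div H m := by
  refine ⟨fun h hh P => ?_, fun P hP => if_pos hP, ?_⟩
  · have h1 : below H P = below H (h • P) := (below_eq_iff hH _ _).2 ⟨h, hh, rfl⟩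
    simp only [i1D, ch_smul, h1]
  · have h1 := FractionalIdeal.finite_factors (I : FractionalIdeal (𝓞 (fix H))⁰ (fix H))
    rw [eventually_cofinite] at h1
    refine (h1.image fun v => ch (Function.surjInv (below_surj H) v)).subset ?_
    rintro l ⟨P, rfl, hP⟩
    refine ⟨below H P, fun h => hP (by simp only [i1D, h, ite_self]), ?_⟩
    obtain ⟨h, -, hh⟩ := (below_eq_iff hH _ _).1 (Function.surjInv_eq (below_surj H) (below H P))
    simp only
    conv_rhs => rw [← hh, ch_smul]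

theorem i1D_mul {I J : Ideal (𝓞 (fix H))} (hI : I ≠ ⊥) (hJ : J ≠ ⊥) :
    i1D H m (I * J) = i1D H m I + i1D H m J := by
  funext P
  simp only [i1D, Pi.add_apply]
  split_ifs
  · rfl
  · rw [FractionalIdeal.coeIdeal_mul, FractionalIdeal.count_mul _ _
      (FractionalIdeal.coeIdeal_ne_zero.2 hI) (FractionalIdeal.coeIdeal_ne_zero.2 hJ)]

theorem i1D_top : i1D H m ⊤ = 0 := by
  funext P
  simp only [i1D, Pi.zero_apply]
  split_ifs
  · rfl
  · rw [FractionalIdeal.coeIdeal_top, FractionalIdeal.count_one]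

theorem i1D_below (hH : Op H) {P : Pr} (hP : ¬ ch P ∣ m) :
    i1D H m (below H P).asIdeal = ind H P := by
  classical
  funext Q
  simp only [i1D]
  split_ifs with hQ
  · exact ((ind_mem H hP).2.1 Q hQ).symm
  · rw [FractionalIdeal.count_maximal, ind]
    simp only [below_eq_iff hH]

theorem i1D_pow (hH : Op H) {P : Pr} (hP : ¬ ch P ∣ m) (k : ℕ) :
    i1D H m ((below H P).asIdeal ^ k) = (k : ℤ) • ind H P := by
  induction k with
  | zero => simp [i1D_top]
  | succ k ih =>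
    rw [pow_succ, i1D_mul (pow_ne_zero k (below H P).ne_bot) (below H P).ne_bot, ih,
      i1D_below hH hP, Nat.cast_succ, add_smul, one_smul]

theorem i1D_span (hu : UnrOut H m) (x : 𝓞 (fix H)) :
    i1D H m (Ideal.span {x}) = dv m ((x : fix H) : Om) := by
  funext P
  simp only [i1D, dv]
  split_ifs with hP
  · rfl
  · obtain ⟨e, -, he, h⟩ := count_below (H := H) P
    have h1 := h (x : fix H)
    rw [he (hu P hP), Nat.cast_one, one_mul] at h1
    rw [FractionalIdeal.coeIdeal_span_singleton, ← h1, Int.floor_intCast]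

omit [NumberField (fix H)] in
theorem i1_val_zero {x : 𝓞 (fix H)} {n : ℕ}
    (hx : Ideal.span {x} ⊔ Ideal.span {(n : 𝓞 (fix H))} = ⊤) {P : Pr} (hP : ch P ∣ n) :
    val P ((x : fix H) : Om) = 0 := by
  have h1 : x ∉ (below H P).asIdeal := fun h => (below H P).isPrime.ne_top (by
    rw [eq_top_iff, ← hx]
    exact sup_le ((Ideal.span_singleton_le_iff_mem _).2 h)
      ((Ideal.span_singleton_le_iff_mem _).2 ((natCast_mem_below P n).2 hP)))
  have h2 : ¬ Pos P ((incl H x : Oi) : Om) := fun h => h1 ((pos_iff_mem P _).1 h)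
  have h3 := val_nonneg P (incl H x)
  rw [coe_incl] at h2 h3
  exact le_antisymm (not_lt.1 fun h => h2 (Or.inr h)) h3

omit [NumberField (fix H)] in
theorem i1_ray (hm : m ≠ 0) (M : ℕ) {x y : 𝓞 (fix H)} (hx0 : x ≠ 0)
    (hxy : x + (m ^ (M + 1) : ℕ) * y ≠ 0)
    (hx : Ideal.span {x} ⊔ Ideal.span {((m ^ (M + 1) : ℕ) : 𝓞 (fix H))} = ⊤) :
    (((x + (m ^ (M + 1) : ℕ) * y : 𝓞 (fix H)) : fix H) : Om) / ((x : fix H) : Om) ∈ Ray H m M := by
  have hx1 : ((x : fix H) : Om) ≠ 0 := by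
    simpa using hx0
  have hx2 : (((x + (m ^ (M + 1) : ℕ) * y : 𝓞 (fix H)) : fix H) : Om) ≠ 0 := by
    intro h
    apply hxy
    exact RingOfIntegers.coe_injective (Subtype.ext h)
  refine ⟨div_mem (Subtype.prop _) (Subtype.prop _), div_ne_zero hx2 hx1, fun P hP => ?_⟩
  have e : (((x + (m ^ (M + 1) : ℕ) * y : 𝓞 (fix H)) : fix H) : Om) / ((x : fix H) : Om) - 1 =
      (m : Om) ^ (M + 1) * (((y : fix H) : Om) * ((x : fix H) : Om)⁻¹) := by
    push_cast
    field_simp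
    ring
  rw [e]
  have h1 : Sm P M ((m : Om) ^ (M + 1)) := by
    refine Or.inr ?_
    rw [val_pow, val_natCast]
    have := Fact.mk (ch_prime P)
    have h2 : 1 ≤ padicValNat (ch P) m := one_le_padicValNat_of_dvd hm hP
    have h3 : (1 : ℚ) ≤ padicValNat (ch P) m := by exact_mod_cast h2
    have h4 : (0 : ℚ) ≤ M := Nat.cast_nonneg M
    push_cast
    nlinarith
  have h2 : Sm P 0 ((y : fix H) : Om) := Or.inr (val_nonneg P (incl H y))
  have h3 : Sm P 0 ((x : fix H) : Om)⁻¹ := by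
    refine Or.inr ?_
    rw [val_inv, i1_val_zero hx (hP.trans (dvd_pow_self m (Nat.succ_ne_zero M))), neg_zero]
  have h4 := h1.mul (h2.mul h3)
  simpa using h4

theorem i1_cong (hm : m ≠ 0) (hu : UnrOut H m) (M : ℕ) {x y : 𝓞 (fix H)} (hx0 : x ≠ 0)
    (hxy : x + (m ^ (M + 1) : ℕ) * y ≠ 0)
    (hx : Ideal.span {x} ⊔ Ideal.span {((m ^ (M + 1) : ℕ) : 𝓞 (fix H))} = ⊤) :
    i1D H m (Ideal.span {x + (m ^ (M + 1) : ℕ) * y}) - i1D H m (Ideal.span {x}) ∈
      dvRay H m M := by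
  have hr := i1_ray hm M hx0 hxy hx
  have hx1 : ((x : fix H) : Om) ≠ 0 := by
    simpa using hx0
  have h1 := dv_mul hu hr.1 (Subtype.prop (x : fix H)) hr.2.1 hx1
  rw [div_mul_cancel₀ _ hx1] at h1
  rw [i1D_span hu, i1D_span hu, h1, add_sub_cancel_right]
  exact AddSubgroup.subset_closure ⟨_, hr, rfl⟩

theorem i1_surj (hH : Op H) (M : ℕ) (B : AddSubgroup (Pr → ℤ)) (hB : B.relIndex (Div H m) ≠ 0) :
    ∀ d ∈ Div H m, ∃ I : Ideal (𝓞 (fix H)), I ≠ ⊥ ∧
      I ⊔ Ideal.span {((m ^ (M + 1) : ℕ) : 𝓞 (fix H))} = ⊤ ∧ i1D H m I - d ∈ B := by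
  refine Div.induction hH _ ⟨⊤, by simp, by simp, by rw [i1D_top, sub_zero]; exact B.zero_mem⟩ ?_ ?_
  · rintro a - b - ⟨I, hI, hI', h⟩ ⟨J, hJ, hJ', h'⟩
    refine ⟨I * J, mul_ne_zero hI hJ, ?_, ?_⟩
    · rw [← Ideal.isCoprime_iff_sup_eq] at hI' hJ' ⊢
      exact hI'.mul_left hJ'
    · rw [i1D_mul hI hJ, add_sub_add_comm]
      exact B.add_mem h h'
  · intro P c hP
    set n := B.relIndex (Div H m) with hn
    have h1 : (n : ℤ) • ind H P ∈ B := by
      have h2 := (B.addSubgroupOf (Div H m)).nsmul_index_mem ⟨ind H P, ind_mem H hP⟩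
      rw [natCast_zsmul]
      exact h2
    have hn0 : (n : ℤ) ≠ 0 := by exact_mod_cast hB
    have h3 : 0 ≤ c % n := Int.emod_nonneg c hn0
    refine ⟨(below H P).asIdeal ^ (c % n).toNat, pow_ne_zero _ (below H P).ne_bot, ?_, ?_⟩
    · rw [← Ideal.isCoprime_iff_sup_eq]
      refine IsCoprime.pow_left ?_
      rw [Ideal.isCoprime_iff_sup_eq]
      have h4 : ((m ^ (M + 1) : ℕ) : 𝓞 (fix H)) ∉ (below H P).asIdeal := fun h =>
        hP ((ch_prime P).dvd_of_dvd_pow ((natCast_mem_below P _).1 h))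
      by_contra h5
      have h6 := (below H P).isMaximal.eq_of_le h5 le_sup_left
      exact h4 (h6 ▸ Ideal.mem_sup_right (Ideal.mem_span_singleton_self _))
    · rw [i1D_pow hH hP, Int.toNat_of_nonneg h3, ← sub_smul]
      have e : c % n - c = -(c / n) * n := by
        rw [Int.emod_def]
        ring
      rw [e, mul_smul]
      exact B.zsmul_mem h1 _

open Classical in
theorem i1_cmp {n : ℕ} (hn : n ≠ 0) (p p' : HeightOneSpectrum (𝓞 (fix H)) → Prop)
    (h : ∀ v, p v → (n : 𝓞 (fix H)) ∉ v.asIdeal → p' v) : ∃ c : ℝ, ∀ s : ℝ, 1 < s →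
    (∑' v : HeightOneSpectrum (𝓞 (fix H)),
      if p v then (Ideal.absNorm v.asIdeal : ℝ) ^ (-s) else 0) ≤
    (∑' v : HeightOneSpectrum (𝓞 (fix H)),
      if (n : 𝓞 (fix H)) ∉ v.asIdeal ∧ p' v then (Ideal.absNorm v.asIdeal : ℝ) ^ (-s) else 0) + c := by
  have hf : {v : HeightOneSpectrum (𝓞 (fix H)) | (n : 𝓞 (fix H)) ∈ v.asIdeal}.Finite := by
    have h0 : Ideal.span {(n : 𝓞 (fix H))} ≠ 0 := by
      simpa using hn
    refine (Ideal.finite_factors h0).subset fun v hv => ?_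
    exact Ideal.dvd_span_singleton.2 hv
  have hs3 : Summable fun v : HeightOneSpectrum (𝓞 (fix H)) =>
      if (n : 𝓞 (fix H)) ∈ v.asIdeal then (1 : ℝ) else 0 :=
    summable_of_hasFiniteSupport (hf.subset fun v hv => by
      by_contra hc
      exact hv (if_neg hc))
  refine ⟨∑' v : HeightOneSpectrum (𝓞 (fix H)),
    if (n : 𝓞 (fix H)) ∈ v.asIdeal then (1 : ℝ) else 0, fun s hs => ?_⟩
  have hs0 : Summable fun v : HeightOneSpectrum (𝓞 (fix H)) =>
      (Ideal.absNorm v.asIdeal : ℝ) ^ (-s) :=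
    (zeta_summable (fix H) hs).comp_injective (fun _ _ h => HeightOneSpectrum.ext h)
  have hs1 : ∀ (r : HeightOneSpectrum (𝓞 (fix H)) → Prop) [∀ v, Decidable (r v)], Summable fun v =>
      if r v then (Ideal.absNorm v.asIdeal : ℝ) ^ (-s) else 0 := fun r _ =>
    Summable.of_nonneg_of_le (fun v => by split_ifs <;> positivity)
      (fun v => by
        split_ifs
        · exact le_rfl
        · positivity) hs0
  have hs2 := hs1 fun v => (n : 𝓞 (fix H)) ∉ v.asIdeal ∧ p' v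
  rw [← hs2.tsum_add hs3]
  refine (hs1 p).tsum_le_tsum (fun v => ?_) (hs2.add hs3)
  by_cases h1 : (n : 𝓞 (fix H)) ∈ v.asIdeal
  · have h2 : (Ideal.absNorm v.asIdeal : ℝ) ^ (-s) ≤ 1 := by
      refine Real.rpow_le_one_of_one_le_of_nonpos ?_ (by linarith)
      have h3 : Ideal.absNorm v.asIdeal ≠ 0 := fun h => v.ne_bot (Ideal.absNorm_eq_zero_iff.1 h)
      exact_mod_cast Nat.one_le_iff_ne_zero.2 h3
    rw [if_pos h1, if_neg fun h : (n : 𝓞 (fix H)) ∉ v.asIdeal ∧ p' v => h.1 h1, zero_add]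
    split_ifs
    · exact h2
    · exact zero_le_one
  · rw [if_neg h1, add_zero]
    by_cases h2 : p v
    · rw [if_pos h2, if_pos ⟨h1, h v h2 h1⟩]
    · rw [if_neg h2]
      split_ifs <;> positivity

end

theorem i1_log : Tendsto (fun s : ℝ => Real.log (1 / (s - 1))) (𝓝[>] 1) atTop := by
  refine Real.tendsto_log_atTop.comp ?_
  simp only [one_div]
  refine tendsto_inv_nhdsGT_zero.comp ?_
  refine tendsto_nhdsWithin_iff.2 ⟨?_, ?_⟩
  · have h : Tendsto (fun s : ℝ => s - 1) (𝓝 1) (𝓝 (1 - 1)) :=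
      (continuous_id.sub continuous_const).tendsto 1
    rw [sub_self] at h
    exact h.mono_left nhdsWithin_le_nhds
  · filter_upwards [self_mem_nhdsWithin] with s hs
    exact sub_pos.2 (show 1 < s from hs)

theorem i1_arith {a r L D S c B1 B2 : ℝ} (hr0 : 0 ≤ r) (h4 : r + 1 ≤ a) (k1 : a * S ≤ L + B1)
    (k2 : |r * D - L| ≤ B2) (k3 : max 0 (a * B2 + r * B1 + r * a * c) < L) (k5 : D ≤ S + c) :
    False := by
  have k6 := (abs_le.1 k2).1
  have k7 : 0 < L := (le_max_left _ _).trans_lt k3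
  have k8 : a * B2 + r * B1 + r * a * c < L := (le_max_right _ _).trans_lt k3
  have ha0 : 0 ≤ a := by linarith
  have k9 : a * (L - B2) ≤ a * (r * D) := mul_le_mul_of_nonneg_left (by linarith) ha0
  have k10 : r * a * D ≤ r * a * (S + c) := mul_le_mul_of_nonneg_left k5 (mul_nonneg hr0 ha0)
  have k11 : r * (a * S) ≤ r * (L + B1) := mul_le_mul_of_nonneg_left k1 hr0
  have k12 : (r + 1) * L ≤ a * L := mul_le_mul_of_nonneg_right h4 k7.le
  nlinarith

theorem norm_index_le {H H' : Subgroup Ga} (hH' : Op H') (hle : H' ≤ H)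
    (hn : ∀ h ∈ H, ∀ a ∈ H', h * a * h⁻¹ ∈ H') {m : ℕ} (hm : m ≠ 0) (hu : UnrOut H m) (M : ℕ)
    (B : AddSubgroup (Pr → ℤ)) (hB : dvRay H m M ≤ B)
    (hsplit : ∀ P φ, ¬ ch P ∣ m → φ ∈ H' → IsFrob P 1 φ → ind H P ∈ B) :
    B.relIndex (Div H m) ≤ H'.relIndex H := by
  classical
  have hH : Op H := hH'.mono hle
  have := numberField_fix hH
  rcases eq_or_ne (B.relIndex (Div H m)) 0 with h0 | h0
  · rw [h0]
    exact Nat.zero_le _
  have : Finite (Div H m ⧸ B.addSubgroupOf (Div H m)) := Nat.finite_of_card_ne_zero h0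
  let cl : Ideal (𝓞 (fix H)) → Div H m ⧸ B.addSubgroupOf (Div H m) := fun I =>
    QuotientAddGroup.mk ⟨i1D H m I, i1D_mem hH I⟩
  have hcl : ∀ (I : Ideal (𝓞 (fix H))) (d : Div H m),
      i1D H m I - d ∈ B → cl I = QuotientAddGroup.mk d := fun I d h =>
    QuotientAddGroup.eq_iff_sub_mem.2 h
  have hm' : m ^ (M + 1) ≠ 0 := pow_ne_zero _ hm
  obtain ⟨B1, h1⟩ := dens_le (m ^ (M + 1)) hm' cl
    (fun I J hI hJ _ _ => by
      rw [← QuotientAddGroup.mk_add]
      exact congrArg QuotientAddGroup.mk (Subtype.ext (i1D_mul hI hJ)))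
    (fun x y hx hxy hc => hcl _ ⟨_, i1D_mem hH _⟩ (hB (i1_cong hm hu M hx hxy hc)))
    (fun c => by
      obtain ⟨d, rfl⟩ := QuotientAddGroup.mk_surjective c
      obtain ⟨I, a, b, h⟩ := i1_surj hH M B h0 d d.2
      exact ⟨I, a, b, hcl I d h⟩)
  obtain ⟨B2, h2⟩ := dens_split hH' hle hn
  obtain ⟨c, h3⟩ := i1_cmp (H := H) hm'
    (fun v => ∃ P, below H P = v ∧ ∃ φ ∈ (H' : Set Ga), IsFrob P 1 φ)
    (fun v => cl v.asIdeal = 0) (by
      rintro _ ⟨P, rfl, φ, hφ, hf⟩ hv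
      have hP : ¬ ch P ∣ m := fun h =>
        hv ((natCast_mem_below P _).2 (h.trans (dvd_pow_self m (Nat.succ_ne_zero M))))
      refine (hcl _ 0 ?_).trans rfl
      rw [i1D_below hH hP]
      simpa using hsplit P φ hP hφ hf)
  by_contra hlt
  have h4 : (H'.relIndex H : ℝ) + 1 ≤ B.relIndex (Div H m) := by
    exact_mod_cast Nat.succ_le_of_lt (not_le.1 hlt)
  have e : (Nat.card (Div H m ⧸ B.addSubgroupOf (Div H m)) : ℝ) = B.relIndex (Div H m) := rfl
  rw [e] at h1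
  have h5 := i1_log.eventually_gt_atTop (max 0 ((B.relIndex (Div H m) : ℝ) * B2 +
    (H'.relIndex H : ℝ) * B1 + (H'.relIndex H : ℝ) * (B.relIndex (Div H m) : ℝ) * c))
  obtain ⟨s, ⟨⟨k1, k2⟩, k3⟩, k4⟩ := (((h1.and h2).and h5).and self_mem_nhdsWithin).exists
  exact i1_arith (Nat.cast_nonneg _) h4 k1 k2 k3 (h3 s k4)

end Vale.Agent.P024U
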