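import Vale.Agent.P024U.HQ

/-! The abstract cyclic norm index inequality.  `P = f A`, `Cl = I / P` finite, `E = ker f`.
Write H0 = ker(s-1)/im N, H1 = ker N / im (s-1).  `|H0 Cl| = |H1 Cl|` (`hq_inv` with `B = PUnit`).
Suppose the index is finite.  `X = I^s / (N I + P^s)` injects into H0 Cl with cokernel H1 P (since H1 I = 0),
H1 P injects into H0 E (since H1 A = 0), `P^s / f(A^s) ≅ H1 E`; and `(N I + P^s)/(N I + f A^s)` is the quotient of
`P^s/ f(A^s)` by the image of `N I ∩ P`, which is a quotient of H1 Cl.  So the index is at least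
`|H0 Cl| / |H0 E| · |H1 E| / |H1 Cl| = n`.  It is easiest to build explicit homomorphisms between subgroups and use
`relIndex` multiplicativity, `AddSubgroup.index_ker`, `card_eq_card_quotient_mul_card_addSubgroup`.
`h1_perm`: H1 vanishes for a permutation module: choose a representative `y0` in every orbit and put
`d' (σ^j y0) = ∑ i < j, d (σ^i y0)` for `j` less than the period. -/

namespace Vale.Agent.P024U

section aux
open AddSubgroup
variable {A I : Type*} [AddCommGroup A] [AddCommGroup I]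

theorem i2a_right {H K K' : AddSubgroup A} (h : K ≤ H ⊔ K') (h' : K' ≤ H ⊔ K) :
    H.relIndex K = H.relIndex K' := by
  rw [← relIndex_sup_left K, ← relIndex_sup_left K',
    le_antisymm (sup_le le_sup_left h) (sup_le le_sup_left h')]

theorem i2a_fin {P : AddSubgroup I} {g g' : I →+ I} (h : ∀ x, g (g' x) = 0)
    (hP : ∀ x ∈ P, g x ∈ P) : P.relIndex g'.range * (g'.range ⊔ P).relIndex (P.comap g) *
      P.relIndex g.range = P.index := by
  have h1 : g'.range ⊔ P ≤ P.comap g := sup_le (by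
    rintro _ ⟨x, rfl⟩
    exact (mem_comap.2 (h x ▸ P.zero_mem))) hP
  rw [← relIndex_sup_right g'.range, relIndex_mul_relIndex _ _ _ le_sup_right h1, ← index_comap,
    relIndex_mul_index (le_sup_right.trans h1)]

theorem i2a_core {DA NA : A →+ A} {DI NI : I →+ I} {f : A →+ I} (hD : ∀ a, f (DA a) = DI (f a))
    (hN : ∀ a, f (NA a) = NI (f a)) (hA : ∀ a, DA (NA a) = 0) (hI : ∀ a, DI (NI a) = 0)
    (kA : NA.ker = DA.range) (kI : NI.ker = DI.range) (hc : f.range.index ≠ 0) {n : ℕ}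
    (h0 : (f.ker.map NA).relIndex (f.ker ⊓ DA.ker) ≠ 0)
    (h1 : (f.ker.map DA).relIndex (f.ker ⊓ NA.ker) =
      n * (f.ker.map NA).relIndex (f.ker ⊓ DA.ker)) :
    n ≤ (NI.range ⊔ DA.ker.map f).relIndex DI.ker := by
  have hA' : ∀ a, NA (DA a) = 0 := fun a => (kA.ge ⟨a, rfl⟩ :)
  have hI' : ∀ a, NI (DI a) = 0 := fun a => (kI.ge ⟨a, rfl⟩ :)
  have pD : ∀ x ∈ f.range, DI x ∈ f.range := by rintro _ ⟨a, rfl⟩; exact ⟨_, hD a⟩
  have pN : ∀ x ∈ f.range, NI x ∈ f.range := by rintro _ ⟨a, rfl⟩; exact ⟨_, hN a⟩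
  have nk : NI.range ≤ DI.ker := by rintro _ ⟨a, rfl⟩; exact hI a
  have qk : DA.ker.map f ≤ f.range ⊓ DI.ker := by
    rintro _ ⟨a, ha, rfl⟩
    exact ⟨⟨a, rfl⟩, (hD a).symm.trans (by rw [show DA a = 0 from ha, map_zero])⟩
  have c0 := i2a_fin hI pD
  have c1 := i2a_fin hI' pN
  have cne : (DI.range ⊔ f.range).relIndex (f.range.comap NI) ≠ 0 := fun e => hc (by simp [← c1, e])
  have ceq : (NI.range ⊔ f.range).relIndex (f.range.comap DI) =
      (DI.range ⊔ f.range).relIndex (f.range.comap NI) :=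
    mul_left_cancel₀ (a := f.range.relIndex NI.range * f.range.relIndex DI.range)
      (fun e => hc (by rw [← c0, mul_right_comm, e, zero_mul])) (by linarith)
  have ea := relIndex_inf_mul_relIndex (NI.range ⊔ DA.ker.map f) (NI.range ⊔ f.range) DI.ker
  rw [inf_of_le_left (sup_le_sup_left (qk.trans inf_le_left) _), i2a_right (K' := f.range ⊓ DI.ker)
    (fun x hx => by
      obtain ⟨_, ⟨y, rfl⟩, p, hp, rfl⟩ := mem_sup.1 hx.1
      exact add_mem (mem_sup_left (mem_sup_left ⟨y, rfl⟩)) (mem_sup_right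
        ⟨hp, by simpa [hI] using hx.2⟩))
    (le_sup_of_le_right (inf_le_inf_right _ le_sup_right))] at ea
  have eb := relIndex_mul_relIndex (NI.range ⊔ f.range) (DI.ker ⊔ f.range) (f.range.comap DI)
    (sup_le_sup_right nk _) (sup_le (fun x hx => mem_comap.2 (by
      rw [show DI x = 0 from hx]; exact zero_mem _)) pD)
  rw [i2a_right (K' := DI.ker) (sup_le le_sup_right (le_sup_of_le_left le_sup_right))
    (le_sup_of_le_right le_sup_left), ceq] at eb
  have ec : (DI.ker ⊔ f.range).relIndex (f.range.comap DI) ≤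
      (f.ker.map NA).relIndex (f.ker ⊓ DA.ker) := by
    have e1 : (f.range.comap DI).map DI = (DI.range.comap f).map f := by
      rw [map_comap_eq, map_comap_eq, inf_comm]
    have e2 : (f.range.map DI).comap f = (f.ker.map NA).comap NA := by
      ext a
      constructor
      · rintro ⟨_, ⟨b, rfl⟩, hb⟩
        exact ⟨a - DA b, by simp [hD, hb], by simp [hA']⟩
      · rintro ⟨e, he, h⟩
        obtain ⟨b, hb⟩ := kA.le (show a - e ∈ NA.ker by simp [h])
        exact ⟨_, ⟨b, rfl⟩, by rw [← hD, hb, map_sub, show f e = 0 from he, sub_zero]⟩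
    rw [sup_comm, ← comap_map_eq, relIndex_comap, e1, ← relIndex_comap, e2, relIndex_comap]
    refine relIndex_le_of_le_right ?_ h0
    rintro _ ⟨a, ⟨x, hx⟩, rfl⟩
    exact ⟨show f (NA a) = 0 by rw [hN, ← hx, hI'], hA a⟩
  have ed := relIndex_inf_mul_relIndex (DA.ker.map f) (NI.range ⊔ DA.ker.map f) (f.range ⊓ DI.ker)
  have ee : (DA.ker.map f).relIndex (f.range ⊓ DI.ker) =
      (f.ker.map DA).relIndex (f.ker ⊓ NA.ker) := by
    have e1 : DI.ker.comap f = f.ker.comap DA := by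
      ext a
      simp [hD]
    rw [← map_comap_eq, ← relIndex_comap, comap_map_eq, e1, kA, inf_comm, ← map_comap_eq,
      ← relIndex_comap, comap_map_eq, sup_comm]
  have ef : (DA.ker.map f).relIndex ((NI.range ⊔ DA.ker.map f) ⊓ (f.range ⊓ DI.ker)) ≤
      (DI.range ⊔ f.range).relIndex (f.range.comap NI) := by
    rw [← kI, sup_comm NI.ker, ← comap_map_eq, relIndex_comap, map_comap_eq] at cne ⊢
    rw [i2a_right (K' := NI.range ⊓ f.range) (fun x hx => by
      obtain ⟨y, hy, p, hp, rfl⟩ := mem_sup.1 hx.1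
      exact add_comm p y ▸ add_mem (mem_sup_left hp) (mem_sup_right
        ⟨hy, (f.range.add_mem_cancel_right (qk hp).1).1 hx.2.1⟩))
      (le_sup_of_le_right (le_inf (inf_le_left.trans le_sup_left)
        (le_inf inf_le_right (inf_le_left.trans nk))))]
    refine relIndex_le_of_le_left ?_ cne
    rintro _ ⟨_, ⟨a, rfl⟩, rfl⟩
    exact ⟨NA a, hA a, hN a⟩
  rw [inf_of_le_left (a := DA.ker.map f) le_sup_right, ee, h1] at ed
  rw [← ea]
  refine Nat.le_of_mul_le_mul_right ?_ (Nat.pos_of_ne_zero h0)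
  rw [← ed, mul_assoc, mul_comm]
  exact Nat.mul_le_mul_left _ (ef.trans (eb ▸ Nat.mul_le_mul_left _ ec))

theorem i2a_sub {E : AddSubgroup A} {g g' : A →+ A} {h h' : AddMonoid.End E}
    (e : ∀ x, (h x : A) = g x) (e' : ∀ x, (h' x : A) = g' x) :
    hq h h' = (E.map g').relIndex (E ⊓ g.ker) := by
  rw [hq, ← relIndex_map_map_of_injective _ _ E.subtype_injective]
  congr 1
  · ext x
    exact ⟨by rintro ⟨_, ⟨y, rfl⟩, rfl⟩; exact ⟨y, y.2, (e' y).symm⟩,
      by rintro ⟨y, hy, rfl⟩; exact ⟨_, ⟨⟨y, hy⟩, rfl⟩, e' _⟩⟩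
  · ext x
    exact ⟨by rintro ⟨y, hy, rfl⟩; exact ⟨y.2, (e y).symm.trans (congrArg Subtype.val hy)⟩,
      fun hx => ⟨⟨x, hx.1⟩, Subtype.ext ((e _).trans hx.2), rfl⟩⟩

theorem i2a_app (s : AddMonoid.End A) (n : ℕ) (a : A) :
    nrm s n a = ∑ i ∈ Finset.range n, s^[i] a :=
  (AddMonoidHom.finsetSum_apply _ _ _).trans
    (Finset.sum_congr rfl fun i _ => congrFun (AddMonoid.End.coe_pow _ s i) a)

theorem i2a_nrm {s : AddMonoid.End A} {s' : AddMonoid.End I} {f : A →+ I}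
    (h : ∀ a, f (s a) = s' (f a)) (n : ℕ) (a : A) : f (nrm s n a) = nrm s' n (f a) := by
  rw [i2a_app, i2a_app, map_sum]
  exact Finset.sum_congr rfl fun i _ => Function.Semiconj.iterate_right h i a

theorem i2a_ker {s : AddMonoid.End A} {n : ℕ} (hs : s ^ n = 1)
    (h : ∀ a, nrm s n a = 0 → ∃ b, a = s b - b) : (∀ a, (s - 1) (nrm s n a) = 0) ∧
      AddMonoidHom.ker (nrm s n : A →+ A) =
        AddMonoidHom.range ((s - 1 : AddMonoid.End A) : A →+ A) := by
  refine ⟨fun a => ?_, le_antisymm (fun a ha => (h a ha).imp fun _ => Eq.symm) ?_⟩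
  · exact congrArg (fun g : AddMonoid.End A => g a)
      (show (s - 1) * nrm s n = 0 by rw [nrm, mul_geom_sum, hs, sub_self])
  · rintro _ ⟨a, rfl⟩
    exact congrArg (fun g : AddMonoid.End A => g a)
      (show nrm s n * (s - 1) = 0 by rw [nrm, geom_sum_mul, hs, sub_self])

end aux

theorem i2_abs {A I : Type*} [AddCommGroup A] [AddCommGroup I] (sA : AddMonoid.End A)
    (sI : AddMonoid.End I) (n : ℕ) (hn : n ≠ 0) (hA : sA ^ n = 1) (hI : sI ^ n = 1) (f : A →+ I)
    (hf : ∀ a, f (sA a) = sI (f a))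
    (h1A : ∀ a, nrm sA n a = 0 → ∃ b, a = sA b - b)
    (h1I : ∀ a, nrm sI n a = 0 → ∃ b, a = sI b - b)
    (hc : f.range.FiniteIndex) (sE : AddMonoid.End f.ker) (hsE : ∀ e, (sE e : A) = sA e)
    (hE0 : hq (sE - 1) (nrm sE n) ≠ 0)
    (hE1 : hq (nrm sE n) (sE - 1) = n * hq (sE - 1) (nrm sE n)) :
    let J := AddMonoidHom.range (nrm sI n : I →+ I) ⊔
      (AddMonoidHom.ker ((sA - 1 : AddMonoid.End A) : A →+ A)).map f
    let idx := J.relIndex (AddMonoidHom.ker ((sI - 1 : AddMonoid.End I) : I →+ I))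
    idx = 0 ∨ n ≤ idx := by
  have hN := fun e => (i2a_nrm (f := f.ker.subtype) hsE n e :)
  have hD : ∀ e, ((sE - 1) e : A) = (sA - 1) (e : A) := fun e => congrArg (· - (e : A)) (hsE e)
  rw [i2a_sub hD hN] at hE0 hE1
  rw [i2a_sub hN hD] at hE1
  exact .inr (i2a_core (fun a => (map_sub f _ _).trans (congrArg (· - f a) (hf a)))
    (i2a_nrm hf n) (i2a_ker hA h1A).1 (i2a_ker hI h1I).1 (i2a_ker hA h1A).2 (i2a_ker hI h1I).2
    hc.index_ne_zero hE0 hE1)

theorem h1_perm {Y : Type*} (σ : Equiv.Perm Y) (n : ℕ) (hn : n ≠ 0) (hσ : σ ^ n = 1) (d : Y → ℤ)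
    (hd : ∀ y, ∑ i ∈ Finset.range n, d ((σ ^ i) y) = 0) :
    ∃ d' : Y → ℤ, (∀ y, d y = d' (σ y) - d' y) ∧ ∀ y, d' y ≠ 0 → ∃ i : ℕ, d ((σ ^ i) y) ≠ 0 := by
  refine ⟨fun y => (∑ i ∈ Finset.range n, i * d ((σ ^ i) y)) / n, fun y => ?_, fun y h => ?_⟩
  · have h1 := Finset.sum_range_succ' (fun i => (i : ℤ) * d ((σ ^ i) y)) n
    have h2 := hd (σ y)
    simp only [Finset.sum_range_succ, hσ, pow_succ, Equiv.Perm.mul_apply, Equiv.Perm.one_apply,
      Nat.cast_add, Nat.cast_one, add_mul, one_mul, Finset.sum_add_distrib, h2, Nat.cast_zero,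
      zero_mul, add_zero] at h1
    simp only [← h1, mul_comm (n : ℤ), Int.add_mul_ediv_right _ _ (Int.natCast_ne_zero.2 hn),
      add_sub_cancel_left]
  · by_contra! h'
    simp [h'] at h

end Vale.Agent.P024U
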