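import Vale.Agent.P024U.Cls

/-! Selmer type finiteness.  `sel_fin`: `d = val b / r` outside `m` is a divisor; modulo finitely many classes (`ray_fin` or the class group)
`b / z^r` is an `m`-unit; multiply by `r`-th powers from `cls_div` to bound the valuations above `m` (`val_int'`, `orbits_finite`); units modulo
`r`-th powers are finite (`exists_unit`, finitely generated group).  `hom_fin`: Kummer theory: `h90` for `c a = ζ ^ (f a).val` gives `w`,
`b = w^r ∈ fix H`, `val_int`; `f` on `H` is determined by the class of `b`.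
`sel_unit`: with `h` from `cls_div`, `d P = k_P`, `z` with `val z = h d`, and `b^(n h) / z^q` is a unit. -/

namespace Vale.Agent.P024U
open NumberField

variable {H : Subgroup Ga}

theorem Sel_div {m : ℕ} {b : Om} (hb : b ∈ fix H) {q : ℚ} (hq : q ≠ 0) (v : Pr → ℚ) {n : ℚ}
    (hv : ∀ P, v P = n * val P b) (h : ∀ P, ¬ ch P ∣ m → ∃ k : ℤ, v P = q * k) :
    ∃ d ∈ Div H m, ∀ P, ¬ ch P ∣ m → v P = q * d P := by
  classical
  choose k hk using h
  refine ⟨fun P => if hP : ch P ∣ m then 0 else k P hP, ⟨fun g hg P => ?_, fun P hP => dif_pos hP,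
    (val_finite b).subset ?_⟩, fun P hP => by simp only [dif_neg hP, hk P hP]⟩
  · by_cases hP : ch P ∣ m
    · simp only [dif_pos hP, dif_pos (show ch (g • P) ∣ m by rwa [ch_smul])]
    · have hP' : ¬ ch (g • P) ∣ m := by rwa [ch_smul]
      have e := val_smul g P b
      rw [mem_fix.1 hb g hg] at e
      have e2 : q * k _ hP' = q * k _ hP := by rw [← hk, ← hk, hv, hv, e]
      simp only [dif_neg hP, dif_neg hP']
      exact_mod_cast mul_left_cancel₀ hq e2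
  · rintro l ⟨P, hl, h⟩
    refine ⟨P, hl, fun h0 => h ?_⟩
    by_cases hP : ch P ∣ m
    · exact dif_pos hP
    · have e := hk P hP
      rw [hv, h0, mul_zero, eq_comm, mul_eq_zero, or_iff_right hq] at e
      simp only [dif_neg hP]
      exact_mod_cast e

theorem Sel_units (hH : Op H) (r : ℕ) (hr : r ≠ 0) : ∃ U : Finset Om, ∀ x ∈ fix H, x ≠ 0 →
    (∀ P, val P x = 0) → ∃ u ∈ U, ∃ z ∈ fix H, x = u * z ^ r := by
  classical
  have := numberField_fix hH
  have : Group.FG (𝓞 (fix H))ˣ := Group.fg_iff_monoid_fg.2 inferInstance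
  have := Subgroup.finiteIndex_range_powMonoidHom_of_fg (𝓞 (fix H))ˣ hr
  let s : (𝓞 (fix H))ˣ ⧸ (powMonoidHom r).range → Om := fun y =>
    (((y.out : 𝓞 (fix H)) : fix H) : Om)
  refine ⟨(Set.finite_range s).toFinset, fun x hx x0 h => ?_⟩
  obtain ⟨u, rfl⟩ := exists_unit hx x0 h
  obtain ⟨v, hv⟩ := QuotientGroup.eq.1 (QuotientGroup.out_eq'
    (QuotientGroup.mk u : (𝓞 (fix H))ˣ ⧸ (powMonoidHom r).range))
  refine ⟨s (QuotientGroup.mk u), (Set.Finite.mem_toFinset _).2 ⟨_, rfl⟩,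
    (((v : 𝓞 (fix H)) : fix H) : Om), Subtype.prop _, ?_⟩
  have e := eq_inv_mul_iff_mul_eq.1 hv
  conv_lhs => rw [← e]
  simp [s]

theorem sel_fin (hH : Op H) {m : ℕ} (hm : m ≠ 0) (hu : UnrOut H m) (r : ℕ) (hr : r ≠ 0) :
    ∃ T : Finset Om, ∀ b ∈ fix H, b ≠ 0 → (∀ P, ¬ ch P ∣ m → ∃ k : ℤ, val P b = r * k) →
      ∃ b0 ∈ T, ∃ z ∈ fix H, b = b0 * z ^ r := by
  classical
  obtain ⟨n, hn, hv⟩ := val_int' hH
  obtain ⟨h, hh, hc⟩ := cls_div hH
  obtain ⟨U, hU⟩ := Sel_units hH r hr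
  choose S _ hS using orbits_finite hH
  let S' : Finset Pr := m.divisors.biUnion S
  let G := {b : Om // b ∈ fix H ∧ b ≠ 0 ∧ ∀ P, ¬ ch P ∣ m → ∃ k : ℤ, val P b = r * k}
  have hd : ∀ b : G, ∃ d ∈ Div H m, ∀ P, ¬ ch P ∣ m → val P b.1 = r * d P := fun b =>
    Sel_div b.2.1 (by exact_mod_cast hr) (val · b.1) (fun _ => (one_mul _).symm) b.2.2.2
  choose d hd hd' using hd
  have ha : ∀ (b : G) (P : Pr), ∃ k : ℤ, n * val P b.1 = k := fun b P =>
    hv P _ fun σ _ hσ => mem_fix.1 b.2.1 σ hσ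
  choose a ha using ha
  have hfi : ((dvRay H m 1).addSubgroupOf (Div H m)).FiniteIndex := ⟨ray_fin hH hm hu 1⟩
  have hne : NeZero (n * (h * r)) := ⟨by positivity⟩
  let Φ : G → (Div H m ⧸ (dvRay H m 1).addSubgroupOf (Div H m)) × (S' → ZMod (n * (h * r))) :=
    fun b => (QuotientAddGroup.mk ⟨d b, hd b⟩, fun Q => (a b Q : ZMod (n * (h * r))))
  have key : ∀ b b' : G, Φ b' = Φ b → ∃ u ∈ U, ∃ z ∈ fix H, b.1 = b'.1 * u * z ^ r := by
    intro b b' e
    have e1 := QuotientAddGroup.eq.1 (congrArg Prod.fst e)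
    rw [AddSubgroup.mem_addSubgroupOf, mem_dvRay hu one_ne_zero] at e1
    obtain ⟨x, hx, e1⟩ := e1
    have e1' : ∀ P, -d b' P + d b P = dv m x P := fun P => congrFun e1 P
    have b0 := b.2.2.1
    have b0' := b'.2.2.1
    have x0 := hx.2.1
    have c0 : b.1 / (b'.1 * x ^ r) ≠ 0 := by positivity
    have cm : b.1 / (b'.1 * x ^ r) ∈ fix H := div_mem b.2.1 (mul_mem b'.2.1 (pow_mem hx.1 r))
    have cv : ∀ P, val P (b.1 / (b'.1 * x ^ r)) = val P b.1 - (val P b'.1 + r * val P x) :=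
      fun P => by rw [val_div P b0 (by positivity), val_mul P b0' (by positivity), val_pow]
    obtain ⟨D, hD, hD'⟩ := Sel_div (m := 1) (q := h * r) cm (by positivity) (val · _)
      (fun _ => (one_mul _).symm)
      fun P _ => by
        by_cases hP : ch P ∣ m
        · obtain ⟨Q, hQ, g, hg, rfl⟩ := hS _ P rfl
          have hQ' : Q ∈ S' := Finset.mem_biUnion.2 ⟨_, Nat.mem_divisors.2 ⟨hP, hm⟩, hQ⟩
          have e2 : (a b' Q : ZMod (n * (h * r))) = a b Q := congrFun (congrArg Prod.snd e) ⟨Q, hQ'⟩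
          obtain ⟨k, hk⟩ := (ZMod.intCast_eq_intCast_iff_dvd_sub _ _ _).1 e2
          refine ⟨k, ?_⟩
          have e3 := val_smul g Q (b.1 / (b'.1 * x ^ r))
          rw [mem_fix.1 cm g hg] at e3
          rw [ch_smul] at hP
          have e4 : (a b Q : ℚ) - a b' Q = n * (h * r) * k := by exact_mod_cast hk
          rw [← ha, ← ha] at e4
          have n0 : (n : ℚ) ≠ 0 := by exact_mod_cast hn
          rw [e3, cv, DivA_val one_ne_zero hx hP]
          apply mul_left_cancel₀ n0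
          linarith
        · refine ⟨0, ?_⟩
          rw [cv, hd' b P hP, hd' b' P hP, ← val_eq_dv hu hx.1 hP, ← e1']
          push_cast
          ring
    obtain ⟨w, hw, w0, hw'⟩ := hc D hD
    obtain ⟨u, hu', z, hz, e5⟩ := hU (b.1 / (b'.1 * x ^ r) / w ^ r) (div_mem cm (pow_mem hw r))
      (by positivity) fun P => by
        rw [val_div P c0 (by positivity), val_pow, hw', hD' P (ch_prime P).not_dvd_one]
        ring
    refine ⟨u, hu', x * w * z, mul_mem (mul_mem hx.1 hw) hz, ?_⟩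
    rw [div_div, div_eq_iff (by positivity)] at e5
    rw [e5]
    ring
  let s := fun y => if hy : ∃ b : G, Φ b = y then hy.choose.1 else 0
  refine ⟨((Set.finite_range s).toFinset ×ˢ U).image fun p => p.1 * p.2, fun b hb b0 hk => ?_⟩
  have hy : ∃ b' : G, Φ b' = Φ ⟨b, hb, b0, hk⟩ := ⟨_, rfl⟩
  obtain ⟨u, hu', z, hz, e⟩ := key ⟨b, hb, b0, hk⟩ _ hy.choose_spec
  exact ⟨_, Finset.mem_image.2 ⟨(hy.choose.1, u), Finset.mem_product.2
    ⟨(Set.Finite.mem_toFinset _).2 ⟨_, dif_pos hy⟩, hu'⟩, rfl⟩, z, hz, e⟩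

theorem hom_fin (hH : Op H) {m : ℕ} (hm : m ≠ 0) (hu : UnrOut H m) (r : ℕ) (hr : r ≠ 0)
    (hμ : H ≤ Gmu r) : {f : Ga → ZMod r | IsX H f ∧ (∀ g, g ∉ H → f g = 0) ∧
      ∀ P, ¬ ch P ∣ m → ∀ σ ∈ Ine P, f σ = 0}.Finite := by
  have : NeZero r := ⟨hr⟩
  obtain ⟨T, hT⟩ := sel_fin hH hm hu r hr
  obtain ⟨ζ, hζ⟩ := HasEnoughRootsOfUnity.exists_primitiveRoot Om r
  have z0 : ζ ≠ 0 := hζ.ne_zero hr
  have zr : ∀ k : ℕ, (ζ ^ k) ^ r = 1 := fun k => by rw [← pow_mul, mul_comm, pow_mul, hζ.1, one_pow]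
  have hfin : {w : Om | w ^ r ∈ T}.Finite := by
    refine (T.finite_toSet.biUnion fun t _ => (Polynomial.nthRoots r t).finite_toSet).subset ?_
    intro w hw
    exact Set.mem_biUnion (x := w ^ r) hw ((Polynomial.mem_nthRoots (Nat.pos_of_ne_zero hr)).2 rfl)
  have hsub : ∀ w : Om, {f : Ga → ZMod r | w ≠ 0 ∧ (∀ g, g ∉ H → f g = 0) ∧
      ∀ g ∈ H, g w = ζ ^ (f g).val * w}.Subsingleton := by
    rintro w f ⟨w0, h1, h2⟩ f' ⟨-, h1', h2'⟩
    funext g
    by_cases hg : g ∈ H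
    · exact ZMod.val_injective r (hζ.pow_inj (ZMod.val_lt _) (ZMod.val_lt _)
        (mul_right_cancel₀ w0 ((h2 g hg).symm.trans (h2' g hg))))
    · rw [h1 g hg, h1' g hg]
  refine (hfin.biUnion fun w _ => (hsub w).finite).subset ?_
  rintro f ⟨hf, h1, h2⟩
  obtain ⟨W, hW, -, hW'⟩ := hf.exists_op
  obtain ⟨w, w0, hw⟩ := h90 hH.cl (fun a => ζ ^ (f a).val) (fun _ _ => pow_ne_zero _ z0)
    (fun a ha b hb => by
      rw [hμ ha _ (zr _), hf.2 a ha b hb, ZMod.val_add, ← pow_add]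
      exact (pow_eq_pow_mod _ hζ.1).symm)
    ⟨W, hW, fun a ha haW => by rw [hW' a ha haW, ZMod.val_zero, pow_zero]⟩
  obtain ⟨b, hb, z, hz, e⟩ := hT (w ^ r)
    (mem_fix.2 fun g hg => by rw [map_pow, hw g hg, mul_pow, zr, one_mul]) (pow_ne_zero _ w0)
    fun P hP => by
      obtain ⟨k, hk⟩ := val_int (P := P) (x := w) fun σ hσ => by
        rw [hw σ (hu P hP hσ), h2 P hP σ hσ, ZMod.val_zero, pow_zero, one_mul]
      exact ⟨k, by rw [val_pow, hk]⟩
  have z0' : z ≠ 0 := by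
    rintro rfl
    rw [zero_pow hr, mul_zero] at e
    exact pow_ne_zero _ w0 e
  refine Set.mem_biUnion (x := w / z) ?_ ⟨div_ne_zero w0 z0', h1, fun g hg => ?_⟩
  · rwa [Set.mem_ofPred_eq, div_pow, e, mul_div_cancel_right₀ _ (pow_ne_zero _ z0')]
  · rw [map_div₀, hw g hg, mem_fix.1 hz g hg, mul_div_assoc]

theorem sel_unit (hH : Op H) (n : ℕ) (hn : n ≠ 0) : ∃ N : ℕ, N ≠ 0 ∧ ∀ (q : ℕ), q ≠ 0 →
    ∀ b ∈ fix H, b ≠ 0 → (∀ P, ∃ k : ℤ, n * val P b = q * k) →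
      ∃ (u : (𝓞 (fix H))ˣ) (z : Om), z ∈ fix H ∧
        b ^ N = (((u : 𝓞 (fix H)) : fix H) : Om) * z ^ q := by
  obtain ⟨h, hh, hc⟩ := cls_div hH
  refine ⟨n * h, mul_ne_zero hn hh, fun q hq b hb b0 hk => ?_⟩
  obtain ⟨d, hd, hd'⟩ := Sel_div (m := 1) (q := q) hb (by exact_mod_cast hq)
    (fun P => n * val P b) (fun _ => rfl) fun P _ => hk P
  obtain ⟨z, hz, z0, hz'⟩ := hc d hd
  obtain ⟨u, hu⟩ := exists_unit (div_mem (pow_mem hb (n * h)) (pow_mem hz q)) (by positivity)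
    fun P => by
      have e := hd' P (ch_prime P).not_dvd_one
      rw [val_div P (by positivity) (by positivity), val_pow, val_pow, hz']
      push_cast
      linear_combination h * e
  exact ⟨u, z, hz, by rw [hu, div_mul_cancel₀ _ (pow_ne_zero _ z0)]⟩

end Vale.Agent.P024U
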