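import Vale.Agent.P024U.Neu
import Vale.Agent.P024U.Sel

/-! Kummer classes along the correspondence, and finiteness of the primes that are not hit.
`kum_unr`: `τ ∈ Gmu r`, so `chi τ = 1` (`chi_ine`); if `τ w ≠ w` then `τ w / w` has order `r^k`, `k ≥ 1`, and `(σ,τ)^(r^(k-1))` shows `Ram r P`; `maps_exists` gives `Q`, `Hit r Q`, so `val Q w = 0`;
move `τ` into `Dec Q` (`Maps.exists`, `apply_eq`), `unit_root`.
`hit_fin`: `h` from `cls_div` for `G2`.  `W = G1 ⊓ Gmu r ⊓ pre (Gmu r)`, `m` with `UnrOut W m`, `r ∣ m`, and `m'` with `UnrOut (im W) m'`.  If infinitely many `l` are not hit choose `Q i` with different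
characteristics prime to `m'`, `y i ∈ fix G2` with `val = h` on the orbit of `Q i`, `w i ^ r = y i`, `f i σ` = exponent of `τ (w i) / w i`; `hom_fin` gives `i ≠ j` with `f i = f j`, so `w i / w j ∈ fix (im W)`,
`val (Q i) (w i / w j) = h / r ∈ ℤ` (`val_int`), contradiction. -/

namespace Vale.Agent.P024U
namespace Corr
variable (c : Corr) {r : ℕ} [Fact r.Prime]

theorem kum_unr (h2 : r ≠ 2) {P : Pr} (hP : ch P ≠ r) {σ τ : Ga} (hσ : σ ∈ Ine P)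
    (hR : (σ, τ) ∈ c.R) (hτ : τ ∈ Gmu r) {w : Om} (hw : w ∈ fix c.N2) (n : ℕ)
    (hfix : τ (w ^ r ^ n) = w ^ r ^ n) (hv : ∀ Q, ch Q ≠ r → c.Hit r Q → val Q w = 0) : τ w = w := by
  classical
  have hr : r.Prime := Fact.out
  have hμ : ∀ (n : ℕ) (z : Om), z ^ r ^ n = 1 → τ z = z :=
    (chi_eq_iff τ 1).1 (by rw [c.chi_ine h2 hP hσ hR hτ, map_one])
  by_contra hne
  have hw0 : w ≠ 0 := fun h => hne (by rw [h, map_zero])
  have hζ : (τ w / w) ^ r ^ n = 1 := by rw [div_pow, ← map_pow, hfix, div_self (pow_ne_zero _ hw0)]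
  have hpow : ∀ k : ℕ, (τ ^ k) w = (τ w / w) ^ k * w := fun k => by
    induction k with
    | zero => simp
    | succ k ih =>
      rw [pow_succ' τ, AlgEquiv.mul_apply, ih, map_mul, map_pow, hμ n _ hζ, pow_succ, mul_assoc,
        div_mul_cancel₀ _ hw0]
  have hex : ∃ k, (τ w / w) ^ r ^ k = 1 := ⟨n, hζ⟩
  have h0 : Nat.find hex ≠ 0 := fun h => by
    have := Nat.find_spec hex
    rw [h, pow_zero, pow_one, div_eq_one_iff_eq hw0] at this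
    exact hne this
  obtain ⟨j, hj⟩ := Nat.exists_eq_succ_of_ne_zero h0
  have h1 : (τ w / w) ^ r ^ (j + 1) = 1 := by
    have := Nat.find_spec hex
    rwa [hj] at this
  have h3 : (τ w / w) ^ r ^ j ≠ 1 := Nat.find_min hex (by omega)
  have hram : c.Ram r P := ⟨σ ^ r ^ j, τ ^ r ^ j, w, pow_mem hσ _, pow_mem hR (r ^ j), hw,
    by rw [hpow]; exact fun h => h3 (mul_eq_right₀ hw0 |>.1 h),
    by rw [← pow_mul, ← pow_succ, hpow, h1, one_mul]⟩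
  obtain ⟨Q, hQ, hm⟩ := c.maps_exists h2 hP hram
  obtain ⟨τ', hτ', hR'⟩ := hm.exists c hR (Ine_le_Dec P hσ)
  refine hne ((c.apply_eq hR hR' hw).trans (unit_root hr hQ hτ' (fun k z hz => ?_)
    (hv Q hQ ⟨P, hP, hram, hm⟩) n ?_))
  · rw [← c.apply_eq hR hR' (c.root_mem (pow_ne_zero k hr.ne_zero) (hz ▸ one_mem _)), hμ k z hz]
  · rw [← c.apply_eq hR hR' (pow_mem hw _), hfix]

theorem Kmap_fun (h2 : r ≠ 2) {W : Subgroup Ga} (hW : W ≤ c.pre (Gmu r)) {m : ℕ} (hm : r ∣ m)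
    {ζ : Om} (hζ : IsPrimitiveRoot ζ r) {w : Om} (hw0 : w ≠ 0) (hw : w ^ r ∈ fix c.G2)
    (hv : ∀ Q, c.Hit r Q → val Q w = 0) : ∃ f : Ga → ZMod r, (IsX W f ∧ (∀ g, g ∉ W → f g = 0) ∧
      ∀ P, ¬ ch P ∣ m → ∀ σ ∈ Ine P, f σ = 0) ∧
      ∀ σ ∈ W, ∀ τ, (σ, τ) ∈ c.R → τ w = ζ ^ (f σ).val * w := by
  classical
  have hr : r.Prime := Fact.out
  have hN : w ∈ fix c.N2 := c.root_mem hr.ne_zero
    (mem_fix.2 fun g hg => mem_fix.1 hw g (c.mem_G2.2 ⟨1, hg⟩))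
  have hfix : ∀ σ τ, (σ, τ) ∈ c.R → τ (w ^ r) = w ^ r := fun σ τ h =>
    mem_fix.1 hw τ (c.mem_G2.2 ⟨σ, h⟩)
  have hex : ∀ σ, ∃ e : ZMod r, (σ ∉ W → e = 0) ∧
      (σ ∈ W → ∀ τ, (σ, τ) ∈ c.R → τ w = ζ ^ e.val * w) := fun σ => by
    by_cases hσ : σ ∈ W
    · obtain ⟨τ, -, hR⟩ := c.mem_pre.1 (hW hσ)
      obtain ⟨i, hi, he⟩ := hζ.eq_pow_of_pow_eq_one (ξ := τ w / w)
        (by rw [div_pow, ← map_pow, hfix σ τ hR, div_self (pow_ne_zero _ hw0)])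
      refine ⟨i, fun h => (h hσ).elim, fun _ τ' hR' => ?_⟩
      rw [ZMod.val_natCast_of_lt hi, he, div_mul_cancel₀ _ hw0, c.apply_eq hR' hR hN]
    · exact ⟨0, fun _ => rfl, fun h => (hσ h).elim⟩
  choose f hf0 hf using hex
  have huniq : ∀ σ ∈ W, ∀ τ, (σ, τ) ∈ c.R → ∀ e : ZMod r, τ w = ζ ^ e.val * w → f σ = e :=
    fun σ hσ τ hR e he => ZMod.val_injective r (hζ.pow_inj (ZMod.val_lt _) (ZMod.val_lt _)
      (mul_right_cancel₀ hw0 ((hf σ hσ τ hR).symm.trans he)))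
  refine ⟨f, ⟨isX_of_op (fun a ha b hb => ?_) ⟨c.pre (MulAction.stabilizer Ga w),
    c.op_pre (op_stab w), fun a ha h => ?_⟩, hf0, fun P hP σ hσ => ?_⟩, hf⟩
  · obtain ⟨τ, hτ, hR⟩ := c.mem_pre.1 (hW ha)
    obtain ⟨τ', -, hR'⟩ := c.mem_pre.1 (hW hb)
    refine huniq _ (mul_mem ha hb) (τ * τ') (mul_mem hR hR') _ ?_
    rw [AlgEquiv.mul_apply, hf b hb τ' hR', map_mul, map_pow, hτ ζ hζ.pow_eq_one, hf a ha τ hR,
      ZMod.val_add, ← pow_eq_pow_mod _ hζ.pow_eq_one, pow_add]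
    ring
  · obtain ⟨τ, hτ, hR⟩ := c.mem_pre.1 h
    exact huniq a ha τ hR 0 (by rw [ZMod.val_zero, pow_zero, one_mul]; exact hτ)
  · by_cases hσW : σ ∈ W
    · obtain ⟨τ, hτ, hR⟩ := c.mem_pre.1 (hW hσW)
      refine huniq σ hσW τ hR 0 ?_
      rw [ZMod.val_zero, pow_zero, one_mul]
      exact c.kum_unr h2 (fun h => hP (h ▸ hm)) hσ hR hτ hN 1 (by rw [pow_one]; exact hfix σ τ hR)
        fun Q _ => hv Q
    · exact hf0 σ hσW

omit [Fact r.Prime] in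
theorem hit_fin : ∃ h : ℕ, h ≠ 0 ∧ ∀ r : ℕ, r.Prime → r ≠ 2 → ¬ r ∣ h →
    {l | ∃ Q, ch Q = l ∧ ¬ c.Hit r Q}.Finite := by
  classical
  obtain ⟨h, h0, hh⟩ := cls_div c.op_G2
  refine ⟨h, h0, fun r hr h2 hrh => ?_⟩
  have : Fact r.Prime := ⟨hr⟩
  have hW : Op (Gmu r ⊓ c.pre (Gmu r)) := (op_Gmu hr.ne_zero).inf (c.op_pre (op_Gmu hr.ne_zero))
  obtain ⟨m, hm, hu⟩ := exists_unrOut hW
  obtain ⟨m', hm', hu'⟩ := exists_unrOut (c.op_im hW)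
  obtain ⟨ζ, hζ⟩ := HasEnoughRootsOfUnity.exists_primitiveRoot Om r
  by_contra hinf
  have hinf' := Set.Infinite.sdiff hinf (Set.finite_le_nat m')
  have hex : ∀ l ∈ {l | ∃ Q, ch Q = l ∧ ¬ c.Hit r Q} \ {l | l ≤ m'},
      ∃ (Q : Pr) (w : Om) (f : Ga → ZMod r), ch Q = l ∧ w ≠ 0 ∧
        (∀ P, r * val P w = h * ind c.G2 Q P) ∧ (IsX (Gmu r ⊓ c.pre (Gmu r)) f ∧
          (∀ g, g ∉ Gmu r ⊓ c.pre (Gmu r) → f g = 0) ∧
          ∀ P, ¬ ch P ∣ m * r → ∀ σ ∈ Ine P, f σ = 0) ∧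
        ∀ σ ∈ Gmu r ⊓ c.pre (Gmu r), ∀ τ, (σ, τ) ∈ c.R → τ w = ζ ^ (f σ).val * w := by
    rintro l ⟨⟨Q, hQ, hn⟩, -⟩
    obtain ⟨y, hy, hy0, hval⟩ := hh _ (ind_mem c.G2 (P := Q) (ch_prime Q).not_dvd_one)
    obtain ⟨w, rfl⟩ := IsAlgClosed.exists_pow_nat_eq y hr.pos
    have hw0 : w ≠ 0 := fun h => hy0 (by rw [h, zero_pow hr.ne_zero])
    simp only [val_pow] at hval
    obtain ⟨f, hf⟩ := c.Kmap_fun h2 inf_le_right (dvd_mul_left r m) hζ hw0 hy fun Q' hQ' => by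
      have h1 := hval Q'
      rw [ind, if_neg, Int.cast_zero, mul_zero] at h1
      · exact (mul_eq_zero.1 h1).resolve_left (Nat.cast_ne_zero.2 hr.ne_zero)
      · rintro ⟨g, hg, rfl⟩
        have := hQ'.smul c (inv_mem hg)
        rw [inv_smul_smul] at this
        exact hn this
    exact ⟨Q, w, f, hQ, hw0, hval, hf⟩
  have : Nonempty Pr := ⟨(exists_pr r hr).choose⟩
  choose! Q w f hQ hw0 hval hf hτ using hex
  obtain ⟨i, hi, j, hj, hij, hfe⟩ := hinf'.exists_ne_map_eq_of_mapsTo (f := f)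
    (ht := hom_fin hW (mul_ne_zero hm hr.ne_zero) (hu.mono le_rfl (dvd_mul_right m r)) r hr.ne_zero
      inf_le_left) (fun l hl => hf l hl)
  have hdvd : ¬ ch (Q i) ∣ m' := fun hd =>
    hi.2 (hQ i hi ▸ Nat.le_of_dvd (Nat.pos_of_ne_zero hm') hd)
  obtain ⟨k, hk⟩ := val_int (P := Q i) (x := w i / w j) fun τ hτ' => by
    obtain ⟨σ, hσ, hR⟩ := c.mem_im.1 (hu' _ hdvd hτ')
    rw [map_div₀, hτ i hi σ hσ τ hR, hτ j hj σ hσ τ hR, hfe,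
      mul_div_mul_left _ _ (pow_ne_zero _ (hζ.ne_zero hr.ne_zero))]
  have e1 := hval i hi (Q i)
  have e2 := hval j hj (Q i)
  rw [ind, if_pos ⟨1, one_mem _, one_smul _ _⟩, Int.cast_one, mul_one] at e1
  rw [ind, if_neg, Int.cast_zero, mul_zero] at e2
  · rw [val_div _ (hw0 i hi) (hw0 j hj)] at hk
    have e3 : (h : ℚ) = r * k := by rw [← hk, mul_sub, e1, e2, sub_zero]
    exact hrh (Int.natCast_dvd_natCast.1 ⟨k, by exact_mod_cast e3⟩)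
  · rintro ⟨g, -, hg⟩
    exact hij (by rw [← hQ i hi, ← hg, ch_smul, hQ j hj])

end Corr
end Vale.Agent.P024U
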