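import Vale.Agent.P024U.Zeta

/-! Unfolding of sums over principal ideals and splitting in residue classes. -/

namespace Vale.Agent.P024U
open NumberField NumberField.mixedEmbedding
open scoped nonZeroDivisors

variable {K : Type*} [Field K] [NumberField K]

theorem LBd_norm (x : 𝓞 K) :
    mixedEmbedding.norm (mixedEmbedding K (x : K)) = (Ideal.absNorm (Ideal.span {x}) : ℝ) := by
  rw [norm_eq_norm, Ideal.absNorm_span_singleton, ← Algebra.coe_norm_int, Nat.cast_natAbs]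
  simp

theorem LBd_one_le {x : 𝓞 K} (hx : x ≠ 0) : (1 : ℝ) ≤ Ideal.absNorm (Ideal.span {x}) := by
  have : Ideal.absNorm (Ideal.span {x}) ≠ 0 := by simpa [Ideal.absNorm_eq_zero_iff] using hx
  exact_mod_cast Nat.one_le_iff_ne_zero.2 this

open Classical in
theorem LBd_unfold {G : ℤ × 𝓞 K → ℝ} {s : ℝ} (hs : 1 < s) (G0 : ∀ p, 0 ≤ G p)
    (Gz : ∀ k, G (k, 0) = 0)
    (hG : ∀ x : 𝓞 K, x ≠ 0 → HasSum (fun p : (𝓞 K)ˣ × ℤ => G (p.2, p.1 * x))
      ((Ideal.absNorm (Ideal.span {x}) : ℝ) ^ (-s))) :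
    Summable G ∧ ∀ V : Ideal (𝓞 K) → ℂ, (∀ I, ‖V I‖ ≤ 1) →
      ∑' I : Ideal (𝓞 K), V I * (if I.IsPrincipal then (Ideal.absNorm I : ℝ) ^ (-s) else 0 : ℝ) =
        ∑' p, V (Ideal.span {p.2}) * G p := by
  let φ : ℤ × 𝓞 K → Ideal (𝓞 K) := fun p => Ideal.span {p.2}
  have fib : ∀ I, HasSum (fun p : {p // φ p = I} => G p.1)
      (if I.IsPrincipal then (Ideal.absNorm I : ℝ) ^ (-s) else 0) := fun I => by
    split_ifs with h
    · obtain ⟨x, rfl⟩ := h
      by_cases hx : x = 0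
      · subst hx
        have : (fun p : {p // φ p = Submodule.span (𝓞 K) {0}} => G p.1) = fun _ => 0 := by
          ext ⟨⟨k, y⟩, hy⟩
          have : y = 0 := by simpa [φ] using hy
          simp [this, Gz]
        rw [this]
        simp [Real.zero_rpow (show -s ≠ 0 by linarith)]
      · let g : (𝓞 K)ˣ × ℤ → {p // φ p = Submodule.span (𝓞 K) {x}} := fun p =>
          ⟨(p.2, p.1 * x), Ideal.span_singleton_mul_left_unit p.1.isUnit x⟩
        refine ((Equiv.ofBijective g ⟨?_, ?_⟩).hasSum_iff).1 (hG x hx)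
        · rintro ⟨u, k⟩ ⟨u', k'⟩ h
          simp only [g, Subtype.mk.injEq, Prod.mk.injEq, mul_eq_mul_right_iff, hx, or_false,
            Units.val_inj] at h
          exact Prod.ext h.2 h.1
        · rintro ⟨⟨k, y⟩, hy⟩
          obtain ⟨u, hu⟩ := Ideal.span_singleton_eq_span_singleton.1 hy.symm
          exact ⟨(u, k), by simpa [g, mul_comm] using hu⟩
    · have : IsEmpty {p // φ p = I} := ⟨fun p => h (p.2 ▸ ⟨_, rfl⟩)⟩
      exact hasSum_empty
  have hS : Summable G := by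
    rw [← (Equiv.sigmaFiberEquiv φ).summable_iff]
    refine (summable_sigma_of_nonneg fun p => G0 _).2 ⟨fun I => (fib I).summable, ?_⟩
    refine Summable.of_nonneg_of_le (fun I => tsum_nonneg fun p => G0 _) (fun I => ?_)
      (zeta_summable K hs)
    refine (fib I).tsum_eq.trans_le ?_
    split_ifs
    · rfl
    · positivity
  refine ⟨hS, fun V hV => ?_⟩
  have h1 : Summable fun p => V (φ p) * G p := .of_norm_bounded hS fun p => by
    rw [norm_mul, Complex.norm_real, Real.norm_of_nonneg (G0 p)]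
    exact mul_le_of_le_one_left (G0 p) (hV _)
  refine (((Equiv.sigmaFiberEquiv φ).hasSum_iff.2 h1.hasSum).sigma fun I => ?_).tsum_eq
  refine ((Complex.hasSum_ofReal.2 (fib I)).mul_left (V I)).congr_fun ?_
  rintro ⟨p, rfl⟩
  rfl

open Classical in
theorem LBd_finite (R : ℝ) : {x : 𝓞 K | ‖mixedEmbedding K (x : K)‖ ≤ R}.Finite := by
  have i1 : DiscreteTopology (mixedEmbedding.integerLattice K).toAddSubgroup :=
    inferInstanceAs (DiscreteTopology (mixedEmbedding.integerLattice K))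
  have i2 : DiscreteTopology (mixedEmbedding.integerLattice K : Set (mixedSpace K)) := i1
  have h := Metric.finite_isBounded_inter_isClosed
    (s := (mixedEmbedding.integerLattice K : Set (mixedSpace K))) DiscreteTopology.isDiscrete (Metric.isBounded_closedBall (x := 0) (r := R)) (by
      rw [← Submodule.coe_toAddSubgroup]
      exact AddSubgroup.isClosed_of_discrete)
  refine (h.preimage (f := fun x : 𝓞 K => mixedEmbedding K (x : K))
    (((mixedEmbedding_injective K).comp RingOfIntegers.coe_injective).injOn)).subset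
    fun x hx => ⟨by simpa using hx, x, rfl⟩

open Classical in
theorem LBd_lat {J : Ideal (𝓞 K)} (hJ : J ∈ (Ideal (𝓞 K))⁰) (a : 𝓞 K) (f : mixedSpace K → ℝ) :
    ∑' x : 𝓞 K, (if x - a ∈ J then f (mixedEmbedding K (x : K)) else 0) =
      ∑' y : idealLattice K (FractionalIdeal.mk0 K ⟨J, hJ⟩), f (y + mixedEmbedding K (a : K)) := by
  let g : J → idealLattice K (FractionalIdeal.mk0 K ⟨J, hJ⟩) := fun y =>
    ⟨mixedEmbedding K (y.1 : K), (mem_idealLattice K _).2
      ⟨_, (FractionalIdeal.mem_coeIdeal _).2 ⟨y.1, y.2, rfl⟩, rfl⟩⟩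
  have hg : Function.Bijective g := ⟨fun y z h => Subtype.ext (RingOfIntegers.coe_injective
    (mixedEmbedding_injective K (congrArg Subtype.val h))), fun y => by
      obtain ⟨z, hz, h⟩ := (mem_idealLattice K _).1 y.2
      obtain ⟨w, hw, rfl⟩ := (FractionalIdeal.mem_coeIdeal _).1 hz
      exact ⟨⟨w, hw⟩, Subtype.ext h⟩⟩
  rw [← (Equiv.ofBijective g hg).tsum_eq,
    ← Function.Injective.tsum_eq (g := fun y : J => y.1 + a)
      (fun y z h => Subtype.ext (add_right_cancel h)) fun x hx =>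
        ⟨⟨x - a, by_contra fun h => hx (if_neg h)⟩, sub_add_cancel _ _⟩]
  exact tsum_congr fun y => by simp [g]

open Classical in
theorem LBd_coset {m : ℕ} {𝔟 : Ideal (𝓞 K)} (hc : 𝔟 ⊔ Ideal.span {(m : 𝓞 K)} = ⊤)
    (hJ : 𝔟 * Ideal.span {(m : 𝓞 K)} ∈ (Ideal (𝓞 K))⁰) [Fintype (𝓞 K ⧸ Ideal.span {(m : 𝓞 K)})]
    {W : Ideal (𝓞 K) → ℂ} (hW : ∀ x y : 𝓞 K, W (Ideal.span {x + m * y}) = W (Ideal.span {x})) :
    ∃ a : 𝓞 K ⧸ Ideal.span {(m : 𝓞 K)} → mixedSpace K, ∀ f : mixedSpace K → ℝ,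
      (Summable fun x : 𝓞 K => f (mixedEmbedding K (x : K))) →
      ∑' x : 𝓞 K, (if Ideal.span {x} ≤ 𝔟 then W (Ideal.span {x}) else 0) *
          f (mixedEmbedding K (x : K)) =
        ∑ q, W (Ideal.span {q.out}) *
          (∑' y : idealLattice K (FractionalIdeal.mk0 K ⟨_, hJ⟩), f (y + a q) : ℝ) := by
  have h1 : ∀ q : 𝓞 K ⧸ Ideal.span {(m : 𝓞 K)}, ∃ a ∈ 𝔟, Ideal.Quotient.mk _ a = q := fun q => by
    obtain ⟨a, ha, b, hb, h⟩ := Submodule.mem_sup.1 (hc ▸ Submodule.mem_top (x := q.out))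
    refine ⟨a, ha, ?_⟩
    rw [← Ideal.Quotient.mk_out q, ← h, map_add, Ideal.Quotient.eq_zero_iff_mem.2 hb, add_zero]
  choose a ha ha' using h1
  refine ⟨fun q => mixedEmbedding K (a q : K), fun f hf => ?_⟩
  have h2 : ∀ x q, x - a q ∈ 𝔟 * Ideal.span {(m : 𝓞 K)} ↔ Ideal.Quotient.mk _ x = q ∧ x ∈ 𝔟 :=
    fun x q => by
      rw [Ideal.mul_eq_inf_of_coprime hc, Ideal.mem_inf, and_comm, ← Ideal.Quotient.eq, ha',
        𝔟.sub_mem_iff_left (ha q)]
  have h3 : ∀ x : 𝓞 K, W (Ideal.span {(Ideal.Quotient.mk (Ideal.span {(m : 𝓞 K)}) x).out}) =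
      W (Ideal.span {x}) := fun x => by
    obtain ⟨y, hy⟩ := Ideal.mem_span_singleton'.1 (Ideal.Quotient.eq.1 (Ideal.Quotient.mk_out
      (Ideal.Quotient.mk (Ideal.span {(m : 𝓞 K)}) x)))
    rw [← hW x y, mul_comm, hy, add_sub_cancel]
  simp only [← LBd_lat, Complex.ofReal_tsum, ← tsum_mul_left]
  rw [← Summable.tsum_finsetSum fun q _ => ?_]
  · refine tsum_congr fun x => ?_
    by_cases hx : x ∈ 𝔟
    · simp [h2, hx, apply_ite, h3]
    · simp [h2, hx]
  · refine (Complex.summable_ofReal.2 (.of_norm_bounded hf.norm fun x => ?_)).mul_left _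
    split_ifs <;> simp

end Vale.Agent.P024U
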