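import Mathlib

/-! A Lipschitz partition of unity for the action of units and of powers of 2 on the elements of nonzero norm.
One way: coordinates.  For `norm x ≠ 0` let `c x : Option ι → ℝ` consist of `log (norm x) / (d log 2)` and the
coordinates of `logMap x` in the real basis coming from `basisUnitLattice` (`logMap_unit_smul`, `logMap_real_smul`);
`f x = (∏ i, tent (c x i)) / torsionOrder` with `tent y = max 0 (1 - |y|)`, `∑ n : ℤ, tent (y + n) = 1`, and
`F s x = f x * norm x ^ (-s)`, zero where the norm vanishes.  Units are `torsion × (ι → ℤ)`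
(`exist_unique_eq_mul_prod`).  The support lies in a compact subset of `norm ≠ 0` (all `normAtPlace` are bounded above
and below), the function `(s, x) ↦ F s x` is locally Lipschitz, so Lipschitz on compact sets
(`LocallyLipschitzOn.exists_lipschitzOnWith_of_compact`).  Another way: `f0 / ∑ translates` for a bump `f0`. -/

namespace Vale.Agent.P024U
open NumberField NumberField.mixedEmbedding

open NumberField.Units NumberField.Units.dirichletUnitTheorem NumberField.InfinitePlace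

/-- a smooth bump whose integer translates sum to one -/
noncomputable def Wt_th (y : ℝ) : ℝ := Real.smoothTransition (y + 1) - Real.smoothTransition y

theorem Wt_th_nonneg (y : ℝ) : 0 ≤ Wt_th y :=
  sub_nonneg.2 (Real.smoothTransition.monotone (by linarith))

theorem Wt_th_supp {y : ℝ} (h : Wt_th y ≠ 0) : -1 < y ∧ y < 1 := by
  constructor
  · by_contra h1
    refine h ?_
    rw [Wt_th, Real.smoothTransition.zero_of_nonpos (by linarith),
      Real.smoothTransition.zero_of_nonpos (by linarith), sub_self]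
  · by_contra h1
    refine h ?_
    rw [Wt_th, Real.smoothTransition.one_of_one_le (by linarith),
      Real.smoothTransition.one_of_one_le (by linarith), sub_self]

theorem Wt_th_smooth : ContDiff ℝ 1 Wt_th :=
  ((Real.smoothTransition.contDiff (n := 1)).comp (contDiff_id.add contDiff_const)).sub
    (Real.smoothTransition.contDiff (n := 1))

theorem Wt_th_mem {y : ℝ} {n : ℤ} (h : Wt_th (n + y) ≠ 0) :
    n ∈ ({-⌊y⌋ - 1, -⌊y⌋} : Finset ℤ) := by
  obtain ⟨h1, h2⟩ := Wt_th_supp h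
  have h3 := Int.floor_le y
  have h4 := Int.lt_floor_add_one y
  have h5 : ((-⌊y⌋ - 2 : ℤ) : ℝ) < n := by push_cast; linarith
  have h6 : (n : ℝ) < ((-⌊y⌋ + 1 : ℤ) : ℝ) := by push_cast; linarith
  have h7 := Int.cast_lt.1 h5
  have h8 := Int.cast_lt.1 h6
  simp only [Finset.mem_insert, Finset.mem_singleton]
  omega

theorem Wt_th_two (y : ℝ) : ∑ n ∈ ({-⌊y⌋ - 1, -⌊y⌋} : Finset ℤ), Wt_th (n + y) = 1 := by
  have h3 := Int.floor_le y
  have h4 := Int.lt_floor_add_one y
  rw [Finset.sum_pair (by omega), Wt_th, Wt_th]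
  push_cast
  rw [show -(⌊y⌋ : ℝ) - 1 + y + 1 = -⌊y⌋ + y by ring,
    Real.smoothTransition.zero_of_nonpos (x := -(⌊y⌋ : ℝ) - 1 + y) (by linarith),
    Real.smoothTransition.one_of_one_le (x := -(⌊y⌋ : ℝ) + y + 1) (by linarith)]
  ring

theorem Wt_sum_one (y : ℝ) : HasSum (fun n : ℤ => Wt_th (n + y)) 1 := by
  rw [← Wt_th_two y]
  exact hasSum_sum_of_ne_finset_zero fun n hn => by_contra fun h => hn (Wt_th_mem h)

theorem Wt_sum_pi {ι : Type*} [Fintype ι] [DecidableEq ι] (c : ι → ℝ) :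
    HasSum (fun e : ι → ℤ => ∏ i, Wt_th (e i + c i)) 1 := by
  have h := Finset.prod_univ_sum (fun i => ({-⌊c i⌋ - 1, -⌊c i⌋} : Finset ℤ))
    fun i (n : ℤ) => Wt_th (n + c i)
  simp only [Wt_th_two, Finset.prod_const_one] at h
  rw [h]
  refine hasSum_sum_of_ne_finset_zero fun e he => by_contra fun h => he ?_
  exact Fintype.mem_piFinset.2 fun i => Wt_th_mem (Finset.prod_ne_zero_iff.1 h i (Finset.mem_univ i))

theorem Wt_congr {ι : Type*} {f g : ι → ℝ} {a : ℝ} (h : HasSum f a) (e : ∀ x, g x = f x) :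
    HasSum g a := (funext e : g = f) ▸ h

theorem Wt_prod {ι κ : Type*} {f : ι → ℝ} {g : κ → ℝ} (hf : HasSum f 1) (hg : HasSum g 1)
    (f0 : ∀ i, 0 ≤ f i) (g0 : ∀ i, 0 ≤ g i) : HasSum (fun p : ι × κ => f p.1 * g p.2) 1 := by
  simpa using hf.mul hg (hf.summable.mul_of_nonneg hg.summable f0 g0)

variable (K : Type*) [Field K] [NumberField K]

open Classical in
/-- the real basis of the logarithmic space -/
noncomputable def Wt_B : Module.Basis (Fin (rank K)) ℝ (logSpace K) :=
  (basisUnitLattice K).ofZLatticeBasis ℝ _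

theorem Wt_B_apply (i : Fin (rank K)) :
    Wt_B K i = logEmbedding K (Additive.ofMul (fundSystem K i)) := by
  classical
  rw [Wt_B, Module.Basis.ofZLatticeBasis_apply, logEmbedding_fundSystem]

theorem Wt_units (l : logSpace K) :
    HasSum (fun u : (𝓞 K)ˣ => (torsionOrder K : ℝ)⁻¹ *
      ∏ i, Wt_th ((Wt_B K).repr (logEmbedding K (Additive.ofMul u) + l) i)) 1 := by
  classical
  obtain ⟨e, he⟩ : ∃ e : torsion K × (Fin (rank K) → ℤ) ≃ (𝓞 K)ˣ,
      ∀ p, e p = p.1 * ∏ i, fundSystem K i ^ p.2 i :=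
    ⟨Equiv.ofBijective (fun p => p.1 * ∏ i, fundSystem K i ^ p.2 i)
      ⟨fun p q h => (exist_unique_eq_mul_prod K _).unique rfl h,
        fun u => (exist_unique_eq_mul_prod K u).exists.imp fun _ h => h.symm⟩, fun _ => rfl⟩
  refine e.hasSum_iff.1 ?_
  have h1 : HasSum (fun _ : torsion K => (torsionOrder K : ℝ)⁻¹) 1 := by
    have := Fintype.ofFinite (torsion K)
    have h := hasSum_fintype fun _ : torsion K => (torsionOrder K : ℝ)⁻¹
    rwa [Finset.sum_const, Finset.card_univ, ← Nat.card_eq_fintype_card, nsmul_eq_mul,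
      show (Nat.card (torsion K) : ℝ) * (torsionOrder K : ℝ)⁻¹ = 1 from
        mul_inv_cancel₀ (Nat.cast_ne_zero.2 (torsionOrder_ne_zero K))] at h
  have h2 := Wt_sum_pi fun i => (Wt_B K).repr l i
  have h3 := Wt_prod h1 h2 (fun _ => by positivity)
    fun _ => Finset.prod_nonneg fun _ _ => Wt_th_nonneg _
  refine Wt_congr h3 fun p => ?_
  have h4 : logEmbedding K (Additive.ofMul (e p)) = ∑ i, (p.2 i : ℝ) • Wt_B K i := by
    rw [he, ofMul_mul, map_add, logEmbedding_eq_zero_iff.2 p.1.2, zero_add, ofMul_prod, map_sum]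
    refine Finset.sum_congr rfl fun i _ => ?_
    rw [ofMul_zpow, map_zsmul, Wt_B_apply, Int.cast_smul_eq_zsmul]
  simp only [Function.comp_apply, h4, map_add, Finsupp.add_apply, Module.Basis.repr_sum_self]

variable {K}

/-- the weight -/
noncomputable def Wt_f (x : mixedSpace K) : ℝ :=
  ((torsionOrder K : ℝ)⁻¹ * ∏ i, Wt_th ((Wt_B K).repr (logMap x) i)) *
    Wt_th (Real.log (mixedEmbedding.norm x) / (Module.finrank ℚ K * Real.log 2))

theorem Wt_f_nonneg (x : mixedSpace K) : 0 ≤ Wt_f x :=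
  mul_nonneg (mul_nonneg (by positivity) (Finset.prod_nonneg fun _ _ => Wt_th_nonneg _))
    (Wt_th_nonneg _)

theorem Wt_norm (x : mixedSpace K) (u : (𝓞 K)ˣ) (n : ℤ) :
    mixedEmbedding.norm (((2 : ℝ) ^ (-n)) • (u • x))
      = (2 : ℝ) ^ (-(n * Module.finrank ℚ K : ℝ)) * mixedEmbedding.norm x := by
  rw [mixedEmbedding.norm_smul, norm_unit_smul, abs_of_pos (by positivity), ← Real.rpow_intCast,
    ← Real.rpow_natCast, ← Real.rpow_mul two_pos.le]
  push_cast
  rw [neg_mul]

theorem Wt_f_sum {x : mixedSpace K} (hx : mixedEmbedding.norm x ≠ 0) :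
    HasSum (fun p : (𝓞 K)ˣ × ℤ => Wt_f (((2 : ℝ) ^ (-p.2)) • (p.1 • x))) 1 := by
  have h1 := Wt_units K (logMap x)
  have h2 := (Equiv.neg ℤ).hasSum_iff.2
    (Wt_sum_one (Real.log (mixedEmbedding.norm x) / (Module.finrank ℚ K * Real.log 2)))
  have h3 := Wt_prod h1 h2
    (fun _ => mul_nonneg (by positivity) (Finset.prod_nonneg fun _ _ => Wt_th_nonneg _))
    fun _ => Wt_th_nonneg _
  refine Wt_congr h3 fun p => ?_
  have hd : (0 : ℝ) < Module.finrank ℚ K := Nat.cast_pos.2 Module.finrank_pos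
  have hl : 0 < Real.log 2 := Real.log_pos one_lt_two
  rw [Wt_f, logMap_real_smul (by rwa [norm_unit_smul]) (by positivity), logMap_unit_smul _ hx,
    Wt_norm, Real.log_mul (by positivity) hx, Real.log_rpow two_pos]
  simp only [Function.comp_apply, Equiv.neg_apply, Int.cast_neg]
  congr 2
  field_simp

theorem Wt_bound : ∃ A : ℝ, ∀ x : mixedSpace K, mixedEmbedding.norm x ≠ 0 → Wt_f x ≠ 0 →
    ∀ w, |Real.log (normAtPlace w x)| ≤ A := by
  classical
  obtain ⟨A, hA⟩ : ∃ A : ℝ, A = ∑ w, ∑ i, |Wt_B K i w| := ⟨_, rfl⟩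
  refine ⟨A + Real.log 2, fun x hx hf w => ?_⟩
  have hd : (0 : ℝ) < Module.finrank ℚ K := Nat.cast_pos.2 Module.finrank_pos
  have hl : 0 < Real.log 2 := Real.log_pos one_lt_two
  obtain ⟨h1, h2⟩ := mul_ne_zero_iff.1 hf
  have h3 := abs_lt.2 (Wt_th_supp h2)
  have h4 : |Real.log (mixedEmbedding.norm x) * (Module.finrank ℚ K : ℝ)⁻¹| ≤ Real.log 2 := by
    rw [abs_div, abs_of_pos (mul_pos hd hl), div_lt_one (mul_pos hd hl)] at h3
    rw [abs_mul, abs_of_pos (inv_pos.2 hd), ← div_eq_mul_inv, div_le_iff₀ hd, mul_comm]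
    exact h3.le
  have h5 : ∑ w, |logMap x w| ≤ A := by
    rw [hA]
    refine Finset.sum_le_sum fun w _ => ?_
    conv_lhs => rw [← (Wt_B K).sum_repr (logMap x), Finset.sum_apply]
    refine (Finset.abs_sum_le_sum_abs _ _).trans (Finset.sum_le_sum fun i _ => ?_)
    rw [Pi.smul_apply, smul_eq_mul, abs_mul]
    exact mul_le_of_le_one_left (abs_nonneg _) (abs_lt.2 (Wt_th_supp
      (Finset.prod_ne_zero_iff.1 (mul_ne_zero_iff.1 h1).2 i (Finset.mem_univ i)))).le
  have h6 : |(mult w : ℝ) * (Real.log (normAtPlace w x) -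
      Real.log (mixedEmbedding.norm x) * (Module.finrank ℚ K : ℝ)⁻¹)| ≤ A := by
    refine le_trans ?_ h5
    by_cases hw : w = w₀
    · have e1 : ∑ w : InfinitePlace K, (mult w : ℝ) * (Real.log (normAtPlace w x) -
          Real.log (mixedEmbedding.norm x) * (Module.finrank ℚ K : ℝ)⁻¹) = 0 := by
        simp only [mul_sub, Finset.sum_sub_distrib, ← Finset.sum_mul]
        rw [← Nat.cast_sum, sum_mult_eq, mul_comm (Real.log _), mul_inv_cancel_left₀ hd.ne',
          mixedEmbedding.norm_apply, Real.log_prod fun w _ =>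
            pow_ne_zero _ (mixedEmbedding.norm_ne_zero_iff.1 hx w)]
        simp only [Real.log_pow, sub_self]
      rw [Fintype.sum_eq_add_sum_subtype_ne _ w₀, add_eq_zero_iff_eq_neg] at e1
      rw [hw, e1, abs_neg]
      exact Finset.abs_sum_le_sum_abs _ _
    · exact Finset.single_le_sum (f := fun w => |logMap x w|) (fun _ _ => abs_nonneg _)
        (Finset.mem_univ (⟨w, hw⟩ : {w : InfinitePlace K // w ≠ w₀}))
  rw [abs_mul, Nat.abs_cast] at h6
  have h7 := (le_mul_of_one_le_left (abs_nonneg _) (one_le_mult (w := w))).trans h6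
  rw [abs_le] at h4 h7 ⊢
  constructor <;> linarith [h4.1, h4.2, h7.1, h7.2]

open Classical in
theorem Wt_cd_place {x : mixedSpace K} (w : InfinitePlace K) (hx : normAtPlace w x ≠ 0) :
    ContDiffAt ℝ 1 (fun y : mixedSpace K => normAtPlace w y) x := by
  rcases isReal_or_isComplex w with hw | hw
  · simp only [normAtPlace_apply_of_isReal hw] at hx ⊢
    exact ContDiffAt.norm ℝ (by fun_prop) (norm_ne_zero_iff.1 hx)
  · simp only [normAtPlace_apply_of_isComplex hw] at hx ⊢
    exact ContDiffAt.norm ℂ (by fun_prop) (norm_ne_zero_iff.1 hx)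

open Classical in
theorem Wt_cd_norm {x : mixedSpace K} (hx : mixedEmbedding.norm x ≠ 0) :
    ContDiffAt ℝ 1 (fun y : mixedSpace K => mixedEmbedding.norm y) x :=
  contDiffAt_prod fun w _ => (Wt_cd_place w (mixedEmbedding.norm_ne_zero_iff.1 hx w)).pow _

open Classical in
theorem Wt_cd_f {x : mixedSpace K} (hx : mixedEmbedding.norm x ≠ 0) :
    ContDiffAt ℝ 1 (Wt_f (K := K)) x := by
  have h1 := (Wt_cd_norm hx).log hx
  have h2 : ContDiffAt ℝ 1 (logMap (K := K)) x := contDiffAt_pi.2 fun w =>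
    contDiffAt_const.mul (((Wt_cd_place _ (mixedEmbedding.norm_ne_zero_iff.1 hx _)).log
      (mixedEmbedding.norm_ne_zero_iff.1 hx _)).sub (h1.mul contDiffAt_const))
  refine (contDiffAt_const.mul (contDiffAt_prod fun i _ => ?_)).mul
    (Wt_th_smooth.contDiffAt.comp x (h1.div_const _))
  exact Wt_th_smooth.contDiffAt.comp x
    (((Wt_B K).coord i).toContinuousLinearMap.contDiff.contDiffAt.comp x h2)

open Classical in
theorem weight_exists (K : Type*) [Field K] [NumberField K] :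
    ∃ (F : ℝ → mixedSpace K → ℝ) (R : ℝ) (Kc : NNReal), ∀ s ∈ Set.Icc (1 : ℝ) 2,
      LipschitzWith Kc (F s) ∧ Function.support (F s) ⊆ Metric.closedBall 0 R ∧ (∀ x, 0 ≤ F s x) ∧
      F s 0 = 0 ∧ ∀ x : mixedSpace K, mixedEmbedding.norm x ≠ 0 →
        HasSum (fun p : (𝓞 K)ˣ × ℤ => (2 : ℝ) ^ (-(p.2 * Module.finrank ℚ K * s)) *
          F s (((2 : ℝ) ^ (-p.2)) • (p.1 • x))) (mixedEmbedding.norm x ^ (-s)) := by
  obtain ⟨A, hA⟩ := Wt_bound (K := K)
  obtain ⟨C, hC⟩ : ∃ C : Set (mixedSpace K),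
    C = ⋂ w, normAtPlace w ⁻¹' Set.Icc (Real.exp (-A)) (Real.exp A) := ⟨_, rfl⟩
  have c1 : IsClosed C := hC ▸ isClosed_iInter fun w =>
    isClosed_Icc.preimage (continuous_normAtPlace w)
  have c2 : C ⊆ Metric.closedBall 0 (Real.exp A) := fun x hx => by
    rw [mem_closedBall_zero_iff, norm_eq_sup'_normAtPlace, Finset.sup'_le_iff]
    exact fun w _ => (Set.mem_iInter.1 (hC ▸ hx) w).2
  have c3 : ∀ x ∈ C, mixedEmbedding.norm x ≠ 0 := fun x hx =>
    mixedEmbedding.norm_ne_zero_iff.2 fun w =>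
      ((Real.exp_pos _).trans_le (Set.mem_iInter.1 (hC ▸ hx) w).1).ne'
  have c4 : ∀ s : ℝ, 0 < s → ∀ x, Wt_f x * mixedEmbedding.norm x ^ (-s) ≠ 0 → x ∈ C := by
    intro s hs x h
    obtain ⟨h1, h2⟩ := mul_ne_zero_iff.1 h
    have hx : mixedEmbedding.norm x ≠ 0 := fun h0 => h2 (by rw [h0, Real.zero_rpow (by linarith)])
    rw [hC]
    refine Set.mem_iInter.2 fun w => ?_
    have h3 := abs_le.1 (hA x hx h1 w)
    have h4 : 0 < normAtPlace w x := (normAtPlace_nonneg w x).lt_of_ne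
      (mixedEmbedding.norm_ne_zero_iff.1 hx w).symm
    exact ⟨(Real.le_log_iff_exp_le h4).1 h3.1, (Real.log_le_iff_le_exp h4).1 h3.2⟩
  obtain ⟨G, hG⟩ : ∃ G : ℝ × mixedSpace K → ℝ, G = fun p => (Real.smoothTransition p.1 *
    Real.smoothTransition (3 - p.1)) * (Wt_f p.2 * mixedEmbedding.norm p.2 ^ (-p.1)) := ⟨_, rfl⟩
  have g0 : IsCompact (Set.Icc (0 : ℝ) 3 ×ˢ C) :=
    isCompact_Icc.prod ((isCompact_closedBall _ _).of_isClosed_subset c1 c2)
  have g1 : ∀ p ∉ Set.Icc (0 : ℝ) 3 ×ˢ C, G p = 0 := fun p hp => by_contra fun h => hp (by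
    rw [hG] at h
    obtain ⟨h1, h2⟩ := mul_ne_zero_iff.1 h
    obtain ⟨h3, h4⟩ := mul_ne_zero_iff.1 h1
    rw [Ne, Real.smoothTransition.zero_iff_nonpos, not_le] at h3 h4
    exact ⟨⟨h3.le, by linarith⟩, c4 _ h3 _ h2⟩)
  have g2 : ContDiff ℝ 1 G := contDiff_iff_contDiffAt.2 fun p => by
    by_cases hp : p ∈ Set.Icc (0 : ℝ) 3 ×ˢ C
    · have hx := c3 _ hp.2
      have st := Real.smoothTransition.contDiff (n := 1)
      rw [hG]
      exact ((st.comp contDiff_fst).mul (st.comp (contDiff_const.sub contDiff_fst))).contDiffAt.mul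
        (((Wt_cd_f hx).comp p contDiffAt_snd).mul
          (((Wt_cd_norm hx).comp p contDiffAt_snd).rpow contDiffAt_fst.neg hx))
    · exact (contDiffAt_const (c := (0 : ℝ))).congr_of_eventuallyEq
        (Filter.eventually_of_mem (g0.isClosed.isOpen_compl.mem_nhds hp) g1)
  obtain ⟨L, hL⟩ := g2.lipschitzWith_of_hasCompactSupport (HasCompactSupport.intro g0 g1) one_ne_zero
  refine ⟨fun s x => Wt_f x * mixedEmbedding.norm x ^ (-s), Real.exp A, L, fun s hs =>
    ⟨?_, fun x hx => c2 (c4 s (by linarith [hs.1]) x hx), fun x => mul_nonneg (Wt_f_nonneg x)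
      (Real.rpow_nonneg (mixedEmbedding.norm_nonneg x) _), ?_, fun x hx => ?_⟩⟩
  · have := hL.comp (LipschitzWith.prodMk_left (β := mixedSpace K) s)
    rw [mul_one] at this
    refine (congrArg (LipschitzWith L) (funext fun x => ?_)).mp this
    simp only [hG, Function.comp_apply]
    rw [Real.smoothTransition.one_of_one_le hs.1,
      Real.smoothTransition.one_of_one_le (by linarith [hs.2]), one_mul, one_mul]
  · simp only [map_zero]
    rw [Real.zero_rpow (by linarith [hs.1]), mul_zero]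
  · have := (Wt_f_sum hx).mul_right (mixedEmbedding.norm x ^ (-s))
    rw [one_mul] at this
    refine Wt_congr this fun p => ?_
    simp only
    rw [Wt_norm, Real.mul_rpow (by positivity) (mixedEmbedding.norm_nonneg x),
      ← Real.rpow_mul two_pos.le, mul_left_comm, ← mul_assoc (_ ^ _), ← Real.rpow_add two_pos]
    simp

end Vale.Agent.P024U
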