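import Vale.Agent.P024U.Lat
import Vale.Agent.P024U.Wt
import Vale.Agent.P024U.Zeta
import Vale.Agent.P024U.LBdX1

/-! Sums over principal ideals in residue classes.  `Φ s = ∑_(k ≥ 0) 2^(-k d (s-1)) ∫ F s / covolume (𝓞 K)`.
The left side is `N𝔟^s ∑_(x ∈ 𝔟, x ≠ 0) ∑_k W (x) 2^(-k d s) F s (2^(-k) x)` (nonnegative summable families, the
generators of a nonzero principal ideal form one free orbit of units).  Terms with `k < -k0` vanish (`norm x ≥ 1`,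
bounded support), finitely many terms `-k0 ≤ k < 0` are bounded.  For `k ≥ 0` split `𝔟` into the `m^d` cosets of `m𝔟`
(`𝔟 / m𝔟 ≃ 𝓞 / m` because `𝔟 + m = 1`), apply `lat_sum` to the lattice of `m𝔟` (`mixedEmbedding.idealLattice`,
`covolume_idealLattice`, or the index formula `ZLattice.covolume_div_covolume_eq_relIndex`), `T = 2^k`; the errors
`2^(-k d s) 2^(k d - k)` are summable; `N𝔟^(s-1) = 1 + O(s-1)`. -/

namespace Vale.Agent.P024U
open NumberField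

theorem LBd_r {d : ℕ} (hd : 0 < d) {t : ℝ} (h0 : 0 < t) (h1 : t ≤ 1) :
    (2 : ℝ) ^ (-(d * t)) ≤ 1 - t / 2 := by
  have h2 := rpow_one_add_le_one_add_mul_self (s := -1 / 2) (by norm_num) h0.le h1
  have h3 : (1 : ℝ) ≤ d := by exact_mod_cast hd
  calc (2 : ℝ) ^ (-(d * t)) ≤ 2 ^ (-t) :=
        Real.rpow_le_rpow_of_exponent_le one_le_two (by nlinarith)
    _ = (1 + -1 / 2) ^ t := by
        rw [Real.rpow_neg zero_le_two, ← Real.inv_rpow zero_le_two]; norm_num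
    _ ≤ _ := by linarith

theorem LBd_pos {Q : Type*} [Fintype Q] {w : Q → ℂ} (hw : ∀ q, ‖w q‖ ≤ 1) {L : ℕ → Q → ℝ}
    {c : ℕ → ℝ} {r A D : ℝ} {h : ℕ → ℂ} (hs : Summable h) (r0 : 0 ≤ r) (r1 : r < 1)
    (h1 : ∀ n, h n = c n * ∑ q, w q * L n q)
    (h2 : ∀ n q, |c n * L n q - r ^ n * A| ≤ D * (1 / 2) ^ n) :
    ‖∑' n, h n - (∑ q, w q) * ((1 - r)⁻¹ * A : ℝ)‖ ≤ Fintype.card Q * D * 2 := by
  have h3 := (Complex.hasSum_ofReal.2 ((hasSum_geometric_of_lt_one r0 r1).mul_right A)).mul_left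
    (∑ q, w q)
  rw [← h3.tsum_eq, ← hs.tsum_sub h3.summable]
  refine tsum_of_norm_bounded (hasSum_geometric_two.mul_left _) fun n => ?_
  rw [h1, Finset.mul_sum, Finset.sum_mul, ← Finset.sum_sub_distrib]
  refine (norm_sum_le _ _).trans ((Finset.sum_le_card_nsmul _ _ (D * (1 / 2) ^ n)
    fun q _ => ?_).trans_eq (by simp [mul_assoc]))
  rw [mul_left_comm, ← mul_sub, ← Complex.ofReal_mul, ← Complex.ofReal_sub, norm_mul,
    Complex.norm_real, Real.norm_eq_abs]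
  exact (mul_le_of_le_one_left (abs_nonneg _) (hw q)).trans (h2 n q)

theorem LBd_fin {X Y S : ℂ} {N M Φ s C0 C1 C2 C3 : ℝ} (hN : 1 ≤ N) (hM : 1 ≤ M) (s1 : 1 < s)
    (s2 : s ≤ 2) (hΦ : |Φ| ≤ C0 / (s - 1)) (hX : ‖X - S * (Φ / (N * M) : ℝ)‖ ≤ C1)
    (hY : ‖Y‖ ≤ C2) (hS : ‖S‖ ≤ C3) :
    ‖(N ^ s : ℝ) * (X + Y) - S / M * Φ‖ ≤ N ^ 2 * (C1 + C2) + C3 * (C0 * (N - 1)) := by
  have N0 : 0 < N := by linarith
  have a1 : N ^ s ≤ N ^ 2 := by
    rw [← Real.rpow_two]; exact Real.rpow_le_rpow_of_exponent_le hN s2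
  have a2 : N ^ (s - 1) ≤ 1 + (s - 1) * (N - 1) := by
    simpa using rpow_one_add_le_one_add_mul_self (s := N - 1) (p := s - 1) (by linarith)
      (by linarith) (by linarith)
  have a3 : 1 ≤ N ^ (s - 1) := Real.one_le_rpow hN (by linarith)
  have a4 : N ^ s = N ^ (s - 1) * N := by rw [← Real.rpow_add_one N0.ne', sub_add_cancel]
  have e : (N ^ s : ℝ) * (X + Y) - S / M * Φ = (N ^ s : ℝ) * ((X - S * (Φ / (N * M) : ℝ)) + Y) +
      S * (Φ * (N ^ (s - 1) - 1) / M : ℝ) := by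
    have : (N : ℂ) ≠ 0 := Complex.ofReal_ne_zero.2 N0.ne'
    have : (M : ℂ) ≠ 0 := Complex.ofReal_ne_zero.2 (by linarith)
    rw [a4]
    push_cast
    field_simp
    ring
  have b1 : |Φ * (N ^ (s - 1) - 1) / M| ≤ C0 * (N - 1) := by
    rw [abs_div, abs_mul, abs_of_nonneg (sub_nonneg.2 a3), abs_of_nonneg (by linarith : 0 ≤ M)]
    refine (div_le_self (mul_nonneg (abs_nonneg _) (sub_nonneg.2 a3)) hM).trans ?_
    calc _ ≤ C0 / (s - 1) * ((s - 1) * (N - 1)) :=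
          mul_le_mul hΦ (by linarith) (sub_nonneg.2 a3) ((abs_nonneg _).trans hΦ)
      _ = _ := by
          have : s - 1 ≠ 0 := by linarith
          field_simp
  rw [e]
  refine (norm_add_le _ _).trans (add_le_add ?_ ?_)
  · rw [norm_mul, Complex.norm_real, Real.norm_of_nonneg (by positivity)]
    exact mul_le_mul a1 ((norm_add_le _ _).trans (add_le_add hX hY)) (norm_nonneg _) (by positivity)
  · rw [norm_mul, Complex.norm_real, Real.norm_eq_abs]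
    exact mul_le_mul hS b1 (abs_nonneg _) ((norm_nonneg _).trans hS)

theorem LBd_phi {d : ℕ} (d0 : 0 < d) {c s I B : ℝ} (c0 : 0 < c) (hs : s ∈ Set.Ioc (1 : ℝ) 2)
    (hI : |I| ≤ B) : |(1 - (2 : ℝ) ^ (-(d * (s - 1))))⁻¹ * I / c| ≤ 2 * B / c / (s - 1) := by
  have t0 : 0 < s - 1 := sub_pos.2 hs.1
  have h1 := LBd_r d0 t0 (by linarith [hs.2])
  have h2 : (1 - (2 : ℝ) ^ (-(d * (s - 1))))⁻¹ ≤ ((s - 1) / 2)⁻¹ :=
    inv_anti₀ (by positivity) (by linarith)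
  rw [abs_div, abs_mul, abs_of_pos c0, abs_of_nonneg (inv_nonneg.2 (by linarith))]
  calc _ ≤ ((s - 1) / 2)⁻¹ * B / c := by gcongr
    _ = _ := by field_simp

theorem LBd_ite (P Q : Prop) [Decidable P] [Decidable Q] [Decidable (P ∧ Q)] (w : ℂ) {a N : ℝ}
    (ha : 0 ≤ a) (hN : 0 ≤ N) (s : ℝ) : (if P ∧ Q then w * ((a / N) ^ (-s) : ℝ) else 0) =
      (N ^ s : ℝ) * ((if Q then w else 0) * (if P then a ^ (-s) else 0 : ℝ)) := by
  by_cases h1 : P <;> by_cases h2 : Q <;> simp only [h1, h2, and_self,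
    and_false, and_true, if_true, if_false, zero_mul, mul_zero, Complex.ofReal_zero]
  rw [Real.div_rpow ha hN, Real.rpow_neg hN, div_inv_eq_mul]
  push_cast
  ring

theorem LBd_err {n d : ℕ} {s L I c C k : ℝ} (r1 : (2 : ℝ) ^ (-(d * (s - 1))) ≤ 1) (hk : 0 ≤ k)
    (h : |L - ((2 : ℝ) ^ n) ^ d * I / c| ≤ C * k * (2 ^ n) ^ d / 2 ^ n) :
    |(2 : ℝ) ^ (-(n * d * s)) * L - ((2 : ℝ) ^ (-(d * (s - 1)))) ^ n * (I / c)| ≤
      |C| * k * (1 / 2) ^ n := by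
  have e2 : (2 : ℝ) ^ (-(n * d * s)) * (2 ^ n) ^ d = ((2 : ℝ) ^ (-(d * (s - 1)))) ^ n := by
    rw [← pow_mul, ← Real.rpow_natCast, ← Real.rpow_natCast, ← Real.rpow_add two_pos,
      ← Real.rpow_mul zero_le_two]
    congr 1
    push_cast
    ring
  have p : 0 ≤ (2 : ℝ) ^ (-(n * d * s)) := by positivity
  have e3 := mul_le_mul_of_nonneg_left h p
  rw [← abs_of_nonneg p, ← abs_mul, abs_of_nonneg p, mul_sub, mul_div_assoc, ← mul_assoc, e2] at e3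
  refine e3.trans ?_
  rw [show (2 : ℝ) ^ (-(n * d * s)) * (C * k * (2 ^ n) ^ d / 2 ^ n) =
    C * k * (1 / 2) ^ n * ((2 : ℝ) ^ (-(n * d * s)) * (2 ^ n) ^ d) by
      rw [one_div, inv_pow]; ring, e2]
  refine le_trans ?_ (mul_le_of_le_one_right (by positivity)
    (pow_le_one₀ (n := n) (by positivity) r1))
  gcongr
  exact le_abs_self C

theorem LBd_neg {K : Type*} [Field K] [NumberField K] {G : ℤ × 𝓞 K → ℝ} {s : ℝ} (hs : 1 < s)
    (hS : Summable G) (G0 : ∀ p, 0 ≤ G p) (Gz : ∀ k, G (k, 0) = 0)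
    (hG : ∀ x : 𝓞 K, x ≠ 0 → HasSum (fun p : (𝓞 K)ˣ × ℤ => G (p.2, p.1 * x))
      ((Ideal.absNorm (Ideal.span {x}) : ℝ) ^ (-s))) {g : ℤ × 𝓞 K → ℂ} (hg : ∀ p, ‖g p‖ ≤ G p)
    {A : Finset (𝓞 K)} (hA : ∀ (n : ℕ) x, G (-(n + 1), x) ≠ 0 → x ∈ A) :
    ‖∑' (n : ℕ) (x : 𝓞 K), g (-(n + 1), x)‖ ≤ A.card := by
  have inj : Function.Injective fun n : ℕ => (-(n + 1) : ℤ) := fun n n' h => by simpa using h
  have sx : ∀ x : 𝓞 K, Summable fun n : ℕ => G (-(n + 1), x) := fun x =>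
    (hS.prod_symm.prod_factor x).comp_injective inj
  refine (tsum_of_norm_bounded (hasSum_sum (s := A)
    fun x _ => (sx x).hasSum) fun n => ?_).trans ((Finset.sum_le_card_nsmul _ _ 1
      fun x _ => ?_).trans_eq (by simp))
  · exact tsum_of_norm_bounded (hasSum_sum_of_ne_finset_zero fun x hx =>
      by_contra fun h => hx (hA n x h)) fun x => hg (_, x)
  · by_cases hx : x = 0
    · simp [hx, Gz]
    refine (hasSum_le_inj (fun n : ℕ => ((1, -(n + 1)) : (𝓞 K)ˣ × ℤ))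
      (fun n n' h => inj (congrArg Prod.snd h)) (fun _ _ => G0 _) (fun n => by simp)
      (sx x).hasSum (hG x hx)).trans ?_
    exact Real.rpow_le_one_of_one_le_of_nonpos (LBd_one_le hx) (by linarith)

open mixedEmbedding MeasureTheory in
open Classical in
theorem princ_sum (K : Type*) [Field K] [NumberField K] :
    ∃ (Φ : ℝ → ℝ) (C0 : ℝ), (∀ s ∈ Set.Ioc (1 : ℝ) 2, |Φ s| ≤ C0 / (s - 1)) ∧
      ∀ (m : ℕ), m ≠ 0 → ∀ 𝔟 : Ideal (𝓞 K), 𝔟 ≠ ⊥ → 𝔟 ⊔ Ideal.span {(m : 𝓞 K)} = ⊤ →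
      ∀ W : Ideal (𝓞 K) → ℂ, (∀ I, ‖W I‖ ≤ 1) →
      (∀ x y : 𝓞 K, W (Ideal.span {x + m * y}) = W (Ideal.span {x})) →
      ∃ C : ℝ, ∀ s ∈ Set.Ioc (1 : ℝ) 2,
        ‖(∑' I : Ideal (𝓞 K), if I.IsPrincipal ∧ I ≤ 𝔟 then
            W I * (((Ideal.absNorm I : ℝ) / Ideal.absNorm 𝔟) ^ (-s) : ℝ) else 0) -
          (∑ᶠ q : 𝓞 K ⧸ Ideal.span {(m : 𝓞 K)}, W (Ideal.span {q.out})) /
            (m : ℂ) ^ Module.finrank ℚ K * Φ s‖ ≤ C := by
  obtain ⟨F, R, Kc, hF⟩ := weight_exists K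
  set d := Module.finrank ℚ K with hd
  have d0 : 0 < d := Module.finrank_pos
  set cK : ℝ := (2⁻¹) ^ InfinitePlace.nrComplexPlaces K * √|(discr K : ℝ)| with hcK
  have c0 : 0 < cK := mul_pos (by positivity)
    (Real.sqrt_pos.2 (abs_pos.2 (Int.cast_ne_zero.2 (discr_ne_zero K))))
  set B : ℝ := Kc * R * volume.real (Metric.closedBall (0 : mixedSpace K) R) with hB
  have hI : ∀ s ∈ Set.Icc (1 : ℝ) 2, |∫ y, F s y| ≤ B := fun s hs => by
    obtain ⟨f1, f2, -, f4, -⟩ := hF s hs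
    rw [← setIntegral_eq_integral_of_forall_compl_eq_zero (s := Metric.closedBall 0 R)
      fun x hx => by_contra fun h => hx (f2 h), ← Real.norm_eq_abs]
    refine norm_setIntegral_le_of_norm_le_const measure_closedBall_lt_top fun x hx => ?_
    have := f1.dist_le_mul x 0
    rw [f4, dist_zero_right] at this
    exact this.trans (mul_le_mul_of_nonneg_left hx Kc.2)
  have hΦ := fun s (hs : s ∈ Set.Ioc (1 : ℝ) 2) => LBd_phi d0 c0 hs (hI s ⟨hs.1.le, hs.2⟩)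
  refine ⟨fun s => (1 - (2 : ℝ) ^ (-(d * (s - 1))))⁻¹ * (∫ y, F s y) / cK, 2 * B / cK, hΦ,
    fun m hm 𝔟 hb hc W hW1 hW2 => ?_⟩
  have hm' : Ideal.span {(m : 𝓞 K)} ≠ ⊥ := by simpa using hm
  have : Finite (𝓞 K ⧸ Ideal.span {(m : 𝓞 K)}) := Ideal.finiteQuotientOfFreeOfNeBot _ hm'
  have := Fintype.ofFinite (𝓞 K ⧸ Ideal.span {(m : 𝓞 K)})
  have hJ := mem_nonZeroDivisors_of_ne_zero (mul_ne_zero hb hm')
  obtain ⟨a, ha⟩ := LBd_coset hc hJ hW2
  obtain ⟨C, hC⟩ := lat_sum volume (idealLattice K (FractionalIdeal.mk0 K ⟨_, hJ⟩)) R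
  set N : ℝ := ((Ideal.absNorm 𝔟 : ℕ) : ℝ) with hN
  have N1 : 1 ≤ N := by
    have : Ideal.absNorm 𝔟 ≠ 0 := by simpa [Ideal.absNorm_eq_zero_iff] using hb
    rw [hN]
    exact_mod_cast Nat.one_le_iff_ne_zero.2 this
  have hcov : ZLattice.covolume (idealLattice K (FractionalIdeal.mk0 K ⟨_, hJ⟩)) volume =
      N * m ^ d * cK := by
    rw [covolume_idealLattice, FractionalIdeal.coe_mk0, FractionalIdeal.coeIdeal_absNorm, map_mul,
      Ideal.absNorm_span_natCast, RingOfIntegers.rank, hcK, mul_assoc]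
    push_cast
    rfl
  rw [hcov, mixedEmbedding.finrank] at hC
  refine ⟨N ^ 2 * (Fintype.card (𝓞 K ⧸ Ideal.span {(m : 𝓞 K)}) * (|C| * Kc) * 2 +
    (LBd_finite (K := K) R).toFinset.card) +
    Fintype.card (𝓞 K ⧸ Ideal.span {(m : 𝓞 K)}) * (2 * B / cK * (N - 1)), fun s hs => ?_⟩
  obtain ⟨f1, f2, f3, f4, f5⟩ := hF s ⟨hs.1.le, hs.2⟩
  let G : ℤ × 𝓞 K → ℝ := fun p => (2 : ℝ) ^ (-(p.1 * d * s)) *
    F s (((2 : ℝ) ^ (-p.1)) • mixedEmbedding K (p.2 : K))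
  have G0 : ∀ p, 0 ≤ G p := fun p => mul_nonneg (by positivity) (f3 _)
  have Gz : ∀ k, G (k, 0) = 0 := fun k => by simp [G, f4]
  have hG : ∀ x : 𝓞 K, x ≠ 0 → HasSum (fun p : (𝓞 K)ˣ × ℤ => G (p.2, p.1 * x))
      ((Ideal.absNorm (Ideal.span {x}) : ℝ) ^ (-s)) := fun x hx => by
    have := f5 (mixedEmbedding K (x : K)) (by rw [LBd_norm]; linarith [LBd_one_le hx])
    rw [LBd_norm] at this
    refine this.congr_fun fun p => ?_
    rw [(unit_smul_eq_iff_mul_eq (y := (p.1 : 𝓞 K) * x)).2 rfl]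
  obtain ⟨hS, hU⟩ := LBd_unfold hs.1 G0 Gz hG
  let V : Ideal (𝓞 K) → ℂ := fun I => if I ≤ 𝔟 then W I else 0
  have hV : ∀ I, ‖V I‖ ≤ 1 := fun I => by
    simp only [V]
    split_ifs
    exacts [hW1 I, by simp]
  have hVG : ∀ p : ℤ × 𝓞 K, ‖V (Ideal.span {p.2}) * G p‖ ≤ G p := fun p => by
    rw [norm_mul, Complex.norm_real, Real.norm_of_nonneg (G0 p)]
    exact mul_le_of_le_one_left (G0 p) (hV _)
  have hS' : Summable fun p : ℤ × 𝓞 K => V (Ideal.span {p.2}) * G p := .of_norm_bounded hS hVG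
  have hn : Summable fun n : ℕ => ∑' x : 𝓞 K, V (Ideal.span {x}) * G (n, x) :=
    hS'.prod.comp_injective Nat.cast_injective
  have inj : Function.Injective fun n : ℕ => (-(n + 1) : ℤ) := fun n n' h => by simpa using h
  rw [tsum_congr fun I => LBd_ite _ _ _ (Nat.cast_nonneg _) (by linarith) s, tsum_mul_left,
    hU V hV, hS'.tsum_prod,
    tsum_of_nat_of_neg_add_one (f := fun k => ∑' x : 𝓞 K, V (Ideal.span {x}) * G (k, x)) hn
      (hS'.prod.comp_injective inj), finsum_eq_sum_of_fintype,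
    ← Complex.ofReal_natCast, ← Complex.ofReal_pow]
  refine LBd_fin N1 (one_le_pow₀ (by exact_mod_cast Nat.one_le_iff_ne_zero.2 hm)) hs.1 hs.2
    (hΦ s hs) ?_ ?_ ((norm_sum_le _ _).trans ((Finset.sum_le_card_nsmul _ _ 1
      fun q _ => hW1 _).trans_eq (by simp)))
  · have r0 : 0 ≤ (2 : ℝ) ^ (-(d * (s - 1))) := by positivity
    have r1 : (2 : ℝ) ^ (-(d * (s - 1))) < 1 := by
      linarith [LBd_r d0 (sub_pos.2 hs.1) (by linarith [hs.2]), hs.1]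
    have z : ∀ n : ℕ, (2 : ℝ) ^ (-(n : ℤ)) = (2 ^ n)⁻¹ := fun n => by simp
    rw [show (1 - (2 : ℝ) ^ (-(d * (s - 1))))⁻¹ * (∫ y, F s y) / cK / (N * m ^ d) =
      (1 - (2 : ℝ) ^ (-(d * (s - 1))))⁻¹ * ((∫ y, F s y) / (N * m ^ d * cK)) by ring]
    refine LBd_pos (fun q => hW1 _) (c := fun n => (2 : ℝ) ^ (-(n * d * s)))
      (L := fun n q => ∑' y : idealLattice K (FractionalIdeal.mk0 K ⟨_, hJ⟩),
        F s (((2 : ℝ) ^ n)⁻¹ • (y + a q))) hn r0 r1 (fun n => ?_) fun n q => ?_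
    · rw [← ha (fun v => F s (((2 : ℝ) ^ n)⁻¹ • v)), ← tsum_mul_left]
      · refine tsum_congr fun x => ?_
        simp only [G, z, Int.cast_natCast, V]
        push_cast
        ring
      · have := (hS.prod_factor n).mul_left ((2 : ℝ) ^ (-(n * d * s)))⁻¹
        refine this.congr fun x => ?_
        simp only [G, z, Int.cast_natCast]
        rw [inv_mul_cancel_left₀ (by positivity)]
    · exact LBd_err r1.le Kc.2 (hC Kc (F s) f1 f2 (a q) (2 ^ n) (one_le_pow₀ one_le_two))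
  · refine LBd_neg hs.1 hS G0 Gz hG hVG fun n x h => ?_
    have h1 := f2 (right_ne_zero_of_mul h)
    rw [mem_closedBall_zero_iff, _root_.norm_smul, Real.norm_of_nonneg (by positivity)] at h1
    refine (Set.Finite.mem_toFinset _).2 (le_trans ?_ h1)
    exact le_mul_of_one_le_left (norm_nonneg _) (one_le_zpow₀ one_le_two (by omega))

end Vale.Agent.P024U
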