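import Vale.Agent.P024U.LBkX0
import Vale.Agent.P024U.XApi

/-! Kummer characters modulo `t ^ n` of `H ⊓ ker chi`. -/

namespace Vale.Agent.P024U
open scoped Classical

theorem lb_prim (q : ℕ) (hq : q ≠ 0) : ∃ ζ : Om, IsPrimitiveRoot ζ q := by
  have : NeZero q := ⟨hq⟩
  have : NeZero (q : Om) := ⟨Nat.cast_ne_zero.2 hq⟩
  exact HasEnoughRootsOfUnity.exists_primitiveRoot Om q

theorem lb_log (q : ℕ) (hq : q ≠ 0) : ∃ lg : Om → ZMod q,
    (∀ z z', z ^ q = 1 → z' ^ q = 1 → lg (z * z') = lg z + lg z') ∧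
    (∀ z, z ^ q = 1 → ∀ k : ℕ, lg (z ^ k) = k * lg z) ∧ ∀ z, z ^ q = 1 → lg z = 0 → z = 1 := by
  have : NeZero q := ⟨hq⟩
  obtain ⟨ζ, hζ⟩ := lb_prim q hq
  obtain ⟨lg, hlg⟩ : ∃ lg : Om → ZMod q, ∀ i : ℕ, lg (ζ ^ i) = i := by
    refine ⟨fun z => if h : ∃ i : ℕ, ζ ^ i = z then (h.choose : ZMod q) else 0, fun i => ?_⟩
    have h : ∃ j : ℕ, ζ ^ j = ζ ^ i := ⟨i, rfl⟩
    simp only [dif_pos h]
    have h1 := h.choose_spec
    rw [(hζ.isOfFinOrder hq).pow_eq_pow_iff_modEq, ← hζ.eq_orderOf] at h1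
    exact (ZMod.natCast_eq_natCast_iff _ _ _).2 h1
  refine ⟨lg, fun z z' hz hz' => ?_, fun z hz k => ?_, fun z hz h => ?_⟩
  · obtain ⟨i, -, rfl⟩ := hζ.eq_pow_of_pow_eq_one hz
    obtain ⟨j, -, rfl⟩ := hζ.eq_pow_of_pow_eq_one hz'
    rw [← pow_add, hlg, hlg, hlg, Nat.cast_add]
  · obtain ⟨i, -, rfl⟩ := hζ.eq_pow_of_pow_eq_one hz
    rw [← pow_mul, hlg, hlg, Nat.cast_mul, mul_comm]
  · obtain ⟨i, -, rfl⟩ := hζ.eq_pow_of_pow_eq_one hz
    rw [hlg, ZMod.natCast_eq_zero_iff] at h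
    exact (hζ.pow_eq_one_iff_dvd i).2 h

variable {t : ℕ} [Fact t.Prime]

theorem lb_ker_le (n : ℕ) : (chi t).ker ≤ Gmu (t ^ n) := fun g hg => by
  rw [mem_Gmu_pow, MonoidHom.mem_ker.1 hg, Units.val_one, map_one]

theorem lb_ine {P : Pr} (hP : ch P ≠ t) : Ine P ≤ (chi t).ker := fun σ hσ => by
  rw [MonoidHom.mem_ker, ← map_one (chi t), chi_eq_iff]
  intro n z hz
  exact Ine_le_Gmu (fun hd => hP ((Nat.prime_dvd_prime_iff_eq (ch_prime P) Fact.out).1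
    ((ch_prime P).dvd_of_dvd_pow hd))) hσ z hz

theorem lb_conj {H : Subgroup Ga} {g h : Ga} (hg : g ∈ H) (hh : h ∈ H ⊓ (chi t).ker) :
    g⁻¹ * h * g ∈ H ⊓ (chi t).ker := by
  refine ⟨H.mul_mem (H.mul_mem (H.inv_mem hg) hh.1) hg, ?_⟩
  have := (MonoidHom.normal_ker (chi t)).conj_mem h hh.2 g⁻¹
  rwa [inv_inv] at this

/-- the Kummer character of `w` -/
noncomputable def lbK (A : Subgroup Ga) {q : ℕ} (lg : Om → ZMod q) (w : Om) : Ga → ZMod q :=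
  fun h => if h ∈ A then lg (h w / w) else 0

theorem lb_root {A : Subgroup Ga} {q : ℕ} {w : Om} (h0 : w ≠ 0) (hw : w ^ q ∈ fix A) {h : Ga}
    (hh : h ∈ A) : (h w / w) ^ q = 1 := by
  rw [div_pow, ← map_pow, mem_fix.1 hw h hh, div_self (pow_ne_zero _ h0)]

section
variable {A : Subgroup Ga} {q : ℕ} {lg : Om → ZMod q}
  (l1 : ∀ z z', z ^ q = 1 → z' ^ q = 1 → lg (z * z') = lg z + lg z')
include l1

theorem lb_lg_one : lg 1 = 0 := by
  have := l1 1 1 (one_pow _) (one_pow _)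
  rw [mul_one] at this
  exact left_eq_add.1 this

theorem lbK_mul {w w' : Om} (h0 : w ≠ 0) (hw : w ^ q ∈ fix A) (h0' : w' ≠ 0)
    (hw' : w' ^ q ∈ fix A) : lbK A lg (w * w') = lbK A lg w + lbK A lg w' := by
  funext h
  by_cases hh : h ∈ A
  · simp only [lbK, if_pos hh, Pi.add_apply]
    rw [map_mul, mul_div_mul_comm, l1 _ _ (lb_root h0 hw hh) (lb_root h0' hw' hh)]
  · simp only [lbK, if_neg hh, Pi.add_apply, add_zero]

omit l1 in
theorem lbK_congr (hA : A ≤ Gmu q) (hq : q ≠ 0) {w w' : Om} (h0 : w ≠ 0) (h : w ^ q = w' ^ q) :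
    lbK A lg w = lbK A lg w' := by
  have h0' : w' ≠ 0 := by
    rintro rfl
    rw [zero_pow hq] at h
    exact pow_ne_zero _ h0 h
  funext g
  by_cases hg : g ∈ A
  · simp only [lbK, if_pos hg]
    have h1 := hA hg (w / w') (by rw [div_pow, h, div_self (pow_ne_zero _ h0')])
    have h2 : g w' ≠ 0 := (map_ne_zero g).2 h0'
    rw [map_div₀, div_eq_div_iff h2 h0'] at h1
    congr 1
    rw [div_eq_div_iff h0 h0', h1, mul_comm]
  · simp only [lbK, if_neg hg]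

theorem lbK_isX (hA : A ≤ Gmu q) {w : Om} (h0 : w ≠ 0) (hw : w ^ q ∈ fix A) :
    IsX A (lbK A lg w) := by
  refine isX_of_op (fun a ha b hb => ?_)
    ⟨MulAction.stabilizer Ga w, op_stab w, fun a ha h => ?_⟩
  · simp only [lbK, if_pos ha, if_pos hb, if_pos (A.mul_mem ha hb)]
    rw [← l1 _ _ (lb_root h0 hw ha) (lb_root h0 hw hb), ← hA ha _ (lb_root h0 hw hb), map_div₀,
      AlgEquiv.mul_apply]
    have : a w ≠ 0 := (map_ne_zero a).2 h0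
    congr 1
    field_simp
  · have h1 : a w = w := h
    simp only [lbK, if_pos ha]
    rw [h1, div_self h0, lb_lg_one l1]

theorem lbK_ine {w : Om} (h0 : w ≠ 0) (hw : w ^ q ∈ fix A) {P : Pr} (hP : ¬ ch P ∣ q)
    (hv : val P w = 0) {σ : Ga} (hσ : σ ∈ Ine P) : lbK A lg w σ = 0 := by
  by_cases hh : σ ∈ A
  · simp only [lbK, if_pos hh]
    have h1 := (Ine.pos hσ hv.ge).mul_sm (y := w⁻¹) (Or.inr (by rw [val_inv, hv, neg_zero]))
    rw [← div_eq_mul_inv, sub_div, div_self h0] at h1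
    rw [root_eq_one hP (lb_root h0 hw hh) h1, lb_lg_one l1]
  · simp only [lbK, if_neg hh]

end

theorem lbK_eig {H : Subgroup Ga} {n : ℕ} {lg : Om → ZMod (t ^ n)}
    (l2 : ∀ z, z ^ t ^ n = 1 → ∀ k : ℕ, lg (z ^ k) = k * lg z) {w z : Om} (h0 : w ≠ 0)
    (hw : w ^ t ^ n ∈ fix (H ⊓ (chi t).ker)) {g h : Ga} (hg : g ∈ H)
    (hh : h ∈ H ⊓ (chi t).ker) {e : ℕ} (hz : z ∈ fix (H ⊓ (chi t).ker))
    (he : g w = w ^ e * z) :
    lbK (H ⊓ (chi t).ker) lg w (g⁻¹ * h * g) =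
      PadicInt.toZModPow n (chi t g⁻¹ : ℤ_[t]) * e * lbK (H ⊓ (chi t).ker) lg w h := by
  have : NeZero (t ^ n) := ⟨pow_ne_zero _ (Fact.out : t.Prime).ne_zero⟩
  simp only [lbK, if_pos hh, if_pos (lb_conj hg hh)]
  have hz0 : z ≠ 0 := by
    rintro rfl
    rw [mul_zero] at he
    exact (map_ne_zero g).2 h0 he
  have h1 := lb_root h0 hw hh
  have h2 : ((h w / w) ^ e) ^ t ^ n = 1 := by rw [← pow_mul, mul_comm, pow_mul, h1, one_pow]
  have h3 : (g⁻¹ * h * g) w / w = g⁻¹ ((h w / w) ^ e) := by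
    have h4 : (h w / w) ^ e = h (g w) / g w := by
      rw [he, map_mul, mem_fix.1 hz h hh, map_pow, div_pow, mul_div_mul_right _ _ hz0]
    rw [h4, map_div₀]
    congr 1
    exact (g.symm_apply_apply _).symm
  rw [h3, chi_spec (t := t) g⁻¹ n _ h2, l2 _ h2, l2 _ h1, ZMod.natCast_zmod_val, mul_assoc]

/-- an element acting nontrivially on the next level moves roots of unity in all ways -/
theorem lb_cob {n : ℕ} (hn : n ≠ 0) {g : Ga} (h1 : g ∈ Gmu (t ^ n)) (h2 : g ∉ Gmu (t ^ (n + 1)))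
    {ζ : Om} (hζ : ζ ^ t ^ n = 1) : ∃ η : Om, η ^ t ^ (n + n) = 1 ∧ g η = ζ * η := by
  have ht : t.Prime := Fact.out
  obtain ⟨k, rfl⟩ := Nat.exists_eq_succ_of_ne_zero hn
  have hq : t ^ (k + 1 + (k + 1)) ≠ 0 := pow_ne_zero _ ht.ne_zero
  obtain ⟨θ, hθ⟩ := lb_prim _ hq
  have h0 : θ ≠ 0 := hθ.ne_zero hq
  have a1 : (g θ / θ) ^ t ^ (k + 1) = 1 := by
    rw [div_pow, ← map_pow, h1 _ (by rw [← pow_mul, ← pow_add, hθ.pow_eq_one]),
      div_self (pow_ne_zero _ h0)]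
  have a2 : ¬ (g θ / θ) ^ t ^ k = 1 := by
    intro h
    rw [div_pow, ← map_pow, div_eq_one_iff_eq (pow_ne_zero _ h0)] at h
    refine h2 fun z hz => ?_
    have : NeZero (t ^ (k + 1 + 1)) := ⟨pow_ne_zero _ ht.ne_zero⟩
    have hp : IsPrimitiveRoot (θ ^ t ^ k) (t ^ (k + 1 + 1)) :=
      hθ.pow (Nat.pos_of_ne_zero hq) (by rw [← pow_add]; congr 1; omega)
    obtain ⟨i, -, rfl⟩ := hp.eq_pow_of_pow_eq_one hz
    rw [map_pow, h]
  have a3 : IsPrimitiveRoot (g θ / θ) (t ^ (k + 1)) := by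
    rw [← orderOf_eq_prime_pow a2 a1]
    exact IsPrimitiveRoot.orderOf _
  have : NeZero (t ^ (k + 1)) := ⟨pow_ne_zero _ ht.ne_zero⟩
  obtain ⟨i, -, rfl⟩ := a3.eq_pow_of_pow_eq_one hζ
  refine ⟨θ ^ i, by rw [← pow_mul, mul_comm, pow_mul, hθ.pow_eq_one, one_pow], ?_⟩
  rw [map_pow, ← mul_pow, div_mul_cancel₀ _ h0]

theorem lb_tele {A : Type*} [AddCommGroup A] (s : AddMonoid.End A) {N : ℕ} (hs : s ^ N = 1)
    (c : ℤ) (y : A) : s (∑ i ∈ Finset.range N, c ^ (N - 1 - i) • (s ^ i) y) =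
      c • (∑ i ∈ Finset.range N, c ^ (N - 1 - i) • (s ^ i) y) - (c ^ N - 1) • y := by
  have h := Finset.sum_range_sub (fun i => c ^ (N - i) • (s ^ i) y) N
  rw [hs, Nat.sub_self, Nat.sub_zero, pow_zero, pow_zero, one_smul] at h
  have h2 : ∑ i ∈ Finset.range N, (c ^ (N - (i + 1)) • (s ^ (i + 1)) y - c ^ (N - i) • (s ^ i) y) =
      s (∑ i ∈ Finset.range N, c ^ (N - 1 - i) • (s ^ i) y) -
        c • (∑ i ∈ Finset.range N, c ^ (N - 1 - i) • (s ^ i) y) := by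
    rw [map_sum, Finset.smul_sum, ← Finset.sum_sub_distrib]
    refine Finset.sum_congr rfl fun i hi => ?_
    have hi' := Finset.mem_range.1 hi
    rw [map_zsmul, smul_smul, ← pow_succ', pow_succ' s, show N - (i + 1) = N - 1 - i by omega,
      show N - 1 - i + 1 = N - i by omega]
    rfl
  rw [h2, sub_eq_iff_eq_add] at h
  rw [h, sub_smul, one_smul]
  change y - c ^ N • y + _ = _
  abel

end Vale.Agent.P024U
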