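import Vale.Agent.P024U.HU
import Vale.Agent.P024U.USa
import Vale.Agent.P024U.Ext
import Vale.Agent.P024U.Sel
import Vale.Agent.P024U.LBkX1

/-! Many eigen-characters modulo `t^n` from units.  `σ` from `cyc_gen`; `H n = H ⊓ Gmu (t^n)`, `N` = order of `chi σ` modulo `t^n`; for infinitely many `n` the order modulo `t^(n+1)` is larger
(`kap σ ≠ 0`).  `ξ σ ^ (t-1) = 1`, `ξ σ ^ N = 1`; `c : ℤ` congruent to `chi σ * ξ σ` modulo `t^(n+v+1)`, `v` with `t^(v+1) ∤ chi σ * ξ σ - 1` (independent of `n`).  `units_abs` for `H n`, `σ`.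
For a unit `y` let `x = b y` (`b` as in `hu_cnt`), `w^(t^n) = x`, `f h` = exponent of `h w / w` in a fixed primitive root, for `h ∈ Hi = H ⊓ ker chi`, zero outside.  `σ x = x^c z^(t^n)`
since `(s - c) b = 1 - c^N`; hence `σ w = w^c z η`, `η^(t^n) = 1`, and `f (σ⁻¹ h σ) = ξ σ * f h`; elements of `H n` act trivially; `H = ⟨σ⟩ H n`.  `val_int`/`unit_root`-free argument for
inertia: `h ∈ Ine P`, `w` unit: `h w / w ≡ 1` (`Ine.pos`), `root_eq_one`.  `y ↦ f` is additive with kernel `K`; if `f = 0` then `w` is fixed by `Hi`; `g0 = σ^N`, `g0 w / w = ζ`,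
`chi g0 - 1` has valuation exactly `n`, so `ζ = g0 η / η` for a root of unity `η` of order dividing `t^(2n)`; `w / η` is fixed by `Hi`, `g0`, hence by `H n` (`cyc_gen` with `W` = stabiliser ⊓ `H n`),
so `x = (unit)^(t^n) * torsion`.  `B n` is finite by `eig_fin`, `K.index ≤ card (B n)`, `hu_cnt`.
`eig_fin`: `n = 1`: `ext_lemma` on `H ⊓ Gmu t` and `hom_fin`; induction as in `koenig` (kernel and image of reduction mod `t`). -/

namespace Vale.Agent.P024U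

variable {t : ℕ} [Fact t.Prime]

/-- eigen-characters modulo `t^n` of `H ⊓ ker chi`, unramified outside `m` -/
def Eig (H : Subgroup Ga) (ξ : Ga → ℤ_[t]) (m n : ℕ) : AddSubgroup (Ga → ZMod (t ^ n)) where
  carrier := {f | IsX (H ⊓ (chi t).ker) f ∧ (∀ g, g ∉ H ⊓ (chi t).ker → f g = 0) ∧
    (∀ P, ¬ ch P ∣ m → ∀ σ ∈ Ine P, f σ = 0) ∧
    ∀ g ∈ H, ∀ h ∈ H ⊓ (chi t).ker, f (g⁻¹ * h * g) = PadicInt.toZModPow n (ξ g) * f h}
  zero_mem' := ⟨⟨continuousOn_const, fun _ _ _ _ => by simp⟩, fun _ _ => rfl, fun _ _ _ _ => rfl,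
    fun _ _ _ _ => by simp⟩
  add_mem' := fun {a b} ha hb => ⟨⟨ha.1.1.add hb.1.1, fun x hx y hy => by
      simp only [Pi.add_apply, ha.1.2 x hx y hy, hb.1.2 x hx y hy]; ring⟩,
    fun g hg => by simp [ha.2.1 g hg, hb.2.1 g hg],
    fun P hP σ hσ => by simp [ha.2.2.1 P hP σ hσ, hb.2.2.1 P hP σ hσ],
    fun g hg h hh => by simp only [Pi.add_apply, ha.2.2.2 g hg h hh, hb.2.2.2 g hg h hh]; ring⟩
  neg_mem' := fun {a} ha => ⟨⟨ha.1.1.neg, fun x hx y hy => by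
      simp only [Pi.neg_apply, ha.1.2 x hx y hy]; ring⟩,
    fun g hg => by simp [ha.2.1 g hg], fun P hP σ hσ => by simp [ha.2.2.1 P hP σ hσ],
    fun g hg h hh => by simp only [Pi.neg_apply, ha.2.2.2 g hg h hh]; ring⟩

theorem lb_ch_ne {m : ℕ} (htm : t ∣ m) {P : Pr} (hP : ¬ ch P ∣ m) : ch P ≠ t :=
  fun h => hP (h ▸ htm)

theorem eig_fin (ht : t ≠ 2) {H : Subgroup Ga} (hH : Op H) {ξ : Ga → ℤ_[t]}
    (hξ1 : ∀ g ∈ H, g ∈ Gmu t → ξ g = 1) {m : ℕ} (hm : m ≠ 0) (htm : t ∣ m) (hu : UnrOut H m)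
    (n : ℕ) : Finite (Eig H ξ m n) := by
  classical
  have htp : t.Prime := Fact.out
  have hq : t ^ n ≠ 0 := pow_ne_zero _ htp.ne_zero
  have : NeZero (t ^ n) := ⟨hq⟩
  have hk1 : (chi t).ker ≤ Gmu t := by simpa using lb_ker_le (t := t) 1
  set H' : Subgroup Ga := H ⊓ (Gmu t ⊓ Gmu (t ^ n)) with hH'
  have hop : Op H' := hH.inf ((op_Gmu htp.ne_zero).inf (op_Gmu hq))
  have hker : H' ⊓ (chi t).ker = H ⊓ (chi t).ker := by
    rw [hH', inf_assoc, inf_eq_right.2 (le_inf hk1 (lb_ker_le n))]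
  have hu' : UnrOut H' m := fun P hP => le_inf (hu P hP)
    ((lb_ine (lb_ch_ne htm hP)).trans (le_inf hk1 (lb_ker_le n)))
  have hfin := hom_fin hop hm hu' (t ^ n) hq (inf_le_right.trans inf_le_right)
  have hex : ∀ f : Eig H ξ m n, ∃ θ ∈ {f : Ga → ZMod (t ^ n) | IsX H' f ∧
      (∀ g, g ∉ H' → f g = 0) ∧ ∀ P, ¬ ch P ∣ m → ∀ σ ∈ Ine P, f σ = 0},
      ∀ h ∈ H ⊓ (chi t).ker, θ h = f.1 h := by
    rintro ⟨f, h1, h2, h3, h4⟩
    obtain ⟨θ, hθ, he⟩ := ext_lemma ht hop (inf_le_right.trans inf_le_left)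
      (A := ZMod (t ^ n)) (fun a ha => ⟨⊥, isOpen_discrete _, by simpa using ha,
        fun b x hb hx => by
          have hb' : IsUnit (b : ZMod (t ^ n)) := (ZMod.isUnit_iff_coprime _ _).2
            (((Nat.Prime.coprime_iff_not_dvd htp).2 hb).symm.pow_right n)
          rw [AddSubgroup.mem_bot, nsmul_eq_mul] at hx
          exact (hb'.mul_right_eq_zero).1 hx⟩)
      (f := f) (hker ▸ h1) (fun g hg h hh => by
        rw [h4 g hg.1 h (hker ▸ hh), hξ1 g hg.1 hg.2.1, map_one, one_mul])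
    rw [hker] at he
    have hle : H ⊓ (chi t).ker ≤ H' := hker ▸ inf_le_left
    refine ⟨fun g => if g ∈ H' then θ g else 0, ⟨⟨hθ.1.congr fun g hg => if_pos hg,
      fun a ha b hb => ?_⟩, fun g hg => if_neg hg, fun P hP σ hσ => ?_⟩, fun h hh => ?_⟩
    · simp only [if_pos ha, if_pos hb, if_pos (H'.mul_mem ha hb)]
      exact hθ.2 a ha b hb
    · have h5 : σ ∈ H ⊓ (chi t).ker := ⟨hu P hP hσ, lb_ine (lb_ch_ne htm hP) hσ⟩
      simp only [if_pos (hle h5)]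
      rw [he σ h5, h3 P hP σ hσ]
    · simp only [if_pos (hle hh)]
      exact he h hh
  choose θ hθ1 hθ2 using hex
  have := hfin.to_subtype
  refine Finite.of_injective (fun f => (⟨θ f, hθ1 f⟩ : {f : Ga → ZMod (t ^ n) | IsX H' f ∧
      (∀ g, g ∉ H' → f g = 0) ∧ ∀ P, ¬ ch P ∣ m → ∀ σ ∈ Ine P, f σ = 0})) fun f f' h => ?_
  have h1 : θ f = θ f' := congrArg Subtype.val h
  refine Subtype.ext (funext fun g => ?_)
  by_cases hg : g ∈ H ⊓ (chi t).ker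
  · rw [← hθ2 f g hg, ← hθ2 f' g hg, h1]
  · rw [f.2.2.1 g hg, f'.2.2.1 g hg]

omit [Fact t.Prime] in
theorem lb_b {A : Type*} [AddCommGroup A] (s : AddMonoid.End A) {N : ℕ} (hs : s ^ N = 1)
    (c n : ℕ) (h : (t : ℤ) ^ n ∣ (c : ℤ) ^ N - 1) : ∃ b : A →+ A,
      (∀ y, b y = ∑ i ∈ Finset.range N, (c : ℤ) ^ (N - 1 - i) • (s ^ i) y) ∧
      ∀ y, ∃ z, s (b y) = c • b y + t ^ n • z := by
  obtain ⟨b, hb⟩ : ∃ b : A →+ A,
      ∀ y, b y = ∑ i ∈ Finset.range N, (c : ℤ) ^ (N - 1 - i) • (s ^ i) y :=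
    ⟨AddMonoidHom.mk' (fun y => ∑ i ∈ Finset.range N, (c : ℤ) ^ (N - 1 - i) • (s ^ i) y)
      fun y y' => by simp only [map_add, smul_add, Finset.sum_add_distrib], fun _ => rfl⟩
  obtain ⟨u, hu⟩ := h
  refine ⟨b, hb, fun y => ⟨(-u) • y, ?_⟩⟩
  have e1 := lb_tele s hs c y
  rw [← hb, hu] at e1
  rw [e1, natCast_zsmul, neg_smul, smul_neg, sub_eq_add_neg, mul_smul, ← Nat.cast_pow,
    natCast_zsmul]

theorem lb_sub {A : Type*} [AddCommGroup A] {x z : A} {q : ℕ} (h : (q * q) • z = q • x) :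
    q • (x - q • z) = 0 := by
  rw [smul_sub, smul_smul, h, sub_self]

theorem lb_dvd_iff (g : Ga) (n : ℕ) :
    g ∈ Gmu (t ^ n) ↔ (t : ℤ_[t]) ^ n ∣ (chi t g : ℤ_[t]) - 1 := by
  rw [mem_Gmu_pow, ← Ideal.mem_span_singleton, ← PadicInt.ker_toZModPow, RingHom.mem_ker,
    map_sub, map_one, sub_eq_zero]

theorem lb_val {x : ℤ_[t]} (hx : x ≠ 0) :
    ∃ n, (t : ℤ_[t]) ^ n ∣ x ∧ ¬ (t : ℤ_[t]) ^ (n + 1) ∣ x := by
  refine ⟨x.valuation, ?_, ?_⟩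
  · rw [← Ideal.mem_span_singleton, PadicInt.mem_span_pow_iff_le_valuation x hx]
  · rw [← Ideal.mem_span_singleton, PadicInt.mem_span_pow_iff_le_valuation x hx]
    omega

theorem lb_pow_mem (σ : Ga) : σ ^ (t - 1) ∈ Gmu t := by
  rw [mem_Gmu_one, map_pow, Units.val_pow_eq_pow_val, map_pow]
  exact ZMod.pow_card_sub_one_eq_one ((chi t σ).isUnit.map _).ne_zero

theorem lb_level (ht : t ≠ 2) {σ : Ga} (hσ : kap t σ ≠ 0) (n0 : ℕ) : ∃ n N : ℕ, n0 < n ∧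
    (∀ j : ℕ, σ ^ j ∈ Gmu (t ^ n) ↔ N ∣ j) ∧ σ ^ N ∉ Gmu (t ^ (n + 1)) := by
  have htp : t.Prime := Fact.out
  have : (Gmu (t ^ (n0 + 1))).FiniteIndex :=
    ⟨(op_Gmu (pow_ne_zero _ htp.ne_zero)).index_ne_zero⟩
  obtain ⟨N, hN0, hN⟩ : ∃ N : ℕ, N ≠ 0 ∧ ∀ j : ℕ, σ ^ j ∈ Gmu (t ^ (n0 + 1)) ↔ N ∣ j :=
    ⟨orderOf (σ : Ga ⧸ Gmu (t ^ (n0 + 1))), (orderOf_pos _).ne', fun j => by
      rw [orderOf_dvd_iff_pow_eq_one, ← QuotientGroup.mk_pow, QuotientGroup.eq_one_iff]⟩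
  have h1 : (chi t (σ ^ N) : ℤ_[t]) - 1 ≠ 0 := by
    intro h
    refine hσ ((kap_eq_zero ht σ).2 (Units.ext ?_))
    have h2 := eq_one_of_torsion ht _ ((mem_Gmu_one _).1 (lb_pow_mem (t := t) σ)) N hN0 (by
      rw [← Units.val_pow_eq_pow_val, ← map_pow, ← pow_mul, mul_comm, pow_mul, map_pow,
        Units.val_pow_eq_pow_val, sub_eq_zero.1 h, one_pow])
    rwa [map_pow] at h2
  obtain ⟨n, h2, h3⟩ := lb_val h1
  rw [← lb_dvd_iff] at h2 h3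
  have h4 : n0 < n := by
    by_contra hlt
    exact h3 (Gmu_le (pow_dvd_pow t (by omega)) ((hN N).2 dvd_rfl))
  refine ⟨n, N, h4, fun j => ⟨fun h => (hN j).1 (Gmu_le (pow_dvd_pow t h4) h), ?_⟩, h3⟩
  rintro ⟨k, rfl⟩
  rw [pow_mul]
  exact pow_mem h2 k

theorem lb_mem_eig {H : Subgroup Ga} {ξ : Ga → ℤ_[t]}
    (hξ : ∀ g ∈ H, ∀ h ∈ H, ξ (g * h) = ξ g * ξ h) (hξ1 : ∀ g ∈ H, g ∈ Gmu t → ξ g = 1)
    {m n : ℕ} (hn : n ≠ 0) (htm : t ∣ m) {σ : Ga} (hσ : σ ∈ H)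
    (hgen : ∀ g ∈ H, ∃ (j : ℕ) (w h : Ga), w ∈ Gmu (t ^ n) ∧ w ∈ H ∧ h ∈ H ∧ chi t h = 1 ∧
      g = σ ^ j * w * h) {lg : Om → ZMod (t ^ n)}
    (l1 : ∀ z z', z ^ t ^ n = 1 → z' ^ t ^ n = 1 → lg (z * z') = lg z + lg z')
    (l2 : ∀ z, z ^ t ^ n = 1 → ∀ k : ℕ, lg (z ^ k) = k * lg z) {c : ℕ}
    (hc : (c : ZMod (t ^ n)) = PadicInt.toZModPow n ((chi t σ : ℤ_[t]) * ξ σ)) {w z : Om}
    (h0 : w ≠ 0) (hw : w ^ t ^ n ∈ fix (H ⊓ Gmu (t ^ n))) (hv : ∀ P, val P w = 0)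
    (hz : z ∈ fix (H ⊓ Gmu (t ^ n))) (hz0 : z ≠ 0)
    (he : σ (w ^ t ^ n) = (w ^ t ^ n) ^ c * z ^ t ^ n) :
    lbK (H ⊓ (chi t).ker) lg w ∈ Eig H ξ m n := by
  have htp : t.Prime := Fact.out
  have hA : H ⊓ (chi t).ker ≤ Gmu (t ^ n) := inf_le_right.trans (lb_ker_le n)
  have hfx : ∀ x ∈ fix (H ⊓ Gmu (t ^ n)), x ∈ fix (H ⊓ (chi t).ker) := fun x hx =>
    mem_fix.2 fun g hg => mem_fix.1 hx g ⟨hg.1, hA hg⟩
  have hmu : ∀ x : Om, x ^ t ^ n = 1 → x ∈ fix (H ⊓ (chi t).ker) := fun x hx =>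
    mem_fix.2 fun g hg => hA hg x hx
  have hw' := hfx _ hw
  refine ⟨lbK_isX l1 hA h0 hw', fun g hg => if_neg hg, fun P hP σ hσ => lbK_ine l1 h0 hw'
    (fun hd => lb_ch_ne htm hP ((Nat.prime_dvd_prime_iff_eq (ch_prime P) htp).1
      ((ch_prime P).dvd_of_dvd_pow hd))) (hv P) hσ, ?_⟩
  set f := lbK (H ⊓ (chi t).ker) lg w with hf
  let E : Ga → Prop := fun g => ∀ h ∈ H ⊓ (chi t).ker,
    f (g⁻¹ * h * g) = PadicInt.toZModPow n (ξ g) * f h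
  have Emul : ∀ g ∈ H, ∀ g' ∈ H, E g → E g' → E (g * g') := by
    intro g hg g' hg' h1 h2 h hh
    have e : (g * g')⁻¹ * h * (g * g') = g'⁻¹ * (g⁻¹ * h * g) * g' := by group
    rw [e, h2 _ (lb_conj hg hh), h1 h hh, hξ g hg g' hg', map_mul]
    ring
  have E1 : ∀ g ∈ H, g ∈ Gmu (t ^ n) → E g := by
    intro g hg hg' h hh
    have h1 := lbK_eig l2 h0 hw' hg hh (e := 1) (hmu _ (lb_root h0 hw ⟨hg, hg'⟩))
      (by rw [pow_one, mul_div_cancel₀ _ h0])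
    rw [hf, h1, (mem_Gmu_pow _ _).1 ((Gmu _).inv_mem hg'),
      hξ1 g hg (Gmu_le (dvd_pow_self t hn) hg'), map_one, Nat.cast_one, one_mul]
  have Eσ : E σ := by
    intro h hh
    have hwz : w ^ c * z ≠ 0 := mul_ne_zero (pow_ne_zero _ h0) hz0
    have h1 := lbK_eig l2 h0 hw' hσ hh (e := c) (z := z * (σ w / (w ^ c * z)))
      (mul_mem (hfx z hz) (hmu _ (by
        rw [div_pow, ← map_pow, he, mul_pow, ← pow_mul, ← pow_mul, mul_comm c]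
        exact div_self (mul_ne_zero (pow_ne_zero _ h0) (pow_ne_zero _ hz0)))))
      (by rw [← mul_assoc, mul_div_cancel₀ _ hwz])
    rw [hf, h1, hc, ← map_mul, ← mul_assoc, ← Units.val_mul, ← map_mul, inv_mul_cancel, map_one,
      Units.val_one, one_mul]
  have Epow : ∀ j : ℕ, E (σ ^ j) := by
    intro j
    induction j with
    | zero => rw [pow_zero]; exact E1 1 H.one_mem (one_mem _)
    | succ j ih => rw [pow_succ]; exact Emul _ (pow_mem hσ j) _ hσ ih Eσ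
  intro g hg
  obtain ⟨j, u, h, h1, h2, h3, h4, rfl⟩ := hgen g hg
  exact Emul _ (H.mul_mem (pow_mem hσ j) h2) _ h3 (Emul _ (pow_mem hσ j) _ h2 (Epow j)
    (E1 u h2 h1)) (E1 h h3 (lb_ker_le n h4))

theorem lb_ker {H : Subgroup Ga} {n N : ℕ} (hn : n ≠ 0) {σ : Ga} (hσ : σ ∈ H)
    (hgen : ∀ W : Subgroup Ga, Op W → ∀ g ∈ H, ∃ (j : ℕ) (w h : Ga), w ∈ W ∧ w ∈ H ∧ h ∈ H ∧
      chi t h = 1 ∧ g = σ ^ j * w * h)
    (hN : ∀ j : ℕ, σ ^ j ∈ Gmu (t ^ n) ↔ N ∣ j) (hN' : σ ^ N ∉ Gmu (t ^ (n + 1))) {w : Om}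
    (h0 : w ≠ 0) (hw : w ^ t ^ n ∈ fix (H ⊓ Gmu (t ^ n)))
    (hfix : ∀ h ∈ H ⊓ (chi t).ker, h w = w) :
    ∃ w' ∈ fix (H ⊓ Gmu (t ^ n)), w' ^ (t ^ n * t ^ n) = (w ^ t ^ n) ^ t ^ n := by
  have htp : t.Prime := Fact.out
  have h1 : σ ^ N ∈ Gmu (t ^ n) := (hN N).2 dvd_rfl
  obtain ⟨η, hη, he⟩ := lb_cob hn h1 hN' (lb_root h0 hw ⟨pow_mem hσ N, h1⟩)
  have hη0 : η ≠ 0 := by
    rintro rfl
    rw [zero_pow (pow_ne_zero _ htp.ne_zero)] at hη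
    exact zero_ne_one hη
  have h2 : σ ^ N ∈ MulAction.stabilizer Ga (w / η) := by
    change (σ ^ N) (w / η) = w / η
    have : (σ ^ N) w ≠ 0 := (map_ne_zero _).2 h0
    rw [map_div₀, he]
    field_simp
  refine ⟨w / η, mem_fix.2 fun g hg => ?_, ?_⟩
  · obtain ⟨j, u, h, a1, a2, a3, a4, rfl⟩ := hgen (MulAction.stabilizer Ga (w / η) ⊓ Gmu (t ^ n))
      (Op.inf (op_stab (w / η)) (op_Gmu (pow_ne_zero _ htp.ne_zero))) g hg.1
    have b1 : h ∈ MulAction.stabilizer Ga (w / η) := by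
      change h (w / η) = w / η
      rw [map_div₀, hfix h ⟨a3, a4⟩, lb_ker_le (n + n) a4 η hη]
    have b2 : σ ^ j ∈ Gmu (t ^ n) := by
      have := (Gmu (t ^ n)).mul_mem ((Gmu (t ^ n)).mul_mem hg.2
        ((Gmu (t ^ n)).inv_mem (lb_ker_le n a4))) ((Gmu (t ^ n)).inv_mem a1.2)
      rwa [mul_inv_cancel_right, mul_inv_cancel_right] at this
    obtain ⟨k, rfl⟩ := (hN j).1 b2
    have b3 : σ ^ (N * k) * u * h ∈ MulAction.stabilizer Ga (w / η) :=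
      mul_mem (mul_mem (pow_mul σ N k ▸ pow_mem h2 k) a1.1) b1
    exact b3
  · rw [div_pow, ← pow_add, hη, div_one, pow_add, pow_mul]

theorem eig_big (ht : t ≠ 2) {H : Subgroup Ga} (hH : Op H) (h4 : H ≤ Gmu 4) {ξ : Ga → ℤ_[t]}
    (hξ : ∀ g ∈ H, ∀ h ∈ H, ξ (g * h) = ξ g * ξ h) (hξ1 : ∀ g ∈ H, g ∈ Gmu t → ξ g = 1)
    {m : ℕ} (hm : m ≠ 0) (htm : t ∣ m) (hu : UnrOut H m) {ρ : ℕ} (hρ : 2 * ρ = H.index) :
    ∃ v, ∀ n0, ∃ n, n0 ≤ n ∧ t ^ (n * ρ) ≤ Nat.card (Eig H ξ m n) * t ^ v := by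
  have htp : t.Prime := Fact.out
  obtain ⟨σ, hσ, hkap, hgen⟩ := cyc_gen ht hH
  have hxp : ∀ k : ℕ, ξ (σ ^ k) = ξ σ ^ k := by
    intro k
    induction k with
    | zero => rw [pow_zero, pow_zero]; exact hξ1 1 H.one_mem (one_mem _)
    | succ k ih => rw [pow_succ, pow_succ, hξ _ (pow_mem hσ k) _ hσ, ih]
  have hc0 : (chi t σ : ℤ_[t]) * ξ σ - 1 ≠ 0 := by
    intro h
    refine hkap ((kap_eq_zero ht σ).2 (Units.ext ?_))
    have h1 := congrArg (· ^ (t - 1)) (sub_eq_zero.1 h)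
    simp only [mul_pow, one_pow] at h1
    rw [← hxp, hξ1 _ (pow_mem hσ _) (lb_pow_mem σ), mul_one] at h1
    exact h1
  obtain ⟨v, -, hv⟩ := lb_val hc0
  refine ⟨v, fun n0 => ?_⟩
  obtain ⟨n, N, hn0, hN, hN'⟩ := lb_level ht hkap n0
  have hn : n ≠ 0 := by omega
  have hq : t ^ n ≠ 0 := pow_ne_zero _ htp.ne_zero
  have hop : Op (H ⊓ Gmu (t ^ n)) := hH.inf (op_Gmu hq)
  obtain ⟨ρ', sE, hρ', hN0, hsN, hsE, π, hπ⟩ := units_abs hop (inf_le_left.trans h4) (h4 hσ)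
    (N := N) (fun a ha => ⟨H.mul_mem (H.mul_mem hσ ha.1) (H.inv_mem hσ),
      (normal_Gmu _).conj_mem a ha.2 σ⟩)
    (fun j => ⟨fun h => (hN j).1 h.2, fun h => ⟨pow_mem hσ j, (hN j).2 h⟩⟩)
  have hρρ : ρ ≤ ρ' := by
    obtain ⟨k, hk⟩ := (hN _).1 ((Gmu (t ^ n)).pow_relIndex_mem hσ)
    have h1 := Subgroup.relIndex_mul_index (inf_le_left : H ⊓ Gmu (t ^ n) ≤ H)
    have h2 := hop.index_ne_zero
    rw [Subgroup.inf_relIndex_left, hk, ← hρ] at h1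
    have h3 : k ≠ 0 := by
      rintro rfl
      exact h2 (by rw [← h1]; simp)
    have h5 : N * (k * ρ) = N * ρ' := by nlinarith
    have h6 := Nat.eq_of_mul_eq_mul_left (Nat.pos_of_ne_zero hN0) h5
    rw [← h6]
    exact Nat.le_mul_of_pos_left _ (Nat.pos_of_ne_zero h3)
  obtain ⟨c, hc⟩ : ∃ c : ℕ, (t : ℤ_[t]) ^ (n + v + 1) ∣ (chi t σ : ℤ_[t]) * ξ σ - c :=
    ⟨_, Ideal.mem_span_singleton.1 (PadicInt.appr_spec (n + v + 1) _)⟩
  have hcN : (t : ℤ_[t]) ^ (n + 1) ∣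
      ((chi t (σ ^ N) : ℤ_[t]) - 1) - (((c : ℤ) ^ N - 1 : ℤ) : ℤ_[t]) := by
    have h1 := ((pow_dvd_pow _ (by omega : n + 1 ≤ n + v + 1)).trans hc).trans
      (sub_dvd_pow_sub_pow _ _ N)
    rw [mul_pow, ← hxp, hξ1 _ (pow_mem hσ N)
      (Gmu_le (dvd_pow_self t hn) ((hN N).2 dvd_rfl)), mul_one] at h1
    rw [map_pow, Units.val_pow_eq_pow_val]
    push_cast
    rwa [sub_sub_sub_cancel_right]
  have h1 : (t : ℤ) ^ n ∣ (c : ℤ) ^ N - 1 := by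
    rw [← PadicInt.pow_p_dvd_int_iff]
    exact (dvd_sub_right ((lb_dvd_iff _ _).1 ((hN N).2 dvd_rfl))).1
      ((pow_dvd_pow _ n.le_succ).trans hcN)
  have h2 : ¬ (t : ℤ) ^ (n + 1) ∣ (c : ℤ) ^ N - 1 := by
    rw [← PadicInt.pow_p_dvd_int_iff]
    exact fun h => hN' ((lb_dvd_iff _ _).2 ((dvd_sub_left h).1 hcN))
  have h3 : ¬ (t : ℤ) ^ (v + 1) ∣ (c : ℤ) - 1 := by
    rw [← PadicInt.pow_p_dvd_int_iff]
    intro h
    have := ((pow_dvd_pow _ (by omega : v + 1 ≤ n + v + 1)).trans hc).add h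
    push_cast at this
    rw [sub_add_sub_cancel] at this
    exact hv this
  have hc' : (c : ZMod (t ^ n)) = PadicInt.toZModPow n ((chi t σ : ℤ_[t]) * ξ σ) := by
    have := (pow_dvd_pow _ (by omega : n ≤ n + v + 1)).trans hc
    rw [← Ideal.mem_span_singleton, ← PadicInt.ker_toZModPow, RingHom.mem_ker, map_sub,
      map_natCast, sub_eq_zero] at this
    exact this.symm
  obtain ⟨lg, l1, l2, l3⟩ := lb_log (t ^ n) hq
  obtain ⟨b, hb, hb'⟩ := lb_b sE hsN c n h1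
  choose w hw using fun y => IsAlgClosed.exists_pow_nat_eq (lbU _ (b y).toMul)
    (Nat.pos_of_ne_zero hq)
  have hw0 : ∀ y, w y ≠ 0 := fun y h => lbU_ne _ (by rw [← hw y, h, zero_pow hq])
  have hwf : ∀ y, w y ^ t ^ n ∈ fix (H ⊓ Gmu (t ^ n)) := fun y => hw y ▸ lbU_mem _
  have hA : H ⊓ (chi t).ker ≤ Gmu (t ^ n) := inf_le_right.trans (lb_ker_le n)
  have hwf' : ∀ y, w y ^ t ^ n ∈ fix (H ⊓ (chi t).ker) := fun y =>
    mem_fix.2 fun g hg => mem_fix.1 (hwf y) g ⟨hg.1, hA hg⟩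
  have hmem : ∀ y, lbK (H ⊓ (chi t).ker) lg (w y) ∈ Eig H ξ m n := by
    intro y
    obtain ⟨z, e2⟩ := hb' y
    refine lb_mem_eig hξ hξ1 hn htm hσ (hgen _ (op_Gmu hq)) l1 l2 hc' (hw0 y) (hwf y)
      (fun P => ?_) (lbU_mem z.toMul) (lbU_ne _) ?_
    · have := lbU_val (b y).toMul P
      rw [← hw y, val_pow] at this
      exact (mul_eq_zero.1 this).resolve_left (Nat.cast_ne_zero.2 hq)
    · have e3 := hsE (b y).toMul
      rw [ofMul_toMul, e2, ← lbU_apply, ← lbU_apply, toMul_add, toMul_nsmul, toMul_nsmul,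
        map_mul, map_pow, map_pow] at e3
      rw [hw y, ← e3]
  let Φ : Additive (NumberField.RingOfIntegers (fix (H ⊓ Gmu (t ^ n))))ˣ →+ Eig H ξ m n :=
    AddMonoidHom.mk' (fun y => ⟨_, hmem y⟩) fun y y' => Subtype.ext (by
      change lbK _ lg (w (y + y')) = lbK _ lg (w y) + lbK _ lg (w y')
      rw [← lbK_mul l1 (hw0 y) (hwf' y) (hw0 y') (hwf' y')]
      refine lbK_congr hA hq (hw0 _) ?_
      rw [mul_pow, hw, hw, hw, map_add, toMul_add, map_mul])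
  have hfin := eig_fin ht hH hξ1 hm htm hu n
  have hidx : Φ.ker.index = Nat.card Φ.range := AddSubgroup.index_ker Φ
  have key := hu_cnt hN0 hsN hπ t htp c n v h1 h2 h3 Φ.ker
    (by rw [hidx]; exact Nat.card_pos.ne') (fun y hy => by
      have h5 : lbK (H ⊓ (chi t).ker) lg (w y) = 0 := congrArg Subtype.val hy
      obtain ⟨w', h6, h7⟩ := lb_ker hn hσ hgen hN hN' (hw0 y) (hwf y) fun h hh => by
        have h8 := congrFun h5 h
        simp only [lbK, if_pos hh, Pi.zero_apply] at h8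
        exact (div_eq_one_iff_eq (hw0 y)).1 (l3 _ (lb_root (hw0 y) (hwf' y) hh) h8)
      rw [hw y, ← map_pow] at h7
      obtain ⟨z, -, hz⟩ := lbU_root h6 (mul_ne_zero hq hq) h7
      refine ⟨Additive.ofMul z, t ^ n, hq, ?_⟩
      rw [← hb]
      exact lb_sub (congrArg Additive.ofMul hz))
  refine ⟨n, hn0.le, (Nat.pow_le_pow_right htp.pos (Nat.mul_le_mul_left n hρρ)).trans
    (key.trans (Nat.mul_le_mul_right _ ?_))⟩
  rw [hidx]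
  exact Nat.card_le_card_of_injective _ Subtype.val_injective

end Vale.Agent.P024U
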