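import Vale.Agent.P024U.LBd

/-! `L(s, χ)` is bounded near `s = 1` for a nontrivial ray class character.  For each ideal class choose an integral
`𝔟` prime to `m` in the inverse class (`ClassGroup.mk0_surjective` + `Ideal.exist_integer_multiples`-type or
`IsDedekindDomain.exists_sup_span_eq`-type lemma; every class contains an ideal prime to `m`).  `I ↦ I 𝔟` is a bijection
from the ideals of the class to the nonzero principal ideals inside `𝔟`, `χ I = χ (I 𝔟) / χ 𝔟`.  Apply `princ_sum` with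
`W = χ` on nonzero ideals (value `1` at `⊥` when `m = 1`).  The main terms add up to `G * ∑ (χ 𝔟)⁻¹ * Φ`, `G = ∑_q χ (q)`.
If `χ (y) ≠ 1` for some `y` prime to `m`, then `G = χ (y) G` so `G = 0`.  Otherwise `χ` on ideals prime to `m` only depends on
the class, multiplication by `𝔞` with `χ 𝔞 ≠ 1` permutes the classes and `∑ (χ 𝔟)⁻¹ = 0`. -/

namespace Vale.Agent.P024U
open NumberField

open scoped nonZeroDivisors

theorem LChi_rep {R : Type*} [CommRing R] [IsDedekindDomain R] {M : Ideal R} (hM : M ≠ ⊥)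
    (c : ClassGroup R) : ∃ 𝔟 : (Ideal R)⁰, (𝔟 : Ideal R) ⊔ M = ⊤ ∧ ClassGroup.mk0 𝔟 = c := by
  by_cases hT : M = ⊤
  · obtain ⟨J, hJ⟩ := ClassGroup.mk0_surjective c
    exact ⟨J, by simp [hT], hJ⟩
  obtain ⟨I, hI⟩ := ClassGroup.mk0_surjective c⁻¹
  have hI0 : (I : Ideal R) ≠ 0 := nonZeroDivisors.coe_ne_zero I
  obtain ⟨a, ha⟩ := IsDedekindDomain.exists_sup_span_eq (I := (I : Ideal R) * M) (J := I)
    Ideal.mul_le_left (mul_ne_zero hI0 hM)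
  obtain ⟨B, hB⟩ : (I : Ideal R) ∣ Ideal.span {a} := Ideal.dvd_iff_le.2 (ha ▸ le_sup_right)
  have hs : B ⊔ M = ⊤ := by
    apply mul_left_cancel₀ hI0
    rw [Ideal.mul_sup, ← hB, sup_comm, ha, Ideal.mul_top]
  have hB0 : B ≠ 0 := fun h => hT (by simpa [h] using hs)
  refine ⟨⟨B, mem_nonZeroDivisors_of_ne_zero hB0⟩, hs, ?_⟩
  have h1 : ClassGroup.mk0 (I * ⟨B, mem_nonZeroDivisors_of_ne_zero hB0⟩) = 1 :=
    (ClassGroup.mk0_eq_one_iff _).2 ⟨a, hB.symm⟩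
  rw [map_mul, hI, inv_mul_eq_one] at h1
  exact h1.symm

theorem LChi_shift {R : Type*} [CommRing R] {M : Ideal R} [Finite (R ⧸ M)] {w : R → ℂ}
    (hw : ∀ x z, x - z ∈ M → w x = w z) {y : R} (hy : Ideal.span {y} ⊔ M = ⊤) {u : ℂ}
    (hu : u ≠ 1) (hm : ∀ x, w (y * x) = u * w x) : ∑ᶠ q : R ⧸ M, w q.out = 0 := by
  have := Fintype.ofFinite (R ⧸ M)
  obtain ⟨a, ha, b, hb, hab⟩ := Submodule.mem_sup.1 ((Ideal.eq_top_iff_one _).1 hy)
  obtain ⟨z, rfl⟩ := Ideal.mem_span_singleton'.1 ha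
  have hyu : IsUnit (Ideal.Quotient.mk M y) := by
    refine IsUnit.of_mul_eq_one (Ideal.Quotient.mk M z) ?_
    rw [← map_mul, ← map_one (Ideal.Quotient.mk M), Ideal.Quotient.eq, ← hab]
    simpa [mul_comm] using hb
  rw [finsum_eq_sum_of_fintype]
  have h1 := Equiv.sum_comp hyu.unit.mulLeft fun q : R ⧸ M => w q.out
  have h2 : ∀ q : R ⧸ M, w (hyu.unit.mulLeft q).out = u * w q.out := fun q => by
    rw [← hm]
    refine hw _ _ (Ideal.Quotient.eq.1 ?_)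
    simp
  simp only [h2, ← Finset.mul_sum] at h1
  have h3 : (u - 1) * ∑ q : R ⧸ M, w q.out = 0 := by rw [sub_mul, h1, one_mul, sub_self]
  exact (mul_eq_zero.1 h3).resolve_left (sub_ne_zero.2 hu)

open Classical in
theorem LChi_tsum {K : Type*} [Field K] [NumberField K] {χ W : Ideal (𝓞 K) → ℂ}
    (hmul : ∀ I J, χ (I * J) = χ I * χ J) (hW : ∀ I, I ≠ ⊥ → W I = χ I) {𝔟 : Ideal (𝓞 K)}
    (hb : 𝔟 ≠ ⊥) {s : ℝ} (hs : s ≠ 0) :
    (∑' J : Ideal (𝓞 K), if J.IsPrincipal ∧ J ≤ 𝔟 then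
      W J * (((Ideal.absNorm J : ℝ) / Ideal.absNorm 𝔟) ^ (-s) : ℝ) else 0) =
    χ 𝔟 * ∑' I : Ideal (𝓞 K), if (I * 𝔟).IsPrincipal then
      χ I * ((Ideal.absNorm I : ℝ) ^ (-s) : ℝ) else 0 := by
  have hN : (Ideal.absNorm 𝔟 : ℝ) ≠ 0 := by simpa [Ideal.absNorm_eq_zero_iff] using hb
  rw [← (mul_left_injective₀ hb).tsum_eq, ← tsum_mul_left]
  · refine tsum_congr fun I => ?_
    simp only [Ideal.mul_le_right, and_true, map_mul, Nat.cast_mul, mul_div_cancel_right₀ _ hN]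
    split_ifs
    · by_cases hI : I = ⊥
      · simp [hI, Real.zero_rpow (neg_ne_zero.2 hs)]
      · rw [hW _ (mul_ne_zero hI hb), hmul]
        ring
    · simp
  · intro J hJ
    have : J ≤ 𝔟 := by
      by_contra h
      simp [h] at hJ
    obtain ⟨I, rfl⟩ := Ideal.dvd_iff_le.2 this
    exact ⟨I, mul_comm _ _⟩

theorem l_bdd {K : Type*} [Field K] [NumberField K] (m : ℕ) (hm : m ≠ 0) (χ : Ideal (𝓞 K) → ℂ)
    (hmul : ∀ I J, χ (I * J) = χ I * χ J) (h0 : χ ⊥ = 0)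
    (hz : ∀ I, I ⊔ Ideal.span {(m : 𝓞 K)} ≠ ⊤ → χ I = 0)
    (hu : ∀ I, I ≠ ⊥ → I ⊔ Ideal.span {(m : 𝓞 K)} = ⊤ → ‖χ I‖ = 1)
    (hcong : ∀ x y : 𝓞 K, x ≠ 0 → x + m * y ≠ 0 →
      χ (Ideal.span {x + m * y}) = χ (Ideal.span {x}))
    (hne : ∃ 𝔞, 𝔞 ≠ ⊥ ∧ 𝔞 ⊔ Ideal.span {(m : 𝓞 K)} = ⊤ ∧ χ 𝔞 ≠ 1) :
    ∃ C : ℝ, ∀ s ∈ Set.Ioc (1 : ℝ) 2,
      ‖∑' I : Ideal (𝓞 K), χ I * ((Ideal.absNorm I : ℝ) ^ (-s) : ℝ)‖ ≤ C := by
  classical
  set M := Ideal.span {(m : 𝓞 K)} with hMdef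
  have hM : M ≠ ⊥ := by simpa [hMdef] using hm
  have : Finite (𝓞 K ⧸ M) := M.finiteQuotientOfFreeOfNeBot hM
  have hle : ∀ I, ‖χ I‖ ≤ 1 := fun I => by
    by_cases h1 : I = ⊥
    · simp [h1, h0]
    by_cases h2 : I ⊔ M = ⊤
    · exact (hu I h1 h2).le
    · simp [hz I h2]
  have hne0 : ∀ I, I ≠ ⊥ → I ⊔ M = ⊤ → χ I ≠ 0 := fun I h1 h2 h => by
    simpa [h] using hu I h1 h2
  have h1 : χ ⊤ = 1 := by
    have := hmul ⊤ ⊤
    rw [Ideal.mul_top] at this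
    exact mul_left_cancel₀ (hne0 ⊤ top_ne_bot (top_sup_eq _)) (by rw [← this, mul_one])
  have hT : M = ⊤ → ∀ x : 𝓞 K, x ≠ 0 → χ (Ideal.span {x}) = 1 := fun h x hx => by
    obtain ⟨y, hy⟩ := Ideal.mem_span_singleton'.1 (show x - 1 ∈ M by simp [h])
    have e : x = 1 + m * y := by rw [mul_comm, hy]; ring
    rw [e] at hx ⊢
    rw [hcong 1 y one_ne_zero hx, Ideal.span_singleton_one, h1]
  have hMz : M ≠ ⊤ → ∀ x ∈ M, χ (Ideal.span {x}) = 0 := fun h x hx =>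
    hz _ (by rwa [sup_eq_right.2 ((Ideal.span_singleton_le_iff_mem _).2 hx)])
  set W : Ideal (𝓞 K) → ℂ := fun I => if I = ⊥ ∧ M = ⊤ then 1 else χ I with hWdef
  have hW : ∀ I, I ≠ ⊥ → W I = χ I := fun I hI => by simp [hWdef, hI]
  have hW1 : ∀ I, ‖W I‖ ≤ 1 := fun I => by
    simp only [hWdef]
    split_ifs
    · simp
    · exact hle I
  have hW2 : ∀ x y : 𝓞 K, W (Ideal.span {x + m * y}) = W (Ideal.span {x}) := fun x y => by
    by_cases h : M = ⊤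
    · have : ∀ z : 𝓞 K, W (Ideal.span {z}) = 1 := fun z => by
        by_cases hz0 : z = 0
        · simp [hWdef, hz0, h]
        · rw [hW _ (by simpa using hz0), hT h z hz0]
      rw [this, this]
    have hmy : (m : 𝓞 K) * y ∈ M := Ideal.mul_mem_right _ _ (Ideal.mem_span_singleton_self _)
    simp only [hWdef, h, and_false, if_false]
    by_cases hx : x ∈ M
    · rw [hMz h _ hx, hMz h _ (M.add_mem hx hmy)]
    · refine hcong x y (fun h0 => hx (by simp [h0])) fun h0 => hx ?_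
      rw [eq_neg_of_add_eq_zero_left h0]
      exact M.neg_mem hmy
  choose 𝔟 hb1 hb2 using LChi_rep hM
  have hb0 : ∀ c, (𝔟 c : Ideal (𝓞 K)) ≠ ⊥ := fun c => nonZeroDivisors.coe_ne_zero _
  have hpr : ∀ (I : (Ideal (𝓞 K))⁰) c, ((I : Ideal (𝓞 K)) * 𝔟 c).IsPrincipal ↔
      c = (ClassGroup.mk0 I)⁻¹ := fun I c => by
    rw [← Submonoid.coe_mul, ← ClassGroup.mk0_eq_one_iff (SetLike.coe_mem _), Subtype.coe_eta,
      map_mul, hb2, mul_eq_one_iff_inv_eq, eq_comm]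
  obtain ⟨Φ, C0, -, hΦ⟩ := princ_sum K
  choose C hC using fun c => hΦ m hm (𝔟 c) (hb0 c) (hb1 c) W hW1 hW2
  have hG : (∑ c, (χ (𝔟 c))⁻¹) * ∑ᶠ q : 𝓞 K ⧸ M, W (Ideal.span {q.out}) = 0 := by
    by_cases hA : ∃ y : 𝓞 K, y ≠ 0 ∧ Ideal.span {y} ⊔ M = ⊤ ∧ χ (Ideal.span {y}) ≠ 1
    · obtain ⟨y, hy0, hy1, hy2⟩ := hA
      have h : M ≠ ⊤ := fun h => hy2 (hT h y hy0)
      rw [LChi_shift (w := fun x => W (Ideal.span {x})) (fun x z hxz => ?_) hy1 hy2 fun x => ?_,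
        mul_zero]
      · obtain ⟨t, ht⟩ := Ideal.mem_span_singleton'.1 hxz
        rw [← hW2 z t, mul_comm, ht, add_sub_cancel]
      · simp only [hWdef, h, and_false, if_false]
        rw [← hmul, Ideal.span_singleton_mul_span_singleton]
    push Not at hA
    have hB : ∀ (I : (Ideal (𝓞 K))⁰), (I : Ideal (𝓞 K)) ⊔ M = ⊤ →
        χ I = (χ (𝔟 (ClassGroup.mk0 I)⁻¹))⁻¹ := fun I hI => by
      obtain ⟨y, hy⟩ := (hpr I _).2 rfl
      refine eq_inv_of_mul_eq_one_left ?_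
      rw [← hmul, hy]
      refine hA y (fun h => mul_ne_zero (nonZeroDivisors.coe_ne_zero I)
        (hb0 (ClassGroup.mk0 I)⁻¹) ?_) ?_
      · rw [hy, h]
        simp
      · change Submodule.span _ {y} ⊔ M = ⊤
        rw [← hy, Ideal.mul_sup_eq_of_coprime_left hI, hb1]
    obtain ⟨𝔞, ha0, ha1, ha2⟩ := hne
    set A : (Ideal (𝓞 K))⁰ := ⟨𝔞, mem_nonZeroDivisors_of_ne_zero ha0⟩
    have h2 : ∀ c, χ (𝔟 (ClassGroup.mk0 A * c)) = χ 𝔞 * χ (𝔟 c) := fun c => by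
      rw [← hmul, hB _ (hb1 _), hb2]
      have := hB (A * 𝔟 c) ((Ideal.mul_sup_eq_of_coprime_left ha1).trans (hb1 _))
      rw [map_mul, hb2] at this
      exact this.symm
    have h3 := Equiv.sum_comp (Equiv.mulLeft (ClassGroup.mk0 A)) fun c => (χ (𝔟 c))⁻¹
    simp only [Equiv.coe_mulLeft, h2, mul_inv, ← Finset.mul_sum] at h3
    have h4 : ((χ 𝔞)⁻¹ - 1) * ∑ c, (χ (𝔟 c))⁻¹ = 0 := by rw [sub_mul, h3, one_mul, sub_self]
    rw [(mul_eq_zero.1 h4).resolve_left (sub_ne_zero.2 (by simpa using ha2)), zero_mul]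
  refine ⟨∑ c, C c, fun s hs => ?_⟩
  have hs0 : s ≠ 0 := (one_pos.trans hs.1).ne'
  have hsum : ∀ c, Summable fun I : Ideal (𝓞 K) => if (I * 𝔟 c).IsPrincipal then
      χ I * ((Ideal.absNorm I : ℝ) ^ (-s) : ℝ) else 0 := fun c => by
    refine (zeta_summable K hs.1).of_norm_bounded fun I => ?_
    have hp : 0 ≤ (Ideal.absNorm I : ℝ) ^ (-s) := by positivity
    split_ifs
    · rw [norm_mul, Complex.norm_real, Real.norm_of_nonneg hp]
      exact mul_le_of_le_one_left hp (hle I)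
    · simpa using hp
  have e1 : ∑' I : Ideal (𝓞 K), χ I * ((Ideal.absNorm I : ℝ) ^ (-s) : ℝ) =
      ∑ c, ∑' I : Ideal (𝓞 K), if (I * 𝔟 c).IsPrincipal then
        χ I * ((Ideal.absNorm I : ℝ) ^ (-s) : ℝ) else 0 := by
    rw [← Summable.tsum_finsetSum fun c _ => hsum c]
    refine tsum_congr fun I => ?_
    by_cases hI : I = ⊥
    · simp [hI, h0]
    · simp only [hpr ⟨I, mem_nonZeroDivisors_of_ne_zero hI⟩]
      simp
  set D := (∑ᶠ q : 𝓞 K ⧸ M, W (Ideal.span {q.out})) / (m : ℂ) ^ Module.finrank ℚ K * Φ s with hD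
  have e2 : ∑ c, (χ (𝔟 c))⁻¹ * D = 0 := by
    rw [← Finset.sum_mul, hD, ← mul_assoc, ← mul_div_assoc, hG, zero_div, zero_mul]
  rw [e1.trans (sub_eq_self.2 e2).symm, ← Finset.sum_sub_distrib]
  refine norm_sum_le_of_le _ fun c _ => ?_
  have h5 := hC c s hs
  rw [LChi_tsum hmul hW (hb0 c) hs0] at h5
  rw [← one_mul ‖_‖, ← hu _ (hb0 c) (hb1 c), ← norm_mul, mul_sub,
    mul_inv_cancel_left₀ (hne0 _ (hb0 c) (hb1 c))]
  exact h5

end Vale.Agent.P024U
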