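import Mathlib

/-! Riemann sums of Lipschitz functions over a translate of a lattice.  Take a `ℤ`-basis `b` of the lattice,
`F = ZSpan.fundamentalDomain` (bounded, `ZSpan.isAddFundamentalDomain`), reduce `v` into `F` (`ZSpan.fract`).
`∫ f (y/T) dy = T^d ∫ f = ∑_x ∫_F f ((x+y)/T) dy` (`IsAddFundamentalDomain.integral_eq_tsum`), each term differs from
`μ F * f ((x+v)/T)` by at most `μ F * Kc * diam / T`, and only `O(T^d)` lattice points `x` (those of norm
`≤ R T + diam`; count by coordinates or by volume) contribute. -/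

namespace Vale.Agent.P024U
open MeasureTheory

theorem Lat_core {V : Type*} [NormedAddCommGroup V] [NormedSpace ℝ V] [FiniteDimensional ℝ V]
    [MeasurableSpace V] [BorelSpace V] (μ : Measure V) [μ.IsAddHaarMeasure] (Λ : Submodule ℤ V)
    [DiscreteTopology Λ] [IsZLattice ℝ Λ] {F : Set V} (hF : IsAddFundamentalDomain Λ F μ)
    (hm : MeasurableSet F) {D : ℝ} (hD0 : 0 ≤ D) (hD : ∀ y ∈ F, ‖y‖ ≤ D) {g : V → ℝ}
    (hg : Continuous g) {c : V} {ρ L : ℝ} (hL0 : 0 ≤ L) (hL : ∀ x y, |g x - g y| ≤ L * ‖x - y‖)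
    (hs : ∀ y, ρ < ‖y - c‖ → g y = 0) :
    |μ.real F * (∑' x : Λ, g x) - ∫ y, g y ∂μ| ≤ L * D * μ.real (Metric.closedBall c (ρ + D)) := by
  have : MeasurableVAdd Λ V := (inferInstance : MeasurableVAdd Λ.toAddSubgroup V)
  have : VAddInvariantMeasure Λ V μ := (inferInstance : VAddInvariantMeasure Λ.toAddSubgroup V μ)
  set B := Metric.closedBall c (ρ + D) with hB
  have hBm : MeasurableSet B := Metric.isClosed_closedBall.measurableSet
  have hBf : μ B ≠ ⊤ := (isCompact_closedBall c _).measure_lt_top.ne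
  have hFf : μ F ≠ ⊤ := ((measure_mono fun y hy => mem_closedBall_zero_iff.2 (hD y hy)).trans_lt
    (isCompact_closedBall (0 : V) D).measure_lt_top).ne
  have : IsFiniteMeasure (μ.restrict F) := isFiniteMeasure_restrict.2 hFf
  have hgi : Integrable g μ := hg.integrable_of_hasCompactSupport
    (HasCompactSupport.intro (isCompact_closedBall c ρ) fun y hy => hs y (by
      simpa [dist_eq_norm] using hy))
  have hχ : Integrable (B.indicator fun _ => (1 : ℝ)) μ :=
    (integrable_indicator_iff hBm).2 (integrableOn_const hBf)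
  have e1 := hF.integral_eq_tsum'' g hgi
  have e2 := hF.integral_eq_tsum'' _ hχ
  rw [integral_indicator_const _ hBm, smul_eq_mul, mul_one] at e2
  have hfin : {x : Λ | ‖(x : V) - c‖ ≤ ρ + 2 * D}.Finite := by
    have h1 : (Metric.closedBall c (ρ + 2 * D) ∩ (Λ : Set V)).Finite := by
      rw [← (Module.Free.chooseBasis ℤ Λ).ofZLatticeBasis_span ℝ]
      exact ZSpan.setFinite_inter _ Metric.isBounded_closedBall
    refine (h1.preimage (f := fun x : Λ => (x : V)) Subtype.val_injective.injOn).subset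
      fun x hx => ⟨?_, x.2⟩
    simpa [dist_eq_norm] using hx
  have tri : ∀ (x : Λ), ∀ y ∈ F, ‖(x : V) - c‖ ≤ ‖(x : V) + y - c‖ + D := fun x y hy => by
    calc ‖(x : V) - c‖ = ‖((x : V) + y - c) - y‖ := by congr 1; abel
      _ ≤ ‖(x : V) + y - c‖ + ‖y‖ := norm_sub_le _ _
      _ ≤ _ := by linarith [hD y hy]
  have tri' : ∀ (x : Λ), ∀ y ∈ F, ‖(x : V) + y - c‖ ≤ ‖(x : V) - c‖ + D := fun x y hy => by
    calc ‖(x : V) + y - c‖ = ‖((x : V) - c) + y‖ := by congr 1; abel
      _ ≤ ‖(x : V) - c‖ + ‖y‖ := norm_add_le _ _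
      _ ≤ _ := by linarith [hD y hy]
  have s1 : Summable fun x : Λ => μ.real F * g x :=
    summable_of_hasFiniteSupport (hfin.subset fun x hx => by
      by_contra h
      simp only [Set.mem_ofPred_eq, not_le] at h
      exact hx (by simp [hs x (by linarith)]))
  have s2 : Summable fun x : Λ => ∫ y in F, g (x +ᵥ y) ∂μ :=
    summable_of_hasFiniteSupport (hfin.subset fun x hx => by
      by_contra h
      simp only [Set.mem_ofPred_eq, not_le] at h
      refine hx (setIntegral_eq_zero_of_forall_eq_zero fun y hy => hs _ ?_)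
      have := tri x y hy
      change ρ < ‖(x : V) + y - c‖
      linarith)
  have s3 : Summable fun x : Λ => ∫ y in F, B.indicator (fun _ => (1 : ℝ)) (x +ᵥ y) ∂μ :=
    summable_of_hasFiniteSupport (hfin.subset fun x hx => by
      by_contra h
      simp only [Set.mem_ofPred_eq, not_le] at h
      refine hx (setIntegral_eq_zero_of_forall_eq_zero fun y hy => Set.indicator_of_notMem ?_ _)
      have := tri x y hy
      rw [hB, mem_closedBall_iff_norm, not_le]
      change ρ + D < ‖(x : V) + y - c‖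
      linarith)
  have key : ∀ x : Λ, ‖μ.real F * g x - ∫ y in F, g (x +ᵥ y) ∂μ‖ ≤
      L * D * ∫ y in F, B.indicator (fun _ => (1 : ℝ)) (x +ᵥ y) ∂μ := fun x => by
    have i1 : Integrable (fun y => g (x +ᵥ y)) (μ.restrict F) :=
      (hgi.comp_add_left (x : V)).integrableOn
    have i2 : Integrable (fun y => B.indicator (fun _ => (1 : ℝ)) (x +ᵥ y)) (μ.restrict F) :=
      (hχ.comp_add_left (x : V)).integrableOn
    rw [← smul_eq_mul, ← setIntegral_const, ← integral_sub (integrable_const _) i1,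
      ← integral_const_mul]
    refine norm_integral_le_of_norm_le (i2.const_mul _) (ae_restrict_of_forall_mem hm fun y hy => ?_)
    change |g x - g ((x : V) + y)| ≤ L * D * B.indicator (fun _ => (1 : ℝ)) ((x : V) + y)
    by_cases h : (x : V) + y ∈ B
    · rw [Set.indicator_of_mem h, mul_one]
      refine (hL _ _).trans ?_
      rw [sub_add_cancel_left, norm_neg]
      exact mul_le_mul_of_nonneg_left (hD y hy) hL0
    · rw [Set.indicator_of_notMem h, mul_zero]
      rw [hB, mem_closedBall_iff_norm, not_le] at h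
      have := tri' x y hy
      rw [hs _ (by linarith), hs ((x : V) + y) (by linarith), sub_self, abs_zero]
  rw [e1, e2, ← tsum_mul_left, ← s1.tsum_sub s2, ← tsum_mul_left, ← Real.norm_eq_abs]
  exact tsum_of_norm_bounded (s3.mul_left _).hasSum key

theorem lat_sum {V : Type*} [NormedAddCommGroup V] [NormedSpace ℝ V] [FiniteDimensional ℝ V]
    [MeasurableSpace V] [BorelSpace V] (μ : Measure V) [μ.IsAddHaarMeasure] (Λ : Submodule ℤ V)
    [DiscreteTopology Λ] [IsZLattice ℝ Λ] (R : ℝ) :
    ∃ C : ℝ, ∀ (Kc : NNReal) (f : V → ℝ), LipschitzWith Kc f →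
      Function.support f ⊆ Metric.closedBall 0 R → ∀ (v : V) (T : ℝ), 1 ≤ T →
      |(∑' x : Λ, f (T⁻¹ • ((x : V) + v))) -
          T ^ Module.finrank ℝ V * (∫ y, f y ∂μ) / ZLattice.covolume Λ μ|
        ≤ C * Kc * T ^ Module.finrank ℝ V / T := by
  have hF := ZLattice.isAddFundamentalDomain (Module.Free.chooseBasis ℤ Λ) μ
  have hm := ZSpan.fundamentalDomain_measurableSet
    ((Module.Free.chooseBasis ℤ Λ).ofZLatticeBasis ℝ)
  obtain ⟨D, hD0, hD⟩ := (ZSpan.fundamentalDomain_isBounded
    ((Module.Free.chooseBasis ℤ Λ).ofZLatticeBasis ℝ)).exists_pos_norm_le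
  have hc := ZLattice.covolume_pos Λ μ
  refine ⟨D * ((|R| + D) ^ Module.finrank ℝ V * μ.real (Metric.closedBall 0 1)) /
    ZLattice.covolume Λ μ, fun Kc f hf hs v T hT => ?_⟩
  have hT0 : 0 < T := by linarith
  have h := Lat_core μ Λ hF hm hD0.le hD (g := fun y => f (T⁻¹ • (y + v)))
    (hf.continuous.comp (by fun_prop)) (c := -v) (ρ := T * |R|) (L := Kc / T) (by positivity)
    (fun x y => by
      have h1 := hf.dist_le_mul (T⁻¹ • (x + v)) (T⁻¹ • (y + v))
      rw [Real.dist_eq, dist_eq_norm, ← smul_sub, add_sub_add_right_eq_sub, norm_smul, norm_inv,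
        Real.norm_of_nonneg hT0.le] at h1
      refine h1.trans_eq ?_
      ring)
    (fun y hy => by
      by_contra h
      have h1 := mem_closedBall_zero_iff.1 (hs h)
      rw [norm_smul, norm_inv, Real.norm_of_nonneg hT0.le, inv_mul_le_iff₀ hT0] at h1
      rw [sub_neg_eq_add] at hy
      have h2 : T * R ≤ T * |R| := mul_le_mul_of_nonneg_left (le_abs_self R) hT0.le
      linarith)
  rw [← ZLattice.covolume_eq_measure_fundamentalDomain Λ μ hF,
    integral_add_right_eq_self (fun y => f (T⁻¹ • y)) v,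
    Measure.integral_comp_inv_smul_of_nonneg μ f hT0.le, smul_eq_mul,
    Measure.addHaar_real_closedBall' μ _ (by positivity)] at h
  have h2 : (T * |R| + D) ^ Module.finrank ℝ V ≤
      T ^ Module.finrank ℝ V * (|R| + D) ^ Module.finrank ℝ V := by
    rw [← mul_pow]
    gcongr
    nlinarith
  have h3 : ∀ a b : ℝ, |a - b / ZLattice.covolume Λ μ| =
      |ZLattice.covolume Λ μ * a - b| / ZLattice.covolume Λ μ := fun a b => by
    rw [← abs_of_pos hc, ← abs_div, abs_of_pos hc]
    congr 1
    field_simp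
  rw [h3, div_le_iff₀ hc]
  refine h.trans ?_
  calc _ ≤ Kc / T * D * (T ^ Module.finrank ℝ V * (|R| + D) ^ Module.finrank ℝ V *
        μ.real (Metric.closedBall 0 1)) := by gcongr
    _ = _ := by field_simp

end Vale.Agent.P024U
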