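import Vale.Agent.P024U.CApi
import Vale.Agent.P024U.Kum
import Vale.Agent.P024U.Cls

/-! Normal subgroups of `G2 / N2` are big.
`kum_rep`: `cheb` with `σ = 1` gives `P` with `Dec P ≤ W = V.normalCore` (`dec_decomp`, unramified).  Take `y ∈ fix V` with `val P y = 1` and `val (δ P) y = 0` for all `δ ∉ V`
(`ch P` times a correction: Chinese remainder theorem in `𝓞 (fix V)`, `y ≡ ch P mod (below P)^2`, `y ≡ 1` modulo the other primes over `ch P`; `below_eq_iff`).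
The `δ y`, `δ ∈ Ga / V`, are independent modulo `r`-th powers in `fix W` (`val_int`); `kum_surj` for `W`.
`nt_comm`: `u ∈ A`, `u' ∈ B` not in `V`; `g` for the delta function at the trivial coset; `[u, [u', g]]` acts on the roots of `y` by `ζ` or `ζ^2`.
`nt_big`: `V1` = elements of `V` fixing all the roots; `V / V1 ≃` functions; `[u, g]` for delta functions at two cosets `δ1, δ2` with `δ2 ∉ {δ1, u δ1, u⁻¹ δ1}` (index of `V` in `G2` at least 4) generate `(ℤ/r)^2` in the image of `A`. -/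

namespace Vale.Agent.P024U
open NumberField

theorem LemM_split {W : Subgroup Ga} (hW : Op W) [W.Normal] :
    ∃ P : Pr, Dec P ≤ W ∧ ∀ δ : Ga, Ine (δ • P) ≤ W := by
  obtain ⟨m, hm, hu⟩ := exists_unrOut hW
  obtain ⟨l, ⟨P, φ, rfl, hφ, hφW, -⟩, hl⟩ := (cheb hW 1).exists_gt m
  have h1 : ¬ ch P ∣ m := fun h => (Nat.le_of_dvd (Nat.pos_of_ne_zero hm) h).not_gt hl
  rw [Subgroup.zpowers_one_eq_bot, sup_bot_eq] at hφW
  refine ⟨P, fun σ hσ => ?_, fun δ => hu _ (by rwa [ch_smul])⟩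
  obtain ⟨k, ρ, hρ, w, hw, -, rfl⟩ := dec_decomp hφ hW hσ
  exact W.mul_mem (W.mul_mem (W.pow_mem hφW k) (hu P h1 hρ)) hw

theorem LemM_val_zero {P : Pr} {x : Oi} (h : x ∉ P.I) : val P (x : Om) = 0 := by
  rw [← pos_iff_mem, Pos, not_or, not_lt] at h
  exact le_antisymm h.2 (val_nonneg P x)

theorem LemM_out {V : Subgroup Ga} {y : Om} (hy : y ∈ fix V) (δ : Ga) :
    (δ : Ga ⧸ V).out y = δ y := by
  obtain ⟨h, hh⟩ := QuotientGroup.mk_out_eq_mul V δ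
  rw [hh, AlgEquiv.mul_apply, mem_fix.1 hy _ h.2]

theorem LemM_elt {V : Subgroup Ga} (hV : Op V) {P : Pr} (hP : Dec P ≤ V) :
    ∃ y ∈ fix V, y ≠ 0 ∧ val P y = 1 ∧ ∀ δ : Ga, δ ∉ V → val P (δ y) = 0 := by
  have := numberField_fix hV
  have : Finite (Ga ⧸ V) := Subgroup.index_ne_zero_iff_finite.1 hV.index_ne_zero
  have h1 : ¬ ((below V P).asIdeal : Set (𝓞 (fix V))) ⊆
      ⋃ i ∈ {i : Ga ⧸ V | i.out ∉ V}, ((below V (i.out⁻¹ • P)).asIdeal : Set (𝓞 (fix V))) := by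
    rw [Ideal.subset_union_prime_finite (Set.toFinite _) ((1 : Ga) : Ga ⧸ V) ((1 : Ga) : Ga ⧸ V)
      fun i _ _ _ => (below V _).isPrime]
    rintro ⟨i, hi, hle⟩
    have h2 : below V P = below V (i.out⁻¹ • P) := IsDedekindDomain.HeightOneSpectrum.ext
      ((below V P).isMaximal.eq_of_le (below V _).isPrime.ne_top hle)
    obtain ⟨h, hh, h3⟩ := (below_eq_iff hV _ _).1 h2
    have h4 : i.out * h ∈ V := hP (mem_Dec.2 (by rw [mul_smul, h3, smul_inv_smul]))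
    exact hi ((V.mul_mem_cancel_right hh).1 h4)
  obtain ⟨x, hx, hx'⟩ := Set.not_subset.1 h1
  have h2 : ∀ δ : Ga, δ ∉ V → incl V x ∉ ((δ : Ga ⧸ V).out⁻¹ • P).I := fun δ hδ h => by
    refine hx' (Set.mem_biUnion (x := (δ : Ga ⧸ V)) (fun h' => hδ ?_) h)
    obtain ⟨k, hk⟩ := QuotientGroup.mk_out_eq_mul V δ
    rw [hk] at h'
    exact (V.mul_mem_cancel_right k.2).1 h'
  have h3 : ∀ z : Oi, (z : Om) ∈ fix V → (∀ δ : Ga, δ ∉ V → z ∉ ((δ : Ga ⧸ V).out⁻¹ • P).I) →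
      ∀ δ : Ga, δ ∉ V → val P (δ z) = 0 := fun z hz h δ hδ => by
    rw [← LemM_out hz, ← LemM_val_zero (h δ hδ), ← val_smul (δ : Ga ⧸ V).out (_ • P),
      smul_inv_smul]
  have hxV : ((incl V x : Oi) : Om) ∈ fix V := (x : fix V).2
  have hl0 : (ch P : Om) ≠ 0 := Nat.cast_ne_zero.2 (ch_prime P).ne_zero
  by_cases h4 : val P ((incl V x : Oi) : Om) = 1
  · exact ⟨_, hxV, fun h => by simp [h, val_zero] at h4, h4, h3 _ hxV h2⟩
  have h5 : ((incl V x : Oi) : Om) = 0 ∨ val P (ch P : Om) < val P ((incl V x : Oi) : Om) := by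
    refine ((pos_iff_mem P _).2 hx).imp_right fun h => ?_
    obtain ⟨k, hk⟩ := val_int (P := P) fun σ hσ => mem_fix.1 hxV σ (hP (Ine_le_Dec P hσ))
    rw [hk] at h h4
    rw [hk, val_ch]
    have h6 : 0 < k := by exact_mod_cast h
    have h7 : k ≠ 1 := by exact_mod_cast h4
    exact_mod_cast (show 1 < k by omega)
  obtain ⟨h6, h7⟩ := val_add_of_lt hl0 h5
  have h8 : (ch P : Om) + ((incl V x : Oi) : Om) ∈ fix V := add_mem (_root_.natCast_mem _ _) hxV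
  refine ⟨_, h8, h6, h7.trans (val_ch P), ?_⟩
  have h9 := h3 ((ch P : Oi) + incl V x) (by simpa using h8) fun δ hδ h => h2 δ hδ
    ((Ideal.add_mem_iff_right _ ((natCast_mem _ _).2 (by rw [ch_smul]))).1 h)
  simpa using h9

theorem LemM_root {r : ℕ} {g : Ga} (hg : g ∈ Gmu r) {w w' η : Om} (h0 : w ≠ 0) (h : w' ^ r = w ^ r)
    (hw : g w = η * w) : g w' = η * w' := by
  have h1 : g (w' / w) = w' / w := hg _ (by rw [div_pow, h, div_self (pow_ne_zero _ h0)])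
  calc g w' = g (w' / w * w) := by rw [div_mul_cancel₀ _ h0]
    _ = η * w' := by rw [map_mul, h1, hw, mul_left_comm, div_mul_cancel₀ _ h0]

theorem LemM_cop {S : Subgroup Ga} {r : ℕ} (hr : r.Prime) {h : Ga} (h1 : h ^ r ∈ S) {s : ℤ}
    (h2 : h ^ s ∈ S) (hs : ¬ (r : ℤ) ∣ s) : h ∈ S := by
  obtain ⟨a, b, hab⟩ := ((Nat.prime_iff_prime_int.1 hr).coprime_iff_not_dvd).2 hs
  have : h = (h ^ r) ^ a * (h ^ s) ^ b := by
    rw [← zpow_natCast, ← zpow_mul, ← zpow_mul, ← zpow_add, mul_comm _ a, mul_comm _ b, hab,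
      zpow_one]
  rw [this]
  exact S.mul_mem (S.zpow_mem h1 a) (S.zpow_mem h2 b)

theorem LemM_pow {r : ℕ} {h : Ga} (hh : h ∈ Gmu r) {w : Om} (hw : h (w ^ r) = w ^ r) :
    h ^ r ∈ MulAction.stabilizer Ga w := by
  by_cases h0 : w = 0
  · simp [h0]
  have h1 : (h w / w) ^ r = 1 := by rw [div_pow, ← map_pow, hw, div_self (pow_ne_zero _ h0)]
  have h2 : ∀ n : ℕ, (h ^ n) w = (h w / w) ^ n * w := fun n => by
    induction n with
    | zero => simp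
    | succ n ih =>
      rw [pow_succ', AlgEquiv.mul_apply, ih, map_mul, map_pow, hh _ h1, pow_succ, mul_assoc,
        div_mul_cancel₀ _ h0]
  show (h ^ r) w = w
  rw [h2, h1, one_mul]

theorem LemM_idx {H K : Subgroup Ga} (hH : H.index ≠ 0) (hle : H ≤ K) {a : Ga} (ha : a ∈ K) {r : ℕ}
    (h : ∀ s : ℤ, a ^ s ∈ H → (r : ℤ) ∣ s) : r * K.index ≤ H.index := by
  rw [← Subgroup.relIndex_mul_index hle] at hH ⊢
  refine Nat.mul_le_mul_right _ ?_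
  have : Finite (K ⧸ H.subgroupOf K) := Nat.finite_of_card_ne_zero (left_ne_zero_of_mul hH)
  have h1 := Nat.card_le_card_of_injective
    (fun i : Fin r => ((⟨a ^ (i : ℕ), K.pow_mem ha _⟩ : K) : K ⧸ H.subgroupOf K)) fun i j hij => by
      have h2 : (a ^ (i : ℕ))⁻¹ * a ^ (j : ℕ) ∈ H :=
        Subgroup.mem_subgroupOf.1 (QuotientGroup.eq.1 hij)
      rw [← zpow_natCast, ← zpow_natCast, ← zpow_neg, ← zpow_add] at h2
      have h3 := Int.eq_zero_of_abs_lt_dvd (h _ h2) (by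
        have := i.2
        have := j.2
        rw [abs_lt]
        omega)
      exact Fin.ext (by omega)
  rwa [Nat.card_eq_fintype_card, Fintype.card_fin] at h1

theorem LemM_sup {V : Subgroup Ga} {γ : Ga} (hV : ∀ m : ℤ, ∀ a ∈ V, γ ^ m * a * (γ ^ m)⁻¹ ∈ V)
    {h : Ga} (hh : h ∈ V ⊔ Subgroup.zpowers γ) : ∃ m : ℤ, ∃ v ∈ V, γ ^ m = h * v := by
  let T : Subgroup Ga :=
    { carrier := {h | ∃ m : ℤ, h⁻¹ * γ ^ m ∈ V}
      one_mem' := ⟨0, by simp⟩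
      mul_mem' := by
        rintro a b ⟨m, hm⟩ ⟨n, hn⟩
        refine ⟨m + n, ?_⟩
        have := V.mul_mem hn (hV (-n) _ hm)
        refine (congrArg (· ∈ V) ?_).mp this
        group
      inv_mem' := by
        rintro a ⟨m, hm⟩
        refine ⟨-m, ?_⟩
        have := hV m _ (V.inv_mem hm)
        refine (congrArg (· ∈ V) ?_).mp this
        group }
  have h1 : V ⊔ Subgroup.zpowers γ ≤ T :=
    sup_le (fun v hv => ⟨0, by simpa using hv⟩) (Subgroup.zpowers_le.2 ⟨1, by simp⟩)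
  obtain ⟨m, hm⟩ := h1 hh
  exact ⟨m, _, hm, by group⟩

namespace Corr
variable (c : Corr)

theorem kum_rep {V : Subgroup Ga} (hV : Op V) (r : ℕ) (hr : r.Prime) (hμ : V ≤ Gmu r) :
    ∃ y ∈ fix V, y ≠ 0 ∧ ∀ η : Ga ⧸ V → Om, (∀ δ, η δ ^ r = 1) →
      ∃ g : Ga, (∀ δ : Ga, δ⁻¹ * g * δ ∈ V) ∧
        ∀ (δ : Ga) (w : Om), w ^ r = δ y → g w = η (δ : Ga ⧸ V) * w := by
  obtain ⟨P, hP, hI⟩ := LemM_split hV.normalCore
  obtain ⟨y, hy, hy0, hy1, hy2⟩ := LemM_elt hV (hP.trans V.normalCore_le)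
  let _ := Subgroup.fintypeOfIndexNeZero hV.index_ne_zero
  refine ⟨y, hy, hy0, fun η hη => ?_⟩
  choose w hw using fun i : Ga ⧸ V => IsAlgClosed.exists_pow_nat_eq (i.out y) hr.pos
  have h0 : ∀ i : Ga ⧸ V, i.out y ≠ 0 := fun i => (map_ne_zero _).2 hy0
  have hw0 : ∀ i, w i ≠ 0 := fun i h => h0 i (by rw [← hw, h, zero_pow hr.ne_zero])
  have hc : ∀ g ∈ V.normalCore, ∀ δ : Ga, δ⁻¹ * g * δ ∈ V := fun g hg δ => by
    simpa using hg δ⁻¹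
  obtain ⟨g, hg, hgw⟩ := kum_surj r hr (V.normalCore_le.trans hμ) w hw0 (fun i => by
    rw [hw]
    refine mem_fix.2 fun g hg => ?_
    have := congrArg i.out (mem_fix.1 hy _ (hc g hg i.out))
    simpa [AlgEquiv.mul_apply] using this) (fun n ⟨z, hz, hzn⟩ j => by
    obtain ⟨k, hk⟩ := val_int (P := j.out • P) fun σ hσ => mem_fix.1 hz σ (hI _ hσ)
    have h1 := congrArg (val (j.out • P)) hzn
    simp only [hw] at h1
    rw [val_pow, hk, val_prod _ _ _ fun i _ => pow_ne_zero _ (h0 i), Finset.sum_eq_single j,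
      val_pow, val_smul, hy1, mul_one] at h1
    · have h2 : (r : ℤ) * k = n j := by exact_mod_cast h1
      exact Int.natCast_dvd_natCast.1 ⟨k, h2.symm⟩
    · intro i _ hij
      have h2 : i.out y = j.out ((j.out⁻¹ * i.out) y) := by simp [AlgEquiv.mul_apply]
      rw [val_pow, h2, val_smul, hy2, mul_zero]
      intro h
      exact hij (by rw [← i.out_eq', ← j.out_eq']; exact (QuotientGroup.eq.2 h).symm)
    · simp) η hη
  refine ⟨g, hc g hg, fun δ w' hw' => ?_⟩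
  exact LemM_root (hμ (V.normalCore_le hg)) (hw0 δ) (by rw [hw', hw, LemM_out hy]) (hgw δ)

theorem LemM_N2 : c.N2 ≤ c.G2 := fun _ h => c.mem_G2.2 ⟨1, h⟩

theorem LemM_step {A V : Subgroup Ga} (hA : c.Nt A) (hV : Op V) {r : ℕ} (hr : r.Prime)
    (hN : c.N2 ≤ V) (hG : V ≤ c.G2) (hμ : V ≤ Gmu r) {u : Ga} (hu : u ∈ A) (huV : u ∉ V) :
    ∃ a ∈ A, a ∈ V.normalCore ∧ ∃ w ∈ fix c.N2, w ^ r ∈ fix V ∧ a w ≠ w ∧
      ∀ δ : Ga, δ ∉ V → u⁻¹ * δ ∉ V → a (δ w) = δ w := by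
  classical
  obtain ⟨y, hy, hy0, h⟩ := kum_rep hV r hr hμ
  have : NeZero r := ⟨hr.ne_zero⟩
  obtain ⟨ζ, hζ⟩ := HasEnoughRootsOfUnity.exists_primitiveRoot Om r
  obtain ⟨g, hg, hgw⟩ := h (fun i => if i = ((1 : Ga) : Ga ⧸ V) then ζ else 1) fun i => by
    split_ifs
    exacts [hζ.pow_eq_one, one_pow _]
  have hg' : g ∈ V.normalCore := fun δ => by simpa using hg δ⁻¹
  have hgG : g ∈ c.G2 := hG (V.normalCore_le hg')
  obtain ⟨w, hw⟩ := IsAlgClosed.exists_pow_nat_eq y hr.pos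
  have hw0 : w ≠ 0 := fun h => hy0 (by rw [← hw, h, zero_pow hr.ne_zero])
  have h1 : ∀ δ : Ga, δ ∉ V → g (δ w) = δ w := fun δ hδ => by
    rw [hgw δ _ (by rw [← map_pow, hw]), if_neg, one_mul]
    intro h
    exact hδ (by simpa using QuotientGroup.eq.1 h)
  have h2 : g w = ζ * w := by simpa using hgw 1 w hw
  refine ⟨g * (u * g⁻¹ * u⁻¹), ?_, mul_mem hg' (Subgroup.Normal.conj_mem inferInstance _
    (inv_mem hg') u), w, c.root_mem hr.ne_zero ?_, hw ▸ hy, ?_, fun δ hδ hδ' => ?_⟩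
  · have := A.mul_mem (hA.2.2.1 g hgG u hu) (A.inv_mem hu)
    refine (congrArg (· ∈ A) ?_).mp this
    group
  · rw [hw]
    exact mem_fix.2 fun ν hν => mem_fix.1 hy ν (hN hν)
  · have h3 : g⁻¹ (u⁻¹ w) = u⁻¹ w := by
      conv_lhs => rw [← h1 u⁻¹ (by simpa using huV)]
      simp
    simp only [AlgEquiv.mul_apply, h3]
    rw [show u (u⁻¹ w) = w by simp, h2]
    intro h
    exact hζ.ne_one hr.one_lt (mul_right_cancel₀ hw0 (h.trans (one_mul w).symm))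
  · have h3 : g⁻¹ (u⁻¹ (δ w)) = u⁻¹ (δ w) := by
      have h4 : g (u⁻¹ (δ w)) = u⁻¹ (δ w) := h1 _ hδ'
      conv_lhs => rw [← h4]
      simp
    simp only [AlgEquiv.mul_apply, h3]
    rw [show u (u⁻¹ (δ w)) = δ w by simp, h1 δ hδ]

theorem LemM_V (r : ℕ) (hr : r ≠ 0) {x x' : Om} (hx : x ∈ fix c.N2) (hx' : x' ∈ fix c.N2) :
    ∃ V : Subgroup Ga, Op V ∧ c.N2 ≤ V ∧ V ≤ c.G2 ∧ V ≤ Gmu r ∧ ∀ g ∈ V, g x = x ∧ g x' = x' := by
  refine ⟨(c.G2 ⊓ Gmu r) ⊓ (MulAction.stabilizer Ga x ⊓ MulAction.stabilizer Ga x'),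
    (c.op_G2.inf (op_Gmu hr)).inf (Op.inf (op_stab x) (op_stab x')), fun ν hν =>
      ⟨⟨c.LemM_N2 hν, c.N2_le_Gmu hr hν⟩, mem_fix.1 hx ν hν, mem_fix.1 hx' ν hν⟩,
    fun _ h => h.1.1, fun _ h => h.1.2, fun _ h => h.2⟩

theorem LemM_one {A : Subgroup Ga} (hA : c.Nt A) : ∃ u ∈ A, ∃ x ∈ fix c.N2, u x ≠ x := by
  by_contra h
  push Not at h
  exact hA.2.2.2 fun u hu => mem_of_fix c.cl_N2 (h u hu)

theorem LemM_two {A : Subgroup Ga} (hA : c.Nt A) :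
    ∃ a ∈ A, ∃ w ∈ fix c.N2, a w ≠ w ∧ (a * a) w ≠ w := by
  obtain ⟨u, hu, x, hx, hux⟩ := c.LemM_one hA
  obtain ⟨V, hV, hN, hG, hμ, hf⟩ := c.LemM_V 3 three_ne_zero hx hx
  obtain ⟨a, ha, haV, w, hw, hwr, haw, -⟩ :=
    c.LemM_step hA hV Nat.prime_three hN hG hμ hu fun h => hux (hf u h).1
  refine ⟨a, ha, w, hw, haw, fun h => haw ?_⟩
  have h1 := LemM_pow (hμ (V.normalCore_le haV)) (mem_fix.1 hwr a (V.normalCore_le haV))
  exact LemM_cop Nat.prime_three h1 (s := 2) (by rw [zpow_two]; exact h) (by decide)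

theorem nt_comm {A B : Subgroup Ga} (hA : c.Nt A) (hB : c.Nt B) :
    ∃ a ∈ A, ∃ b ∈ B, a * b * a⁻¹ * b⁻¹ ∉ c.N2 := by
  obtain ⟨a, ha, w₀, hw₀, h1, h2⟩ := c.LemM_two hA
  obtain ⟨u, hu, x, hx, hux⟩ := c.LemM_one hB
  obtain ⟨V, hV, hN, hG, hμ, hf⟩ := c.LemM_V 2 two_ne_zero hx hw₀
  obtain ⟨b, hb, -, w, hw, -, hbw, h3⟩ :=
    c.LemM_step hB hV Nat.prime_two hN hG hμ hu fun h => hux (hf u h).1
  by_contra h
  push Not at h
  have key : ∀ δ ∈ A, δ ∉ V → u⁻¹ * δ ∈ V := fun δ hδ hδV => by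
    by_contra h4
    have h5 := mem_fix.1 (c.apply_mem_fix (hB.1 hb) hw) _ (h δ⁻¹ (A.inv_mem hδ) b hb)
    simp only [AlgEquiv.mul_apply, inv_inv] at h5
    rw [show b⁻¹ (b w) = w by simp, h3 δ hδV h4, show δ⁻¹ (δ w) = w by simp] at h5
    exact hbw h5.symm
  have h4 := key a ha fun h => h1 (hf a h).2
  have h5 := key (a * a) (A.mul_mem ha ha) fun h => h2 (hf _ h).2
  rw [← mul_assoc] at h5
  exact h1 (hf a ((V.mul_mem_cancel_left h4).1 h5)).2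

theorem nt_big {A : Subgroup Ga} (hA : c.Nt A) (R0 : ℕ) :
    ∃ V : Subgroup Ga, Op V ∧ c.N2 ≤ V ∧ ∀ V' : Subgroup Ga, Op V' → V' ≤ V →
      (∀ τ ∈ c.G2, ∀ a ∈ V', τ * a * τ⁻¹ ∈ V') → ∀ γ ∈ c.G2,
      R0 * (V' ⊔ Subgroup.zpowers γ ⊔ A).index ≤ (V' ⊔ Subgroup.zpowers γ).index := by
  obtain ⟨r, hR, hr⟩ := Nat.exists_infinite_primes R0
  obtain ⟨u, hu, x, hx, h1, h2⟩ := c.LemM_two hA
  obtain ⟨V, hV, hN, hG, hμ, hf⟩ := c.LemM_V r hr.ne_zero hx hx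
  obtain ⟨a, ha, haV, w, hw, hwr, haw, h3⟩ :=
    c.LemM_step hA hV hr hN hG hμ hu fun h => h1 (hf u h).1
  have hδ : u * u ∈ c.G2 := hA.1 (A.mul_mem hu hu)
  have h4 := h3 (u * u) (fun h => h2 (hf _ h).1) fun h => h1 (hf u (by simpa using h)).1
  generalize u * u = δ at hδ h4
  have hb : δ * a * δ⁻¹ ∈ A := hA.2.2.1 δ hδ a ha
  have hbV : δ * a * δ⁻¹ ∈ V.normalCore := Subgroup.Normal.conj_mem inferInstance _ haV δ
  have hbw : (δ * a * δ⁻¹) (δ w) ≠ δ w := by simpa [AlgEquiv.mul_apply] using haw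
  generalize δ * a * δ⁻¹ = b at hb hbV hbw
  obtain ⟨V1, hV1, hN1, -, hμ1, hf1⟩ := c.LemM_V r hr.ne_zero hw (c.apply_mem_fix hδ hw)
  refine ⟨V1, hV1, hN1, fun V' hV' hle hn γ hγ => ?_⟩
  refine (Nat.mul_le_mul_right _ hR).trans ?_
  have hH : (V' ⊔ Subgroup.zpowers γ).index ≠ 0 := (hV'.mono le_sup_left).index_ne_zero
  by_contra hcon
  have h5 : ∀ e ∈ A, ∃ s : ℤ, e ^ s ∈ V' ⊔ Subgroup.zpowers γ ∧ ¬ (r : ℤ) ∣ s := fun e he => by
    by_contra h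
    push Not at h
    exact hcon (LemM_idx hH le_sup_left (Subgroup.mem_sup_right he) h)
  let K : Subgroup Ga :=
    Gmu r ⊓ (MulAction.stabilizer Ga (w ^ r) ⊓ MulAction.stabilizer Ga (δ w ^ r))
  have hK : V.normalCore ≤ K := fun g hg => by
    refine ⟨hμ (V.normalCore_le hg), mem_fix.1 hwr g (V.normalCore_le hg), ?_⟩
    have := congrArg δ (mem_fix.1 hwr _ (hg δ⁻¹))
    show g (δ w ^ r) = δ w ^ r
    simpa [AlgEquiv.mul_apply] using this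
  have hK' : V' ≤ K := fun g hg => by
    refine ⟨hμ1 (hle hg), ?_, ?_⟩
    · show g (w ^ r) = w ^ r
      rw [map_pow, (hf1 g (hle hg)).1]
    · show g (δ w ^ r) = δ w ^ r
      rw [map_pow, (hf1 g (hle hg)).2]
  have hp : ∀ g ∈ K, g ^ r ∈ MulAction.stabilizer Ga w ∧ g ^ r ∈ MulAction.stabilizer Ga (δ w) :=
    fun g hg => ⟨LemM_pow hg.1 hg.2.1, LemM_pow hg.1 hg.2.2⟩
  have hn' : ∀ m : ℤ, ∀ v ∈ V', γ ^ m * v * (γ ^ m)⁻¹ ∈ V' := fun m => hn _ (zpow_mem hγ m)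
  obtain ⟨i, hi, hi'⟩ := h5 a ha
  obtain ⟨j, hj, hj'⟩ := h5 b hb
  obtain ⟨m, v, hv, hm⟩ := LemM_sup hn' hi
  obtain ⟨n, v', hv', hn⟩ := LemM_sup hn' hj
  have hmK : γ ^ m ∈ K := hm ▸ K.mul_mem (K.zpow_mem (hK haV) i) (hK' hv)
  have hnK : γ ^ n ∈ K := hn ▸ K.mul_mem (K.zpow_mem (hK hbV) j) (hK' hv')
  have he : γ ^ (Int.gcd m n : ℤ) ∈ K := by
    rw [Int.gcd_eq_gcd_ab, zpow_add, zpow_mul, zpow_mul]
    exact K.mul_mem (K.zpow_mem hmK _) (K.zpow_mem hnK _)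
  obtain ⟨s, hs⟩ := Int.gcd_dvd_left m n
  obtain ⟨t, ht⟩ := Int.gcd_dvd_right m n
  rw [hs, zpow_mul] at hm
  rw [ht, zpow_mul] at hn
  generalize γ ^ (Int.gcd m n : ℤ) = e at he hm hn
  have hv1 : v ∈ MulAction.stabilizer Ga w := (hf1 v (hle hv)).1
  have hv2 : v ∈ MulAction.stabilizer Ga (δ w) := (hf1 v (hle hv)).2
  have hv3 : v' ∈ MulAction.stabilizer Ga (δ w) := (hf1 v' (hle hv')).2
  have h6 : ¬ (r : ℤ) ∣ s := by
    rintro ⟨k, rfl⟩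
    have h7 : a ^ i * v ∈ MulAction.stabilizer Ga w := by
      rw [← hm, zpow_mul, zpow_natCast]
      exact zpow_mem (hp e he).1 k
    exact haw (LemM_cop hr (hp a (hK haV)).1 ((Subgroup.mul_mem_cancel_right _ hv1).1 h7) hi')
  have h7 : e ∈ MulAction.stabilizer Ga (δ w) :=
    LemM_cop hr (hp e he).2 (hm ▸ mul_mem (zpow_mem h4 i) hv2) h6
  have h8 : b ^ j * v' ∈ MulAction.stabilizer Ga (δ w) := hn ▸ zpow_mem h7 t
  exact hbw (LemM_cop hr (hp b (hK hbV)).2 ((Subgroup.mul_mem_cancel_right _ hv3).1 h8) hj')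

/-- normal subgroup of `G1` with nontrivial image -/
def LemM_Gd (X : Subgroup Ga) : Prop :=
  (∀ σ ∈ c.G1, ∀ x ∈ X, σ * x * σ⁻¹ ∈ X) ∧ ¬ c.im X ≤ c.N2

theorem LemM_nt {X : Subgroup Ga} (h : c.LemM_Gd X) : c.Nt (c.im X) := by
  refine ⟨c.im_le_G2 X, c.N2_le_im X, fun τ hτ a ha => ?_, h.2⟩
  obtain ⟨σ, hσ⟩ := c.mem_G2.1 hτ
  exact c.conj_mem_im hσ (h.1 σ (c.mem_G1.2 ⟨τ, hσ⟩)) ha

theorem LemM_inf {X Y : Subgroup Ga} (hX : c.LemM_Gd X) (hY : c.LemM_Gd Y) :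
    c.LemM_Gd (X ⊓ Y) := by
  refine ⟨fun σ hσ x hx => ⟨hX.1 σ hσ x hx.1, hY.1 σ hσ x hx.2⟩, fun h => ?_⟩
  obtain ⟨a, ha, b, hb, hab⟩ := c.nt_comm (c.LemM_nt hX) (c.LemM_nt hY)
  obtain ⟨x, hx, hxa⟩ := c.mem_im.1 ha
  obtain ⟨y, hy, hyb⟩ := c.mem_im.1 hb
  have h1 := c.R.mul_mem (c.R.mul_mem (c.R.mul_mem hxa hyb) (c.R.inv_mem hxa)) (c.R.inv_mem hyb)
  simp only [Prod.inv_mk, Prod.mk_mul_mk] at h1
  refine hab (h (c.mem_im.2 ⟨x * y * x⁻¹ * y⁻¹, Subgroup.mem_inf.2 ⟨?_, ?_⟩, h1⟩))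
  · have := X.mul_mem hx (hX.1 y (c.mem_G1.2 ⟨b, hyb⟩) _ (X.inv_mem hx))
    refine (congrArg (· ∈ X) ?_).mp this
    group
  · exact Y.mul_mem (hY.1 x (c.mem_G1.2 ⟨a, hxa⟩) y hy) (Y.inv_mem hy)

theorem LemM_G1 : c.LemM_Gd c.G1 := by
  refine ⟨fun σ hσ x hx => mul_mem (mul_mem hσ hx) (inv_mem hσ), fun h => ?_⟩
  obtain ⟨P, hP⟩ := exists_pr 2 Nat.prime_two
  obtain ⟨σ, -, hσ, n, z, hz, h1, -⟩ := ine_moves P 3 Nat.prime_three (by omega) c.op_G2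
  obtain ⟨τ, hτ⟩ := c.mem_G2.1 hσ
  have h2 : σ ∈ c.N2 := h (c.mem_im.2 ⟨τ, c.mem_G1.2 ⟨σ, hτ⟩, hτ⟩)
  have h3 : z ∈ fix c.N2 := c.root_mem (pow_ne_zero n three_ne_zero) (hz ▸ _root_.natCast_mem _ _)
  exact h1 (mem_fix.1 h3 σ h2)

theorem LemM_mem {g x : Ga} : x ∈ c.N1.map (MulAut.conj g).toMonoidHom ↔ g⁻¹ * x * g ∈ c.N1 :=
  Subgroup.mem_map_equiv

theorem LemM_conj (hn : c.G1.Normal) {g : Ga} (hg : g ∉ c.NF) :
    c.LemM_Gd (c.N1.map (MulAut.conj g).toMonoidHom) := by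
  refine ⟨fun σ hσ x hx => ?_, fun h => hg ?_⟩
  · rw [LemM_mem] at hx ⊢
    have := c.conj_mem_N1 (hn.conj_mem σ hσ g⁻¹) hx
    refine (congrArg (· ∈ c.N1) ?_).mp this
    group
  · have h1 : ∀ a ∈ c.N1, g * a * g⁻¹ ∈ c.N1 := fun a ha => by
      obtain ⟨τ, hτ⟩ := c.mem_G1.1 (hn.conj_mem a (c.mem_G1.2 ⟨1, ha⟩) g)
      have h2 : τ ∈ c.N2 := h (c.mem_im.2 ⟨_, c.LemM_mem.2 (by simpa [mul_assoc] using ha), hτ⟩)
      rw [mem_N1]
      simpa using c.R.mul_mem hτ (c.R.inv_mem h2)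
    refine Subgroup.mem_normalizer_iff.2 fun a => ⟨h1 a, fun ha => ?_⟩
    simpa [mul_assoc] using conj_eq c.N1 c.cl_N1 g h1 _ ha

theorem nt_MM (hn : c.G1.Normal) : c.Nt (c.im c.MM) := by
  classical
  have h1 : ∀ s : Finset Ga, (∀ g ∈ s, g ∉ c.NF) →
      c.LemM_Gd (c.G1 ⊓ ⨅ g ∈ s, c.N1.map (MulAut.conj g).toMonoidHom) := fun s => by
    induction s using Finset.induction_on with
    | empty => simpa using c.LemM_G1
    | insert g s _ ih =>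
      intro h
      rw [Finset.iInf_insert, inf_left_comm]
      exact c.LemM_inf (c.LemM_conj hn (h g (Finset.mem_insert_self _ _)))
        (ih fun g hg => h g (Finset.mem_insert_of_mem hg))
  let _ := Subgroup.fintypeOfIndexNeZero (c.op_G1.mono c.G1_le_NF).index_ne_zero
  have h2 := h1 ((Finset.univ.image fun i : Ga ⧸ c.NF => i.out).filter (· ∉ c.NF))
    fun g hg => (Finset.mem_filter.1 hg).2
  refine c.LemM_nt ⟨fun σ hσ x hx =>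
    Subgroup.mem_inf.2 ⟨c.G1.mul_mem (c.G1.mul_mem hσ hx.1) (c.G1.inv_mem hσ), ?_⟩,
    fun h => h2.2 (le_trans (c.im_mono (le_inf inf_le_left fun x hx => ?_)) h)⟩
  · refine Subgroup.mem_iInf.2 fun g => Subgroup.mem_iInf.2 fun hg => ?_
    exact (c.LemM_conj hn hg).1 σ hσ x (Subgroup.mem_iInf.1 (Subgroup.mem_iInf.1 hx.2 g) hg)
  · refine Subgroup.mem_iInf.2 fun g => Subgroup.mem_iInf.2 fun hg => ?_
    obtain ⟨k, hk⟩ := QuotientGroup.mk_out_eq_mul c.NF g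
    have h3 := Subgroup.mem_iInf.1 (Subgroup.mem_iInf.1 hx.2 (g * k)) (Finset.mem_filter.2
      ⟨Finset.mem_image.2 ⟨_, Finset.mem_univ _, hk⟩,
        fun h => hg ((c.NF.mul_mem_cancel_right k.2).1 h)⟩)
    rw [LemM_mem] at h3 ⊢
    have := (Subgroup.mem_normalizer_iff.1 k.2 _).1 h3
    refine (congrArg (· ∈ c.N1) ?_).mp this
    group

end Corr
end Vale.Agent.P024U
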