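import Mathlib

/-! Normal basis with trace coordinates, and Hilbert 90, for one automorphism of a number field. -/

namespace Vale.Agent.P024U
open Finset

theorem NB_basis {F : Type*} [Field F] [Algebra ℚ F] [FiniteDimensional ℚ F] (τ : F ≃ₐ[ℚ] F) :
    ∃ (β : F) (γ : ℕ → F), ∑ k ∈ range (orderOf τ), (τ ^ k) β ≠ 0 ∧
      ∀ y : F, y = ∑ i ∈ range (orderOf τ),
        (∑ k ∈ range (orderOf τ), (τ ^ k) (y * γ i)) * (τ ^ i) β := by
  classical
  let G : Subgroup (F ≃ₐ[ℚ] F) := Subgroup.zpowers τ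
  let K : IntermediateField ℚ F := IntermediateField.fixedField G
  have : IsGalois K F := IsGalois.of_fixed_field F G
  have hfin : IsOfFinOrder τ := isOfFinOrder_of_finite τ
  let e : Fin (orderOf τ) ≃ (F ≃ₐ[K] F) :=
    (finEquivZPowers hfin).trans (IntermediateField.subgroupEquivAlgEquiv G).toEquiv
  have he : ∀ (i : Fin (orderOf τ)) (y : F), e i y = (τ ^ (i : ℕ)) y := fun i y => rfl
  have htr : ∀ y : F, algebraMap K F (Algebra.trace K F y) =
      ∑ k ∈ range (orderOf τ), (τ ^ k) y := by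
    intro y
    rw [trace_eq_sum_automorphisms, Finset.sum_range, ← e.sum_comp]
    exact Finset.sum_congr rfl fun i _ => he i y
  let b := IsGalois.normalBasis K F
  have hb : ∀ i : Fin (orderOf τ), b (e i) = (τ ^ (i : ℕ)) (b 1) := by
    intro i
    rw [← he]
    exact IsGalois.normalBasis_apply (e i)
  refine ⟨b 1, fun i => if h : i < orderOf τ then b.traceDual (e ⟨i, h⟩) else 0, ?_, ?_⟩
  · intro h0
    have h1 := Fintype.linearIndependent_iff.mp b.linearIndependent (fun _ => 1) (by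
      rw [← e.sum_comp, ← h0, Finset.sum_range]
      exact Finset.sum_congr rfl fun i _ => by rw [one_smul, hb]) 1
    exact one_ne_zero h1
  · intro y
    conv_lhs => rw [← b.sum_repr y]
    rw [← e.sum_comp, Finset.sum_range]
    refine Finset.sum_congr rfl fun i _ => ?_
    beta_reduce
    rw [dif_pos i.2, ← htr, hb, Algebra.smul_def]
    congr 2
    conv_lhs => rw [← b.traceDual_traceDual]
    rw [Module.Basis.traceDual_repr_apply, Algebra.traceForm_apply]

/-- the telescoping identity behind Hilbert 90 -/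
theorem NB_tele {F : Type*} [Field F] [Algebra ℚ F] (τ : F ≃ₐ[ℚ] F) (n : ℕ) (x b : F)
    (hx : ∏ i ∈ range n, (τ ^ i) x = 1) (hb : (τ ^ n) b = b) :
    x * τ (∑ i ∈ range n, (∏ k ∈ range i, (τ ^ k) x) * (τ ^ i) b) =
      ∑ i ∈ range n, (∏ k ∈ range i, (τ ^ k) x) * (τ ^ i) b := by
  have h1 : ∀ i, x * τ ((∏ k ∈ range i, (τ ^ k) x) * (τ ^ i) b) =
      (∏ k ∈ range (i + 1), (τ ^ k) x) * (τ ^ (i + 1)) b := by
    intro i
    rw [Finset.prod_range_succ', map_mul, map_prod]
    simp only [pow_succ', AlgEquiv.mul_apply, pow_zero, AlgEquiv.one_apply]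
    ring
  rw [map_sum, Finset.mul_sum]
  simp only [h1]
  have h2 := Finset.sum_range_sub
    (fun i => (∏ k ∈ range i, (τ ^ k) x) * (τ ^ i) b) n
  rw [Finset.sum_sub_distrib, hx, hb] at h2
  simp only [range_zero, prod_empty, pow_zero, AlgEquiv.one_apply, sub_self] at h2
  exact sub_eq_zero.mp h2

theorem NB_h90 {F : Type*} [Field F] [Algebra ℚ F] [FiniteDimensional ℚ F] (τ : F ≃ₐ[ℚ] F)
    (x : F) (hx : ∏ i ∈ range (orderOf τ), (τ ^ i) x = 1) : ∃ y : F, y ≠ 0 ∧ x * y = τ y := by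
  classical
  have hfin : IsOfFinOrder τ := isOfFinOrder_of_finite τ
  have hpos : 0 < orderOf τ := hfin.orderOf_pos
  let f : Fin (orderOf τ) → (F →* F) := fun i => ((τ ^ (i : ℕ) : F ≃ₐ[ℚ] F) : F →* F)
  have hf : Function.Injective f := by
    intro i j hij
    have : τ ^ (i : ℕ) = τ ^ (j : ℕ) := AlgEquiv.ext fun y => DFunLike.congr_fun hij y
    exact Fin.ext (pow_injOn_Iio_orderOf i.2 j.2 this)
  have hli := (linearIndependent_monoidHom F F).comp f hf
  have hex : ∃ b : F, ∑ i ∈ range (orderOf τ), (∏ k ∈ range i, (τ ^ k) x) * (τ ^ i) b ≠ 0 := by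
    by_contra hcon
    push Not at hcon
    have h1 := Fintype.linearIndependent_iff.mp hli
      (fun i => ∏ k ∈ range (i : ℕ), (τ ^ k) x) (by
        funext b
        have := hcon b
        rw [Finset.sum_range] at this
        simpa [f] using this) ⟨0, hpos⟩
    simp at h1
  obtain ⟨b, hb⟩ := hex
  have h2 := NB_tele τ (orderOf τ) x b hx (by rw [pow_orderOf_eq_one]; rfl)
  set w := ∑ i ∈ range (orderOf τ), (∏ k ∈ range i, (τ ^ k) x) * (τ ^ i) b
  have h3 : τ w ≠ 0 := by simpa using hb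
  refine ⟨w⁻¹, inv_ne_zero hb, ?_⟩
  rw [map_inv₀]
  field_simp
  exact h2

end Vale.Agent.P024U
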