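import Vale.Agent.P024U.DPsi

/-! The Neukirch lemma.  `V0` = normal core of `Gmu (r^2) ⊓ pre (Gmu r)`, `T V = im (Dec P ⊓ V)`.
`maps_exists`: fix `Q0` for `V0`; `C V = {g ∈ T V0 | ch (g Q0) ≠ r, Hens (T V) r (g • Q0)}` is a coset type set `{g ∈ T V0 | g • Q0 ∈ T V • Q_V}` (by `fks`, `Hens.smul`), closed, nonempty, decreasing;
`exists_forall_op`.  For `(σ,τ) ∈ R`, `σ ∈ Dec P`, `τ` normalises `T V`, so `τ • Q ∈ T V • Q` for all `V` (`fks`); compactness again and `mem_N2_of_forall`.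
`maps_unique`: `hens_of_dec`, `fks`, compactness.
`chi_nu`: take `Q` from `maps_exists`, `l' = ch Q`, `σ, τ` from `ram_deep` with `τ ∈ Dec Q` (`Maps.exists`).  If `τ` fixed all `r`-power roots of `l'`, `tame_order` would contradict `ram_deep`.  For a root `z`
of order `r^n` of `l'`, `f σ' = τ' z / z` on `Ine P ∩ V0` (`chi_ine`); `loc_conj` gives `f (g σ g⁻¹) = f σ ^ c`, directly `f (g σ g⁻¹) = γ (f σ)`; the order of `f σ` is at least `r^(n - n0)`.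
(Replace `σ` by a power lying in `V0`.) -/

namespace Vale.Agent.P024U

theorem Neu_cl_eq (A B : Pr) : IsClosed {h : Ga | h • A = B} := by
  by_cases he : ∃ h0 : Ga, h0 • A = B
  · obtain ⟨h0, rfl⟩ := he
    have e : {h : Ga | h • A = h0 • A} = (fun h : Ga => h0⁻¹ * h) ⁻¹' (Dec A : Set Ga) := by
      ext h
      simp only [Set.mem_ofPred_eq, Set.mem_preimage, SetLike.mem_coe, mem_Dec, mul_smul,
        inv_smul_eq_iff]
    rw [e]
    exact (cl_Dec A).preimage (continuous_const.mul continuous_id)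
  · have e : {h : Ga | h • A = B} = ∅ := by
      ext h
      simp only [Set.mem_ofPred_eq, Set.mem_empty_iff_false, iff_false]
      exact fun hh => he ⟨h, hh⟩
    rw [e]
    exact isClosed_empty

theorem Neu_cl_orb {T : Subgroup Ga} (hT : Cl T) (A B : Pr) :
    IsClosed {g : Ga | ∃ t ∈ T, t • A = g • B} := by
  have h1 : IsClosed {p : Ga × Ga | p.1 ∈ T ∧ (p.2⁻¹ * p.1) • A = B} :=
    (hT.preimage continuous_fst).inter
      ((Neu_cl_eq A B).preimage (continuous_snd.inv.mul continuous_fst))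
  have := XApi_compact
  have h2 := isClosedMap_snd_of_compactSpace _ h1
  have e : {g : Ga | ∃ t ∈ T, t • A = g • B} =
      Prod.snd '' {p : Ga × Ga | p.1 ∈ T ∧ (p.2⁻¹ * p.1) • A = B} := by
    ext g
    constructor
    · rintro ⟨t, ht, h⟩
      refine ⟨(t, g), ⟨ht, ?_⟩, rfl⟩
      rw [mul_smul, inv_smul_eq_iff]
      exact h
    · rintro ⟨⟨t, g'⟩, ⟨ht, h⟩, rfl⟩
      rw [mul_smul, inv_smul_eq_iff] at h
      exact ⟨t, ht, h⟩
  rw [e]
  exact h2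

namespace Corr
variable (c : Corr) {r : ℕ} [Fact r.Prime] {P : Pr}

theorem Neu_relIndex (A : Subgroup Ga) {W W' : Subgroup Ga} (hW' : Op W') :
    (c.im (A ⊓ W' ⊓ W)).relIndex (c.im (A ⊓ W)) ≠ 0 := by
  set S : Subgroup (Ga × Ga) := c.R ⊓ (A ⊓ W).prod ⊤ with hS
  let f : S →* c.im (A ⊓ W) := (MonoidHom.snd Ga Ga).subgroupMap S
  have hf : Function.Surjective f := (MonoidHom.snd Ga Ga).subgroupMap_surjective S
  let H : Subgroup S := W'.comap ((MonoidHom.fst Ga Ga).comp S.subtype)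
  have : W'.FiniteIndex := ⟨hW'.index_ne_zero⟩
  have hH : H.index ≠ 0 := by
    rw [Subgroup.index_comap]
    exact Subgroup.FiniteIndex.index_ne_zero (H := W'.subgroupOf _)
  have hle : H.map f ≤ (c.im (A ⊓ W' ⊓ W)).subgroupOf (c.im (A ⊓ W)) := by
    rintro _ ⟨x, hx, rfl⟩
    rw [Subgroup.mem_subgroupOf, c.mem_im]
    have hx2 : x.1 ∈ c.R ⊓ (A ⊓ W).prod ⊤ := x.2
    obtain ⟨hR, hA⟩ := Subgroup.mem_inf.1 hx2
    have hA1 := (Subgroup.mem_prod.1 hA).1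
    exact ⟨x.1.1, ⟨⟨hA1.1, hx⟩, hA1.2⟩, hR⟩
  have h1 := Subgroup.index_map_dvd H hf
  have h2 := Subgroup.index_dvd_of_le hle
  exact ne_zero_of_dvd_ne_zero hH (h2.trans h1)

/-- the standard level -/
noncomputable def NeuV (r : ℕ) : Subgroup Ga := (Gmu (r ^ 2) ⊓ c.pre (Gmu r)).normalCore

instance NeuV_normal (r : ℕ) : (c.NeuV r).Normal := Subgroup.normalCore_normal _

theorem NeuV_op : Op (c.NeuV r) := by
  have hr : r ≠ 0 := (Fact.out : r.Prime).ne_zero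
  exact Op.normalCore ((op_Gmu (pow_ne_zero 2 hr)).inf (c.op_pre (op_Gmu hr)))

omit [Fact r.Prime] in
theorem NeuV_le1 : c.NeuV r ≤ Gmu (r ^ 2) := (Subgroup.normalCore_le _).trans inf_le_left

omit [Fact r.Prime] in
theorem NeuV_le2 : c.NeuV r ≤ c.pre (Gmu r) := (Subgroup.normalCore_le _).trans inf_le_right

theorem Neu_cl (P : Pr) {W : Subgroup Ga} (hW : Op W) : Cl (c.im (Dec P ⊓ W)) :=
  c.cl_im ((cl_Dec P).inter hW.cl)

theorem Neu_fks (h2 : r ≠ 2) (hP : ch P ≠ r) (h : c.Ram r P) {W W' : Subgroup Ga} (hW : Op W)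
    (hn : W.Normal) (hle : W ≤ c.NeuV r) (hW' : Op W') (hle' : W' ≤ W) {Q Q' : Pr}
    (hQ : Hens (c.im (Dec P ⊓ W)) r Q) (hQ' : Hens (c.im (Dec P ⊓ W')) r Q') :
    ∃ τ ∈ c.im (Dec P ⊓ W), τ • Q = Q' := by
  have hi := c.Neu_relIndex (Dec P) (W := W) hW'
  have e : Dec P ⊓ W' ⊓ W = Dec P ⊓ W' := inf_eq_left.2 (inf_le_right.trans hle')
  rw [e] at hi
  refine fks (c.Neu_cl P hW) (c.im_mono (inf_le_inf_left _ hle')) hi Fact.out ?_ hQ hQ'
  exact c.dim_two h2 hP h hW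
    (hle.trans (c.NeuV_le1.trans (Gmu_le (dvd_pow_self r two_ne_zero)))) (hle.trans c.NeuV_le2)

omit [Fact r.Prime] in
theorem Neu_hens_self {T : Subgroup Ga} {Q : Pr} (hQ : Hens T r Q) {τ : Ga} (hτ : τ ∈ T) :
    Hens T r (τ • Q) := by
  refine hQ.smul fun a => ⟨fun ha => T.mul_mem (T.mul_mem hτ ha) (T.inv_mem hτ), fun ha => ?_⟩
  have := T.mul_mem (T.mul_mem (T.inv_mem hτ) ha) hτ
  simpa [mul_assoc] using this

theorem Neu_eqv (h2 : r ≠ 2) (hP : ch P ≠ r) (h : c.Ram r P) {Q Q' : Pr}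
    (hQ : ∀ W, Op W → W.Normal → W ≤ c.NeuV r → Hens (c.im (Dec P ⊓ W)) r Q)
    (hQ' : ∀ W, Op W → W.Normal → W ≤ c.NeuV r → Hens (c.im (Dec P ⊓ W)) r Q') :
    c.Eqv Q Q' := by
  obtain ⟨t, ht⟩ := exists_forall_op (c.NeuV r) c.NeuV_op
    (fun W => {t | t ∈ c.im (Dec P ⊓ W) ∧ t • Q = Q'})
    (fun W hW _ _ => (c.Neu_cl P hW).inter (Neu_cl_eq Q Q'))
    (fun W hW hn hle => c.Neu_fks h2 hP h hW hn hle hW le_rfl (hQ W hW hn hle) (hQ' W hW hn hle))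
    (fun W W' _ _ _ _ _ hle t ht => ⟨c.im_mono (inf_le_inf_left _ hle) ht.1, ht.2⟩)
  refine ⟨t, c.mem_N2_of_forall (Dec P) (c.NeuV r) (cl_Dec P) c.NeuV_op
    (fun W hW hn hle => (ht W hW hn hle).1), ?_⟩
  exact (ht _ c.NeuV_op inferInstance le_rfl).2

theorem Neu_hens_of_maps {Q : Pr} (hQ : c.Maps P Q) (W : Subgroup Ga) :
    Hens (c.im (Dec P ⊓ W)) r Q := by
  refine hens_of_dec (N := c.N2) (Fact.out : r.Prime).ne_zero (c.N2_le_im _)
    (fun y n hn hy => c.root_mem hn hy) ?_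
  intro τ hτ
  obtain ⟨σ, hσ, hR⟩ := c.mem_im.1 hτ
  obtain ⟨τ', hτ', hR'⟩ := Maps.exists c hQ hR hσ.1
  exact ⟨τ', hτ', c.inv_mul_mem_N2 hR hR'⟩

theorem Neu_fix_root {τ : Ga} (hτ : chi r τ = 1) {n : ℕ} {z : Om} (hz : z ^ r ^ n = 1) :
    τ z = z :=
  (chi_eq_iff (t := r) τ 1).1 (by rw [hτ, map_one]) n z hz

theorem Neu_quot_root {τ : Ga} {l N : ℕ} {z : Om} (hl : (l : Om) ≠ 0) (hz : z ^ N = (l : Om)) :
    (τ z / z) ^ N = 1 := by
  rw [div_pow, ← map_pow, hz, map_natCast, div_self hl]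

open Classical in
/-- the Kummer character of `z` pulled back along the correspondence -/
noncomputable def NeuF (z : Omˣ) (σ : Ga) : Omˣ :=
  if h : ∃ τ, (σ, τ) ∈ c.R then Units.map (h.choose : Om →* Om) z / z else 1

theorem NeuF_eq {z : Omˣ} (hz : (z : Om) ∈ fix c.N2) {σ τ : Ga} (hR : (σ, τ) ∈ c.R) :
    ((c.NeuF z σ : Omˣ) : Om) = τ z / z := by
  have h : ∃ τ, (σ, τ) ∈ c.R := ⟨τ, hR⟩
  unfold NeuF
  rw [dif_pos h, Units.val_div_eq_div_val, Units.coe_map]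
  have := c.apply_eq h.choose_spec hR hz
  rw [← this]
  rfl

theorem Neu_key (h2 : r ≠ 2) (hP : ch P ≠ r) {g γ : Ga} (hg : g ∈ Dec P) (hnu : c.NU g γ)
    {σ τ : Ga} (hσ : σ ∈ Ine P) (hR : (σ, τ) ∈ c.R) (hτ : chi r τ = 1) {l n : ℕ}
    (hl : (l : Om) ≠ 0) {z : Om} (hz : z ^ r ^ n = (l : Om)) :
    γ (τ z / z) = g (τ z / z) := by
  have hr : r.Prime := Fact.out
  have hN : r ^ n ≠ 0 := pow_ne_zero n hr.ne_zero
  have hz0 : z ≠ 0 := by
    rintro rfl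
    rw [zero_pow hN] at hz
    exact hl hz.symm
  have hzf : z ∈ fix c.N2 := by
    refine c.root_mem hN ?_
    rw [hz]
    exact mem_fix.2 fun g _ => map_natCast g l
  set zu : Omˣ := Units.mk0 z hz0 with hzu
  have hzu' : (zu : Om) = z := rfl
  have hF : ∀ {a b : Ga}, (a, b) ∈ c.R → ((c.NeuF zu a : Omˣ) : Om) = b z / z :=
    fun hab => c.NeuF_eq (z := zu) hzf hab
  have hτ1 : τ ∈ Gmu r := fun w hw => Neu_fix_root hτ (n := 1) (by rwa [pow_one])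
  have hR' : (g * σ * g⁻¹, γ * τ * γ⁻¹) ∈ c.R := (hnu σ τ).1 hR
  have key := loc_conj (P := P) hr hP (V := c.pre (Gmu r)) (c.op_pre (op_Gmu hr.ne_zero)) n
    (c.NeuF zu) ?_ ?_ ?_ hg hσ (c.mem_pre.2 ⟨τ, hτ1, hR⟩)
    (c.mem_pre.2 ⟨_, (normal_Gmu r).conj_mem τ hτ1 γ, hR'⟩) _ (chi_spec (t := r) g n)
  · have k1 := congrArg (fun u : Omˣ => (u : Om)) key
    simp only [Units.val_pow_eq_pow_val] at k1
    rw [hF hR', hF hR, ← chi_spec (t := r) g n _ (Neu_quot_root hl hz)] at k1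
    rw [← k1]
    have hζ := Neu_fix_root hτ (Neu_quot_root (τ := γ⁻¹) hl hz)
    have e1 : γ⁻¹ z = γ⁻¹ z / z * z := by field_simp
    have e2 : τ (γ⁻¹ z) = γ⁻¹ z * (τ z / z) := by
      conv_lhs => rw [e1, map_mul, hζ]
      field_simp
    have e3 : γ (γ⁻¹ z) = z := γ.apply_symm_apply z
    rw [AlgEquiv.mul_apply, AlgEquiv.mul_apply, e2, map_mul, e3]
    field_simp
  · intro a ha haV b hb hbV
    obtain ⟨ta, hta, hRa⟩ := c.mem_pre.1 haV
    obtain ⟨tb, htb, hRb⟩ := c.mem_pre.1 hbV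
    have hab : (a * b, ta * tb) ∈ c.R := c.R.mul_mem hRa hRb
    apply Units.ext
    rw [Units.val_mul, hF hab, hF hRa, hF hRb, AlgEquiv.mul_apply]
    have h1 := Neu_fix_root (c.chi_ine h2 hP ha hRa hta) (Neu_quot_root (τ := tb) hl hz)
    have e1 : tb z = tb z / z * z := by field_simp
    conv_lhs => rw [e1, map_mul, h1]
    field_simp
  · intro a _ haV
    obtain ⟨ta, _, hRa⟩ := c.mem_pre.1 haV
    apply Units.ext
    rw [Units.val_pow_eq_pow_val, hF hRa, Units.val_one]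
    exact Neu_quot_root hl hz
  · refine ⟨c.pre (MulAction.stabilizer Ga z), c.op_pre (op_stab z), ?_⟩
    intro a _ _ haW
    obtain ⟨ta, hta, hRa⟩ := c.mem_pre.1 haW
    apply Units.ext
    have hta' : ta z = z := hta
    rw [hF hRa, hta', div_self hz0, Units.val_one]

theorem Neu_moves {Q : Pr} (hQ : ch Q ≠ r) {τ : Ga} (hτQ : τ ∈ Dec Q) (hτ : chi r τ = 1) {a : Om}
    (ha : a ≠ 0) (hp : IsPrimitiveRoot (τ a / a) (r ^ 1)) :
    ∃ (n : ℕ) (z : Om), z ^ r ^ n = (ch Q : Om) ∧ τ z ≠ z := by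
  by_contra hne
  have hG : τ ∈ Groot r (ch Q : Om) := by
    intro n z hz
    rcases hz with hz | hz
    · exact Neu_fix_root hτ hz
    · by_contra h
      exact hne ⟨n, z, hz, h⟩
  obtain ⟨k, hk, hW⟩ := tame_order (Fact.out : r.Prime) hQ hτQ hG
    (W := MulAction.stabilizer Ga a) (op_stab a)
  have hζ : τ (τ a / a) = τ a / a := Neu_fix_root hτ hp.pow_eq_one
  have hpow : ∀ j : ℕ, (τ ^ j) a = (τ a / a) ^ j * a := by
    intro j
    induction j with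
    | zero => simp
    | succ j ih =>
      rw [pow_succ', AlgEquiv.mul_apply, ih, map_mul, map_pow, hζ, pow_succ]
      field_simp
  have h1 : (τ ^ k) a = a := hW
  rw [hpow k] at h1
  have h2 : (τ a / a) ^ k = 1 := by
    apply mul_right_cancel₀ ha
    rw [h1, one_mul]
  have h3 := hp.dvd_of_pow_eq_one k h2
  rw [pow_one] at h3
  exact hk h3

theorem maps_exists (h2 : r ≠ 2) (hP : ch P ≠ r) (h : c.Ram r P) :
    ∃ Q, ch Q ≠ r ∧ c.Maps P Q := by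
  obtain ⟨Q0, hQ0, hH0⟩ := c.exists_hens h2 hP h c.NeuV_op c.NeuV_le1 c.NeuV_le2
  have hex : ∀ W, Op W → W.Normal → W ≤ c.NeuV r → ∃ Q, Hens (c.im (Dec P ⊓ W)) r Q := by
    intro W hW hn hle
    obtain ⟨Q, _, hQ⟩ := c.exists_hens h2 hP h hW (hle.trans c.NeuV_le1) (hle.trans c.NeuV_le2)
    exact ⟨Q, hQ⟩
  obtain ⟨g, hg⟩ := exists_forall_op (c.NeuV r) c.NeuV_op
    (fun W => {g | Hens (c.im (Dec P ⊓ W)) r (g • Q0)})
    (by
      intro W hW hn hle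
      obtain ⟨Q, hQ⟩ := hex W hW hn hle
      have e : {g : Ga | Hens (c.im (Dec P ⊓ W)) r (g • Q0)} =
          {g : Ga | ∃ t ∈ c.im (Dec P ⊓ W), t • Q = g • Q0} := by
        ext g
        constructor
        · intro hg
          exact c.Neu_fks h2 hP h hW hn hle hW le_rfl hQ hg
        · rintro ⟨t, ht, e⟩
          have := Neu_hens_self hQ ht
          rw [e] at this
          exact this
      rw [e]
      exact Neu_cl_orb (c.Neu_cl P hW) Q Q0)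
    (by
      intro W hW hn hle
      obtain ⟨Q, hQ⟩ := hex W hW hn hle
      obtain ⟨t, _, e⟩ := c.Neu_fks h2 hP h c.NeuV_op inferInstance le_rfl hW hle hH0 hQ
      refine ⟨t, ?_⟩
      rw [← e] at hQ
      exact hQ)
    (by
      intro W W' hW hn hle hW' _ hle' g hg
      obtain ⟨Q, hQ⟩ := hex W hW hn hle
      obtain ⟨t, ht, e⟩ := c.Neu_fks h2 hP h hW hn hle hW' hle' hQ hg
      have := Neu_hens_self hQ ht
      rw [e] at this
      exact this)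
  refine ⟨g • Q0, by rw [ch_smul]; exact hQ0, ?_⟩
  intro σ τ hR hσ
  refine c.Neu_eqv h2 hP h (fun W hW hn hle => ?_) hg
  refine (hg W hW hn hle).smul fun a => ⟨fun ha => c.conj_mem_im hR ?_ ha, fun ha => ?_⟩
  · intro x hx
    exact ⟨(Dec P).mul_mem ((Dec P).mul_mem hσ hx.1) ((Dec P).inv_mem hσ), hn.conj_mem x hx.2 σ⟩
  · have hR' : (σ⁻¹, τ⁻¹) ∈ c.R := c.R.inv_mem hR
    have := c.conj_mem_im (A := Dec P ⊓ W) hR' (fun x hx =>
      ⟨(Dec P).mul_mem ((Dec P).mul_mem ((Dec P).inv_mem hσ) hx.1)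
        ((Dec P).inv_mem ((Dec P).inv_mem hσ)), hn.conj_mem x hx.2 σ⁻¹⟩) ha
    simpa [mul_assoc] using this

theorem maps_unique (h2 : r ≠ 2) (hP : ch P ≠ r) (h : c.Ram r P) {Q Q' : Pr} (hQ : c.Maps P Q)
    (hQ' : c.Maps P Q') : c.Eqv Q Q' := by
  exact c.Neu_eqv h2 hP h (fun W _ _ _ => c.Neu_hens_of_maps hQ W)
    (fun W _ _ _ => c.Neu_hens_of_maps hQ' W)

theorem chi_nu (h2 : r ≠ 2) (hP : ch P ≠ r) (h : c.Ram r P) {g γ : Ga} (hg : g ∈ Dec P)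
    (hnu : c.NU g γ) : chi r γ = chi r g := by
  have hr : r.Prime := Fact.out
  obtain ⟨Q, hQ, hM⟩ := c.maps_exists h2 hP h
  obtain ⟨σ, τ0, hσ, hR0, hτ0, hdeep⟩ := c.ram_deep h2 hP h
  obtain ⟨τ, hτQ, hR⟩ := Maps.exists c hM hR0 (Ine_le_Dec P hσ)
  have hτ : chi r τ = 1 := by
    have := c.chi_N2 r (c.inv_mul_mem_N2 hR0 hR)
    rwa [map_mul, map_inv, hτ0, inv_one, one_mul] at this
  obtain ⟨a, haf, ha0, hp⟩ := hdeep 1
  rw [c.apply_eq hR0 hR haf] at hp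
  obtain ⟨n0, z0, hz0, hne⟩ := Neu_moves hQ hτQ hτ ha0 hp
  have hl : ((ch Q : ℕ) : Om) ≠ 0 := Nat.cast_ne_zero.2 (ch_prime Q).ne_zero
  have hz00 : z0 ≠ 0 := by
    rintro rfl
    exact hne (map_zero τ)
  rw [chi_eq_iff]
  intro m w hw
  obtain ⟨z, hz⟩ := IsAlgClosed.exists_pow_nat_eq z0 (pow_pos hr.pos m)
  have hz' : z ^ r ^ (m + n0) = ((ch Q : ℕ) : Om) := by rw [pow_add, pow_mul, hz, hz0]
  have key := c.Neu_key h2 hP hg hnu hσ hR hτ hl hz'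
  set η : Om := τ z / z with hη
  have h1 : η ^ r ^ (m + n0) = 1 := Neu_quot_root hl hz'
  have h3 : η ^ r ^ m ≠ 1 := by
    rw [hη, div_pow, ← map_pow, hz]
    intro h
    exact hne ((div_eq_one_iff_eq hz00).1 h)
  obtain ⟨j, _, hj⟩ := (Nat.dvd_prime_pow hr).1 (orderOf_dvd_of_pow_eq_one h1)
  have hmj : m ≤ j := by
    by_contra hlt
    apply h3
    apply orderOf_dvd_iff_pow_eq_one.1
    rw [hj]
    exact pow_dvd_pow r (by omega)
  have hprim : IsPrimitiveRoot η (r ^ j) := hj ▸ IsPrimitiveRoot.orderOf η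
  have hw' : w ^ r ^ j = 1 := by
    obtain ⟨d, hd⟩ := pow_dvd_pow r hmj
    rw [hd, pow_mul, hw, one_pow]
  have : NeZero (r ^ j) := ⟨pow_ne_zero j hr.ne_zero⟩
  obtain ⟨i, _, rfl⟩ := hprim.eq_pow_of_pow_eq_one hw'
  rw [map_pow, map_pow, key]

end Corr
end Vale.Agent.P024U
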