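import Vale.Agent.P024U.Final
import Vale.Agent.P024U.Neu

/-! The Neukirch-Uchida theorem for the automorphisms induced by the normalizer.
`same_char`: `chi r τ = chi r φ = (ch P)^f` (`chi_nu`, `nu_of_mem`), and `chi r τ` mod `r` is a power of `ch Q` (`dec_decomp` with `W = Gmu r`, `Ine_le_Gmu`); `(ZMod r)ˣ / p`-th powers is killed by `p`.
`ram_of_iso`: `ine_moves` for `G1`; `B1` = stabiliser of `z` contains `N1`; `B = im B1` is open, contains `N2`, `τ^r ∈ B`, `τ ∉ B`; `mem_of_fix` gives `y`.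
`hitT_of_iso`: `cheb` with `σ = 1` for the core of `W ⊓ G1`; `Q` from `maps_exists` (say for `r = t`); if `ch Q ≠ ch P` take `r` from `res_prime` (`p = 3`, `S1 = {ch Q}`, `S2 = {ch P}`) and `same_char`; `ψ` is a conjugate of `φ`.
`nu_exists`: `c' = {(τ, τ') | ∃ σ, (σ, τ) ∈ R, (g σ g⁻¹, τ') ∈ R}` is a correspondence with `G1 = G2 = c.G2`, `N1 = N2 = c.N2`; `final`, then `conj_eq` in `Ga × Ga`.
`gam`: `maps_unique` for `Q` and `γ • Q` (`Maps.smul`), correct `γ` by an element of `N2` (`NU.mul`, `nu_of_mem`). -/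

namespace Vale.Agent.P024U
namespace Corr
variable (c : Corr)

theorem same_char {r : ℕ} [Fact r.Prime] (h2 : r ≠ 2) {P Q : Pr} (hP : ch P ≠ r) (hQ : ch Q ≠ r)
    (h : c.Ram r P) {f : ℕ} {φ τ : Ga} (hφ : IsFrob P f φ) (hR : (φ, τ) ∈ c.R) (hτ : τ ∈ Dec Q)
    {p : ℕ} (hp : p.Prime) (hpf : ¬ p ∣ f) (hx : ∃ x : ZMod r, x ^ p = ch Q) :
    ∃ x : ZMod r, x ^ p = ch P := by
  have hr : r.Prime := Fact.out
  have e1 := c.chi_nu h2 hP h hφ.mem_Dec (c.nu_of_mem hR)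
  obtain ⟨ψ, hψ⟩ := exists_frob Q
  obtain ⟨k, ρ, hρ, w, hw, -, e2⟩ := dec_decomp hψ (op_Gmu hr.ne_zero) hτ
  have hρ' : ρ ∈ Gmu r :=
    Ine_le_Gmu (fun hd => hQ ((Nat.prime_dvd_prime_iff_eq (ch_prime Q) hr).1 hd)) hρ
  have e3 := congrArg (fun u : ℤ_[r]ˣ => PadicInt.toZMod (u : ℤ_[r])) e1
  simp only [e2, map_mul, map_pow, Units.val_mul, Units.val_pow_eq_pow_val,
    (mem_Gmu_one ρ).1 hρ', (mem_Gmu_one w).1 hw, hφ.chi r hP, hψ.chi r hQ, map_natCast, mul_one,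
    pow_one, Nat.cast_pow] at e3
  obtain ⟨x, hx⟩ := hx
  have y0 : (ch P : ZMod r) ≠ 0 := fun h0 =>
    hP ((Nat.prime_dvd_prime_iff_eq hr (ch_prime P)).1 ((ZMod.natCast_eq_zero_iff _ _).1 h0)).symm
  have hb := Nat.gcd_eq_gcd_ab p f
  rw [(Nat.Prime.coprime_iff_not_dvd hp).2 hpf, Nat.cast_one] at hb
  refine ⟨(ch P : ZMod r) ^ p.gcdA f * (x ^ k) ^ p.gcdB f, ?_⟩
  rw [mul_pow, ← zpow_natCast, ← zpow_natCast ((x ^ k) ^ _), ← zpow_mul, ← zpow_mul,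
    mul_comm (p.gcdB f), zpow_mul (x ^ k), zpow_natCast, ← pow_mul, mul_comm k, pow_mul, hx, e3,
    ← zpow_natCast, ← zpow_mul, ← zpow_add₀ y0, mul_comm, ← hb, zpow_one]

theorem ram_of_iso (hrc : ∀ (y : Om) (n : ℕ), n ≠ 0 → y ^ n ∈ fix c.N1 → y ∈ fix c.N1) {r : ℕ}
    (hr : r.Prime) {P : Pr} (hP : ch P ≠ r) : c.Ram r P := by
  obtain ⟨σ, hσ, hG, n, z, hz, h1, h2⟩ := ine_moves P r hr hP c.op_G1
  obtain ⟨τ, hτ⟩ := c.mem_G1.1 hG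
  have hz1 : z ∈ fix c.N1 := hrc z _ (pow_ne_zero n hr.ne_zero) (hz ▸ _root_.natCast_mem _ _)
  have hB : Op (MulAction.stabilizer Ga z) := op_stab z
  have hn : τ ∉ c.im (MulAction.stabilizer Ga z) := fun hm => by
    obtain ⟨σ', hs, hR⟩ := c.mem_im.1 hm
    have h3 : σ * σ'⁻¹ ∈ c.N1 := by
      simpa [mem_N1] using c.R.mul_mem hτ (c.R.inv_mem hR)
    have h4 : σ * σ'⁻¹ ∈ MulAction.stabilizer Ga z := mem_fix.1 hz1 _ h3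
    exact h1 (by simpa using (MulAction.stabilizer Ga z).mul_mem h4 hs)
  by_contra hc
  refine hn (mem_of_fix (c.cl_im hB.cl) fun y hy => ?_)
  by_contra hy'
  exact hc ⟨σ, τ, y, hσ, hτ, mem_fix.2 fun ν hν => mem_fix.1 hy ν (c.N2_le_im _ hν), hy',
    mem_fix.1 hy _ (c.mem_im.2 ⟨σ ^ r, h2, c.R.pow_mem hτ r⟩)⟩

theorem hitT_of_iso (hrc : ∀ (y : Om) (n : ℕ), n ≠ 0 → y ^ n ∈ fix c.N1 → y ∈ fix c.N1) {t : ℕ}
    [Fact t.Prime] (ht : t ≠ 2) : c.HitT t := by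
  intro W hW hWn
  refine ((cheb (hW.inf c.op_G1).normalCore 1).sdiff (Set.finite_singleton t)).mono ?_
  rintro l ⟨⟨P, φ, rfl, hφ, h1, -⟩, hP⟩
  rw [Subgroup.zpowers_one_eq_bot, sup_bot_eq] at h1
  have h2 := Subgroup.normalCore_le _ h1
  have hR := c.ram_of_iso hrc Fact.out hP
  obtain ⟨Q, -, hQ⟩ := c.maps_exists ht hP hR
  obtain ⟨τ0, h0⟩ := c.mem_G1.1 h2.2
  obtain ⟨τ, hτ, hτ'⟩ := hQ.exists c h0 hφ.mem_Dec
  have e : ch Q = ch P := by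
    by_contra hne
    obtain ⟨r, hr, hB, -, a1, a2⟩ := res_prime 3 Nat.prime_three (by norm_num) 1 one_ne_zero
      {ch Q} {ch P} (by simpa using ch_prime Q) (by simpa using ch_prime P) (by simpa using hne)
      (ch P + ch Q + 2)
    have := Fact.mk hr
    exact a2 _ (Finset.mem_singleton_self _) (c.same_char (by omega) (by omega) (by omega)
      (c.ram_of_iso hrc hr (by omega)) hφ hτ' hτ Nat.prime_three (by norm_num)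
      (a1 _ (Finset.mem_singleton_self _)))
  obtain ⟨g, rfl⟩ := trans_ch P Q e.symm
  refine ⟨P, g • P, φ, g * φ * g⁻¹, τ, rfl, e, hφ, hφ.conj g, h2.1, hWn.conj_mem _ h2.1 g, hτ', hτ,
    ?_⟩
  rw [kap, kap, c.chi_nu ht hP hR hφ.mem_Dec (c.nu_of_mem hτ')]

/-- the graph of the automorphism induced by `g` -/
def nuR (g : Ga) : Subgroup (Ga × Ga) where
  carrier := {x | ∃ σ, (σ, x.1) ∈ c.R ∧ (g * σ * g⁻¹, x.2) ∈ c.R}
  one_mem' := ⟨1, c.R.one_mem, by rw [mul_one, mul_inv_cancel]; exact c.R.one_mem⟩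
  mul_mem' := by
    rintro a b ⟨σ, h1, h2⟩ ⟨σ', h1', h2'⟩
    exact ⟨σ * σ', c.R.mul_mem h1 h1', by simpa [mul_assoc] using c.R.mul_mem h2 h2'⟩
  inv_mem' := by
    rintro a ⟨σ, h1, h2⟩
    exact ⟨σ⁻¹, c.R.inv_mem h1, by simpa [mul_assoc] using c.R.inv_mem h2⟩

theorem nu_cpt : CompactSpace Ga := by
  have : IsAlgClosure ℚ Om := AlgebraicClosure.instIsAlgClosure ℚ
  infer_instance

theorem nu_closed (g : Ga) : IsClosed (c.nuR g : Set (Ga × Ga)) := by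
  have := nu_cpt
  have h : IsClosed {x : Ga × Ga × Ga | (x.1, x.2.1) ∈ c.R ∧ (g * x.1 * g⁻¹, x.2.2) ∈ c.R} :=
    (c.closed.preimage (by fun_prop)).inter (c.closed.preimage (by fun_prop))
  convert isClosedMap_snd_of_compactSpace _ h using 1
  ext x
  exact ⟨fun ⟨σ, hσ⟩ => ⟨(σ, x), hσ, rfl⟩, fun ⟨y, hy, e⟩ => ⟨y.1, e ▸ hy⟩⟩

variable {c} in
theorem nu_N {g : Ga} (hg : g ∈ c.NF) {σ : Ga} : (σ, 1) ∈ c.R ↔ (g * σ * g⁻¹, 1) ∈ c.R :=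
  Subgroup.mem_set_normalizer_iff.1 hg σ

theorem nu_one {σ τ : Ga} (h : (σ, τ) ∈ c.R) (h' : (σ, 1) ∈ c.R) : (1, τ) ∈ c.R := by
  simpa using c.R.mul_mem (c.R.inv_mem h') h

theorem nu_N1 {g : Ga} (hg : g ∈ c.NF) {τ : Ga} : (τ, 1) ∈ c.nuR g ↔ (1, τ) ∈ c.R :=
  ⟨fun ⟨_, h1, h2⟩ => c.nu_one h1 ((nu_N hg).2 h2),
    fun h => ⟨1, h, by rw [mul_one, mul_inv_cancel]; exact c.R.one_mem⟩⟩

theorem nu_N2 {g : Ga} (hg : g ∈ c.NF) {τ : Ga} : (1, τ) ∈ c.nuR g ↔ (1, τ) ∈ c.R :=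
  ⟨fun ⟨_, h1, h2⟩ => c.nu_one h2 ((nu_N hg).1 h1),
    fun h => ⟨1, c.R.one_mem, by simpa using h⟩⟩

theorem nu_G1 (hn : c.G1.Normal) (g : Ga) {σ τ : Ga} (h : (σ, τ) ∈ c.R) :
    τ ∈ (c.nuR g).map (MonoidHom.fst Ga Ga) := by
  obtain ⟨τ', h'⟩ := c.mem_G1.1 (hn.conj_mem _ (c.mem_G1.2 ⟨τ, h⟩) g)
  exact ⟨(τ, τ'), ⟨σ, h, h'⟩, rfl⟩

/-- the induced correspondence -/
def nuC (hn : c.G1.Normal) {g : Ga} (hg : g ∈ c.NF) : Corr where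
  R := c.nuR g
  closed := c.nu_closed g
  open1 := c.op_G2.mono fun _ hτ => (c.mem_G2.1 hτ).elim fun _ h => c.nu_G1 hn g h
  open2 := c.op_G2.mono fun τ hτ => by
    obtain ⟨σ, h⟩ := c.mem_G2.1 hτ
    obtain ⟨τ', h'⟩ := c.mem_G1.1 (hn.conj_mem _ (c.mem_G1.2 ⟨τ, h⟩) g⁻¹)
    exact ⟨(τ', τ), ⟨_, h', by simpa [mul_assoc] using h⟩, rfl⟩
  rc y n h0 h τ hτ := c.rc y n h0 (fun ν hν => h ν ((c.nu_N2 hg).2 hν)) τ ((c.nu_N2 hg).1 hτ)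

theorem nu_exists (hn : c.G1.Normal) {g : Ga} (hg : g ∈ c.NF) : ∃ γ, c.NU g γ := by
  have := Fact.mk Nat.prime_three
  have := nu_cpt
  have e : (c.nuC hn hg).N1 = c.N2 := Subgroup.ext fun _ => c.nu_N1 hg
  obtain ⟨j, hj⟩ := (c.nuC hn hg).final (t := 3) (by norm_num)
    ((c.nuC hn hg).hitT_of_iso (fun y n h0 h => by rw [e] at h ⊢; exact c.root_mem h0 h)
      (by norm_num))
  have key : ∀ a ∈ c.R, (g, j⁻¹) * a * (g, j⁻¹)⁻¹ ∈ c.R := by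
    rintro ⟨σ, τ⟩ h
    obtain ⟨σ', h1, h2⟩ := hj τ (c.nu_G1 hn g h)
    have h3 : (σ * σ'⁻¹, 1) ∈ c.R := by simpa using c.R.mul_mem h (c.R.inv_mem h1)
    simpa [mul_assoc] using c.R.mul_mem ((nu_N hg).1 h3) h2
  refine ⟨j⁻¹, fun σ τ => ⟨key (σ, τ), fun h => ?_⟩⟩
  simpa [mul_assoc] using conj_eq c.R c.closed _ key _ h

theorem gam (hn : c.G1.Normal) {r : ℕ} [Fact r.Prime] (h2 : r ≠ 2) {P Q : Pr} (hP : ch P ≠ r)
    (h : c.Ram r P) (hQ : c.Maps P Q) {g : Ga} (hg : g ∈ c.NF) (hgP : g ∈ Dec P) :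
    ∃ γ ∈ Dec Q, c.NU g γ := by
  obtain ⟨γ, hγ⟩ := c.nu_exists hn hg
  have h1 := hQ.smul c hγ
  rw [mem_Dec.1 hgP] at h1
  obtain ⟨ν, hν, e⟩ := c.maps_unique h2 hP h h1 hQ
  refine ⟨ν * γ, by rw [mem_Dec, mul_smul, e], ?_⟩
  simpa using (c.nu_of_mem hν).mul c hγ

end Corr
end Vale.Agent.P024U
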