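import Vale.Agent.P024U.Dec

/-! Elements fixed by inertia have integral valuation. -/

namespace Vale.Agent.P024U
open NumberField

theorem ram0_out {Γ : Type} [Group Γ] (φ : Γ →* Ga) (Δ : Subgroup Γ) {x : Om}
    (hx : ∀ δ ∈ Δ, φ δ x = x) (g : Γ) : φ ((g : Γ ⧸ Δ).out) x = φ g x := by
  obtain ⟨h, e⟩ := QuotientGroup.mk_out_eq_mul Δ g
  rw [e, map_mul, AlgEquiv.mul_apply, hx h h.2]

theorem ram0_act {Γ : Type} [Group Γ] (φ : Γ →* Ga) (Δ : Subgroup Γ) {x : Om}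
    (hx : ∀ δ ∈ Δ, φ δ x = x) (g : Γ) (c : Γ ⧸ Δ) : φ g (φ c.out x) = φ (g • c).out x := by
  rw [← MulAction.Quotient.mk_smul_out, ram0_out φ Δ hx, smul_eq_mul, map_mul, AlgEquiv.mul_apply]

theorem ram0_int (P : Pr) (n : ℤ) : ∃ k : ℤ, val P (n : Om) = k := by
  rcases Int.natAbs_eq n with h | h
  · exact ⟨padicValNat (ch P) n.natAbs, by
      rw [h, Int.cast_natCast, val_natCast, Int.natAbs_natCast, Int.cast_natCast]⟩
  · exact ⟨padicValNat (ch P) n.natAbs, by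
      rw [h, Int.cast_neg, val_neg, Int.cast_natCast, val_natCast, Int.natAbs_neg,
        Int.natAbs_natCast, Int.cast_natCast]⟩

theorem ram0_rat (P : Pr) {x : Om} (hx : ∀ g : Ga, g x = x) : ∃ k : ℤ, val P x = k := by
  have : IsAlgClosure ℚ Om := AlgebraicClosure.instIsAlgClosure ℚ
  have : IsGalois ℚ Om := IsAlgClosure.isGalois ℚ Om
  obtain ⟨q, rfl⟩ := (InfiniteGalois.mem_range_algebraMap_iff_fixed x).2 hx
  rcases eq_or_ne q 0 with rfl | hq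
  · exact ⟨0, by rw [map_zero, val_zero, Int.cast_zero]⟩
  obtain ⟨k, hk⟩ := ram0_int P q.num
  refine ⟨k - padicValNat (ch P) q.den, ?_⟩
  rw [eq_ratCast, Rat.cast_def, val_div P (Int.cast_ne_zero.2 (Rat.num_ne_zero.2 hq))
    (Nat.cast_ne_zero.2 q.den_nz), hk, val_natCast, Int.cast_sub, Int.cast_natCast]

theorem ram0_unit {P : Pr} {x : Oi} (hx : x ∉ P.I) : (x : Om) ≠ 0 ∧ val P (x : Om) = 0 := by
  rw [← pos_iff_mem, Pos, not_or, not_lt] at hx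
  exact ⟨hx.1, le_antisymm hx.2 (val_nonneg P x)⟩

theorem ram0_prod {P : Pr} {ι : Type} [Fintype ι] {b : ι → Oi} (hb : ∀ i, b i ∉ P.I) :
    ∏ i, b i ∉ P.I := fun h => by
  have := P.max.isPrime
  obtain ⟨i, -, hi⟩ := Ideal.IsPrime.prod_mem_iff.1 h
  exact hb i hi

theorem ram0_sep {H : Subgroup Ga} (hH : Cl H) (P : Pr) {g : Ga}
    (hg : ¬ ∃ d ∈ Dec P, (d : Ga ⧸ H) = g) :
    ∃ w : Oi, (w : Om) ∈ fix H ∧ w ∉ P.I ∧ g • w ∈ P.I := by
  have hQ : ∀ x : Oi, x ∈ (g⁻¹ • P).I ↔ g • x ∈ P.I := fun x => by rw [Pr.mem_smul, inv_inv]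
  obtain ⟨x, hx, hne⟩ : ∃ x : Oi, (x : Om) ∈ fix H ∧ ¬ (x ∈ P.I ↔ x ∈ (g⁻¹ • P).I) := by
    by_contra hcon
    obtain ⟨h, hh, e⟩ := trans_pr hH P (g⁻¹ • P) fun x hx => by
      by_contra h2
      exact hcon ⟨x, hx, h2⟩
    refine hg ⟨g * h, mem_Dec.2 (by rw [mul_smul, e, smul_inv_smul]), ?_⟩
    exact QuotientGroup.mk_mul_of_mem g hh
  by_cases hP : x ∈ P.I
  · have hQ' : x ∉ (g⁻¹ • P).I := fun h => hne (iff_of_true hP h)
    obtain ⟨h0, hv⟩ := ram0_unit hQ'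
    obtain ⟨n, hn, -, hp⟩ := pow_sub_one_pos _ _ h0 hv
    have e : ((x ^ n - 1 : Oi) : Om) = (x : Om) ^ n - 1 := by simp
    refine ⟨x ^ n - 1, ?_, fun h => ?_, (hQ _).1 ((pos_iff_mem _ _).1 (e ▸ hp))⟩
    · rw [e]; exact sub_mem (pow_mem hx n) (one_mem _)
    · have h1 := P.I.sub_mem (P.I.pow_mem_of_mem hP n (Nat.pos_of_ne_zero hn)) h
      rw [sub_sub_cancel] at h1
      exact P.max.ne_top ((Ideal.eq_top_iff_one _).2 h1)
  · refine ⟨x, hx, hP, (hQ x).1 ?_⟩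
    by_contra h
    exact hne (iff_of_false hP h)

theorem ram0_w {H : Subgroup Ga} (hH : Op H) (P : Pr) :
    ∃ w : Oi, (w : Om) ∈ fix H ∧ w ∉ P.I ∧
      ∀ c : Ga ⧸ H, (¬ ∃ d ∈ Dec P, (d : Ga ⧸ H) = c) → c.out • w ∈ P.I := by
  have : H.FiniteIndex := ⟨hH.index_ne_zero⟩
  have := Fintype.ofFinite (Ga ⧸ H)
  have h1 : ∀ c : Ga ⧸ H, ∃ w : Oi, (w : Om) ∈ fix H ∧ w ∉ P.I ∧
      ((¬ ∃ d ∈ Dec P, (d : Ga ⧸ H) = c) → c.out • w ∈ P.I) := by
    intro c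
    by_cases hc : ∃ d ∈ Dec P, (d : Ga ⧸ H) = c
    · refine ⟨1, ?_, fun h => P.max.ne_top ((Ideal.eq_top_iff_one _).2 h), fun h => absurd hc h⟩
      exact one_mem _
    · obtain ⟨w, h1, h2, h3⟩ := ram0_sep hH.cl P (g := c.out) (by rwa [QuotientGroup.out_eq'])
      exact ⟨w, h1, h2, fun _ => h3⟩
  choose w h1 h2 h3 using h1
  refine ⟨∏ c, w c, ?_, ram0_prod h2, fun c hc => ?_⟩
  · rw [RingOfIntegers.coe_eq_algebraMap, map_prod]
    exact prod_mem fun c _ => h1 c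
  · rw [Finset.smul_prod']
    exact Ideal.mem_of_dvd _ (Finset.dvd_prod_of_mem (fun c' => c.out • w c') (Finset.mem_univ c))
      (h3 c hc)

theorem ram0_core {H : Subgroup Ga} (hH : Op H) {P : Pr} (hI : Ine P ≤ H) {x : Om}
    (hx : x ∈ fix H) (h0 : x ≠ 0)
    (hb : ∀ c : Ga ⧸ H, (¬ ∃ d ∈ Dec P, (d : Ga ⧸ H) = c) → val P x < val P (c.out x)) :
    ∃ k : ℤ, val P x = k := by
  classical
  have : H.FiniteIndex := ⟨hH.index_ne_zero⟩
  have := Fintype.ofFinite (Ga ⧸ H)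
  have := P.max.isPrime
  have hout : ∀ {y : Om}, y ∈ fix H → ∀ g : Ga, ((g : Ga ⧸ H).out) y = g y := fun hy g =>
    ram0_out (MonoidHom.id Ga) H (mem_fix.1 hy) g
  have hne : ∀ g : Ga, g x ≠ 0 := fun g => (map_ne_zero g).2 h0
  have h1 : ∀ c : Ga ⧸ H, 0 ≤ val P (c.out x / x) := by
    intro c
    rw [val_div P (hne _) h0, sub_nonneg]
    by_cases hc : ∃ d ∈ Dec P, (d : Ga ⧸ H) = c
    · obtain ⟨d, hd, rfl⟩ := hc
      rw [hout hx, val_dec hd]
    · exact (hb c hc).le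
  choose a b hb1 hab using fun c => (val_nonneg_iff P _).1 (h1 c)
  have hB := ram0_prod hb1
  have h2 : ∀ c : Ga ⧸ H, ∃ A : Oi, c.out x / x * ((∏ c, b c : Oi) : Om) = A := fun c => by
    obtain ⟨r, hr⟩ := Finset.dvd_prod_of_mem b (Finset.mem_univ c)
    have e : ∀ u v : Oi, ((u * v : Oi) : Om) = u * v := fun u v => map_mul (algebraMap Oi Om) u v
    exact ⟨a c * r, by rw [hr, e, e, ← mul_assoc, hab]⟩
  choose A hA using h2
  have h3 : ∀ c, A c ∉ P.I → ∃ d ∈ Dec P, (d : Ga ⧸ H) = c := fun c hc => by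
    by_contra hcon
    refine hc ((pos_iff_mem _ _).1 ?_)
    rw [← hA]
    refine Pos.mul_sm (Or.inr ?_) (Or.inr (val_nonneg P _))
    rw [val_div P (hne _) h0, sub_pos]
    exact hb c hcon
  let R : Submonoid Oi := (fix H).toSubalgebra.toSubmonoid.comap (algebraMap Oi Om)
  let χ : Ga ⧸ H → R →* Oi ⧸ P.I := fun c => (Ideal.Quotient.mk P.I).toMonoidHom.comp
    ((MulDistribMulAction.toMonoidHom Oi c.out).comp R.subtype)
  have hχ : ∀ c (u : R), χ c u = Ideal.Quotient.mk P.I (c.out • (u : Oi)) := fun _ _ => rfl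
  have hout' : ∀ (u : Oi), (u : Om) ∈ fix H → ∀ g : Ga, (g : Ga ⧸ H).out • u = g • u :=
    fun u hu g => RingOfIntegers.ext (hout hu g)
  have inj : Function.Injective fun c : {c // A c ∉ P.I} => χ c := by
    rintro ⟨c, hc⟩ ⟨c', hc'⟩ e
    obtain ⟨d, hd, rfl⟩ := h3 c hc
    obtain ⟨d', hd', rfl⟩ := h3 c' hc'
    obtain ⟨g, hg, -, hg'⟩ := surj_res hH.cl P (d⁻¹ * d') (mul_mem (inv_mem hd) hd') fun u hu => by
      have h4 := DFunLike.congr_fun e ⟨u, hu⟩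
      simp only [hχ, hout' u hu, Ideal.Quotient.eq] at h4
      have h5 : d' • u - d • u ∈ (d • P).I := by
        rw [mem_Dec.1 hd, ← neg_sub]; exact P.I.neg_mem h4
      rwa [Pr.mem_smul, smul_sub, inv_smul_smul, ← mul_smul] at h5
    have h6 := mul_mem hg (hI hg')
    rw [mul_inv_cancel_left] at h6
    exact Subtype.ext (QuotientGroup.eq.2 h6)
  have li := Fintype.linearIndependent_iff.1
    ((linearIndependent_monoidHom R (Oi ⧸ P.I)).comp _ inj)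
  obtain ⟨u, hu⟩ : ∃ u : R, ∑ c, A c * c.out • (u : Oi) ∉ P.I := by
    by_contra hcon
    have hA1 : A ((1 : Ga) : Ga ⧸ H) ∉ P.I := by
      have h4 := hA ((1 : Ga) : Ga ⧸ H)
      rw [hout hx, AlgEquiv.one_apply, div_self h0, one_mul] at h4
      rwa [← RingOfIntegers.ext h4]
    refine hA1 (Ideal.Quotient.eq_zero_iff_mem.1 (li (fun c => Ideal.Quotient.mk P.I (A c)) ?_
      ⟨_, hA1⟩))
    funext u
    have h5 : ∑ c, A c * c.out • (u : Oi) ∈ P.I := by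
      by_contra h6
      exact hcon ⟨u, h6⟩
    rw [← Ideal.Quotient.eq_zero_iff_mem, map_sum,
      ← Finset.sum_subset (Finset.filter_subset (fun c => A c ∉ P.I) Finset.univ),
      Finset.sum_subtype _ (p := fun c => A c ∉ P.I) (fun c => by simp)] at h5
    · rw [Finset.sum_apply]
      exact h5
    · intro c _ hc
      rw [Finset.mem_filter, not_and, not_not] at hc
      exact Ideal.Quotient.eq_zero_iff_mem.2 (P.I.mul_mem_right _ (hc (Finset.mem_univ c)))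
  have hxu : x * (u : Oi) ∈ fix H := mul_mem hx u.2
  obtain ⟨k, hk⟩ := ram0_rat P (x := ∑ c : Ga ⧸ H, c.out (x * (u : Oi))) fun g => by
    rw [map_sum, ← Equiv.sum_comp (MulAction.toPerm g) fun c : Ga ⧸ H => c.out (x * (u : Oi))]
    exact Finset.sum_congr rfl fun c _ => ram0_act (MonoidHom.id Ga) H (mem_fix.1 hxu) g c
  obtain ⟨s0, sv⟩ := ram0_unit hu
  obtain ⟨B0, Bv⟩ := ram0_unit hB
  have e : ∑ c : Ga ⧸ H, c.out (x * (u : Oi)) =
      x * ((∑ c, A c * c.out • (u : Oi) : Oi) : Om) / ((∏ c, b c : Oi) : Om) := by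
    rw [RingOfIntegers.coe_eq_algebraMap (∑ c, A c * c.out • (u : Oi)), map_sum, Finset.mul_sum,
      Finset.sum_div]
    refine Finset.sum_congr rfl fun c _ => ?_
    rw [map_mul, map_mul, ← RingOfIntegers.coe_eq_algebraMap (A c), ← hA,
      ← RingOfIntegers.coe_eq_algebraMap (c.out • (u : Oi)), coe_smul_Oi]
    field_simp
  rw [e, val_div P (mul_ne_zero h0 s0) B0, val_mul P h0 s0, sv, Bv, add_zero, sub_zero] at hk
  exact ⟨k, hk⟩

theorem ram0_main {H : Subgroup Ga} (hH : Op H) {P : Pr} (hI : Ine P ≤ H) {x : Om}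
    (hx : x ∈ fix H) : ∃ k : ℤ, val P x = k := by
  rcases eq_or_ne x 0 with rfl | h0
  · exact ⟨0, by rw [val_zero, Int.cast_zero]⟩
  have : H.FiniteIndex := ⟨hH.index_ne_zero⟩
  have := Fintype.ofFinite (Ga ⧸ H)
  obtain ⟨w, h1, h2, h3⟩ := ram0_w hH P
  obtain ⟨w0, wv⟩ := ram0_unit h2
  have h4 : ∀ c : Ga ⧸ H, ∃ N : ℕ, ∀ n : ℕ, N ≤ n → (¬ ∃ d ∈ Dec P, (d : Ga ⧸ H) = c) →
      val P x < val P (c.out x) + n * val P (c.out (w : Om)) := by
    intro c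
    by_cases hc : ∃ d ∈ Dec P, (d : Ga ⧸ H) = c
    · exact ⟨0, fun _ _ h => absurd hc h⟩
    have h5 : 0 < val P (c.out (w : Om)) :=
      ((pos_iff_mem P _).2 (h3 c hc)).resolve_left ((map_ne_zero c.out).2 w0)
    obtain ⟨N, hN⟩ := exists_nat_gt ((val P x - val P (c.out x)) / val P (c.out (w : Om)))
    refine ⟨N, fun n hn _ => ?_⟩
    rw [div_lt_iff₀ h5] at hN
    have h6 : (N : ℚ) ≤ n := by exact_mod_cast hn
    nlinarith
  choose N hN using h4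
  have e : val P (x * (w : Om) ^ Finset.univ.sup N) = val P x := by
    rw [val_mul P h0 (pow_ne_zero _ w0), val_pow, wv, mul_zero, add_zero]
  rw [← e]
  refine ram0_core hH hI (mul_mem hx (pow_mem h1 _)) (mul_ne_zero h0 (pow_ne_zero _ w0))
    fun c hc => ?_
  rw [e, map_mul, map_pow, val_mul P ((map_ne_zero c.out).2 h0)
    (pow_ne_zero _ ((map_ne_zero c.out).2 w0)), val_pow]
  exact hN c _ (Finset.le_sup (Finset.mem_univ c)) hc

end Vale.Agent.P024U
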