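import Vale.Agent.P024U.Dec
import Vale.Agent.P024U.Ram0X1

/-! Inertia and ramification.  `val_int`: take a finite Galois `M = fix W` containing `x`; the image of `Ine P` in
`Gal(M/ℚ)` is the full inertia group of `p = P ∩ 𝓞 M` (`exists_ext`, `trans_pr`, `surj_res`); with `T` its fixed field,
`card inertia = e(p | ch P) = e(p | p ∩ T)` (`Ideal.card_inertia_eq_ramificationIdxIn`, or
`Mathlib.NumberTheory.RamificationInertia.HilbertTheory`), so `ch P` is a uniformizer of `p ∩ T` and `x = (ch P)^k u`.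
A direct alternative: for a uniformizer `π` of `p`, `g ↦ g π / π` ... any proof is fine.
`val_int'`: apply `val_int` to the product of the conjugates over `Ine P / (Ine P ∩ H.normalCore)`.
`exists_unrOut`: an integral primitive element `y` of `fix H.normalCore`; the product of the `g y - y` over the
nontrivial cosets divides a nonzero natural number.
`ine_cyc`: `val P (1 - ζ^c) = 1/(l-1)`; the product over the image `J` of `Ine P` in `(ZMod l)ˣ` is fixed by `Ine P`. -/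

namespace Vale.Agent.P024U

theorem val_int {P : Pr} {x : Om} (h : ∀ σ ∈ Ine P, σ x = x) : ∃ k : ℤ, val P x = k :=
  ram0_main (H := MulAction.stabilizer Ga x) (op_stab x) h (mem_fix.2 fun _ hg => hg)

theorem val_int' {H : Subgroup Ga} (hH : Op H) : ∃ n : ℕ, n ≠ 0 ∧ ∀ (P : Pr) (x : Om),
    (∀ σ ∈ Ine P, σ ∈ H → σ x = x) → ∃ k : ℤ, n * val P x = k := by
  have h1 := hH.normalCore.index_ne_zero
  refine ⟨_, h1, fun P x hx => ?_⟩
  rcases eq_or_ne x 0 with rfl | h0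
  · exact ⟨0, by rw [val_zero, mul_zero, Int.cast_zero]⟩
  obtain ⟨j, hj⟩ := Subgroup.relIndex_dvd_index_of_normal H.normalCore (Ine P)
  have h2 : (H.normalCore.subgroupOf (Ine P)).index ≠ 0 := fun h => h1 (by
    rw [hj, Subgroup.relIndex, h, zero_mul])
  have : (H.normalCore.subgroupOf (Ine P)).FiniteIndex := ⟨h2⟩
  have := Fintype.ofFinite (Ine P ⧸ H.normalCore.subgroupOf (Ine P))
  have h3 : ∀ δ ∈ H.normalCore.subgroupOf (Ine P), (Ine P).subtype δ x = x := fun δ hδ =>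
    hx δ δ.2 (H.normalCore_le hδ)
  obtain ⟨k, hk⟩ := val_int (P := P)
    (x := ∏ c : Ine P ⧸ H.normalCore.subgroupOf (Ine P), (Ine P).subtype c.out x) fun σ hσ => by
      rw [map_prod, ← Equiv.prod_comp (MulAction.toPerm (⟨σ, hσ⟩ : Ine P))
        fun c : Ine P ⧸ H.normalCore.subgroupOf (Ine P) => (Ine P).subtype c.out x]
      exact Finset.prod_congr rfl fun c _ => ram0_act (Ine P).subtype _ h3 ⟨σ, hσ⟩ c
  rw [val_prod P _ _ fun c _ => (map_ne_zero _).2 h0,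
    Finset.sum_congr rfl fun c _ => val_dec (Ine_le_Dec P c.out.2) x, Finset.sum_const,
    Finset.card_univ, nsmul_eq_mul, ← Nat.card_eq_fintype_card] at hk
  refine ⟨k * j, ?_⟩
  rw [hj, Int.cast_mul, ← hk, Nat.cast_mul, Int.cast_natCast, mul_right_comm]
  rfl

theorem exists_unrOut {H : Subgroup Ga} (hH : Op H) : ∃ m : ℕ, m ≠ 0 ∧ UnrOut H m := by
  have : H.FiniteIndex := ⟨hH.index_ne_zero⟩
  have h1 : ∀ c : Ga ⧸ H, ∃ y ∈ fix H, c.out ∉ H → c.out y ≠ y := fun c => by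
    by_contra hcon
    by_cases hc : c.out ∈ H
    · exact hcon ⟨0, zero_mem _, fun h => absurd hc h⟩
    · refine hc (mem_of_fix hH.cl fun y hy => ?_)
      by_contra h2
      exact hcon ⟨y, hy, fun _ => h2⟩
  choose y hy hy' using h1
  have hF : (⋃ c : Ga ⧸ H, ({l | ∃ P : Pr, ch P = l ∧ val P (y c) ≠ 0} ∪
      {l | ∃ P : Pr, ch P = l ∧ val P (c.out (y c) - y c) ≠ 0})).Finite :=
    Set.finite_iUnion fun c => (val_finite _).union (val_finite _)
  refine ⟨∏ l ∈ hF.toFinset, l, Finset.prod_ne_zero_iff.2 fun l hl => ?_, fun P hP σ hσ => ?_⟩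
  · obtain ⟨c, hc⟩ := Set.mem_iUnion.1 (hF.mem_toFinset.1 hl)
    rcases hc with ⟨P, rfl, -⟩ | ⟨P, rfl, -⟩ <;> exact (ch_prime P).ne_zero
  · by_contra hσH
    refine hP (Finset.dvd_prod_of_mem (fun l => l)
      (hF.mem_toFinset.2 (Set.mem_iUnion.2 ⟨(σ : Ga ⧸ H), ?_⟩)))
    have h2 : ((σ : Ga ⧸ H).out) (y σ) = σ (y σ) :=
      ram0_out (MonoidHom.id Ga) H (mem_fix.1 (hy _)) σ
    have h3 : (σ : Ga ⧸ H).out ∉ H := fun h => hσH (by
      obtain ⟨h', e⟩ := QuotientGroup.mk_out_eq_mul H σ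
      rw [e] at h
      exact (mul_mem_cancel_right h'.2).1 h)
    by_cases h4 : val P (y σ) = 0
    · refine Or.inr ⟨P, rfl, ne_of_gt ?_⟩
      have h5 := Ine.pos hσ h4.ge
      rw [← h2] at h5
      exact h5.resolve_left (sub_ne_zero.2 (hy' _ h3))
    · exact Or.inl ⟨P, rfl, h4⟩

theorem UnrOut.mono {H H' : Subgroup Ga} {m m' : ℕ} (h : UnrOut H m) (hH : H ≤ H') (hm : m ∣ m') :
    UnrOut H' m' := fun P hP => (h P fun h' => hP (h'.trans hm)).trans hH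

theorem ram0_ge (P : Pr) {μ : Om} {l : ℕ} (hl : l ≠ 0) (hμ : μ ^ l = 1) (k : ℕ)
    (hk : 1 - μ ^ k ≠ 0) : val P (1 - μ) ≤ val P (1 - μ ^ k) := by
  rw [← mul_neg_geom_sum] at hk ⊢
  have h1 := Sm.sum (P := P) (q := 0) (Finset.range k) (fun i => μ ^ i) fun i _ =>
    Or.inr (by rw [val_pow, val_of_pow_eq_one P hl hμ, mul_zero])
  rw [val_mul P (left_ne_zero_of_mul hk) (right_ne_zero_of_mul hk)]
  exact le_add_of_nonneg_right (h1.resolve_left (right_ne_zero_of_mul hk))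

theorem ram0_eq (P : Pr) {μ ν : Om} {l : ℕ} (hl : 1 < l) (hμ : IsPrimitiveRoot μ l)
    (hν : IsPrimitiveRoot ν l) : val P (1 - μ) = val P (1 - ν) := by
  have : NeZero l := ⟨by omega⟩
  have key : ∀ {μ ν : Om}, IsPrimitiveRoot μ l → IsPrimitiveRoot ν l →
      val P (1 - μ) ≤ val P (1 - ν) := fun hμ hν => by
    obtain ⟨k, -, rfl⟩ := hμ.eq_pow_of_pow_eq_one hν.pow_eq_one
    exact ram0_ge P (NeZero.ne l) hμ.pow_eq_one k (sub_ne_zero.2 (hν.ne_one hl).symm)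
  exact le_antisymm (key hμ hν) (key hν hμ)

theorem ine_cyc (P : Pr) (c : ℕ) (hc : ¬ ch P ∣ c) :
    ∃ σ ∈ Ine P, ∀ z : Om, z ^ ch P = 1 → σ z = z ^ c := by
  classical
  have hp := ch_prime P
  have : NeZero (ch P) := ⟨hp.ne_zero⟩
  obtain ⟨ζ, hζ⟩ := HasEnoughRootsOfUnity.exists_primitiveRoot Om (ch P)
  have hne : ∀ {μ : Om}, IsPrimitiveRoot μ (ch P) → 1 - μ ≠ 0 := fun hμ =>
    sub_ne_zero.2 (hμ.ne_one hp.one_lt).symm
  have hv : ((ch P - 1 : ℕ) : ℚ) * val P (1 - ζ) = 1 := by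
    have e : ch P - 1 + 1 = ch P := Nat.sub_add_cancel hp.one_le
    have hpr : ∀ k ∈ Finset.range (ch P - 1), IsPrimitiveRoot (ζ ^ (k + 1)) (ch P) := fun k hk =>
      hζ.pow_of_coprime _ (Nat.coprime_of_lt_prime (Nat.succ_ne_zero k)
        (by have := Finset.mem_range.1 hk; omega) hp).symm
    have h1 := IsPrimitiveRoot.prod_one_sub_pow_eq_order (n := ch P - 1) (μ := ζ) (by rwa [e])
    rw [← Nat.cast_succ, Nat.succ_eq_add_one, e] at h1
    have h2 := val_ch P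
    rwa [← h1, val_prod P _ _ fun k hk => hne (hpr k hk),
      Finset.sum_congr rfl fun k hk => ram0_eq P hp.one_lt (hpr k hk) hζ, Finset.sum_const,
      Finset.card_range, nsmul_eq_mul] at h2
  let O := (primitiveRoots (ch P) Om).filter fun μ => ∃ σ ∈ Ine P, σ ζ = μ
  have hO : ∀ μ, μ ∈ O ↔ IsPrimitiveRoot μ (ch P) ∧ ∃ σ ∈ Ine P, σ ζ = μ := fun μ => by
    rw [Finset.mem_filter, mem_primitiveRoots hp.pos]
  have hst : ∀ τ ∈ Ine P, ∀ μ ∈ O, τ μ ∈ O := fun τ hτ μ hμ => by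
    obtain ⟨h1, σ, hσ, rfl⟩ := (hO μ).1 hμ
    exact (hO _).2 ⟨h1.map_of_injective τ.injective, τ * σ, mul_mem hτ hσ, rfl⟩
  obtain ⟨k, hk⟩ := val_int (P := P) (x := ∏ μ ∈ O, (1 - μ)) fun τ hτ => by
    rw [map_prod]
    refine Finset.prod_nbij' τ (τ⁻¹ : Ga) (hst τ hτ) (hst _ (inv_mem hτ))
      (fun μ _ => τ.symm_apply_apply μ) (fun μ _ => τ.apply_symm_apply μ) fun μ _ => ?_
    rw [map_sub, map_one]
  rw [val_prod P _ _ fun μ hμ => hne ((hO μ).1 hμ).1,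
    Finset.sum_congr rfl fun μ hμ => ram0_eq P hp.one_lt ((hO μ).1 hμ).1 hζ, Finset.sum_const,
    nsmul_eq_mul] at hk
  have hc0 : 0 < O.card := Finset.card_pos.2 ⟨ζ, (hO ζ).2 ⟨hζ, 1, one_mem _, rfl⟩⟩
  have hdvd : ch P - 1 ∣ O.card := by
    have h1 : (O.card : ℚ) = ((ch P - 1 : ℕ) : ℚ) * k := by
      rw [← hk, mul_left_comm, hv, mul_one]
    have h2 : (O.card : ℤ) = ((ch P - 1 : ℕ) : ℤ) * k := by exact_mod_cast h1
    exact Int.natCast_dvd_natCast.1 ⟨k, h2⟩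
  have hall : O = primitiveRoots (ch P) Om := by
    refine Finset.eq_of_subset_of_card_le (Finset.filter_subset _ _) ?_
    rw [hζ.card_primitiveRoots, Nat.totient_prime hp]
    exact Nat.le_of_dvd hc0 hdvd
  have hζc : ζ ^ c ∈ O := by
    rw [hall, mem_primitiveRoots hp.pos]
    exact hζ.pow_of_coprime c ((Nat.Prime.coprime_iff_not_dvd hp).2 hc).symm
  obtain ⟨-, σ, hσ, e⟩ := (hO _).1 hζc
  refine ⟨σ, hσ, fun z hz => ?_⟩
  obtain ⟨i, -, rfl⟩ := hζ.eq_pow_of_pow_eq_one hz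
  rw [map_pow, e, ← pow_mul, ← pow_mul, mul_comm]

/-- inertia moves `r`-power roots of the residue characteristic -/
theorem ine_moves (P : Pr) (r : ℕ) (hr : r.Prime) (hP : ch P ≠ r) {H : Subgroup Ga} (hH : Op H) :
    ∃ σ ∈ Ine P, σ ∈ H ∧ ∃ (n : ℕ) (z : Om), z ^ r ^ n = (ch P : Om) ∧ σ z ≠ z ∧ (σ ^ r) z = z := by
  classical
  obtain ⟨N, hN, hv⟩ := val_int' hH
  obtain ⟨z0, hz0⟩ := IsAlgClosed.exists_pow_nat_eq (ch P : Om) (pow_pos hr.pos N)
  obtain ⟨σ, hσ, hσH, hne⟩ : ∃ σ ∈ Ine P, σ ∈ H ∧ σ z0 ≠ z0 := by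
    by_contra hcon
    obtain ⟨k, hk⟩ := hv P z0 fun σ h1 h2 => by
      by_contra h3
      exact hcon ⟨σ, h1, h2, h3⟩
    have h1 := val_ch P
    rw [← hz0, val_pow] at h1
    have h2 : (N : ℚ) = ((r ^ N : ℕ) : ℚ) * k := by
      rw [← hk, mul_left_comm, h1, mul_one]
    have h3 : (N : ℤ) = ((r ^ N : ℕ) : ℤ) * k := by exact_mod_cast h2
    have h4 := Nat.le_of_dvd (Nat.pos_of_ne_zero hN) (Int.natCast_dvd_natCast.1 ⟨k, h3⟩)
    exact absurd (Nat.lt_pow_self hr.one_lt) (not_lt.2 h4)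
  have hex : ∃ n : ℕ, ∃ z : Om, z ^ r ^ n = (ch P : Om) ∧ σ z ≠ z := ⟨N, z0, hz0, hne⟩
  obtain ⟨z, hz, hz'⟩ := Nat.find_spec hex
  refine ⟨σ, hσ, hσH, Nat.find hex, z, hz, hz', ?_⟩
  have h0 : Nat.find hex ≠ 0 := fun h => hz' (by
    rw [h, pow_zero, pow_one] at hz
    rw [hz, map_natCast])
  obtain ⟨n, hn⟩ := Nat.exists_eq_succ_of_ne_zero h0
  have h1 : σ (z ^ r) = z ^ r := by
    by_contra h2
    refine Nat.find_min hex (m := n) (by omega) ⟨z ^ r, ?_, h2⟩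
    rw [← pow_mul, ← pow_succ', ← hz, hn]
  have z0' : z ≠ 0 := fun h => hz' (by rw [h, map_zero])
  have h2 : (σ z / z) ^ r = 1 := by
    rw [div_pow, ← map_pow, h1, div_self (pow_ne_zero _ z0')]
  have h3 : σ (σ z / z) = σ z / z :=
    Ine_le_Gmu (fun h => hP ((Nat.prime_dvd_prime_iff_eq (ch_prime P) hr).1 h)) hσ _ h2
  have h4 : ∀ i : ℕ, (σ ^ i) z = (σ z / z) ^ i * z := fun i => by
    induction i with
    | zero => rw [pow_zero, pow_zero, one_mul, AlgEquiv.one_apply]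
    | succ i ih =>
      rw [pow_succ', AlgEquiv.mul_apply, ih, map_mul, map_pow, h3, pow_succ, mul_assoc,
        div_mul_cancel₀ _ z0']
  rw [h4, h2, one_mul]

end Vale.Agent.P024U
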