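import Vale.Agent.P024U.Loc
import Vale.Agent.P024U.CApi

/-! Auxiliary lemmas for the cyclotomic compatibility. -/

namespace Vale.Agent.P024U

/-- the cyclotomic character modulo `r` -/
noncomputable def step2Chi (r : ℕ) [Fact r.Prime] : Ga →* (ZMod r)ˣ :=
  (Units.map (PadicInt.toZMod : ℤ_[r] →+* ZMod r).toMonoidHom).comp (chi r)

theorem step2Chi_val (r : ℕ) [Fact r.Prime] (g : Ga) :
    (step2Chi r g : ZMod r) = PadicInt.toZMod (chi r g : ℤ_[r]) := rfl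

theorem step2_frob {r : ℕ} [Fact r.Prime] {Q : Pr} {φ : Ga} (h : IsFrob Q 1 φ) (hQ : ch Q ≠ r) :
    PadicInt.toZMod (chi r φ : ℤ_[r]) = (ch Q : ZMod r) := by
  rw [h.chi r hQ, pow_one, map_natCast]

theorem step2_gen {r : ℕ} [hr : Fact r.Prime] {P : Pr} (hP : ch P = r) :
    ∃ σ ∈ Ine P, orderOf (step2Chi r σ) = r - 1 := by
  obtain ⟨g, hg⟩ := IsCyclic.exists_ofOrder_eq_natCard (α := (ZMod r)ˣ)
  rw [Nat.card_eq_fintype_card, ZMod.card_units] at hg
  obtain ⟨σ, h1, h2⟩ := ine_cyc P (g : ZMod r).val (by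
    rw [hP, ← ZMod.natCast_eq_zero_iff, ZMod.natCast_zmod_val]
    exact g.ne_zero)
  refine ⟨σ, h1, ?_⟩
  have : NeZero r := ⟨hr.out.ne_zero⟩
  obtain ⟨ζ, hζ⟩ := HasEnoughRootsOfUnity.exists_primitiveRoot Om r
  have h3 := chi_spec1 (t := r) σ ζ hζ.pow_eq_one
  rw [h2 ζ (by rw [hP]; exact hζ.pow_eq_one)] at h3
  have h4 := ZMod.val_injective r (hζ.pow_inj (ZMod.val_lt _) (ZMod.val_lt _) h3)
  rw [← hg]
  congr 1
  exact Units.ext h4.symm

theorem step2_ord {r : ℕ} [Fact r.Prime] {W : Subgroup Ga} (hW : W ≤ Gmu r) {Q : Pr} {φ σ : Ga}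
    (h : IsFrob Q 1 φ) (hQ : ch Q ≠ r) (hσ : orderOf (step2Chi r σ) = r - 1)
    (hm : σ ∈ W ⊔ Subgroup.zpowers φ) : orderOf (ch Q : ZMod r) = r - 1 := by
  have h1 : W ⊔ Subgroup.zpowers φ ≤ (Subgroup.zpowers (step2Chi r φ)).comap (step2Chi r) := by
    refine sup_le (fun w hw => ?_) (Subgroup.zpowers_le.2 (Subgroup.mem_zpowers _))
    have : step2Chi r w = 1 := Units.ext ((mem_Gmu_one w).1 (hW hw))
    rw [Subgroup.mem_comap, this]
    exact one_mem _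
  have h2 := orderOf_dvd_of_mem_zpowers (Subgroup.mem_comap.1 (h1 hm))
  rw [← step2_frob h hQ, ← step2Chi_val, orderOf_units]
  exact Nat.dvd_antisymm (ZMod.orderOf_units_dvd_card_sub_one _) (hσ ▸ h2)

theorem step2_index {G : Type*} [Group G] {A : Subgroup G} {g : G}
    (hg : g ∈ Subgroup.normalizer (A : Set G)) {p : ℕ} (hp : p ≠ 0) :
    (A ⊔ Subgroup.zpowers (g ^ p)).index ≤ p * (A ⊔ Subgroup.zpowers g).index := by
  have hle : A ⊔ Subgroup.zpowers (g ^ p) ≤ A ⊔ Subgroup.zpowers g :=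
    sup_le_sup_left (Subgroup.zpowers_le.2 (Subgroup.npow_mem_zpowers g p)) _
  rw [← Subgroup.relIndex_mul_index hle]
  refine Nat.mul_le_mul_right _ ?_
  have hm : ∀ i : ℕ, g ^ i ∈ A ⊔ Subgroup.zpowers g := fun i =>
    Subgroup.mem_sup_right (Subgroup.npow_mem_zpowers g i)
  have := Nat.card_le_card_of_surjective (α := Fin p)
    (β := ↥(A ⊔ Subgroup.zpowers g) ⧸
      (A ⊔ Subgroup.zpowers (g ^ p)).subgroupOf (A ⊔ Subgroup.zpowers g))
    (fun i => QuotientGroup.mk ⟨g ^ (i : ℕ), hm i⟩) (by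
      intro b
      obtain ⟨⟨x, hx⟩, rfl⟩ := QuotientGroup.mk_surjective b
      have hx' : x ∈ ((Subgroup.zpowers g ⊔ A : Subgroup G) : Set G) := by
        rw [sup_comm]; exact hx
      rw [Subgroup.coe_mul_of_left_le_normalizer_right _ _ (Subgroup.zpowers_le.2 hg)] at hx'
      obtain ⟨_, ⟨k, rfl⟩, w, hw, rfl⟩ := hx'
      have hp' : (0 : ℤ) < p := by exact_mod_cast Nat.pos_of_ne_zero hp
      have h0 := Int.emod_nonneg k hp'.ne'
      have h1 := Int.emod_lt_of_pos k hp'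
      refine ⟨⟨(k % p).toNat, by omega⟩, QuotientGroup.eq.2 ?_⟩
      rw [Subgroup.mem_subgroupOf]
      have e : (g ^ (k % p).toNat)⁻¹ * (g ^ k * w) = (g ^ p) ^ (k / p) * w := by
        rw [← zpow_natCast, Int.toNat_of_nonneg h0, ← mul_assoc, ← zpow_neg, ← zpow_add,
          ← zpow_natCast, ← zpow_mul]
        congr 2
        linarith [Int.mul_ediv_add_emod k p]
      change (g ^ (k % p).toNat)⁻¹ * (g ^ k * w) ∈ _
      rw [e]
      exact mul_mem (Subgroup.mem_sup_right (Subgroup.zpow_mem_zpowers _ _))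
        (Subgroup.mem_sup_left hw))
  simpa [Subgroup.relIndex, Subgroup.index] using this

/-- a character of order dividing `p` -/
noncomputable def step2Xi (r : ℕ) [Fact r.Prime] (p : ℕ) (g : Ga) : ℤ_[r] :=
  teich r (chi r g) ^ ((r - 1) / p)

variable {r : ℕ} [Fact r.Prime] {p : ℕ}

theorem step2Xi_mul (g h : Ga) : step2Xi r p (g * h) = step2Xi r p g * step2Xi r p h := by
  simp only [step2Xi, map_mul, teich_mul, mul_pow]

theorem step2Xi_one {g : Ga} (hg : g ∈ Gmu r) : step2Xi r p g = 1 := by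
  rw [step2Xi, eq_one_of_pow_of_mod _ (teich_pow _)
    ((teich_mod _).trans ((mem_Gmu_one g).1 hg)), one_pow]

theorem step2Xi_pow (g : Ga) (k : ℕ) : step2Xi r p (g ^ k) = step2Xi r p g ^ k := by
  induction k with
  | zero => rw [pow_zero, pow_zero, step2Xi_one (one_mem _)]
  | succ k ih => rw [pow_succ, pow_succ, step2Xi_mul, ih]

theorem step2Xi_dvd (hp : p ∣ r - 1) (g : Ga) {k : ℕ} (hk : p ∣ k) : step2Xi r p (g ^ k) = 1 := by
  obtain ⟨k, rfl⟩ := hk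
  rw [step2Xi_pow, pow_mul, step2Xi, ← pow_mul (teich r _), Nat.div_mul_cancel hp, teich_pow,
    one_pow]

theorem step2Xi_ne (hp : p.Prime) (hpr : p ∣ r - 1) {Q : Pr} {φ : Ga} (h : IsFrob Q 1 φ)
    (hQ : ch Q ≠ r) (ho : orderOf (ch Q : ZMod r) = r - 1) : step2Xi r p φ ≠ 1 := by
  intro h1
  have h2 := congrArg PadicInt.toZMod h1
  rw [step2Xi, map_pow, teich_mod, step2_frob h hQ, map_one, ← orderOf_dvd_iff_pow_eq_one,
    ho] at h2
  have h3 : 0 < r - 1 := Nat.sub_pos_of_lt (Fact.out : r.Prime).one_lt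
  have h4 : (r - 1) / p < r - 1 := Nat.div_lt_self h3 hp.one_lt
  have h5 : 0 < (r - 1) / p := Nat.div_pos (Nat.le_of_dvd h3 hpr) hp.pos
  exact absurd (Nat.le_of_dvd h5 h2) (by omega)

theorem step2_vanish {U : Subgroup Ga} (hU : Op U) {θ : Ga → ℚ_[r]} (hθ : IsX U θ) {Q : Pr}
    (hQ : ch Q ≠ r) (hI : Ine Q ≤ U) {ψ u : Ga} (hψ : ψ ∈ Dec Q) (hu : u ∈ Dec Q) (huU : u ∈ U)
    {x : ℤ_[r]} (hx : x ≠ 1) (h : θ (ψ⁻¹ * u * ψ) = (x : ℚ_[r]) * θ u) : θ u = 0 := by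
  have h1 := comm_mem_Ine (inv_mem hψ) hu
  have h2 := hθ.2 _ (hI h1) u huU
  rw [x_unr hU hθ hQ h1 (hI h1), zero_add, inv_inv, inv_mul_cancel_right, h] at h2
  have h3 : ((x : ℚ_[r]) - 1) * θ u = 0 := by rw [sub_mul, h2, one_mul, sub_self]
  refine (mul_eq_zero.1 h3).resolve_left fun h4 => hx ?_
  exact Subtype.ext (sub_eq_zero.1 h4)

/-- elements leaving a function on a normal subgroup invariant -/
def step2Inv {A : Type*} (W : Subgroup Ga) [hW : W.Normal] (θ : Ga → A) : Subgroup Ga where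
  carrier := {a | ∀ x ∈ W, θ (a⁻¹ * x * a) = θ x}
  one_mem' := fun x _ => by simp
  mul_mem' := fun {a b} ha hb x hx => by
    have := hb _ (hW.conj_mem' x hx a)
    rw [ha x hx] at this
    rw [← this]
    simp only [mul_inv_rev, mul_assoc]
  inv_mem' := fun {a} ha x hx => by
    have := ha _ (hW.conj_mem' x hx a⁻¹)
    rw [← this]
    congr 1
    group

theorem step2_kap (g x : Ga) : kap r (g⁻¹ * x * g) = kap r x := by
  unfold kap
  rw [map_mul, map_mul, map_inv, inv_mul_cancel_comm]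

theorem step2_pow {W : Subgroup Ga} [W.Normal] {φ ψ : Ga} (h : φ⁻¹ * ψ ∈ W) {n : ℕ}
    (hn : φ ^ n ∈ W) : ψ ^ n ∈ W := by
  rw [← QuotientGroup.eq_one_iff] at hn ⊢
  rw [QuotientGroup.mk_pow] at hn ⊢
  rw [← QuotientGroup.eq.2 h, hn]

end Vale.Agent.P024U
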