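import Vale.Agent.P024U.Star
import Vale.Agent.P024U.Kmap
import Vale.Agent.P024U.Step2X1

/-! Cyclotomic compatibility for good primes `r`.  `d = G1.index`; `B` bounds `h` (`hit_fin`), `m` (`UnrOut` for the core of `G2`) and 2.
`prim_family`: `σ ∈ Ine P_r ≤ G2` acting on `r`-th roots of unity by a primitive root (`ine_cyc`), `cheb` for `W = core G2 ⊓ Gmu r`, discard ramified `l'` and those not hit; `Dec Q ≤ G2` by `dec_decomp`;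
infinitely many `l` by `fin_Q` (and finitely many `l'` are excluded by `m'`).
`compat`: `W` from `exists_level` (`B = Gmu r`, `R0 = 2d+1`), `W2` = core of `im W`, `m'` with `UnrOut W2 m'`.  `pigeon` on `(ψ W, ψ2 W2)`.  If `e > 1` let `p = minFac e ≤ d` (`φ^d ∈ G1 ≤ NF`), `p ∣ r - 1`,
`ξ g = teich (chi g) ^ ((r-1)/p)`.  `γ` from `gam`, `chi γ = chi (ψ^e) = l^e` (`chi_nu`) so `ξ γ = 1`, `ξ ψ2 ≠ 1`.  `H = im W ⊔ zpowers ψ2 ∋ γ`; `lb` for `H`, `ξ`; the characters vanish on `Dec Q_i ∩ im W`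
(`θ (ψ2⁻¹ u ψ2) = θ u` by `comm_mem_Ine`, `x_unr`); `star`; `ub` for `im W ⊔ zpowers (ψ2^p) ⊔ im MM`, `R0 ρ0 ≤ p * 2 ρ0`.  So `e = 1`, `φ ∈ NF`; `η = pull kap - kap` vanishes on `ψ^n` (`chi_nu`), is invariant
under `φ` (`nu_exists`; `kap` is a class function on `Ga`), `rigid` gives `n η = 0` on `W`, `IsX.eq_zero_of_op`. -/

namespace Vale.Agent.P024U
namespace Corr
variable (c : Corr)

theorem prim_family : ∃ B : ℕ, ∀ (r : ℕ) [Fact r.Prime], B < r → ∀ m' : ℕ, m' ≠ 0 →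
    {l | ∃ (P Q : Pr) (ψ2 : Ga), ch P = l ∧ l ≠ r ∧ ch Q ≠ r ∧ ¬ ch Q ∣ m' ∧ c.Ram r P ∧ c.Maps P Q ∧
      Dec Q ≤ c.G2 ∧ IsFrob Q 1 ψ2 ∧ orderOf (ch Q : ZMod r) = r - 1}.Infinite := by
  obtain ⟨h, h0, hh⟩ := c.hit_fin
  obtain ⟨m, m0, hm⟩ := exists_unrOut c.op_G2.normalCore
  refine ⟨h + m + 2, fun r hr hB m' hm' hfin => ?_⟩
  have h2 : r ≠ 2 := by omega
  have hrh : ¬ r ∣ h := fun hd => by have := Nat.le_of_dvd (Nat.pos_of_ne_zero h0) hd; omega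
  have hrm : ¬ r ∣ m := fun hd => by have := Nat.le_of_dvd (Nat.pos_of_ne_zero m0) hd; omega
  obtain ⟨P0, hP0⟩ := exists_pr r hr.out
  obtain ⟨σ, hσ, ho⟩ := step2_gen hP0
  have hσ2 : σ ∈ c.G2.normalCore := hm P0 (hP0 ▸ hrm) hσ
  have hcore : c.G2.normalCore ≤ c.G2 := Subgroup.normalCore_le _
  have hM : m * m' * r ≠ 0 := mul_ne_zero (mul_ne_zero m0 hm') hr.out.ne_zero
  refine cheb (W := c.G2.normalCore ⊓ Gmu r) (c.op_G2.normalCore.inf (op_Gmu hr.out.ne_zero)) σ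
    ((((Set.finite_le_nat (m * m' * r)).union (hh r hr.out h2 hrh)).union
      (hfin.biUnion fun l _ => c.fin_Q l)).subset ?_)
  rintro l' ⟨Q, φ, hQ, hφ, h3, h4⟩
  by_cases hd : l' ∣ m * m' * r
  · exact Or.inl (Or.inl (Nat.le_of_dvd (Nat.pos_of_ne_zero hM) hd))
  by_cases hit : c.Hit r Q
  swap
  · exact Or.inl (Or.inr ⟨Q, hQ, hit⟩)
  obtain ⟨P, hP, hR, hMp⟩ := hit
  have hQr : ch Q ≠ r := fun e => hd (by rw [← hQ, e]; exact dvd_mul_left _ _)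
  have hQm : ¬ ch Q ∣ m := fun e => hd (hQ ▸ (e.mul_right _).mul_right _)
  have hQm' : ¬ ch Q ∣ m' := fun e => hd (hQ ▸ (e.mul_left _).mul_right _)
  have hφ2 : φ ∈ c.G2 :=
    (sup_le (inf_le_left.trans hcore) (Subgroup.zpowers_le.2 (hcore hσ2)) : _ ≤ c.G2) h3
  refine Or.inr (Set.mem_biUnion (x := ch P) ⟨P, Q, φ, rfl, hP, hQr, hQm', hR, hMp, fun g hg => ?_,
    hφ, step2_ord inf_le_right hφ hQr ho h4⟩ ⟨P, Q, r, rfl, hQ, hr.out, h2, hP, hR, hMp⟩)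
  obtain ⟨k, ρ, hρ, w, hw, -, rfl⟩ := dec_decomp hφ c.op_G2 hg
  exact mul_mem (mul_mem (pow_mem hφ2 k) (hcore (hm Q hQm hρ))) hw

/-- a member of the family -/
structure Step2Mem (r m' : ℕ) (P Q : Pr) (ψ ψ2 : Ga) : Prop where
  hP : ch P ≠ r
  hQ : ch Q ≠ r
  hm : ¬ ch Q ∣ m'
  ram : c.Ram r P
  maps : c.Maps P Q
  dec : Dec Q ≤ c.G2
  f1 : IsFrob P 1 ψ
  f2 : IsFrob Q 1 ψ2
  ord : orderOf (ch Q : ZMod r) = r - 1

theorem step2_norm {W : Subgroup Ga} [hW : W.Normal] {τ : Ga} (hτ : τ ∈ c.G2) :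
    τ ∈ Subgroup.normalizer (c.im W : Set Ga) := by
  obtain ⟨σ, h⟩ := c.mem_G2.1 hτ
  refine Subgroup.mem_normalizer_iff.2 fun a => ⟨fun ha =>
    c.conj_mem_im h (fun x hx => hW.conj_mem x hx σ) ha, fun ha => ?_⟩
  have := c.conj_mem_im (σ := σ⁻¹) (τ := τ⁻¹) (c.R.inv_mem h) (fun x hx => hW.conj_mem x hx σ⁻¹) ha
  simpa [mul_assoc] using this

theorem step2_NF (hs : c.Std) {r : ℕ} [Fact r.Prime] (h2 : r ≠ 2)
    (hd : (c.G1.index).factorial ∣ r - 1) {W : Subgroup Ga} (hW : Op W) [W.Normal]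
    (hle : W ≤ c.G1) (hμ : c.im W ≤ Gmu r)
    (hbig : ∀ γ ∈ c.G2, (2 * c.G1.index + 1) * (c.im W ⊔ Subgroup.zpowers γ ⊔ c.im c.MM).index ≤
      (c.im W ⊔ Subgroup.zpowers γ).index) {m' : ℕ} (hm' : UnrOut (c.im W).normalCore m')
    {P0 Q0 : Pr} {φ φ2 : Ga} (h0 : c.Step2Mem r m' P0 Q0 φ φ2) {n : ℕ}
    (hn : ∀ j : ℕ, φ ^ j ∈ W ↔ n ∣ j)
    (hinf : {l | ∃ (P Q : Pr) (ψ ψ2 : Ga), ch P = l ∧ c.Step2Mem r m' P Q ψ ψ2 ∧ φ⁻¹ * ψ ∈ W ∧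
      φ2⁻¹ * ψ2 ∈ c.im W}.Infinite) : φ ∈ c.NF := by
  obtain ⟨e, he0, he⟩ := c.exists_e hW hle φ
  obtain ⟨hNF, hj⟩ := he φ (by rw [inv_mul_cancel]; exact one_mem _)
  by_contra hφ
  have he1 : e ≠ 1 := fun h => hφ (by simpa [h] using hNF)
  have hp := Nat.minFac_prime he1
  have hpe := Nat.minFac_dvd e
  generalize e.minFac = p at hp hpe
  have := hs.1
  have hpd : p ≤ c.G1.index := Nat.le_of_dvd (Nat.pos_of_ne_zero c.op_G1.index_ne_zero)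
    (hpe.trans ((hj _).1.1 (c.G1_le_NF (c.G1.pow_index_mem φ))))
  have hpr : p ∣ r - 1 := (hp.dvd_factorial.2 hpd).trans hd
  have hgP : φ ^ e ∈ Dec P0 := pow_mem h0.f1.mem_Dec e
  obtain ⟨γ, hγ, hnu⟩ := c.gam hs.1 h2 h0.hP h0.ram h0.maps hNF hgP
  have hξγ : step2Xi r p γ = 1 := by
    rw [step2Xi, c.chi_nu h2 h0.hP h0.ram hgP hnu]
    exact step2Xi_dvd hpr φ hpe
  have hU := c.op_im hW
  have hcore : (c.im W).normalCore ≤ c.im W := Subgroup.normalCore_le _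
  have hφ2 : φ2 ∈ c.G2 := h0.dec h0.f2.mem_Dec
  have hUH : c.im W ≤ c.im W ⊔ Subgroup.zpowers φ2 := le_sup_left
  have hφH : φ2 ∈ c.im W ⊔ Subgroup.zpowers φ2 := Subgroup.mem_sup_right (Subgroup.mem_zpowers _)
  have hH4 : c.im W ⊔ Subgroup.zpowers φ2 ≤ Gmu 4 :=
    (sup_le (c.im_le_G2 W) (Subgroup.zpowers_le.2 hφ2)).trans hs.2.2
  have hγH : γ ∈ c.im W ⊔ Subgroup.zpowers φ2 := by
    obtain ⟨k, ρ, hρ, w, hw, -, rfl⟩ := dec_decomp h0.f2 hU hγ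
    exact mul_mem (mul_mem (pow_mem hφH k) (hUH (hcore (hm' Q0 h0.hm hρ)))) (hUH hw)
  obtain ⟨ρ0, hρ0⟩ := index_even hH4
  obtain ⟨θ, hθ, hind, heig⟩ := lb h2 (hU.mono hUH) hH4 (ξ := step2Xi r p)
    (fun g _ h _ => step2Xi_mul g h) (fun g _ hg => step2Xi_one hg) hρ0
  have hU2 : c.im W ≤ (c.im W ⊔ Subgroup.zpowers φ2) ⊓ Gmu r := le_inf hUH hμ
  have hθU := fun i => (hθ i).mono hU2
  have hMM : ∀ i, ∀ a ∈ c.im c.MM, ∀ x ∈ c.im W, θ i (a⁻¹ * x * a) = θ i x := fun i => by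
    refine c.star h2 hs hW hle (hθU i) φ hn (hinf.mono ?_) hnu (fun j h => (hj j).2 ((hj j).1.1 h))
      fun x hx => by rw [heig i γ hγH x (hU2 hx), hξγ, PadicInt.coe_one, one_mul]
    rintro l ⟨P, Q, ψ, ψ2, hl, hM, h1, h3⟩
    refine ⟨P, ψ, hl, hM.f1, h1, fun τ hτ => ?_⟩
    have h4 : ψ ^ n ∈ W := step2_pow h1 ((hn n).2 dvd_rfl)
    obtain ⟨τ', h5, h6⟩ := hM.maps.exists c hτ (pow_mem hM.f1.mem_Dec n)
    have h7 : τ' ∈ c.im W := c.mem_im.2 ⟨_, h4, h6⟩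
    rw [← c.pull_eq (hθU i) h4 hτ, c.pull_eq (hθU i) h4 h6]
    refine step2_vanish hU (hθU i) hM.hQ ((hm' Q hM.hm).trans hcore) hM.f2.mem_Dec h5 h7
      (step2Xi_ne hp hpr hM.f2 hM.hQ hM.ord) (heig i ψ2 ?_ τ' (hU2 h7))
    simpa using mul_mem hφH (hUH h3)
  have hind2 : IndOn ((c.im W ⊔ Subgroup.zpowers φ2) ⊓ Gmu r) θ := fun a ha =>
    hind a fun g hg => ha g ⟨hg.1, (mem_Gmu_one g).2 (by
      rw [MonoidHom.mem_ker.1 hg.2, Units.val_one, map_one])⟩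
  have hub := ub h2 (W := (c.im W).normalCore)
    (H := c.im W ⊔ Subgroup.zpowers (φ2 ^ p) ⊔ c.im c.MM) hU.normalCore
    (hcore.trans (hUH.trans hH4)) (hcore.trans (le_sup_left.trans le_sup_left))
    (fun i => (hθU i).mono hcore) (hind2.of_op hθ hU.normalCore (hcore.trans hU2))
    fun i h hh => by
      refine (sup_le (sup_le (fun a ha x hx => (hθU i).conj_self ha (hcore hx))
        (Subgroup.zpowers_le.2 fun x hx => ?_)) (fun a ha x hx => hMM i a ha x (hcore hx)) :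
          _ ≤ step2Inv (c.im W).normalCore (θ i)) hh
      rw [heig i _ (pow_mem hφH p) x (hU2 (hcore hx)), step2Xi_dvd hpr φ2 dvd_rfl,
        PadicInt.coe_one, one_mul]
  have h1 := hbig (φ2 ^ p) (pow_mem hφ2 p)
  have h3 := step2_index (c.step2_norm (W := W) hφ2) hp.ne_zero
  have h4 := (hU.mono hUH).index_ne_zero
  rw [← hρ0] at h3 h4
  have h5 := Nat.mul_le_mul_left (2 * c.G1.index + 1) hub
  have h6 := Nat.mul_le_mul_right (2 * ρ0) hpd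
  have h7 : (2 * c.G1.index + 1) * ρ0 ≤ c.G1.index * (2 * ρ0) := h5.trans (h1.trans (h3.trans h6))
  have h8 : 0 < ρ0 := by omega
  nlinarith

theorem compat (hs : c.Std) : ∃ B : ℕ, ∀ (r : ℕ) [Fact r.Prime], B < r →
    (c.G1.index).factorial ∣ r - 1 → c.Compat r := by
  obtain ⟨B, hB⟩ := c.prim_family
  refine ⟨B + 2, fun r hr hlt hd => ?_⟩
  have h2 : r ≠ 2 := by omega
  obtain ⟨W, hW, hWn, hle, -, hμ, hbig⟩ := c.exists_level hs (Gmu r) (op_Gmu hr.out.ne_zero)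
    (c.N2_le_Gmu hr.out.ne_zero) (2 * c.G1.index + 1)
  have hU := c.op_im hW
  obtain ⟨m', m0, hm'⟩ := exists_unrOut hU.normalCore
  have f1 : W.FiniteIndex := ⟨hW.index_ne_zero⟩
  have f2 : (c.im W).FiniteIndex := ⟨hU.index_ne_zero⟩
  obtain ⟨b, hb⟩ := pigeon (hB r (by omega) m' m0)
    (fun l (a : Pr × Pr × Ga × Ga) => ch a.1 = l ∧ c.Step2Mem r m' a.1 a.2.1 a.2.2.1 a.2.2.2)
    (by
      rintro l ⟨P, Q, ψ2, hl, h3, h4, h5, h6, h7, h8, h9, h10⟩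
      obtain ⟨ψ, hψ⟩ := exists_frob P
      exact ⟨(P, Q, ψ, ψ2), hl, hl ▸ h3, h4, h5, h6, h7, h8, hψ, h9, h10⟩)
    (fun a => ((a.2.2.1 : Ga ⧸ W), (a.2.2.2 : Ga ⧸ c.im W)))
  obtain ⟨l0, -, ⟨P0, Q0, φ, φ2⟩, ⟨-, h0⟩, rfl⟩ := hb.nonempty
  have hinf : {l | ∃ (P Q : Pr) (ψ ψ2 : Ga), ch P = l ∧ c.Step2Mem r m' P Q ψ ψ2 ∧ φ⁻¹ * ψ ∈ W ∧
      φ2⁻¹ * ψ2 ∈ c.im W}.Infinite := by
    refine hb.mono ?_
    rintro l ⟨-, ⟨P, Q, ψ, ψ2⟩, ⟨hl, hM⟩, e⟩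
    exact ⟨P, Q, ψ, ψ2, hl, hM, QuotientGroup.eq.1 (congrArg Prod.fst e).symm,
      QuotientGroup.eq.1 (congrArg Prod.snd e).symm⟩
  have hn : ∀ j : ℕ, φ ^ j ∈ W ↔ orderOf (φ : Ga ⧸ W) ∣ j := fun j => by
    rw [orderOf_dvd_iff_pow_eq_one, ← QuotientGroup.mk_pow, QuotientGroup.eq_one_iff]
  have hn0 : orderOf (φ : Ga ⧸ W) ≠ 0 := (orderOf_pos _).ne'
  generalize orderOf (φ : Ga ⧸ W) = n at hn hn0
  have hNF := c.step2_NF hs h2 hd hW hle hμ hbig hm' h0 hn hinf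
  have hk := isX_kap h2 (c.im c.G1)
  have hη : IsX c.G1 fun g => c.pull (kap r) g - kap r g :=
    (c.isX_pull c.op_G1.cl le_rfl hk).sub (isX_kap h2 _)
  have hrig := rigid h2 hW (hle.trans hs.2.1) (hη.mono hle) φ hn (hinf.mono (by
    rintro l ⟨P, Q, ψ, ψ2, hl, hM, h1, -⟩
    refine ⟨P, ψ, hl, hM.f1, h1, ?_⟩
    have h4 : ψ ^ n ∈ c.G1 := hle (step2_pow h1 ((hn n).2 dvd_rfl))
    obtain ⟨τ, hτ⟩ := c.mem_G1.1 h4
    rw [c.pull_eq hk h4 hτ, kap, kap,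
      c.chi_nu h2 hM.hP hM.ram (pow_mem hM.f1.mem_Dec n) (c.nu_of_mem hτ), sub_self]))
  have hzero := hη.eq_zero_of_op hW fun g hg hgW => by
    have h1 := hrig g hgW
    obtain ⟨τ, hτ⟩ := c.mem_G1.1 hg
    rw [Finset.sum_congr rfl (g := fun _ => c.pull (kap r) g - kap r g) fun j _ => ?_] at h1
    · rw [Finset.sum_const, Finset.card_range, nsmul_eq_mul] at h1
      exact (mul_eq_zero.1 h1).resolve_left (Nat.cast_ne_zero.2 hn0)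
    · obtain ⟨γ, hγ⟩ := c.nu_exists hs.1 (pow_mem hNF j)
      have h3 := (hγ.inv c g τ).1 hτ
      rw [inv_inv, inv_inv] at h3
      rw [c.pull_eq hk (c.mem_G1.2 ⟨_, h3⟩) h3, c.pull_eq hk hg hτ, step2_kap, step2_kap]
  intro σ τ h
  have h1 := hzero σ (c.mem_G1.2 ⟨τ, h⟩)
  rw [c.pull_eq hk (c.mem_G1.2 ⟨τ, h⟩) h] at h1
  exact sub_eq_zero.1 h1

end Corr
end Vale.Agent.P024U
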