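import Vale.Agent.P024U.Step1
import Vale.Agent.P024U.Step2
import Vale.Agent.P024U.HitB

/-! Equality of residue characteristics and the main theorem for correspondences.
`same_fin`: if infinitely many `l'` are bad (with `Q l'`), let `S l'` be the finite set of `fin_P`, `l' ∉ S l'`.  Choose greedily `2d + 1` bad primes with `l'_j ∉ S l'_i` for all `i, j` (`fin_P`, `fin_Q`).
`p > d` an odd prime, `res_prime` with `n0 = d!`, `S1` = the `l'_i`, `S2 = ⋃ S l'_i`, `r` large (`compat`).  `hit_bdd` gives a hit `Q_i`, by `P` with `ch P ∈ S2`; `same_char` with `φ^d ∈ G1`, `f = d`.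
`hitT`: `t` from `res_prime` and `compat`; `cheb` with `σ = 1` for the core of `W ⊓ G1 ⊓ G2`. -/

namespace Vale.Agent.P024U
theorem Step3_greedy (Bd : Set ℕ) (hB : Bd.Infinite) (S : ℕ → Set ℕ) (h1 : ∀ a ∈ Bd, (S a).Finite)
    (h2 : ∀ b, {a | a ∈ Bd ∧ b ∈ S a}.Finite) (h3 : ∀ a ∈ Bd, a ∉ S a) (n : ℕ) :
    ∃ T : Finset ℕ, (∀ a ∈ T, a ∈ Bd) ∧ T.card = n ∧ ∀ a ∈ T, ∀ b ∈ T, a ∉ S b := by
  induction n with
  | zero => exact ⟨∅, by simp, rfl, by simp⟩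
  | succ n ih =>
    obtain ⟨T, hT, hc, hS⟩ := ih
    have hf : ((T : Set ℕ) ∪ (⋃ b ∈ (T : Set ℕ), S b) ∪
        ⋃ b ∈ (T : Set ℕ), {a | a ∈ Bd ∧ b ∈ S a}).Finite :=
      (T.finite_toSet.union (T.finite_toSet.biUnion fun b hb => h1 b (hT b hb))).union
        (T.finite_toSet.biUnion fun b _ => h2 b)
    obtain ⟨a, haB, ha⟩ := (hB.sdiff hf).nonempty
    simp only [Set.mem_union, Set.mem_iUnion, Finset.mem_coe, not_or, not_exists,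
      Set.mem_ofPred_eq, not_and] at ha
    refine ⟨insert a T, fun x hx => ?_, by rw [Finset.card_insert_of_notMem ha.1.1, hc],
      fun x hx y hy => ?_⟩
    · rcases Finset.mem_insert.1 hx with rfl | hx
      · exact haB
      · exact hT x hx
    · rcases Finset.mem_insert.1 hx with rfl | hx' <;> rcases Finset.mem_insert.1 hy with rfl | hy'
      · exact h3 _ haB
      · exact ha.1.2 y hy'
      · exact ha.2 x hx' haB
      · exact hS x hx' y hy'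

namespace Corr
variable (c : Corr)

theorem same_fin (hs : c.Std) : {l' | ∃ Q, ch Q = l' ∧ Dec Q ≤ c.G2 ∧
    ¬ ∃ (P : Pr) (r : ℕ), ch P = l' ∧ r.Prime ∧ r ≠ 2 ∧ l' ≠ r ∧ c.Ram r P ∧ c.Maps P Q}.Finite := by
  by_contra hinf
  set Bd := {l' | ∃ Q, ch Q = l' ∧ Dec Q ≤ c.G2 ∧ ¬ ∃ (P : Pr) (r : ℕ), ch P = l' ∧ r.Prime ∧
    r ≠ 2 ∧ l' ≠ r ∧ c.Ram r P ∧ c.Maps P Q} with hBd
  obtain ⟨Q0, -⟩ := exists_pr 2 Nat.prime_two
  have hQ : ∀ l : ℕ, ∃ Q : Pr, l ∈ Bd → ch Q = l ∧ Dec Q ≤ c.G2 ∧ ¬ ∃ (P : Pr) (r : ℕ),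
      ch P = l ∧ r.Prime ∧ r ≠ 2 ∧ l ≠ r ∧ c.Ram r P ∧ c.Maps P Q := fun l => by
    by_cases h : l ∈ Bd
    · obtain ⟨Q, hQ⟩ := h
      exact ⟨Q, fun _ => hQ⟩
    · exact ⟨Q0, fun h' => absurd h' h⟩
  choose Q hQ using hQ
  set S : ℕ → Set ℕ := fun b => {l | ∃ (P : Pr) (r : ℕ), ch P = l ∧ r.Prime ∧ r ≠ 2 ∧ l ≠ r ∧
    c.Ram r P ∧ c.Maps P (Q b)} with hS
  have h1 : ∀ a ∈ Bd, (S a).Finite := fun a ha => c.fin_P hs (hQ a ha).2.1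
  obtain ⟨T, hT, hc, hTS⟩ := Step3_greedy Bd hinf S h1
    (fun b => (c.fin_Q b).subset fun a ha => by
      obtain ⟨haB, P, r, e1, e2⟩ := ha
      exact ⟨P, Q a, r, e1, (hQ a haB).1, e2⟩)
    (fun a ha => (hQ a ha).2.2) (2 * c.G1.index + 1)
  have hd : c.G1.index ≠ 0 := c.op_G1.index_ne_zero
  obtain ⟨p, hp1, hp⟩ := Nat.exists_infinite_primes (c.G1.index + 3)
  have hU : (⋃ b ∈ (T : Set ℕ), S b).Finite := T.finite_toSet.biUnion fun b hb => h1 b (hT b hb)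
  have hmem : ∀ l, l ∈ hU.toFinset ↔ ∃ b ∈ T, l ∈ S b := fun l => by simp
  obtain ⟨B, hB⟩ := c.compat hs
  obtain ⟨r, hr, hrB, hdvd, hr1, hr2⟩ := res_prime p hp (by omega) _
    (Nat.factorial_ne_zero c.G1.index) T hU.toFinset
    (fun l hl => (hQ l (hT l hl)).1 ▸ ch_prime _)
    (fun l hl => by
      obtain ⟨b, -, P, r, e, -⟩ := (hmem l).1 hl
      exact e ▸ ch_prime _)
    (Finset.disjoint_left.2 fun l hl hl' => by
      obtain ⟨b, hb, e⟩ := (hmem l).1 hl'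
      exact hTS l hl b hb e) (B + 2 + T.sup id)
  have : Fact r.Prime := ⟨hr⟩
  have h2 : r ≠ 2 := by omega
  have hcp : c.Compat r := hB r (by omega) ((Dvd.intro_left _ rfl).trans hdvd)
  obtain ⟨l, hl, hhit⟩ : ∃ l ∈ T, c.Hit r (Q l) := by
    by_contra hno
    have := c.hit_bdd h2 hs.2.1 hcp T fun l hl =>
      ⟨Q l, (hQ l (hT l hl)).1, fun h => hno ⟨l, hl, h⟩⟩
    omega
  obtain ⟨P, hP, hram, hmap⟩ := hhit
  have hl1 := (hQ l (hT l hl)).1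
  have hlr : ch (Q l) ≠ r := by
    have : l ≤ T.sup id := Finset.le_sup (f := id) hl
    omega
  obtain ⟨φ, hφ⟩ := exists_frob P
  have := hs.1
  obtain ⟨τ0, hτ0⟩ := c.mem_G1.1 (c.G1.pow_index_mem φ)
  have hφd := hφ.pow c.G1.index
  obtain ⟨τ, hτ, hR⟩ := Maps.exists c hmap hτ0 hφd.mem_Dec
  refine hr2 (ch P) ((hmem _).2 ⟨l, hl, P, r, rfl, hr, h2, hP, hram, hmap⟩)
    (c.same_char h2 hP hlr hram hφd hR hτ hp (fun h => ?_) (hl1.symm ▸ hr1 l hl))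
  have := Nat.le_of_dvd (by omega) h
  omega

theorem hitT (hs : c.Std) : ∃ (t : ℕ) (_ : Fact t.Prime), t ≠ 2 ∧ c.HitT t := by
  obtain ⟨B, hB⟩ := c.compat hs
  obtain ⟨t, ht, htB, hdvd, -, -⟩ := res_prime 3 Nat.prime_three (by norm_num) _
    (Nat.factorial_ne_zero c.G1.index) ∅ ∅ (by simp) (by simp) (by simp) (B + 2)
  have : Fact t.Prime := ⟨ht⟩
  have hcp : c.Compat t := hB t (by omega) ((Dvd.intro_left _ rfl).trans hdvd)
  refine ⟨t, inferInstance, by omega, fun W hW _ => ?_⟩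
  have hV : Op (W ⊓ c.G1 ⊓ c.G2).normalCore := ((hW.inf c.op_G1).inf c.op_G2).normalCore
  have hle := (W ⊓ c.G1 ⊓ c.G2).normalCore_le
  set V := (W ⊓ c.G1 ⊓ c.G2).normalCore with hVd
  obtain ⟨m, hm, hU⟩ := exists_unrOut hV
  have hfin : {l : ℕ | l ∣ m}.Finite :=
    (Set.finite_Iic m).subset fun l hl => Nat.le_of_dvd (Nat.pos_of_ne_zero hm) hl
  refine ((cheb hV 1).sdiff ((c.same_fin hs).union hfin)).mono ?_
  rintro l ⟨⟨Q, ψ, hQ, hψ, hψV, -⟩, hl⟩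
  rw [Subgroup.zpowers_one_eq_bot, sup_bot_eq] at hψV
  simp only [Set.mem_union, Set.mem_ofPred_eq, not_or] at hl
  have hD : Dec Q ≤ c.G2 := fun σ hσ => by
    obtain ⟨k, ρ, hρ, w, hw, -, rfl⟩ := dec_decomp hψ hV hσ
    exact (hle (V.mul_mem (V.mul_mem (V.pow_mem hψV k) (hU Q (hQ ▸ hl.2) hρ)) hw)).2
  obtain ⟨P, r, hP, -, -, -, -, hmap⟩ : ∃ (P : Pr) (r : ℕ), ch P = l ∧ r.Prime ∧ r ≠ 2 ∧ l ≠ r ∧
      c.Ram r P ∧ c.Maps P Q := by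
    by_contra hno
    exact hl.1 ⟨Q, hQ, hD, hno⟩
  obtain ⟨g, rfl⟩ := trans_ch Q P (hQ.trans hP.symm)
  have hφ := hψ.conj g
  have hφV : g * ψ * g⁻¹ ∈ V := Subgroup.Normal.conj_mem inferInstance ψ hψV g
  obtain ⟨τ0, hτ0⟩ := c.mem_G1.1 (hle hφV).1.2
  obtain ⟨τ, hτ, hR⟩ := Maps.exists c hmap hτ0 hφ.mem_Dec
  exact ⟨g • Q, Q, _, ψ, τ, hP, hQ, hφ, hψ, (hle hφV).1.1, (hle hψV).1.1, hR, hτ, hcp _ _ hR⟩

theorem main : ∃ j : Ga, ∀ σ ∈ c.G1, (σ, j⁻¹ * σ * j) ∈ c.R := by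
  obtain ⟨W, hW, hs⟩ := c.exists_std
  obtain ⟨t, _, ht, h⟩ := (c.res W hW).hitT hs
  exact c.final ht (HitT.of_res c h)

end Corr
end Vale.Agent.P024U
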