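import Vale.Agent.P024U.Spec
import Vale.Agent.P024U.Step3

/-! Reduction to correspondences.  `root_closed`: first the splitting field of `X^n - 1` in the algebraic closure is abelian (`IsCyclotomicExtension.isAbelianGalois` or `autToPow_injective`), so all roots of unity are in `E`;
then `E⟮y⟯` is Galois with commutative group (`σ ↦ σ y / y` is an injective homomorphism to `Eˣ`).
`uchida`: embeddings `ι i : E i →+* Om` (`IsAlgClosed.lift` over `ℚ`; `E i` is algebraic over `ℚ`), `R = {(σ, τ) | ∃ g, σ ∘ ι1 = ι1 ∘ g, τ ∘ ι2 = ι2 ∘ α g}`.  Closed: projection along the compact factor `Gal(E1/F1)` of a closed set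
(the Krull topology is pointwise convergence: evaluation maps to the discrete field are continuous).  `G1` = automorphisms fixing `ι1 F1` (restriction to the normal extension, make `Om` an `E1`-algebra;
`AlgHom.restrictNormal`), `G2` contains the automorphisms fixing `ι2` of a finite subextension whose fixing subgroup lies in the range of `α` (`krullTopology_mem_nhds_one_iff`).  `rc` from `root_closed`
(`Om` is an algebraic closure of `E2`, `fix N2 = ι2 E2` by `InfiniteGalois.fixedField_fixingSubgroup`-type statement or `IsGalois E2 Om`).  With `j0` from `Corr.main`, `j0 (ι2 y)` is fixed by all automorphisms over `ι1 E1`, so lies in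
`ι1 E1`; every `g` lifts to `σ` (`AlgEquiv.liftNormal` or `exists_ext`). -/

namespace Vale.Agent.P024U

theorem Red_ab {E : Type*} [Field E] [CharZero E] (h : SolvClosed E) (S : Set (AlgebraicClosure E))
    (h1 : ∀ σ : AlgebraicClosure E ≃ₐ[E] AlgebraicClosure E, ∀ z ∈ S, σ z ∈ S)
    (h2 : ∀ σ τ : AlgebraicClosure E ≃ₐ[E] AlgebraicClosure E, ∀ z ∈ S, σ (τ z) = τ (σ z)) :
    ∀ z ∈ S, z ∈ (algebraMap E (AlgebraicClosure E)).range := by
  haveI : Normal E (IntermediateField.adjoin E S) := by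
    refine IntermediateField.normal_iff_forall_map_le'.2 fun σ => ?_
    rw [IntermediateField.adjoin_map]
    refine IntermediateField.adjoin.mono _ _ _ ?_
    rintro _ ⟨z, hz, rfl⟩
    exact h1 σ z hz
  haveI : IsGalois E (IntermediateField.adjoin E S) := ⟨⟩
  haveI : IsMulCommutative (IntermediateField.adjoin E S ≃ₐ[E] IntermediateField.adjoin E S) := by
    refine ⟨⟨fun a b => ?_⟩⟩
    obtain ⟨σ, rfl⟩ := AlgEquiv.restrictNormalHom_surjective (AlgebraicClosure E) a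
    obtain ⟨τ, rfl⟩ := AlgEquiv.restrictNormalHom_surjective (AlgebraicClosure E) b
    rw [← map_mul, ← map_mul]
    refine AlgEquiv.coe_toAlgHom_injective (IntermediateField.adjoin_algHom_ext E fun x hx => ?_)
    refine Subtype.ext ?_
    exact ((AlgEquiv.restrictNormal_commutes (σ * τ) (IntermediateField.adjoin E S)
        ⟨x, IntermediateField.subset_adjoin _ _ hx⟩).trans (h2 σ τ x hx)).trans
      (AlgEquiv.restrictNormal_commutes (τ * σ) (IntermediateField.adjoin E S)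
        ⟨x, IntermediateField.subset_adjoin _ _ hx⟩).symm
  have h3 := h (IntermediateField.adjoin E S) (IsAbelianGalois.mk)
  intro z hz
  have h4 : z ∈ (⊥ : IntermediateField E (AlgebraicClosure E)) :=
    h3 ▸ IntermediateField.subset_adjoin _ _ hz
  exact IntermediateField.mem_bot.1 h4

theorem root_closed {E : Type*} [Field E] [CharZero E] (h : SolvClosed E) (y : AlgebraicClosure E)
    (n : ℕ) (hn : n ≠ 0) (hy : y ^ n ∈ (algebraMap E (AlgebraicClosure E)).range) :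
    y ∈ (algebraMap E (AlgebraicClosure E)).range := by
  have k1 := Red_ab h {z | z ^ n = 1}
    (fun σ z hz => by
      have hz' : z ^ n = 1 := hz
      show σ z ^ n = 1
      rw [← map_pow, hz', map_one])
    (fun σ τ z hz => by
      haveI : NeZero (orderOf z) :=
        ⟨(isOfFinOrder_iff_pow_eq_one.2 ⟨n, Nat.pos_of_ne_zero hn, hz⟩).orderOf_pos.ne'⟩
      have k : ∀ g : AlgebraicClosure E ≃ₐ[E] AlgebraicClosure E, ∃ i, z ^ i = g z := fun g =>
        ((IsPrimitiveRoot.orderOf z).eq_pow_of_pow_eq_one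
          (by rw [← map_pow, pow_orderOf_eq_one, map_one])).imp fun _ hi => hi.2
      obtain ⟨a, ha⟩ := k σ
      obtain ⟨b, hb⟩ := k τ
      rw [← hb, ← ha, map_pow, map_pow, ← ha, ← hb, ← pow_mul, ← pow_mul, mul_comm])
  obtain ⟨a, ha⟩ := hy
  have st : ∀ σ : AlgebraicClosure E ≃ₐ[E] AlgebraicClosure E, ∀ z, z ^ n = y ^ n →
      σ z ^ n = y ^ n := fun σ z hz => by rw [← map_pow, hz, ← ha, σ.commutes]
  refine Red_ab h {z | z ^ n = y ^ n} st (fun σ τ z hz => ?_) y rfl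
  by_cases h0 : z = 0
  · simp [h0]
  have k : ∀ g : AlgebraicClosure E ≃ₐ[E] AlgebraicClosure E, ∃ c : E,
      g z = algebraMap E (AlgebraicClosure E) c * z := fun g => by
    obtain ⟨c, hc⟩ := k1 (g z / z) (by
      show (g z / z) ^ n = 1
      rw [div_pow, st g z hz, ← (show z ^ n = y ^ n from hz), div_self (pow_ne_zero n h0)])
    exact ⟨c, by rw [hc, div_mul_cancel₀ _ h0]⟩
  obtain ⟨c, hc⟩ := k σ
  obtain ⟨d, hd⟩ := k τ
  rw [hc, hd, map_mul, map_mul, σ.commutes, τ.commutes, hc, hd, mul_left_comm]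

theorem Red_lc {F E : Type*} [Field F] [Field E] [Algebra F E] [IsGalois F E] (x : E) :
    IsLocallyConstant fun g : E ≃ₐ[F] E => g x := by
  refine (IsLocallyConstant.iff_exists_open _).2 fun g =>
    ⟨_, (stabilizer_isOpen_of_isIntegral (K := F) x).preimage (continuous_const_mul g⁻¹), ?_,
      fun a ha => ?_⟩
  · show g⁻¹ * g ∈ MulAction.stabilizer (E ≃ₐ[F] E) x
    rw [inv_mul_cancel]
    exact one_mem _
  · have h1 : (g⁻¹ * a) x = x := ha
    rw [← congrArg g h1, ← AlgEquiv.mul_apply, mul_inv_cancel_left]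

theorem Red_alg : Algebra.IsAlgebraic ℚ Om := AlgebraicClosure.isAlgebraic ℚ

theorem Red_gal : IsGalois ℚ Om := by
  haveI := Red_alg
  haveI : IsAlgClosure ℚ Om := ⟨inferInstance, inferInstance⟩
  infer_instance

theorem Red_closed {X Y : Type*} [TopologicalSpace X] {f g : X → Y} (hf : IsLocallyConstant f)
    (hg : IsLocallyConstant g) : IsClosed {x | f x = g x} :=
  isOpen_compl_iff.1 ((hf.prodMk hg) {p | p.1 ≠ p.2})

theorem Red_open (L : Type*) [Field L] [NumberField L] (f : L →+* Om) :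
    ∀ᶠ σ : Ga in nhds 1, ∀ a, σ (f a) = f a := by
  have b := Module.finBasis ℚ L
  have h1 : ∀ᶠ σ : Ga in nhds 1, ∀ i, σ (f (b i)) = f (b i) :=
    Filter.eventually_all.2 fun i => (op_stab (f (b i))).mem_nhds rfl
  filter_upwards [h1] with σ hσ a
  exact LinearMap.congr_fun (b.ext (f₁ := ((σ : Om →ₐ[ℚ] Om).comp f.toRatAlgHom).toLinearMap)
    (f₂ := f.toRatAlgHom.toLinearMap) hσ) a

theorem Red_emb (F E : Type*) [Field F] [NumberField F] [Field E] [Algebra F E] [IsGalois F E] :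
    ∃ ι : E →+* Om, (∀ g : E ≃ₐ[F] E, ∃ σ : Ga, ∀ x, σ (ι x) = ι (g x)) ∧
      (∀ σ : Ga, (∀ a : F, σ (ι (algebraMap F E a)) = ι (algebraMap F E a)) →
        ∃ g : E ≃ₐ[F] E, ∀ x, σ (ι x) = ι (g x)) ∧
      (∀ z : Om, (∀ σ : Ga, (∀ x, σ (ι x) = ι x) → σ z = z) → ∃ x, ι x = z) ∧
      (SolvClosed E → ∀ (y : Om) (n : ℕ), n ≠ 0 → (∃ x, ι x = y ^ n) → ∃ x, ι x = y) := by
  haveI : CharZero E := charZero_of_injective_algebraMap (algebraMap F E).injective
  haveI : Algebra.IsAlgebraic ℚ E := Algebra.IsAlgebraic.trans ℚ F E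
  let ι : E →+* Om := (IsAlgClosed.lift : E →ₐ[ℚ] Om).toRingHom
  letI : Algebra E Om := ι.toAlgebra
  letI : Algebra F Om := (ι.comp (algebraMap F E)).toAlgebra
  haveI : IsScalarTower F E Om := IsScalarTower.of_algebraMap_eq fun _ => rfl
  haveI := Red_alg
  haveI : Algebra.IsAlgebraic E Om := Algebra.IsAlgebraic.tower_top (K := ℚ) E
  haveI : Algebra.IsAlgebraic F Om := Algebra.IsAlgebraic.tower_top (K := ℚ) F
  haveI : IsAlgClosure E Om := ⟨inferInstance, inferInstance⟩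
  haveI : IsAlgClosure F Om := ⟨inferInstance, inferInstance⟩
  refine ⟨ι, fun g => ⟨(g.liftNormal Om).restrictScalars ℚ, fun x => g.liftNormal_commutes Om x⟩,
    fun σ hσ => ?_, fun z hz => ?_, fun h y n hn hy => ?_⟩
  · let σ' : Om ≃ₐ[F] Om := { σ with commutes' := hσ }
    exact ⟨σ'.restrictNormal E, fun x => (σ'.restrictNormal_commutes E x).symm⟩
  · exact (InfiniteGalois.mem_range_algebraMap_iff_fixed (k := E) z).2 fun f =>
      hz (f.restrictScalars ℚ) f.commutes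
  · let e : Om ≃ₐ[E] AlgebraicClosure E := IsAlgClosure.equiv E Om (AlgebraicClosure E)
    obtain ⟨x, hx⟩ := hy
    obtain ⟨w, hw⟩ := root_closed h (e y) n hn ⟨x, by rw [← map_pow, ← hx, ← e.commutes]; rfl⟩
    exact ⟨w, e.injective ((e.commutes w).trans hw)⟩

theorem uchida (F1 F2 E1 E2 : Type*) [Field F1] [NumberField F1] [Field F2] [NumberField F2]
    [Field E1] [Field E2] [Algebra F1 E1] [Algebra F2 E2] [IsGalois F1 E1] [IsGalois F2 E2]
    (h2 : SolvClosed E2) (α : (E1 ≃ₐ[F1] E1) →* (E2 ≃ₐ[F2] E2)) (hc : Continuous α)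
    (ho : IsOpen (Set.range α)) :
    ∃ j : E2 →+* E1, ∀ (g : E1 ≃ₐ[F1] E1) (x : E2), g (j x) = j (α g x) := by
  haveI := Red_gal
  obtain ⟨ι1, a1, b1, c1, -⟩ := Red_emb F1 E1
  obtain ⟨ι2, a2, b2, c2, d2⟩ := Red_emb F2 E2
  let R : Subgroup (Ga × Ga) :=
    { carrier := {p | ∃ g : E1 ≃ₐ[F1] E1,
        (∀ x, p.1 (ι1 x) = ι1 (g x)) ∧ ∀ y, p.2 (ι2 y) = ι2 (α g y)}
      one_mem' := ⟨1, fun _ => rfl, fun y => by rw [map_one]; rfl⟩
      mul_mem' := by
        rintro p q ⟨g, h1, h2⟩ ⟨g', h1', h2'⟩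
        refine ⟨g * g', fun x => ?_, fun y => ?_⟩
        · rw [Prod.fst_mul, AlgEquiv.mul_apply, h1', h1, AlgEquiv.mul_apply]
        · rw [Prod.snd_mul, AlgEquiv.mul_apply, h2', h2, map_mul, AlgEquiv.mul_apply]
      inv_mem' := by
        rintro p ⟨g, h1, h2⟩
        refine ⟨g⁻¹, fun x => p.1.injective ?_, fun y => p.2.injective ?_⟩
        · rw [h1, ← AlgEquiv.mul_apply, ← AlgEquiv.mul_apply, Prod.fst_inv, mul_inv_cancel,
            mul_inv_cancel]
          rfl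
        · rw [h2, ← AlgEquiv.mul_apply, ← AlgEquiv.mul_apply, Prod.snd_inv, ← map_mul,
            mul_inv_cancel, mul_inv_cancel, map_one]
          rfl }
  have hR : ∀ p : Ga × Ga, p ∈ R ↔ ∃ g : E1 ≃ₐ[F1] E1,
      (∀ x, p.1 (ι1 x) = ι1 (g x)) ∧ ∀ y, p.2 (ι2 y) = ι2 (α g y) := fun _ => Iff.rfl
  have uniq : ∀ (σ : Ga) (g g' : E1 ≃ₐ[F1] E1), (∀ x, σ (ι1 x) = ι1 (g x)) →
      (∀ x, σ (ι1 x) = ι1 (g' x)) → g = g' := fun σ g g' h h' =>
    AlgEquiv.ext fun x => ι1.injective ((h x).symm.trans (h' x))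
  have hN : ∀ τ : Ga, ((1 : Ga), τ) ∈ R ↔ ∀ y, τ (ι2 y) = ι2 y := fun τ => by
    refine ⟨fun ⟨g, h1, h2⟩ y => ?_, fun h => ⟨1, fun _ => rfl, fun y => ?_⟩⟩
    · rw [uniq 1 g 1 h1 fun _ => rfl, map_one] at h2
      exact h2 y
    · rw [map_one]
      exact h y
  have cl : IsClosed (R : Set (Ga × Ga)) := by
    have h1 : IsClosed {q : (E1 ≃ₐ[F1] E1) × Ga × Ga |
        (∀ x, q.2.1 (ι1 x) = ι1 (q.1 x)) ∧ ∀ y, q.2.2 (ι2 y) = ι2 (α q.1 y)} := by
      simp only [Set.setOf_and, Set.setOf_forall]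
      exact (isClosed_iInter fun x => Red_closed
          ((Red_lc (ι1 x)).comp_continuous continuous_snd.fst)
          (((Red_lc x).comp ι1).comp_continuous continuous_fst)).inter
        (isClosed_iInter fun y => Red_closed
          ((Red_lc (ι2 y)).comp_continuous continuous_snd.snd)
          (((Red_lc y).comp ι2).comp_continuous (hc.comp continuous_fst)))
    have h3 := isClosedMap_snd_of_compactSpace _ h1
    refine Eq.subst (motive := IsClosed) (Set.ext fun p => ?_) h3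
    exact ⟨fun ⟨q, hq, e⟩ => e ▸ ⟨q.1, hq⟩, fun ⟨g, hg⟩ => ⟨(g, p), hg, rfl⟩⟩
  have o1 : Op (R.map (MonoidHom.fst Ga Ga)) := by
    refine Subgroup.isOpen_of_mem_nhds _ (g := 1) ?_
    filter_upwards [Red_open F1 (ι1.comp (algebraMap F1 E1))] with σ hσ
    obtain ⟨g, hg⟩ := b1 σ hσ
    obtain ⟨τ, hτ⟩ := a2 (α g)
    exact ⟨(σ, τ), ⟨g, hg, hτ⟩, rfl⟩
  have o2 : Op (R.map (MonoidHom.snd Ga Ga)) := by
    obtain ⟨L, hL, hs⟩ := (krullTopology_mem_nhds_one_iff F2 E2 _).1 (ho.mem_nhds ⟨1, map_one α⟩)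
    haveI : NumberField L := NumberField.of_module_finite F2 L
    refine Subgroup.isOpen_of_mem_nhds _ (g := 1) ?_
    filter_upwards [Red_open L (ι2.comp (algebraMap L E2))] with τ hτ
    obtain ⟨h, hh⟩ := b2 τ fun a => hτ (algebraMap F2 L a)
    obtain ⟨g, rfl⟩ := hs (show h ∈ L.fixingSubgroup from
      (IntermediateField.mem_fixingSubgroup_iff _ _).2 fun x hx =>
        ι2.injective ((hh x).symm.trans (hτ ⟨x, hx⟩)))
    obtain ⟨σ, hσ⟩ := a1 g
    exact ⟨(σ, τ), ⟨g, hσ, hh⟩, rfl⟩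
  let c : Corr := ⟨R, cl, o1, o2, fun y n hn h τ hτ => by
    obtain ⟨x, rfl⟩ := d2 h2 y n hn (c2 _ fun σ hσ => h σ ((hN σ).2 hσ))
    exact (hN τ).1 hτ x⟩
  obtain ⟨j0, hj0⟩ := c.main
  have key : ∀ (σ : Ga) (g : E1 ≃ₐ[F1] E1), (∀ x, σ (ι1 x) = ι1 (g x)) →
      ∀ y, σ (j0 (ι2 y)) = j0 (ι2 (α g y)) := fun σ g hg y => by
    obtain ⟨τ, hτ⟩ := a2 (α g)
    obtain ⟨g', h1, h3⟩ := (hR _).1 (hj0 σ ⟨(σ, τ), ⟨g, hg, hτ⟩, rfl⟩)
    rw [uniq σ g g' hg h1, ← h3 y, ← AlgEquiv.mul_apply j0, mul_assoc, mul_inv_cancel_left,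
      AlgEquiv.mul_apply]
  choose j hj using fun y => c1 (j0 (ι2 y)) fun σ hσ => by
    rw [key σ 1 hσ, map_one]
    rfl
  refine ⟨⟨⟨⟨j, ι1.injective ?_⟩, fun x y => ι1.injective ?_⟩, ι1.injective ?_,
    fun x y => ι1.injective ?_⟩, fun g x => ι1.injective ?_⟩
  · simp only [hj, map_one]
  · simp only [hj, map_mul]
  · simp only [hj, map_zero]
  · simp only [hj, map_add]
  · obtain ⟨σ, hσ⟩ := a1 g
    show ι1 (g (j x)) = ι1 (j (α g x))
    rw [← hσ, hj, hj, key σ g hσ]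

end Vale.Agent.P024U
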