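import Mathlib

/-! Rigid elements give a valuation (Arason-Elman-Jacob), odd case.
Call `s` small if `s ∉ H` and `1 + s ∈ T`.  S0: for `s ∉ H` exactly one of `s, s⁻¹` is small.
S1: small s → small (-s) (else 1 - s² = (1+s)(1-s) ∈ sT but also ∈ T ∪ s²T).
S2: small x, y → 1 - xy ∈ T: 1 - xy = (1+x) - x(1+y) ∈ T ∪ xT (apply hR to -x(1+y)/(1+x)),
symmetrically ∈ T ∪ yT, and if xy ∉ H also ∈ T ∪ xyT; if xy ∈ H then xT ≠ yT.
S3: small x, y, xy ∉ H → small (xy).  S4: small x, y → small (x(1+y)) (else u = (x(1+y))⁻¹ is small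
and 1 - xu = y/(1+y) ∈ T).  O⁺ = {x ∈ H | x·small is small}.  S5: small x, y, xy ∈ H → xy ∈ O⁺
(for small z one of yz, xz is outside H).  V = {0} ∪ small ∪ O⁺ is closed under products; x ∈ H \ O⁺
gives small s with u = (xs)⁻¹ small, so x⁻¹ = us ∈ O⁺.  x ∈ V → 1 + x ∈ V: x small by S4; x ∈ O⁺:
if 1+x ∉ H were not small, u = (1+x)⁻¹ small, -xu small, 1 - xu = u ∈ T; if 1+x ∈ H and s small,
1/(1+s) = 1 + (-s/(1+s)) ∈ O⁺ by S4 so xs/(1+s) is small and 1+(1+x)s = (1+s)(1+xs/(1+s)) ∈ T.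
a + b = a(1 + b/a) or b(1 + a/b).  Nonunits: small, or m = us with u, s small, 1+m ∈ T by S1, S2. -/

namespace Vale.Agent.P024U

/-- The hypotheses as predicates on the field. -/
structure RigD {K : Type*} [Field K] (t h : K → Prop) : Prop where
  th : ∀ {x}, t x → h x
  h0 : ∀ {x}, h x → x ≠ 0
  tm : ∀ {x y}, t x → t y → t (x * y)
  ti : ∀ {x}, t x → t x⁻¹
  hm : ∀ {x y}, h x → h y → h (x * y)
  hi : ∀ {x}, h x → h x⁻¹
  tn : t (-1)
  r : ∀ {x}, x ≠ 0 → ¬ h x → t (1 + x) ∨ t ((1 + x) * x⁻¹)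
  odd : ∀ {x}, h (x ^ 2) → h x

/-- small elements -/
def rigS {K : Type*} [Field K] (t h : K → Prop) (s : K) : Prop := s ≠ 0 ∧ ¬ h s ∧ t (1 + s)

/-- multipliers of small elements -/
def rigO {K : Type*} [Field K] (t h : K → Prop) (x : K) : Prop :=
  h x ∧ ∀ s, rigS t h s → rigS t h (x * s)

namespace RigD

variable {K : Type*} [Field K] {t h : K → Prop} (D : RigD t h) {x y s : K}
include D

theorem t0 (hx : t x) : x ≠ 0 := D.h0 (D.th hx)

theorem t1 : t 1 := by simpa using D.tm D.tn D.tn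

theorem hn (hx : h (-x)) : h x := by simpa using D.hm (D.th D.tn) hx

theorem hc (hx : h x) (hy : h (x * y)) : h y := by
  simpa [← mul_assoc, inv_mul_cancel₀ (D.h0 hx)] using D.hm (D.hi hx) hy

theorem s0 (h0 : s ≠ 0) (hs : ¬ h s) : rigS t h s ∨ rigS t h s⁻¹ :=
  (D.r h0 hs).imp (fun a => ⟨h0, hs, a⟩) fun a =>
    ⟨inv_ne_zero h0, fun b => hs (inv_inv s ▸ D.hi b), by convert a using 1; field_simp; ring⟩

theorem s0' (a : rigS t h s) (b : rigS t h s⁻¹) : False := by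
  have := a.1
  refine a.2.1 (D.hc (D.th b.2.2) ?_)
  convert D.th a.2.2 using 1
  field_simp
  ring

theorem s1 (a : rigS t h s) : rigS t h (-s) := by
  have h0 := a.1
  have hs : ¬ h (-s) := fun b => a.2.1 (D.hn b)
  refine ⟨neg_ne_zero.2 h0, hs, (D.r (neg_ne_zero.2 h0) hs).elim id fun b => ?_⟩
  have c := D.th (D.tm a.2.2 b)
  refine absurd (inv_inv s ▸ D.hi ?_) a.2.1
  rcases D.r (x := -s ^ 2) (by simpa using h0) fun c => a.2.1 (D.odd (D.hn c)) with e | e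
  · refine D.hn (D.hc (D.th e) ?_)
    convert c using 1
    field_simp
    ring
  · refine D.hc c ?_
    convert D.th e using 1
    field_simp
    ring

theorem s2a (a : rigS t h x) (b : rigS t h y) : t (1 - x * y) ∨ t ((1 - x * y) * x⁻¹) := by
  have h0 := a.1
  have h1 := D.t0 a.2.2
  have h2 := D.t0 b.2.2
  have c := D.tm D.tn (D.tm b.2.2 (D.ti a.2.2))
  refine (D.r (mul_ne_zero (D.t0 c) h0) fun e => a.2.1 (D.hc (D.th c) e)).imp
    (fun e => ?_) fun e => ?_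
  · convert D.tm a.2.2 e using 1
    field_simp
    ring
  · convert D.tm (D.tm D.tn b.2.2) e using 1
    field_simp
    ring

theorem s2 (a : rigS t h x) (b : rigS t h y) : t (1 - x * y) := by
  have h0 := a.1
  have h1 := b.1
  refine (D.s2a a b).elim id fun c => (D.s2a b a).elim (mul_comm x y ▸ id) fun e => ?_
  by_cases g : h (x * y)
  · refine absurd (D.odd (D.hc (D.th c) ?_)) a.2.1
    convert D.hm g (D.th e) using 1
    field_simp
  · refine (D.r (neg_ne_zero.2 (mul_ne_zero h0 h1)) fun k => g (D.hn k)).elim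
      (sub_eq_add_neg 1 (x * y) ▸ id) fun k => absurd (D.hn (D.hc (D.th k) ?_)) b.2.1
    convert D.th c using 1
    field_simp
    ring

theorem s3 (a : rigS t h x) (b : rigS t h y) (c : ¬ h (x * y)) : rigS t h (x * y) :=
  ⟨mul_ne_zero a.1 b.1, c, by simpa using D.s2 a (D.s1 b)⟩

theorem s4 (a : rigS t h x) (b : rigS t h y) : rigS t h ((1 + y) * x) := by
  have h0 := a.1
  have h2 := D.t0 b.2.2
  refine (D.s0 (mul_ne_zero h2 h0) fun e => a.2.1 (D.hc (D.th b.2.2) e)).elim id fun e => ?_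
  refine absurd ?_ b.2.1
  convert D.th (D.tm b.2.2 (D.s2 a e)) using 1
  field_simp
  ring

theorem s5 (a : rigS t h x) (b : rigS t h y) (c : h (x * y)) : rigO t h (x * y) := by
  refine ⟨c, fun z e => ?_⟩
  have n : ¬ h (x * y * z) := fun k => e.2.1 (D.hc c k)
  by_cases g : h (y * z)
  · have := D.s3 b (D.s3 a e fun k => a.2.1 (D.odd (D.hc g ?_))) (by rwa [← mul_assoc, mul_comm y])
    · rwa [← mul_assoc, mul_comm y] at this
    · convert D.hm c k using 1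
      ring
  · rw [mul_assoc] at n ⊢
    exact D.s3 a (D.s3 b e g) n

theorem s6 (a : h x) (b : ¬ rigO t h x) : ∃ u s, rigS t h u ∧ rigS t h s ∧ x⁻¹ = u * s := by
  obtain ⟨s, c, e⟩ : ∃ s, rigS t h s ∧ ¬ rigS t h (x * s) := by simpa [rigO, a] using b
  have h0 := c.1
  refine ⟨_, s, (D.s0 (mul_ne_zero (D.h0 a) h0) fun k => c.2.1 (D.hc a k)).resolve_left e, c, ?_⟩
  field_simp

theorem mul (a : x = 0 ∨ rigS t h x ∨ rigO t h x) (b : y = 0 ∨ rigS t h y ∨ rigO t h y) :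
    x * y = 0 ∨ rigS t h (x * y) ∨ rigO t h (x * y) := by
  rcases a with rfl | a | a
  · exact .inl (zero_mul _)
  · rcases b with rfl | b | b
    · exact .inl (mul_zero _)
    · exact .inr ((em _).symm.imp (D.s3 a b) (D.s5 a b))
    · exact .inr (.inl (mul_comm x y ▸ b.2 x a))
  · rcases b with rfl | b | b
    · exact .inl (mul_zero _)
    · exact .inr (.inl (a.2 y b))
    · exact .inr (.inr ⟨D.hm a.1 b.1, fun s c => mul_assoc x y s ▸ a.2 _ (b.2 s c)⟩)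

theorem tot (x : K) :
    (x = 0 ∨ rigS t h x ∨ rigO t h x) ∨ (x⁻¹ = 0 ∨ rigS t h x⁻¹ ∨ rigO t h x⁻¹) := by
  by_cases h0 : x = 0
  · exact .inl (.inl h0)
  by_cases a : h x
  · refine (em (rigO t h x)).imp (fun b => .inr (.inr b)) fun b => .inr (.inr ?_)
    obtain ⟨u, s, c, e, k⟩ := D.s6 a b
    exact k ▸ D.s5 c e (k ▸ D.hi a)
  · exact (D.s0 h0 a).imp (fun b => .inr (.inl b)) fun b => .inr (.inl b)

theorem one : rigO t h 1 := ⟨D.th D.t1, fun s a => (one_mul s).symm ▸ a⟩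

theorem succ (a : x = 0 ∨ rigS t h x ∨ rigO t h x) :
    1 + x = 0 ∨ rigS t h (1 + x) ∨ rigO t h (1 + x) := by
  rcases a with rfl | a | a
  · exact .inr (.inr ((add_zero (1 : K)).symm ▸ D.one))
  · exact .inr (.inr ⟨D.th a.2.2, fun s b => D.s4 b a⟩)
  refine (em _).imp_right fun h0 => (em (h (1 + x))).symm.imp (fun b => ?_) fun b => ⟨b, ?_⟩
  · refine (D.s0 h0 b).elim id fun c => absurd ?_ c.2.1
    convert D.th (a.2 _ (D.s1 c)).2.2 using 1
    field_simp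
    ring
  · intro s c
    have h1 := D.t0 c.2.2
    have e : rigS t h (-((1 + s)⁻¹ * s)) :=
      ⟨neg_ne_zero.2 (mul_ne_zero (inv_ne_zero h1) c.1),
        fun k => c.2.1 (D.hc (D.th (D.ti c.2.2)) (D.hn k)), by
          convert D.ti c.2.2 using 1
          field_simp
          ring⟩
    refine ⟨mul_ne_zero h0 c.1, fun k => c.2.1 (D.hc b k), ?_⟩
    convert D.tm c.2.2 (a.2 _ (D.s1 e)).2.2 using 1
    field_simp
    ring

/-- the valuation ring -/
def V : ValuationSubring K where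
  carrier := {x | x = 0 ∨ rigS t h x ∨ rigO t h x}
  mul_mem' := D.mul
  one_mem' := .inr (.inr D.one)
  zero_mem' := .inl rfl
  neg_mem' {x} a := neg_one_mul x ▸
    D.mul (.inr (.inr ⟨D.th D.tn, fun s b => (neg_one_mul s).symm ▸ D.s1 b⟩)) a
  add_mem' {a b} ha hb := by
    by_cases h0 : a = 0
    · rwa [h0, zero_add]
    by_cases h1 : b = 0
    · rwa [h1, add_zero]
    rcases D.tot (b / a) with e | e
    · rw [show a + b = a * (1 + b / a) by field_simp]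
      exact D.mul ha (D.succ e)
    · rw [show a + b = b * (1 + (b / a)⁻¹) by field_simp; ring]
      exact D.mul hb (D.succ e)
  mem_or_inv_mem' := D.tot

theorem main (h0 : x ≠ 0) (hx : ¬ h x) : D.V ≠ ⊤ ∧ ∀ m : K, D.V.valuation m < 1 → t (1 + m) := by
  refine ⟨fun e => ?_, fun m hm => ?_⟩
  · obtain ⟨s, a⟩ : ∃ s, rigS t h s := (D.s0 h0 hx).elim (⟨_, ·⟩) (⟨_, ·⟩)
    rcases show s⁻¹ ∈ D.V from e ▸ ValuationSubring.mem_top _ with b | b | b
    exacts [inv_ne_zero a.1 b, D.s0' a b, a.2.1 (inv_inv s ▸ D.hi b.1)]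
  rcases eq_or_ne m 0 with rfl | h1
  · exact (add_zero (1 : K)).symm ▸ D.t1
  have e := (D.V.mem_nonunits_iff_or.1 (D.V.mem_nonunits_iff.2 hm)).resolve_left h1
  by_cases a : h m
  · obtain ⟨u, s, b, c, k⟩ := D.s6 (D.hi a) fun b => e (.inr (.inr b))
    rw [inv_inv] at k
    simpa [k] using D.s2 b (D.s1 c)
  · exact ((D.s0 h1 a).resolve_right fun b => e (.inr (.inl b))).2.2

end RigD

theorem rig_val {K : Type*} [Field K] (T H : Subgroup Kˣ) (hTH : T ≤ H) (hneg : (-1 : Kˣ) ∈ T)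
    (hR : ∀ x : Kˣ, x ∉ H → ∃ y : Kˣ, (y : K) = 1 + x ∧ (y ∈ T ∨ y / x ∈ T))
    (hodd : ∀ x : Kˣ, x ^ 2 ∈ H → x ∈ H) (hH : H ≠ ⊤) :
    ∃ V : ValuationSubring K, V ≠ ⊤ ∧
      ∀ m : K, V.valuation m < 1 → ∃ y ∈ T, (y : K) = 1 + m := by
  have D : RigD (fun x : K => ∃ y ∈ T, (y : K) = x) fun x => ∃ y ∈ H, (y : K) = x := by
    refine ⟨fun ⟨y, a, b⟩ => ⟨y, hTH a, b⟩, fun ⟨y, _, b⟩ => b ▸ y.ne_zero,
      fun ⟨y, a, b⟩ ⟨z, c, e⟩ => ⟨_, T.mul_mem a c, by rw [← b, ← e, Units.val_mul]⟩,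
      fun ⟨y, a, b⟩ => ⟨_, T.inv_mem a, by rw [← b, Units.val_inv_eq_inv_val]⟩,
      fun ⟨y, a, b⟩ ⟨z, c, e⟩ => ⟨_, H.mul_mem a c, by rw [← b, ← e, Units.val_mul]⟩,
      fun ⟨y, a, b⟩ => ⟨_, H.inv_mem a, by rw [← b, Units.val_inv_eq_inv_val]⟩,
      ⟨_, hneg, by simp⟩, fun {x} h0 a => ?_, fun {x} ⟨y, a, b⟩ => ?_⟩
    · obtain ⟨y, b, c⟩ := hR (Units.mk0 x h0) fun e => a ⟨_, e, rfl⟩
      exact c.imp (fun e => ⟨_, e, b⟩) fun e => ⟨_, e, by simp [b, div_eq_mul_inv]⟩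
    · have h0 : x ≠ 0 := fun e => y.ne_zero (by simp [b, e])
      exact ⟨Units.mk0 x h0, hodd _ (by convert a using 1; ext; simp [b]), rfl⟩
  obtain ⟨x, hx⟩ : ∃ x, x ∉ H := by simpa [Subgroup.eq_top_iff'] using hH
  exact ⟨_, D.main x.ne_zero fun ⟨y, a, b⟩ => hx (Units.ext b ▸ a)⟩

end Vale.Agent.P024U
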