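import Mathlib

namespace Vale.Agent.P024U

/-- a field is solvably closed if it has no nontrivial abelian algebraic extension -/
def SolvClosed (E : Type*) [Field E] : Prop :=
  ∀ L : IntermediateField E (AlgebraicClosure E), IsAbelianGalois E L → L = ⊥

end Vale.Agent.P024U
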