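import Vale.Agent.P024U.NU
import Vale.Agent.P024U.LemM

/-! Isolating the normalizer part.  `η = pull θ`.  `rigid` gives `∑_(j<n) η (φ^(-j) x φ^j) = 0` on `W`.  If `φ^j ∈ NF` then `φ^j ∈ W ⊔ zpowers g` and the term equals `η x`
(the elements `a` with `η (a⁻¹ x a) = η x` for all `x ∈ W` form a subgroup containing `W` and `g`; for `g` use `NU`).  For `h ∈ MM` and `φ^j ∉ NF` the character `x ↦ η (φ^(-j) x φ^j)` kills
`W ∩ φ^j N1 φ^(-j)`, which contains `x⁻¹ h⁻¹ x h`.  Subtract the relations for `x` and `h⁻¹ x h`; the number of `j` with `φ^j ∈ NF` is positive (`j = 0`).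
`fin_Q`: `orbits_finite` for `G1`, `Maps.smul`, `Ram.smul`, `maps_unique`, `ch_smul`. -/

namespace Vale.Agent.P024U
namespace Corr
variable (c : Corr)

theorem star_pow {W : Subgroup Ga} [W.Normal] {φ ψ : Ga} (h : φ⁻¹ * ψ ∈ W) (j : ℕ) :
    (φ ^ j)⁻¹ * ψ ^ j ∈ W :=
  QuotientGroup.eq.1 (by rw [QuotientGroup.mk_pow, QuotientGroup.mk_pow, QuotientGroup.eq.2 h])

theorem star_conj {W : Subgroup Ga} [hW : W.Normal] {x : Ga} (h : x ∈ W) (g : Ga) :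
    g⁻¹ * x * g ∈ W := hW.conj_mem' x h g

theorem star {t : ℕ} [Fact t.Prime] (ht : t ≠ 2) (hs : c.Std) {W : Subgroup Ga} (hW : Op W)
    [W.Normal] (hle : W ≤ c.G1) {θ : Ga → ℚ_[t]} (hθ : IsX (c.im W) θ) (φ : Ga) {n : ℕ}
    (hn : ∀ j : ℕ, φ ^ j ∈ W ↔ n ∣ j)
    (h : {l | ∃ (P : Pr) (ψ : Ga), ch P = l ∧ IsFrob P 1 ψ ∧ φ⁻¹ * ψ ∈ W ∧
      ∀ τ, (ψ ^ n, τ) ∈ c.R → θ τ = 0}.Infinite)
    {g γ : Ga} (hnu : c.NU g γ) (hg : ∀ j : ℕ, φ ^ j ∈ c.NF → φ ^ j ∈ W ⊔ Subgroup.zpowers g)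
    (hγ : ∀ x ∈ c.im W, θ (γ⁻¹ * x * γ) = θ x) :
    ∀ a ∈ c.im c.MM, ∀ x ∈ c.im W, θ (a⁻¹ * x * a) = θ x := by
  classical
  have hη := c.isX_pull hW.cl hle hθ
  have h1 := rigid ht hW (hle.trans hs.2.1) hη φ hn (h.mono (by
    rintro l ⟨P, ψ, h1, h2, h3, h4⟩
    refine ⟨P, ψ, h1, h2, h3, ?_⟩
    unfold pull
    split_ifs with h5
    exacts [h4 _ h5.choose_spec, rfl]))
  have n0 : n ≠ 0 := ne_zero_of_dvd_ne_zero hW.index_ne_zero ((hn _).1 (W.pow_index_mem φ))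
  let K : Subgroup Ga :=
    { carrier := {a | ∀ x ∈ W, c.pull θ (a⁻¹ * x * a) = c.pull θ x}
      one_mem' := fun x _ => by simp
      mul_mem' := fun {a b} ha hb x hx => by
        rw [← ha x hx, ← hb _ (star_conj hx a)]
        simp only [mul_inv_rev, mul_assoc]
      inv_mem' := fun {a} ha x hx => by
        rw [← ha _ (star_conj hx a⁻¹)]
        simp only [inv_inv, mul_assoc, inv_mul_cancel, mul_one, inv_mul_cancel_left] }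
  have hK : W ⊔ Subgroup.zpowers g ≤ K := by
    refine sup_le (fun a ha x hx => hη.conj_self ha hx) (Subgroup.zpowers_le.2 fun x hx => ?_)
    obtain ⟨τ, hτ⟩ := c.mem_G1.1 (hle hx)
    have h2 := (NU.inv c hnu x τ).1 hτ
    rw [inv_inv, inv_inv] at h2
    rw [c.pull_eq hθ (star_conj hx g) h2, c.pull_eq hθ hx hτ, hγ τ (c.mem_im.2 ⟨x, hx, hτ⟩)]
  intro a ha x hx
  obtain ⟨b, hb, hba⟩ := c.mem_im.1 ha
  obtain ⟨y, hy, hyx⟩ := c.mem_im.1 hx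
  have hz : y⁻¹ * (b⁻¹ * y * b) ∈ W := mul_mem (inv_mem hy) (star_conj hy b)
  have h2 : ∀ j : ℕ, c.pull θ ((φ ^ j)⁻¹ * (y⁻¹ * (b⁻¹ * y * b)) * φ ^ j) =
      if φ ^ j ∈ c.NF then c.pull θ (y⁻¹ * (b⁻¹ * y * b)) else 0 := fun j => by
    split_ifs with h3
    · exact hK (hg j h3) _ hz
    · obtain ⟨ν, hν, e⟩ := Subgroup.mem_map.1
        (Subgroup.mem_iInf.1 (Subgroup.mem_iInf.1 hb.2 (φ ^ j)) h3)
      have h4 : (φ ^ j)⁻¹ * (y⁻¹ * (b⁻¹ * y * b)) * φ ^ j ∈ c.N1 := by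
        have h5 := mul_mem (c.conj_mem_N1 (inv_mem (hle (star_conj hy (φ ^ j)))) (inv_mem hν)) hν
        rw [← e, MulEquiv.coe_toMonoidHom, MulAut.conj_apply]
        generalize φ ^ j = u at h5 ⊢
        have e1 : u⁻¹ * (y⁻¹ * ((u * ν * u⁻¹)⁻¹ * y * (u * ν * u⁻¹))) * u =
            (u⁻¹ * y * u)⁻¹ * ν⁻¹ * (u⁻¹ * y * u)⁻¹⁻¹ * ν := by group
        rwa [e1]
      rw [c.pull_eq hθ (star_conj hz _) (c.mem_N1.1 h4), hθ.one]
  have h3 := h1 _ hz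
  simp only [h2] at h3
  rw [← Finset.sum_filter, Finset.sum_const, smul_eq_zero] at h3
  have h4 := h3.resolve_left (Finset.card_ne_zero.2 ⟨0, Finset.mem_filter.2
    ⟨Finset.mem_range.2 (Nat.pos_of_ne_zero n0), by rw [pow_zero]; exact one_mem _⟩⟩)
  rw [hη.2 _ (inv_mem hy) _ (star_conj hy b), hη.inv hy, neg_add_eq_zero, c.pull_eq hθ hy hyx,
    c.pull_eq hθ (star_conj hy b) (mul_mem (mul_mem (inv_mem hba) hyx) hba)] at h4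
  exact h4.symm

theorem fin_Q (l : ℕ) : {l' | ∃ (P Q : Pr) (r : ℕ), ch P = l ∧ ch Q = l' ∧ r.Prime ∧ r ≠ 2 ∧
    l ≠ r ∧ c.Ram r P ∧ c.Maps P Q}.Finite := by
  obtain ⟨S, -, hS⟩ := orbits_finite c.op_G1 l
  refine (S.finite_toSet.biUnion (t := fun P => {l' | ∃ (Q : Pr) (r : ℕ), ch Q = l' ∧ r.Prime ∧
    r ≠ 2 ∧ ch P ≠ r ∧ c.Ram r P ∧ c.Maps P Q}) fun P _ => Set.Subsingleton.finite ?_).subset ?_
  · rintro _ ⟨Q, r, rfl, h1, h2, h3, h4, h5⟩ _ ⟨Q', r', rfl, -, -, -, -, h6⟩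
    have := Fact.mk h1
    obtain ⟨ν, -, rfl⟩ := c.maps_unique h2 h3 h4 h5 h6
    exact (ch_smul ν Q).symm
  · rintro _ ⟨P, Q, r, h0, rfl, h1, h2, h3, h4, h5⟩
    obtain ⟨P', hP, g, hg, rfl⟩ := hS P h0
    obtain ⟨τ, hτ⟩ := c.mem_G1.1 hg
    have h6 := NU.inv c (c.nu_of_mem hτ)
    have h7 := Ram.smul c h4 h6
    have h8 := Maps.smul c h5 h6
    rw [inv_smul_smul] at h7 h8
    rw [ch_smul] at h0
    exact Set.mem_biUnion hP ⟨_, r, ch_smul _ _, h1, h2, h0 ▸ h3, h7, h8⟩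

/-- a convenient level -/
theorem exists_level (hs : c.Std) (B : Subgroup Ga) (hB : Op B) (hN : c.N2 ≤ B) (R0 : ℕ) :
    ∃ W : Subgroup Ga, Op W ∧ W.Normal ∧ W ≤ c.G1 ∧ W ≤ B ∧ c.im W ≤ B ∧ ∀ γ ∈ c.G2,
      R0 * (c.im W ⊔ Subgroup.zpowers γ ⊔ c.im c.MM).index ≤
        (c.im W ⊔ Subgroup.zpowers γ).index := by
  obtain ⟨V, h1, h2, h3⟩ := c.nt_big (c.nt_MM hs.1) R0
  have h4 := ((c.op_G1.inf hB).inf (c.op_pre (hB.inf h1))).normalCore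
  have h5 := (c.G1 ⊓ B ⊓ c.pre (B ⊓ V)).normalCore_le
  have h6 := c.im_le_of_le_pre (le_inf hN h2) (h5.trans inf_le_right)
  refine ⟨_, h4, inferInstance, h5.trans (inf_le_left.trans inf_le_left),
    h5.trans (inf_le_left.trans inf_le_right), h6.trans inf_le_left,
    h3 _ (c.op_im h4) (h6.trans inf_le_right) fun τ hτ a ha => ?_⟩
  obtain ⟨σ, hσ⟩ := c.mem_G2.1 hτ
  exact c.conj_mem_im hσ (fun x hx => Subgroup.Normal.conj_mem inferInstance x hx σ) ha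

/-- least positive power of a Frobenius class in the normalizer -/
theorem exists_e {W : Subgroup Ga} [W.Normal] (hW : Op W) (hle : W ≤ c.G1) (φ : Ga) :
    ∃ e : ℕ, e ≠ 0 ∧ ∀ ψ, φ⁻¹ * ψ ∈ W → ψ ^ e ∈ c.NF ∧
      ∀ j : ℕ, (φ ^ j ∈ c.NF ↔ e ∣ j) ∧ (e ∣ j → φ ^ j ∈ W ⊔ Subgroup.zpowers (ψ ^ e)) := by
  have h1 := hle.trans c.G1_le_NF
  have h2 : ∀ j : ℕ, φ ^ j ∈ c.NF ↔ MulAction.period φ ((1 : Ga) : Ga ⧸ c.NF) ∣ j := fun j => by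
    rw [← MulAction.pow_smul_eq_iff_period_dvd, MulAction.Quotient.smul_mk, eq_comm,
      QuotientGroup.eq, inv_one, one_mul, smul_eq_mul, mul_one]
  refine ⟨_, ne_zero_of_dvd_ne_zero hW.index_ne_zero ((h2 _).1 (h1 (W.pow_index_mem φ))),
    fun ψ hψ => ⟨?_, fun j => ⟨h2 j, ?_⟩⟩⟩
  · rw [← mul_inv_cancel_left (φ ^ _) (ψ ^ _)]
    exact mul_mem ((h2 _).2 dvd_rfl) (h1 (star_pow hψ _))
  · rintro ⟨k, rfl⟩
    rw [pow_mul]
    generalize MulAction.period φ ((1 : Ga) : Ga ⧸ c.NF) = e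
    refine pow_mem ?_ k
    have h3 := mul_mem (Subgroup.mem_sup_right (S := W) (Subgroup.mem_zpowers (ψ ^ e)))
      (inv_mem (Subgroup.mem_sup_left (star_pow hψ e)))
    rwa [mul_inv_rev, inv_inv, mul_inv_cancel_left] at h3

/-- pigeonhole for an infinite set of primes -/
theorem pigeon {α β : Type*} [Finite β] {S : Set ℕ} (hS : S.Infinite) (p : ℕ → α → Prop)
    (h : ∀ l ∈ S, ∃ a, p l a) (f : α → β) : ∃ b, {l | l ∈ S ∧ ∃ a, p l a ∧ f a = b}.Infinite := by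
  by_contra h1
  push Not at h1
  refine hS ((Set.finite_iUnion h1).subset fun l hl => ?_)
  obtain ⟨a, ha⟩ := h l hl
  exact Set.mem_iUnion.2 ⟨f a, hl, a, ha, rfl⟩

end Corr
end Vale.Agent.P024U
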