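import Vale.Agent.P024U.Star

/-! Finitely many primes map to a given degree one prime.  Choose `t ∈ {3, 5}` different from `ch Q`, `W` from `exists_level` (`B = Gmu t`, `R0 = 3`).  If the set is infinite, `pigeon` gives `φ` and infinitely many
`l` with `P`, Frobenius `ψ ∈ φ W`.  Fix one of them, `γ ∈ Dec Q ≤ G2` from `gam` for `ψ0 ^ e` (`exists_e`).  `H = im W ⊔ zpowers γ`, `lb_one` for `H`, restrict to `im W` (`IndOn.of_op`), `codim_one` for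
`S = Dec Q ∩ im W` (`x_prop`); the `ρ0` combinations vanish on the `τ` with `(ψ^n, τ) ∈ R` (`Maps.exists`, `x_N2`); `star`, then `ub` for the normal core of `im W` and `H ⊔ im MM`:
`ρ0 ≤ index ≤ H.index / 3 = 2 ρ0 / 3`, and `H.index ≠ 0`. -/

namespace Vale.Agent.P024U
namespace Corr
variable (c : Corr)

/-- elements whose conjugation action preserves a function on a normal subgroup -/
def step1Stab {A : Type} (W : Subgroup Ga) [hn : W.Normal] (θ : Ga → A) : Subgroup Ga where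
  carrier := {h | ∀ g ∈ W, θ (h⁻¹ * g * h) = θ g}
  one_mem' := fun g _ => by simp
  mul_mem' := fun {a b} ha hb g hg => by
    have h1 : (a * b)⁻¹ * g * (a * b) = b⁻¹ * (a⁻¹ * g * a) * b := by group
    rw [h1, hb _ (hn.conj_mem' g hg a), ha g hg]
  inv_mem' := fun {a} ha g hg => by
    have h1 := ha (a * g * a⁻¹) (hn.conj_mem g hg a)
    have h2 : a⁻¹ * (a * g * a⁻¹) * a = g := by group
    rw [h2] at h1
    rw [inv_inv, h1]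

theorem step1_aux (hs : c.Std) {Q : Pr} (hQ : Dec Q ≤ c.G2) {t : ℕ} [Fact t.Prime] (ht : t ≠ 2)
    (htQ : ch Q ≠ t) :
    {l | ∃ (P : Pr) (r : ℕ), ch P = l ∧ r.Prime ∧ r ≠ 2 ∧ l ≠ r ∧ c.Ram r P ∧ c.Maps P Q}.Finite := by
  by_contra hinf
  have ht0 : t ≠ 0 := (Fact.out : t.Prime).ne_zero
  obtain ⟨W, hW, hWn, hle, -, himW, hidx⟩ :=
    c.exists_level hs (Gmu t) (op_Gmu ht0) (c.N2_le_Gmu ht0) 3
  have hfi : W.FiniteIndex := ⟨hW.index_ne_zero⟩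
  obtain ⟨b, hb⟩ := pigeon (α := Pr × ℕ × Ga) (β := Ga ⧸ W) hinf
    (fun l a => ch a.1 = l ∧ a.2.1.Prime ∧ a.2.1 ≠ 2 ∧ l ≠ a.2.1 ∧ c.Ram a.2.1 a.1 ∧
      c.Maps a.1 Q ∧ IsFrob a.1 1 a.2.2)
    (by
      rintro l ⟨P, r, h1, h2, h3, h4, h5, h6⟩
      obtain ⟨ψ, hψ⟩ := exists_frob P
      exact ⟨(P, r, ψ), h1, h2, h3, h4, h5, h6, hψ⟩)
    (fun a => (a.2.2 : Ga ⧸ W))
  obtain ⟨φ, rfl⟩ := QuotientGroup.mk_surjective b
  have hpow : ∀ (ψ : Ga) (j : ℕ), ψ ^ j ∈ W ↔ orderOf (ψ : Ga ⧸ W) ∣ j := by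
    intro ψ j
    rw [orderOf_dvd_iff_pow_eq_one, ← QuotientGroup.mk_pow, QuotientGroup.eq_one_iff]
  obtain ⟨e, -, he⟩ := c.exists_e hW hle φ
  obtain ⟨l0, -, ⟨P0, r0, ψ0⟩, ⟨a1, a2, a3, a4, a5, a6, a7⟩, a8⟩ := hb.nonempty
  have he0 := he ψ0 (QuotientGroup.eq.1 a8.symm)
  have hr0 : Fact r0.Prime := ⟨a2⟩
  obtain ⟨γ, hγ, hnu⟩ := c.gam hs.1 (r := r0) a3 (P := P0) (a1 ▸ a4) a5 a6 he0.1
    (pow_mem a7.mem_Dec e)
  have hγ2 := hQ hγ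
  have hI := c.op_im hW
  have hIH : c.im W ≤ c.im W ⊔ Subgroup.zpowers γ := le_sup_left
  have hH : Op (c.im W ⊔ Subgroup.zpowers γ) := hI.mono hIH
  have hI4 : c.im W ≤ Gmu 4 := (c.im_le_G2 W).trans hs.2.2
  have hH4 : c.im W ⊔ Subgroup.zpowers γ ≤ Gmu 4 :=
    sup_le hI4 ((Subgroup.zpowers_le).2 (hs.2.2 hγ2))
  obtain ⟨ρ, hρ⟩ := index_even hH4
  obtain ⟨θ, b1, b2, b3⟩ := lb_one ht hH hH4 hρ
  have hIt : c.im W ≤ (c.im W ⊔ Subgroup.zpowers γ) ⊓ Gmu t := le_inf hIH himW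
  have b4 : ∀ i, IsX (c.im W) (θ i) := fun i => (b1 i).mono hIt
  obtain ⟨k, k1, k2⟩ := codim_one (b2.of_op b1 hI hIt) ((Dec Q : Set Ga) ∩ c.im W)
    (fun i j u hu v hv => x_prop hI (b4 i) (b4 j) htQ hu.1 hu.2 hv.1 hv.2)
  have k3 : ∀ j, IsX (c.im W) (fun g => ∑ i, k j i * θ i g) := fun j => IsX.lin b4 (k j)
  have k4 : ∀ j, ∀ g ∈ c.im W ⊔ Subgroup.zpowers γ, ∀ x ∈ c.im W,
      ∑ i, k j i * θ i (g⁻¹ * x * g) = ∑ i, k j i * θ i x := fun j g hg x hx =>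
    Finset.sum_congr rfl fun i _ => by rw [b3 i g hg x (hIt hx)]
  have k5 : ∀ j, ∀ a ∈ c.im c.MM, ∀ x ∈ c.im W,
      ∑ i, k j i * θ i (a⁻¹ * x * a) = ∑ i, k j i * θ i x := by
    intro j
    refine c.star ht hs hW hle (k3 j) φ (hpow φ) (hb.mono ?_) hnu
      (fun i hi => (he0.2 i).2 ((he0.2 i).1.1 hi))
      (k4 j γ (Subgroup.mem_sup_right (Subgroup.mem_zpowers γ)))
    rintro l ⟨-, ⟨P, r, ψ⟩, ⟨d1, -, -, -, -, d6, d7⟩, d8⟩
    refine ⟨P, ψ, d1, d7, QuotientGroup.eq.1 d8.symm, fun τ hτ => ?_⟩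
    have d9 : (ψ : Ga ⧸ W) = φ := d8
    have e1 : ψ ^ orderOf (φ : Ga ⧸ W) ∈ W := (hpow ψ _).2 (by rw [d9])
    obtain ⟨τ', e2, e3⟩ := Maps.exists c d6 hτ (pow_mem d7.mem_Dec _)
    have e4 : τ' ∈ c.im W := c.mem_im.2 ⟨_, e1, e3⟩
    have e5 := c.inv_mul_mem_N2 e3 hτ
    have e6 := (k3 j).2 τ' e4 _ (c.N2_le_im W e5)
    rw [mul_inv_cancel_left] at e6
    have e7 := c.x_N2 (c.N2_le_im W) (k3 j) e5
    have e8 := k2 j τ' ⟨e2, e4⟩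
    simp only at e6 e7
    rw [e6, e7, e8, add_zero]
  have hc := Subgroup.normalCore_le (c.im W)
  have hub := ub ht hI.normalCore (hc.trans hI4)
    (H := c.im W ⊔ Subgroup.zpowers γ ⊔ c.im c.MM) (hc.trans (hIH.trans le_sup_left))
    (fun j => (k3 j).mono hc) (k1.of_op k3 hI.normalCore hc)
    (fun j => show c.im W ⊔ Subgroup.zpowers γ ⊔ c.im c.MM ≤
        step1Stab (c.im W).normalCore (fun g => ∑ i, k j i * θ i g) from
      sup_le (fun g hg x hx => k4 j g hg x (hc hx)) (fun g hg x hx => k5 j g hg x (hc hx)))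
  have h1 := hidx γ hγ2
  have h2 := hH.index_ne_zero
  omega

theorem fin_P (hs : c.Std) {Q : Pr} (hQ : Dec Q ≤ c.G2) :
    {l | ∃ (P : Pr) (r : ℕ), ch P = l ∧ r.Prime ∧ r ≠ 2 ∧ l ≠ r ∧ c.Ram r P ∧ c.Maps P Q}.Finite := by
  by_cases h : ch Q = 3
  · have : Fact (Nat.Prime 5) := ⟨by norm_num⟩
    exact c.step1_aux hs hQ (t := 5) (by norm_num) (by omega)
  · have : Fact (Nat.Prime 3) := ⟨by norm_num⟩
    exact c.step1_aux hs hQ (t := 3) (by norm_num) h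

end Corr
end Vale.Agent.P024U
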