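import Vale.Agent.P024U.Ram0

/-! Tame inertia.  `unit_root`: `τ w / w` is an `r^n`-th root of unity; `w^k ≡ 1` for some `k` prime to `ch P`
(`pow_sub_one_pos`), the residue of `w` is that of a root of unity `η η'` (`η` of `r`-power order, `η'` of order prime to `r`),
`τ w / w ≡ τ η' / η'`, so a power prime to `r` of it is `≡ 1`; `root_eq_one`.
`tame_fix`: `val P a = k / (r^s m')`; `u = a^m' / (an r^s-th root of ch P)^k` is a unit with `τ (u^r) = u^r`.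
`tame_order`: otherwise a power of `τ` has order exactly `r` on `fix (W ∩ Gmu r)`-level; `resolvent` and `tame_fix`.
`tame_cont`: compactness (`exists_forall_op`-type argument, or: the closed sets
`{σ ∈ Ine P ∩ V fixing the r^N-th roots} \ (J W)` decrease with empty intersection; `J W` is open).
`tame_gen`: for `σ ∈ Ine P`, `σ z / z` for a compatible system of roots `z_n` of `ch P` and of unity defines a continuous
homomorphism to `ℤ_[r]` (or work with `ZMod (r^n)` and an element of minimal valuation). -/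

namespace Vale.Agent.P024U

variable {P : Pr} {r : ℕ}

theorem Tame_nd (hr : r.Prime) (hP : ch P ≠ r) (n : ℕ) : ¬ ch P ∣ r ^ n := fun h =>
  hP ((Nat.prime_dvd_prime_iff_eq (ch_prime P) hr).1 ((ch_prime P).dvd_of_dvd_pow h))

theorem Tame_ch_ne (P : Pr) : (ch P : Om) ≠ 0 := Nat.cast_ne_zero.2 (ch_prime P).ne_zero

theorem Tame_cop {z : Om} {a b : ℕ} (h : a.Coprime b) (ha : z ^ a = 1) (hb : z ^ b = 1) : z = 1 :=
  orderOf_eq_one_iff.1 (Nat.eq_one_of_dvd_coprimes h (orderOf_dvd_of_pow_eq_one ha)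
    (orderOf_dvd_of_pow_eq_one hb))

theorem Tame_prim {n : ℕ} (hn : n ≠ 0) : ∃ ζ : Om, IsPrimitiveRoot ζ n := by
  have : NeZero (n : Om) := ⟨Nat.cast_ne_zero.2 hn⟩
  exact HasEnoughRootsOfUnity.exists_primitiveRoot Om n

theorem Tame_near {u : Om} (hu : val P u = 0) {n : ℕ} (hn : n ≠ 0) (h : Pos P (u ^ n - 1)) :
    ∃ η : Om, η ^ n = 1 ∧ Pos P (u - η) := by
  obtain ⟨ζ, hζ⟩ := Tame_prim hn
  have e := hζ.pow_sub_pow_eq_prod_sub_mul u 1 (Nat.pos_of_ne_zero hn)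
  simp only [one_pow, mul_one] at e
  by_contra hc
  push Not at hc
  have key : ∀ η ∈ Polynomial.nthRootsFinset n (1 : Om), u - η ≠ 0 ∧ val P (u - η) = 0 := by
    intro η hη
    have h1 := (Polynomial.mem_nthRootsFinset (Nat.pos_of_ne_zero hn) _).1 hη
    have h2 := hc η h1
    have h3 : Sm P 0 (u - η) := by
      rw [sub_eq_add_neg]
      exact Sm.add (Or.inr hu.ge) (Sm.neg (Or.inr (val_of_pow_eq_one P hn h1).ge))
    have h4 : u - η ≠ 0 := fun h => h2 (Or.inl h)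
    exact ⟨h4, le_antisymm (not_lt.1 fun h => h2 (Or.inr h)) (h3.resolve_left h4)⟩
  rw [e] at h
  rcases h with h | h
  · exact Finset.prod_ne_zero_iff.2 (fun η hη => (key η hη).1) h
  · rw [val_prod _ _ _ fun η hη => (key η hη).1, Finset.sum_eq_zero fun η hη => (key η hη).2] at h
    exact lt_irrefl _ h

theorem unit_root (hr : r.Prime) (hP : ch P ≠ r) {τ : Ga} (hτ : τ ∈ Dec P)
    (hμ : ∀ (n : ℕ) (z : Om), z ^ r ^ n = 1 → τ z = z) {w : Om} (hw : val P w = 0) (n : ℕ)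
    (h : τ (w ^ r ^ n) = w ^ r ^ n) : τ w = w := by
  by_cases h0 : w = 0
  · rw [h0, map_zero]
  obtain ⟨k, hk0, -, hk⟩ := pow_sub_one_pos P w h0 hw
  obtain ⟨s, m, hm, rfl⟩ := Nat.exists_eq_pow_mul_and_not_dvd hk0 r hr.ne_one
  have hu : val P (w ^ m) = 0 := by rw [val_pow, hw, mul_zero]
  rw [mul_comm, pow_mul] at hk
  obtain ⟨η, h1, h2⟩ := Tame_near hu (pow_ne_zero s hr.ne_zero) hk
  have h3 : Pos P (τ (w ^ m) - η) := by
    rw [← hμ s η h1, ← map_sub]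
    rcases h2 with h2 | h2
    · exact Or.inl (by rw [h2, map_zero])
    · exact Or.inr (by rwa [val_dec hτ])
  have h4 : Pos P ((τ w / w) ^ m - 1) := by
    have h5 := (h3.add (h2.mul_sm (y := -1) (Sm.neg (Or.inr (val_one P).ge)))).mul_sm
      (y := (w ^ m)⁻¹) (Or.inr (by rw [val_inv, hu, neg_zero]))
    have e : (τ w / w) ^ m - 1 = (τ (w ^ m) - η + (w ^ m - η) * -1) * (w ^ m)⁻¹ := by
      rw [map_pow, div_pow]
      field_simp
      ring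
    rwa [e]
  have h6 : (τ w / w) ^ r ^ n = 1 := by
    rw [div_pow, ← map_pow, h, div_self (pow_ne_zero _ h0)]
  have h7 := root_eq_one (Tame_nd hr hP n) (by rw [← pow_mul, mul_comm, pow_mul, h6, one_pow]) h4
  have h8 := Tame_cop (Nat.Coprime.pow_left n ((Nat.Prime.coprime_iff_not_dvd hr).2 hm)) h6 h7
  exact (div_eq_one_iff_eq h0).1 h8

theorem tame_fix (hr : r.Prime) (hP : ch P ≠ r) {τ : Ga} (hτ : τ ∈ Dec P)
    (hG : τ ∈ Groot r (ch P : Om)) {a : Om} (h : τ (a ^ r) = a ^ r) : τ a = a := by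
  by_cases h0 : a = 0
  · rw [h0, map_zero]
  obtain ⟨s, m, hm, hd⟩ := Nat.exists_eq_pow_mul_and_not_dvd (val P a).den_nz r hr.ne_one
  obtain ⟨π, hπ⟩ := IsAlgClosed.exists_pow_nat_eq (ch P : Om) (pow_pos hr.pos s)
  have π0 : π ≠ 0 := fun h => Tame_ch_ne P (by rw [← hπ, h, zero_pow (pow_pos hr.pos s).ne'])
  have τπ : τ π = π := hG s π (Or.inr hπ)
  have hv : ((r ^ s : ℕ) : ℚ) * val P π = 1 := by rw [← val_pow, hπ, val_ch]
  have hu : val P (a ^ m / π ^ (val P a).num) = 0 := by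
    rw [val_div P (pow_ne_zero _ h0) (zpow_ne_zero _ π0), val_pow, val_zpow,
      ← Rat.mul_den_eq_num, hd, Nat.cast_mul]
    linear_combination (-(m : ℚ) * val P a) * hv
  have h1 := unit_root hr hP hτ (fun n z hz => hG n z (Or.inl hz)) hu 1 (by
    rw [pow_one, div_pow, map_div₀, ← pow_mul, mul_comm, pow_mul, map_pow, h, map_pow, map_zpow₀,
      τπ])
  rw [map_div₀, map_zpow₀, τπ, div_left_inj' (zpow_ne_zero _ π0), map_pow] at h1
  rw [map_pow] at h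
  refine (div_eq_one_iff_eq h0).1 (Tame_cop ((Nat.Prime.coprime_iff_not_dvd hr).2 hm) ?_ ?_)
  · rw [div_pow, h, div_self (pow_ne_zero _ h0)]
  · rw [div_pow, h1, div_self (pow_ne_zero _ h0)]

theorem Tame_period {W : Subgroup Ga} (hW : Op W) (σ : Ga) :
    ∃ k : ℕ, 0 < k ∧ ∀ j : ℕ, σ ^ j ∈ W ↔ k ∣ j := by
  have key : ∀ j : ℕ, σ ^ j ∈ W ↔ MulAction.period σ (QuotientGroup.mk 1 : Ga ⧸ W) ∣ j := by
    intro j
    rw [← MulAction.pow_smul_eq_iff_period_dvd, MulAction.Quotient.smul_mk, eq_comm,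
      QuotientGroup.eq]
    simp
  refine ⟨_, Nat.pos_of_ne_zero fun h => ?_, key⟩
  obtain ⟨n, hn, -, h2⟩ := Subgroup.exists_pow_mem_of_index_ne_zero hW.index_ne_zero σ
  rw [key, h, zero_dvd_iff] at h2
  omega

theorem tame_order (hr : r.Prime) (hP : ch P ≠ r) {τ : Ga} (hτ : τ ∈ Dec P)
    (hG : τ ∈ Groot r (ch P : Om)) {W : Subgroup Ga} (hW : Op W) :
    ∃ k : ℕ, ¬ r ∣ k ∧ τ ^ k ∈ W := by
  have hW' := (hW.inf (op_Gmu hr.ne_zero)).normalCore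
  have hle := (W ⊓ Gmu r).normalCore_le
  obtain ⟨k, k0, hk⟩ := Tame_period hW' τ
  refine ⟨k, ?_, (hle ((hk k).2 dvd_rfl)).1⟩
  rintro ⟨k', rfl⟩
  have k1 : 0 < k' := Nat.pos_of_mul_pos_left k0
  have h1 : τ ^ k' ∉ (W ⊓ Gmu r).normalCore := fun h => by
    have h2 := Nat.le_of_dvd k1 ((hk k').1 h)
    have := hr.two_le
    nlinarith
  have h2 : ∃ y ∈ fix (W ⊓ Gmu r).normalCore, (τ ^ k') y ≠ y := by
    by_contra h2
    push Not at h2
    exact h1 (mem_of_fix hW'.cl h2)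
  obtain ⟨y, hy, hy1⟩ := h2
  obtain ⟨ζ, hζ⟩ := Tame_prim hr.ne_zero
  have hG' := (Groot r (ch P : Om)).pow_mem hG k'
  have hσζ : (τ ^ k') ζ = ζ := hG' 1 ζ (Or.inl (by rw [pow_one, hζ.pow_eq_one]))
  obtain ⟨a, -, a0, j, hj, ha⟩ := resolvent r hr (fix (W ⊓ Gmu r).normalCore) ζ hζ
    (mem_fix.2 fun g hg => (hle hg).2 ζ hζ.pow_eq_one) (τ ^ k') hσζ
    (fun x hx => mem_fix.2 fun g hg => by
      have h3 := mem_fix.1 hx _ ((Subgroup.normalCore_normal _).conj_mem' g hg (τ ^ k'))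
      rw [AlgEquiv.mul_apply, AlgEquiv.mul_apply] at h3
      exact (AlgEquiv.symm_apply_eq _).1 h3) y hy hy1
    (mem_fix.1 hy _ (by rw [← pow_mul, hk, mul_comm]))
  have h3 := tame_fix hr hP ((Dec P).pow_mem hτ k') hG' (a := a) (by
    rw [map_pow, ha, mul_pow, ← pow_mul, mul_comm j, pow_mul, hζ.pow_eq_one, one_pow, one_mul])
  rw [ha, mul_eq_right₀ a0] at h3
  exact hj ((hζ.pow_eq_one_iff_dvd j).1 h3)

theorem Tame_down (hr : r.Prime) {σ : Ga} {a : Om} {M N : ℕ} (h : N ≤ M)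
    (hσ : ∀ z : Om, z ^ r ^ M = a → σ z = z) (z : Om) (hz : z ^ r ^ N = a) : σ z = z := by
  obtain ⟨d, rfl⟩ := Nat.exists_eq_add_of_le' h
  obtain ⟨y, rfl⟩ := IsAlgClosed.exists_pow_nat_eq z (pow_pos hr.pos d)
  rw [map_pow, hσ y (by rw [pow_add, pow_mul, hz])]

theorem tame_cont (hr : r.Prime) (hP : ch P ≠ r) {V W : Subgroup Ga} (hV : Op V) (hW : Op W) :
    ∃ N : ℕ, ∀ σ ∈ Ine P, σ ∈ V → (∀ z : Om, z ^ r ^ N = (ch P : Om) → σ z = z) →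
      ∃ ρ ∈ Ine P, ρ ∈ V ∧ ρ ∈ Groot r (ch P : Om) ∧ ρ⁻¹ * σ ∈ W := by
  by_contra hc
  push Not at hc
  let U : Set Ga := ⋃ ρ ∈ {ρ | ρ ∈ Ine P ∧ ρ ∈ V ∧ ρ ∈ Groot r (ch P : Om)},
    (fun σ => ρ⁻¹ * σ) ⁻¹' (W : Set Ga)
  have hU : IsOpen U := isOpen_biUnion fun ρ _ => hW.preimage (continuous_const_mul _)
  let C : ℕ → Set Ga := fun N => ((Ine P : Set Ga) ∩ V ∩
    ⋂ z ∈ {z : Om | z ^ r ^ N = (ch P : Om)}, (MulAction.stabilizer Ga z : Set Ga)) ∩ Uᶜ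
  have hcl : ∀ N, IsClosed (C N) := fun N =>
    (((cl_Ine P).inter hV.cl).inter (isClosed_biInter fun z _ =>
      Op.cl (H := MulAction.stabilizer Ga z) (op_stab z))).inter hU.isClosed_compl
  obtain ⟨σ, hσ⟩ := IsCompact.nonempty_iInter_of_sequence_nonempty_isCompact_isClosed C
    (fun N σ hσ => ⟨⟨hσ.1.1, Set.mem_iInter₂.2 fun z hz => Tame_down hr N.le_succ
      (fun z hz => Set.mem_iInter₂.1 hσ.1.2 z hz) z hz⟩, hσ.2⟩)
    (fun N => by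
      obtain ⟨σ, h1, h2, h3, h4⟩ := hc N
      refine ⟨σ, ⟨⟨h1, h2⟩, Set.mem_iInter₂.2 h3⟩, fun h => ?_⟩
      obtain ⟨ρ, hρ, h5⟩ := Set.mem_iUnion₂.1 h
      exact h4 ρ hρ.1 hρ.2.1 hρ.2.2 h5) (hcl 0).isCompact hcl
  rw [Set.mem_iInter] at hσ
  refine (hσ 0).2 (Set.mem_iUnion₂.2 ⟨σ, ⟨(hσ 0).1.1.1, (hσ 0).1.1.2, fun n z hz => ?_⟩, ?_⟩)
  · rcases hz with hz | hz
    · exact Ine_le_Gmu (Tame_nd hr hP n) (hσ 0).1.1.1 z hz
    · exact Set.mem_iInter₂.1 (hσ n).1.2 z hz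
  · rw [Set.mem_preimage, inv_mul_cancel]
    exact W.one_mem

theorem Tame_ne (hr : r.Prime) {N : ℕ} {z : Om} (hz : z ^ r ^ N = (ch P : Om)) : z ≠ 0 :=
  fun h => Tame_ch_ne P (by rw [← hz, h, zero_pow (pow_pos hr.pos N).ne'])

theorem Tame_c1 {σ : Ga} {N : ℕ} {z : Om} (hz : z ^ r ^ N = (ch P : Om)) :
    (σ z / z) ^ r ^ N = 1 := by
  rw [div_pow, ← map_pow, hz, map_natCast, div_self (Tame_ch_ne P)]

theorem Tame_c2 (hr : r.Prime) (hP : ch P ≠ r) {σ : Ga} (hσ : σ ∈ Ine P) {N : ℕ} {z z' : Om}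
    (hz : z ^ r ^ N = (ch P : Om)) (hz' : z' ^ r ^ N = (ch P : Om)) (i : ℕ) :
    (σ ^ i) z' = (σ z / z) ^ i * z' := by
  have hμ := Ine_le_Gmu (Tame_nd hr hP N) hσ
  have z0 := Tame_ne hr hz
  have h1 : σ z' = σ z / z * z' := by
    have h2 := hμ (z' / z) (by rw [div_pow, hz, hz', div_self (Tame_ch_ne P)])
    rw [map_div₀, div_eq_iff ((map_ne_zero σ).2 z0)] at h2
    rw [h2]
    ring
  induction i with
  | zero => simp
  | succ i ih =>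
    rw [pow_succ', AlgEquiv.mul_apply, ih, map_mul, map_pow, hμ _ (Tame_c1 hz), h1]
    ring

theorem tame_gen (hr : r.Prime) (hP : ch P ≠ r) {V : Subgroup Ga} (hV : Op V) :
    ∃ σ0 ∈ Ine P, σ0 ∈ V ∧ ∀ N : ℕ, ∀ σ ∈ Ine P, σ ∈ V →
      ∃ i : ℕ, ∀ z : Om, z ^ r ^ N = (ch P : Om) → σ z = (σ0 ^ i) z := by
  classical
  have hex : ∃ N : ℕ, ∃ σ ∈ Ine P, σ ∈ V ∧ ∃ z : Om, z ^ r ^ N = (ch P : Om) ∧ σ z ≠ z := by
    obtain ⟨σ, h1, h2, n, z, h3, h4, -⟩ := ine_moves P r hr hP hV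
    exact ⟨n, σ, h1, h2, z, h3, h4⟩
  obtain ⟨σ0, s1, s2, z0, hz0, s3⟩ := Nat.find_spec hex
  have hmin : ∀ M < Nat.find hex, ∀ σ ∈ Ine P, σ ∈ V → ∀ z : Om, z ^ r ^ M = (ch P : Om) →
      σ z = z := fun M hM σ h1 h2 z hz => by
    by_contra h3
    exact Nat.find_min hex hM ⟨σ, h1, h2, z, hz, h3⟩
  generalize Nat.find hex = N0 at hz0 hmin
  refine ⟨σ0, s1, s2, fun N σ h1 h2 => ?_⟩
  rcases lt_or_ge N N0 with hN | hN
  · exact ⟨0, fun z hz => hmin N hN σ h1 h2 z hz⟩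
  obtain ⟨d, rfl⟩ := Nat.exists_eq_add_of_le' hN
  rcases N0 with _ | M
  · rw [pow_zero, pow_one] at hz0
    exact absurd (by rw [hz0, map_natCast]) s3
  obtain ⟨y, rfl⟩ := IsAlgClosed.exists_pow_nat_eq z0 (pow_pos hr.pos d)
  have hy : y ^ r ^ (d + (M + 1)) = (ch P : Om) := by rw [pow_add, pow_mul, hz0]
  have y0 := Tame_ne hr hy
  have key : ∀ τ ∈ Ine P, τ ∈ V → (τ y / y) ^ r ^ (d + 1) = 1 := fun τ t1 t2 => by
    rw [div_pow, ← map_pow, hmin M M.lt_succ_self τ t1 t2, div_self (pow_ne_zero _ y0)]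
    rw [← pow_mul, ← pow_add, ← hy]
    congr 2
    ring
  have := Fact.mk hr
  have ho : orderOf (σ0 y / y) = r ^ (d + 1) := orderOf_eq_prime_pow (fun h => s3 (by
    rwa [div_pow, ← map_pow, div_eq_one_iff_eq (pow_ne_zero _ y0)] at h)) (key σ0 s1 s2)
  have hp : IsPrimitiveRoot (σ0 y / y) (r ^ (d + 1)) := ho ▸ IsPrimitiveRoot.orderOf _
  have : NeZero (r ^ (d + 1)) := ⟨pow_ne_zero _ hr.ne_zero⟩
  obtain ⟨i, -, hi⟩ := hp.eq_pow_of_pow_eq_one (key σ h1 h2)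
  refine ⟨i, fun z hz => ?_⟩
  have h3 := Tame_c2 hr hP h1 hy hz 1
  rw [pow_one, pow_one] at h3
  rw [Tame_c2 hr hP s1 hy hz, hi, h3]

theorem tame_conj (hr : r.Prime) (hP : ch P ≠ r) {g σ : Ga} (hσ : σ ∈ Ine P) (N c : ℕ)
    (hc : ∀ z : Om, z ^ r ^ N = 1 → g z = z ^ c) (z : Om) (hz : z ^ r ^ N = (ch P : Om)) :
    (g * σ * g⁻¹) z = (σ ^ c) z := by
  have h1 := Tame_c2 hr hP hσ hz (z' := g⁻¹ z) (by rw [← map_pow, hz, map_natCast]) 1
  rw [pow_one, pow_one] at h1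
  rw [Tame_c2 hr hP hσ hz hz, AlgEquiv.mul_apply, AlgEquiv.mul_apply, h1, map_mul,
    hc _ (Tame_c1 hz)]
  simp

end Vale.Agent.P024U
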