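import Vale.Agent.P024U.HQ

/-! Units as a module over a cyclic group acting freely on the infinite places.
`Λ` = image of `(u, k) ↦ (w ↦ mult w * log (w u) + k)` in `InfinitePlace L → ℝ` is a full lattice (Dirichlet:
`NumberField.Units.dirichletUnitTheorem.unitLattice_span_eq_top`, finite kernel = torsion, finitely generated of rank
card places).  Identify the places with `Fin ρ × ZMod N` equivariantly (free action).  For each orbit `j` pick
`y j ∈ Λ` within bounded distance of `T • e_(j,0)`, `T` large, and translate it by the powers of `s`: the family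
`y (j,i)` is a real basis (strict diagonal dominance: `Matrix.det_ne_zero_of_sum_row_lt_diag` or a sup norm argument),
spans a sublattice `Λ'` of finite index `N0` (same rank); `π` = coordinates of `N0 •` (the vector) in this basis. -/

namespace Vale.Agent.P024U
open NumberField

theorem US_rank {A : Type*} [AddCommGroup A] [Module.Finite ℤ A] :
    Module.finrank ℤ (A × ℤ) = Module.finrank ℤ A + 1 := by
  rw [← Submodule.finrank_quotient_add_finrank (LinearMap.ker (LinearMap.snd ℤ A ℤ)),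
    ((LinearMap.snd ℤ A ℤ).quotKerEquivOfSurjective LinearMap.snd_surjective).finrank_eq,
    LinearMap.ker_snd, LinearMap.finrank_range_of_inj LinearMap.inl_injective, Module.finrank_self,
    add_comm]

theorem US_cover {A V : Type*} [AddCommGroup A] [NormedAddCommGroup V] [NormedSpace ℝ V]
    (l : A →+ V) {v : V} (hv : v ∈ Submodule.span ℝ (Set.range l)) :
    ∃ C : ℝ, ∀ T : ℝ, ∃ a, ‖l a - T • v‖ ≤ C := by
  induction hv using Submodule.span_induction with
  | mem v hv =>
    obtain ⟨a, rfl⟩ := hv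
    refine ⟨‖l a‖, fun T => ⟨⌊T⌋ • a, ?_⟩⟩
    rw [map_zsmul, ← Int.cast_smul_eq_zsmul ℝ, ← sub_smul, norm_smul, Real.norm_eq_abs,
      abs_sub_comm, Int.self_sub_floor, abs_of_nonneg (Int.fract_nonneg T)]
    exact mul_le_of_le_one_left (norm_nonneg _) (Int.fract_lt_one T).le
  | zero => exact ⟨0, fun T => ⟨0, by simp⟩⟩
  | add v w _ _ h1 h2 =>
    obtain ⟨C, h1⟩ := h1
    obtain ⟨D, h2⟩ := h2
    refine ⟨C + D, fun T => ?_⟩
    obtain ⟨a, ha⟩ := h1 T
    obtain ⟨b, hb⟩ := h2 T
    refine ⟨a + b, ?_⟩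
    rw [map_add, smul_add, add_sub_add_comm]
    exact norm_add_le_of_le ha hb
  | smul r v _ h =>
    obtain ⟨C, h⟩ := h
    exact ⟨C, fun T => by simpa only [smul_smul] using h (T * r)⟩

theorem US_dom {X : Type*} [Fintype X] [DecidableEq X] (y : X → X → ℝ) (C T : ℝ)
    (hT : Fintype.card X * C < T) (h : ∀ x z, |y x z - if x = z then T else 0| ≤ C) (c : X → ℝ)
    (hc : ∑ x, c x • y x = 0) : c = 0 := by
  rcases isEmpty_or_nonempty X with hX | hX
  · exact Subsingleton.elim _ _
  obtain ⟨z, hz⟩ := Finite.exists_max fun x => |c x|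
  have hC : 0 ≤ C := (abs_nonneg _).trans (h z z)
  have h1 : c z * T = -∑ x, c x * (y x z - if x = z then T else 0) := by
    have := congrFun hc z
    simp only [Finset.sum_apply, Pi.smul_apply, smul_eq_mul, Pi.zero_apply] at this
    simp [mul_sub, Finset.sum_sub_distrib, this]
  have h2 : |c z * T| ≤ Fintype.card X * (|c z| * C) := by
    rw [h1, abs_neg]
    refine (Finset.abs_sum_le_sum_abs _ _).trans ((Finset.sum_le_card_nsmul _ _ (|c z| * C)
      fun x _ => ?_).trans_eq (by simp))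
    rw [abs_mul]
    exact mul_le_mul (hz x) (h x z) (abs_nonneg _) (abs_nonneg _)
  have hT0 : 0 < T := lt_of_le_of_lt (by positivity) hT
  rw [abs_mul, abs_of_pos hT0] at h2
  have h3 : |c z| ≤ 0 := by
    by_contra h3
    nlinarith [mul_lt_mul_of_pos_left hT (not_le.1 h3)]
  funext x
  exact abs_nonpos_iff.1 ((hz x).trans h3)

theorem US_abs {A : Type*} [AddCommGroup A] [Module.Finite ℤ A] {ρ N : ℕ} [NeZero N] (σ : A → A)
    (l : A →+ (Fin ρ × ZMod N → ℝ)) (h1 : ∀ a j i, l (σ a) (j, i + 1) = l a (j, i))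
    (h2 : Finite l.ker) (h3 : Submodule.span ℝ (Set.range l) = ⊤)
    (h4 : Module.finrank ℤ A = ρ * N) :
    ∃ π : A →+ (Fin ρ × ZMod N → ℤ), (∀ a j i, π (σ a) (j, i + 1) = π a (j, i)) ∧ Finite π.ker ∧
      π.range.FiniteIndex := by
  classical
  have hp : ∀ (n : ℕ) a j i, l (σ^[n] a) (j, i) = l a (j, i - n) := by
    intro n
    induction n with
    | zero => simp
    | succ n ih =>
      intro a j i
      rw [Function.iterate_succ_apply', ← sub_add_cancel i 1, h1, ih]
      rw [sub_add_cancel, Nat.cast_succ, sub_sub, add_comm]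
  choose C hC using fun j : Fin ρ => US_cover l (v := Pi.single (j, 0) 1) (h3 ▸ Submodule.mem_top)
  obtain ⟨D, hD⟩ := Finite.bddAbove_range C
  set T : ℝ := Fintype.card (Fin ρ × ZMod N) * D + 1 with hT
  choose a ha using fun j => hC j T
  let b : Fin ρ × ZMod N → A := fun x => σ^[x.2.val] (a x.1)
  have hb : ∀ j i j' i', l (b (j, i)) (j', i') = l (a j) (j', i' - i) := fun j i j' i' => by
    simp only [b, hp, ZMod.natCast_zmod_val]
  let φ : (Fin ρ × ZMod N → ℤ) →ₗ[ℤ] A := Fintype.linearCombination ℤ b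
  have hφ : ∀ c, l (φ c) = ∑ x, (c x : ℝ) • l (b x) := fun c => by
    simp only [φ, Fintype.linearCombination_apply, map_sum, map_zsmul, Int.cast_smul_eq_zsmul]
  have hinj : ∀ c c', l (φ c) = l (φ c') → c = c' := by
    intro c c' h
    rw [← sub_eq_zero, ← map_sub, ← map_sub, hφ] at h
    have := US_dom (fun x => l (b x)) D T (by rw [hT]; exact lt_add_one _) ?_ _ h
    · funext x
      have := congrFun this x
      simp only [Pi.sub_apply, Pi.zero_apply, Int.cast_eq_zero] at this
      exact sub_eq_zero.1 this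
    · rintro ⟨j, i⟩ ⟨j', i'⟩
      have h5 := (norm_le_pi_norm _ (j', i' - i)).trans ((ha j).trans (hD ⟨j, rfl⟩))
      have e : ((j', i' - i) = (j, (0 : ZMod N))) ↔ ((j, i) = (j', i')) := by
        simp only [Prod.mk.injEq, sub_eq_zero, eq_comm]
      simpa only [hb, Pi.sub_apply, Pi.smul_apply, Pi.single_apply, smul_eq_mul, mul_ite, mul_one,
        mul_zero, Real.norm_eq_abs, e] using h5
  have hφi : Function.Injective φ := fun c c' h => hinj c c' (by rw [h])
  have hfin : Finite (A ⧸ LinearMap.range φ) := by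
    refine Module.finite_of_fg_torsion _ (Module.finrank_eq_zero_iff_isTorsion.1 ?_)
    have := Submodule.finrank_quotient_add_finrank (LinearMap.range φ)
    rw [LinearMap.finrank_range_of_inj hφi, Module.finrank_fintype_fun_eq_card, h4,
      Fintype.card_prod, Fintype.card_fin, ZMod.card] at this
    omega
  set M := Nat.card (A ⧸ LinearMap.range φ) with hM
  have hM0 : M ≠ 0 := Nat.card_pos.ne'
  have hm : ∀ a : A, ∃ c, φ c = M • a := fun a => by
    refine (Submodule.Quotient.mk_eq_zero (LinearMap.range φ)).1 ?_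
    rw [← Submodule.mkQ_apply, map_nsmul]
    exact card_nsmul_eq_zero'
  choose π hπ using hm
  let π' : A →+ (Fin ρ × ZMod N → ℤ) := AddMonoidHom.mk' π fun x y => hφi (by
    rw [map_add, hπ, hπ, hπ, nsmul_add])
  refine ⟨π', fun x j i => ?_, ?_, ?_⟩
  · have : π x = fun z => π (σ x) (z.1, z.2 + 1) := by
      refine hinj _ _ (funext fun ⟨j', i'⟩ => ?_)
      have h5 := congrArg (fun z => l z (j', i' + 1)) (hπ (σ x))
      simp only [map_nsmul, Pi.smul_apply, h1] at h5
      rw [hπ, map_nsmul, Pi.smul_apply, ← h5, hφ, hφ, Finset.sum_apply, Finset.sum_apply]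
      refine (Fintype.sum_equiv ((Equiv.refl _).prodCongr (Equiv.addRight 1)) _ _ ?_).symm
      rintro ⟨j, i⟩
      simp [hb]
    exact (congrFun this (j, i)).symm
  · refine Finite.of_injective (fun x : π'.ker => (⟨x.1, ?_⟩ : l.ker)) fun x y h =>
      Subtype.ext (Subtype.mk.inj h)
    have h5 : π x.1 = 0 := x.2
    have h6 := congrArg l (hπ x.1)
    rw [h5, map_zero, map_zero, map_nsmul, eq_comm] at h6
    exact (smul_eq_zero.1 h6).resolve_left hM0
  · have := AddSubgroup.finiteIndex_range_nsmulAddMonoidHom_of_fg (Fin ρ × ZMod N → ℤ) hM0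
    refine AddSubgroup.finiteIndex_of_le (H := (nsmulAddMonoidHom M).range) ?_
    rintro _ ⟨c, rfl⟩
    exact ⟨φ c, hφi (by rw [nsmulAddMonoidHom_apply, map_nsmul]; exact hπ _)⟩

theorem US_orb {X : Type*} [Finite X] (f : Equiv.Perm X) (N : ℕ) [NeZero N] (hf : f ^ N = 1)
    (hfree : ∀ x (i : ℕ), (f ^ i) x = x → N ∣ i) :
    ∃ (ρ : ℕ) (e : Fin ρ × ZMod N ≃ X), ∀ j i, f (e (j, i + 1)) = e (j, i) := by
  classical
  have hN : (N : ℤ) ≠ 0 := by exact_mod_cast NeZero.ne N
  have h1 : ∀ a b : ℤ, (a : ZMod N) = b → f ^ a = f ^ b := fun a b h => by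
    obtain ⟨k, hk⟩ := (ZMod.intCast_eq_intCast_iff_dvd_sub a b N).1 h
    rw [show b = a + N * k by omega, zpow_add, zpow_mul, zpow_natCast, hf, one_zpow, mul_one]
  have h2 : ∀ x (a b : ℤ), (f ^ a) x = (f ^ b) x → (a : ZMod N) = b := fun x a b h => by
    have h3 : (f ^ (b - a)) x = x := by
      rw [sub_eq_neg_add, zpow_add, Equiv.Perm.mul_apply, ← h, ← Equiv.Perm.mul_apply, ← zpow_add,
        neg_add_cancel, zpow_zero, Equiv.Perm.one_apply]
    have h4 := Int.toNat_of_nonneg (Int.emod_nonneg (b - a) hN)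
    rw [h1 (b - a) ((b - a) % N) (by simp), ← h4, zpow_natCast] at h3
    have h5 := Int.natCast_dvd_natCast.2 (hfree x _ h3)
    rw [h4] at h5
    exact (ZMod.intCast_eq_intCast_iff_dvd_sub a b N).2 (by
      simpa using dvd_sub h5 (Int.dvd_emod_sub_self (x := b - a)))
  let S : Setoid X := Equiv.Perm.SameCycle.setoid f
  let q := Finite.equivFin (Quotient S)
  let g : Fin (Nat.card (Quotient S)) × ZMod N → X := fun x =>
    (f ^ (-(x.2.val : ℤ))) (q.symm x.1).out
  refine ⟨_, Equiv.ofBijective g ⟨?_, fun x => ?_⟩, fun j i => ?_⟩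
  · rintro ⟨j, i⟩ ⟨j', i'⟩ h
    have h3 : j = j' := by
      refine q.symm.injective (Quotient.out_equiv_out.1 ⟨(i'.val : ℤ) + -(i.val : ℤ), ?_⟩)
      rw [zpow_add, Equiv.Perm.mul_apply]
      change (f ^ (i'.val : ℤ)) (g (j, i)) = _
      rw [h, ← Equiv.Perm.mul_apply, ← zpow_add, add_neg_cancel, zpow_zero, Equiv.Perm.one_apply]
    subst h3
    simpa using h2 _ _ _ h
  · obtain ⟨a, ha⟩ : f.SameCycle (Quotient.mk S x).out x := Quotient.mk_out (s := S) x
    refine ⟨(q (Quotient.mk S x), (-a : ℤ)), ?_⟩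
    simp only [g, Equiv.symm_apply_apply]
    rw [h1 _ a (by simp), ha]
  · change (f * f ^ (-((i + 1).val : ℤ))) (q.symm j).out = (f ^ (-(i.val : ℤ))) (q.symm j).out
    rw [← zpow_one_add, h1 _ (-(i.val : ℤ)) (by simp)]

/-- The logarithmic map. -/
noncomputable def USlog (L : Type*) [Field L] [NumberField L] :
    Additive (𝓞 L)ˣ × ℤ →+ (InfinitePlace L → ℝ) :=
  AddMonoidHom.mk' (fun a w => w.mult * Real.log (w (a.1.toMul : (𝓞 L)ˣ)) + a.2) fun a b => by
    funext w
    simp only [Prod.fst_add, toMul_add, Units.val_mul, map_mul, Prod.snd_add, Int.cast_add,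
      Pi.add_apply]
    rw [Real.log_mul (Units.pos_at_place _ _).ne' (Units.pos_at_place _ _).ne']
    ring

theorem USlog_apply {L : Type*} [Field L] [NumberField L] (u : (𝓞 L)ˣ) (k : ℤ)
    (w : InfinitePlace L) : USlog L (Additive.ofMul u, k) w = w.mult * Real.log (w u) + k := rfl

theorem US_ker (L : Type*) [Field L] [NumberField L] : Finite (USlog L).ker := by
  have h : ∀ x : (USlog L).ker, x.1.1.toMul ∈ Units.torsion L ∧ x.1.2 = 0 := by
    rintro ⟨⟨u, k⟩, hx⟩
    have h1 : ∀ w : InfinitePlace L, w.mult * Real.log (w (u.toMul : (𝓞 L)ˣ)) + k = 0 :=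
      fun w => congrFun hx w
    have h2 := Finset.sum_eq_zero (s := Finset.univ) fun w _ => h1 w
    rw [Finset.sum_add_distrib, Units.sum_mult_mul_log] at h2
    have h3 : k = 0 := by simpa using h2
    refine ⟨(Units.mem_torsion L).2 fun w => ?_, h3⟩
    exact Units.dirichletUnitTheorem.mult_log_place_eq_zero.1 (by simpa [h3] using h1 w)
  refine Finite.of_injective (fun x : (USlog L).ker => (⟨_, (h x).1⟩ : Units.torsion L))
    fun x y e => Subtype.ext (Prod.ext ?_ ((h x).2.trans (h y).2.symm))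
  exact Additive.toMul.injective (congrArg Subtype.val e)

open Units.dirichletUnitTheorem in
theorem US_span (L : Type*) [Field L] [NumberField L] :
    Submodule.span ℝ (Set.range (USlog L)) = ⊤ := by
  classical
  have h1 : ∀ v ∈ Submodule.span ℝ (Units.unitLattice L : Set (logSpace L)),
      ∃ v' ∈ Submodule.span ℝ (Set.range (USlog L)), ∑ w, v' w = 0 ∧ ∀ w, v w = v' w.1 := by
    intro v hv
    induction hv using Submodule.span_induction with
    | mem v hv =>
      obtain ⟨u, -, rfl⟩ := hv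
      refine ⟨_, Submodule.subset_span ⟨(u, 0), rfl⟩, ?_, fun w => ?_⟩
      · exact (Finset.sum_congr rfl fun w _ => (USlog_apply u.toMul 0 w).trans (by simp)).trans
          (Units.sum_mult_mul_log u.toMul)
      · exact ((USlog_apply u.toMul 0 w.1).trans (by rw [Int.cast_zero, add_zero]; rfl)).symm
    | zero => exact ⟨0, Submodule.zero_mem _, by simp, fun w => rfl⟩
    | add v w _ _ h1 h2 =>
      obtain ⟨a, ha, ha1, ha2⟩ := h1
      obtain ⟨b, hb, hb1, hb2⟩ := h2
      exact ⟨a + b, Submodule.add_mem _ ha hb, by simp [Finset.sum_add_distrib, ha1, hb1],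
        fun w => by simp [ha2, hb2]⟩
    | smul r v _ h =>
      obtain ⟨a, ha, ha1, ha2⟩ := h
      exact ⟨r • a, Submodule.smul_mem _ _ ha, by simp [← Finset.mul_sum, ha1],
        fun w => by simp [ha2]⟩
  refine Submodule.eq_top_iff'.2 fun v => ?_
  set m : ℝ := (∑ w, v w) / Fintype.card (InfinitePlace L) with hm
  obtain ⟨a, ha, ha1, ha2⟩ := h1 (fun w => v w.1 - m)
    (unitLattice_span_eq_top L ▸ Submodule.mem_top)
  have h2 : ∑ w, (v w - m) = 0 := by
    rw [Finset.sum_sub_distrib, Finset.sum_const, nsmul_eq_mul, Finset.card_univ, hm,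
      mul_div_cancel₀ _ (by positivity), sub_self]
  have h3 : v = a + m • USlog L (0, 1) := by
    have h4 : ∀ w, USlog L (0, 1) w = 1 := fun w => (USlog_apply 1 1 w).trans (by simp)
    funext w
    simp only [Pi.add_apply, Pi.smul_apply, h4, smul_eq_mul, mul_one, ← sub_eq_iff_eq_add]
    by_cases hw : w = w₀
    · rw [Fintype.sum_eq_add_sum_subtype_ne _ w₀] at ha1 h2
      rw [Finset.sum_congr rfl fun w _ => ha2 w] at h2
      rw [hw]
      linarith
    · exact ha2 ⟨w, hw⟩
  rw [h3]
  exact Submodule.add_mem _ ha (Submodule.smul_mem _ _ (Submodule.subset_span ⟨_, rfl⟩))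

theorem units_perm {L : Type*} [Field L] [NumberField L] (s : L ≃+* L) (N : ℕ) (hN : N ≠ 0)
    (hs : s ^ N = 1)
    (hfree : ∀ (w : InfinitePlace L) (i : ℕ), w.comap ((s ^ i : L ≃+* L) : L →+* L) = w → N ∣ i)
    (sE : AddMonoid.End (Additive (𝓞 L)ˣ))
    (hsE : ∀ u : (𝓞 L)ˣ, ((((sE (Additive.ofMul u)).toMul : (𝓞 L)ˣ) : 𝓞 L) : L) = s ((u : 𝓞 L) : L)) :
    ∃ ρ : ℕ, ρ * N = Fintype.card (InfinitePlace L) ∧
      ∃ π : Additive (𝓞 L)ˣ × ℤ →+ (Fin ρ × ZMod N → ℤ), PermHom sE N ρ π := by
  have : NeZero N := ⟨hN⟩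
  let f : Equiv.Perm (InfinitePlace L) :=
    ⟨fun w => w.comap (s : L →+* L), fun w => w.comap (s.symm : L →+* L),
      fun w => by simp [← InfinitePlace.comap_comp, InfinitePlace.comap_id],
      fun w => by simp [← InfinitePlace.comap_comp, InfinitePlace.comap_id]⟩
  have hf : ∀ (i : ℕ) w, (f ^ i) w = w.comap ((s ^ i : L ≃+* L) : L →+* L) := by
    intro i
    induction i with
    | zero => intro w; rfl
    | succ i ih => intro w; rw [pow_succ', Equiv.Perm.mul_apply, ih, pow_succ]; rfl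
  obtain ⟨ρ, e, he⟩ := US_orb f N (Equiv.ext fun w => by rw [hf, hs]; rfl)
    fun w i h => hfree w i (hf i w ▸ h)
  have hc : ρ * N = Fintype.card (InfinitePlace L) := by
    rw [← Fintype.card_congr e, Fintype.card_prod, Fintype.card_fin, ZMod.card]
  let E := LinearEquiv.funCongrLeft ℝ ℝ e
  have := US_abs (ρ := ρ) (N := N) (fun a => (sE a.1, a.2))
    ((E : (InfinitePlace L → ℝ) →+ _).comp (USlog L)) ?_ ?_ ?_ ?_
  · obtain ⟨π, h1, h2, h3⟩ := this
    exact ⟨ρ, hc, π, fun a k => h1 (a, k), h2, h3⟩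
  · rintro ⟨u, k⟩ j i
    change USlog L (Additive.ofMul (sE (Additive.ofMul u.toMul)).toMul, k) (e (j, i + 1)) =
      USlog L (Additive.ofMul u.toMul, k) (e (j, i))
    rw [USlog_apply, USlog_apply, ← he j i]
    congr 2
    · classical
      exact congrArg Nat.cast (if_congr (InfinitePlace.isReal_comap_iff s).symm rfl rfl)
    · exact congrArg (fun x => Real.log (e (j, i + 1) x)) (hsE _)
  · rw [AddMonoidHom.ker_comp_of_injective _ _ E.injective]
    exact US_ker L
  · rw [AddMonoidHom.coe_comp, Set.range_comp]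
    have := Submodule.span_image (R := ℝ) (s := Set.range (USlog L)) E.toLinearMap
    rw [US_span, Submodule.map_top, LinearEquiv.range] at this
    exact this
  · rw [US_rank, Units.finrank_eq, Units.rank, hc, Nat.sub_add_cancel Fintype.card_pos]

end Vale.Agent.P024U
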