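import Vale.Agent.P024U.Defs

/-! The valuation `val P`.  Existence of `IsVal P x q` for `x ≠ 0`: in the number field `K = ℚ⟮x⟯` (or any finite
intermediate field containing `x`) localise `𝓞 K` at the prime `p` below `P` (a DVR): `x = π^i u`, `ch P = π^e u'`, `e > 0`, so
`x^e / (ch P)^i` is a quotient of elements outside `p`.  Uniqueness: `IsU` is multiplicative and `ch P ^ k` is a unit only for
`k = 0`.  `val_nonneg_iff`: same DVR.  Ultrametric inequality from `val_nonneg_iff` applied to `y / x`. -/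

namespace Vale.Agent.P024U
open NumberField

instance Val_alg : Algebra.IsAlgebraic ℚ Om := AlgebraicClosure.isAlgebraic ℚ

theorem Val_natCast_mem (P : Pr) (n : ℕ) : (n : Oi) ∈ P.I ↔ ch P ∣ n := by
  rw [ch, ← ringChar.spec, ← Ideal.Quotient.eq_zero_iff_mem, map_natCast]

theorem ch_prime (P : Pr) : (ch P).Prime := by
  have := P.max
  refine CharP.char_prime_of_ne_zero (Oi ⧸ P.I) fun h => ?_
  have h1 : (P.I.comap (algebraMap ℤ Oi)).IsMaximal :=
    Ideal.isMaximal_comap_of_isIntegral_of_isMaximal P.I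
  obtain ⟨n, hn, h0⟩ := (Submodule.ne_bot_iff _).1 (Ring.ne_bot_of_isMaximal_of_not_isField h1
    Int.not_isField)
  have h2 : (n.natAbs : Oi) ∈ P.I := by
    have h3 : (n : Oi) ∈ P.I := by simpa using hn
    rcases Int.natAbs_eq_iff.1 (rfl : n.natAbs = n.natAbs) with h4 | h4
    · rwa [h4, Int.cast_natCast] at h3
    · rwa [h4, Int.cast_neg, neg_mem_iff, Int.cast_natCast] at h3
  rw [Val_natCast_mem, ch, h, zero_dvd_iff] at h2
  exact h0 (Int.natAbs_eq_zero.1 h2)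

theorem natCast_mem (P : Pr) (n : ℕ) : (n : Oi) ∈ P.I ↔ ch P ∣ n := Val_natCast_mem P n

theorem Val_smul_mem (g : Ga) (P : Pr) (x : Oi) : g • x ∈ (g • P).I ↔ x ∈ P.I := by
  rw [Pr.mem_smul, inv_smul_smul]

theorem ch_smul (g : Ga) (P : Pr) : ch (g • P) = ch P := by
  refine (Nat.prime_dvd_prime_iff_eq (ch_prime _) (ch_prime _)).1 ?_
  have h : g • (ch P : Oi) = ch P := map_natCast (MulSemiringAction.toRingHom Ga Oi g) _
  rw [← natCast_mem, ← h, Val_smul_mem, natCast_mem]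

theorem exists_pr (l : ℕ) (hl : l.Prime) : ∃ P : Pr, ch P = l := by
  have h1 : (Ideal.span {(l : ℤ)}).IsMaximal :=
    PrincipalIdealRing.isMaximal_of_irreducible (Nat.prime_iff_prime_int.1 hl).irreducible
  obtain ⟨Q, hQ, h⟩ := Ideal.exists_ideal_over_maximal_of_isIntegral (S := Oi)
    (Ideal.span {(l : ℤ)}) (by
      rw [(RingHom.injective_iff_ker_eq_bot _).1 (algebraMap ℤ Oi).injective_int]
      exact bot_le)
  refine ⟨⟨Q, hQ⟩, (Nat.prime_dvd_prime_iff_eq (ch_prime _) hl).1 ?_⟩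
  have h2 : (l : ℤ) ∈ Q.comap (algebraMap ℤ Oi) := h ▸ Ideal.mem_span_singleton_self _
  rw [← natCast_mem]
  simpa using h2

theorem Val_one_notMem (P : Pr) : (1 : Oi) ∉ P.I := (Ideal.ne_top_iff_one _).1 P.max.ne_top

theorem Val_mul_notMem {P : Pr} {a b : Oi} (ha : a ∉ P.I) (hb : b ∉ P.I) : a * b ∉ P.I :=
  fun h => (P.max.isPrime.mem_or_mem h).elim ha hb

theorem Val_coe_ne {P : Pr} {a : Oi} (ha : a ∉ P.I) : (a : Om) ≠ 0 := fun h =>
  ha (by rw [show a = 0 from RingOfIntegers.ext h]; exact zero_mem _)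

theorem Val_ch_ne (P : Pr) : (ch P : Om) ≠ 0 := Nat.cast_ne_zero.2 (ch_prime P).ne_zero

theorem Val_isU_coe {P : Pr} {a : Oi} (ha : a ∉ P.I) : IsU P (a : Om) :=
  ⟨a, 1, ha, Val_one_notMem P, by simp⟩

theorem Val_isU_one (P : Pr) : IsU P 1 := by simpa using Val_isU_coe (Val_one_notMem P)

theorem IsU.val_ne {P : Pr} {u : Om} (h : IsU P u) : u ≠ 0 := by
  rintro rfl
  obtain ⟨a, b, ha, -, h⟩ := h
  exact Val_coe_ne ha (by rw [← h, zero_mul])

theorem IsU.val_mul {P : Pr} {u v : Om} (h : IsU P u) (h' : IsU P v) : IsU P (u * v) := by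
  obtain ⟨a, b, ha, hb, h⟩ := h
  obtain ⟨c, d, hc, hd, h'⟩ := h'
  refine ⟨a * c, b * d, Val_mul_notMem ha hc, Val_mul_notMem hb hd, ?_⟩
  simp only [map_mul]
  linear_combination (v * (d : Om)) * h + (a : Om) * h'

theorem IsU.val_inv {P : Pr} {u : Om} (h : IsU P u) : IsU P u⁻¹ := by
  have h0 := h.val_ne
  obtain ⟨a, b, ha, hb, h⟩ := h
  exact ⟨b, a, hb, ha, by rw [← h, inv_mul_cancel_left₀ h0]⟩

theorem IsU.val_pow {P : Pr} {u : Om} (h : IsU P u) (n : ℕ) : IsU P (u ^ n) := by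
  induction n with
  | zero => simpa using Val_isU_one P
  | succ n ih => rw [pow_succ]; exact ih.val_mul h

theorem Val_isU_int {P : Pr} {x : Oi} (h : IsU P (x : Om)) : x ∉ P.I := by
  obtain ⟨a, b, ha, -, h⟩ := h
  have h1 : x * b = a := RingOfIntegers.ext (by simpa using h)
  exact fun hx => ha (h1 ▸ Ideal.mul_mem_right _ _ hx)

theorem Val_isU_ch {P : Pr} {k : ℤ} (h : IsU P ((ch P : Om) ^ k)) : k = 0 := by
  have h1 : ∀ n : ℕ, IsU P ((ch P : Om) ^ n) → n = 0 := by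
    intro n hn
    by_contra h0
    refine Val_isU_int (x := (ch P : Oi) ^ n) (by simpa using hn) ?_
    exact Ideal.pow_mem_of_mem _ ((natCast_mem P _).2 dvd_rfl) _ (Nat.pos_of_ne_zero h0)
  obtain ⟨n, rfl | rfl⟩ := Int.eq_nat_or_neg k
  · rw [h1 n (by simpa using h), Nat.cast_zero]
  · rw [h1 n (by simpa using h.val_inv), Nat.cast_zero, neg_zero]

theorem IsVal.val_ne {P : Pr} {x : Om} {q : ℚ} (h : IsVal P x q) : x ≠ 0 := by
  rintro rfl
  obtain ⟨n, hn, k, -, h⟩ := h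
  exact h.val_ne (by rw [zero_pow hn.ne', zero_div])

theorem IsVal.val_unique {P : Pr} {x : Om} {q q' : ℚ} (h : IsVal P x q) (h' : IsVal P x q') :
    q = q' := by
  have h0 := h.val_ne
  obtain ⟨n, hn, k, hk, h⟩ := h
  obtain ⟨n', hn', k', hk', h'⟩ := h'
  have hp := Val_ch_ne P
  have h1 := (h.val_pow n').val_mul (h'.val_pow n).val_inv
  have h2 : (x ^ n / (ch P : Om) ^ k) ^ n' * ((x ^ n' / (ch P : Om) ^ k') ^ n)⁻¹ =
      (ch P : Om) ^ (k' * n - k * n') := by
    rw [zpow_sub₀ hp, zpow_mul, zpow_mul, zpow_natCast, zpow_natCast, div_pow, div_pow, ← pow_mul,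
      ← pow_mul, mul_comm n' n]
    field_simp
  rw [h2] at h1
  have h3 : (k' : ℚ) * n - k * n' = 0 := by exact_mod_cast Val_isU_ch h1
  rw [hk, hk'] at h3
  have h4 : (n : ℚ) * n' ≠ 0 := by positivity
  exact mul_left_cancel₀ h4 (by linarith)

theorem IsVal.val_eq {P : Pr} {x : Om} {q : ℚ} (h : IsVal P x q) : val P x = q := by
  have h1 : ∃ q, IsVal P x q := ⟨q, h⟩
  rw [val, dif_pos h1]
  exact h1.choose_spec.val_unique h

theorem IsU.val_eq {P : Pr} {u : Om} (h : IsU P u) : val P u = 0 :=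
  IsVal.val_eq ⟨1, one_pos, 0, by simp, by simpa using h⟩

section

open IsDedekindDomain

variable (K : IntermediateField ℚ Om) (P : Pr)

/-- the prime of a subfield below `P` -/
noncomputable def Val_bel : HeightOneSpectrum (𝓞 K) where
  asIdeal := P.I.comap (algebraMap (𝓞 K) Oi)
  isPrime := by
    have := P.max
    exact Ideal.comap_isPrime _ _
  ne_bot := by
    refine (Submodule.ne_bot_iff _).2 ⟨(ch P : 𝓞 K), ?_, Nat.cast_ne_zero.2 (ch_prime P).ne_zero⟩
    rw [Ideal.mem_comap, map_natCast, natCast_mem]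

variable [NumberField K]

theorem Val_isU_of {x : K} (hx : (Val_bel K P).valuation K x = 1) : IsU P (x : Om) := by
  obtain ⟨n, d, h⟩ := (Val_bel K P).exists_primeCompl_mul_eq_of_integer x hx.le
  have h1 : ∀ a : 𝓞 K, (Val_bel K P).valuation K (algebraMap _ K a) = 1 ↔
      a ∉ (Val_bel K P).asIdeal := fun a => by
    rw [← (Val_bel K P).valuation_lt_one_iff_mem (K := K), not_lt]
    exact ⟨fun h => h.ge, fun h => le_antisymm ((Val_bel K P).valuation_le_one a) h⟩
  have h2 : n ∉ (Val_bel K P).asIdeal := by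
    rw [← h1, ← h, map_mul, hx, one_mul, h1]
    exact d.2
  exact ⟨algebraMap _ Oi n, algebraMap _ Oi d.1, h2, d.2, congrArg Subtype.val h⟩

theorem Val_log {x : K} (hx : x ≠ 0) :
    ∃ n : ℤ, (Val_bel K P).valuation K x = WithZero.exp (-n) :=
  ⟨-WithZero.log ((Val_bel K P).valuation K x), by
    rw [neg_neg, WithZero.exp_log ((Valuation.ne_zero_iff _).2 hx)]⟩

theorem Val_main : ∃ e : ℕ, e ≠ 0 ∧ ∀ (x : K) (n : ℤ),
    (Val_bel K P).valuation K x = WithZero.exp (-n) → IsVal P (x : Om) (n / e) := by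
  obtain ⟨n, hn⟩ := Val_log K P (x := (ch P : K)) (Nat.cast_ne_zero.2 (ch_prime P).ne_zero)
  have h2 : (Val_bel K P).valuation K (ch P : K) < 1 := by
    have h3 := ((Val_bel K P).valuation_lt_one_iff_mem (K := K) (ch P : 𝓞 K)).2 (by
      show _ ∈ Ideal.comap _ _
      rw [Ideal.mem_comap, map_natCast, natCast_mem])
    simpa using h3
  rw [hn, ← WithZero.exp_zero, WithZero.exp_lt_exp] at h2
  obtain ⟨e, rfl⟩ := Int.eq_ofNat_of_zero_le (show 0 ≤ n by omega)
  have he : 0 < e := by omega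
  refine ⟨e, he.ne', fun x i hx => ⟨e, he, i, by field_simp, ?_⟩⟩
  have h3 := Val_isU_of K P (x := x ^ e / (ch P : K) ^ i) (by
    rw [map_div₀, map_zpow₀, map_pow, hx, hn, ← WithZero.exp_zsmul, ← WithZero.exp_nsmul,
      div_eq_one_iff_eq WithZero.exp_ne_zero]
    congr 1
    simp [mul_comm])
  have h4 : ((x ^ e / (ch P : K) ^ i : K) : Om) = (x : Om) ^ e / (ch P : Om) ^ i := by
    refine (map_div₀ (algebraMap K Om) _ _).trans ?_
    rw [map_zpow₀, map_pow, map_natCast]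
    rfl
  rwa [h4] at h3

end

theorem Val_isVal (P : Pr) {x : Om} (hx : x ≠ 0) : IsVal P x (val P x) := by
  have h1 : FiniteDimensional ℚ (IntermediateField.adjoin ℚ {x}) :=
    IntermediateField.adjoin.finiteDimensional (Algebra.IsIntegral.isIntegral x)
  have h2 : NumberField (IntermediateField.adjoin ℚ {x}) := ⟨⟩
  obtain ⟨e, -, h⟩ := Val_main (IntermediateField.adjoin ℚ {x}) P
  obtain ⟨n, hn⟩ := Val_log _ P (x := ⟨x, IntermediateField.mem_adjoin_simple_self ℚ x⟩)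
    fun h => hx (congrArg Subtype.val h)
  have h3 := h _ _ hn
  rw [h3.val_eq]
  exact h3

theorem val_zero (P : Pr) : val P 0 = 0 := dif_neg fun ⟨_, h⟩ => h.val_ne rfl

theorem val_one (P : Pr) : val P 1 = 0 := (Val_isU_one P).val_eq

theorem val_mul (P : Pr) {x y : Om} (hx : x ≠ 0) (hy : y ≠ 0) :
    val P (x * y) = val P x + val P y := by
  obtain ⟨n, hn, k, hk, h⟩ := Val_isVal P hx
  obtain ⟨n', hn', k', hk', h'⟩ := Val_isVal P hy
  refine IsVal.val_eq ⟨n * n', mul_pos hn hn', k * n' + k' * n, ?_, ?_⟩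
  · push_cast
    rw [hk, hk']
    ring
  · have hp := Val_ch_ne P
    have h2 : (x * y) ^ (n * n') / (ch P : Om) ^ (k * n' + k' * n) =
        (x ^ n / (ch P : Om) ^ k) ^ n' * (y ^ n' / (ch P : Om) ^ k') ^ n := by
      rw [zpow_add₀ hp, zpow_mul, zpow_mul, zpow_natCast, zpow_natCast, div_pow, div_pow,
        ← pow_mul, ← pow_mul, mul_comm n' n, mul_pow, mul_div_mul_comm]
    rw [h2]
    exact (h.val_pow n').val_mul (h'.val_pow n)

theorem val_inv (P : Pr) (x : Om) : val P x⁻¹ = - val P x := by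
  rcases eq_or_ne x 0 with rfl | hx
  · simp [val_zero]
  have h := val_mul P hx (inv_ne_zero hx)
  rw [mul_inv_cancel₀ hx, val_one] at h
  linarith

theorem val_div (P : Pr) {x y : Om} (hx : x ≠ 0) (hy : y ≠ 0) :
    val P (x / y) = val P x - val P y := by
  rw [div_eq_mul_inv, val_mul P hx (inv_ne_zero hy), val_inv, sub_eq_add_neg]

theorem val_pow (P : Pr) (x : Om) (n : ℕ) : val P (x ^ n) = n * val P x := by
  rcases eq_or_ne x 0 with rfl | hx
  · rcases n with _ | n <;> simp [val_zero, val_one]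
  induction n with
  | zero => simp [val_one]
  | succ n ih =>
    rw [pow_succ, val_mul P (pow_ne_zero _ hx) hx, ih]
    push_cast
    ring

theorem val_neg (P : Pr) (x : Om) : val P (-x) = val P x := by
  have h := val_pow P (-x) 2
  rw [neg_sq, val_pow] at h
  push_cast at h
  linarith

theorem val_zpow (P : Pr) (x : Om) (n : ℤ) : val P (x ^ n) = n * val P x := by
  obtain ⟨n, rfl | rfl⟩ := Int.eq_nat_or_neg n
  · simp [val_pow]
  · simp [val_pow, val_inv]

theorem val_prod (P : Pr) {ι : Type*} (s : Finset ι) (x : ι → Om) (hx : ∀ i ∈ s, x i ≠ 0) :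
    val P (∏ i ∈ s, x i) = ∑ i ∈ s, val P (x i) := by
  classical
  induction s using Finset.induction_on with
  | empty => simp [val_one]
  | insert a s ha ih =>
    have h1 : ∀ i ∈ s, x i ≠ 0 := fun i hi => hx i (Finset.mem_insert_of_mem hi)
    rw [Finset.prod_insert ha, Finset.sum_insert ha, val_mul P (hx a (Finset.mem_insert_self _ _))
      (Finset.prod_ne_zero_iff.2 h1), ih h1]

theorem val_smul (g : Ga) (P : Pr) (x : Om) : val (g • P) (g x) = val P x := by
  rcases eq_or_ne x 0 with rfl | hx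
  · simp [val_zero]
  obtain ⟨n, hn, k, hk, a, b, ha, hb, h⟩ := Val_isVal P hx
  refine IsVal.val_eq ⟨n, hn, k, hk, g • a, g • b, by rwa [Val_smul_mem], by rwa [Val_smul_mem], ?_⟩
  rw [coe_smul_Oi, coe_smul_Oi, ← h, map_mul, map_div₀, map_pow, map_zpow₀, map_natCast, ch_smul]

theorem val_ch (P : Pr) : val P (ch P : Om) = 1 :=
  IsVal.val_eq ⟨1, one_pos, 1, by simp, by
    rw [pow_one, zpow_one, div_self (Val_ch_ne P)]; exact Val_isU_one P⟩

theorem val_natCast (P : Pr) (n : ℕ) : val P (n : Om) = padicValNat (ch P) n := by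
  rcases eq_or_ne n 0 with rfl | hn
  · simp [val_zero]
  have := Fact.mk (ch_prime P)
  obtain ⟨k, m, hm, rfl⟩ := Nat.exists_eq_pow_mul_and_not_dvd hn (ch P) (ch_prime P).ne_one
  have h0 : m ≠ 0 := right_ne_zero_of_mul hn
  have h1 : val P (m : Om) = 0 := by
    simpa using (Val_isU_coe (P := P) (a := (m : Oi)) (by rwa [natCast_mem])).val_eq
  rw [padicValNat.mul (left_ne_zero_of_mul hn) h0, padicValNat.prime_pow,
    padicValNat.eq_zero_of_not_dvd hm, Nat.cast_mul, Nat.cast_pow,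
    val_mul P (pow_ne_zero _ (Val_ch_ne P)) (Nat.cast_ne_zero.2 h0), val_pow, val_ch, h1]
  simp

theorem val_nonneg (P : Pr) (x : Oi) : 0 ≤ val P (x : Om) := by
  rcases eq_or_ne (x : Om) 0 with h | hx
  · rw [h, val_zero]
  obtain ⟨n, hn, k, hk, h⟩ := Val_isVal P hx
  by_contra hc
  have h1 : (k : ℚ) < 0 := hk ▸ mul_neg_of_pos_of_neg (by exact_mod_cast hn) (not_le.1 hc)
  obtain ⟨j, rfl⟩ := Int.exists_eq_neg_ofNat (show k ≤ 0 by exact_mod_cast h1.le)
  refine Val_isU_int (x := x ^ n * (ch P : Oi) ^ j) (by simpa using h) ?_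
  refine Ideal.mul_mem_left _ _ (Ideal.pow_mem_of_mem _ ((natCast_mem P _).2 dvd_rfl) _ ?_)
  simpa using h1

theorem val_nonneg_iff (P : Pr) (x : Om) :
    0 ≤ val P x ↔ ∃ a b : Oi, b ∉ P.I ∧ x * (b : Om) = (a : Om) := by
  rcases eq_or_ne x 0 with rfl | hx
  · exact ⟨fun _ => ⟨0, 1, Val_one_notMem P, by simp⟩, fun _ => (val_zero P).ge⟩
  refine ⟨fun h0 => ?_, fun ⟨a, b, hb, h⟩ => ?_⟩
  · obtain ⟨n, hn, k, hk, a, b, -, hb, h⟩ := Val_isVal P hx
    have h1 : (0 : ℚ) ≤ k := hk ▸ mul_nonneg (Nat.cast_nonneg n) h0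
    obtain ⟨j, rfl⟩ := Int.eq_ofNat_of_zero_le (show 0 ≤ k by exact_mod_cast h1)
    obtain ⟨n, rfl⟩ := Nat.exists_eq_add_one_of_ne_zero hn.ne'
    rw [zpow_natCast, div_mul_eq_mul_div, div_eq_iff (pow_ne_zero _ (Val_ch_ne P))] at h
    have h2 : (x * b) ^ (n + 1) = ((a * (ch P : Oi) ^ j * b ^ n : Oi) : Om) := by
      simp only [map_mul, map_pow, map_natCast]
      rw [← h]
      ring
    have h3 : IsIntegral ℤ (x * b) :=
      IsIntegral.of_pow hn (h2 ▸ RingOfIntegers.isIntegral_coe _)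
    exact ⟨⟨_, h3⟩, b, hb, rfl⟩
  · have h1 := val_nonneg P a
    rwa [← h, val_mul P hx (Val_coe_ne hb), (Val_isU_coe hb).val_eq, add_zero] at h1

theorem pos_iff_mem (P : Pr) (x : Oi) : Pos P (x : Om) ↔ x ∈ P.I := by
  refine ⟨fun h => ?_, fun h => ?_⟩
  · by_contra hx
    exact h.elim (Val_coe_ne hx) (Val_isU_coe hx).val_eq.not_gt
  · refine or_iff_not_imp_left.2 fun hx => (val_nonneg P x).lt_of_ne' fun h0 => ?_
    obtain ⟨n, hn, k, hk, h1⟩ := Val_isVal P hx
    rw [h0, mul_zero, Int.cast_eq_zero] at hk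
    exact Val_isU_int (x := x ^ n) (by simpa [hk] using h1) (Ideal.pow_mem_of_mem _ h _ hn)

theorem val_of_pow_eq_one (P : Pr) {z : Om} {n : ℕ} (hn : n ≠ 0) (hz : z ^ n = 1) : val P z = 0 := by
  have h := val_pow P z n
  rw [hz, val_one] at h
  exact (mul_eq_zero.1 h.symm).resolve_left (Nat.cast_ne_zero.2 hn)

theorem Val_min {P : Pr} {x y : Om} (hx : x ≠ 0) (hy : y ≠ 0) (h : val P x ≤ val P y)
    (h0 : x + y ≠ 0) : val P x ≤ val P (x + y) := by
  obtain ⟨a, b, hb, h1⟩ := (val_nonneg_iff P (y / x)).1 (by rw [val_div P hy hx]; linarith)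
  have h2 := (val_nonneg_iff P ((x + y) / x)).2 ⟨b + a, b, hb, by
    rw [add_div, div_self hx, add_mul, h1, one_mul]; rfl⟩
  rw [val_div P h0 hx] at h2
  linarith

theorem Sm.add {P : Pr} {q : ℚ} {x y : Om} (hx : Sm P q x) (hy : Sm P q y) : Sm P q (x + y) := by
  rcases eq_or_ne x 0 with rfl | hx0
  · rwa [zero_add]
  rcases eq_or_ne y 0 with rfl | hy0
  · rwa [add_zero]
  refine or_iff_not_imp_left.2 fun h0 => ?_
  rcases le_total (val P x) (val P y) with h | h
  · exact (hx.resolve_left hx0).trans (Val_min hx0 hy0 h h0)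
  · rw [add_comm] at h0 ⊢
    exact (hy.resolve_left hy0).trans (Val_min hy0 hx0 h h0)

theorem Sm.neg {P : Pr} {q : ℚ} {x : Om} (hx : Sm P q x) : Sm P q (-x) :=
  hx.imp neg_eq_zero.2 fun h => by rwa [val_neg]

theorem Sm.mul {P : Pr} {q q' : ℚ} {x y : Om} (hx : Sm P q x) (hy : Sm P q' y) :
    Sm P (q + q') (x * y) := by
  refine or_iff_not_imp_left.2 fun h0 => ?_
  have h1 := left_ne_zero_of_mul h0
  have h2 := right_ne_zero_of_mul h0
  rw [val_mul P h1 h2]
  exact add_le_add (hx.resolve_left h1) (hy.resolve_left h2)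

theorem Sm.mono {P : Pr} {q q' : ℚ} {x : Om} (h : q' ≤ q) (hx : Sm P q x) : Sm P q' x :=
  hx.imp_right h.trans

theorem Sm.sum {P : Pr} {q : ℚ} {ι : Type*} (s : Finset ι) (x : ι → Om)
    (hx : ∀ i ∈ s, Sm P q (x i)) : Sm P q (∑ i ∈ s, x i) :=
  Finset.sum_induction x (Sm P q) (fun _ _ => Sm.add) (Or.inl rfl) hx

theorem Sm.smul {P : Pr} {q : ℚ} {x : Om} (g : Ga) (hx : Sm P q x) : Sm (g • P) q (g x) :=
  hx.imp (fun h => by rw [h, map_zero]) fun h => by rwa [val_smul]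

theorem sm_val (P : Pr) (x : Om) : Sm P (val P x) x := Or.inr le_rfl

theorem Val_pos_iff {P : Pr} {x : Om} : Pos P x ↔ ∃ q, 0 < q ∧ Sm P q x :=
  ⟨fun h => h.elim (fun h => ⟨1, one_pos, Or.inl h⟩) fun h => ⟨_, h, sm_val P x⟩,
    fun ⟨_, hq, h⟩ => h.imp_right hq.trans_le⟩

theorem Pos.add {P : Pr} {x y : Om} (hx : Pos P x) (hy : Pos P y) : Pos P (x + y) := by
  obtain ⟨q, hq, h⟩ := Val_pos_iff.1 hx
  obtain ⟨q', hq', h'⟩ := Val_pos_iff.1 hy
  exact Val_pos_iff.2 ⟨_, lt_min hq hq', (h.mono (min_le_left _ _)).add (h'.mono (min_le_right _ _))⟩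

theorem Pos.mul_sm {P : Pr} {x y : Om} (hx : Pos P x) (hy : Sm P 0 y) : Pos P (x * y) := by
  obtain ⟨q, hq, h⟩ := Val_pos_iff.1 hx
  exact Val_pos_iff.2 ⟨q + 0, by rwa [add_zero], h.mul hy⟩

/-- strict ultrametric property -/
theorem val_add_of_lt {P : Pr} {x y : Om} (hx : x ≠ 0) (hy : y = 0 ∨ val P x < val P y) :
    x + y ≠ 0 ∧ val P (x + y) = val P x := by
  rcases eq_or_ne y 0 with rfl | hy0
  · rw [add_zero]
    exact ⟨hx, rfl⟩
  have h := hy.resolve_left hy0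
  have h0 : x + y ≠ 0 := fun h0 => by
    rw [eq_neg_of_add_eq_zero_right h0, val_neg] at h
    exact h.false
  refine ⟨h0, le_antisymm (not_lt.1 fun h1 => ?_) (Val_min hx hy0 h.le h0)⟩
  have h2 := ((sm_val P (x + y)).mono (min_le_left _ (val P y))).add
    ((sm_val P y).mono (min_le_right _ _)).neg
  rw [add_neg_cancel_right] at h2
  exact (lt_min h1 h).not_ge (h2.resolve_left hx)

end Vale.Agent.P024U
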