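import Vale.Agent.P024U.Val

/-! Global properties of the valuations.
`val_finite`: write `x = a / b` with `a, b` nonzero algebraic integers, each divides a nonzero natural number.
`isIntegral_of_val`: the ideal of denominators `{b | b x integral}` lies in no maximal ideal.
`approx`: `P ≠ Q` maximal, `u + v = 1`, `u ∈ P`, `v ∈ Q`; but `u, v` must be taken in the field: `hne` gives an integer of the
field lying in one prime and not the other; work in the number field generated by it and `a` (primes below `P`, `Q` are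
different maximal ideals), `b = a * v^k / (u^k + v^k) + u^k/(u^k+v^k)` for large `k`.
`pr_of_valuation`: extend `V` to a valuation subring `V'` of `Om` (`LocalSubring.exists_le_valuationSubring` applied to the image of `V`),
`Oi ≤ V'`, `Q = 𝔪_V' ∩ Oi` is a nonzero prime, hence maximal; if `0 < val Q x` then `x b = a` with `b ∉ Q`, `a ∈ Q`. -/

namespace Vale.Agent.P024U
open NumberField

theorem Val2_frac (x : Om) : ∃ (a : Oi) (n : ℕ), n ≠ 0 ∧ (a : Om) = n * x := by
  have h : IsAlgebraic ℤ x :=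
    (IsFractionRing.isAlgebraic_iff ℤ ℚ Om).2 ((AlgebraicClosure.isAlgebraic ℚ).isAlgebraic x)
  obtain ⟨y, hy, hi⟩ := h.exists_integral_multiple
  have h2 : IsIntegral ℤ ((y.natAbs : Om) * x) := by
    rcases Int.natAbs_eq y with e | e
    · rw [e, zsmul_eq_mul, Int.cast_natCast] at hi
      exact hi
    · rw [e, zsmul_eq_mul, Int.cast_neg, Int.cast_natCast, neg_mul] at hi
      simpa using hi.neg
  exact ⟨⟨_, h2⟩, y.natAbs, Int.natAbs_ne_zero.2 hy, rfl⟩

theorem Val2_sm0 (P : Pr) (x : Oi) : Sm P 0 (x : Om) := Or.inr (val_nonneg P x)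

theorem Val2_val_eq {P : Pr} {x : Oi} (h : x ∉ P.I) : (x : Om) ≠ 0 ∧ val P (x : Om) = 0 := by
  rw [← pos_iff_mem, Pos, not_or, not_lt] at h
  exact ⟨h.1, le_antisymm h.2 (val_nonneg P x)⟩

theorem Val2_le (x : Om) : ∃ n : ℕ, n ≠ 0 ∧ ∀ P : Pr, ¬ ch P ∣ n → 0 ≤ val P x := by
  obtain ⟨a, n, hn, e⟩ := Val2_frac x
  refine ⟨n, hn, fun P hP => (val_nonneg_iff P x).2 ⟨a, n, mt (natCast_mem P n).1 hP, ?_⟩⟩
  rw [e, mul_comm]
  rfl

theorem val_finite (x : Om) : {l | ∃ P : Pr, ch P = l ∧ val P x ≠ 0}.Finite := by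
  obtain ⟨n, hn, h1⟩ := Val2_le x
  obtain ⟨m, hm, h2⟩ := Val2_le x⁻¹
  refine (Finset.finite_toSet (n * m).divisors).subset ?_
  rintro l ⟨P, rfl, hP⟩
  rw [Finset.mem_coe, Nat.mem_divisors]
  refine ⟨?_, mul_ne_zero hn hm⟩
  by_contra h
  have h3 := h1 P fun h' => h (h'.mul_right m)
  have h4 := h2 P fun h' => h (h'.mul_left n)
  rw [val_inv] at h4
  exact hP (le_antisymm (by linarith) h3)

theorem isIntegral_of_val (x : Om) (h : ∀ P : Pr, 0 ≤ val P x) : IsIntegral ℤ x := by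
  let J : Ideal Oi :=
    { carrier := {b | IsIntegral ℤ (x * (b : Om))}
      zero_mem' := by simpa using isIntegral_zero
      add_mem' := fun {a b} ha hb => by
        have := IsIntegral.add ha hb
        rw [← mul_add] at this
        exact this
      smul_mem' := fun c b hb => by
        have := IsIntegral.mul c.2 hb
        rw [mul_left_comm] at this
        exact this }
  by_cases hJ : J = ⊤
  · have : (1 : Oi) ∈ J := hJ ▸ Submodule.mem_top
    have h1 : IsIntegral ℤ (x * ((1 : Oi) : Om)) := this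
    simpa using h1
  · obtain ⟨M, hM, hle⟩ := J.exists_le_maximal hJ
    obtain ⟨a, b, hb, e⟩ := (val_nonneg_iff ⟨M, hM⟩ x).1 (h _)
    refine absurd (hle ?_) hb
    change IsIntegral ℤ (x * (b : Om))
    rw [e]
    exact a.2

/-- divisibility by a natural number in terms of valuations -/
theorem dvd_iff_sm (n : ℕ) (hn : n ≠ 0) (x : Oi) :
    (n : Oi) ∣ x ↔ ∀ P : Pr, Sm P (padicValNat (ch P) n) (x : Om) := by
  have hn' : (n : Om) ≠ 0 := Nat.cast_ne_zero.2 hn
  constructor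
  · rintro ⟨c, rfl⟩ P
    have h := (sm_val P (n : Om)).mul (Val2_sm0 P c)
    rw [add_zero, val_natCast] at h
    simpa using h
  · intro h
    by_cases hx : (x : Om) = 0
    · have : x = 0 := Subtype.ext hx
      rw [this]
      exact dvd_zero _
    have h2 : IsIntegral ℤ ((x : Om) / n) := isIntegral_of_val _ fun P => by
      rw [val_div P hx hn', val_natCast, sub_nonneg]
      exact (h P).resolve_left hx
    refine ⟨⟨_, h2⟩, Subtype.ext ?_⟩
    change (x : Om) = ((n : Oi) : Om) * ((x : Om) / n)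
    rw [show ((n : Oi) : Om) = n from map_natCast (algebraMap Oi Om) n, mul_div_cancel₀ _ hn']

/-- a root of unity of order prime to the residue characteristic is not congruent to one -/
theorem root_eq_one {P : Pr} {z : Om} {n : ℕ} (hn : ¬ ch P ∣ n) (hz : z ^ n = 1)
    (h : Pos P (z - 1)) : z = 1 := by
  have hn0 : n ≠ 0 := fun h0 => hn (h0 ▸ dvd_zero _)
  have hi : IsIntegral ℤ z := IsIntegral.of_pow (Nat.pos_of_ne_zero hn0) (hz ▸ isIntegral_one)
  by_contra hne
  let Z : Oi := ⟨z, hi⟩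
  have h1 : Z - 1 ∈ P.I := (pos_iff_mem P _).1 h
  have h2 : Z ^ n = 1 := Subtype.ext hz
  have h3 : ∑ i ∈ Finset.range n, Z ^ i = 0 := by
    have := geom_sum_mul Z n
    rw [h2, sub_self] at this
    exact (mul_eq_zero.1 this).resolve_right fun h0 => hne (congrArg Subtype.val (sub_eq_zero.1 h0))
  have h4 : Ideal.Quotient.mk P.I Z = 1 := by
    rw [← map_one (Ideal.Quotient.mk P.I), Ideal.Quotient.eq]
    exact h1
  have h5 := congrArg (Ideal.Quotient.mk P.I) h3
  simp only [map_sum, map_pow, h4, one_pow, Finset.sum_const, Finset.card_range, nsmul_eq_mul,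
    mul_one, map_zero] at h5
  refine hn ((natCast_mem P n).1 ?_)
  rw [← Ideal.Quotient.eq_zero_iff_mem, map_natCast, h5]

theorem Val2_step {P : Pr} {z : Om} (h0 : Sm P 0 z) (h1 : z - 1 ≠ 0) (h2 : 1 < val P (z - 1)) :
    z ^ ch P - 1 ≠ 0 ∧ 1 < val P (z ^ ch P - 1) := by
  have hp : ∀ i : ℕ, Sm P 0 (z ^ i) := fun i => by
    induction i with
    | zero => exact Or.inr (by rw [pow_zero, val_one])
    | succ i ih => simpa [pow_succ] using ih.mul h0
  have h3 : ∀ i : ℕ, Sm P (val P (z - 1)) (z ^ i - 1) := fun i => by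
    rw [← mul_geom_sum]
    simpa using (sm_val P (z - 1)).mul (Sm.sum _ _ fun j _ => hp j)
  have hc : (ch P : Om) ≠ 0 := Nat.cast_ne_zero.2 (ch_prime P).ne_zero
  have h4 := val_add_of_lt (P := P) hc (y := ∑ i ∈ Finset.range (ch P), (z ^ i - 1)) (by
    rcases Sm.sum (Finset.range (ch P)) _ fun i _ => h3 i with h | h
    · exact Or.inl h
    · exact Or.inr (by rw [val_ch]; linarith))
  have e : (ch P : Om) + ∑ i ∈ Finset.range (ch P), (z ^ i - 1) =
      ∑ i ∈ Finset.range (ch P), z ^ i := by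
    rw [Finset.sum_sub_distrib]
    simp
  rw [e, val_ch] at h4
  rw [← mul_geom_sum]
  refine ⟨mul_ne_zero h1 h4.1, ?_⟩
  rw [val_mul P h1 h4.1, h4.2]
  linarith

/-- a root of unity very close to one is one -/
theorem root_eq_one' {P : Pr} {z : Om} {n : ℕ} (hn : n ≠ 0) (hz : z ^ n = 1)
    (h : z - 1 = 0 ∨ 1 < val P (z - 1)) : z = 1 := by
  by_contra hne
  have h1 : z - 1 ≠ 0 := sub_ne_zero.2 hne
  have h2 := h.resolve_left h1
  have key : ∀ k : ℕ, z ^ ch P ^ k - 1 ≠ 0 ∧ 1 < val P (z ^ ch P ^ k - 1) := fun k => by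
    induction k with
    | zero => simpa using ⟨h1, h2⟩
    | succ k ih =>
      rw [pow_succ, pow_mul]
      refine Val2_step (Or.inr ?_) ih.1 ih.2
      rw [val_pow, val_of_pow_eq_one P hn hz, mul_zero]
  obtain ⟨k, m, hm, rfl⟩ := Nat.exists_eq_pow_mul_and_not_dvd hn (ch P) (ch_prime P).ne_one
  rw [pow_mul] at hz
  exact (key k).1 (sub_eq_zero.2 (root_eq_one hm hz (Or.inr (by linarith [(key k).2]))))

/-- the residue field is algebraic over the prime field -/
theorem Val2_res (P : Pr) (a : Oi) (ha : a ∉ P.I) :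
    ∃ n : ℕ, n ≠ 0 ∧ ¬ ch P ∣ n ∧ a ^ n - 1 ∈ P.I := by
  have := P.max
  let := Ideal.Quotient.field P.I
  have hp : Fact (ch P).Prime := ⟨ch_prime P⟩
  have hc : CharP (Oi ⧸ P.I) (ch P) := ringChar.charP _
  let : Algebra (ZMod (ch P)) (Oi ⧸ P.I) := ZMod.algebra _ _
  have h1 : IsIntegral ℤ (Ideal.Quotient.mk P.I a) :=
    (RingOfIntegers.isIntegral a).map (Ideal.Quotient.mkₐ ℤ P.I)
  have h2 : IsIntegral (ZMod (ch P)) (Ideal.Quotient.mk P.I a) := h1.tower_top
  set K := IntermediateField.adjoin (ZMod (ch P)) {Ideal.Quotient.mk P.I a} with hK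
  have h3 : FiniteDimensional (ZMod (ch P)) K := IntermediateField.adjoin.finiteDimensional h2
  have h4 : Finite K := Module.finite_of_finite (ZMod (ch P))
  let := Fintype.ofFinite K
  have hcK : CharP K (ch P) := charP_of_injective_algebraMap' (ZMod (ch P)) _
  obtain ⟨m, -, hm⟩ := FiniteField.card K (ch P)
  let b : K := ⟨_, IntermediateField.mem_adjoin_simple_self _ _⟩
  have hb : b ≠ 0 := fun h => ha (Ideal.Quotient.eq_zero_iff_mem.1 (congrArg Subtype.val h))
  have h5 := congrArg Subtype.val (FiniteField.pow_card_sub_one_eq_one b hb)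
  have h6 : 1 < Fintype.card K := Fintype.one_lt_card
  refine ⟨Fintype.card K - 1, by omega, fun hd => ?_, ?_⟩
  · have h7 : ch P ∣ Fintype.card K := hm ▸ dvd_pow_self _ m.ne_zero
    have h8 := (Nat.dvd_sub h7 hd)
    rw [Nat.sub_sub_self h6.le] at h8
    exact (ch_prime P).not_dvd_one h8
  · rw [← Ideal.Quotient.eq, map_pow, map_one]
    simpa [b] using h5

theorem Val2_big {P : Pr} {y : Oi} (hy : y ∈ P.I) (M : ℚ) :
    ∃ k0 : ℕ, ∀ k ≥ k0, ∀ T : Oi, y ^ k ∣ T → Sm P M (T : Om) := by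
  rcases (pos_iff_mem P y).2 hy with h | h
  · refine ⟨1, fun k hk T hT => Or.inl ?_⟩
    have : y = 0 := Subtype.ext h
    rw [this, zero_pow (by omega), zero_dvd_iff] at hT
    rw [hT]
    rfl
  · refine ⟨⌈M / val P (y : Om)⌉₊, fun k hk T hT => ?_⟩
    obtain ⟨c, rfl⟩ := hT
    have h1 := (sm_val P ((y : Om) ^ k)).mul (Val2_sm0 P c)
    rw [add_zero, val_pow] at h1
    refine Sm.mono ?_ (by simpa using h1)
    rw [← div_le_iff₀ h]
    exact Nat.ceil_le.1 hk

theorem approx (L : IntermediateField ℚ Om) (P Q : Pr)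
    (hne : ∃ x : Oi, (x : Om) ∈ L ∧ ¬ (x ∈ P.I ↔ x ∈ Q.I)) (a : Om) (ha : a ∈ L) (M : ℚ) :
    ∃ b ∈ L, Sm P M (b - a) ∧ Sm Q M (b - 1) := by
  obtain ⟨u, huL, huP, huQ⟩ : ∃ u : Oi, (u : Om) ∈ L ∧ u ∈ P.I ∧ 1 - u ∈ Q.I := by
    obtain ⟨x, hxL, hx⟩ := hne
    by_cases h : x ∈ P.I
    · obtain ⟨n, hn, -, h2⟩ := Val2_res Q x fun h' => hx ⟨fun _ => h', fun _ => h⟩
      refine ⟨x ^ n, by simpa using L.pow_mem hxL n, P.I.pow_mem_of_mem h n (by omega), ?_⟩
      simpa using Q.I.neg_mem h2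
    · have h' : x ∈ Q.I := by
        by_contra h'
        exact hx ⟨fun h1 => absurd h1 h, fun h1 => absurd h1 h'⟩
      obtain ⟨n, hn, -, h2⟩ := Val2_res P x h
      refine ⟨1 - x ^ n, by simpa using L.sub_mem L.one_mem (L.pow_mem hxL n), ?_, ?_⟩
      · simpa using P.I.neg_mem h2
      · simpa using Q.I.pow_mem_of_mem h' n (by omega)
  obtain ⟨k1, h1⟩ := Val2_big huP (M - val P (1 - a))
  obtain ⟨k2, h2⟩ := Val2_big huQ (M - val Q (a - 1))
  set k := max k1 k2
  have d1 : u ^ k ∣ 1 - (1 - u ^ k) ^ k := by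
    simpa using sub_dvd_pow_sub_pow 1 (1 - u ^ k) k
  have d2 : (1 - u) ^ k ∣ (1 - u ^ k) ^ k :=
    pow_dvd_pow_of_dvd (by simpa using sub_dvd_pow_sub_pow 1 u k) k
  have s1 := (h1 k (le_max_left _ _) _ d1).mul (sm_val P (1 - a))
  have s2 := (h2 k (le_max_right _ _) _ d2).mul (sm_val Q (a - 1))
  rw [sub_add_cancel] at s1 s2
  refine ⟨a + (1 - (1 - (u : Om) ^ k) ^ k) * (1 - a), L.add_mem ha (L.mul_mem (L.sub_mem L.one_mem
    (pow_mem (L.sub_mem L.one_mem (pow_mem huL k)) k)) (L.sub_mem L.one_mem ha)), ?_, ?_⟩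
  · rw [add_sub_cancel_left]
    simpa using s1
  · rw [show a + (1 - (1 - (u : Om) ^ k) ^ k) * (1 - a) - 1 = (1 - (u : Om) ^ k) ^ k * (a - 1) by
      ring]
    simpa using s2

theorem pr_of_valuation (L : IntermediateField ℚ Om) (V : ValuationSubring L) (hV : V ≠ ⊤) :
    ∃ Q : Pr, ∀ x : L, Pos Q (x : Om) → V.valuation x < 1 := by
  obtain ⟨y, hy⟩ : ∃ y : L, y ∉ V := by
    by_contra h
    push Not at h
    exact hV (top_unique fun y _ => h y)
  have hy0 : y ≠ 0 := fun h => hy (h ▸ V.zero_mem)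
  have hyi : y⁻¹ ∈ V := (V.mem_or_inv_mem y).resolve_left hy
  let A : Subring Om := V.toSubring.map (algebraMap L Om)
  let w : A := ⟨algebraMap L Om y⁻¹, y⁻¹, hyi, rfl⟩
  obtain ⟨W, hAW, hw⟩ := Ideal.image_subset_nonunits_valuationSubring (A := A)
    (Ideal.span {w}) (by
      rw [Ne, Ideal.span_singleton_eq_top]
      intro hu
      obtain ⟨⟨_, z, hz, rfl⟩, e⟩ := hu.exists_right_inv
      have e2 : y⁻¹ * z = 1 := (algebraMap L Om).injective (by
        rw [map_mul, map_one]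
        exact congrArg Subtype.val e)
      rw [inv_mul_eq_one₀ hy0] at e2
      exact hy (e2 ▸ hz))
  have hw1 : W.valuation (algebraMap L Om y⁻¹) < 1 :=
    W.mem_nonunits_iff.1 (hw ⟨w, Ideal.mem_span_singleton_self w, rfl⟩)
  have hO : ∀ a : Oi, W.valuation (a : Om) ≤ 1 := fun a =>
    (Valuation.valuationSubring.integers W.valuation).mem_of_integral
      (RingOfIntegers.isIntegral_coe a).tower_top
  let I : Ideal Oi :=
    { carrier := {a | W.valuation (a : Om) < 1}
      zero_mem' := by simp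
      add_mem' := fun {a b} ha hb => W.valuation.map_add_lt ha hb
      smul_mem' := fun c b hb => by
        change W.valuation ((c : Om) * b) < 1
        rw [map_mul]
        exact mul_lt_of_le_one_of_lt (hO c) hb }
  have hI : ∀ a : Oi, a ∈ I ↔ W.valuation (a : Om) < 1 := fun a => Iff.rfl
  have hprime : I.IsPrime := ⟨fun h => by
      have := (hI 1).1 (h ▸ Submodule.mem_top)
      simp at this, fun {a b} h => by
      by_contra h'
      rw [not_or, hI, hI] at h'
      have ea := le_antisymm (hO a) (not_lt.1 h'.1)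
      have eb := le_antisymm (hO b) (not_lt.1 h'.2)
      have : W.valuation ((a : Om) * b) < 1 := (hI _).1 h
      rw [map_mul, ea, eb, one_mul] at this
      exact lt_irrefl _ this⟩
  have hne : I ≠ ⊥ := by
    obtain ⟨a, n, hn, e⟩ := Val2_frac (algebraMap L Om y⁻¹)
    intro h
    have h1 : a ∈ I := by
      rw [hI, e, map_mul]
      exact mul_lt_of_le_one_of_lt (by simp) hw1
    rw [h, Ideal.mem_bot] at h1
    rw [h1] at e
    exact mul_ne_zero (Nat.cast_ne_zero.2 hn) ((map_ne_zero _).2 (inv_ne_zero hy0)) e.symm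
  have : Ring.DimensionLEOne Oi := Ring.DimensionLEOne.of_isIntegral ℤ Oi
  refine ⟨⟨I, hprime.isMaximal hne⟩, fun x hx => ?_⟩
  by_cases hx0 : x = 0
  · simp [hx0]
  have hx1 : (x : Om) ≠ 0 := fun h => hx0 (Subtype.ext h)
  have hx2 := hx.resolve_left hx1
  obtain ⟨a, b, hb, e⟩ := (val_nonneg_iff _ _).1 hx2.le
  have ha : a ∈ I := (pos_iff_mem ⟨I, hprime.isMaximal hne⟩ a).1 (e ▸ hx.mul_sm (Val2_sm0 _ b))
  rw [hI, ← e, map_mul, le_antisymm (hO b) (not_lt.1 hb), mul_one] at ha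
  rw [← V.mem_nonunits_iff, V.mem_nonunits_iff_or]
  refine Or.inr fun h => ?_
  have h2 : (x : Om)⁻¹ ∈ W := hAW ⟨x⁻¹, h, by simp⟩
  exact ((W.mem_nonunits_iff_or.1 (W.mem_nonunits_iff.2 ha)).resolve_left hx1) h2

/-- the residue field is algebraic over the prime field: every unit is congruent to a root of unity -/
theorem pow_sub_one_pos (P : Pr) (x : Om) (hx : x ≠ 0) (h : val P x = 0) :
    ∃ n : ℕ, n ≠ 0 ∧ ¬ ch P ∣ n ∧ Pos P (x ^ n - 1) := by
  obtain ⟨a, b, hb, e⟩ := (val_nonneg_iff P x).1 h.ge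
  obtain ⟨hb0, hb1⟩ := Val2_val_eq hb
  have ha : a ∉ P.I := by
    rw [← pos_iff_mem, ← e, Pos, val_mul P hx hb0, h, hb1, add_zero]
    simp [hx, hb0]
  obtain ⟨n, hn, hn', h1⟩ := Val2_res P a ha
  obtain ⟨m, hm, hm', h2⟩ := Val2_res P b hb
  refine ⟨n * m, mul_ne_zero hn hm, fun hd => ((ch_prime P).dvd_mul.1 hd).elim hn' hm', ?_⟩
  have h3 : a ^ (n * m) - b ^ (n * m) ∈ P.I := by
    rw [← Ideal.Quotient.eq] at h1 h2 ⊢
    simp only [map_pow, map_one] at h1 h2 ⊢
    rw [pow_mul, h1, mul_comm, pow_mul, h2, one_pow, one_pow]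
  have h4 := ((pos_iff_mem P _).2 h3).mul_sm (y := ((b : Om) ^ (n * m))⁻¹)
    (Or.inr (by rw [val_inv, val_pow, hb1]; simp))
  convert h4 using 1
  simp only [map_sub, map_pow]
  rw [show (algebraMap Oi Om) a = x * b from e.symm]
  change _ = ((x * (b : Om)) ^ (n * m) - (b : Om) ^ (n * m)) * _
  field_simp
  ring

end Vale.Agent.P024U
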